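import Crest.Agent.R079.Glue_569

/-! R079, [AL3] of doc 2514 (helper204): GLUE (4D -> 3D) for an ARBITRARY kernel `Φ(z₀,z₁,z₂)` in the
frozen slot `j` (generalises `Glue.Lbox_atom`, `Glue.sum_norm_Lbox_atom_le`, where
`Φ = a(z₀,z₁) b(z₁,z₂) c(z₂,z₀)`). -/

set_option autoImplicit false

namespace Crest.Agent.R079.AL3_204

open Finset Crest.Agent.R079.Grid Crest.Agent.R079.Pot Crest.Agent.R079.Glue

/-- function on the line with kernel `Φ(z₀,z₁,z₂)` on `T 0 × T 1 × T 2` (slot `j`). -/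
noncomputable def katom (j : Fin 4) (κ : ℝ) (T : Fin 3 → Finset ℤ) (Φ : ℤ → ℤ → ℤ → ℂ)
    (y : ℤ) : ℂ :=
  (κ : ℂ) * ∑ z0 ∈ T 0, ∑ z1 ∈ T 1, ∑ z2 ∈ T 2,
    if cf j 0 * z0 + cf j 1 * z1 + cf j 2 * z2 = y then Φ z0 z1 z2 else 0

/-- the line letter of slot `k` with frozen variable `w` (slot `j`), variables of slots `e, f`. -/
def ltr (j k e f : Fin 4) (F : ℤ → ℂ) (w z z' : ℤ) : ℂ :=
  F ((sl j - sl k) * w + (sl e - sl k) * z + (sl f - sl k) * z')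

/-- integrand of the 3D form with frozen variable `w`:
`Φ(z₀,z₁,z₂) F_{k₂}(w,z₀,z₁) F_{k₀}(w,z₁,z₂) F_{k₁}(w,z₂,z₀)` on `T 0 × T 1 × T 2`. -/
noncomputable def KF (j : Fin 4) (T : Fin 3 → Finset ℤ) (Φ : ℤ → ℤ → ℤ → ℂ)
    (F : Fin 4 → ℤ → ℂ) (w z0 z1 z2 : ℤ) : ℂ :=
  if z0 ∈ T 0 ∧ z1 ∈ T 1 ∧ z2 ∈ T 2 then
    Φ z0 z1 z2 *
      (ltr j (j.succAbove 2) (j.succAbove 0) (j.succAbove 1) (F (j.succAbove 2)) w z0 z1 *
       ltr j (j.succAbove 0) (j.succAbove 1) (j.succAbove 2) (F (j.succAbove 0)) w z1 z2 *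
       ltr j (j.succAbove 1) (j.succAbove 2) (j.succAbove 0) (F (j.succAbove 1)) w z2 z0) else 0

/-- 3D box form of an arbitrary 3-variable function -/
noncomputable def LbK (G : ℤ → ℤ → ℤ → ℂ) (N : ℕ) (p0 p1 p2 : ℤ) : ℂ :=
  (1 / ((N : ℂ) + N) ^ 3) * ∑ i0 : Fin (N + N), ∑ i1 : Fin (N + N), ∑ i2 : Fin (N + N),
    ((hsg N i0 * hsg N i1 * hsg N i2 : ℝ) : ℂ) *
      G (p0 + ((i0 : ℕ) : ℤ)) (p1 + ((i1 : ℕ) : ℤ)) (p2 + ((i2 : ℕ) : ℤ))

/-- **[AL3] GLUE (identity)** for an arbitrary kernel in slot `j`. -/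
theorem Lbox_katom (j : Fin 4) (N : ℕ) (bb : ℤ) (κ : ℝ) (T : Fin 3 → Finset ℤ)
    (Φ : ℤ → ℤ → ℤ → ℂ) (F : Fin 4 → ℤ → ℂ) (hF : F j = katom j κ T Φ) (x : ℤ)
    (P : Finset (ℤ × ℤ × ℤ))
    (hP : ∀ t0 t1 t2 : Fin (N + N), ∀ z0 ∈ T 0, ∀ z1 ∈ T 1, ∀ z2 ∈ T 2,
      (z0 - ((t0 : ℕ) : ℤ), z1 - ((t1 : ℕ) : ℤ), z2 - ((t2 : ℕ) : ℤ)) ∈ P) :
    Lbox N bb F x = (κ : ℂ) * ∑ p ∈ P,
      if cf j 0 * p.1 + cf j 1 * p.2.1 + cf j 2 * p.2.2 = x - sl j * (bb * N) then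
        (1 / ((N : ℂ) + N)) * ∑ v : Fin (N + N), (hsg N v : ℂ) *
          LbK (KF j T Φ F (((v : ℕ) : ℤ) + bb * N - p.1 - p.2.1 - p.2.2)) N p.1 p.2.1 p.2.2
      else 0 := by
  classical
  have hL : Lbox N bb F x = (1 / ((N : ℂ) + N) ^ 4) * ∑ v : Fin (N + N), ∑ i0 : Fin (N + N),
      ∑ i1 : Fin (N + N), ∑ i2 : Fin (N + N), (κ : ℂ) * ∑ p ∈ P,
        if cf j 0 * p.1 + cf j 1 * p.2.1 + cf j 2 * p.2.2 = x - sl j * (bb * N) then
        ((hsg N v * (hsg N i0 * hsg N i1 * hsg N i2) : ℝ) : ℂ) *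
        KF j T Φ F (((v : ℕ) : ℤ) + bb * N - p.1 - p.2.1 - p.2.2)
            (p.1 + ((i0 : ℕ) : ℤ)) (p.2.1 + ((i1 : ℕ) : ℤ)) (p.2.2 + ((i2 : ℕ) : ℤ)) else 0 := by
    unfold Lbox
    rw [sum_box j]
    congr 1
    refine Finset.sum_congr rfl fun v _ => Finset.sum_congr rfl fun i0 _ =>
      Finset.sum_congr rfl fun i1 _ => Finset.sum_congr rfl fun i2 _ => ?_
    rw [Fin.prod_univ_succAbove _ j, Fin.prod_univ_succAbove _ j, Fin.prod_univ_three,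
      Fin.prod_univ_three]
    simp only [Fin.insertNth_apply_same, Fin.insertNth_apply_succAbove]
    simp only [Matrix.cons_val_zero, Matrix.cons_val_one, Matrix.cons_val]
    rw [hF]
    unfold katom
    rw [sum_shift3 T P ((i0 : ℕ) : ℤ) ((i1 : ℕ) : ℤ) ((i2 : ℕ) : ℤ)
      (fun z0 h0 z1 h1 z2 h2 => hP i0 i1 i2 z0 h0 z1 h1 z2 h2)]
    rw [show ∀ (X Y Z : ℂ), X * (((κ : ℂ) * Y) * Z) = (κ : ℂ) * (Y * (X * Z)) by
      intros; ring]
    congr 1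
    rw [Finset.sum_mul]
    refine Finset.sum_congr rfl fun p _ => ?_
    obtain ⟨p0, p1, p2⟩ := p
    simp only
    have hy : ∀ k : Fin 4, yv N bb x (j.insertNth (α := fun _ => Fin (N + N)) v ![i0, i1, i2]) k =
      x + ((sl j - sl k) * ((v : ℕ) : ℤ) + (sl (j.succAbove 0) - sl k) * ((i0 : ℕ) : ℤ) +
        (sl (j.succAbove 1) - sl k) * ((i1 : ℕ) : ℤ) +
        (sl (j.succAbove 2) - sl k) * ((i2 : ℕ) : ℤ)) - sl k * (bb * N) :=
      fun k => yv_insert j k N bb x v i0 i1 i2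
    have hc : cf j 0 * (p0 + ((i0 : ℕ) : ℤ)) + cf j 1 * (p1 + ((i1 : ℕ) : ℤ)) +
        cf j 2 * (p2 + ((i2 : ℕ) : ℤ)) =
        yv N bb x (j.insertNth (α := fun _ => Fin (N + N)) v ![i0, i1, i2]) j ↔
        cf j 0 * p0 + cf j 1 * p1 + cf j 2 * p2 = x - sl j * (bb * N) := by
      rw [hy j]
      unfold cf
      constructor
      · intro h; linear_combination h
      · intro h; linear_combination h
    rw [if_congr hc rfl rfl]
    by_cases hcond : cf j 0 * p0 + cf j 1 * p1 + cf j 2 * p2 = x - sl j * (bb * N)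
    · rw [if_pos hcond, if_pos hcond]
      have hx : x = cf j 0 * p0 + cf j 1 * p1 + cf j 2 * p2 + sl j * (bb * N) := by
        rw [hcond]; ring
      unfold KF ltr
      by_cases h : p0 + ((i0 : ℕ) : ℤ) ∈ T 0 ∧ p1 + ((i1 : ℕ) : ℤ) ∈ T 1 ∧
          p2 + ((i2 : ℕ) : ℤ) ∈ T 2
      · rw [if_pos h, if_pos h]
        have e0 : yv N bb x (j.insertNth (α := fun _ => Fin (N + N)) v ![i0, i1, i2])
            (j.succAbove 0) = (sl j - sl (j.succAbove 0)) *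
            (((v : ℕ) : ℤ) + bb * N - p0 - p1 - p2) +
            (sl (j.succAbove 1) - sl (j.succAbove 0)) * (p1 + ((i1 : ℕ) : ℤ)) +
            (sl (j.succAbove 2) - sl (j.succAbove 0)) * (p2 + ((i2 : ℕ) : ℤ)) := by
          rw [hy, hx]; unfold cf; ring
        have e1 : yv N bb x (j.insertNth (α := fun _ => Fin (N + N)) v ![i0, i1, i2])
            (j.succAbove 1) = (sl j - sl (j.succAbove 1)) *
            (((v : ℕ) : ℤ) + bb * N - p0 - p1 - p2) +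
            (sl (j.succAbove 2) - sl (j.succAbove 1)) * (p2 + ((i2 : ℕ) : ℤ)) +
            (sl (j.succAbove 0) - sl (j.succAbove 1)) * (p0 + ((i0 : ℕ) : ℤ)) := by
          rw [hy, hx]; unfold cf; ring
        have e2 : yv N bb x (j.insertNth (α := fun _ => Fin (N + N)) v ![i0, i1, i2])
            (j.succAbove 2) = (sl j - sl (j.succAbove 2)) *
            (((v : ℕ) : ℤ) + bb * N - p0 - p1 - p2) +
            (sl (j.succAbove 0) - sl (j.succAbove 2)) * (p0 + ((i0 : ℕ) : ℤ)) +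
            (sl (j.succAbove 1) - sl (j.succAbove 2)) * (p1 + ((i1 : ℕ) : ℤ)) := by
          rw [hy, hx]; unfold cf; ring
        rw [e0, e1, e2]
        push_cast
        ring
      · rw [if_neg h, if_neg h]
        ring
    · rw [if_neg hcond, if_neg hcond]
      simp
  rw [hL]
  have hR : ∀ p ∈ P, (if cf j 0 * p.1 + cf j 1 * p.2.1 + cf j 2 * p.2.2 = x - sl j * (bb * N) then
        (1 / ((N : ℂ) + N)) * ∑ v : Fin (N + N), (hsg N v : ℂ) *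
          LbK (KF j T Φ F (((v : ℕ) : ℤ) + bb * N - p.1 - p.2.1 - p.2.2)) N p.1 p.2.1 p.2.2
      else 0) = (1 / ((N : ℂ) + N) ^ 4) * ∑ v : Fin (N + N), ∑ i0 : Fin (N + N),
      ∑ i1 : Fin (N + N), ∑ i2 : Fin (N + N),
        if cf j 0 * p.1 + cf j 1 * p.2.1 + cf j 2 * p.2.2 = x - sl j * (bb * N) then
        ((hsg N v * (hsg N i0 * hsg N i1 * hsg N i2) : ℝ) : ℂ) *
        KF j T Φ F (((v : ℕ) : ℤ) + bb * N - p.1 - p.2.1 - p.2.2)
            (p.1 + ((i0 : ℕ) : ℤ)) (p.2.1 + ((i1 : ℕ) : ℤ)) (p.2.2 + ((i2 : ℕ) : ℤ)) else 0 := by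
    intro p _
    split_ifs with hcond
    · unfold LbK
      rw [show (1 / ((N : ℂ) + N) ^ 4) = (1 / ((N : ℂ) + N)) * (1 / ((N : ℂ) + N) ^ 3) by
        rw [pow_succ]; rw [one_div_mul_one_div_rev]]
      rw [mul_assoc]
      congr 1
      rw [Finset.mul_sum]
      refine Finset.sum_congr rfl fun v _ => ?_
      rw [← mul_assoc, mul_comm (hsg N v : ℂ) (1 / ((N : ℂ) + N) ^ 3), mul_assoc]
      congr 1
      rw [Finset.mul_sum]
      refine Finset.sum_congr rfl fun i0 _ => ?_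
      rw [Finset.mul_sum]
      refine Finset.sum_congr rfl fun i1 _ => ?_
      rw [Finset.mul_sum]
      refine Finset.sum_congr rfl fun i2 _ => ?_
      push_cast
      ring
    · simp
  rw [Finset.sum_congr rfl hR]
  rw [← Finset.mul_sum, mul_left_comm (κ : ℂ)]
  congr 1
  conv_rhs => rw [Finset.sum_comm, Finset.mul_sum]
  refine Finset.sum_congr rfl fun v _ => ?_
  conv_rhs => rw [Finset.sum_comm, Finset.mul_sum]
  refine Finset.sum_congr rfl fun i0 _ => ?_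
  conv_rhs => rw [Finset.sum_comm, Finset.mul_sum]
  refine Finset.sum_congr rfl fun i1 _ => ?_
  conv_rhs => rw [Finset.sum_comm, Finset.mul_sum]

/-- **[AL3] GLUE (inequality)** for an arbitrary kernel in slot `j`. -/
theorem sum_norm_Lbox_katom_le (j : Fin 4) (N : ℕ) (bb : ℤ) (κ : ℝ) (hκ : 0 ≤ κ)
    (T : Fin 3 → Finset ℤ) (Φ : ℤ → ℤ → ℤ → ℂ)
    (F : Fin 4 → ℤ → ℂ) (hF : F j = katom j κ T Φ) (S : Finset ℤ)
    (P : Finset (ℤ × ℤ × ℤ))
    (hP : ∀ t0 t1 t2 : Fin (N + N), ∀ z0 ∈ T 0, ∀ z1 ∈ T 1, ∀ z2 ∈ T 2,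
      (z0 - ((t0 : ℕ) : ℤ), z1 - ((t1 : ℕ) : ℤ), z2 - ((t2 : ℕ) : ℤ)) ∈ P) :
    ∑ x ∈ S, ‖Lbox N bb F x‖ ≤ κ * ∑ p ∈ P, (1 / ((N : ℝ) + N)) * ∑ v : Fin (N + N),
      ‖LbK (KF j T Φ F (((v : ℕ) : ℤ) + bb * N - p.1 - p.2.1 - p.2.2)) N p.1 p.2.1 p.2.2‖ := by
  classical
  set G : ℤ × ℤ × ℤ → ℝ := fun p => (1 / ((N : ℝ) + N)) * ∑ v : Fin (N + N),
      ‖LbK (KF j T Φ F (((v : ℕ) : ℤ) + bb * N - p.1 - p.2.1 - p.2.2)) N p.1 p.2.1 p.2.2‖ with hG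
  have hG0 : ∀ p, 0 ≤ G p := fun p => by
    simp only [hG]
    positivity
  have h1 : ∀ x ∈ S, ‖Lbox N bb F x‖ ≤ κ * ∑ p ∈ P,
      if cf j 0 * p.1 + cf j 1 * p.2.1 + cf j 2 * p.2.2 = x - sl j * (bb * N) then G p else 0 := by
    intro x _
    rw [Lbox_katom j N bb κ T Φ F hF x P hP, norm_mul, Complex.norm_real,
      Real.norm_of_nonneg hκ]
    refine mul_le_mul_of_nonneg_left ?_ hκ
    refine (norm_sum_le _ _).trans (Finset.sum_le_sum fun p _ => ?_)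
    split_ifs with hc
    · rw [norm_mul]
      simp only [hG]
      have e : ‖(1 / ((N : ℂ) + N))‖ = 1 / ((N : ℝ) + N) := by
        rw [norm_div, norm_one]
        congr 1
        rw [show (N : ℂ) + N = ((N + N : ℕ) : ℂ) by push_cast; ring, Complex.norm_natCast]
        push_cast
        ring
      rw [e]
      refine mul_le_mul_of_nonneg_left ?_ (by positivity)
      refine (norm_sum_le _ _).trans (Finset.sum_le_sum fun v _ => ?_)
      rw [norm_mul]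
      have e2 : ‖(hsg N v : ℂ)‖ = 1 := by
        rw [Complex.norm_real]
        unfold hsg
        split_ifs <;> simp
      rw [e2, one_mul]
    · simp
  refine (Finset.sum_le_sum h1).trans ?_
  rw [← Finset.mul_sum]
  refine mul_le_mul_of_nonneg_left ?_ hκ
  rw [Finset.sum_comm]
  refine Finset.sum_le_sum fun p _ => ?_
  have h2 : ∀ x ∈ S, (if cf j 0 * p.1 + cf j 1 * p.2.1 + cf j 2 * p.2.2 = x - sl j * (bb * N)
      then G p else 0) = if x = cf j 0 * p.1 + cf j 1 * p.2.1 + cf j 2 * p.2.2 + sl j * (bb * N)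
      then G p else 0 := by
    intro x _
    refine if_congr ⟨fun h => by rw [h]; ring, fun h => by rw [h]; ring⟩ rfl rfl
  rw [Finset.sum_congr rfl h2, Finset.sum_ite_eq']
  split_ifs
  · exact le_rfl
  · exact hG0 p

/-- adapter: the kernel of an atom `a(z₀,z₁) b(z₁,z₂) c(z₂,z₀)` -/
theorem atom_eq_katom (j : Fin 4) (κ : ℝ) (T : Fin 3 → Finset ℤ) (a b c : ℤ → ℤ → ℂ) :
    atom j κ T a b c = katom j κ T (fun z0 z1 z2 => a z0 z1 * b z1 z2 * c z2 z0) := rfl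

/-- adapter: when `KF` factorises into three edge kernels the 3D form is `Glue.Lb3`. -/
theorem LbK_eq_Lb3 (A B C : ℤ → ℤ → ℂ) (N : ℕ) (p0 p1 p2 : ℤ) :
    LbK (fun z0 z1 z2 => A z0 z1 * B z1 z2 * C z2 z0) N p0 p1 p2 = Lb3 A B C N p0 p1 p2 := rfl

/-- adapter: when the kernel of slot `j` is a labelled product (scalar product of vectors over a
finite index set), the 3D form is a sum of `Glue.Lb3`'s. -/
theorem LbK_sum {ι : Type*} (s : Finset ι) (A B C : ι → ℤ → ℤ → ℂ) (N : ℕ) (p0 p1 p2 : ℤ) :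
    LbK (fun z0 z1 z2 => ∑ t ∈ s, A t z0 z1 * B t z1 z2 * C t z2 z0) N p0 p1 p2 =
      ∑ t ∈ s, Lb3 (A t) (B t) (C t) N p0 p1 p2 := by
  unfold LbK Lb3
  rw [← Finset.mul_sum]
  congr 1
  conv_rhs => rw [Finset.sum_comm]
  refine Finset.sum_congr rfl fun i0 _ => ?_
  conv_rhs => rw [Finset.sum_comm]
  refine Finset.sum_congr rfl fun i1 _ => ?_
  conv_rhs => rw [Finset.sum_comm]
  refine Finset.sum_congr rfl fun i2 _ => ?_
  rw [Finset.mul_sum]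

end Crest.Agent.R079.AL3_204
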