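import Crest.Agent.R079.PIter_110

/-! R079, doc 2541 (673), (5): GRADED LOOK-AHEAD WINDOWS (helper110).

Uniform exit level `dp K` for the frames of every window, local smallness of `dev` at EVERY node of
the window, weighted number of windows `∑ len K * θ (lv K)` bounded, independently of the depth. -/

set_option autoImplicit false

namespace Crest.Agent.R079.GLA110

open Finset Crest.Agent.R079.Grid Crest.Agent.R079.Growth Crest.Agent.R079.QRed
  Crest.Agent.R079.TWin Crest.Agent.R079.Qe292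

open Classical in
/-- nodes of `R` below `P` of level `≥ d` -/
noncomputable def Wf (R : Finset Nd) (P : Nd) (d : ℕ) : Finset Nd :=
  R.filter (fun p => iv p ⊆ iv P ∧ d ≤ p.1)

open Classical in
/-- own drift below `P` strictly above level `d` (`D = 0` on the leaves of `R`) -/
noncomputable def la (R : Finset Nd) (D : Nd → ℝ) (P : Nd) (d : ℕ) : ℝ :=
  ∑ q ∈ R.filter (fun q => iv q ⊆ iv P ∧ d < q.1), len q * D q

lemma mem_Wf {R : Finset Nd} {P p : Nd} {d : ℕ} :
    p ∈ Wf R P d ↔ p ∈ R ∧ iv p ⊆ iv P ∧ d ≤ p.1 := by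
  unfold Wf
  rw [Finset.mem_filter]

lemma Wf_sub {R : Finset Nd} {P : Nd} {d : ℕ} : Wf R P d ⊆ R := fun _ hp => (mem_Wf.1 hp).1

lemma Wf_full {R : Finset Nd} {J : Nd} (hR : Full R J) {P : Nd} (hP : P ∈ R) {d : ℕ}
    (hd : d ≤ P.1) : Full (Wf R P d) P := by
  refine ⟨⟨fun p hp => (mem_Wf.1 hp).2.1, fun p hp q h1 h2 => ?_⟩, mem_Wf.2 ⟨hP, subset_rfl, hd⟩,
    fun m l hq => ?_⟩
  · have h := mem_Wf.1 hp
    exact mem_Wf.2 ⟨hR.reg.2 p h.1 q h1 (h2.trans (hR.reg.1 P hP)), h2, h.2.2.trans (Qe292.iv_level h1)⟩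
  · have h := mem_Wf.1 hq
    have hb := hR.bin m l h.1
    constructor
    · intro hc
      have h' := mem_Wf.1 hc
      exact mem_Wf.2 ⟨hb.1 h'.1, (sub_ch1 m l).trans h.2.1, h'.2.2⟩
    · intro hc
      have h' := mem_Wf.1 hc
      exact mem_Wf.2 ⟨hb.2 h'.1, (sub_ch0 m l).trans h.2.1, h'.2.2⟩

lemma la_nonneg {R : Finset Nd} {D : Nd → ℝ} (hD : ∀ q, 0 ≤ D q) (P : Nd) (d : ℕ) :
    0 ≤ la R D P d :=
  Finset.sum_nonneg fun q _ => mul_nonneg (Growth.len_pos q).le (hD q)

lemma la_top {R : Finset Nd} {D : Nd → ℝ} (P : Nd) : la R D P P.1 = 0 := by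
  unfold la
  refine Finset.sum_eq_zero fun q hq => ?_
  rw [Finset.mem_filter] at hq
  have := Qe292.iv_level hq.2.1
  omega

/-- superadditivity of the drift over disjoint node sets -/
lemma la_sum_le {R : Finset Nd} {D : Nd → ℝ} (hD : ∀ q, 0 ≤ D q) {P : Nd} {d : ℕ}
    (A : Finset Nd) (hA : ∀ c ∈ A, iv c ⊆ iv P)
    (hdis : ∀ c ∈ A, ∀ c' ∈ A, c ≠ c' → Disjoint (iv c) (iv c')) :
    ∑ c ∈ A, la R D c d ≤ la R D P d := by
  classical
  unfold la
  rw [← Finset.sum_biUnion]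
  · refine Finset.sum_le_sum_of_subset_of_nonneg ?_
      fun q _ _ => mul_nonneg (Growth.len_pos q).le (hD q)
    intro q hq
    obtain ⟨c, hc, hqc⟩ := Finset.mem_biUnion.1 hq
    rw [Finset.mem_filter] at hqc ⊢
    exact ⟨hqc.1, hqc.2.1.trans (hA c hc), hqc.2.2⟩
  · intro c hc c' hc' hne
    rw [Function.onFun, Finset.disjoint_left]
    intro q hq hq'
    rw [Finset.mem_filter] at hq hq'
    obtain ⟨y, hy⟩ := iv_nonempty q
    exact Finset.disjoint_left.1 (hdis c (by exact_mod_cast hc) c' (by exact_mod_cast hc') hne)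
      (hq.2.1 hy) (hq'.2.1 hy)

/-- drift above level `m` + drift between `d` and `m` in the nodes of level `m` -/
lemma la_split {R : Finset Nd} {D : Nd → ℝ} (hD : ∀ q, 0 ≤ D q) {P : Nd} {d m : ℕ}
    (hdm : d ≤ m) (A : Finset Nd) (hA : ∀ c ∈ A, iv c ⊆ iv P ∧ c.1 = m)
    (hdis : ∀ c ∈ A, ∀ c' ∈ A, c ≠ c' → Disjoint (iv c) (iv c')) :
    la R D P m + ∑ c ∈ A, la R D c d ≤ la R D P d := by
  classical
  have e : ∑ c ∈ A, la R D c d =
      ∑ q ∈ A.biUnion (fun c => R.filter (fun q => iv q ⊆ iv c ∧ d < q.1)), len q * D q := by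
    unfold la
    rw [Finset.sum_biUnion]
    intro c hc c' hc' hne
    rw [Function.onFun, Finset.disjoint_left]
    intro q hq hq'
    rw [Finset.mem_filter] at hq hq'
    obtain ⟨y, hy⟩ := iv_nonempty q
    exact Finset.disjoint_left.1 (hdis c (by exact_mod_cast hc) c' (by exact_mod_cast hc') hne)
      (hq.2.1 hy) (hq'.2.1 hy)
  rw [e]
  unfold la
  rw [← Finset.sum_union]
  · refine Finset.sum_le_sum_of_subset_of_nonneg ?_
      fun q _ _ => mul_nonneg (Growth.len_pos q).le (hD q)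
    intro q hq
    rw [Finset.mem_union] at hq
    rw [Finset.mem_filter]
    rcases hq with h | h
    · rw [Finset.mem_filter] at h
      exact ⟨h.1, h.2.1, lt_of_le_of_lt hdm h.2.2⟩
    · obtain ⟨c, hc, hqc⟩ := Finset.mem_biUnion.1 h
      rw [Finset.mem_filter] at hqc
      exact ⟨hqc.1, hqc.2.1.trans (hA c hc).1, hqc.2.2⟩
  · rw [Finset.disjoint_left]
    intro q h h'
    obtain ⟨c, hc, hqc⟩ := Finset.mem_biUnion.1 h'
    rw [Finset.mem_filter] at h hqc
    have h1 := Qe292.iv_level hqc.2.1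
    have h2 := (hA c hc).2
    omega

/-- a system of windows of the region `R'` (labels `lv`, `dp`; property `G`) -/
structure Sys (R' S : Finset Nd) (V : Nd → Finset Nd) (lv dp : Nd → ℕ)
    (G : Nd → Finset Nd → ℕ → ℕ → Prop) : Prop where
  sub : S ⊆ R'
  full : ∀ K ∈ S, Full (V K) K
  wsub : ∀ K ∈ S, V K ⊆ R'
  disj : ∀ K ∈ S, ∀ K' ∈ S, K ≠ K' → Disjoint (V K) (V K')
  cover : ∀ p ∈ R', ∃ K ∈ S, p ∈ V K
  good : ∀ K ∈ S, G K (V K) (lv K) (dp K)

/-- **ASSEMBLY** of one window with the systems of the next regions -/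
lemma assemble {R' W0 T : Finset Nd} {I : Nd} {Rg : Nd → Finset Nd} {j d : ℕ}
    {G : Nd → Finset Nd → ℕ → ℕ → Prop} (hW : Full W0 I) (hWs : W0 ⊆ R') (hG : G I W0 j d)
    (hRs : ∀ x ∈ T, Rg x ⊆ R') (hR0 : ∀ x ∈ T, Disjoint W0 (Rg x))
    (hRR : ∀ x ∈ T, ∀ x' ∈ T, x ≠ x' → Disjoint (Rg x) (Rg x'))
    (hcov : ∀ p ∈ R', p ∈ W0 ∨ ∃ x ∈ T, p ∈ Rg x)
    (S : Nd → Finset Nd) (V : Nd → Nd → Finset Nd) (lv dp : Nd → Nd → ℕ)
    (hS : ∀ x ∈ T, Sys (Rg x) (S x) (V x) (lv x) (dp x) G) (w : ℕ → ℝ) :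
    ∃ (S' : Finset Nd) (V' : Nd → Finset Nd) (lv' dp' : Nd → ℕ), Sys R' S' V' lv' dp' G ∧
      ∑ K ∈ S', len K * w (lv' K) ≤
        len I * w j + ∑ x ∈ T, ∑ K ∈ S x, len K * w (lv x K) := by
  classical
  let ow : Nd → Nd := fun K => if hex : ∃ x ∈ T, K ∈ S x then hex.choose else K
  have huniq : ∀ x ∈ T, ∀ x' ∈ T, ∀ q, q ∈ Rg x → q ∈ Rg x' → x = x' := by
    intro x hx x' hx' q h1 h2
    by_contra hne
    exact Finset.disjoint_left.1 (hRR x hx x' hx' hne) h1 h2
  have how : ∀ x ∈ T, ∀ K ∈ S x, ow K = x := by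
    intro x hx K hK
    have hex : ∃ x ∈ T, K ∈ S x := ⟨x, hx, hK⟩
    have e : ow K = hex.choose := by simp only [ow]; rw [dif_pos hex]
    rw [e]
    exact huniq _ hex.choose_spec.1 x hx K ((hS _ hex.choose_spec.1).sub hex.choose_spec.2)
      ((hS x hx).sub hK)
  have hneI : ∀ x ∈ T, ∀ K ∈ S x, K ≠ I := by
    rintro x hx K hK rfl
    exact Finset.disjoint_left.1 (hR0 x hx) hW.top ((hS x hx).sub hK)
  let V' : Nd → Finset Nd := fun K => if K = I then W0 else V (ow K) K
  let lv' : Nd → ℕ := fun K => if K = I then j else lv (ow K) K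
  let dp' : Nd → ℕ := fun K => if K = I then d else dp (ow K) K
  have hV1 : V' I = W0 := if_pos rfl
  have hV2 : ∀ x ∈ T, ∀ K ∈ S x, V' K = V x K := by
    intro x hx K hK
    simp only [V']
    rw [if_neg (hneI x hx K hK), how x hx K hK]
  have hl1 : lv' I = j := if_pos rfl
  have hl2 : ∀ x ∈ T, ∀ K ∈ S x, lv' K = lv x K := by
    intro x hx K hK
    simp only [lv']
    rw [if_neg (hneI x hx K hK), how x hx K hK]
  have hd1 : dp' I = d := if_pos rfl
  have hd2 : ∀ x ∈ T, ∀ K ∈ S x, dp' K = dp x K := by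
    intro x hx K hK
    simp only [dp']
    rw [if_neg (hneI x hx K hK), how x hx K hK]
  have hcase : ∀ K ∈ insert I (T.biUnion S), K = I ∨ ∃ x ∈ T, K ∈ S x := by
    intro K hK
    rcases Finset.mem_insert.1 hK with h | h
    · exact Or.inl h
    · obtain ⟨x, hx, hKx⟩ := Finset.mem_biUnion.1 h
      exact Or.inr ⟨x, hx, hKx⟩
  have hVI : ∀ x ∈ T, ∀ K ∈ S x, Disjoint W0 (V x K) := fun x hx K hK =>
    Finset.disjoint_of_subset_right ((hS x hx).wsub K hK) (hR0 x hx)
  refine ⟨insert I (T.biUnion S), V', lv', dp', ⟨?_, ?_, ?_, ?_, ?_, ?_⟩, ?_⟩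
  · intro K hK
    rcases hcase K hK with rfl | ⟨x, hx, hKx⟩
    · exact hWs hW.top
    · exact hRs x hx ((hS x hx).sub hKx)
  · intro K hK
    rcases hcase K hK with rfl | ⟨x, hx, hKx⟩
    · rw [hV1]; exact hW
    · rw [hV2 x hx K hKx]; exact (hS x hx).full K hKx
  · intro K hK
    rcases hcase K hK with rfl | ⟨x, hx, hKx⟩
    · rw [hV1]; exact hWs
    · rw [hV2 x hx K hKx]; exact ((hS x hx).wsub K hKx).trans (hRs x hx)
  · intro K hK K' hK' hne
    rcases hcase K hK with h | ⟨x, hx, hKx⟩ <;> rcases hcase K' hK' with h' | ⟨x', hx', hKx'⟩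
    · exact absurd (h.trans h'.symm) hne
    · rw [h, hV1, hV2 x' hx' K' hKx']
      exact hVI x' hx' K' hKx'
    · rw [h', hV1, hV2 x hx K hKx]
      exact (hVI x hx K hKx).symm
    · rw [hV2 x hx K hKx, hV2 x' hx' K' hKx']
      by_cases hxx : x = x'
      · subst hxx
        exact (hS x hx).disj K hKx K' hKx' hne
      · exact Finset.disjoint_of_subset_left ((hS x hx).wsub K hKx)
          (Finset.disjoint_of_subset_right ((hS x' hx').wsub K' hKx') (hRR x hx x' hx' hxx))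
  · intro p hp
    rcases hcov p hp with h | ⟨x, hx, hpx⟩
    · exact ⟨I, Finset.mem_insert_self _ _, by rw [hV1]; exact h⟩
    · obtain ⟨K, hK, hpK⟩ := (hS x hx).cover p hpx
      exact ⟨K, Finset.mem_insert_of_mem (Finset.mem_biUnion.2 ⟨x, hx, hK⟩),
        by rw [hV2 x hx K hK]; exact hpK⟩
  · intro K hK
    rcases hcase K hK with rfl | ⟨x, hx, hKx⟩
    · rw [hV1, hl1, hd1]; exact hG
    · rw [hV2 x hx K hKx, hl2 x hx K hKx, hd2 x hx K hKx]; exact (hS x hx).good K hKx
  · have hIn : I ∉ T.biUnion S := by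
      intro h
      obtain ⟨x, hx, hKx⟩ := Finset.mem_biUnion.1 h
      exact hneI x hx I hKx rfl
    rw [Finset.sum_insert hIn, hl1, Finset.sum_biUnion]
    · refine add_le_add le_rfl (Finset.sum_le_sum fun x hx => le_of_eq ?_)
      exact Finset.sum_congr rfl fun K hK => by rw [hl2 x hx K hK]
    · intro x hx x' hx' hne
      rw [Function.onFun, Finset.disjoint_left]
      intro K hK hK'
      exact hne (huniq x (by exact_mod_cast hx) x' (by exact_mod_cast hx') K
        ((hS x (by exact_mod_cast hx)).sub hK) ((hS x' (by exact_mod_cast hx')).sub hK'))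

/-- the property of a graded window: top `K`, node set `W`, grade `j`, exit level `d` -/
def Gd (R : Finset Nd) (D : Nd → ℝ) (dev : Nd → ℕ → Nd → ℝ) (θ : ℕ → ℝ) (n : ℕ) (K : Nd)
    (W : Finset Nd) (j d : ℕ) : Prop :=
  d ≤ K.1 ∧ W ⊆ Wf R K d ∧ la R D K d ≤ θ j * len K ∧ (∀ p ∈ W, dev K d p ≤ θ (j + 1)) ∧ j ≤ n

/-- ancestor of level `m` -/
lemma anc {p I : Nd} (h : iv p ⊆ iv I) {m : ℕ} (h1 : p.1 ≤ m) (h2 : m ≤ I.1) :
    ∃ q : Nd, q.1 = m ∧ iv p ⊆ iv q ∧ iv q ⊆ iv I := by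
  obtain ⟨j, hj⟩ := iv_sub_iff.1 h
  obtain ⟨i, rfl⟩ := Nat.exists_eq_add_of_le h1
  have e1 : I.1 = p.1 + j := by rw [hj]
  obtain ⟨k, hk⟩ : ∃ k, j = i + k := ⟨j - i, by omega⟩
  refine ⟨(p.1 + i, p.2 / 2 ^ i), rfl, iv_sub_iff.2 ⟨i, rfl⟩, iv_sub_iff.2 ⟨k, ?_⟩⟩
  rw [hj, hk]
  refine Prod.ext ?_ ?_
  · simp only; omega
  · simp only
    rw [L0e.ediv_pow_pow]

lemma eq_of_sub_level {x x' : Nd} (h : iv x ⊆ iv x') (hl : x.1 = x'.1) : x = x' := by
  obtain ⟨j, hj⟩ := iv_sub_iff.1 h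
  have e : j = 0 := by
    have := congrArg Prod.fst hj
    simp only at this
    omega
  subst e
  rw [hj]
  simp

/-- `∑_{i ≤ k} a ^ i` -/
noncomputable def As (a : ℝ) (k : ℕ) : ℝ := ∑ i ∈ Finset.range (k + 1), a ^ i

lemma As_zero (a : ℝ) : As a 0 = 1 := by simp [As]

lemma As_succ (a : ℝ) (k : ℕ) : As a (k + 1) = 1 + a * As a k := by
  unfold As
  rw [Finset.sum_range_succ', pow_zero, Finset.mul_sum, add_comm]
  congr 1
  exact Finset.sum_congr rfl fun i _ => by rw [pow_succ]; ring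

lemma As_nonneg {a : ℝ} (ha : 0 ≤ a) (k : ℕ) : 0 ≤ As a k :=
  Finset.sum_nonneg fun i _ => pow_nonneg ha i

/-- the recursion -/
theorem graded_rec {R : Finset Nd} {J : Nd} (hR : Full R J) {D : Nd → ℝ} (hD : ∀ q, 0 ≤ D q)
    {dev : Nd → ℕ → Nd → ℝ} {Cd η lam : ℝ} (hCd : 0 ≤ Cd) (hη : 0 < η) (hlam : 1 ≤ lam)
    (hlC : Cd ≤ lam) (h0 : ∀ P d p, 0 ≤ dev P d p)
    (h1 : ∀ P ∈ R, ∀ d ≤ P.1, ∀ A ⊆ Wf R P d,
      (∀ c ∈ A, ∀ c' ∈ A, c ≠ c' → Disjoint (iv c) (iv c')) →
      ∑ p ∈ A, len p * dev P d p ≤ Cd * la R D P d)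
    (n : ℕ) (h2 : ∀ P ∈ R, ∀ d ≤ P.1, ∀ p ∈ Wf R P d, dev P d p ≤ lam ^ (n + 1) * η) :
    ∀ (N : ℕ) (I : Nd), I ∈ R → I.1 < N → ∀ d ≤ I.1, ∀ j ≤ n,
      ∃ (S : Finset Nd) (V : Nd → Finset Nd) (lv dp : Nd → ℕ),
        Sys (Wf R I d) S V lv dp (Gd R D dev (fun i => lam ^ i * η) n) ∧
        ∑ K ∈ S, len K * (lam ^ (lv K) * η) ≤
          As (2 * Cd + 1) (n - j) * (lam ^ j * η * len I + la R D I d) := by
  classical
  intro N
  induction N with
  | zero => intro I _ h; omega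
  | succ N ih =>
    intro I hI hN d hd j hj
    have hlam0 : 0 ≤ lam := by linarith
    have hlI := Growth.len_pos I
    -- the exit level
    have hex : ∃ d', d ≤ d' ∧ la R D I d' ≤ lam ^ j * η * len I :=
      ⟨I.1, hd, by rw [la_top]; positivity⟩
    obtain ⟨d', hdd, hla, hmin⟩ : ∃ d', d ≤ d' ∧ la R D I d' ≤ lam ^ j * η * len I ∧
        ∀ m, m < d' → ¬ (d ≤ m ∧ la R D I m ≤ lam ^ j * η * len I) :=
      ⟨Nat.find hex, (Nat.find_spec hex).1, (Nat.find_spec hex).2, fun m hm => Nat.find_min hex hm⟩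
    have hdI : d' ≤ I.1 := by
      by_contra hcon
      push Not at hcon
      exact hmin I.1 hcon ⟨hd, by rw [la_top]; positivity⟩
    set δ : ℝ := lam ^ (j + 1) * η with hδ
    have hδ0 : 0 ≤ δ := by positivity
    have hVf := Wf_full hR hI hdI
    set V : Finset Nd := Wf R I d' with hV
    have hIV : I ∈ V := hVf.top
    set g : Nd → Nd → ℝ := fun _ p => dev I d' p with hg
    set W0 : Finset Nd := Wd V g δ I with hW0
    set T2 : Finset Nd := Tp V g δ I with hT2
    set T1 : Finset Nd := R.filter (fun q => iv q ⊆ iv I ∧ q.1 + 1 = d' ∧ d ≤ q.1) with hT1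
    have mT1 : ∀ {x}, x ∈ T1 ↔ x ∈ R ∧ iv x ⊆ iv I ∧ x.1 + 1 = d' ∧ d ≤ x.1 := by
      intro x
      rw [hT1, Finset.mem_filter]
    have mT2 : ∀ {x}, x ∈ T2 → x ∈ R ∧ iv x ⊆ iv I ∧ d' ≤ x.1 ∧ x.1 < I.1 := by
      intro x hx
      have h := mem_Tp.1 hx
      have h' := mem_Wf.1 h.1
      exact ⟨h'.1, h'.2.1, h'.2.2, Tp_level hIV hx⟩
    set Rg : Nd → Finset Nd := fun x => if x.1 < d' then Wf R x d else Wf R x d' with hRg
    have Rg1 : ∀ x ∈ T1, Rg x = Wf R x d := by
      intro x hx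
      have h := mT1.1 hx
      simp only [hRg]
      rw [if_pos (by omega)]
    have Rg2 : ∀ x ∈ T2, Rg x = Wf R x d' := by
      intro x hx
      have h := mT2 hx
      simp only [hRg]
      rw [if_neg (by omega)]
    -- `T2` is empty at the last grade
    have hTn : j = n → T2 = ∅ := by
      intro hjn
      rw [Finset.eq_empty_iff_forall_notMem]
      intro c hc
      have hs := Tp_sib hVf hc
      have hc1 := h2 I hI d' hdI c (mem_Tp.1 hc).1
      have hc2 := h2 I hI d' hdI (sib c) (mem_Tp.1 hs).1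
      rw [← hjn] at hc1 hc2
      rcases Tp_bad hc with h | h
      · exact absurd h (not_lt.2 hc1)
      · exact absurd h (not_lt.2 hc2)
    -- systems of the next regions
    have hsys : ∀ x : Nd, ∃ (S : Finset Nd) (V : Nd → Finset Nd) (lv dp : Nd → ℕ), x ∈ T1 ∪ T2 →
        (Sys (Rg x) S V lv dp (Gd R D dev (fun i => lam ^ i * η) n) ∧
        (x ∈ T1 → ∑ K ∈ S, len K * (lam ^ (lv K) * η) ≤
          As (2 * Cd + 1) (n - j) * (lam ^ j * η * len x + la R D x d)) ∧
        (x ∈ T2 → ∑ K ∈ S, len K * (lam ^ (lv K) * η) ≤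
          As (2 * Cd + 1) (n - (j + 1)) * (lam ^ (j + 1) * η * len x + la R D x d'))) := by
      intro x
      by_cases hx1 : x ∈ T1
      · have h := mT1.1 hx1
        obtain ⟨S, V, lv, dp, a, b⟩ := ih x h.1 (by omega) d h.2.2.2 j hj
        refine ⟨S, V, lv, dp, fun _ => ⟨by rw [Rg1 x hx1]; exact a, fun _ => b, fun hx2 => ?_⟩⟩
        have h' := mT2 hx2
        omega
      · by_cases hx2 : x ∈ T2
        · have h := mT2 hx2
          have hjn : j + 1 ≤ n := by
            by_contra hcon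
            have : j = n := by omega
            rw [hTn this] at hx2
            exact absurd hx2 (Finset.notMem_empty x)
          obtain ⟨S, V, lv, dp, a, b⟩ := ih x h.1 (by omega) d' h.2.2.1 (j + 1) hjn
          exact ⟨S, V, lv, dp, fun _ => ⟨by rw [Rg2 x hx2]; exact a, fun h' => absurd h' hx1,
            fun _ => b⟩⟩
        · exact ⟨∅, fun _ => ∅, fun _ => 0, fun _ => 0, fun h =>
            absurd h (by rw [Finset.mem_union]; tauto)⟩
    choose S Vw lv dp hS using hsys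
    have hW0V : W0 ⊆ V := Wd_sub
    have hVR : V ⊆ Wf R I d := fun p hp => by
      have h := mem_Wf.1 hp
      exact mem_Wf.2 ⟨h.1, h.2.1, hdd.trans h.2.2⟩
    have hgood : Gd R D dev (fun i => lam ^ i * η) n I W0 j d' := by
      refine ⟨hdI, hW0V, hla, fun p hp => ?_, hj⟩
      by_cases hpI : p = I
      · rw [hpI]
        have h := h1 I hI d' hdI {I} (Finset.singleton_subset_iff.2 hIV) (by
          intro c hc c' hc' hne
          exact absurd ((Finset.mem_singleton.1 hc).trans (Finset.mem_singleton.1 hc').symm) hne)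
        rw [Finset.sum_singleton] at h
        have h3 : Cd * la R D I d' ≤ lam * (lam ^ j * η * len I) :=
          mul_le_mul hlC hla (la_nonneg hD I d') hlam0
        have h4 : len I * dev I d' I ≤ len I * (lam ^ (j + 1) * η) := by
          calc len I * dev I d' I ≤ lam * (lam ^ j * η * len I) := h.trans h3
            _ = len I * (lam ^ (j + 1) * η) := by rw [pow_succ]; ring
        exact le_of_mul_le_mul_left h4 hlI
      · have h := mem_Wd.1 hp
        exact (h.2.2 p h.1 subset_rfl h.2.1 hpI).1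
    obtain ⟨S', V', lv', dp', hSys, hsum⟩ := assemble (R' := Wf R I d) (W0 := W0) (T := T1 ∪ T2)
      (I := I) (Rg := Rg) (j := j) (d := d') (G := Gd R D dev (fun i => lam ^ i * η) n)
      (Wd_full hVf hIV) (hW0V.trans hVR) hgood (by
        intro x hx
        rcases Finset.mem_union.1 hx with h | h
        · rw [Rg1 x h]
          intro p hp
          have h' := mem_Wf.1 hp
          exact mem_Wf.2 ⟨h'.1, h'.2.1.trans (mT1.1 h).2.1, h'.2.2⟩
        · rw [Rg2 x h]
          intro p hp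
          have h' := mem_Wf.1 hp
          exact mem_Wf.2 ⟨h'.1, h'.2.1.trans (mT2 h).2.1, hdd.trans h'.2.2⟩) (by
        intro x hx
        rw [Finset.disjoint_left]
        intro p hp hpx
        have hpV := mem_Wf.1 (hW0V hp)
        rcases Finset.mem_union.1 hx with h | h
        · rw [Rg1 x h] at hpx
          have h' := mem_Wf.1 hpx
          have h'' := Qe292.iv_level h'.2.1
          have h3 := (mT1.1 h).2.2.1
          omega
        · rw [Rg2 x h] at hpx
          have h' := mem_Wf.1 hpx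
          exact (mem_Tp.1 h).2.2.1 (Wd_up hVf hIV hp h'.2.1 (mT2 h).2.1)) (by
        intro x hx x' hx' hne
        rw [Finset.disjoint_left]
        intro p hp hp'
        rcases Finset.mem_union.1 hx with h | h <;> rcases Finset.mem_union.1 hx' with h' | h'
        · rw [Rg1 x h] at hp
          rw [Rg1 x' h'] at hp'
          have a := (mem_Wf.1 hp).2.1
          have b := (mem_Wf.1 hp').2.1
          have e1 := (mT1.1 h).2.2.1
          have e2 := (mT1.1 h').2.2.1
          rcases sub_total a b with c | c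
          · exact hne (eq_of_sub_level c (by omega))
          · exact hne (eq_of_sub_level c (by omega)).symm
        · rw [Rg1 x h] at hp
          rw [Rg2 x' h'] at hp'
          have a := Qe292.iv_level (mem_Wf.1 hp).2.1
          have b := (mem_Wf.1 hp').2.2
          have e1 := (mT1.1 h).2.2.1
          omega
        · rw [Rg2 x h] at hp
          rw [Rg1 x' h'] at hp'
          have a := Qe292.iv_level (mem_Wf.1 hp').2.1
          have b := (mem_Wf.1 hp).2.2
          have e1 := (mT1.1 h').2.2.1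
          omega
        · rw [Rg2 x h] at hp
          rw [Rg2 x' h'] at hp'
          exact hne (Tp_disj hVf hIV h h' (mem_Wf.1 hp).2.1 (mem_Wf.1 hp').2.1)) (by
        intro p hp
        have h := mem_Wf.1 hp
        by_cases hpd : d' ≤ p.1
        · have hpV : p ∈ V := mem_Wf.2 ⟨h.1, h.2.1, hpd⟩
          by_cases hw : p ∈ W0
          · exact Or.inl hw
          · have hl := Qe292.iv_level h.2.1
            obtain ⟨c, hc, hpc⟩ := below_top hVf hIV (I.1 - p.1) p (by omega) hpV h.2.1 hw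
            refine Or.inr ⟨c, Finset.mem_union_right _ hc, ?_⟩
            rw [Rg2 c hc]
            exact mem_Wf.2 ⟨h.1, hpc, hpd⟩
        · push Not at hpd
          obtain ⟨q, hq1, hq2, hq3⟩ := anc h.2.1 (m := d' - 1) (by omega) (by omega)
          have hqT : q ∈ T1 := mT1.2 ⟨hR.reg.2 p h.1 q hq2 (hq3.trans (hR.reg.1 I hI)), hq3,
            by omega, by have := h.2.2; omega⟩
          refine Or.inr ⟨q, Finset.mem_union_left _ hqT, ?_⟩
          rw [Rg1 q hqT]
          exact mem_Wf.2 ⟨h.1, hq2, h.2.2⟩)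
      S Vw lv dp (fun x hx => (hS x hx).1) (fun i => lam ^ i * η)
    refine ⟨S', V', lv', dp', hSys, hsum.trans ?_⟩
    -- the sum
    have hA0 : ∀ k, 0 ≤ As (2 * Cd + 1) k := fun k => As_nonneg (by positivity) k
    have hdT : Disjoint T1 T2 := by
      rw [Finset.disjoint_left]
      intro x hx hx'
      have a := (mT1.1 hx).2.2.1
      have b := (mT2 hx').2.2.1
      omega
    rw [Finset.sum_union hdT]
    have disT1 : ∀ c ∈ T1, ∀ c' ∈ T1, c ≠ c' → Disjoint (iv c) (iv c') := by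
      intro c hc c' hc' hne
      rw [Finset.disjoint_left]
      intro y hy hy'
      have e1 := (mT1.1 hc).2.2.1
      have e2 := (mT1.1 hc').2.2.1
      rcases iv_nest hy hy' with h | h
      · exact hne (eq_of_sub_level h (by omega))
      · exact hne (eq_of_sub_level h (by omega)).symm
    have disT2 : ∀ c ∈ T2, ∀ c' ∈ T2, c ≠ c' → Disjoint (iv c) (iv c') := by
      intro c hc c' hc' hne
      rw [Finset.disjoint_left]
      intro y hy hy'
      rcases iv_nest hy hy' with h | h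
      · exact hne (Tp_disj hVf hIV hc hc' subset_rfl h)
      · exact hne (Tp_disj hVf hIV hc hc' h subset_rfl)
    have s1 : ∑ x ∈ T1, ∑ K ∈ S x, len K * (lam ^ (lv x K) * η) ≤
        As (2 * Cd + 1) (n - j) * la R D I d := by
      by_cases hne : T1 = ∅
      · rw [hne, Finset.sum_empty]
        exact mul_nonneg (hA0 _) (la_nonneg hD I d)
      · obtain ⟨x₀, hx₀⟩ := Finset.nonempty_iff_ne_empty.2 hne
        have hx := mT1.1 hx₀
        have hm := hmin x₀.1 (by omega)
        have hm' : lam ^ j * η * len I < la R D I x₀.1 := by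
          by_contra hcon
          push Not at hcon
          exact hm ⟨hx.2.2.2, hcon⟩
        have a1 : ∑ x ∈ T1, ∑ K ∈ S x, len K * (lam ^ (lv x K) * η) ≤
            ∑ x ∈ T1, As (2 * Cd + 1) (n - j) * (lam ^ j * η * len x + la R D x d) :=
          Finset.sum_le_sum fun x hx => (hS x (Finset.mem_union_left _ hx)).2.1 hx
        rw [← Finset.mul_sum, Finset.sum_add_distrib, ← Finset.mul_sum] at a1
        have a2 : ∑ x ∈ T1, len x ≤ len I :=
          sum_len_disj T1 I (fun c hc => (mT1.1 hc).2.1) disT1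
        have a3 := la_split (R := R) hD hx.2.2.2 T1 (P := I) (fun c hc => ⟨(mT1.1 hc).2.1, by
          have := (mT1.1 hc).2.2.1
          omega⟩) disT1
        have a4 : lam ^ j * η * ∑ x ∈ T1, len x ≤ lam ^ j * η * len I :=
          mul_le_mul_of_nonneg_left a2 (by positivity)
        refine a1.trans (mul_le_mul_of_nonneg_left ?_ (hA0 _))
        linarith
    have s2 : len I * (lam ^ j * η) + ∑ x ∈ T2, ∑ K ∈ S x, len K * (lam ^ (lv x K) * η) ≤
        As (2 * Cd + 1) (n - j) * (lam ^ j * η * len I) := by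
      by_cases hjn : j = n
      · rw [hTn hjn, Finset.sum_empty, hjn, Nat.sub_self, As_zero]
        linarith
      · obtain ⟨k, hk⟩ : ∃ k, n - j = k + 1 := ⟨n - j - 1, by omega⟩
        have hk' : n - (j + 1) = k := by omega
        rw [hk, As_succ]
        have a1 : ∑ x ∈ T2, ∑ K ∈ S x, len K * (lam ^ (lv x K) * η) ≤
            ∑ x ∈ T2, As (2 * Cd + 1) k * (lam ^ (j + 1) * η * len x + la R D x d') :=
          Finset.sum_le_sum fun x hx => by
            have := (hS x (Finset.mem_union_right _ hx)).2.2 hx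
            rwa [hk'] at this
        rw [← Finset.mul_sum, Finset.sum_add_distrib, ← Finset.mul_sum] at a1
        have a2 : ∑ x ∈ T2, la R D x d' ≤ la R D I d' :=
          la_sum_le hD T2 (fun c hc => (mT2 hc).2.1) disT2
        have a3 : δ * ∑ x ∈ T2, len x ≤ 2 * (Cd * la R D I d') := by
          have b1 := h1 I hI d' hdI T2 (fun c hc => (mem_Tp.1 hc).1) disT2
          have b2 : ∑ c ∈ T2, len c * (g I c + g I (sib c)) = 2 * ∑ c ∈ T2, len c * dev I d' c := by
            have e1 := sum_Tp_sib (g := g) (δ := δ) (I := I) hVf (fun c => len c * g I c)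
            simp only [len_sib] at e1
            simp only [mul_add, Finset.sum_add_distrib]
            rw [e1]
            simp only [hg]
            ring
          have b3 : δ * ∑ x ∈ T2, len x ≤ ∑ c ∈ T2, len c * (g I c + g I (sib c)) := by
            rw [Finset.mul_sum]
            refine Finset.sum_le_sum fun c hc => ?_
            have hb : δ ≤ g I c + g I (sib c) := by
              rcases Tp_bad hc with h | h
              · linarith [h0 I d' (sib c)]
              · linarith [h0 I d' c]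
            have := mul_le_mul_of_nonneg_left hb (Growth.len_pos c).le
            linarith
          rw [b2] at b3
          linarith
        have a4 : As (2 * Cd + 1) k *
            (lam ^ (j + 1) * η * ∑ x ∈ T2, len x + ∑ x ∈ T2, la R D x d') ≤
            As (2 * Cd + 1) k * ((2 * Cd + 1) * (lam ^ j * η * len I)) := by
          refine mul_le_mul_of_nonneg_left ?_ (hA0 _)
          have c1 : (2 * Cd + 1) * la R D I d' ≤ (2 * Cd + 1) * (lam ^ j * η * len I) :=
            mul_le_mul_of_nonneg_left hla (by positivity)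
          linarith
        have a5 := a1.trans a4
        have e : (1 + (2 * Cd + 1) * As (2 * Cd + 1) k) * (lam ^ j * η * len I) =
            len I * (lam ^ j * η) + As (2 * Cd + 1) k * ((2 * Cd + 1) * (lam ^ j * η * len I)) := by
          ring
        rw [e]
        linarith
    have e : As (2 * Cd + 1) (n - j) * (lam ^ j * η * len I + la R D I d) =
        As (2 * Cd + 1) (n - j) * (lam ^ j * η * len I) +
        As (2 * Cd + 1) (n - j) * la R D I d := by ring
    rw [e]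
    linarith

/-- a system is a `Part` (crude count constant) -/
lemma Sys.part {R' S : Finset Nd} {V : Nd → Finset Nd} {lv dp : Nd → ℕ}
    {G : Nd → Finset Nd → ℕ → ℕ → Prop} (h : Sys R' S V lv dp G) :
    Part R' S V (∑ K ∈ S, len K) := by
  refine ⟨h.sub, h.full, h.wsub, h.disj, h.cover, fun p _ => ?_⟩
  have h1 : ∑ K ∈ S.filter (fun K => iv K ⊆ iv p), len K ≤ ∑ K ∈ S, len K :=
    Finset.sum_le_sum_of_subset_of_nonneg (Finset.filter_subset _ _)
      fun K _ _ => (Growth.len_pos K).le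
  have h2 : (1 : ℝ) ≤ len p := by
    unfold len
    exact_mod_cast Nat.one_le_two_pow
  have h3 : 0 ≤ ∑ K ∈ S, len K := Finset.sum_nonneg fun K _ => (Growth.len_pos K).le
  nlinarith

/-- **GRADED LOOK-AHEAD WINDOWS** (doc 2541 (5)) on the whole region -/
theorem graded {R : Finset Nd} {J : Nd} (hR : Full R J) {D : Nd → ℝ} (hD : ∀ q, 0 ≤ D q)
    {dev : Nd → ℕ → Nd → ℝ} {Cd η lam : ℝ} (hCd : 0 ≤ Cd) (hη : 0 < η) (hlam : 1 ≤ lam)
    (hlC : Cd ≤ lam) (h0 : ∀ P d p, 0 ≤ dev P d p)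
    (h1 : ∀ P ∈ R, ∀ d ≤ P.1, ∀ A ⊆ Wf R P d,
      (∀ c ∈ A, ∀ c' ∈ A, c ≠ c' → Disjoint (iv c) (iv c')) →
      ∑ p ∈ A, len p * dev P d p ≤ Cd * la R D P d)
    (n : ℕ) (h2 : ∀ P ∈ R, ∀ d ≤ P.1, ∀ p ∈ Wf R P d, dev P d p ≤ lam ^ (n + 1) * η) :
    ∃ (S : Finset Nd) (V : Nd → Finset Nd) (lv dp : Nd → ℕ),
      Part R S V (∑ K ∈ S, len K) ∧
      (∀ K ∈ S, dp K ≤ K.1 ∧ V K ⊆ Wf R K (dp K) ∧ la R D K (dp K) ≤ lam ^ (lv K) * η * len K ∧
        (∀ p ∈ V K, dev K (dp K) p ≤ lam ^ (lv K + 1) * η) ∧ lv K ≤ n) ∧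
      ∑ K ∈ S, len K * (lam ^ (lv K) * η) ≤ As (2 * Cd + 1) n * (η * len J + la R D J 0) ∧
      ∑ K ∈ S, len K ≤ As (2 * Cd + 1) n * (len J + la R D J 0 / η) := by
  obtain ⟨S, V, lv, dp, hs, hw⟩ := graded_rec hR hD hCd hη hlam hlC h0 h1 n h2 (J.1 + 1) J hR.top
    (Nat.lt_succ_self _) 0 (Nat.zero_le _) 0 (Nat.zero_le _)
  have e : Wf R J 0 = R := by
    ext p
    rw [mem_Wf]
    exact ⟨fun h => h.1, fun h => ⟨h, hR.reg.1 p h, Nat.zero_le _⟩⟩
  rw [e] at hs
  rw [Nat.sub_zero, pow_zero, one_mul] at hw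
  refine ⟨S, V, lv, dp, hs.part, fun K hK => hs.good K hK, hw, ?_⟩
  have h3 : η * ∑ K ∈ S, len K ≤ ∑ K ∈ S, len K * (lam ^ (lv K) * η) := by
    rw [Finset.mul_sum]
    refine Finset.sum_le_sum fun K _ => ?_
    have h4 : 1 ≤ lam ^ (lv K) := one_le_pow₀ hlam
    have h5 : η ≤ lam ^ (lv K) * η := by nlinarith
    have := mul_le_mul_of_nonneg_left h5 (Growth.len_pos K).le
    linarith
  have h6 : η * ∑ K ∈ S, len K ≤
      η * (As (2 * Cd + 1) n * (len J + la R D J 0 / η)) := by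
    refine (h3.trans hw).trans (le_of_eq ?_)
    field_simp
  exact le_of_mul_le_mul_left h6 hη

/-- `dev` = local averages of a function `E P d ≥ 0`: only the energy at the top is needed -/
theorem h1_of_top {R : Finset Nd} {D : Nd → ℝ} {E : Nd → ℕ → ℤ → ℝ} (hE : ∀ P d y, 0 ≤ E P d y)
    {Cd : ℝ} (hT : ∀ P ∈ R, ∀ d ≤ P.1, ∑ y ∈ iv P, E P d y ≤ Cd * la R D P d) :
    ∀ P ∈ R, ∀ d ≤ P.1, ∀ A ⊆ Wf R P d,
      (∀ c ∈ A, ∀ c' ∈ A, c ≠ c' → Disjoint (iv c) (iv c')) →
      ∑ p ∈ A, len p * ((∑ y ∈ iv p, E P d y) / len p) ≤ Cd * la R D P d := by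
  classical
  intro P hP d hd A hA hdis
  have e : ∑ p ∈ A, len p * ((∑ y ∈ iv p, E P d y) / len p) = ∑ y ∈ A.biUnion iv, E P d y := by
    rw [Finset.sum_biUnion (fun c hc c' hc' hne => hdis c (by exact_mod_cast hc) c'
      (by exact_mod_cast hc') hne)]
    refine Finset.sum_congr rfl fun p _ => ?_
    have := (Growth.len_pos p).ne'
    field_simp
  rw [e]
  refine le_trans (Finset.sum_le_sum_of_subset_of_nonneg ?_ fun y _ _ => hE P d y) (hT P hP d hd)
  exact Finset.biUnion_subset.2 fun p hp => (mem_Wf.1 (hA hp)).2.1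

end Crest.Agent.R079.GLA110
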