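import Crest.Agent.R079.Chn_110
import Crest.Agent.R079.GLA_110

/-! R079, Step I: ALMOST UNIFORM WINDOWS (helper110).

Stop rule `dev K p ≤ δ` of the OWN top, cut at one depth `dp K` such that the stops above the cut
(spots) have total length `≤ μ * len K`.  Number of windows `≤ 2 + 2 P₀ / (μ δ)` per unit length:
the drift inside a spot is never charged. -/

set_option autoImplicit false

namespace Crest.Agent.R079.AU110

open Finset Crest.Agent.R079.Grid Crest.Agent.R079.Growth Crest.Agent.R079.QRed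
  Crest.Agent.R079.TWin Crest.Agent.R079.Qe292 Crest.Agent.R079.Qh249
  Crest.Agent.R079.GLA110 Crest.Agent.R079.Chn110

/-- total length of the spots of level `≥ d` -/
noncomputable def sp (R : Finset Nd) (dev : Nd → Nd → ℝ) (δ : ℝ) (K : Nd) (d : ℕ) : ℝ :=
  ∑ c ∈ Tp (Wf R K d) dev δ K, len c

/-- property of an almost uniform window -/
def Au (R : Finset Nd) (dev : Nd → Nd → ℝ) (δ μ : ℝ) (K : Nd) (W : Finset Nd) (_ d : ℕ) : Prop :=
  d ≤ K.1 ∧ W = Wd (Wf R K d) dev δ K ∧ (∀ p ∈ W, dev K p ≤ δ) ∧ sp R dev δ K d ≤ μ * len K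

variable {R : Finset Nd} {J : Nd} {D : Nd → ℝ} {dev : Nd → Nd → ℝ} {P₀ δ μ : ℝ}

/-- the stops pay at least half of the threshold -/
lemma half_stops {V : Finset Nd} {I : Nd} (hV : Full V I) (hg0 : ∀ I p, 0 ≤ dev I p) :
    δ / 2 * ∑ c ∈ Tp V dev δ I, len c ≤ ∑ c ∈ Tp V dev δ I, len c * dev I c := by
  classical
  have e : ∑ c ∈ Tp V dev δ I, len c * dev I c
      = 1 / 2 * ∑ c ∈ Tp V dev δ I, len c * (dev I c + dev I (sib c)) := by
    have e1 := sum_Tp_sib (g := dev) (δ := δ) (I := I) hV (fun c => len c * dev I c)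
    simp only [len_sib] at e1
    simp only [mul_add, Finset.sum_add_distrib]
    rw [e1]
    ring
  rw [e, Finset.mul_sum, Finset.mul_sum]
  refine Finset.sum_le_sum fun c hc => ?_
  have hb := Tp_bad hc
  have hsum : δ ≤ dev I c + dev I (sib c) := by
    rcases hb with h | h
    · linarith [hg0 I (sib c)]
    · linarith [hg0 I c]
  have := mul_le_mul_of_nonneg_left hsum (Growth.len_pos c).le
  linarith

theorem au_rec (hR : Full R J) (h : Fld R D dev P₀) (hδ : 0 < δ) (hμ : 0 < μ) (hμ2 : μ ≤ 1 / 2) :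
    ∀ (N : ℕ) (I : Nd), I ∈ R → I.1 < N →
      ∃ (S : Finset Nd) (V : Nd → Finset Nd) (lv dp : Nd → ℕ),
        Sys (Wf R I 0) S V lv dp (Au R dev δ μ) ∧
        ∑ K ∈ S, len K * (1 : ℝ) ≤ 2 * len I + 2 / (μ * δ) * dr R D I := by
  classical
  intro N
  induction N with
  | zero => intro I _ h; omega
  | succ N ih =>
    intro I hI hN
    have hlI := Growth.len_pos I
    have hV0 : ∀ m ≤ I.1, Full (Wf R I m) I := fun m hm => Wf_full hR hI hm
    -- the exit level
    have htop : sp R dev δ I I.1 ≤ μ * len I := by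
      have : Tp (Wf R I I.1) dev δ I = ∅ := by
        rw [Finset.eq_empty_iff_forall_notMem]
        intro c hc
        have h1 := Tp_level (hV0 I.1 le_rfl).top hc
        have h2 := (mem_Wf.1 (mem_Tp.1 hc).1).2.2
        omega
      unfold sp
      rw [this, Finset.sum_empty]
      positivity
    have hex : ∃ m, sp R dev δ I m ≤ μ * len I := ⟨I.1, htop⟩
    obtain ⟨d', hla, hmin⟩ : ∃ d', sp R dev δ I d' ≤ μ * len I ∧
        ∀ m, m < d' → ¬ sp R dev δ I m ≤ μ * len I :=
      ⟨Nat.find hex, Nat.find_spec hex, fun m hm => Nat.find_min hex hm⟩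
    have hdI : d' ≤ I.1 := by
      by_contra hcon
      push Not at hcon
      exact hmin I.1 hcon htop
    have hVf := hV0 d' hdI
    set V : Finset Nd := Wf R I d' with hV
    have hIV : I ∈ V := hVf.top
    set W0 : Finset Nd := Wd V dev δ I with hW0
    set T2 : Finset Nd := Tp V dev δ I with hT2
    set T1 : Finset Nd := R.filter (fun q => iv q ⊆ iv I ∧ q.1 + 1 = d' ∧ par q ∈ W0) with hT1
    have mT1 : ∀ {x}, x ∈ T1 ↔ x ∈ R ∧ iv x ⊆ iv I ∧ x.1 + 1 = d' ∧ par x ∈ W0 := by
      intro x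
      rw [hT1, Finset.mem_filter]
    have mT2 : ∀ {x}, x ∈ T2 → x ∈ R ∧ iv x ⊆ iv I ∧ d' ≤ x.1 ∧ x.1 < I.1 := by
      intro x hx
      have h := mem_Tp.1 hx
      have h' := mem_Wf.1 h.1
      exact ⟨h'.1, h'.2.1, h'.2.2, Tp_level hIV hx⟩
    have mT : ∀ {x}, x ∈ T1 ∪ T2 → x ∈ R ∧ iv x ⊆ iv I ∧ x.1 < I.1 := by
      intro x hx
      rcases Finset.mem_union.1 hx with h | h
      · have := mT1.1 h
        exact ⟨this.1, this.2.1, by omega⟩
      · have := mT2 h
        exact ⟨this.1, this.2.1, this.2.2.2⟩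
    have hsys : ∀ x : Nd, ∃ (S : Finset Nd) (V : Nd → Finset Nd) (lv dp : Nd → ℕ), x ∈ T1 ∪ T2 →
        (Sys (Wf R x 0) S V lv dp (Au R dev δ μ) ∧
        ∑ K ∈ S, len K * (1 : ℝ) ≤ 2 * len x + 2 / (μ * δ) * dr R D x) := by
      intro x
      by_cases hx : x ∈ T1 ∪ T2
      · have h := mT hx
        obtain ⟨S, V, lv, dp, a, b⟩ := ih x h.1 (by omega)
        exact ⟨S, V, lv, dp, fun _ => ⟨a, b⟩⟩
      · exact ⟨∅, fun _ => ∅, fun _ => 0, fun _ => 0, fun h => absurd h hx⟩
    choose S Vw lv dp hS using hsys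
    have hW0V : W0 ⊆ V := Wd_sub
    have hW0R : W0 ⊆ R := hW0V.trans Wf_sub
    have hup : ∀ {p q : Nd}, p ∈ W0 → iv p ⊆ iv q → iv q ⊆ iv I → q ∈ W0 := fun hp h1 h2 =>
      Wd_up hVf hIV hp h1 h2
    -- disjointness of the tops
    have hTT : ∀ x ∈ T1 ∪ T2, ∀ x' ∈ T1 ∪ T2, ∀ p : Nd, iv p ⊆ iv x → iv p ⊆ iv x' → x = x' := by
      have key : ∀ x ∈ T1, ∀ x' ∈ T2, ∀ p : Nd, iv p ⊆ iv x → iv p ⊆ iv x' → False := by
        intro x hx x' hx' p h1 h2
        have a := mT1.1 hx
        have b := mT2 hx'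
        have hxx : iv x ⊆ iv x' := by
          rcases sub_total h1 h2 with c | c
          · exact c
          · have := Qe292.iv_level c
            omega
        have hne : x ≠ x' := by rintro rfl; omega
        have h3 := par_sub hxx hne
        exact (mem_Tp.1 hx').2.2.1 (hup a.2.2.2 h3 b.2.1)
      intro x hx x' hx' p h1 h2
      rcases Finset.mem_union.1 hx with h | h <;> rcases Finset.mem_union.1 hx' with h' | h'
      · have e1 := (mT1.1 h).2.2.1
        have e2 := (mT1.1 h').2.2.1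
        rcases sub_total h1 h2 with c | c
        · exact eq_of_sub_level c (by omega)
        · exact (eq_of_sub_level c (by omega)).symm
      · exact (key x h x' h' p h1 h2).elim
      · exact (key x' h' x h p h2 h1).elim
      · exact Tp_disj hVf hIV h h' h1 h2
    have hnW : ∀ x ∈ T1 ∪ T2, ∀ p : Nd, iv p ⊆ iv x → p ∉ W0 := by
      intro x hx p hpx hp
      have hxW : x ∈ W0 := hup hp hpx (mT hx).2.1
      rcases Finset.mem_union.1 hx with h | h
      · have e1 := (mT1.1 h).2.2.1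
        have e2 := (mem_Wf.1 (hW0V hxW)).2.2
        omega
      · exact (mem_Tp.1 h).2.2.1 hxW
    obtain ⟨S', V', lv', dp', hSys, hsum⟩ := assemble (R' := Wf R I 0) (W0 := W0) (T := T1 ∪ T2)
      (I := I) (Rg := fun x => Wf R x 0) (j := 0) (d := d') (G := Au R dev δ μ)
      (Wd_full hVf hIV) (fun p hp => by
        have h1 := mem_Wf.1 (hW0V hp)
        exact mem_Wf.2 ⟨h1.1, h1.2.1, Nat.zero_le _⟩)
      ⟨hdI, rfl, fun p hp => Wd_good (fun I => by rw [h.self I]; exact hδ.le) hp, hla⟩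
      (fun x hx p hp => by
        have h1 := mem_Wf.1 hp
        exact mem_Wf.2 ⟨h1.1, h1.2.1.trans (mT hx).2.1, Nat.zero_le _⟩)
      (fun x hx => by
        rw [Finset.disjoint_left]
        intro p hp hpx
        exact hnW x hx p (mem_Wf.1 hpx).2.1 hp)
      (fun x hx x' hx' hne => by
        rw [Finset.disjoint_left]
        intro p hp hp'
        exact hne (hTT x hx x' hx' p (mem_Wf.1 hp).2.1 (mem_Wf.1 hp').2.1))
      (fun p hp => by
        have h1 := mem_Wf.1 hp
        by_cases hw : p ∈ W0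
        · exact Or.inl hw
        right
        by_cases hpd : d' ≤ p.1
        · have hpV : p ∈ V := mem_Wf.2 ⟨h1.1, h1.2.1, hpd⟩
          have hl := Qe292.iv_level h1.2.1
          obtain ⟨c, hc, hpc⟩ := below_top hVf hIV (I.1 - p.1) p (by omega) hpV h1.2.1 hw
          exact ⟨c, Finset.mem_union_right _ hc, mem_Wf.2 ⟨h1.1, hpc, Nat.zero_le _⟩⟩
        · push Not at hpd
          obtain ⟨q, hq1, hq2, hq3⟩ := anc h1.2.1 (m := d') (by omega) (by omega)
          have hqR : q ∈ R := hR.reg.2 p h1.1 q hq2 (hq3.trans (hR.reg.1 I hI))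
          have hqV : q ∈ V := mem_Wf.2 ⟨hqR, hq3, by omega⟩
          by_cases hqW : q ∈ W0
          · obtain ⟨r, hr1, hr2, hr3⟩ := anc hq2 (m := d' - 1) (by omega) (by omega)
            have hne : r ≠ q := by rintro rfl; omega
            have hpr : par r = q := by
              have h3 := par_sub hr3 hne
              refine eq_of_sub_level h3 ?_
              show r.1 + 1 = q.1
              omega
            refine ⟨r, Finset.mem_union_left _ (mT1.2 ⟨hR.reg.2 p h1.1 r hr2
              ((hr3.trans hq3).trans (hR.reg.1 I hI)), hr3.trans hq3, by omega, ?_⟩),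
              mem_Wf.2 ⟨h1.1, hr2, Nat.zero_le _⟩⟩
            rw [hpr]
            exact hqW
          · have hl := Qe292.iv_level hq3
            obtain ⟨c, hc, hqc⟩ := below_top hVf hIV (I.1 - q.1) q (by omega) hqV hq3 hqW
            exact ⟨c, Finset.mem_union_right _ hc, mem_Wf.2 ⟨h1.1, hq2.trans hqc, Nat.zero_le _⟩⟩)
      S Vw lv dp (fun x hx => (hS x hx).1) (fun _ => (1 : ℝ))
    refine ⟨S', V', lv', dp', hSys, hsum.trans ?_⟩
    -- the sum over the next tops
    have s1 : ∑ x ∈ T1 ∪ T2, ∑ K ∈ S x, len K * (1 : ℝ)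
        ≤ 2 * ∑ x ∈ T1 ∪ T2, len x + 2 / (μ * δ) * ∑ x ∈ T1 ∪ T2, dr R D x := by
      rw [Finset.mul_sum, Finset.mul_sum, ← Finset.sum_add_distrib]
      exact Finset.sum_le_sum fun x hx => (hS x hx).2
    have hdisj : ∀ c ∈ T1 ∪ T2, ∀ c' ∈ T1 ∪ T2, c ≠ c' → Disjoint (iv c) (iv c') := by
      intro c hc c' hc' hne
      rw [Finset.disjoint_left]
      intro y hy hy'
      rcases iv_nest hy hy' with h1 | h1
      · exact hne (hTT c hc c' hc' c subset_rfl h1)
      · exact hne (hTT c hc c' hc' c' h1 subset_rfl)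
    -- used drift
    set us : ℝ := ∑ q ∈ W0.filter (fun q => q ∉ lf R), len q * D q with hus
    have s2 : us + ∑ x ∈ T1 ∪ T2, dr R D x ≤ dr R D I := by
      rw [hus]
      unfold dr
      rw [← Finset.sum_biUnion, ← Finset.sum_union]
      · refine Finset.sum_le_sum_of_subset_of_nonneg ?_
          fun q _ _ => mul_nonneg (Growth.len_pos q).le (h.D0 q)
        intro q hq
        rw [Finset.mem_filter, Finset.mem_sdiff]
        rcases Finset.mem_union.1 hq with h1 | h1
        · rw [Finset.mem_filter] at h1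
          exact ⟨⟨hW0R h1.1, h1.2⟩, (mem_Wf.1 (hW0V h1.1)).2.1⟩
        · obtain ⟨x, hx, h1⟩ := Finset.mem_biUnion.1 h1
          rw [Finset.mem_filter, Finset.mem_sdiff] at h1
          exact ⟨h1.1, h1.2.trans (mT hx).2.1⟩
      · rw [Finset.disjoint_left]
        intro q hq hq'
        obtain ⟨x, hx, h1⟩ := Finset.mem_biUnion.1 hq'
        rw [Finset.mem_filter] at h1 hq
        exact hnW x hx q h1.2 hq.1
      · intro x hx x' hx' hne
        rw [Function.onFun, Finset.disjoint_left]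
        intro q hq hq'
        rw [Finset.mem_filter] at hq hq'
        exact hne (hTT x (by exact_mod_cast hx) x' (by exact_mod_cast hx') q hq.2 hq'.2)
    have hB : 0 < 2 / (μ * δ) := by positivity
    have s3 := mul_le_mul_of_nonneg_left s2 hB.le
    rw [mul_add] at s3
    have hus0 : 0 ≤ us := Finset.sum_nonneg fun q _ =>
      mul_nonneg (Growth.len_pos q).le (h.D0 q)
    rcases Nat.eq_zero_or_pos d' with hd0 | hd0
    · -- no cut
      have hT1e : T1 = ∅ := by
        rw [Finset.eq_empty_iff_forall_notMem]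
        intro x hx
        have := (mT1.1 hx).2.2.1
        omega
      have s4 : ∑ x ∈ T1 ∪ T2, len x ≤ μ * len I := by
        rw [hT1e, Finset.empty_union]
        exact hla
      have s5 : 0 ≤ 2 / (μ * δ) * us := mul_nonneg hB.le hus0
      nlinarith
    · -- charged
      have hlt := hmin (d' - 1) (by omega)
      push Not at hlt
      have hV1 := hV0 (d' - 1) (by omega)
      set V1 : Finset Nd := Wf R I (d' - 1) with hV1def
      have hIV1 : I ∈ V1 := hV1.top
      have hsubR : Wd V1 dev δ I ∪ Tp V1 dev δ I ⊆ R :=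
        (Finset.union_subset Wd_sub fun c hc => (mem_Tp.1 hc).1).trans Wf_sub
      have c1 := h.le I hI _ (W'_full (g := dev) (δ := δ) hV1 hIV1) hsubR
      have c2 : ∑ c ∈ Tp V1 dev δ I, len c * dev I c
          ≤ ∑ p ∈ lf (Wd V1 dev δ I ∪ Tp V1 dev δ I), len p * dev I p :=
        Finset.sum_le_sum_of_subset_of_nonneg (Tp_sub_lf hV1 hIV1) fun p _ _ =>
          mul_nonneg (Growth.len_pos p).le (h.dev0 I p)
      have c3 := half_stops (δ := δ) hV1 h.dev0
      have c4 : ∑ q ∈ (Wd V1 dev δ I ∪ Tp V1 dev δ I) \ lf (Wd V1 dev δ I ∪ Tp V1 dev δ I),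
          len q * D q ≤ us := by
        refine Finset.sum_le_sum_of_subset_of_nonneg ?_
          fun q _ _ => mul_nonneg (Growth.len_pos q).le (h.D0 q)
        intro q hq
        rw [Finset.mem_sdiff] at hq
        have hqR := nl_sub hsubR hq.1 hq.2
        have hqW : q ∈ Wd V1 dev δ I := by
          rcases Finset.mem_union.1 hq.1 with h1 | h1
          · exact h1
          · exact absurd (Tp_sub_lf hV1 hIV1 h1) hq.2
        -- level
        have hlev : d' ≤ q.1 := by
          have h2 : ∃ r ∈ Wd V1 dev δ I ∪ Tp V1 dev δ I, iv r ⊆ iv q ∧ r ≠ q := by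
            by_contra hcon
            push Not at hcon
            exact hq.2 (mem_lf.2 ⟨hq.1, hcon⟩)
          obtain ⟨r, hr, hrq, hne⟩ := h2
          have hrV : r ∈ V1 := by
            rcases Finset.mem_union.1 hr with h3 | h3
            · exact Wd_sub h3
            · exact (mem_Tp.1 h3).1
          have h3 := (mem_Wf.1 hrV).2.2
          rcases (Qe292.iv_level hrq).lt_or_eq with h4 | h4
          · omega
          · exact absurd (eq_of_sub_level hrq h4) hne
        have hm := mem_Wd.1 hqW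
        refine Finset.mem_filter.2 ⟨mem_Wd.2 ⟨mem_Wf.2 ⟨hqR.1, hm.2.1, hlev⟩, hm.2.1,
          fun q' hq' h3 h4 h5 => hm.2.2 q' ?_ h3 h4 h5⟩, hqR.2⟩
        have := mem_Wf.1 hq'
        exact mem_Wf.2 ⟨this.1, this.2.1, by omega⟩
      have c5 : μ * len I * (δ / 2) ≤ us := by
        have e : sp R dev δ I (d' - 1) = ∑ c ∈ Tp V1 dev δ I, len c := rfl
        rw [e] at hlt
        have := mul_le_mul_of_nonneg_right hlt.le (show (0 : ℝ) ≤ δ / 2 by positivity)
        linarith
      have c6 : len I ≤ 2 / (μ * δ) * us := by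
        have h1 := mul_le_mul_of_nonneg_left c5 hB.le
        have e : 2 / (μ * δ) * (μ * len I * (δ / 2)) = len I := by
          field_simp
        rw [e] at h1
        exact h1
      have c7 : ∑ x ∈ T1 ∪ T2, len x ≤ len I :=
        sum_len_disj _ I (fun c hc => (mT hc).2.1) hdisj
      linarith

/-- **ALMOST UNIFORM WINDOWS** -/
theorem almost_uniform (hR : Full R J) (h : Fld R D dev P₀) (hδ : 0 < δ) (hμ : 0 < μ)
    (hμ2 : μ ≤ 1 / 2) :
    ∃ (S : Finset Nd) (W : Nd → Finset Nd) (dp : Nd → ℕ),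
      Part R S W (∑ K ∈ S, len K) ∧
      (∀ K ∈ S, dp K ≤ K.1 ∧ W K = Wd (Wf R K (dp K)) dev δ K ∧ (∀ p ∈ W K, dev K p ≤ δ) ∧
        ∑ c ∈ Tp (Wf R K (dp K)) dev δ K, len c ≤ μ * len K) ∧
      ∑ K ∈ S, len K ≤ len J * (2 + 2 * P₀ / (μ * δ)) := by
  obtain ⟨S, V, lv, dp, hs, hw⟩ := au_rec hR h hδ hμ hμ2 (J.1 + 1) J hR.top (Nat.lt_succ_self _)
  have e : Wf R J 0 = R := by
    ext p
    rw [mem_Wf]
    exact ⟨fun h => h.1, fun h => ⟨h, hR.reg.1 p h, Nat.zero_le _⟩⟩
  rw [e] at hs
  refine ⟨S, V, dp, hs.part, fun K hK => hs.good K hK, ?_⟩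
  simp only [mul_one] at hw
  have h1 := h.bd J hR.top
  have h2 := mul_le_mul_of_nonneg_left h1 (show (0 : ℝ) ≤ 2 / (μ * δ) by positivity)
  calc _ ≤ _ := hw
    _ ≤ 2 * len J + 2 / (μ * δ) * (len J * P₀) := by linarith
    _ = len J * (2 + 2 * P₀ / (μ * δ)) := by ring

end Crest.Agent.R079.AU110
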