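import Crest.Agent.R079.TS0_903

/-! R079, doc 2531 (787), [IT] = THE ITERATION WITH TWO COEFFICIENTS (helper260).

`v X Y p` = node term (e.g. `TI bb ε (update (update F a X) b Y) p`), `Sm s R X Y` = "the two free
letters have size `≤ s` on `R`" (restricts).  `TB` = tops of the STATIC windows of the big region `R0`
(they depend on the two other letters only), `bT TB R I` = total length of the `TB`-tops strictly
inside `R`.

* `Cl s α β` : `‖∑_R v X Y‖ ≤ s² (α |I| + β bT)` for all full `R ⊆ R0` and all `(X,Y)` of size `s`;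
* `base` : static pieces ⟹ `Cl s α α` for all `s`;
* `step` : one generation `Gen κ A r` ⟹ `Cl (r s) α β → Cl s (κ + A r² α) (r² β)`;
* `iter` : `n` generations. -/

set_option autoImplicit false

namespace Crest.Agent.R079.It260

open Finset Crest.Agent.R079.Grid Crest.Agent.R079.Growth Crest.Agent.R079.QRed
open Crest.Agent.R079.TRec

open Classical in
/-- total length of the elements of `TB` inside `R` other than `I` -/
noncomputable def bT (TB R : Finset Nd) (I : Nd) : ℝ :=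
  ∑ J ∈ TB.filter (fun J => J ∈ R ∧ J ≠ I), len J

theorem bT_nonneg (TB R : Finset Nd) (I : Nd) : 0 ≤ bT TB R I :=
  Finset.sum_nonneg fun J _ => (Growth.len_pos J).le

/-- claim of size `s` with coefficients `α`, `β` -/
def Cl (v : Fn → Fn → Nd → ℂ) (Sm : ℝ → Finset Nd → Fn → Fn → Prop) (R0 TB : Finset Nd)
    (s α β : ℝ) : Prop :=
  ∀ R I, Full R I → R ⊆ R0 → ∀ X Y, Sm s R X Y →
    ‖∑ p ∈ R, v X Y p‖ ≤ s ^ 2 * (α * len I + β * bT TB R I)

/-- static pieces -/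
def Piece (v : Fn → Fn → Nd → ℂ) (Sm : ℝ → Finset Nd → Fn → Fn → Prop) (R0 TB : Finset Nd)
    (α : ℝ) : Prop :=
  ∀ s, 0 < s → ∀ R I, Full R I → R ⊆ R0 → (∀ J ∈ TB, J ∈ R → J = I) → ∀ X Y, Sm s R X Y →
    ‖∑ p ∈ R, v X Y p‖ ≤ s ^ 2 * α * len I

/-- one generation: kill cost `κ`, number of windows `A`, new size `r s` -/
def Gen (v : Fn → Fn → Nd → ℂ) (Sm : ℝ → Finset Nd → Fn → Fn → Prop) (R0 : Finset Nd)
    (κ A r : ℝ) : Prop :=
  ∀ s, 0 < s → ∀ R I, Full R I → R ⊆ R0 → ∀ X Y, Sm s R X Y →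
    ∃ (T : Finset Nd) (X' Y' : Nd → Fn), Tops R I T ∧ ∑ w ∈ T, len w ≤ A * len I ∧
      (∀ w ∈ T, Sm (r * s) (win R T w) (X' w) (Y' w)) ∧
      ‖∑ p ∈ R, v X Y p‖ ≤ s ^ 2 * κ * len I + ∑ w ∈ T, ‖∑ p ∈ win R T w, v (X' w) (Y' w) p‖

variable {v : Fn → Fn → Nd → ℂ} {Sm : ℝ → Finset Nd → Fn → Fn → Prop} {R0 TB : Finset Nd}

/-- the windows of a tops set contain disjoint parts of `TB` -/
theorem sum_bT {R : Finset Nd} {I : Nd} (hR : Full R I) {T : Finset Nd} (hT : Tops R I T)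
    (TB : Finset Nd) : ∑ w ∈ T, bT TB (win R T w) w ≤ bT TB R I := by
  classical
  unfold bT
  rw [← Finset.sum_biUnion]
  · refine Finset.sum_le_sum_of_subset_of_nonneg ?_ fun J _ _ => (Growth.len_pos J).le
    intro J hJ
    rw [Finset.mem_biUnion] at hJ
    obtain ⟨w, hw, hJw⟩ := hJ
    rw [Finset.mem_filter] at hJw ⊢
    obtain ⟨hJT, hJ1, hJ2⟩ := hJw
    have h1 := mem_win.1 hJ1
    refine ⟨hJT, h1.1, ?_⟩
    rintro rfl
    exact hJ2 (Qe292.iv_antisymm h1.2.2.1 (hR.reg.1 w (hT.sub hw)))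
  · intro w hw w' hw' hne
    rw [Function.onFun, Finset.disjoint_left]
    intro J hJ hJ'
    rw [Finset.mem_filter] at hJ hJ'
    exact Finset.disjoint_left.1 (win_disj (R := R) (T := T) hne) hJ.2.1 hJ'.2.1

/-- **BASE**: cut at the static tops -/
theorem base (hmono : ∀ s R R' X Y, Sm s R X Y → R' ⊆ R → Sm s R' X Y) {I0 : Nd}
    (_hR0 : Full R0 I0) (hTB : Tops R0 I0 TB) {α : ℝ} (hα : 0 ≤ α) (hP : Piece v Sm R0 TB α) :
    ∀ s, 0 < s → Cl v Sm R0 TB s α α := by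
  classical
  intro s hs R I hR hRR X Y hXY
  have hT := hTB.restrict hR hRR
  rw [sum_windows hR hT]
  have h1 : ∀ w ∈ rT TB R I, ‖∑ p ∈ win R (rT TB R I) w, v X Y p‖ ≤ s ^ 2 * α * len w := by
    intro w hw
    refine hP s hs _ w (win_full hR hT hw) (win_sub.trans hRR) (fun J hJ hJw => ?_) X Y
      (hmono _ _ _ _ _ hXY win_sub)
    have hJ1 := mem_win.1 hJw
    have hJT : J ∈ rT TB R I := mem_rT.2 (Or.inl ⟨hJ, hJ1.1⟩)
    exact (wn_self hJT).unique hJ1.2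
  refine (norm_sum_le _ _).trans ((Finset.sum_le_sum h1).trans ?_)
  rw [← Finset.mul_sum]
  have h2 : ∑ w ∈ rT TB R I, len w ≤ len I + bT TB R I := by
    have h3 : rT TB R I ⊆ insert I (TB.filter (fun J => J ∈ R ∧ J ≠ I)) := by
      intro w hw
      rw [Finset.mem_insert, Finset.mem_filter]
      rcases mem_rT.1 hw with h | h
      · by_cases h' : w = I
        · exact Or.inl h'
        · exact Or.inr ⟨h.1, h.2, h'⟩
      · exact Or.inl h
    refine (Finset.sum_le_sum_of_subset_of_nonneg h3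
      fun J _ _ => (Growth.len_pos J).le).trans ?_
    rw [Finset.sum_insert (by simp)]
    exact le_of_eq rfl
  have h4 : 0 ≤ s ^ 2 * α := by positivity
  calc s ^ 2 * α * ∑ w ∈ rT TB R I, len w ≤ s ^ 2 * α * (len I + bT TB R I) :=
        mul_le_mul_of_nonneg_left h2 h4
    _ = s ^ 2 * (α * len I + α * bT TB R I) := by ring

/-- **STEP**: one generation -/
theorem step {κ A r : ℝ} (hG : Gen v Sm R0 κ A r) {s α β : ℝ} (hs : 0 < s) (hα : 0 ≤ α)
    (hβ : 0 ≤ β) (h : Cl v Sm R0 TB (r * s) α β) :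
    Cl v Sm R0 TB s (κ + A * r ^ 2 * α) (r ^ 2 * β) := by
  intro R I hR hRR X Y hXY
  obtain ⟨T, X', Y', hT, hc, hS, hV⟩ := hG s hs R I hR hRR X Y hXY
  refine hV.trans ?_
  have h1 : ∑ w ∈ T, ‖∑ p ∈ win R T w, v (X' w) (Y' w) p‖ ≤
      ∑ w ∈ T, (r * s) ^ 2 * (α * len w + β * bT TB (win R T w) w) :=
    Finset.sum_le_sum fun w hw =>
      h _ w (win_full hR hT hw) (win_sub.trans hRR) _ _ (hS w hw)
  have h2 : ∑ w ∈ T, (r * s) ^ 2 * (α * len w + β * bT TB (win R T w) w) =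
      (r * s) ^ 2 * (α * ∑ w ∈ T, len w + β * ∑ w ∈ T, bT TB (win R T w) w) := by
    rw [← Finset.mul_sum, Finset.sum_add_distrib, ← Finset.mul_sum, ← Finset.mul_sum]
  have h3 : (r * s) ^ 2 * (α * ∑ w ∈ T, len w + β * ∑ w ∈ T, bT TB (win R T w) w) ≤
      (r * s) ^ 2 * (α * (A * len I) + β * bT TB R I) := by
    refine mul_le_mul_of_nonneg_left (add_le_add ?_ ?_) (sq_nonneg _)
    · exact mul_le_mul_of_nonneg_left hc hα
    · exact mul_le_mul_of_nonneg_left (sum_bT hR hT TB) hβ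
  calc s ^ 2 * κ * len I + ∑ w ∈ T, ‖∑ p ∈ win R T w, v (X' w) (Y' w) p‖
      ≤ s ^ 2 * κ * len I + (r * s) ^ 2 * (α * (A * len I) + β * bT TB R I) :=
        add_le_add le_rfl (h1.trans (h2.le.trans h3))
    _ = s ^ 2 * ((κ + A * r ^ 2 * α) * len I + r ^ 2 * β * bT TB R I) := by ring

/-- **`n` GENERATIONS** (`L ≥ 1`, `A r² ≤ L`) -/
theorem iter {P P' : ℝ} (hP : ∀ s, 0 < s → Cl v Sm R0 TB s P P') {κ A r L : ℝ}
    (hP0 : 0 ≤ P) (hP1 : 0 ≤ P') (hκ : 0 ≤ κ) (hr : 0 < r) (hL : 1 ≤ L) (hA : A * r ^ 2 ≤ L)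
    (hG : Gen v Sm R0 κ A r) (n : ℕ) :
    ∀ s, 0 < s → Cl v Sm R0 TB s (L ^ n * (P + n * κ)) (r ^ (2 * n) * P') := by
  induction n with
  | zero =>
    intro s hs
    simpa using hP s hs
  | succ n ih =>
    intro s hs R I hR hRR X Y hXY
    have hL0 : 0 ≤ L := zero_le_one.trans hL
    have hα : 0 ≤ L ^ n * (P + n * κ) := by positivity
    have hβ : 0 ≤ r ^ (2 * n) * P' := by positivity
    have h1 := step hG hs hα hβ (ih (r * s) (mul_pos hr hs)) R I hR hRR X Y hXY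
    refine h1.trans (mul_le_mul_of_nonneg_left (add_le_add ?_ ?_) (sq_nonneg _))
    · refine mul_le_mul_of_nonneg_right ?_ (Growth.len_pos I).le
      have hLn : 1 ≤ L ^ (n + 1) := one_le_pow₀ hL
      calc κ + A * r ^ 2 * (L ^ n * (P + n * κ)) ≤ κ + L * (L ^ n * (P + n * κ)) :=
            add_le_add le_rfl (mul_le_mul_of_nonneg_right hA hα)
        _ ≤ L ^ (n + 1) * κ + L * (L ^ n * (P + n * κ)) :=
            add_le_add (le_mul_of_one_le_left hκ hLn) le_rfl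
        _ = L ^ (n + 1) * (P + ((n + 1 : ℕ) : ℝ) * κ) := by push_cast; ring
    · refine mul_le_mul_of_nonneg_right (le_of_eq ?_) (bT_nonneg _ _ _)
      ring

/-- total length of the static tops of the big region, from `Cnt` -/
theorem bT_le {I0 : Nd} (hR0 : Full R0 I0) {A : ℝ} (hc : Cnt R0 TB A) :
    bT TB R0 I0 ≤ A * len I0 := by
  classical
  unfold bT
  refine (Finset.sum_le_sum_of_subset_of_nonneg ?_
    fun J _ _ => (Growth.len_pos J).le).trans (hc I0 hR0.top)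
  intro J hJ
  rw [Finset.mem_filter] at hJ ⊢
  have hs := hR0.reg.1 J hJ.2.1
  exact ⟨hJ.1, Finset.ssubset_iff_subset_ne.2
    ⟨hs, fun he => hJ.2.2 (Qe292.iv_antisymm hs he.ge)⟩⟩

/-- **[IT]**: static pieces + generations + number of static tops ⟹ bound on the big region -/
theorem it (hmono : ∀ s R R' X Y, Sm s R X Y → R' ⊆ R → Sm s R' X Y) {I0 : Nd}
    (hR0 : Full R0 I0) (hTB : Tops R0 I0 TB) {AB : ℝ} (hc : Cnt R0 TB AB)
    {P κ A r L : ℝ} (hP0 : 0 ≤ P) (hκ : 0 ≤ κ) (hr : 0 < r) (hL : 1 ≤ L) (hA : A * r ^ 2 ≤ L)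
    (hP : Piece v Sm R0 TB P) (hG : Gen v Sm R0 κ A r) (n : ℕ) {X Y : Fn}
    (hXY : Sm 1 R0 X Y) :
    ‖∑ p ∈ R0, v X Y p‖ ≤ (L ^ n * (P + n * κ) + r ^ (2 * n) * P * AB) * len I0 := by
  have h1 := iter (base hmono hR0 hTB hP0 hP) hP0 hP0 hκ hr hL hA hG n 1 one_pos R0 I0 hR0
    subset_rfl X Y hXY
  refine h1.trans ?_
  have h2 : r ^ (2 * n) * P * bT TB R0 I0 ≤ r ^ (2 * n) * P * (AB * len I0) :=
    mul_le_mul_of_nonneg_left (bT_le hR0 hc) (by positivity)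
  have e : (L ^ n * (P + n * κ) + r ^ (2 * n) * P * AB) * len I0 =
      L ^ n * (P + n * κ) * len I0 + r ^ (2 * n) * P * (AB * len I0) := by ring
  rw [e]
  nlinarith [h2]

end Crest.Agent.R079.It260
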