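import Crest.Agent.R079.TDfb_853
import Crest.Agent.R079.It_260
import Crest.Agent.R079.Qc_406

/-! R079, rule (A) = MIX, doc 2531 (787): ASSEMBLY `GenA -> StatA -> RuleA2` (helper844).

`GenA` = Step I, ONE generation (target of S1); `StatA` = Step II, static windows of the pair
(frozen, leveled) (target of S2).  All counting is `It260.it`.  Both free letters (also slot `3`)
are measured in the norm `aq (2 + k)`. -/

set_option autoImplicit false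

namespace Crest.Agent.R079.AsmA844

open Finset Crest.Agent.R079.Grid Crest.Agent.R079.Growth Crest.Agent.R079.QRed
open Crest.Agent.R079.TRec

/-- node term: the free letters `X`, `Y` in the slots `a`, `b` -/
noncomputable def v4 (bb : ℤ) (ε : ℕ → ℤ → ℂ) (F : Fin 4 → Fn) (a b : Fin 4) (X Y : Fn) (p : Nd) :
    ℂ := TI bb ε (Function.update (Function.update F a X) b Y) p

/-- size `≤ s` of the two free letters -/
def Sm (k : ℝ) (s : ℝ) (R : Finset Nd) (X Y : Fn) : Prop :=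
  ∀ p ∈ R, aq (2 + k) p X ≤ s ∧ aq (2 + k) p Y ≤ s

/-- the data of rule (A): slot `i` frozen at the top, slot `m` leveled at all nodes -/
structure PR (D : Dict) (k e t : ℝ) (W : Finset Nd) (I : Nd) (i m : Fin 4) (F : Fin 4 → Fn) :
    Prop where
  full : Full W I
  ne : i ≠ m
  i3 : i ≠ 3
  m3 : m ≠ 3
  nP : ∀ p ∈ W, aq (2 + k) p (F i) ≤ 1
  nR : ∀ p ∈ W, aq (2 + k) p (F m) ≤ 1
  frz : Fz D i (t ^ (1 + e)) 1 I (F i)
  lev : ∀ p ∈ W, Lv D m t 1 p (F m)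

/-- `a`, `b` are the two other slots -/
structure Oth (i m a b : Fin 4) : Prop where
  ai : a ≠ i
  am : a ≠ m
  bi : b ≠ i
  bm : b ≠ m
  ab : a ≠ b

/-- **STEP I**: one generation in the two other slots -/
def GenA (D : Dict) (k q3 e c1 dl cG t0 K : ℝ) : Prop :=
  ∀ (N : ℕ) (B : ℝ), 0 ≤ B → BN k q3 N B → ∀ t, 0 < t → t ≤ t0 → ∀ W I i m F,
    PR D k e t W I i m F → I.1 ≤ N → ∀ a b : Fin 4, Oth i m a b → ∀ bb ε, Adm bb ε →
      It260.Gen (v4 bb ε F a b) (Sm k) W (K * (1 + B) * t ^ cG) (K * t ^ (-c1))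
        (K * t ^ (c1 / 2 - dl))

/-- **STEP II**: static windows of the pair (frozen, leveled); they do not depend on `ε` -/
def StatA (D : Dict) (k q3 e cS CS t0 K : ℝ) : Prop :=
  ∀ (N : ℕ) (B : ℝ), 0 ≤ B → BN k q3 N B → ∀ t, 0 < t → t ≤ t0 → ∀ bb W I i m F,
    PR D k e t W I i m F → I.1 ≤ N → ∀ a b : Fin 4, Oth i m a b →
      ∃ TB : Finset Nd, Tops W I TB ∧ Cnt W TB (K * t ^ (-CS)) ∧
        ∀ ε, Adm bb ε → It260.Piece (v4 bb ε F a b) (Sm k) W TB (K * (1 + B) * t ^ cS)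

theorem exists_oth : ∀ i m : Fin 4, i ≠ m → ∃ a b : Fin 4, a ≠ i ∧ a ≠ m ∧ b ≠ i ∧ b ≠ m ∧ a ≠ b := by
  decide

/-- local `L^q` norms increase in `q` -/
theorem aq_le_aq {q q' : ℝ} (hq : 0 < q) (hqq : q ≤ q') (p : Nd) (f : Fn) :
    aq q p f ≤ aq q' p f := by
  unfold aq Lq853.avq
  set s := dI (p.1 + 7) p.2 with hs
  have hc : (s.card : ℝ) = 2 ^ (p.1 + 7) := Qc406.card_dI _ _
  have hw : ∑ _y ∈ s, (1 / (2 : ℝ) ^ (p.1 + 7)) = 1 := by
    rw [Finset.sum_const, nsmul_eq_mul, hc]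
    field_simp
  have hq0 : 0 < q' := by linarith
  have h := Real.rpow_arith_mean_le_arith_mean_rpow s (fun _ => 1 / (2 : ℝ) ^ (p.1 + 7))
    (fun y => ‖f y‖ ^ q) (fun _ _ => by positivity) hw (fun _ _ => by positivity)
    (p := q' / q) (by rw [le_div_iff₀ hq]; linarith)
  have e1 : ∑ y ∈ s, (1 / (2 : ℝ) ^ (p.1 + 7)) * ‖f y‖ ^ q =
      (1 / 2 ^ (p.1 + 7)) * ∑ y ∈ s, ‖f y‖ ^ q := by rw [Finset.mul_sum]
  have e2 : ∑ y ∈ s, (1 / (2 : ℝ) ^ (p.1 + 7)) * (‖f y‖ ^ q) ^ (q' / q) =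
      (1 / 2 ^ (p.1 + 7)) * ∑ y ∈ s, ‖f y‖ ^ q' := by
    rw [Finset.mul_sum]
    refine Finset.sum_congr rfl fun y _ => ?_
    congr 1
    rw [← Real.rpow_mul (norm_nonneg _)]
    congr 1
    field_simp
  rw [e1, e2] at h
  have h0 : 0 ≤ (1 / (2 : ℝ) ^ (p.1 + 7)) * ∑ y ∈ s, ‖f y‖ ^ q := by positivity
  have h2 := Real.rpow_le_rpow (Real.rpow_nonneg h0 _) h (by positivity : (0 : ℝ) ≤ 1 / q')
  rw [← Real.rpow_mul h0] at h2
  have e3 : q' / q * (1 / q') = 1 / q := by field_simp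
  rwa [e3] at h2

/-- the counting numbers -/
theorem num {c0 c1 dl cG cS CS t K B : ℝ} (ht : 0 < t) (ht1 : t ≤ 1) (hK : 1 ≤ K) (hB : 0 ≤ B)
    (n : ℕ) (h1 : c0 + 2 * dl * n ≤ cS) (h2 : c0 + 2 * dl * n ≤ cG)
    (h3 : c0 + CS ≤ n * (c1 - 2 * dl) + cS) :
    (K ^ 3 * t ^ (-(2 * dl))) ^ n * (K * (1 + B) * t ^ cS + n * (K * (1 + B) * t ^ cG)) +
      (K * t ^ (c1 / 2 - dl)) ^ (2 * n) * (K * (1 + B) * t ^ cS) * (K * t ^ (-CS)) ≤
      (K ^ (3 * n) * (K + n * K) + K ^ (2 * n + 2)) * (1 + B) * t ^ c0 := by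
  have hK0 : 0 < K := by linarith
  have e1 : (K ^ 3 * t ^ (-(2 * dl))) ^ n = K ^ (3 * n) * t ^ (-(2 * dl * n)) := by
    rw [mul_pow, ← pow_mul, ← Real.rpow_natCast (t ^ (-(2 * dl))) n, ← Real.rpow_mul ht.le]
    congr 2
    ring
  have e2 : (K * t ^ (c1 / 2 - dl)) ^ (2 * n) = K ^ (2 * n) * t ^ (n * (c1 - 2 * dl)) := by
    rw [mul_pow, ← Real.rpow_natCast (t ^ (c1 / 2 - dl)) (2 * n), ← Real.rpow_mul ht.le]
    congr 2
    push_cast
    ring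
  have g1 : t ^ (-(2 * dl * n)) * t ^ cS ≤ t ^ c0 := by
    rw [← Real.rpow_add ht]
    exact Real.rpow_le_rpow_of_exponent_ge ht ht1 (by linarith)
  have g2 : t ^ (-(2 * dl * n)) * t ^ cG ≤ t ^ c0 := by
    rw [← Real.rpow_add ht]
    exact Real.rpow_le_rpow_of_exponent_ge ht ht1 (by linarith)
  have g3 : t ^ (n * (c1 - 2 * dl)) * t ^ cS * t ^ (-CS) ≤ t ^ c0 := by
    rw [← Real.rpow_add ht, ← Real.rpow_add ht]
    exact Real.rpow_le_rpow_of_exponent_ge ht ht1 (by linarith)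
  rw [e1, e2]
  have p1 : 0 ≤ K ^ (3 * n) * K * (1 + B) := by positivity
  have p2 : 0 ≤ K ^ (3 * n) * (n * K) * (1 + B) := by positivity
  have p3 : 0 ≤ K ^ (2 * n) * K * K * (1 + B) := by positivity
  have q1 := mul_le_mul_of_nonneg_left g1 p1
  have q2 := mul_le_mul_of_nonneg_left g2 p2
  have q3 := mul_le_mul_of_nonneg_left g3 p3
  have e3 : K ^ (3 * n) * t ^ (-(2 * dl * n)) *
      (K * (1 + B) * t ^ cS + n * (K * (1 + B) * t ^ cG)) +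
      K ^ (2 * n) * t ^ (n * (c1 - 2 * dl)) * (K * (1 + B) * t ^ cS) * (K * t ^ (-CS)) =
      K ^ (3 * n) * K * (1 + B) * (t ^ (-(2 * dl * n)) * t ^ cS) +
      K ^ (3 * n) * (n * K) * (1 + B) * (t ^ (-(2 * dl * n)) * t ^ cG) +
      K ^ (2 * n) * K * K * (1 + B) * (t ^ (n * (c1 - 2 * dl)) * t ^ cS * t ^ (-CS)) := by ring
  rw [e3]
  have e4 : (K ^ (3 * n) * (K + n * K) + K ^ (2 * n + 2)) * (1 + B) * t ^ c0 =
      K ^ (3 * n) * K * (1 + B) * t ^ c0 + K ^ (3 * n) * (n * K) * (1 + B) * t ^ c0 +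
      K ^ (2 * n) * K * K * (1 + B) * t ^ c0 := by ring
  rw [e4]
  linarith

/-- **RULE (A) from Step I + Step II** (`n` generations) -/
theorem ruleA2_of {D : Dict} {k q3 e c1 dl cG cS CS t0 K c0 : ℝ} (hk : 0 < k) (hkq : 2 + k ≤ q3)
    (ht0 : t0 ≤ 1) (hK : 1 ≤ K) (hdl : 0 ≤ dl) (n : ℕ) (h1 : c0 + 2 * dl * n ≤ cS)
    (h2 : c0 + 2 * dl * n ≤ cG) (h3 : c0 + CS ≤ n * (c1 - 2 * dl) + cS)
    (hG : GenA D k q3 e c1 dl cG t0 K) (hS : StatA D k q3 e cS CS t0 K) :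
    RuleA2 D k q3 c0 e t0 (K ^ (3 * n) * (K + n * K) + K ^ (2 * n + 2)) := by
  intro N B hB hBN t ht htt bb ε hA W I hW hI F hF i m him hi3 hm3 hfz hlv
  have ht1 : t ≤ 1 := htt.trans ht0
  have hK0 : 0 < K := by linarith
  obtain ⟨a, b, hai, ham, hbi, hbm, hab⟩ := exists_oth i m him
  have hO : Oth i m a b := ⟨hai, ham, hbi, hbm, hab⟩
  have hall : ∀ j, ∀ p ∈ W, aq (2 + k) p (F j) ≤ 1 := fun j p hp =>
    (aq_le_aq (by linarith) (by unfold qx; split_ifs <;> linarith) p (F j)).trans (hF j p hp)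
  have hPR : PR D k e t W I i m F :=
    ⟨hW, him, hi3, hm3, hall i, hall m, hfz, hlv⟩
  obtain ⟨TB, hTB, hc, hP⟩ := hS N B hB hBN t ht htt bb W I i m F hPR hI a b hO
  have hGen := hG N B hB hBN t ht htt W I i m F hPR hI a b hO bb ε hA
  have hmono : ∀ s R R' X Y, Sm k s R X Y → R' ⊆ R → Sm k s R' X Y :=
    fun s R R' X Y h hs p hp => h p (hs hp)
  have hL : (1 : ℝ) ≤ K ^ 3 * t ^ (-(2 * dl)) := by
    have g1 : (1 : ℝ) ≤ K ^ 3 := one_le_pow₀ hK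
    have g2 : (1 : ℝ) ≤ t ^ (-(2 * dl)) := Real.one_le_rpow_of_pos_of_le_one_of_nonpos ht ht1
      (by linarith)
    nlinarith
  have hA2 : K * t ^ (-c1) * (K * t ^ (c1 / 2 - dl)) ^ 2 ≤ K ^ 3 * t ^ (-(2 * dl)) := by
    refine le_of_eq ?_
    rw [mul_pow, ← Real.rpow_natCast (t ^ (c1 / 2 - dl)) 2, ← Real.rpow_mul ht.le]
    have e1 : K * t ^ (-c1) * (K ^ 2 * t ^ ((c1 / 2 - dl) * ((2 : ℕ) : ℝ))) =
        K ^ 3 * (t ^ (-c1) * t ^ ((c1 / 2 - dl) * ((2 : ℕ) : ℝ))) := by ring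
    rw [e1, ← Real.rpow_add ht]
    congr 2
    push_cast
    ring
  have hit := It260.it (v := v4 bb ε F a b) (Sm := Sm k) hmono hW hTB hc
    (P := K * (1 + B) * t ^ cS) (κ := K * (1 + B) * t ^ cG) (A := K * t ^ (-c1))
    (r := K * t ^ (c1 / 2 - dl)) (L := K ^ 3 * t ^ (-(2 * dl)))
    (by positivity) (by positivity) (by positivity) hL hA2 (hP ε hA) hGen n
    (X := F a) (Y := F b) (fun p hp => ⟨hall a p hp, hall b p hp⟩)
  have e0 : TR bb ε W F = ∑ p ∈ W, v4 bb ε F a b (F a) (F b) p := by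
    unfold TR v4
    rw [Function.update_eq_self, Function.update_eq_self]
  rw [e0]
  refine hit.trans (mul_le_mul_of_nonneg_right ?_ (Growth.len_pos I).le)
  exact num ht ht1 hK hB n h1 h2 h3

end Crest.Agent.R079.AsmA844
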