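import Crest.Agent.R079.TDfb_853

/-! R079: choice of the parameters of `Ok2` (helper224): `Dic` + `FrzBd` + `RuleA2` (for all small
`e`, `k`) + `RuleS` (for all `s1`, small `e`, `k`) ⟹ `Analytic2`. -/

set_option autoImplicit false

namespace Crest.Agent.R079.TRec

open Finset Crest.Agent.R079.Grid Crest.Agent.R079.Growth Crest.Agent.R079.QRed

theorem RuleA2.mono {D : Dict} {k q3 c0 e t0 K t0' K' : ℝ} (h : RuleA2 D k q3 c0 e t0 K)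
    (ht : t0' ≤ t0) (hK : K ≤ K') : RuleA2 D k q3 c0 e t0' K' := by
  intro N B hB hBN t h0 h1 bb ε hA W I hW hI F hF i m him hi hm hfz hlv
  have := h N B hB hBN t h0 (h1.trans ht) bb ε hA W I hW hI F hF i m him hi hm hfz hlv
  refine this.trans ?_
  have hl : (0 : ℝ) ≤ len I := by unfold len; positivity
  have ht0 : (0 : ℝ) ≤ t ^ c0 := Real.rpow_nonneg h0.le _
  gcongr

theorem RuleS.mono {D : Dict} {k q3 cS CS s1 e t0 K t0' K' : ℝ} (h : RuleS D k q3 cS CS s1 e t0 K)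
    (ht : t0' ≤ t0) (hK : K ≤ K') : RuleS D k q3 cS CS s1 e t0' K' := by
  intro N B hB hBN t h0 h1 bb W I hW hI m hm P G X E hP hG hfz hPX hlv hE
  obtain ⟨T, hT, hC, hw⟩ :=
    h N B hB hBN t h0 (h1.trans ht) bb W I hW hI m hm P G X E hP hG hfz hPX hlv hE
  refine ⟨T, hT, ?_, ?_⟩
  · intro p hp
    refine (hC p hp).trans ?_
    have hl : (0 : ℝ) ≤ len p := by unfold len; positivity
    have ht0 : (0 : ℝ) ≤ t ^ (-CS) := Real.rpow_nonneg h0.le _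
    gcongr
  · intro I' hI' W' J hW' hsub F hFm hF3 hF ε hA
    refine (hw I' hI' W' J hW' hsub F hFm hF3 hF ε hA).trans ?_
    have hl : (0 : ℝ) ≤ len J := by unfold len; positivity
    have ht0 : (0 : ℝ) ≤ t ^ cS := Real.rpow_nonneg h0.le _
    gcongr

/-- admissible parameters from the gains of the two rules -/
theorem exists_ok2 {q3 c0 e1 : ℝ} (hq3 : 2 < q3) (hc0 : 0 < c0) (he1 : 0 < e1)
    {Q : ℝ → ℝ → ℝ → ℝ → Prop}
    (hS : ∀ s1 : ℝ, 0 < s1 → ∃ cS CS e2 : ℝ, 0 < cS ∧ 0 ≤ CS ∧ 0 < e2 ∧ Q s1 cS CS e2) :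
    ∃ s1 cS CS e2 : ℝ, Q s1 cS CS e2 ∧ ∃ e : ℝ, 0 < e ∧ e ≤ e1 ∧ e ≤ e2 ∧
      ∃ (c1 bt κ km : ℝ) (K0 : ℕ), 0 < km ∧ ∀ k, 0 < k → k ≤ km →
        Ok2 k q3 c0 cS CS s1 e c1 bt κ K0 := by
  set c1 : ℝ := min 1 (c0 / 4) with hc1
  have hc1p : 0 < c1 := lt_min one_pos (by positivity)
  have hc11 : c1 ≤ 1 := min_le_left _ _
  have hc1c : c1 ≤ c0 / 4 := min_le_right _ _
  obtain ⟨cS, CS, e2, hcS, hCS, he2, hQ⟩ := hS (c1 / 4) (by positivity)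
  refine ⟨c1 / 4, cS, CS, e2, hQ, min 1 (min e1 e2), lt_min one_pos (lt_min he1 he2),
    (min_le_right _ _).trans (min_le_left _ _), (min_le_right _ _).trans (min_le_right _ _), ?_⟩
  set e : ℝ := min 1 (min e1 e2) with he
  have hep : 0 < e := lt_min one_pos (lt_min he1 he2)
  have hel : e ≤ 1 := min_le_left _ _
  have hq0 : 0 < q3 := by linarith
  set M : ℝ := min (min (c0 / 2) cS) (min (c1 / 4) (c1 / q3)) with hM
  have hMp : 0 < M := by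
    refine lt_min (lt_min (by positivity) hcS) (lt_min (by positivity) (by positivity))
  have hM1 : M ≤ c0 / 2 := (min_le_left _ _).trans (min_le_left _ _)
  have hM2 : M ≤ cS := (min_le_left _ _).trans (min_le_right _ _)
  have hM3 : M ≤ c1 / 4 := (min_le_right _ _).trans (min_le_left _ _)
  have hM4 : M ≤ c1 / q3 := (min_le_right _ _).trans (min_le_right _ _)
  obtain ⟨K0, hK0⟩ := exists_nat_ge ((CS + 6) / (c1 / 2))
  have hK0' : CS + 6 ≤ K0 * (c1 / 2) := by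
    rw [div_le_iff₀ (by positivity)] at hK0; exact hK0
  have hsum : M / 2 + 20 * (e * M / 80) ≤ M := by nlinarith
  refine ⟨c1, M / 2, e * M / 80, min (1 / 80) (e * M / 80 / (40 * (K0 + 1))), K0,
    lt_min (by norm_num) (by positivity), fun k hk hkm => ?_⟩
  have hk1 : k ≤ 1 / 80 := hkm.trans (min_le_left _ _)
  have hk2 : k ≤ e * M / 80 / (40 * (K0 + 1)) := hkm.trans (min_le_right _ _)
  have hKp : (0 : ℝ) < 40 * ((K0 : ℝ) + 1) := by positivity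
  rw [le_div_iff₀ hKp] at hk2
  exact
    { k0 := hk, k1 := hk1, kκ := by linarith, hq3 := hq3, e0 := hep, e1 := hel, c10 := hc1p,
      c11 := hc11, bt0 := by positivity, CS0 := hCS,
      hA := by nlinarith,
      hS := hsum.trans hM2, hs := le_rfl, hC := hsum.trans hM3, hC3 := hsum.trans hM4,
      hK := hK0', hk := by nlinarith }

/-- **`Analytic2` from the rules with free small parameters**; the dictionary may depend on `(e, k)`. -/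
theorem analytic2_of' {q3 : ℝ} (hq3 : 2 < q3) (D : ℝ → ℝ → Dict)
    (hD : ∀ e k, 0 < e → 0 < k → k ≤ 1 / 80 → Dic (D e k) 0)
    (hF : ∀ e k, 0 < e → 0 < k → k ≤ 1 / 80 → FrzBd (D e k) k q3)
    (hA : ∃ c0 e1 : ℝ, 0 < c0 ∧ 0 < e1 ∧ ∀ e, 0 < e → e ≤ e1 → ∃ k1 : ℝ, 0 < k1 ∧
      ∀ k, 0 < k → k ≤ k1 → ∃ t0 K : ℝ, 0 < t0 ∧ 0 ≤ K ∧ RuleA2 (D e k) k q3 c0 e t0 K)
    (hS : ∀ s1 : ℝ, 0 < s1 → ∃ cS CS e2 : ℝ, 0 < cS ∧ 0 ≤ CS ∧ 0 < e2 ∧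
      ∀ e, 0 < e → e ≤ e2 → ∃ k2 : ℝ, 0 < k2 ∧ ∀ k, 0 < k → k ≤ k2 →
        ∃ t0 K : ℝ, 0 < t0 ∧ 0 ≤ K ∧ RuleS (D e k) k q3 cS CS s1 e t0 K) : Analytic2 := by
  obtain ⟨c0, e1, hc0, he1, hA⟩ := hA
  obtain ⟨s1, cS, CS, e2, hQ, e, he, hee1, hee2, c1, bt, κ, km, K0, hkm, hok⟩ :=
    exists_ok2 hq3 hc0 he1 hS
  obtain ⟨k1, hk1, hA⟩ := hA e he hee1
  obtain ⟨k2, hk2, hQ⟩ := hQ e he hee2
  set k : ℝ := min (min k1 k2) km with hk
  have hkp : 0 < k := lt_min (lt_min hk1 hk2) hkm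
  obtain ⟨t1, K1, ht1, hK1, hA⟩ := hA k hkp ((min_le_left _ _).trans (min_le_left _ _))
  obtain ⟨t2, K2, ht2, hK2, hQ⟩ := hQ k hkp ((min_le_left _ _).trans (min_le_right _ _))
  have hok' := hok k hkp (min_le_right _ _)
  exact ⟨D e k, k, q3, c0, cS, CS, s1, e, c1, bt, κ, min t1 t2, max K1 K2, K0, hok',
    lt_min ht1 ht2, hK1.trans (le_max_left _ _), hD e k he hkp hok'.k1,
    hA.mono (min_le_left _ _) (le_max_left _ _), hQ.mono (min_le_right _ _) (le_max_right _ _),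
    hF e k he hkp hok'.k1⟩

/-- the same with one dictionary -/
theorem analytic2_of {q3 : ℝ} (hq3 : 2 < q3) (D : Dict) (hD : Dic D 0)
    (hF : ∀ k, 0 < k → k ≤ 1 / 80 → FrzBd D k q3)
    (hA : ∃ c0 e1 : ℝ, 0 < c0 ∧ 0 < e1 ∧ ∀ e, 0 < e → e ≤ e1 → ∃ k1 : ℝ, 0 < k1 ∧
      ∀ k, 0 < k → k ≤ k1 → ∃ t0 K : ℝ, 0 < t0 ∧ 0 ≤ K ∧ RuleA2 D k q3 c0 e t0 K)
    (hS : ∀ s1 : ℝ, 0 < s1 → ∃ cS CS e2 : ℝ, 0 < cS ∧ 0 ≤ CS ∧ 0 < e2 ∧
      ∀ e, 0 < e → e ≤ e2 → ∃ k2 : ℝ, 0 < k2 ∧ ∀ k, 0 < k → k ≤ k2 →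
        ∃ t0 K : ℝ, 0 < t0 ∧ 0 ≤ K ∧ RuleS D k q3 cS CS s1 e t0 K) : Analytic2 :=
  analytic2_of' hq3 (fun _ _ => D) (fun _ _ _ _ _ => hD) (fun _ k _ hk hk1 => hF k hk hk1) hA hS

end Crest.Agent.R079.TRec
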