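import Crest.Agent.R079.AsmA_844
import Crest.Agent.R079.Par_224

/-! R079, rule (A) = MIX: GRADED ASSEMBLY (helper734).

Steps I of doc 2541 (673) and of msg 28031 (59) kill the residual part of the `(G)` word only with a gain
tied to the weight of the penalty (`t^(g y)`), while one generation loses `t^(-2 C y)`.  So the weight has
to grow from generation to generation: `y_(j+1) = R y_j`.

* `iterG`, `itG` : `It260.iter`, `It260.it` with parameters depending on the generation;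
* `ruleA2_graded` : `GenA` (parameters `dl j`, `cG j`, `j < n`) + `StatA` => `RuleA2`;
* `ruleA2_exists` : choice of `n`, `R`, `y_0`, `c0` and of all small parameters, in the form of the
  hypothesis `hA` of `TRec.analytic2_of'`. -/

set_option autoImplicit false

namespace Crest.Agent.R079.AsmG734

open Finset Crest.Agent.R079.Grid Crest.Agent.R079.Growth Crest.Agent.R079.QRed
open Crest.Agent.R079.TRec Crest.Agent.R079.AsmA844

section it

variable {v : Fn → Fn → Nd → ℂ} {Sm : ℝ → Finset Nd → Fn → Fn → Prop} {R0 TB : Finset Nd}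

theorem cl_mono {s α β α' β' : ℝ} (h : It260.Cl v Sm R0 TB s α β) (hα : α ≤ α') (hβ : β ≤ β') :
    It260.Cl v Sm R0 TB s α' β' := by
  intro R I hR hRR X Y hXY
  refine (h R I hR hRR X Y hXY).trans (mul_le_mul_of_nonneg_left (add_le_add ?_ ?_) (sq_nonneg _))
  · exact mul_le_mul_of_nonneg_right hα (Growth.len_pos I).le
  · exact mul_le_mul_of_nonneg_right hβ (It260.bT_nonneg _ _ _)

/-- **`n` GENERATIONS**, parameters depending on the generation -/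
theorem iterG {P P' : ℝ} (hP : ∀ s, 0 < s → It260.Cl v Sm R0 TB s P P') (hP0 : 0 ≤ P)
    (hP1 : 0 ≤ P') (n : ℕ) : ∀ (κ A r L : ℕ → ℝ), (∀ j, 0 ≤ κ j) → (∀ j, 0 < r j) →
    (∀ j, 1 ≤ L j) → (∀ j, A j * r j ^ 2 ≤ L j) →
    (∀ j, j < n → It260.Gen v Sm R0 (κ j) (A j) (r j)) →
    ∀ s, 0 < s → It260.Cl v Sm R0 TB s
      ((∏ i ∈ range n, L i) * P + ∑ j ∈ range n, (∏ i ∈ range j, L i) * κ j)
      ((∏ i ∈ range n, r i ^ 2) * P') := by
  induction n with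
  | zero =>
    intro κ A r L _ _ _ _ _ s hs
    simpa using hP s hs
  | succ n ih =>
    intro κ A r L hκ hr hL hA hG s hs
    have hL0 : ∀ j, 0 ≤ L j := fun j => zero_le_one.trans (hL j)
    have h0 := ih (fun j => κ (j + 1)) (fun j => A (j + 1)) (fun j => r (j + 1))
      (fun j => L (j + 1)) (fun j => hκ _) (fun j => hr _) (fun j => hL _) (fun j => hA _)
      (fun j hj => hG (j + 1) (by omega)) (r 0 * s) (mul_pos (hr 0) hs)
    have hα : 0 ≤ (∏ i ∈ range n, L (i + 1)) * P +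
        ∑ j ∈ range n, (∏ i ∈ range j, L (i + 1)) * κ (j + 1) :=
      add_nonneg (mul_nonneg (Finset.prod_nonneg fun i _ => hL0 _) hP0)
        (Finset.sum_nonneg fun j _ => mul_nonneg (Finset.prod_nonneg fun i _ => hL0 _) (hκ _))
    have hβ : 0 ≤ (∏ i ∈ range n, r (i + 1) ^ 2) * P' :=
      mul_nonneg (Finset.prod_nonneg fun i _ => sq_nonneg _) hP1
    have h1 := It260.step (hG 0 (by omega)) hs hα hβ h0
    refine cl_mono h1 ?_ (le_of_eq ?_)
    · have e1 : (∏ i ∈ range (n + 1), L i) * P +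
          ∑ j ∈ range (n + 1), (∏ i ∈ range j, L i) * κ j =
          κ 0 + L 0 * ((∏ i ∈ range n, L (i + 1)) * P +
            ∑ j ∈ range n, (∏ i ∈ range j, L (i + 1)) * κ (j + 1)) := by
        rw [Finset.prod_range_succ', Finset.sum_range_succ']
        have e2 : ∑ j ∈ range n, (∏ i ∈ range (j + 1), L i) * κ (j + 1) =
            L 0 * ∑ j ∈ range n, (∏ i ∈ range j, L (i + 1)) * κ (j + 1) := by
          rw [Finset.mul_sum]
          refine Finset.sum_congr rfl fun j _ => ?_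
          rw [Finset.prod_range_succ']
          ring
        rw [e2]
        simp only [Finset.range_zero, Finset.prod_empty, one_mul]
        ring
      rw [e1]
      exact add_le_add le_rfl (mul_le_mul_of_nonneg_right (hA 0) hα)
    · rw [Finset.prod_range_succ']
      ring

/-- **[IT]**, graded -/
theorem itG (hmono : ∀ s R R' X Y, Sm s R X Y → R' ⊆ R → Sm s R' X Y) {I0 : Nd}
    (hR0 : Full R0 I0) (hTB : Tops R0 I0 TB) {AB : ℝ} (hc : Cnt R0 TB AB)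
    {P : ℝ} (hP0 : 0 ≤ P) (hP : It260.Piece v Sm R0 TB P) (n : ℕ) {κ A r L : ℕ → ℝ}
    (hκ : ∀ j, 0 ≤ κ j) (hr : ∀ j, 0 < r j) (hL : ∀ j, 1 ≤ L j)
    (hA : ∀ j, A j * r j ^ 2 ≤ L j)
    (hG : ∀ j, j < n → It260.Gen v Sm R0 (κ j) (A j) (r j)) {X Y : Fn} (hXY : Sm 1 R0 X Y) :
    ‖∑ p ∈ R0, v X Y p‖ ≤ ((∏ i ∈ range n, L i) * P +
      ∑ j ∈ range n, (∏ i ∈ range j, L i) * κ j + (∏ i ∈ range n, r i ^ 2) * P * AB) *
        len I0 := by
  have h1 := iterG (It260.base hmono hR0 hTB hP0 hP) hP0 hP0 n κ A r L hκ hr hL hA hG 1 one_pos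
    R0 I0 hR0 subset_rfl X Y hXY
  refine h1.trans ?_
  have h0 : 0 ≤ (∏ i ∈ range n, r i ^ 2) * P :=
    mul_nonneg (Finset.prod_nonneg fun i _ => sq_nonneg _) hP0
  have h2 := mul_le_mul_of_nonneg_left (It260.bT_le hR0 hc) h0
  rw [one_pow, one_mul, add_mul _ ((∏ i ∈ range n, r i ^ 2) * P * AB)]
  exact add_le_add le_rfl (h2.trans (le_of_eq (by ring)))

end it

theorem prodL {K t : ℝ} (ht : 0 < t) (dl : ℕ → ℝ) (n : ℕ) :
    ∏ i ∈ range n, (K ^ 3 * t ^ (-(2 * dl i))) =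
      K ^ (3 * n) * t ^ (-(2 * ∑ i ∈ range n, dl i)) := by
  induction n with
  | zero => simp
  | succ n ih =>
    rw [Finset.prod_range_succ, ih, Finset.sum_range_succ]
    have e : t ^ (-(2 * (∑ i ∈ range n, dl i + dl n))) =
        t ^ (-(2 * ∑ i ∈ range n, dl i)) * t ^ (-(2 * dl n)) := by
      rw [← Real.rpow_add ht]
      congr 1
      ring
    rw [e]
    ring

theorem prodr {K t c1 : ℝ} (ht : 0 < t) (dl : ℕ → ℝ) (n : ℕ) :
    ∏ i ∈ range n, (K * t ^ (c1 / 2 - dl i)) ^ 2 =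
      K ^ (2 * n) * t ^ (n * c1 - 2 * ∑ i ∈ range n, dl i) := by
  induction n with
  | zero => simp
  | succ n ih =>
    rw [Finset.prod_range_succ, ih, Finset.sum_range_succ]
    have e1 : (t ^ (c1 / 2 - dl n)) ^ 2 = t ^ (c1 - 2 * dl n) := by
      rw [← Real.rpow_natCast (t ^ (c1 / 2 - dl n)) 2, ← Real.rpow_mul ht.le]
      congr 1
      push_cast
      ring
    have e : t ^ (((n + 1 : ℕ) : ℝ) * c1 - 2 * (∑ i ∈ range n, dl i + dl n)) =
        t ^ (n * c1 - 2 * ∑ i ∈ range n, dl i) * t ^ (c1 - 2 * dl n) := by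
      rw [← Real.rpow_add ht]
      congr 1
      push_cast
      ring
    rw [e, mul_pow, e1]
    ring

/-- the counting numbers, graded -/
theorem numG {c0 c1 cS CS t K B : ℝ} {dl cG : ℕ → ℝ} (ht : 0 < t) (ht1 : t ≤ 1) (hK : 1 ≤ K)
    (hB : 0 ≤ B) (n : ℕ) (h1 : c0 + 2 * ∑ i ∈ range n, dl i ≤ cS)
    (h2 : ∀ j, j < n → c0 + 2 * ∑ i ∈ range j, dl i ≤ cG j)
    (h3 : c0 + CS ≤ n * c1 - 2 * ∑ i ∈ range n, dl i + cS) :
    (∏ i ∈ range n, (K ^ 3 * t ^ (-(2 * dl i)))) * (K * (1 + B) * t ^ cS) +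
      ∑ j ∈ range n, (∏ i ∈ range j, (K ^ 3 * t ^ (-(2 * dl i)))) * (K * (1 + B) * t ^ (cG j)) +
      (∏ i ∈ range n, (K * t ^ (c1 / 2 - dl i)) ^ 2) * (K * (1 + B) * t ^ cS) *
        (K * t ^ (-CS)) ≤
      (K ^ (3 * n) * (K + n * K) + K ^ (2 * n + 2)) * (1 + B) * t ^ c0 := by
  have hK0 : 0 < K := by linarith
  have hB1 : 0 ≤ 1 + B := by linarith
  rw [prodr ht, prodL ht]
  have a1 : K ^ (3 * n) * t ^ (-(2 * ∑ i ∈ range n, dl i)) * (K * (1 + B) * t ^ cS) ≤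
      K ^ (3 * n) * K * (1 + B) * t ^ c0 := by
    have g1 : t ^ (-(2 * ∑ i ∈ range n, dl i)) * t ^ cS ≤ t ^ c0 := by
      rw [← Real.rpow_add ht]
      exact Real.rpow_le_rpow_of_exponent_ge ht ht1 (by linarith)
    have p1 : 0 ≤ K ^ (3 * n) * K * (1 + B) := by positivity
    calc K ^ (3 * n) * t ^ (-(2 * ∑ i ∈ range n, dl i)) * (K * (1 + B) * t ^ cS)
        = K ^ (3 * n) * K * (1 + B) * (t ^ (-(2 * ∑ i ∈ range n, dl i)) * t ^ cS) := by ring
      _ ≤ _ := mul_le_mul_of_nonneg_left g1 p1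
  have a2 : ∑ j ∈ range n, (∏ i ∈ range j, (K ^ 3 * t ^ (-(2 * dl i)))) *
      (K * (1 + B) * t ^ (cG j)) ≤ n * (K ^ (3 * n) * K * (1 + B) * t ^ c0) := by
    have h4 : ∀ j ∈ range n, (∏ i ∈ range j, (K ^ 3 * t ^ (-(2 * dl i)))) *
        (K * (1 + B) * t ^ (cG j)) ≤ K ^ (3 * n) * K * (1 + B) * t ^ c0 := by
      intro j hj
      have hjn : j < n := Finset.mem_range.1 hj
      rw [prodL ht]
      have g1 : t ^ (-(2 * ∑ i ∈ range j, dl i)) * t ^ (cG j) ≤ t ^ c0 := by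
        rw [← Real.rpow_add ht]
        exact Real.rpow_le_rpow_of_exponent_ge ht ht1 (by linarith [h2 j hjn])
      have g2 : K ^ (3 * j) ≤ K ^ (3 * n) := pow_le_pow_right₀ hK (by omega)
      have g3 : 0 ≤ t ^ c0 := Real.rpow_nonneg ht.le _
      calc K ^ (3 * j) * t ^ (-(2 * ∑ i ∈ range j, dl i)) * (K * (1 + B) * t ^ (cG j))
          = K ^ (3 * j) * (K * (1 + B)) * (t ^ (-(2 * ∑ i ∈ range j, dl i)) * t ^ (cG j)) := by
            ring
        _ ≤ K ^ (3 * j) * (K * (1 + B)) * t ^ c0 := by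
            refine mul_le_mul_of_nonneg_left g1 (by positivity)
        _ ≤ K ^ (3 * n) * (K * (1 + B)) * t ^ c0 := by
            refine mul_le_mul_of_nonneg_right ?_ g3
            exact mul_le_mul_of_nonneg_right g2 (by positivity)
        _ = _ := by ring
    refine (Finset.sum_le_sum h4).trans (le_of_eq ?_)
    rw [Finset.sum_const, Finset.card_range, nsmul_eq_mul]
  have a3 : K ^ (2 * n) * t ^ (n * c1 - 2 * ∑ i ∈ range n, dl i) * (K * (1 + B) * t ^ cS) *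
      (K * t ^ (-CS)) ≤ K ^ (2 * n + 2) * (1 + B) * t ^ c0 := by
    have g1 : t ^ (n * c1 - 2 * ∑ i ∈ range n, dl i) * t ^ cS * t ^ (-CS) ≤ t ^ c0 := by
      rw [← Real.rpow_add ht, ← Real.rpow_add ht]
      exact Real.rpow_le_rpow_of_exponent_ge ht ht1 (by linarith)
    have p1 : 0 ≤ K ^ (2 * n + 2) * (1 + B) := by positivity
    calc K ^ (2 * n) * t ^ (n * c1 - 2 * ∑ i ∈ range n, dl i) * (K * (1 + B) * t ^ cS) *
          (K * t ^ (-CS))
        = K ^ (2 * n + 2) * (1 + B) *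
          (t ^ (n * c1 - 2 * ∑ i ∈ range n, dl i) * t ^ cS * t ^ (-CS)) := by ring
      _ ≤ _ := mul_le_mul_of_nonneg_left g1 p1
  calc _ ≤ K ^ (3 * n) * K * (1 + B) * t ^ c0 + n * (K ^ (3 * n) * K * (1 + B) * t ^ c0) +
        K ^ (2 * n + 2) * (1 + B) * t ^ c0 := add_le_add (add_le_add a1 a2) a3
    _ = _ := by ring

/-- **RULE (A) from GRADED Step I + Step II** (`n` generations, losses `dl j`, gains `cG j`) -/
theorem ruleA2_graded {D : Dict} {k q3 e c1 cS CS t0 K c0 : ℝ} {dl cG : ℕ → ℝ} (hk : 0 < k)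
    (hkq : 2 + k ≤ q3) (ht0 : t0 ≤ 1) (hK : 1 ≤ K) (hdl : ∀ j, 0 ≤ dl j) (n : ℕ)
    (h1 : c0 + 2 * ∑ i ∈ range n, dl i ≤ cS)
    (h2 : ∀ j, j < n → c0 + 2 * ∑ i ∈ range j, dl i ≤ cG j)
    (h3 : c0 + CS ≤ n * c1 - 2 * ∑ i ∈ range n, dl i + cS)
    (hG : ∀ j, j < n → GenA D k q3 e c1 (dl j) (cG j) t0 K)
    (hS : StatA D k q3 e cS CS t0 K) :
    RuleA2 D k q3 c0 e t0 (K ^ (3 * n) * (K + n * K) + K ^ (2 * n + 2)) := by
  intro N B hB hBN t ht htt bb ε hA W I hW hI F hF i m him hi3 hm3 hfz hlv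
  have ht1 : t ≤ 1 := htt.trans ht0
  have hK0 : 0 < K := by linarith
  obtain ⟨a, b, hai, ham, hbi, hbm, hab⟩ := exists_oth i m him
  have hO : Oth i m a b := ⟨hai, ham, hbi, hbm, hab⟩
  have hall : ∀ j, ∀ p ∈ W, aq (2 + k) p (F j) ≤ 1 := fun j p hp =>
    (AsmA844.aq_le_aq (by linarith) (by unfold qx; split_ifs <;> linarith) p (F j)).trans
      (hF j p hp)
  have hPR : PR D k e t W I i m F :=
    ⟨hW, him, hi3, hm3, hall i, hall m, hfz, hlv⟩
  obtain ⟨TB, hTB, hc, hP⟩ := hS N B hB hBN t ht htt bb W I i m F hPR hI a b hO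
  have hGen : ∀ j, j < n → It260.Gen (v4 bb ε F a b) (Sm k) W (K * (1 + B) * t ^ (cG j))
      (K * t ^ (-c1)) (K * t ^ (c1 / 2 - dl j)) :=
    fun j hj => hG j hj N B hB hBN t ht htt W I i m F hPR hI a b hO bb ε hA
  have hmono : ∀ s R R' X Y, Sm k s R X Y → R' ⊆ R → Sm k s R' X Y :=
    fun s R R' X Y h hs p hp => h p (hs hp)
  have hL : ∀ j, (1 : ℝ) ≤ K ^ 3 * t ^ (-(2 * dl j)) := by
    intro j
    have g1 : (1 : ℝ) ≤ K ^ 3 := one_le_pow₀ hK
    have g2 : (1 : ℝ) ≤ t ^ (-(2 * dl j)) := Real.one_le_rpow_of_pos_of_le_one_of_nonpos ht ht1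
      (by linarith [hdl j])
    nlinarith
  have hA2 : ∀ j, K * t ^ (-c1) * (K * t ^ (c1 / 2 - dl j)) ^ 2 ≤
      K ^ 3 * t ^ (-(2 * dl j)) := by
    intro j
    refine le_of_eq ?_
    rw [mul_pow, ← Real.rpow_natCast (t ^ (c1 / 2 - dl j)) 2, ← Real.rpow_mul ht.le]
    have e1 : K * t ^ (-c1) * (K ^ 2 * t ^ ((c1 / 2 - dl j) * ((2 : ℕ) : ℝ))) =
        K ^ 3 * (t ^ (-c1) * t ^ ((c1 / 2 - dl j) * ((2 : ℕ) : ℝ))) := by ring
    rw [e1, ← Real.rpow_add ht]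
    congr 2
    push_cast
    ring
  have hit := itG (v := v4 bb ε F a b) (Sm := Sm k) hmono hW hTB hc
    (P := K * (1 + B) * t ^ cS) (by positivity) (hP ε hA) n
    (κ := fun j => K * (1 + B) * t ^ (cG j)) (A := fun _ => K * t ^ (-c1))
    (r := fun j => K * t ^ (c1 / 2 - dl j)) (L := fun j => K ^ 3 * t ^ (-(2 * dl j)))
    (fun j => by positivity) (fun j => by positivity) hL hA2 hGen
    (X := F a) (Y := F b) (fun p hp => ⟨hall a p hp, hall b p hp⟩)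
  have e0 : TR bb ε W F = ∑ p ∈ W, v4 bb ε F a b (F a) (F b) p := by
    unfold TR v4
    rw [Function.update_eq_self, Function.update_eq_self]
  rw [e0]
  refine hit.trans (mul_le_mul_of_nonneg_right ?_ (Growth.len_pos I).le)
  exact numG ht ht1 hK hB n h1 h2 h3

/-! ### monotonicity in `t0`, `K` -/

theorem genA_mono {D : Dict} {k q3 e c1 dl cG t0 K t0' K' : ℝ}
    (h : GenA D k q3 e c1 dl cG t0 K) (ht : t0' ≤ t0) (hK : K ≤ K') :
    GenA D k q3 e c1 dl cG t0' K' := by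
  intro N B hB hBN t h0 h1 W I i m F hPR hI a b hO bb ε hA s hs R J hR hRR X Y hXY
  obtain ⟨T, X', Y', hT, hc, hS, hV⟩ :=
    h N B hB hBN t h0 (h1.trans ht) W I i m F hPR hI a b hO bb ε hA s hs R J hR hRR X Y hXY
  have hl : 0 ≤ len J := (Growth.len_pos J).le
  refine ⟨T, X', Y', hT, ?_, ?_, ?_⟩
  · refine hc.trans (mul_le_mul_of_nonneg_right ?_ hl)
    exact mul_le_mul_of_nonneg_right hK (Real.rpow_nonneg h0.le _)
  · intro w hw p hp
    have h2 := hS w hw p hp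
    have h3 : K * t ^ (c1 / 2 - dl) * s ≤ K' * t ^ (c1 / 2 - dl) * s :=
      mul_le_mul_of_nonneg_right (mul_le_mul_of_nonneg_right hK (Real.rpow_nonneg h0.le _)) hs.le
    exact ⟨h2.1.trans h3, h2.2.trans h3⟩
  · refine hV.trans (add_le_add ?_ le_rfl)
    have h4 : K * (1 + B) * t ^ cG ≤ K' * (1 + B) * t ^ cG :=
      mul_le_mul_of_nonneg_right (mul_le_mul_of_nonneg_right hK (by linarith))
        (Real.rpow_nonneg h0.le _)
    exact mul_le_mul_of_nonneg_right (mul_le_mul_of_nonneg_left h4 (sq_nonneg _)) hl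

theorem statA_mono {D : Dict} {k q3 e cS CS t0 K t0' K' : ℝ}
    (h : StatA D k q3 e cS CS t0 K) (ht : t0' ≤ t0) (hK : K ≤ K') :
    StatA D k q3 e cS CS t0' K' := by
  intro N B hB hBN t h0 h1 bb W I i m F hPR hI a b hO
  obtain ⟨TB, hTB, hc, hP⟩ := h N B hB hBN t h0 (h1.trans ht) bb W I i m F hPR hI a b hO
  refine ⟨TB, hTB, fun p hp => (hc p hp).trans ?_, fun ε hA s hs R J hR hRR hJ X Y hXY =>
    (hP ε hA s hs R J hR hRR hJ X Y hXY).trans ?_⟩
  · exact mul_le_mul_of_nonneg_right (mul_le_mul_of_nonneg_right hK (Real.rpow_nonneg h0.le _))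
      (Growth.len_pos p).le
  · have h4 : K * (1 + B) * t ^ cS ≤ K' * (1 + B) * t ^ cS :=
      mul_le_mul_of_nonneg_right (mul_le_mul_of_nonneg_right hK (by linarith))
        (Real.rpow_nonneg h0.le _)
    exact mul_le_mul_of_nonneg_right (mul_le_mul_of_nonneg_left h4 (sq_nonneg _))
      (Growth.len_pos J).le

/-! ### choice of the parameters -/

theorem unif_small {n : ℕ} {Q : ℕ → ℝ → Prop}
    (h : ∀ j, j < n → ∃ x : ℝ, 0 < x ∧ ∀ y, 0 < y → y ≤ x → Q j y) :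
    ∃ x : ℝ, 0 < x ∧ ∀ y, 0 < y → y ≤ x → ∀ j, j < n → Q j y := by
  induction n with
  | zero => exact ⟨1, one_pos, fun y _ _ j hj => absurd hj (by omega)⟩
  | succ n ih =>
    obtain ⟨x, hx, h1⟩ := ih fun j hj => h j (by omega)
    obtain ⟨x', hx', h2⟩ := h n (by omega)
    refine ⟨min x x', lt_min hx hx', fun y hy hyx j hj => ?_⟩
    rcases Nat.lt_succ_iff_lt_or_eq.1 hj with h3 | h3
    · exact h1 y hy (hyx.trans (min_le_left _ _)) j h3
    · subst h3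
      exact h2 y hy (hyx.trans (min_le_right _ _))

theorem unif_tK {n : ℕ} {Q : ℕ → ℝ → ℝ → Prop}
    (hm : ∀ j t K t' K', Q j t K → t' ≤ t → K ≤ K' → Q j t' K')
    (h : ∀ j, j < n → ∃ t K : ℝ, 0 < t ∧ 0 ≤ K ∧ Q j t K) :
    ∃ t K : ℝ, 0 < t ∧ t ≤ 1 ∧ 1 ≤ K ∧ ∀ j, j < n → Q j t K := by
  induction n with
  | zero => exact ⟨1, 1, one_pos, le_rfl, le_rfl, fun j hj => absurd hj (by omega)⟩
  | succ n ih =>
    obtain ⟨t, K, ht, ht1, hK, h1⟩ := ih fun j hj => h j (by omega)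
    obtain ⟨t', K', ht', _, h2⟩ := h n (by omega)
    refine ⟨min t t', max K K', lt_min ht ht', (min_le_left _ _).trans ht1,
      hK.trans (le_max_left _ _), fun j hj => ?_⟩
    rcases Nat.lt_succ_iff_lt_or_eq.1 hj with h3 | h3
    · exact hm _ _ _ _ _ (h1 j h3) (min_le_left _ _) (le_max_left _ _)
    · subst h3
      exact hm _ _ _ _ _ h2 (min_le_right _ _) (le_max_right _ _)

/-- geometric weights -/
theorem geo {R y0 : ℝ} (_hR : 1 < R) (hy : 0 ≤ y0) (n : ℕ) :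
    (R - 1) * ∑ i ∈ range n, y0 * R ^ i ≤ y0 * R ^ n := by
  induction n with
  | zero => simpa using hy
  | succ n ih =>
    rw [Finset.sum_range_succ, mul_add]
    have : (R - 1) * (y0 * R ^ n) = y0 * R ^ (n + 1) - y0 * R ^ n := by ring
    linarith

/-- **the parameters**: `n ≥ CS / c1` generations, weights `y_j = y0 R^j` -/
theorem exists_weights {c1 C g ys cS CS : ℝ} (hc1 : 0 < c1) (hC : 0 < C) (hg : 0 < g)
    (hys : 0 < ys) (hcS : 0 < cS) :
    ∃ (n : ℕ) (y : ℕ → ℝ) (c0 : ℝ), 0 < c0 ∧ (∀ j, 0 < y j) ∧ (∀ j, j < n → y j ≤ ys) ∧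
      c0 + 2 * ∑ i ∈ range n, C * y i ≤ cS ∧
      (∀ j, j < n → c0 + 2 * ∑ i ∈ range j, C * y i ≤ g * y j) ∧
      c0 + CS ≤ n * c1 - 2 * ∑ i ∈ range n, C * y i + cS := by
  obtain ⟨n, hn⟩ := exists_nat_ge (CS / c1)
  have hn' : CS ≤ n * c1 := by rwa [div_le_iff₀ hc1] at hn
  set R : ℝ := 1 + 4 * C / g with hR
  have hR1 : 1 < R := by
    have : 0 < 4 * C / g := by positivity
    linarith
  have hR0 : 0 < R := by linarith
  have hRg : (R - 1) * g = 4 * C := by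
    rw [hR]
    field_simp
    ring
  set y0 : ℝ := min ys (cS / g) / R ^ n with hy0
  have hm : 0 < min ys (cS / g) := lt_min hys (by positivity)
  have hy0p : 0 < y0 := div_pos hm (pow_pos hR0 n)
  have hyn : y0 * R ^ n = min ys (cS / g) := by
    rw [hy0]
    field_simp
  have key : ∀ j : ℕ, 2 * ∑ i ∈ range j, C * (y0 * R ^ i) ≤ g / 2 * (y0 * R ^ j) := by
    intro j
    have h1 := geo hR1 hy0p.le j
    have h2 : (R - 1) * (2 * ∑ i ∈ range j, C * (y0 * R ^ i)) ≤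
        (R - 1) * (g / 2 * (y0 * R ^ j)) := by
      have e1 : (R - 1) * (2 * ∑ i ∈ range j, C * (y0 * R ^ i)) =
          2 * C * ((R - 1) * ∑ i ∈ range j, y0 * R ^ i) := by
        rw [← Finset.mul_sum]
        ring
      have e2 : (R - 1) * (g / 2 * (y0 * R ^ j)) = 2 * C * (y0 * R ^ j) := by
        have : (R - 1) * (g / 2 * (y0 * R ^ j)) = ((R - 1) * g) / 2 * (y0 * R ^ j) := by ring
        rw [this, hRg]
        ring
      rw [e1, e2]
      exact mul_le_mul_of_nonneg_left h1 (by positivity)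
    exact le_of_mul_le_mul_left h2 (by linarith)
  have hpow : ∀ j : ℕ, y0 ≤ y0 * R ^ j := fun j =>
    le_mul_of_one_le_right hy0p.le (one_le_pow₀ hR1.le)
  have hle : g * (y0 * R ^ n) ≤ cS := by
    rw [hyn]
    calc g * min ys (cS / g) ≤ g * (cS / g) := mul_le_mul_of_nonneg_left (min_le_right _ _) hg.le
      _ = cS := by field_simp
  have hsum : g / 2 * y0 + 2 * ∑ i ∈ range n, C * (y0 * R ^ i) ≤ cS := by
    have h1 := key n
    have h2 := mul_le_mul_of_nonneg_left (hpow n) (by positivity : (0 : ℝ) ≤ g / 2)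
    nlinarith
  refine ⟨n, fun j => y0 * R ^ j, g / 2 * y0, by positivity, fun j => by positivity,
    fun j hj => ?_, hsum, fun j _ => ?_, ?_⟩
  · have h1 : y0 * R ^ j ≤ y0 * R ^ n :=
      mul_le_mul_of_nonneg_left (pow_le_pow_right₀ hR1.le hj.le) hy0p.le
    exact h1.trans (hyn.le.trans (min_le_left _ _))
  · have h1 := key j
    have h2 := mul_le_mul_of_nonneg_left (hpow j) (by positivity : (0 : ℝ) ≤ g / 2)
    show g / 2 * y0 + 2 * ∑ i ∈ range j, C * (y0 * R ^ i) ≤ g * (y0 * R ^ j)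
    linarith
  · show g / 2 * y0 + CS ≤ n * c1 - 2 * ∑ i ∈ range n, C * (y0 * R ^ i) + cS
    linarith

/-- **hypothesis `hA` of `TRec.analytic2_of'` from Step I (every small weight `y`: gain `g y`, loss
`C y`, windows `t^(-c1)` with `c1` FIXED) and Step II.**  The dictionary may depend on `(e, k)`. -/
theorem ruleA2_exists {q3 : ℝ} (hq3 : 2 < q3) (D : ℝ → ℝ → Dict)
    (hG : ∃ c1 C g ys : ℝ, 0 < c1 ∧ 0 < C ∧ 0 < g ∧ 0 < ys ∧ ∀ y, 0 < y → y ≤ ys →
      ∃ e1 : ℝ, 0 < e1 ∧ ∀ e, 0 < e → e ≤ e1 → ∃ k1 : ℝ, 0 < k1 ∧ ∀ k, 0 < k → k ≤ k1 →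
        ∃ t0 K : ℝ, 0 < t0 ∧ 0 ≤ K ∧ GenA (D e k) k q3 e c1 (C * y) (g * y) t0 K)
    (hS : ∃ cS CS e2 : ℝ, 0 < cS ∧ 0 < e2 ∧ ∀ e, 0 < e → e ≤ e2 → ∃ k2 : ℝ, 0 < k2 ∧
      ∀ k, 0 < k → k ≤ k2 → ∃ t0 K : ℝ, 0 < t0 ∧ 0 ≤ K ∧ StatA (D e k) k q3 e cS CS t0 K) :
    ∃ c0 e1 : ℝ, 0 < c0 ∧ 0 < e1 ∧ ∀ e, 0 < e → e ≤ e1 → ∃ k1 : ℝ, 0 < k1 ∧
      ∀ k, 0 < k → k ≤ k1 → ∃ t0 K : ℝ, 0 < t0 ∧ 0 ≤ K ∧ RuleA2 (D e k) k q3 c0 e t0 K := by
  obtain ⟨c1, C, g, ys, hc1, hC, hg, hys, hG⟩ := hG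
  obtain ⟨cS, CS, e2, hcS, he2, hS⟩ := hS
  obtain ⟨n, y, c0, hc0, hy, hyy, n1, n2, n3⟩ := exists_weights (CS := CS) hc1 hC hg hys hcS
  obtain ⟨e1, he1, hG⟩ := unif_small (n := n) fun j hj => hG (y j) (hy j) (hyy j hj)
  refine ⟨c0, min e1 e2, hc0, lt_min he1 he2, fun e he hee => ?_⟩
  obtain ⟨k1, hk1, hG⟩ := unif_small (n := n) fun j hj => hG e he (hee.trans (min_le_left _ _)) j hj
  obtain ⟨k2, hk2, hS⟩ := hS e he (hee.trans (min_le_right _ _))
  refine ⟨min (min k1 k2) (q3 - 2), lt_min (lt_min hk1 hk2) (by linarith), fun k hk hkk => ?_⟩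
  have hkq : 2 + k ≤ q3 := by
    have := hkk.trans (min_le_right _ _)
    linarith
  obtain ⟨t1, K1, ht1, ht11, hK1, hG⟩ := unif_tK (n := n)
    (Q := fun j t K => GenA (D e k) k q3 e c1 (C * y j) (g * y j) t K)
    (fun j t K t' K' h => genA_mono h)
    (fun j hj => hG k hk (hkk.trans ((min_le_left _ _).trans (min_le_left _ _))) j hj)
  obtain ⟨t2, K2, ht2, hK2, hS⟩ := hS k hk (hkk.trans ((min_le_left _ _).trans (min_le_right _ _)))
  refine ⟨min t1 t2, _, lt_min ht1 ht2, ?_, ruleA2_graded (K := max K1 K2) hk hkq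
    ((min_le_left _ _).trans ht11) (hK1.trans (le_max_left _ _))
    (fun j => (mul_pos hC (hy j)).le) n n1 n2 n3
    (fun j hj => genA_mono (hG j hj) (min_le_left _ _) (le_max_left _ _))
    (statA_mono hS (min_le_right _ _) (le_max_right _ _))⟩
  have : (0 : ℝ) ≤ max K1 K2 := (zero_le_one.trans hK1).trans (le_max_left _ _)
  positivity

end Crest.Agent.R079.AsmG734
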