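import Crest.Agent.R079.AsmG_734

/-! R079, rule (A) = MIX: graded assembly FOR ONE PAIR `(i, m)` (helper734).

With the staggered dictionary of helper853 / 903 / 623 (`D' j t = D j (t ^ γ_j)`, `γ_0 < γ_1 < γ_2`) rule (A)
is needed only for the pairs `i > m`, the other pairs being trivial kills.  Same proof as `AsmG_734`, with
`i`, `m` fixed. -/

set_option autoImplicit false

namespace Crest.Agent.R079.AsmP734

open Finset Crest.Agent.R079.Grid Crest.Agent.R079.Growth Crest.Agent.R079.QRed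
open Crest.Agent.R079.TRec Crest.Agent.R079.AsmA844 Crest.Agent.R079.AsmG734

/-- rule (A) for the pair `(i, m)` -/
def PairA (D : Dict) (k q3 c0 e t0 K : ℝ) (i m : Fin 4) : Prop :=
  ∀ (N : ℕ) (B : ℝ), 0 ≤ B → BN k q3 N B → ∀ t, 0 < t → t ≤ t0 → ∀ bb ε, Adm bb ε → ∀ W I,
    Full W I → I.1 ≤ N → ∀ F, nrm k q3 W F → Fz D i (t ^ (1 + e)) 1 I (F i) →
      (∀ p ∈ W, Lv D m t 1 p (F m)) → ‖TR bb ε W F‖ ≤ K * (1 + B) * t ^ c0 * len I

/-- Step I for the pair `(i, m)` -/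
def GenP (D : Dict) (k q3 e c1 dl cG t0 K : ℝ) (i m : Fin 4) : Prop :=
  ∀ (N : ℕ) (B : ℝ), 0 ≤ B → BN k q3 N B → ∀ t, 0 < t → t ≤ t0 → ∀ W I F,
    PR D k e t W I i m F → I.1 ≤ N → ∀ a b : Fin 4, Oth i m a b → ∀ bb ε, Adm bb ε →
      It260.Gen (v4 bb ε F a b) (Sm k) W (K * (1 + B) * t ^ cG) (K * t ^ (-c1))
        (K * t ^ (c1 / 2 - dl))

/-- Step II for the pair `(i, m)` -/
def StatP (D : Dict) (k q3 e cS CS t0 K : ℝ) (i m : Fin 4) : Prop :=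
  ∀ (N : ℕ) (B : ℝ), 0 ≤ B → BN k q3 N B → ∀ t, 0 < t → t ≤ t0 → ∀ bb W I F,
    PR D k e t W I i m F → I.1 ≤ N → ∀ a b : Fin 4, Oth i m a b →
      ∃ TB : Finset Nd, Tops W I TB ∧ Cnt W TB (K * t ^ (-CS)) ∧
        ∀ ε, Adm bb ε → It260.Piece (v4 bb ε F a b) (Sm k) W TB (K * (1 + B) * t ^ cS)

theorem genA_of {D : Dict} {k q3 e c1 dl cG t0 K : ℝ}
    (h : ∀ i m : Fin 4, i ≠ m → i ≠ 3 → m ≠ 3 → GenP D k q3 e c1 dl cG t0 K i m) :
    GenA D k q3 e c1 dl cG t0 K :=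
  fun N B hB hBN t ht htt W I i m F hPR => h i m hPR.ne hPR.i3 hPR.m3 N B hB hBN t ht htt W I F hPR

theorem statA_of {D : Dict} {k q3 e cS CS t0 K : ℝ}
    (h : ∀ i m : Fin 4, i ≠ m → i ≠ 3 → m ≠ 3 → StatP D k q3 e cS CS t0 K i m) :
    StatA D k q3 e cS CS t0 K :=
  fun N B hB hBN t ht htt bb W I i m F hPR =>
    h i m hPR.ne hPR.i3 hPR.m3 N B hB hBN t ht htt bb W I F hPR

theorem ruleA2_of_pairs {D : Dict} {k q3 c0 e t0 K : ℝ}
    (h : ∀ i m : Fin 4, i ≠ m → i ≠ 3 → m ≠ 3 → PairA D k q3 c0 e t0 K i m) :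
    RuleA2 D k q3 c0 e t0 K :=
  fun N B hB hBN t ht htt bb ε hA W I hW hI F hF i m him hi hm =>
    h i m him hi hm N B hB hBN t ht htt bb ε hA W I hW hI F hF

/-- **pair rule from GRADED Step I + Step II** -/
theorem pairA_graded {D : Dict} {k q3 e c1 cS CS t0 K c0 : ℝ} {dl cG : ℕ → ℝ} {i m : Fin 4}
    (him : i ≠ m) (hi3 : i ≠ 3) (hm3 : m ≠ 3) (hk : 0 < k)
    (hkq : 2 + k ≤ q3) (ht0 : t0 ≤ 1) (hK : 1 ≤ K) (hdl : ∀ j, 0 ≤ dl j) (n : ℕ)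
    (h1 : c0 + 2 * ∑ i ∈ range n, dl i ≤ cS)
    (h2 : ∀ j, j < n → c0 + 2 * ∑ i ∈ range j, dl i ≤ cG j)
    (h3 : c0 + CS ≤ n * c1 - 2 * ∑ i ∈ range n, dl i + cS)
    (hG : ∀ j, j < n → GenP D k q3 e c1 (dl j) (cG j) t0 K i m)
    (hS : StatP D k q3 e cS CS t0 K i m) :
    PairA D k q3 c0 e t0 (K ^ (3 * n) * (K + n * K) + K ^ (2 * n + 2)) i m := by
  intro N B hB hBN t ht htt bb ε hA W I hW hI F hF hfz hlv
  have ht1 : t ≤ 1 := htt.trans ht0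
  have hK0 : 0 < K := by linarith
  obtain ⟨a, b, hai, ham, hbi, hbm, hab⟩ := exists_oth i m him
  have hO : Oth i m a b := ⟨hai, ham, hbi, hbm, hab⟩
  have hall : ∀ j, ∀ p ∈ W, aq (2 + k) p (F j) ≤ 1 := fun j p hp =>
    (AsmA844.aq_le_aq (by linarith) (by unfold qx; split_ifs <;> linarith) p (F j)).trans
      (hF j p hp)
  have hPR : PR D k e t W I i m F :=
    ⟨hW, him, hi3, hm3, hall i, hall m, hfz, hlv⟩
  obtain ⟨TB, hTB, hc, hP⟩ := hS N B hB hBN t ht htt bb W I F hPR hI a b hO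
  have hGen : ∀ j, j < n → It260.Gen (v4 bb ε F a b) (Sm k) W (K * (1 + B) * t ^ (cG j))
      (K * t ^ (-c1)) (K * t ^ (c1 / 2 - dl j)) :=
    fun j hj => hG j hj N B hB hBN t ht htt W I F hPR hI a b hO bb ε hA
  have hmono : ∀ s R R' X Y, Sm k s R X Y → R' ⊆ R → Sm k s R' X Y :=
    fun s R R' X Y h hs p hp => h p (hs hp)
  have hL : ∀ j, (1 : ℝ) ≤ K ^ 3 * t ^ (-(2 * dl j)) := by
    intro j
    have g1 : (1 : ℝ) ≤ K ^ 3 := one_le_pow₀ hK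
    have g2 : (1 : ℝ) ≤ t ^ (-(2 * dl j)) := Real.one_le_rpow_of_pos_of_le_one_of_nonpos ht ht1
      (by linarith [hdl j])
    nlinarith
  have hA2 : ∀ j, K * t ^ (-c1) * (K * t ^ (c1 / 2 - dl j)) ^ 2 ≤
      K ^ 3 * t ^ (-(2 * dl j)) := by
    intro j
    refine le_of_eq ?_
    rw [mul_pow, ← Real.rpow_natCast (t ^ (c1 / 2 - dl j)) 2, ← Real.rpow_mul ht.le]
    have e1 : K * t ^ (-c1) * (K ^ 2 * t ^ ((c1 / 2 - dl j) * ((2 : ℕ) : ℝ))) =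
        K ^ 3 * (t ^ (-c1) * t ^ ((c1 / 2 - dl j) * ((2 : ℕ) : ℝ))) := by ring
    rw [e1, ← Real.rpow_add ht]
    congr 2
    push_cast
    ring
  have hit := itG (v := v4 bb ε F a b) (Sm := Sm k) hmono hW hTB hc
    (P := K * (1 + B) * t ^ cS) (by positivity) (hP ε hA) n
    (κ := fun j => K * (1 + B) * t ^ (cG j)) (A := fun _ => K * t ^ (-c1))
    (r := fun j => K * t ^ (c1 / 2 - dl j)) (L := fun j => K ^ 3 * t ^ (-(2 * dl j)))
    (fun j => by positivity) (fun j => by positivity) hL hA2 hGen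
    (X := F a) (Y := F b) (fun p hp => ⟨hall a p hp, hall b p hp⟩)
  have e0 : TR bb ε W F = ∑ p ∈ W, v4 bb ε F a b (F a) (F b) p := by
    unfold TR v4
    rw [Function.update_eq_self, Function.update_eq_self]
  rw [e0]
  refine hit.trans (mul_le_mul_of_nonneg_right ?_ (Growth.len_pos I).le)
  exact numG ht ht1 hK hB n h1 h2 h3

theorem genP_mono {D : Dict} {k q3 e c1 dl cG t0 K t0' K' : ℝ} {i m : Fin 4}
    (h : GenP D k q3 e c1 dl cG t0 K i m) (ht : t0' ≤ t0) (hK : K ≤ K') :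
    GenP D k q3 e c1 dl cG t0' K' i m := by
  intro N B hB hBN t h0 h1 W I F hPR hI a b hO bb ε hA s hs R J hR hRR X Y hXY
  obtain ⟨T, X', Y', hT, hc, hS, hV⟩ :=
    h N B hB hBN t h0 (h1.trans ht) W I F hPR hI a b hO bb ε hA s hs R J hR hRR X Y hXY
  have hl : 0 ≤ len J := (Growth.len_pos J).le
  refine ⟨T, X', Y', hT, ?_, ?_, ?_⟩
  · refine hc.trans (mul_le_mul_of_nonneg_right ?_ hl)
    exact mul_le_mul_of_nonneg_right hK (Real.rpow_nonneg h0.le _)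
  · intro w hw p hp
    have h2 := hS w hw p hp
    have h3 : K * t ^ (c1 / 2 - dl) * s ≤ K' * t ^ (c1 / 2 - dl) * s :=
      mul_le_mul_of_nonneg_right (mul_le_mul_of_nonneg_right hK (Real.rpow_nonneg h0.le _)) hs.le
    exact ⟨h2.1.trans h3, h2.2.trans h3⟩
  · refine hV.trans (add_le_add ?_ le_rfl)
    have h4 : K * (1 + B) * t ^ cG ≤ K' * (1 + B) * t ^ cG :=
      mul_le_mul_of_nonneg_right (mul_le_mul_of_nonneg_right hK (by linarith))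
        (Real.rpow_nonneg h0.le _)
    exact mul_le_mul_of_nonneg_right (mul_le_mul_of_nonneg_left h4 (sq_nonneg _)) hl

theorem statP_mono {D : Dict} {k q3 e cS CS t0 K t0' K' : ℝ} {i m : Fin 4}
    (h : StatP D k q3 e cS CS t0 K i m) (ht : t0' ≤ t0) (hK : K ≤ K') :
    StatP D k q3 e cS CS t0' K' i m := by
  intro N B hB hBN t h0 h1 bb W I F hPR hI a b hO
  obtain ⟨TB, hTB, hc, hP⟩ := h N B hB hBN t h0 (h1.trans ht) bb W I F hPR hI a b hO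
  refine ⟨TB, hTB, fun p hp => (hc p hp).trans ?_, fun ε hA s hs R J hR hRR hJ X Y hXY =>
    (hP ε hA s hs R J hR hRR hJ X Y hXY).trans ?_⟩
  · exact mul_le_mul_of_nonneg_right (mul_le_mul_of_nonneg_right hK (Real.rpow_nonneg h0.le _))
      (Growth.len_pos p).le
  · have h4 : K * (1 + B) * t ^ cS ≤ K' * (1 + B) * t ^ cS :=
      mul_le_mul_of_nonneg_right (mul_le_mul_of_nonneg_right hK (by linarith))
        (Real.rpow_nonneg h0.le _)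
    exact mul_le_mul_of_nonneg_right (mul_le_mul_of_nonneg_left h4 (sq_nonneg _))
      (Growth.len_pos J).le

theorem pairA_mono {D : Dict} {k q3 c0 e t0 K c0' t0' K' : ℝ} {i m : Fin 4}
    (h : PairA D k q3 c0 e t0 K i m) (ht : t0' ≤ t0) (ht1 : t0' ≤ 1) (hc : c0' ≤ c0) (hK0 : 0 ≤ K)
    (hK : K ≤ K') : PairA D k q3 c0' e t0' K' i m := by
  intro N B hB hBN t h0 h1 bb ε hA W I hW hI F hF hfz hlv
  have h2 := h N B hB hBN t h0 (h1.trans ht) bb ε hA W I hW hI F hF hfz hlv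
  refine h2.trans (mul_le_mul_of_nonneg_right ?_ (Growth.len_pos I).le)
  have h3 : t ^ c0 ≤ t ^ c0' := Real.rpow_le_rpow_of_exponent_ge h0 (h1.trans ht1) hc
  have h4 : 0 ≤ t ^ c0 := Real.rpow_nonneg h0.le _
  calc K * (1 + B) * t ^ c0 ≤ K' * (1 + B) * t ^ c0 :=
        mul_le_mul_of_nonneg_right (mul_le_mul_of_nonneg_right hK (by linarith)) h4
    _ ≤ K' * (1 + B) * t ^ c0' :=
        mul_le_mul_of_nonneg_left h3 (mul_nonneg (hK0.trans hK) (by linarith))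

/-- **pair rule, all parameters chosen** (`y` = weight: gain `g y`, loss `C y`; `c1` fixed) -/
theorem pairA_exists {q3 : ℝ} (hq3 : 2 < q3) (D : ℝ → ℝ → Dict) {i m : Fin 4} (him : i ≠ m)
    (hi3 : i ≠ 3) (hm3 : m ≠ 3)
    (hG : ∃ c1 C g ys : ℝ, 0 < c1 ∧ 0 < C ∧ 0 < g ∧ 0 < ys ∧ ∀ y, 0 < y → y ≤ ys →
      ∃ e1 : ℝ, 0 < e1 ∧ ∀ e, 0 < e → e ≤ e1 → ∃ k1 : ℝ, 0 < k1 ∧ ∀ k, 0 < k → k ≤ k1 →
        ∃ t0 K : ℝ, 0 < t0 ∧ 0 ≤ K ∧ GenP (D e k) k q3 e c1 (C * y) (g * y) t0 K i m)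
    (hS : ∃ cS CS e2 : ℝ, 0 < cS ∧ 0 < e2 ∧ ∀ e, 0 < e → e ≤ e2 → ∃ k2 : ℝ, 0 < k2 ∧
      ∀ k, 0 < k → k ≤ k2 → ∃ t0 K : ℝ, 0 < t0 ∧ 0 ≤ K ∧
        StatP (D e k) k q3 e cS CS t0 K i m) :
    ∃ c0 e1 : ℝ, 0 < c0 ∧ 0 < e1 ∧ ∀ e, 0 < e → e ≤ e1 → ∃ k1 : ℝ, 0 < k1 ∧
      ∀ k, 0 < k → k ≤ k1 → ∃ t0 K : ℝ, 0 < t0 ∧ 0 ≤ K ∧ PairA (D e k) k q3 c0 e t0 K i m := by
  obtain ⟨c1, C, g, ys, hc1, hC, hg, hys, hG⟩ := hG
  obtain ⟨cS, CS, e2, hcS, he2, hS⟩ := hS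
  obtain ⟨n, y, c0, hc0, hy, hyy, n1, n2, n3⟩ := exists_weights (CS := CS) hc1 hC hg hys hcS
  obtain ⟨e1, he1, hG⟩ := unif_small (n := n) fun j hj => hG (y j) (hy j) (hyy j hj)
  refine ⟨c0, min e1 e2, hc0, lt_min he1 he2, fun e he hee => ?_⟩
  obtain ⟨k1, hk1, hG⟩ := unif_small (n := n) fun j hj => hG e he (hee.trans (min_le_left _ _)) j hj
  obtain ⟨k2, hk2, hS⟩ := hS e he (hee.trans (min_le_right _ _))
  refine ⟨min (min k1 k2) (q3 - 2), lt_min (lt_min hk1 hk2) (by linarith), fun k hk hkk => ?_⟩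
  have hkq : 2 + k ≤ q3 := by
    have := hkk.trans (min_le_right _ _)
    linarith
  obtain ⟨t1, K1, ht1, ht11, hK1, hG⟩ := unif_tK (n := n)
    (Q := fun j t K => GenP (D e k) k q3 e c1 (C * y j) (g * y j) t K i m)
    (fun j t K t' K' h => genP_mono h)
    (fun j hj => hG k hk (hkk.trans ((min_le_left _ _).trans (min_le_left _ _))) j hj)
  obtain ⟨t2, K2, ht2, hK2, hS⟩ := hS k hk (hkk.trans ((min_le_left _ _).trans (min_le_right _ _)))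
  refine ⟨min t1 t2, _, lt_min ht1 ht2, ?_, pairA_graded (K := max K1 K2) him hi3 hm3 hk hkq
    ((min_le_left _ _).trans ht11) (hK1.trans (le_max_left _ _))
    (fun j => (mul_pos hC (hy j)).le) n n1 n2 n3
    (fun j hj => genP_mono (hG j hj) (min_le_left _ _) (le_max_left _ _))
    (statP_mono hS (min_le_right _ _) (le_max_right _ _))⟩
  have : (0 : ℝ) ≤ max K1 K2 := (zero_le_one.trans hK1).trans (le_max_left _ _)
  positivity

end Crest.Agent.R079.AsmP734
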