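import Crest.Agent.R079.L0e_292

/-! R079, L5 item 0 (helper229), part 1: the class decomposition of `L0e_292` for an ARBITRARY
nonnegative function `g` on the dyadic tree which increases downwards (`Dn T g`): the classes of
`Int.log 2 g` are unions of tree regions `RJ` with disjoint tops, and
`∑_tops 2^(J.1+7) g J ≤ 4 ∑_l 2^7 g (0,l)` (`sum_tops`). -/

set_option autoImplicit false
set_option linter.unusedVariables false

namespace Crest.Agent.R079.BBp

open Finset Grid L0e

/-- `g` is nonnegative and increases downwards (levels `≤ T`) -/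
structure Dn (T : ℕ) (g : ℕ × ℤ → ℝ) : Prop where
  nn : ∀ p, 0 ≤ g p
  anc : ∀ (p : ℕ × ℤ) (k : ℕ), p.1 + k ≤ T → g (anc p k) ≤ g p

/-- class -/
noncomputable def Nc (T : ℕ) (g : ℕ × ℤ → ℝ) (p : ℕ × ℤ) : ℤ := Int.log 2 (g p)

lemma Nc_le (T : ℕ) (g : ℕ × ℤ → ℝ) (p : ℕ × ℤ) (h : 0 < g p) :
    (2 : ℝ) ^ (Nc T g p) ≤ g p := by
  have := Int.zpow_log_le_self (b := 2) (r := g p) (by norm_num) h
  exact_mod_cast this

lemma lt_Nc (T : ℕ) (g : ℕ × ℤ → ℝ) (p : ℕ × ℤ) :
    g p < 2 * (2 : ℝ) ^ (Nc T g p) := by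
  have := Int.lt_zpow_succ_log_self (b := 2) (by norm_num) (g p)
  rw [zpow_add_one₀ (by norm_num)] at this
  push_cast at this
  unfold Nc
  linarith

/-- same class as the `k`-th ancestor -/
def Pc (T : ℕ) (g : ℕ × ℤ → ℝ) (p : ℕ × ℤ) (k : ℕ) : Prop :=
  0 < g (anc p k) ∧ Nc T g (anc p k) = Nc T g p

lemma Nc_anc (T : ℕ) (g : ℕ × ℤ → ℝ) (hg : Dn T g) (p : ℕ × ℤ) (k : ℕ) (h : p.1 + k ≤ T)
    (hG : 0 < g (anc p k)) : Nc T g (anc p k) ≤ Nc T g p :=
  Int.log_mono_right hG (hg.anc p k h)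

open Classical in
/-- distance to the top of the class -/
noncomputable def kt (T : ℕ) (g : ℕ × ℤ → ℝ) (p : ℕ × ℤ) : ℕ :=
  Nat.findGreatest (Pc T g p) (T - p.1)

noncomputable def topn (T : ℕ) (g : ℕ × ℤ → ℝ) (p : ℕ × ℤ) : ℕ × ℤ := anc p (kt T g p)

lemma kt_le (T : ℕ) (g : ℕ × ℤ → ℝ) (p : ℕ × ℤ) : kt T g p ≤ T - p.1 := by
  classical
  exact Nat.findGreatest_le _

lemma Pc_kt (T : ℕ) (g : ℕ × ℤ → ℝ) (p : ℕ × ℤ) (h : 0 < g p) :
    Pc T g p (kt T g p) := by
  classical
  unfold kt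
  refine Nat.findGreatest_spec (P := Pc T g p) (m := 0) (Nat.zero_le _) ?_
  unfold Pc
  rw [anc_zero]
  exact ⟨h, rfl⟩

lemma le_kt (T : ℕ) (g : ℕ × ℤ → ℝ) (p : ℕ × ℤ) (k : ℕ) (hk : p.1 + k ≤ T)
    (h : Pc T g p k) : k ≤ kt T g p := by
  classical
  exact Nat.le_findGreatest (by omega) h

open Classical in
/-- nodes of positive class -/
noncomputable def U' (T : ℕ) (g : ℕ × ℤ → ℝ) (A B : ℤ) : Finset (ℕ × ℤ) :=
  (U T A B).filter fun p => 0 < g p

open Classical in
/-- tops of the classes -/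
noncomputable def tops (T : ℕ) (g : ℕ × ℤ → ℝ) (A B : ℤ) : Finset (ℕ × ℤ) :=
  (U' T g A B).filter fun p => p.1 + 1 ≤ T → ¬ Pc T g p 1

lemma topn_mem {T : ℕ} {g : ℕ × ℤ → ℝ} {A B : ℤ} {p : ℕ × ℤ} (h : p ∈ U' T g A B) :
    topn T g p ∈ tops T g A B := by
  classical
  unfold U' at h
  rw [Finset.mem_filter] at h
  obtain ⟨h1, h2⟩ := h
  have h3 := mem_U.mp h1
  have hP := Pc_kt T g p h2
  have hk := kt_le T g p
  have hkT : p.1 + kt T g p ≤ T := by omega
  unfold tops U'
  rw [Finset.mem_filter, Finset.mem_filter]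
  refine ⟨⟨anc_mem_U h1 _ hkT, hP.1⟩, ?_⟩
  intro h4 h5
  have h6 : (topn T g p).1 = p.1 + kt T g p := rfl
  rw [h6] at h4
  have h7 : Pc T g p (kt T g p + 1) := by
    unfold Pc topn at h5
    rw [anc_anc] at h5
    exact ⟨h5.1, h5.2.trans hP.2⟩
  have := le_kt T g p _ (by omega) h7
  omega

open Classical in
/-- region of a top -/
noncomputable def RJ (T : ℕ) (g : ℕ × ℤ → ℝ) (A B : ℤ) (J : ℕ × ℤ) : Finset (ℕ × ℤ) :=
  (U' T g A B).filter fun p => topn T g p = J

lemma RJ_region (T : ℕ) (g : ℕ × ℤ → ℝ) (hg : Dn T g) (A B : ℤ) (J : ℕ × ℤ) :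
    IsRegion (RJ T g A B J) J := by
  classical
  constructor
  · intro p hp
    unfold RJ at hp
    rw [Finset.mem_filter] at hp
    rw [← hp.2]
    have := dI_sub (p.1 + 7) (kt T g p) p.2
    have e : (topn T g p).1 + 7 = p.1 + 7 + kt T g p := by
      simp only [topn, anc]; omega
    rw [e]
    exact this
  · intro p hp q h1 h2
    unfold RJ at hp ⊢
    rw [Finset.mem_filter] at hp ⊢
    obtain ⟨hp, htp⟩ := hp
    unfold U' at hp ⊢
    rw [Finset.mem_filter] at hp ⊢
    obtain ⟨hpU, hpG⟩ := hp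
    have hpT := (mem_U.mp hpU).1
    obtain ⟨i, hi1, hi2⟩ := dI_sub_imp h1
    obtain ⟨j, hj1, hj2⟩ := dI_sub_imp h2
    have hq : q = anc p i := by
      apply Prod.ext
      · simp only [anc]; omega
      · exact hi2
    have hJ : J = anc q j := by
      apply Prod.ext
      · simp only [anc]; omega
      · exact hj2
    have hk : kt T g p = i + j := by
      have h3 : J.1 = p.1 + kt T g p := by rw [← htp]; rfl
      have h4 : J.1 = p.1 + i + j := by rw [hJ, hq]; rfl
      omega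
    have hkT := kt_le T g p
    have hP := Pc_kt T g p hpG
    rw [hk] at hP hkT
    have hJ2 : J = anc p (i + j) := by rw [hJ, hq, anc_anc]
    have hqT : p.1 + i ≤ T := by omega
    have hqj : q.1 + j ≤ T := by rw [hq]; simp only [anc]; omega
    have hGJ : 0 < g (anc q j) := by rw [← hJ, hJ2]; exact hP.1
    have hGq : 0 < g q := hGJ.trans_le (hg.anc q j hqj)
    have hN1 : Nc T g (anc q j) ≤ Nc T g q := Nc_anc T g hg q j hqj hGJ
    have hN2 : Nc T g q ≤ Nc T g p := by
      rw [hq]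
      exact Nc_anc T g hg p i hqT (by rw [← hq]; exact hGq)
    have hN3 : Nc T g (anc q j) = Nc T g p := by rw [← hJ, hJ2]; exact hP.2
    have hNq : Nc T g q = Nc T g p := le_antisymm hN2 (by rw [← hN3]; exact hN1)
    refine ⟨⟨?_, hGq⟩, ?_⟩
    · rw [hq]; exact anc_mem_U hpU i hqT
    · have hPq : Pc T g q j := ⟨hGJ, hN3.trans hNq.symm⟩
      have hle := le_kt T g q j hqj hPq
      have hge : kt T g q ≤ j := by
        have hkq := kt_le T g q
        have hPq2 := Pc_kt T g q hGq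
        have h5 : Pc T g p (i + kt T g q) := by
          unfold Pc at hPq2 ⊢
          rw [hq] at hPq2
          rw [anc_anc] at hPq2
          rw [← hq] at hPq2
          exact ⟨hPq2.1, hPq2.2.trans hNq⟩
        have hq1 : q.1 = p.1 + i := by rw [hq]; rfl
        have := le_kt T g p _ (by omega) h5
        omega
      unfold topn
      rw [le_antisymm hge hle, ← hJ]

/-- chain estimate -/
lemma chain (T : ℕ) (g : ℕ × ℤ → ℝ) (hg : Dn T g) (A B l : ℤ) :
    ∀ d i : ℕ, i + d = T + 1 →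
      (∑ k ∈ (Finset.Ico i (T + 1)).filter (fun k => anc (0, l) k ∈ tops T g A B),
        (2 : ℝ) ^ (Nc T g (anc (0, l) k))) ≤
      if i ≤ T ∧ 0 < g (anc (0, l) i) then 2 * (2 : ℝ) ^ (Nc T g (anc (0, l) i)) else 0 := by
  classical
  intro d
  induction d with
  | zero =>
    intro i hi
    rw [show i = T + 1 by omega]
    simp
  | succ d ih =>
    intro i hi
    have hiT : i ≤ T := by omega
    have h1 := ih (i + 1) (by omega)
    have e : Finset.Ico i (T + 1) = insert i (Finset.Ico (i + 1) (T + 1)) := by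
      ext k
      simp only [Finset.mem_Ico, Finset.mem_insert]
      omega
    rw [e, Finset.filter_insert]
    have hni : i ∉ (Finset.Ico (i + 1) (T + 1)).filter
        (fun k => anc (0, l) k ∈ tops T g A B) := by
      simp
    have hstep : anc (anc (0, l) i) 1 = anc (0, l) (i + 1) := anc_anc _ _ _
    have hfst : (anc (0, l) i).1 = i := by simp [anc]
    have hmono : i + 1 ≤ T → 0 < g (anc (0, l) (i + 1)) →
        Nc T g (anc (0, l) (i + 1)) ≤ Nc T g (anc (0, l) i) := by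
      intro h3 h4
      have := Nc_anc T g hg (anc (0, l) i) 1 (by rw [hfst]; exact h3) (by rw [hstep]; exact h4)
      rwa [hstep] at this
    by_cases htop : anc (0, l) i ∈ tops T g A B
    · rw [if_pos htop, Finset.sum_insert hni]
      have htop' := htop
      unfold tops U' at htop'
      rw [Finset.mem_filter, Finset.mem_filter, hfst] at htop'
      obtain ⟨⟨_, hG⟩, h5⟩ := htop'
      rw [if_pos ⟨hiT, hG⟩]
      have h2 : (∑ k ∈ (Finset.Ico (i + 1) (T + 1)).filter
          (fun k => anc (0, l) k ∈ tops T g A B), (2 : ℝ) ^ (Nc T g (anc (0, l) k))) ≤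
          (2 : ℝ) ^ (Nc T g (anc (0, l) i)) := by
        refine h1.trans ?_
        by_cases h3 : i + 1 ≤ T ∧ 0 < g (anc (0, l) (i + 1))
        · rw [if_pos h3]
          obtain ⟨h3, h4⟩ := h3
          have h6 := hmono h3 h4
          have h5 := h5 h3
          unfold Pc at h5
          rw [hstep] at h5
          have h7 : Nc T g (anc (0, l) (i + 1)) + 1 ≤ Nc T g (anc (0, l) i) := by
            rcases h6.lt_or_eq with h | h
            · omega
            · exact absurd ⟨h4, h⟩ h5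
          calc 2 * (2 : ℝ) ^ (Nc T g (anc (0, l) (i + 1)))
              = (2 : ℝ) ^ (Nc T g (anc (0, l) (i + 1)) + 1) := by
                rw [zpow_add_one₀ (by norm_num)]; ring
            _ ≤ _ := zpow_le_zpow_right₀ (by norm_num) h7
        · rw [if_neg h3]
          positivity
      linarith
    · rw [if_neg htop]
      refine h1.trans ?_
      by_cases h3 : i + 1 ≤ T ∧ 0 < g (anc (0, l) (i + 1))
      · rw [if_pos h3]
        obtain ⟨h3, h4⟩ := h3
        have h6 := hmono h3 h4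
        have hG : 0 < g (anc (0, l) i) := by
          have := hg.anc (anc (0, l) i) 1 (by rw [hfst]; exact h3)
          rw [hstep] at this
          exact h4.trans_le this
        rw [if_pos ⟨hiT, hG⟩]
        exact mul_le_mul_of_nonneg_left (zpow_le_zpow_right₀ (by norm_num) h6) (by norm_num)
      · rw [if_neg h3]
        split_ifs
        · positivity
        · exact le_refl _


lemma chain_G (T : ℕ) (g : ℕ × ℤ → ℝ) (hg : Dn T g) (A B l : ℤ) :
    (∑ J ∈ (tops T g A B).filter (fun J => l ∈ dI J.1 J.2), g J) ≤ 4 * g (0, l) := by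
  classical
  have h := chain T g hg A B l (T + 1) 0 (by omega)
  have e : (tops T g A B).filter (fun J => l ∈ dI J.1 J.2) =
      ((Finset.Ico 0 (T + 1)).filter (fun k => anc (0, l) k ∈ tops T g A B)).image
        (anc (0, l)) := by
    ext J
    simp only [Finset.mem_filter, Finset.mem_image, Finset.mem_Ico]
    constructor
    · rintro ⟨h1, h2⟩
      rw [mem_dI] at h2
      have hJ : anc (0, l) J.1 = J := by
        apply Prod.ext
        · simp [anc]
        · exact h2
      have hT : J.1 ≤ T := by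
        have h3 := h1
        unfold tops U' at h3
        rw [Finset.mem_filter, Finset.mem_filter] at h3
        exact (mem_U.mp h3.1.1).1
      exact ⟨J.1, ⟨by omega, by rw [hJ]; exact h1⟩, hJ⟩
    · rintro ⟨k, ⟨_, h2⟩, rfl⟩
      refine ⟨h2, ?_⟩
      rw [mem_dI]
      simp [anc]
  rw [e, Finset.sum_image]
  · calc (∑ k ∈ (Finset.Ico 0 (T + 1)).filter (fun k => anc (0, l) k ∈ tops T g A B),
          g (anc (0, l) k)) ≤
        ∑ k ∈ (Finset.Ico 0 (T + 1)).filter (fun k => anc (0, l) k ∈ tops T g A B),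
          2 * (2 : ℝ) ^ (Nc T g (anc (0, l) k)) :=
          Finset.sum_le_sum fun k _ => (lt_Nc T g _).le
      _ = 2 * ∑ k ∈ (Finset.Ico 0 (T + 1)).filter (fun k => anc (0, l) k ∈ tops T g A B),
          (2 : ℝ) ^ (Nc T g (anc (0, l) k)) := by rw [Finset.mul_sum]
      _ ≤ 4 * g (0, l) := by
        have e0 : anc (0, l) 0 = (0, l) := anc_zero _
        rw [e0] at h
        by_cases hG : 0 < g (0, l)
        · rw [if_pos ⟨Nat.zero_le _, hG⟩] at h
          have := Nc_le T g (0, l) hG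
          linarith
        · rw [if_neg (fun h => hG h.2)] at h
          have := hg.nn (0, l)
          linarith
  · intro k _ k' _ hkk
    have := congrArg Prod.fst hkk
    simpa [anc] using this

/-- sum over the tops -/
lemma sum_tops (T : ℕ) (g : ℕ × ℤ → ℝ) (hg : Dn T g) (A B : ℤ) :
    ∑ J ∈ tops T g A B, (2 : ℝ) ^ (J.1 + 7) * g J ≤
      4 * ∑ l ∈ Finset.Ico (A * 2 ^ T) (B * 2 ^ T), 2 ^ 7 * g (0, l) := by
  classical
  have h1 : ∀ J ∈ tops T g A B, (2 : ℝ) ^ (J.1 + 7) * g J =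
      ∑ l ∈ Finset.Ico (A * 2 ^ T) (B * 2 ^ T), if l ∈ dI J.1 J.2 then 2 ^ 7 * g J else 0 := by
    intro J hJ
    rw [← Finset.sum_filter]
    have hsub : (Finset.Ico (A * 2 ^ T) (B * 2 ^ T)).filter (fun l => l ∈ dI J.1 J.2) =
        dI J.1 J.2 := by
      ext l
      rw [Finset.mem_filter, Finset.mem_Ico]
      constructor
      · exact fun h => h.2
      · intro hl
        refine ⟨?_, hl⟩
        unfold tops U' at hJ
        rw [Finset.mem_filter, Finset.mem_filter, mem_U] at hJ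
        obtain ⟨hT, hA, hB⟩ := hJ.1.1
        unfold dI at hl
        rw [Finset.mem_Ico] at hl
        have h0 : (0 : ℤ) < 2 ^ J.1 := by positivity
        have e : (2 : ℤ) ^ T = 2 ^ (T - J.1) * 2 ^ J.1 := by
          rw [← pow_add]; congr 1; omega
        rw [e]
        constructor
        · calc A * (2 ^ (T - J.1) * 2 ^ J.1) = (A * 2 ^ (T - J.1)) * 2 ^ J.1 := by ring
            _ ≤ J.2 * 2 ^ J.1 := mul_le_mul_of_nonneg_right hA h0.le
            _ ≤ l := hl.1
        · calc l < (J.2 + 1) * 2 ^ J.1 := hl.2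
            _ ≤ (B * 2 ^ (T - J.1)) * 2 ^ J.1 :=
              mul_le_mul_of_nonneg_right (by omega) h0.le
            _ = B * (2 ^ (T - J.1) * 2 ^ J.1) := by ring
    rw [hsub, Finset.sum_const, nsmul_eq_mul, dI_card, pow_add]
    ring
  rw [Finset.sum_congr rfl h1, Finset.sum_comm, Finset.mul_sum]
  refine Finset.sum_le_sum fun l _ => ?_
  rw [← Finset.sum_filter, ← Finset.mul_sum]
  have := chain_G T g hg A B l
  nlinarith


/-- on the region of `J` the function `g` is `≤ 2 g J` -/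
lemma RJ_le (T : ℕ) (g : ℕ × ℤ → ℝ) (A B : ℤ) (J p : ℕ × ℤ) (hp : p ∈ RJ T g A B J) :
    ∃ k, p.1 + k ≤ T ∧ J = anc p k ∧ 0 < g J ∧ g p ≤ 2 * g J := by
  classical
  unfold RJ at hp
  rw [Finset.mem_filter] at hp
  obtain ⟨hp, htp⟩ := hp
  unfold U' at hp
  rw [Finset.mem_filter] at hp
  obtain ⟨hpU, hpG⟩ := hp
  have hpT := (mem_U.mp hpU).1
  have hkT := kt_le T g p
  have hP := Pc_kt T g p hpG
  have hJ : J = anc p (kt T g p) := htp.symm
  have hk : p.1 + kt T g p ≤ T := by omega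
  have hGJ : 0 < g J := by rw [hJ]; exact hP.1
  have hN : Nc T g J = Nc T g p := by rw [hJ]; exact hP.2
  refine ⟨kt T g p, hk, hJ, hGJ, ?_⟩
  have a1 := lt_Nc T g p
  have a2 := Nc_le T g J hGJ
  rw [hN] at a2
  linarith

/-- **class decomposition**: a family `E` of node terms, zero where `g = 0`, bounded on every tree
region with top `J` on which `g ≤ 2 g J` by `K 2^(J.1+7) g J`, is bounded in total. -/
theorem decomp (T : ℕ) (g : ℕ × ℤ → ℝ) (hg : Dn T g) (A B : ℤ) (E : ℕ × ℤ → ℂ) (K : ℝ) (hK : 0 ≤ K)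
    (h0 : ∀ p ∈ U T A B, g p = 0 → E p = 0)
    (hR : ∀ (R : Finset (ℕ × ℤ)) (J : ℕ × ℤ), IsRegion R J →
      (∀ p ∈ R, ∃ k, p.1 + k ≤ T ∧ J = anc p k ∧ 0 < g J ∧ g p ≤ 2 * g J) →
      ‖∑ p ∈ R, E p‖ ≤ K * (2 ^ (J.1 + 7) * g J)) :
    ‖∑ p ∈ U T A B, E p‖ ≤
      K * (4 * ∑ l ∈ Finset.Ico (A * 2 ^ T) (B * 2 ^ T), 2 ^ 7 * g (0, l)) := by
  classical
  have s2 : ∑ p ∈ U T A B, E p = ∑ p ∈ U' T g A B, E p := by
    unfold U'
    rw [Finset.sum_filter]
    refine Finset.sum_congr rfl fun p hp => ?_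
    split_ifs with h
    · rfl
    · exact h0 p hp (le_antisymm (not_lt.mp h) (hg.nn p))
  have s3 : ∑ p ∈ U' T g A B, E p = ∑ J ∈ tops T g A B, ∑ p ∈ RJ T g A B J, E p := by
    unfold RJ
    rw [Finset.sum_fiberwise_of_maps_to]
    exact fun p hp => topn_mem hp
  rw [s2, s3]
  calc ‖∑ J ∈ tops T g A B, ∑ p ∈ RJ T g A B J, E p‖
      ≤ ∑ J ∈ tops T g A B, K * (2 ^ (J.1 + 7) * g J) :=
        (norm_sum_le _ _).trans (Finset.sum_le_sum fun J _ =>
          hR _ J (RJ_region T g hg A B J) fun p hp => RJ_le T g A B J p hp)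
    _ = K * ∑ J ∈ tops T g A B, 2 ^ (J.1 + 7) * g J := by rw [Finset.mul_sum]
    _ ≤ _ := mul_le_mul_of_nonneg_left (sum_tops T g hg A B) hK

end Crest.Agent.R079.BBp
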