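import Crest.Agent.R079.Max_292
import Mathlib

/-! R079, L5 item 0 (helper229), part 2: local `L^p` averages on dyadic intervals (`p` real), their
running maximum, and the maximal theorem `(3-p)/2 ∑ M³ ≤ p 2^((3-p)/p) ∑ |f|³` (`0 < p < 3`) through
the exact potential `3 M^(3-p) a^p - (3-p) M³`. -/

set_option autoImplicit false

namespace Crest.Agent.R079.BBp

open Finset Grid L0e

/-- normalised local `L^p` norm of `f` on `dI k l` -/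
noncomputable def avp (p : ℝ) (k : ℕ) (l : ℤ) (f : ℤ → ℂ) : ℝ :=
  ((1 / 2 ^ k) * ∑ y ∈ dI k l, ‖f y‖ ^ p) ^ (1 / p)

lemma avp_base_nonneg (p : ℝ) (k : ℕ) (l : ℤ) (f : ℤ → ℂ) :
    0 ≤ (1 / 2 ^ k : ℝ) * ∑ y ∈ dI k l, ‖f y‖ ^ p :=
  mul_nonneg (by positivity) (Finset.sum_nonneg fun y _ => Real.rpow_nonneg (norm_nonneg _) _)

lemma avp_nonneg (p : ℝ) (k : ℕ) (l : ℤ) (f : ℤ → ℂ) : 0 ≤ avp p k l f :=
  Real.rpow_nonneg (avp_base_nonneg p k l f) _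

lemma avp_rpow {p : ℝ} (hp : 0 < p) (k : ℕ) (l : ℤ) (f : ℤ → ℂ) :
    avp p k l f ^ p = (1 / 2 ^ k) * ∑ y ∈ dI k l, ‖f y‖ ^ p := by
  unfold avp
  rw [← Real.rpow_mul (avp_base_nonneg p k l f), one_div_mul_cancel hp.ne', Real.rpow_one]

lemma sum_rpow_eq {p : ℝ} (hp : 0 < p) (k : ℕ) (l : ℤ) (f : ℤ → ℂ) :
    ∑ y ∈ dI k l, ‖f y‖ ^ p = 2 ^ k * avp p k l f ^ p := by
  rw [avp_rpow hp]
  have h2 : (2 : ℝ) ^ k ≠ 0 := by positivity
  field_simp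

lemma avp_rpow_succ {p : ℝ} (hp : 0 < p) (k : ℕ) (l : ℤ) (f : ℤ → ℂ) :
    2 * avp p (k + 1) l f ^ p = avp p k (2 * l) f ^ p + avp p k (2 * l + 1) f ^ p := by
  have h := sum_dI_succ k l (fun y => ‖f y‖ ^ p)
  rw [sum_rpow_eq hp, sum_rpow_eq hp, sum_rpow_eq hp, pow_succ] at h
  have h2 : (0 : ℝ) < 2 ^ k := by positivity
  have h3 : (2 : ℝ) ^ k * (2 * avp p (k + 1) l f ^ p) =
      2 ^ k * (avp p k (2 * l) f ^ p + avp p k (2 * l + 1) f ^ p) := by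
    linear_combination h
  exact mul_left_cancel₀ h2.ne' h3

/-- the `L²` average is `avp 2` -/
lemma avp_two (k : ℕ) (l : ℤ) (f : ℤ → ℂ) : avp 2 k l f = av2 k l f := by
  unfold avp av2
  rw [Real.sqrt_eq_rpow]
  congr 2
  refine Finset.sum_congr rfl fun y _ => ?_
  rw [← Real.rpow_natCast]
  norm_num

lemma avp_eq_zero {p : ℝ} (hp : 0 < p) {k : ℕ} {l : ℤ} {f : ℤ → ℂ} (h : avp p k l f = 0) :
    ∀ y ∈ dI k l, f y = 0 := by
  intro y hy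
  have h1 := sum_rpow_eq hp k l f
  rw [h, Real.zero_rpow hp.ne', mul_zero] at h1
  have h2 := (Finset.sum_eq_zero_iff_of_nonneg
    (fun y _ => Real.rpow_nonneg (norm_nonneg (f y)) p)).mp h1 y hy
  by_contra hne
  have : 0 < ‖f y‖ ^ p := Real.rpow_pos_of_pos (norm_pos_iff.mpr hne) _
  linarith

lemma av2_eq_zero_of_avp {p : ℝ} (hp : 0 < p) {k : ℕ} {l : ℤ} {f : ℤ → ℂ} (h : avp p k l f = 0) :
    av2 k l f = 0 := by
  unfold av2
  rw [Finset.sum_eq_zero (fun y hy => by rw [avp_eq_zero hp h y hy]; simp)]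
  simp

lemma card_dI (k : ℕ) (l : ℤ) : ((dI k l).card : ℝ) = 2 ^ k := by
  unfold dI
  rw [Int.card_Ico]
  have : ((l + 1) * 2 ^ k - l * 2 ^ k : ℤ) = ((2 ^ k : ℕ) : ℤ) := by push_cast; ring
  rw [this, Int.toNat_natCast]
  push_cast
  ring

lemma avp_le {p : ℝ} (hp : 0 < p) (k : ℕ) (l : ℤ) (f : ℤ → ℂ) (A : ℝ) (hA : 0 ≤ A)
    (hf : ∀ y ∈ dI k l, ‖f y‖ ≤ A) : avp p k l f ≤ A := by
  unfold avp
  have h1 : (1 / 2 ^ k : ℝ) * ∑ y ∈ dI k l, ‖f y‖ ^ p ≤ A ^ p := by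
    have h2 : ∑ y ∈ dI k l, ‖f y‖ ^ p ≤ ∑ _y ∈ dI k l, A ^ p :=
      Finset.sum_le_sum fun y hy => Real.rpow_le_rpow (norm_nonneg _) (hf y hy) hp.le
    rw [Finset.sum_const, nsmul_eq_mul, card_dI] at h2
    have h3 : (0 : ℝ) < 2 ^ k := by positivity
    rw [one_div, inv_mul_le_iff₀ h3]
    exact h2
  calc _ ≤ (A ^ p) ^ (1 / p) :=
        Real.rpow_le_rpow (avp_base_nonneg p k l f) h1 (by positivity)
    _ = A := by rw [← Real.rpow_mul hA, mul_one_div_cancel hp.ne', Real.rpow_one]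

/-- running maximum from level `T + 7` down to level `T - d + 7`. -/
noncomputable def Mp (p : ℝ) (T : ℕ) (f : ℤ → ℂ) : ℕ → ℤ → ℝ
  | 0, l => avp p (T + 7) l f
  | (d + 1), l => max (Mp p T f d (l / 2)) (avp p (T - (d + 1) + 7) l f)

lemma avp_le_Mp (p : ℝ) (T : ℕ) (f : ℤ → ℂ) (d : ℕ) (l : ℤ) :
    avp p (T - d + 7) l f ≤ Mp p T f d l := by
  cases d with
  | zero => exact le_refl _
  | succ d => exact le_max_right _ _

lemma Mp_nonneg (p : ℝ) (T : ℕ) (f : ℤ → ℂ) (d : ℕ) (l : ℤ) : 0 ≤ Mp p T f d l :=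
  (avp_nonneg _ _ _ _).trans (avp_le_Mp p T f d l)

lemma Mp_mono (p : ℝ) (T : ℕ) (f : ℤ → ℂ) (d k : ℕ) (l : ℤ) :
    Mp p T f d (l / 2 ^ k) ≤ Mp p T f (d + k) l := by
  induction k generalizing l with
  | zero => simp
  | succ k ih =>
    have e : l / 2 ^ (k + 1) = l / 2 / 2 ^ k := by
      rw [add_comm k 1, ← ediv_pow_pow, pow_one]
    rw [e]
    refine (ih (l / 2)).trans ?_
    exact le_max_left _ _

/-- weighted AM-GM -/
lemma amgm {p : ℝ} (h0 : 0 < p) (h3 : p < 3) (M a : ℝ) (hM : 0 ≤ M) (ha : 0 ≤ a) :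
    3 * (M ^ (3 - p) * a ^ p) ≤ (3 - p) * M ^ 3 + p * a ^ 3 := by
  have h := Real.geom_mean_le_arith_mean2_weighted (w₁ := (3 - p) / 3) (w₂ := p / 3)
    (p₁ := M ^ 3) (p₂ := a ^ 3) (by linarith) (by linarith) (by positivity) (by positivity)
    (by ring)
  have e1 : (M ^ 3) ^ ((3 - p) / 3) = M ^ (3 - p) := by
    rw [← Real.rpow_natCast, ← Real.rpow_mul hM]
    congr 1
    push_cast
    ring
  have e2 : (a ^ 3) ^ (p / 3) = a ^ p := by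
    rw [← Real.rpow_natCast, ← Real.rpow_mul ha]
    congr 1
    push_cast
    ring
  rw [e1, e2] at h
  linarith

lemma pow_split {p : ℝ} (a : ℝ) (ha : 0 ≤ a) : a ^ (3 - p) * a ^ p = a ^ 3 := by
  rw [← Real.rpow_natCast]
  rcases ha.lt_or_eq with h | h
  · rw [← Real.rpow_add h]
    congr 1
    push_cast
    ring
  · rw [← h]
    by_cases hp : p = 0
    · rw [hp]; simp
    · rw [Real.zero_rpow hp, mul_zero, Real.zero_rpow (by norm_num)]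

lemma pot_childp {p : ℝ} (h0 : 0 < p) (h3 : p < 3) (M a : ℝ) (hM : 0 ≤ M) (ha : 0 ≤ a) :
    3 * (M ^ (3 - p) * a ^ p) - (3 - p) * M ^ 3 ≤
      3 * ((max M a) ^ (3 - p) * a ^ p) - (3 - p) * (max M a) ^ 3 := by
  rcases le_total M a with h | h
  · rw [max_eq_right h, pow_split a ha]
    have := amgm h0 h3 M a hM ha
    linarith
  · rw [max_eq_left h]

/-- the potential -/
noncomputable def Wq (p : ℝ) (T : ℕ) (f : ℤ → ℂ) (A B : ℤ) (d : ℕ) : ℝ :=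
  ∑ l ∈ Finset.Ico (A * 2 ^ d) (B * 2 ^ d),
    2 ^ (T - d + 7) * (3 * (Mp p T f d l ^ (3 - p) * avp p (T - d + 7) l f ^ p) -
      (3 - p) * Mp p T f d l ^ 3)

lemma Wq_zero {p : ℝ} (h0 : 0 < p) (T : ℕ) (f : ℤ → ℂ) (A B : ℤ) : 0 ≤ Wq p T f A B 0 := by
  unfold Wq
  refine Finset.sum_nonneg fun l _ => ?_
  have h : (0 : ℝ) ≤ avp p (T + 7) l f := avp_nonneg _ _ _ _
  have e : 3 * (Mp p T f 0 l ^ (3 - p) * avp p (T - 0 + 7) l f ^ p) - (3 - p) * Mp p T f 0 l ^ 3 =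
      p * avp p (T + 7) l f ^ 3 := by
    simp only [Mp, Nat.sub_zero]
    rw [pow_split _ h]
    ring
  rw [e]
  positivity

lemma Wq_succ {p : ℝ} (h0 : 0 < p) (h3 : p < 3) (T : ℕ) (f : ℤ → ℂ) (A B : ℤ) (d : ℕ)
    (hd : d + 1 ≤ T) : Wq p T f A B d ≤ Wq p T f A B (d + 1) := by
  unfold Wq
  have e1 : A * (2 : ℤ) ^ (d + 1) = 2 * (A * 2 ^ d) := by ring
  have e2 : B * (2 : ℤ) ^ (d + 1) = 2 * (B * 2 ^ d) := by ring
  rw [e1, e2, sum_two]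
  refine Finset.sum_le_sum fun l _ => ?_
  obtain ⟨k, hk⟩ : ∃ k, T = d + 1 + k := Nat.exists_eq_add_of_le hd
  have k1 : T - d + 7 = (T - (d + 1) + 7) + 1 := by omega
  rw [k1]
  set n := T - (d + 1) + 7 with hn
  have hav := avp_rpow_succ h0 n l f
  have m0 : Mp p T f (d + 1) (2 * l) = max (Mp p T f d l) (avp p n (2 * l) f) := by
    simp only [Mp]
    rw [show 2 * l / 2 = l by omega]
  have m1 : Mp p T f (d + 1) (2 * l + 1) = max (Mp p T f d l) (avp p n (2 * l + 1) f) := by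
    simp only [Mp]
    rw [show (2 * l + 1) / 2 = l by omega]
  rw [m0, m1]
  have c0 := pot_childp h0 h3 (Mp p T f d l) (avp p n (2 * l) f) (Mp_nonneg _ _ _ _ _)
    (avp_nonneg _ _ _ _)
  have c1 := pot_childp h0 h3 (Mp p T f d l) (avp p n (2 * l + 1) f) (Mp_nonneg _ _ _ _ _)
    (avp_nonneg _ _ _ _)
  have hp : (0 : ℝ) < 2 ^ n := by positivity
  rw [pow_succ, mul_assoc, ← mul_add]
  refine mul_le_mul_of_nonneg_left ?_ hp.le
  calc 2 * (3 * (Mp p T f d l ^ (3 - p) * avp p (n + 1) l f ^ p) - (3 - p) * Mp p T f d l ^ 3)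
      = (3 * (Mp p T f d l ^ (3 - p) * avp p n (2 * l) f ^ p) - (3 - p) * Mp p T f d l ^ 3) +
        (3 * (Mp p T f d l ^ (3 - p) * avp p n (2 * l + 1) f ^ p) -
          (3 - p) * Mp p T f d l ^ 3) := by
        linear_combination 3 * Mp p T f d l ^ (3 - p) * hav
    _ ≤ _ := add_le_add c0 c1

lemma Wq_nonneg {p : ℝ} (h0 : 0 < p) (h3 : p < 3) (T : ℕ) (f : ℤ → ℂ) (A B : ℤ) :
    ∀ d, d ≤ T → 0 ≤ Wq p T f A B d
  | 0, _ => Wq_zero h0 T f A B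
  | (d + 1), h =>
    (Wq_nonneg h0 h3 T f A B d (by omega)).trans (Wq_succ h0 h3 T f A B d h)

lemma youngp {p : ℝ} (h0 : 0 < p) (h3 : p < 3) (M t : ℝ) (hM : 0 ≤ M) (ht : 0 ≤ t) :
    3 * (M ^ (3 - p) * t ^ p) ≤ (3 - p) / 2 * M ^ 3 + p * 2 ^ ((3 - p) / p) * t ^ 3 := by
  have h := Real.geom_mean_le_arith_mean2_weighted (w₁ := (3 - p) / 3) (w₂ := p / 3)
    (p₁ := 1 / 2 * M ^ 3) (p₂ := 2 ^ ((3 - p) / p) * t ^ 3) (by linarith) (by linarith)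
    (by positivity) (by positivity) (by ring)
  have e1 : (1 / 2 * M ^ 3) ^ ((3 - p) / 3) = (1 / 2) ^ ((3 - p) / 3) * M ^ (3 - p) := by
    rw [Real.mul_rpow (by norm_num) (by positivity), ← Real.rpow_natCast M 3,
      ← Real.rpow_mul hM]
    congr 2
    push_cast
    ring
  have e2 : ((2 : ℝ) ^ ((3 - p) / p) * t ^ 3) ^ (p / 3) = 2 ^ ((3 - p) / 3) * t ^ p := by
    rw [Real.mul_rpow (by positivity) (by positivity), ← Real.rpow_natCast t 3,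
      ← Real.rpow_mul ht, ← Real.rpow_mul (by norm_num : (0 : ℝ) ≤ 2)]
    congr 2
    · field_simp
    · push_cast
      ring
  have e3 : ((1 : ℝ) / 2) ^ ((3 - p) / 3) * (2 : ℝ) ^ ((3 - p) / 3) = 1 := by
    rw [← Real.mul_rpow (by norm_num) (by norm_num)]
    norm_num
  rw [e1, e2] at h
  have e4 : ((1 : ℝ) / 2) ^ ((3 - p) / 3) * M ^ (3 - p) * (2 ^ ((3 - p) / 3) * t ^ p) =
      M ^ (3 - p) * t ^ p := by
    calc _ = (((1 : ℝ) / 2) ^ ((3 - p) / 3) * (2 : ℝ) ^ ((3 - p) / 3)) * (M ^ (3 - p) * t ^ p) := by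
          ring
      _ = _ := by rw [e3, one_mul]
  rw [e4] at h
  linarith

/-- **maximal theorem**, one window of tops. -/
theorem max_thmp {p : ℝ} (h0 : 0 < p) (h3 : p < 3) (T : ℕ) (f : ℤ → ℂ) (A B : ℤ) :
    (3 - p) / 2 * ∑ l ∈ Finset.Ico (A * 2 ^ T) (B * 2 ^ T), 2 ^ 7 * Mp p T f T l ^ 3 ≤
      p * 2 ^ ((3 - p) / p) *
        ∑ l ∈ Finset.Ico (A * 2 ^ T) (B * 2 ^ T), ∑ y ∈ dI 7 l, ‖f y‖ ^ 3 := by
  have h := Wq_nonneg h0 h3 T f A B T le_rfl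
  unfold Wq at h
  rw [Nat.sub_self, zero_add] at h
  have h2 : ∀ l : ℤ, (2 : ℝ) ^ 7 * (3 * (Mp p T f T l ^ (3 - p) * avp p 7 l f ^ p) -
      (3 - p) * Mp p T f T l ^ 3) ≤
      p * 2 ^ ((3 - p) / p) * ∑ y ∈ dI 7 l, ‖f y‖ ^ 3 -
        (3 - p) / 2 * (2 ^ 7 * Mp p T f T l ^ 3) := by
    intro l
    have hs := sum_rpow_eq h0 7 l f
    have h3 : ∑ y ∈ dI 7 l, (3 * (Mp p T f T l ^ (3 - p) * ‖f y‖ ^ p)) ≤
        ∑ y ∈ dI 7 l, ((3 - p) / 2 * Mp p T f T l ^ 3 + p * 2 ^ ((3 - p) / p) * ‖f y‖ ^ 3) :=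
      Finset.sum_le_sum fun y _ => youngp h0 h3 _ _ (Mp_nonneg _ _ _ _ _) (norm_nonneg _)
    rw [← Finset.mul_sum, ← Finset.mul_sum, hs, Finset.sum_add_distrib, Finset.sum_const,
      nsmul_eq_mul, card_dI, ← Finset.mul_sum] at h3
    linarith
  have h4 := h.trans (Finset.sum_le_sum fun l (_ : l ∈ Finset.Ico (A * 2 ^ T) (B * 2 ^ T)) => h2 l)
  rw [Finset.sum_sub_distrib, ← Finset.mul_sum, ← Finset.mul_sum] at h4
  linarith

end Crest.Agent.R079.BBp
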