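import Crest.Agent.R079.BBpC_229
import Crest.Agent.R079.BBpM_229

/-! R079, L5 item 0 (helper229), part 3: the local `L^q` tree bound with exponents `q j ∈ (0,3)` in
the slots `0,1,2` and the SUP norm in slot `3` implies `GridBound`.

* `BBq q`  : `avp (q j) ≤ A j` on the region (`j = 0,1,2`), `|F 3| ≤ 1`;
* `BBn q`  : the normalised form `A = 1`, finitely supported data (weakest form), `bbq_of_bbn`;
* `gridBound_of_BBq`, `gridBound_of_BBn`, `gridBound_of_BBp` (one exponent `p`);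
* `bbq_of_class4` : a class bound with local `L^r` average in slot `3` (any `r > 0`) implies `BBq`. -/

set_option autoImplicit false

namespace Crest.Agent.R079.BBp

open Finset Grid L0e

/-- local `L^{q j}` bound in the slots `0,1,2`, sup norm in slot `3`, all tree regions. -/
def BBq (q : Fin 3 → ℝ) : Prop :=
  ∃ C : ℝ, 0 ≤ C ∧ ∀ b : ℤ, b = -1 ∨ b = -7 → ∀ ε : ℕ → ℤ → ℂ, (∀ m x, ‖ε m x‖ ≤ 1) →
    ∀ (R : Finset (ℕ × ℤ)) (J : ℕ × ℤ), IsRegion R J →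
    ∀ (F : Fin 4 → ℤ → ℂ) (A : Fin 3 → ℝ), (∀ j, (Function.support (F j)).Finite) →
      (∀ j, 0 < A j) → (∀ j, ∀ p ∈ R, avp (q j) (p.1 + 7) p.2 (F j.castSucc) ≤ A j) →
      (∀ x, ‖F 3 x‖ ≤ 1) →
      ‖∑ p ∈ R, TI b ε F p‖ ≤ C * 2 ^ (J.1 + 7) * ∏ j, A j

/-- normalised form of `BBq` (the WEAKEST hypothesis). -/
def BBn (q : Fin 3 → ℝ) : Prop :=
  ∃ C : ℝ, 0 ≤ C ∧ ∀ b : ℤ, b = -1 ∨ b = -7 → ∀ ε : ℕ → ℤ → ℂ, (∀ m x, ‖ε m x‖ ≤ 1) →
    ∀ (R : Finset (ℕ × ℤ)) (J : ℕ × ℤ), IsRegion R J →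
    ∀ (F : Fin 4 → ℤ → ℂ), (∀ j, (Function.support (F j)).Finite) →
      (∀ j : Fin 3, ∀ p ∈ R, avp (q j) (p.1 + 7) p.2 (F j.castSucc) ≤ 1) →
      (∀ x, ‖F 3 x‖ ≤ 1) →
      ‖∑ p ∈ R, TI b ε F p‖ ≤ C * 2 ^ (J.1 + 7)

/-- one exponent -/
def BB1 (p : ℝ) : Prop := BBq fun _ => p

/-! ### scaling -/

lemma avp_smul {p : ℝ} (hp : 0 < p) (k : ℕ) (l : ℤ) (f : ℤ → ℂ) (c : ℝ) (hc : 0 ≤ c) :
    avp p k l (fun x => (c : ℂ) * f x) = c * avp p k l f := by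
  unfold avp
  have e : ∀ y, ‖(c : ℂ) * f y‖ ^ p = c ^ p * ‖f y‖ ^ p := by
    intro y
    rw [norm_mul, Complex.norm_real, Real.norm_of_nonneg hc, Real.mul_rpow hc (norm_nonneg _)]
  simp only [e]
  rw [← Finset.mul_sum, mul_left_comm, Real.mul_rpow (Real.rpow_nonneg hc _)
    (avp_base_nonneg p k l f), ← Real.rpow_mul hc, mul_one_div_cancel hp.ne', Real.rpow_one]

lemma Lbox_smul (N : ℕ) (b : ℤ) (F : Fin 4 → ℤ → ℂ) (c : Fin 4 → ℂ) (x : ℤ) :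
    Lbox N b (fun j y => c j * F j y) x = (∏ j, c j) * Lbox N b F x := by
  unfold Lbox
  rw [mul_left_comm]
  congr 1
  rw [Finset.mul_sum]
  refine Finset.sum_congr rfl fun u _ => ?_
  rw [Finset.prod_mul_distrib]
  ring

lemma TI_smul (b : ℤ) (ε : ℕ → ℤ → ℂ) (F : Fin 4 → ℤ → ℂ) (c : Fin 4 → ℂ) (p : ℕ × ℤ) :
    TI b ε (fun j y => c j * F j y) p = (∏ j, c j) * TI b ε F p := by
  unfold TI
  rw [Finset.mul_sum]
  refine Finset.sum_congr rfl fun x _ => ?_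
  rw [Lbox_smul]
  ring

theorem bbq_of_bbn {q : Fin 3 → ℝ} (hq : ∀ j, 0 < q j) (h : BBn q) : BBq q := by
  obtain ⟨C, hC, hB⟩ := h
  refine ⟨C, hC, ?_⟩
  intro b hb ε hε R J hR F A hF hA hav hF3
  set c : Fin 4 → ℂ := ![(((A 0)⁻¹ : ℝ) : ℂ), (((A 1)⁻¹ : ℝ) : ℂ), (((A 2)⁻¹ : ℝ) : ℂ), 1] with hc
  have hc' : ∀ j : Fin 3, c j.castSucc = (((A j)⁻¹ : ℝ) : ℂ) := by
    intro j
    fin_cases j <;> rfl
  have hc3 : c 3 = 1 := rfl
  have h1 := hB b hb ε hε R J hR (fun j y => c j * F j y)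
    (fun j => (hF j).subset (by
      intro y hy
      rw [Function.mem_support] at hy ⊢
      intro h0
      exact hy (by rw [h0, mul_zero])))
    (by
      intro j p hp
      have e : (fun y => c j.castSucc * F j.castSucc y) =
          fun y => (((A j)⁻¹ : ℝ) : ℂ) * F j.castSucc y := by
        rw [hc']
      show avp (q j) (p.1 + 7) p.2 (fun y => c j.castSucc * F j.castSucc y) ≤ 1
      rw [e, avp_smul (hq j) _ _ _ _ (inv_nonneg.mpr (hA j).le), inv_mul_le_iff₀ (hA j), mul_one]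
      exact hav j p hp)
    (by
      intro x
      show ‖c 3 * F 3 x‖ ≤ 1
      rw [hc3, one_mul]
      exact hF3 x)
  have e : ∑ p ∈ R, TI b ε (fun j y => c j * F j y) p = (∏ j, c j) * ∑ p ∈ R, TI b ε F p := by
    rw [Finset.mul_sum]
    exact Finset.sum_congr rfl fun p _ => TI_smul b ε F c p
  have hprod : ∏ j, c j = (((∏ j, A j)⁻¹ : ℝ) : ℂ) := by
    rw [Fin.prod_univ_four, Fin.prod_univ_three]
    have c0 : c 0 = (((A 0)⁻¹ : ℝ) : ℂ) := rfl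
    have c1 : c 1 = (((A 1)⁻¹ : ℝ) : ℂ) := rfl
    have c2 : c 2 = (((A 2)⁻¹ : ℝ) : ℂ) := rfl
    rw [c0, c1, c2, hc3]
    push_cast
    rw [mul_inv, mul_inv, mul_one]
  have hP : 0 < ∏ j, A j := Finset.prod_pos fun j _ => hA j
  rw [e, hprod, norm_mul, Complex.norm_real, Real.norm_of_nonneg (inv_nonneg.mpr hP.le),
    inv_mul_le_iff₀ hP] at h1
  linarith

/-- a class bound with local `L^{r j}` averages in all four slots implies `BBq` (slot `3` bounded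
by `1` has average `≤ 1`). -/
theorem bbq_of_class4 {r : Fin 4 → ℝ} (hr : ∀ j, 0 < r j)
    (h : ∃ C : ℝ, 0 ≤ C ∧ ∀ b : ℤ, b = -1 ∨ b = -7 → ∀ ε : ℕ → ℤ → ℂ, (∀ m x, ‖ε m x‖ ≤ 1) →
      ∀ (R : Finset (ℕ × ℤ)) (J : ℕ × ℤ), IsRegion R J →
      ∀ (F : Fin 4 → ℤ → ℂ) (A : Fin 4 → ℝ), (∀ j, (Function.support (F j)).Finite) →
        (∀ j, 0 < A j) → (∀ j, ∀ p ∈ R, avp (r j) (p.1 + 7) p.2 (F j) ≤ A j) →
        ‖∑ p ∈ R, TI b ε F p‖ ≤ C * 2 ^ (J.1 + 7) * ∏ j, A j) :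
    BBq fun j => r j.castSucc := by
  obtain ⟨C, hC, hB⟩ := h
  refine ⟨C, hC, ?_⟩
  intro b hb ε hε R J hR F A hF hA hav hF3
  have h1 := hB b hb ε hε R J hR F ![A 0, A 1, A 2, 1] hF
    (by
      intro j
      fin_cases j
      · exact hA 0
      · exact hA 1
      · exact hA 2
      · exact one_pos)
    (by
      intro j p hp
      fin_cases j
      · exact hav 0 p hp
      · exact hav 1 p hp
      · exact hav 2 p hp
      · exact avp_le (hr 3) _ _ _ _ zero_le_one fun y _ => hF3 y)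
  refine h1.trans (le_of_eq ?_)
  rw [Fin.prod_univ_four, Fin.prod_univ_three]
  simp only [Matrix.cons_val_zero, Matrix.cons_val_one, Matrix.cons_val]
  ring

/-! ### the stopping function -/

/-- product of the three running maxima -/
noncomputable def gM (q : Fin 3 → ℝ) (T : ℕ) (F : Fin 4 → ℤ → ℂ) (p : ℕ × ℤ) : ℝ :=
  Mp (q 0) T (F 0) (T - p.1) p.2 * Mp (q 1) T (F 1) (T - p.1) p.2 *
    Mp (q 2) T (F 2) (T - p.1) p.2

lemma Mp_anc (r : ℝ) (T : ℕ) (f : ℤ → ℂ) (p : ℕ × ℤ) (k : ℕ) (h : p.1 + k ≤ T) :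
    Mp r T f (T - (anc p k).1) (anc p k).2 ≤ Mp r T f (T - p.1) p.2 := by
  have e : T - p.1 = (T - (anc p k).1) + k := by
    simp only [anc]
    omega
  rw [e]
  exact Mp_mono r T f _ k p.2

lemma avp_le_MpT (r : ℝ) (T : ℕ) (p : ℕ × ℤ) (h : p.1 ≤ T) (f : ℤ → ℂ) :
    avp r (p.1 + 7) p.2 f ≤ Mp r T f (T - p.1) p.2 := by
  have := avp_le_Mp r T f (T - p.1) p.2
  rwa [show T - (T - p.1) + 7 = p.1 + 7 by omega] at this

lemma dn_gM (q : Fin 3 → ℝ) (T : ℕ) (F : Fin 4 → ℤ → ℂ) : Dn T (gM q T F) where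
  nn p := mul_nonneg (mul_nonneg (Mp_nonneg _ _ _ _ _) (Mp_nonneg _ _ _ _ _))
    (Mp_nonneg _ _ _ _ _)
  anc p k h := by
    unfold gM
    exact mul_le_mul (mul_le_mul (Mp_anc _ _ _ _ _ h) (Mp_anc _ _ _ _ _ h)
      (Mp_nonneg _ _ _ _ _) (Mp_nonneg _ _ _ _ _)) (Mp_anc _ _ _ _ _ h) (Mp_nonneg _ _ _ _ _)
      (mul_nonneg (Mp_nonneg _ _ _ _ _) (Mp_nonneg _ _ _ _ _))

/-- the constant of the maximal theorem -/
noncomputable def Kp (p : ℝ) : ℝ := 1 + p * 2 ^ ((3 - p) / p) / ((3 - p) / 2)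

lemma Kp_one {p : ℝ} (h0 : 0 < p) (h3 : p < 3) : 1 ≤ Kp p := by
  unfold Kp
  have : 0 ≤ p * 2 ^ ((3 - p) / p) / ((3 - p) / 2) :=
    div_nonneg (by positivity) (by linarith)
  linarith

lemma max_l3 {p : ℝ} (h0 : 0 < p) (h3 : p < 3) (T : ℕ) (f : ℤ → ℂ)
    (hf : (Function.support f).Finite) (A B : ℤ) :
    ∑ l ∈ Finset.Ico (A * 2 ^ T) (B * 2 ^ T), 2 ^ 7 * Mp p T f T l ^ 3 ≤ (Kp p * l3 f) ^ 3 := by
  have h1 := max_thmp h0 h3 T f A B
  have h2 := sum_leaf_le f hf (Finset.Ico (A * 2 ^ T) (B * 2 ^ T))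
  have hK := Kp_one h0 h3
  have h4 : (0 : ℝ) < (3 - p) / 2 := by linarith
  have h5 : 0 ≤ p * 2 ^ ((3 - p) / p) := by positivity
  have h6 : p * 2 ^ ((3 - p) / p) ≤ Kp p * ((3 - p) / 2) := by
    unfold Kp
    rw [add_mul, div_mul_cancel₀ _ h4.ne']
    linarith
  have h7 : (3 - p) / 2 * ∑ l ∈ Finset.Ico (A * 2 ^ T) (B * 2 ^ T), 2 ^ 7 * Mp p T f T l ^ 3 ≤
      (3 - p) / 2 * (Kp p * l3 f ^ 3) := by
    calc _ ≤ p * 2 ^ ((3 - p) / p) *
          ∑ l ∈ Finset.Ico (A * 2 ^ T) (B * 2 ^ T), ∑ y ∈ dI 7 l, ‖f y‖ ^ 3 := h1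
      _ ≤ p * 2 ^ ((3 - p) / p) * l3 f ^ 3 := mul_le_mul_of_nonneg_left h2 h5
      _ ≤ Kp p * ((3 - p) / 2) * l3 f ^ 3 :=
          mul_le_mul_of_nonneg_right h6 (pow_nonneg (Grid.l3_nonneg f) 3)
      _ = _ := by ring
  have h8 := le_of_mul_le_mul_left h7 h4
  refine h8.trans ?_
  rw [mul_pow]
  refine mul_le_mul_of_nonneg_right ?_ (pow_nonneg (Grid.l3_nonneg f) 3)
  calc Kp p = Kp p * 1 := (mul_one _).symm
    _ ≤ Kp p * Kp p ^ 2 := mul_le_mul_of_nonneg_left (one_le_pow₀ hK) (by linarith)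
    _ = Kp p ^ 3 := by ring

lemma leaf_totalq {q : Fin 3 → ℝ} (h0 : ∀ j, 0 < q j) (h3 : ∀ j, q j < 3) (T : ℕ)
    (F : Fin 4 → ℤ → ℂ) (A B : ℤ) (hF : ∀ j, (Function.support (F j)).Finite) :
    ∑ l ∈ Finset.Ico (A * 2 ^ T) (B * 2 ^ T), 2 ^ 7 * gM q T F (0, l) ≤
      (Kp (q 0) * Kp (q 1) * Kp (q 2)) * (l3 (F 0) * l3 (F 1) * l3 (F 2)) := by
  have k0 := Kp_one (h0 0) (h3 0)
  have k1 := Kp_one (h0 1) (h3 1)
  have k2 := Kp_one (h0 2) (h3 2)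
  have h := holder3 (Finset.Ico (A * 2 ^ T) (B * 2 ^ T)) (fun _ => 2 ^ 7)
    (Mp (q 0) T (F 0) T) (Mp (q 1) T (F 1) T) (Mp (q 2) T (F 2) T) (fun _ _ => by positivity)
    (fun _ _ => Mp_nonneg _ _ _ _ _) (fun _ _ => Mp_nonneg _ _ _ _ _)
    (fun _ _ => Mp_nonneg _ _ _ _ _)
    (Kp (q 0) * l3 (F 0)) (Kp (q 1) * l3 (F 1)) (Kp (q 2) * l3 (F 2))
    (mul_nonneg (by linarith) (Grid.l3_nonneg _))
    (mul_nonneg (by linarith) (Grid.l3_nonneg _)) (mul_nonneg (by linarith) (Grid.l3_nonneg _))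
    (max_l3 (h0 0) (h3 0) T (F 0) (hF 0) A B) (max_l3 (h0 1) (h3 1) T (F 1) (hF 1) A B)
    (max_l3 (h0 2) (h3 2) T (F 2) (hF 2) A B)
  have e : ∀ l : ℤ, gM q T F (0, l) =
      Mp (q 0) T (F 0) T l * Mp (q 1) T (F 1) T l * Mp (q 2) T (F 2) T l := by
    intro l
    unfold gM
    simp
  simp only [e]
  refine h.trans (le_of_eq ?_)
  ring

/-- **L5 item 0**: `BBq ⇒ GridBound` for all exponents `0 < q j < 3`. -/
theorem gridBound_of_BBq {q : Fin 3 → ℝ} (h0 : ∀ j, 0 < q j) (h3 : ∀ j, q j < 3) :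
    BBq q → GridBound := by
  classical
  rintro ⟨C, hC, hBB⟩
  have k0 := Kp_one (h0 0) (h3 0)
  have k1 := Kp_one (h0 1) (h3 1)
  have k2 := Kp_one (h0 2) (h3 2)
  refine ⟨32 * C * (Kp (q 0) * Kp (q 1) * Kp (q 2)), by positivity, ?_⟩
  intro b hb ε hε R F hF hF3
  -- universe
  obtain ⟨T, hT⟩ : ∃ T : ℕ, ∀ p ∈ R, p.1 ≤ T :=
    ⟨R.sup Prod.fst, fun p hp => Finset.le_sup (f := Prod.fst) hp⟩
  obtain ⟨L, hL⟩ : ∃ L : ℤ, ∀ p ∈ R, |p.2| < L := by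
    refine ⟨1 + ∑ p ∈ R, |p.2|, fun p hp => ?_⟩
    have := Finset.single_le_sum (f := fun p : ℕ × ℤ => |p.2|) (fun q _ => abs_nonneg q.2) hp
    omega
  have hRU : R ⊆ U T (-L) L := by
    intro p hp
    rw [mem_U]
    have h1 := hL p hp
    have h2 : (1 : ℤ) ≤ 2 ^ (T - p.1) := one_le_pow₀ (by norm_num)
    have h3 : L ≤ L * 2 ^ (T - p.1) := by
      have : 0 ≤ L := (abs_nonneg p.2).trans h1.le
      nlinarith
    rw [abs_lt] at h1
    refine ⟨hT p hp, ?_, ?_⟩ <;> linarith [h1.1, h1.2]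
  set ε' := epsR ε R with hε'
  have hε1 : ∀ m x, ‖ε' m x‖ ≤ 1 := epsR_le ε R hε
  have s1 : ∑ p ∈ R, TI b ε F p = ∑ p ∈ U T (-L) L, TI b ε' F p := by
    rw [← Finset.sum_subset hRU]
    · refine Finset.sum_congr rfl fun p hp => ?_
      rw [hε', TI_epsR, if_pos hp]
    · intro p _ hp
      rw [hε', TI_epsR, if_neg hp]
  rw [s1]
  have hzero : ∀ p ∈ U T (-L) L, gM q T F p = 0 → TI b ε' F p = 0 := by
    intro p hp hG
    have hpT := (mem_U.mp hp).1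
    have hz : ∃ j, av2 (p.1 + 7) p.2 (F j) = 0 := by
      unfold gM at hG
      rcases mul_eq_zero.mp hG with h1 | h1
      · rcases mul_eq_zero.mp h1 with h2 | h2
        · exact ⟨0, av2_eq_zero_of_avp (h0 0) (le_antisymm
            (by rw [← h2]; exact avp_le_MpT _ T p hpT _) (avp_nonneg _ _ _ _))⟩
        · exact ⟨1, av2_eq_zero_of_avp (h0 1) (le_antisymm
            (by rw [← h2]; exact avp_le_MpT _ T p hpT _) (avp_nonneg _ _ _ _))⟩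
      · exact ⟨2, av2_eq_zero_of_avp (h0 2) (le_antisymm
            (by rw [← h1]; exact avp_le_MpT _ T p hpT _) (avp_nonneg _ _ _ _))⟩
    obtain ⟨j, hj⟩ := hz
    have h4 := norm_TI_le b hb ε' hε1 F p
    rw [Finset.prod_eq_zero (Finset.mem_univ j) hj, mul_zero] at h4
    exact norm_le_zero_iff.mp h4
  have hreg : ∀ (R : Finset (ℕ × ℤ)) (J : ℕ × ℤ), IsRegion R J →
      (∀ p ∈ R, ∃ k, p.1 + k ≤ T ∧ J = anc p k ∧ 0 < gM q T F J ∧ gM q T F p ≤ 2 * gM q T F J) →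
      ‖∑ p ∈ R, TI b ε' F p‖ ≤ (8 * C) * (2 ^ (J.1 + 7) * gM q T F J) := by
    intro R' J hR' hk
    rcases R'.eq_empty_or_nonempty with he | ⟨p₀, hp₀⟩
    · rw [he, Finset.sum_empty, norm_zero]
      have := (dn_gM q T F).nn J
      positivity
    obtain ⟨_, _, _, hGJ, _⟩ := hk p₀ hp₀
    have n0 := Mp_nonneg (q 0) T (F 0) (T - J.1) J.2
    have n1 := Mp_nonneg (q 1) T (F 1) (T - J.1) J.2
    have n2 := Mp_nonneg (q 2) T (F 2) (T - J.1) J.2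
    have hpos : 0 < Mp (q 0) T (F 0) (T - J.1) J.2 ∧ 0 < Mp (q 1) T (F 1) (T - J.1) J.2 ∧
        0 < Mp (q 2) T (F 2) (T - J.1) J.2 := by
      unfold gM at hGJ
      refine ⟨?_, ?_, ?_⟩
      · rcases n0.lt_or_eq with h | h
        · exact h
        · rw [← h] at hGJ; simp at hGJ
      · rcases n1.lt_or_eq with h | h
        · exact h
        · rw [← h] at hGJ; simp at hGJ
      · rcases n2.lt_or_eq with h | h
        · exact h
        · rw [← h] at hGJ; simp at hGJ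
    obtain ⟨ha, hb', hc⟩ := hpos
    have h := hBB b hb ε' hε1 R' J hR' F
      ![2 * Mp (q 0) T (F 0) (T - J.1) J.2, 2 * Mp (q 1) T (F 1) (T - J.1) J.2,
        2 * Mp (q 2) T (F 2) (T - J.1) J.2] hF (by
          intro j
          fin_cases j
          · exact mul_pos (by norm_num) ha
          · exact mul_pos (by norm_num) hb'
          · exact mul_pos (by norm_num) hc)
      (by
        intro j p hp
        obtain ⟨k, hkT, hJ, _, h2⟩ := hk p hp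
        have hpT : p.1 ≤ T := by omega
        have m0 := Mp_anc (q 0) T (F 0) p _ hkT
        have m1 := Mp_anc (q 1) T (F 1) p _ hkT
        have m2 := Mp_anc (q 2) T (F 2) p _ hkT
        rw [← hJ] at m0 m1 m2
        have v0 := avp_le_MpT (q 0) T p hpT (F 0)
        have v1 := avp_le_MpT (q 1) T p hpT (F 1)
        have v2 := avp_le_MpT (q 2) T p hpT (F 2)
        unfold gM at h2
        fin_cases j
        · exact v0.trans (three_le ha hb' hc m0 m1 m2 h2)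
        · refine v1.trans (three_le hb' ha hc m1 m0 m2 ?_)
          linarith
        · refine v2.trans (three_le hc ha hb' m2 m0 m1 ?_)
          linarith)
      hF3
    refine h.trans (le_of_eq ?_)
    rw [Fin.prod_univ_three]
    unfold gM
    simp only [Matrix.cons_val_zero, Matrix.cons_val_one, Matrix.cons_val]
    ring
  refine (decomp T (gM q T F) (dn_gM q T F) (-L) L (fun p => TI b ε' F p) (8 * C) (by positivity)
    hzero hreg).trans ?_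
  have hl := leaf_totalq h0 h3 T F (-L) L hF
  have h8 : (0 : ℝ) ≤ 8 * C := by positivity
  calc 8 * C * (4 * ∑ l ∈ Finset.Ico (-L * 2 ^ T) (L * 2 ^ T), 2 ^ 7 * gM q T F (0, l))
      ≤ 8 * C * (4 * ((Kp (q 0) * Kp (q 1) * Kp (q 2)) * (l3 (F 0) * l3 (F 1) * l3 (F 2)))) :=
        mul_le_mul_of_nonneg_left (mul_le_mul_of_nonneg_left hl (by norm_num)) h8
    _ = _ := by ring

theorem gridBound_of_BBn {q : Fin 3 → ℝ} (h0 : ∀ j, 0 < q j) (h3 : ∀ j, q j < 3) (h : BBn q) :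
    GridBound := gridBound_of_BBq h0 h3 (bbq_of_bbn h0 h)

theorem gridBound_of_BBp {p : ℝ} (h0 : 0 < p) (h3 : p < 3) (h : BB1 p) : GridBound :=
  gridBound_of_BBq (fun _ => h0) (fun _ => h3) h

end Crest.Agent.R079.BBp
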