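import Mathlib

/-! R079, STEP II (II.1), LEAF CERTIFICATE ⟹ block `S₄` smallness (helper616).

`R i a b` = residual kernels (finite families, weights `lam i ≥ 0`), `‖R i a b‖ ≤ M`.  Certificate:
for all finite label sets and all pointwise contractions `U, V`,
`2 Σ lam Re ⟨R, U V*⟩ ≤ θ (Σ lam (Σ na |U|² + Σ nb |V|²)) + κ`.
Tested with `Z = (R R*) R` (factorised, labels = rows): no singular vectors, no compactness.
Conclusion for a block-diagonal family of boxes (`ka`, `kb` = box index of a row / a column):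
`Σ lam S₄⁴(boxes) ≤ (nA nB M³ / 2) (θ Σ lam (Σ na + Σ nb) + κ)`. -/

set_option autoImplicit false
set_option linter.unusedSectionVars false

namespace Crest.Agent.R079.Cert616

open Finset

variable {ι α β κ' : Type*} [DecidableEq α] [DecidableEq β] [DecidableEq κ']

/-- Gram of the rows `a, l` of `R` over the columns of the box of `a` -/
noncomputable def gm (B : Finset β) (ka : α → κ') (kb : β → κ') (R : α → β → ℂ) (a l : α) : ℂ :=
  ∑ b ∈ B with kb b = ka a, R a b * (starRingEnd ℂ) (R l b)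

/-- block `S₄⁴` (not normalised) -/
noncomputable def q4b (A : Finset α) (B : Finset β) (ka : α → κ') (kb : β → κ') (R : α → β → ℂ) : ℝ :=
  ∑ a ∈ A, ∑ l ∈ A with ka l = ka a, ‖gm B ka kb R a l‖ ^ 2

/-- test letter on the rows -/
noncomputable def tU (A : Finset α) (B : Finset β) (ka : α → κ') (kb : β → κ') (R : α → β → ℂ) (c : ℝ)
    (a : α) (l : A) : ℂ :=
  if a ∈ A ∧ ka l = ka a then (c : ℂ) * gm B ka kb R a l else 0

/-- test letter on the columns -/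
noncomputable def tV (A : Finset α) (B : Finset β) (ka : α → κ') (kb : β → κ') (R : α → β → ℂ) (c : ℝ)
    (b : β) (l : A) : ℂ :=
  if b ∈ B ∧ ka l = kb b then (c : ℂ) * (starRingEnd ℂ) (R l b) else 0

lemma norm_gm_le {B : Finset β} {ka : α → κ'} {kb : β → κ'} {R : α → β → ℂ} {M nB : ℝ}
    (hM : 0 ≤ M) (hR : ∀ a b, ‖R a b‖ ≤ M) (a l : α)
    (hB : ((B.filter (fun b => kb b = ka a)).card : ℝ) ≤ nB) :
    ‖gm B ka kb R a l‖ ≤ nB * M ^ 2 := by
  unfold gm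
  refine (norm_sum_le _ _).trans ?_
  have h1 : ∀ b ∈ B.filter (fun b => kb b = ka a), ‖R a b * (starRingEnd ℂ) (R l b)‖ ≤ M ^ 2 := by
    intro b _
    rw [norm_mul, RCLike.norm_conj, pow_two]
    exact mul_le_mul (hR a b) (hR l b) (norm_nonneg _) hM
  refine (sum_le_card_nsmul _ _ _ h1).trans ?_
  rw [nsmul_eq_mul]
  exact mul_le_mul_of_nonneg_right hB (by positivity)

lemma sum_tU_sq {A : Finset α} {B : Finset β} {ka : α → κ'} {kb : β → κ'} {R : α → β → ℂ} {M nA nB : ℝ}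
    (hM : 0 ≤ M) (hnB : 0 ≤ nB) (hR : ∀ a b, ‖R a b‖ ≤ M) (c : ℝ)
    (hA : ∀ k, ((A.filter (fun a => ka a = k)).card : ℝ) ≤ nA)
    (hB : ∀ k, ((B.filter (fun b => kb b = k)).card : ℝ) ≤ nB) (a : α) :
    ∑ l : A, ‖tU A B ka kb R c a l‖ ^ 2 ≤ c ^ 2 * nA * (nB * M ^ 2) ^ 2 := by
  have hnA : 0 ≤ nA := le_trans (Nat.cast_nonneg _) (hA (ka a))
  have h1 : ∀ l : A, ‖tU A B ka kb R c a l‖ ^ 2 ≤
      (if ka l = ka a then c ^ 2 * (nB * M ^ 2) ^ 2 else 0) := by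
    intro l
    unfold tU
    by_cases h : a ∈ A ∧ ka l = ka a
    · rw [if_pos h, if_pos h.2, norm_mul, mul_pow, Complex.norm_real, Real.norm_eq_abs, sq_abs]
      exact mul_le_mul_of_nonneg_left
        (pow_le_pow_left₀ (norm_nonneg _) (norm_gm_le hM hR a l (hB _)) 2) (sq_nonneg _)
    · rw [if_neg h, norm_zero, zero_pow two_ne_zero]
      split_ifs <;> positivity
  refine (sum_le_sum fun l _ => h1 l).trans ?_
  rw [Finset.sum_coe_sort A (fun l => if ka l = ka a then c ^ 2 * (nB * M ^ 2) ^ 2 else 0),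
    ← Finset.sum_filter, sum_const, nsmul_eq_mul]
  have := hA (ka a)
  calc ((A.filter (fun l => ka l = ka a)).card : ℝ) * (c ^ 2 * (nB * M ^ 2) ^ 2)
      ≤ nA * (c ^ 2 * (nB * M ^ 2) ^ 2) := mul_le_mul_of_nonneg_right this (by positivity)
    _ = _ := by ring

lemma sum_tV_sq {A : Finset α} {B : Finset β} {ka : α → κ'} {kb : β → κ'} {R : α → β → ℂ} {M nA : ℝ}
    (hR : ∀ a b, ‖R a b‖ ≤ M) (c : ℝ)
    (hA : ∀ k, ((A.filter (fun a => ka a = k)).card : ℝ) ≤ nA) (b : β) :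
    ∑ l : A, ‖tV A B ka kb R c b l‖ ^ 2 ≤ c ^ 2 * nA * M ^ 2 := by
  have hM : 0 ≤ M ^ 2 := sq_nonneg _
  have hnA : 0 ≤ nA := le_trans (Nat.cast_nonneg _) (hA (kb b))
  have h1 : ∀ l : A, ‖tV A B ka kb R c b l‖ ^ 2 ≤
      (if ka l = kb b then c ^ 2 * M ^ 2 else 0) := by
    intro l
    unfold tV
    by_cases h : b ∈ B ∧ ka l = kb b
    · rw [if_pos h, if_pos h.2, norm_mul, mul_pow, Complex.norm_real, Real.norm_eq_abs, sq_abs,
        RCLike.norm_conj]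
      exact mul_le_mul_of_nonneg_left
        (pow_le_pow_left₀ (norm_nonneg _) (hR l b) 2) (sq_nonneg _)
    · rw [if_neg h, norm_zero, zero_pow two_ne_zero]
      split_ifs <;> positivity
  refine (sum_le_sum fun l _ => h1 l).trans ?_
  rw [Finset.sum_coe_sort A (fun l => if ka l = kb b then c ^ 2 * M ^ 2 else 0),
    ← Finset.sum_filter, sum_const, nsmul_eq_mul]
  have := hA (kb b)
  calc ((A.filter (fun l => ka l = kb b)).card : ℝ) * (c ^ 2 * M ^ 2)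
      ≤ nA * (c ^ 2 * M ^ 2) := mul_le_mul_of_nonneg_right this (by positivity)
    _ = _ := by ring

/-- the pairing of `R` with the test kernel = `c₁ c₂ S₄⁴` -/
lemma pair_eq (A : Finset α) (B : Finset β) (ka : α → κ') (kb : β → κ') (R : α → β → ℂ) (c1 c2 : ℝ) :
    ∑ a ∈ A, ∑ b ∈ B, R a b * (starRingEnd ℂ) (∑ l : A, tU A B ka kb R c1 a l *
      (starRingEnd ℂ) (tV A B ka kb R c2 b l)) = ((c1 * c2 * q4b A B ka kb R : ℝ) : ℂ) := by
  have h1 : ∀ a ∈ A, ∑ b ∈ B, R a b * (starRingEnd ℂ) (∑ l : A, tU A B ka kb R c1 a l *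
      (starRingEnd ℂ) (tV A B ka kb R c2 b l)) =
      ((c1 * c2 : ℝ) : ℂ) * ∑ l ∈ A with ka l = ka a, ((‖gm B ka kb R a l‖ ^ 2 : ℝ) : ℂ) := by
    intro a ha
    have h2 : ∀ b ∈ B, R a b * (starRingEnd ℂ) (∑ l : A, tU A B ka kb R c1 a l *
        (starRingEnd ℂ) (tV A B ka kb R c2 b l)) =
        ∑ l ∈ A with ka l = ka a, (if kb b = ka a then ((c1 * c2 : ℝ) : ℂ) *
          ((starRingEnd ℂ) (gm B ka kb R a l) * (R a b * (starRingEnd ℂ) (R l b))) else 0) := by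
      intro b hb
      simp only [tU, tV]
      rw [map_sum, mul_sum, Finset.sum_coe_sort A (fun l => R a b * (starRingEnd ℂ)
        ((if a ∈ A ∧ ka l = ka a then (c1 : ℂ) * gm B ka kb R a l else 0) *
        (starRingEnd ℂ) (if b ∈ B ∧ ka l = kb b then (c2 : ℂ) * (starRingEnd ℂ) (R l b) else 0))),
        sum_filter]
      refine sum_congr rfl fun l _ => ?_
      by_cases h3 : ka l = ka a
      · rw [if_pos ⟨ha, h3⟩, if_pos h3]
        by_cases h4 : kb b = ka a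
        · rw [if_pos ⟨hb, by rw [h3, h4]⟩, if_pos h4]
          simp only [map_mul, Complex.conj_conj, Complex.conj_ofReal, Complex.ofReal_mul]
          ring
        · rw [if_neg (fun h => h4 (by rw [← h.2, h3])), if_neg h4]
          simp
      · rw [if_neg (fun h => h3 h.2), if_neg h3]
        simp
    rw [sum_congr rfl h2, sum_comm, mul_sum]
    refine sum_congr rfl fun l _ => ?_
    rw [← sum_filter, ← mul_sum, ← mul_sum]
    congr 1
    change (starRingEnd ℂ) (gm B ka kb R a l) * gm B ka kb R a l = _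
    rw [mul_comm, Complex.mul_conj, Complex.normSq_eq_norm_sq]
  rw [sum_congr rfl h1, ← mul_sum]
  unfold q4b
  push_cast
  rfl

/-- **CERTIFICATE ⟹ BLOCK `S₄`** -/
theorem q4_of_cert (I : Finset ι) (lam : ι → ℝ) (hlam : ∀ i ∈ I, 0 ≤ lam i)
    (A : ι → Finset α) (B : ι → Finset β) (ka : ι → α → κ') (kb : ι → β → κ') (R : ι → α → β → ℂ)
    (na : ι → α → ℝ) (nb : ι → β → ℝ) (hna : ∀ i a, 0 ≤ na i a) (hnb : ∀ i b, 0 ≤ nb i b)
    {M nA nB θ κ : ℝ} (hM : 0 < M) (hnA : 0 < nA) (hnB : 0 < nB) (hθ : 0 ≤ θ)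
    (hR : ∀ i a b, ‖R i a b‖ ≤ M)
    (hA : ∀ i k, (((A i).filter (fun a => ka i a = k)).card : ℝ) ≤ nA)
    (hB : ∀ i k, (((B i).filter (fun b => kb i b = k)).card : ℝ) ≤ nB)
    (cert : ∀ (U : (i : ι) → α → A i → ℂ) (V : (i : ι) → β → A i → ℂ),
      (∀ i a, ∑ l, ‖U i a l‖ ^ 2 ≤ 1) → (∀ i b, ∑ l, ‖V i b l‖ ^ 2 ≤ 1) →
      2 * ∑ i ∈ I, lam i * (∑ a ∈ A i, ∑ b ∈ B i, R i a b *
        (starRingEnd ℂ) (∑ l, U i a l * (starRingEnd ℂ) (V i b l))).re ≤
      θ * ∑ i ∈ I, lam i * (∑ a ∈ A i, na i a * ∑ l, ‖U i a l‖ ^ 2 +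
        ∑ b ∈ B i, nb i b * ∑ l, ‖V i b l‖ ^ 2) + κ) :
    ∑ i ∈ I, lam i * q4b (A i) (B i) (ka i) (kb i) (R i) ≤
      nA * nB * M ^ 3 / 2 * (θ * ∑ i ∈ I, lam i * (∑ a ∈ A i, na i a + ∑ b ∈ B i, nb i b) + κ) := by
  set c1 : ℝ := 1 / (Real.sqrt nA * (nB * M ^ 2)) with hc1
  set c2 : ℝ := 1 / (Real.sqrt nA * M) with hc2
  have hs : 0 < Real.sqrt nA := Real.sqrt_pos.2 hnA
  have hss : Real.sqrt nA ^ 2 = nA := Real.sq_sqrt hnA.le
  have hU : ∀ i a, ∑ l, ‖tU (A i) (B i) (ka i) (kb i) (R i) c1 a l‖ ^ 2 ≤ 1 := by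
    intro i a
    refine (sum_tU_sq hM.le hnB.le (hR i) c1 (hA i) (hB i) a).trans (le_of_eq ?_)
    rw [hc1, div_pow, one_pow, mul_pow, hss]
    field_simp
  have hV : ∀ i b, ∑ l, ‖tV (A i) (B i) (ka i) (kb i) (R i) c2 b l‖ ^ 2 ≤ 1 := by
    intro i b
    refine (sum_tV_sq (hR i) c2 (hA i) b).trans (le_of_eq ?_)
    rw [hc2, div_pow, one_pow, mul_pow, hss]
    field_simp
  have h := cert _ _ hU hV
  have h12 : c1 * c2 = 1 / (nA * nB * M ^ 3) := by
    rw [hc1, hc2, div_mul_div_comm, one_mul]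
    congr 1
    rw [show Real.sqrt nA * (nB * M ^ 2) * (Real.sqrt nA * M) =
      Real.sqrt nA ^ 2 * (nB * M ^ 3) by ring, hss]
    ring
  have h2 : 2 * ∑ i ∈ I, lam i * (c1 * c2 * q4b (A i) (B i) (ka i) (kb i) (R i)) ≤
      θ * ∑ i ∈ I, lam i * (∑ a ∈ A i, na i a + ∑ b ∈ B i, nb i b) + κ := by
    refine le_trans (le_of_eq ?_) (h.trans ?_)
    · congr 1
      refine sum_congr rfl fun i _ => ?_
      rw [pair_eq, Complex.ofReal_re]
    · refine add_le_add (mul_le_mul_of_nonneg_left (sum_le_sum fun i hi => ?_) hθ) le_rfl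
      refine mul_le_mul_of_nonneg_left (add_le_add (sum_le_sum fun a _ => ?_)
        (sum_le_sum fun b _ => ?_)) (hlam i hi)
      · exact mul_le_of_le_one_right (hna i a) (hU i a)
      · exact mul_le_of_le_one_right (hnb i b) (hV i b)
  have h3 : ∑ i ∈ I, lam i * (c1 * c2 * q4b (A i) (B i) (ka i) (kb i) (R i)) =
      1 / (nA * nB * M ^ 3) * ∑ i ∈ I, lam i * q4b (A i) (B i) (ka i) (kb i) (R i) := by
    rw [h12, mul_sum]
    exact sum_congr rfl fun i _ => by ring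
  rw [h3] at h2
  have hP : 0 < nA * nB * M ^ 3 := by positivity
  have h4 : ∑ i ∈ I, lam i * q4b (A i) (B i) (ka i) (kb i) (R i) =
      nA * nB * M ^ 3 / 2 * (2 * (1 / (nA * nB * M ^ 3) *
        ∑ i ∈ I, lam i * q4b (A i) (B i) (ka i) (kb i) (R i))) := by
    field_simp
  rw [h4]
  exact mul_le_mul_of_nonneg_left h2 (by positivity)

end Crest.Agent.R079.Cert616
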