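import Crest.Agent.R079.Cmp_408

/-! R079 Step II (helper408): the composition `Cmp_408` for a GENERAL kernel: a function periodic along
`{s : Σ s = 0, Σ sl s = 0}` is a function `Κ T A` of `T = Σ x_k`, `A = Σ sl_k x_k` (`y_j = A - sl_j T`).
`LboxG` = box form of `Κ`; `Lbox F = LboxG (∏_j F_j (A - sl_j T))`.  Reduced coordinates
`x_m = 0`, `x_i = r`, `x_a = z`, `x_b = z'`. -/

set_option autoImplicit false
set_option linter.unusedSectionVars false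

namespace Crest.Agent.R079.Cg408

open Finset Crest.Agent.R079.Grid Crest.Agent.R079.Growth Crest.Agent.R079.QRed
open Crest.Agent.R079.Qh249 (mem_iv)
open Crest.Agent.R079.F2 Crest.Agent.R079.MBes71 Crest.Agent.R079.Ero526 Crest.Agent.R079.Cmp408

variable {E : Type*} [NormedAddCommGroup E] [InnerProductSpace ℂ E]

/-- box form of a kernel `Κ T A` -/
noncomputable def LboxG (N : ℕ) (bb : ℤ) (Κ : ℤ → ℤ → ℂ) (x : ℤ) : ℂ :=
  (1 / ((N : ℂ) + N) ^ 4) * ∑ u : Fin 4 → Fin (N + N),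
    ((∏ i, hsg N (u i) : ℝ) : ℂ) *
      Κ (bb * N + ∑ i, ((u i : ℕ) : ℤ)) (x + ∑ i, sl i * ((u i : ℕ) : ℤ))

lemma Lbox_LboxG (N : ℕ) (bb : ℤ) (F : Fin 4 → ℤ → ℂ) (x : ℤ) :
    Lbox N bb F x = LboxG N bb (fun T A => ∏ j, F j (A - sl j * T)) x := by
  unfold Lbox LboxG
  congr 1
  refine Finset.sum_congr rfl fun u _ => ?_
  congr 1
  refine Finset.prod_congr rfl fun j _ => ?_
  congr 1
  unfold yv
  simp only [Fin.sum_univ_four]
  ring

lemma LboxG_add (N : ℕ) (bb : ℤ) (Κ Κ' : ℤ → ℤ → ℂ) (x : ℤ) :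
    LboxG N bb (fun T A => Κ T A + Κ' T A) x = LboxG N bb Κ x + LboxG N bb Κ' x := by
  unfold LboxG
  rw [← mul_add, ← Finset.sum_add_distrib]
  congr 1
  exact Finset.sum_congr rfl fun u _ => by ring

/-- kernel in reduced coordinates -/
def red (i a b : Fin 4) (Κ : ℤ → ℤ → ℂ) (r z z' : ℤ) : ℂ :=
  Κ (r + z + z') (sl i * r + sl a * z + sl b * z')

lemma red_F (i m a b : Fin 4) (h : Dst i m a b) (F : Fin 4 → ℤ → ℂ) (r z z' : ℤ) :
    red i a b (fun T A => ∏ j, F j (A - sl j * T)) r z z' =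
      Yb i a b F r z * Kk i m a b F r z z' * Ya i a b F r z' := by
  unfold red
  simp only [prod4 i m a b h, Ya, Yb, Kk, dd]
  have c1 : ∀ (k : Fin 4) (y z : ℤ), y = z → F k y = F k z := fun k y z hyz => by rw [hyz]
  rw [c1 i _ ((sl a - sl i) * z + (sl b - sl i) * z') (by ring),
    c1 m _ ((sl i - sl m) * r + (sl a - sl m) * z + (sl b - sl m) * z') (by ring),
    c1 a _ ((sl i - sl a) * r + (sl b - sl a) * z') (by ring),
    c1 b _ ((sl i - sl b) * r - (sl b - sl a) * z) (by ring)]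
  ring

lemma frm_fin (G : ℤ → ℤ → ℂ) (k : ℕ) (qa qb : ℤ) :
    frm G k qa qb = (1 / (2 : ℂ) ^ (k + 1)) * ((1 / (2 : ℂ) ^ (k + 1)) *
      ∑ u : Fin (2 ^ k + 2 ^ k), ∑ v : Fin (2 ^ k + 2 ^ k),
        ((hsg (2 ^ k) u : ℝ) : ℂ) * ((hsg (2 ^ k) v : ℝ) : ℂ) *
          G (qa + ((u : ℕ) : ℤ)) (qb + ((v : ℕ) : ℤ))) := by
  unfold frm
  rw [← sum_fin k (fun u => ∑ v ∈ range (2 ^ (k + 1)), sg k u * sg k v *
    G (qa + (u : ℤ)) (qb + (v : ℤ)))]
  congr 2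
  refine Finset.sum_congr rfl fun u _ => ?_
  rw [← sum_fin k (fun v => sg k (u : ℕ) * sg k v * G (qa + (((u : ℕ) : ℕ) : ℤ)) (qb + (v : ℤ)))]
  refine Finset.sum_congr rfl fun v _ => ?_
  rw [hsg_sg, hsg_sg]

/-- **EXACT FORMULA** for a general kernel -/
theorem LboxG_eq (i m a b : Fin 4) (h : Dst i m a b) (Κ : ℤ → ℤ → ℂ) (k : ℕ) (bb x : ℤ)
    (r : Fin (2 ^ k + 2 ^ k) → Fin (2 ^ k + 2 ^ k) → ℕ)
    (q : Fin (2 ^ k + 2 ^ k) → Fin (2 ^ k + 2 ^ k) → ℤ)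
    (hq : ∀ ui um, xq i m a b bb (2 ^ k) (q ui um) (r ui um) ((ui : ℕ) : ℤ) ((um : ℕ) : ℤ) = x) :
    LboxG (2 ^ k) bb Κ x = (1 / (((2 ^ k : ℕ) : ℂ) + ((2 ^ k : ℕ) : ℂ)) ^ 2) *
      ∑ ui : Fin (2 ^ k + 2 ^ k), ∑ um : Fin (2 ^ k + 2 ^ k),
      ((hsg (2 ^ k) ui * hsg (2 ^ k) um : ℝ) : ℂ) *
        frm (red i a b Κ (r ui um)) k (q ui um)
          (off bb (2 ^ k) (r ui um) ((ui : ℕ) : ℤ) ((um : ℕ) : ℤ) - q ui um) := by
  unfold LboxG
  rw [sum_box i m a b h, Finset.mul_sum, Finset.mul_sum]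
  refine Finset.sum_congr rfl fun ui _ => ?_
  rw [Finset.mul_sum, Finset.mul_sum]
  refine Finset.sum_congr rfl fun um _ => ?_
  have h' := h
  obtain ⟨h1, h2, h3, h4, h5, h6⟩ := h
  have e1 : ∀ ua ub, F2.mk i m a ui um ua ub i = ui := by intros; simp [F2.mk]
  have e2 : ∀ ua ub, F2.mk i m a ui um ua ub m = um := by intros; simp [F2.mk, h1.symm]
  have e3 : ∀ ua ub, F2.mk i m a ui um ua ub a = ua := by intros; simp [F2.mk, h2.symm, h4.symm]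
  have e4 : ∀ ua ub, F2.mk i m a ui um ua ub b = ub := by
    intros; simp [F2.mk, h3.symm, h5.symm, h6.symm]
  have hN : (((2 ^ k : ℕ) : ℂ) + ((2 ^ k : ℕ) : ℂ)) = 2 ^ (k + 1) := by push_cast; ring
  rw [hN, frm_fin]
  simp only [Finset.mul_sum]
  refine Finset.sum_congr rfl fun ua _ => Finset.sum_congr rfl fun ub _ => ?_
  simp only [prod4 i m a b h', sum4 i m a b h', e1, e2, e3, e4]
  have hx := hq ui um
  have hk : Κ (bb * (2 ^ k : ℕ) + (((ui : ℕ) : ℤ) + ((um : ℕ) : ℤ) + ((ua : ℕ) : ℤ) + ((ub : ℕ) : ℤ)))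
      (x + (sl i * ((ui : ℕ) : ℤ) + sl m * ((um : ℕ) : ℤ) + sl a * ((ua : ℕ) : ℤ) +
        sl b * ((ub : ℕ) : ℤ))) =
      red i a b Κ (r ui um) (q ui um + ((ua : ℕ) : ℤ))
        (off bb (2 ^ k) (r ui um) ((ui : ℕ) : ℤ) ((um : ℕ) : ℤ) - q ui um + ((ub : ℕ) : ℤ)) := by
    unfold red
    have hT : bb * (2 ^ k : ℕ) + (((ui : ℕ) : ℤ) + ((um : ℕ) : ℤ) + ((ua : ℕ) : ℤ) + ((ub : ℕ) : ℤ)) =
        (r ui um : ℤ) + (q ui um + ((ua : ℕ) : ℤ)) +
        (off bb (2 ^ k) (r ui um) ((ui : ℕ) : ℤ) ((um : ℕ) : ℤ) - q ui um + ((ub : ℕ) : ℤ)) := by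
      unfold off; ring
    have hA : (x + (sl i * ((ui : ℕ) : ℤ) + sl m * ((um : ℕ) : ℤ) + sl a * ((ua : ℕ) : ℤ) +
        sl b * ((ub : ℕ) : ℤ))) =
        sl i * (r ui um : ℤ) + sl a * (q ui um + ((ua : ℕ) : ℤ)) + sl b *
        (off bb (2 ^ k) (r ui um) ((ui : ℕ) : ℤ) ((um : ℕ) : ℤ) - q ui um + ((ub : ℕ) : ℤ)) := by
      rw [← hx]; unfold off xq dd; ring
    rw [← hT, ← hA]
  rw [hk]
  push_cast
  ring

/-- **norm form, summed over the base points** -/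
theorem sum_norm_LboxG_le (i m a b : Fin 4) (h : Dst i m a b) (Κ : ℤ → ℤ → ℂ) (k : ℕ) (bb : ℤ)
    (S Q : Finset ℤ)
    (hQ : ∀ (ui um : Fin (2 ^ k + 2 ^ k)) (r : ℕ) (q : ℤ), r < (dd a b).natAbs →
      xq i m a b bb (2 ^ k) q r ((ui : ℕ) : ℤ) ((um : ℕ) : ℤ) ∈ S → q ∈ Q) :
    ∑ x ∈ S, ‖LboxG (2 ^ k) bb Κ x‖ ≤
      (1 / (((2 ^ k : ℕ) : ℝ) + ((2 ^ k : ℕ) : ℝ)) ^ 2) *
        ∑ ui : Fin (2 ^ k + 2 ^ k), ∑ um : Fin (2 ^ k + 2 ^ k),
        ∑ r ∈ range (dd a b).natAbs, ∑ q ∈ Q,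
          if xq i m a b bb (2 ^ k) q r ((ui : ℕ) : ℤ) ((um : ℕ) : ℤ) ∈ S then
            ‖frm (red i a b Κ r) k q (off bb (2 ^ k) r ((ui : ℕ) : ℤ) ((um : ℕ) : ℤ) - q)‖ else 0 := by
  classical
  have hex : ∀ (x : ℤ) (ui um : Fin (2 ^ k + 2 ^ k)), ∃ t : ℕ × ℤ, t.1 < (dd a b).natAbs ∧
      xq i m a b bb (2 ^ k) t.2 t.1 ((ui : ℕ) : ℤ) ((um : ℕ) : ℤ) = x := by
    intro x ui um
    obtain ⟨r, hr, q, hq⟩ := exists_rq i m a b h bb (2 ^ k) x ((ui : ℕ) : ℤ) ((um : ℕ) : ℤ)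
    exact ⟨(r, q), hr, hq⟩
  choose t ht1 ht2 using hex
  have h1 : ∀ x, ‖LboxG (2 ^ k) bb Κ x‖ ≤ (1 / (((2 ^ k : ℕ) : ℝ) + ((2 ^ k : ℕ) : ℝ)) ^ 2) *
      ∑ ui : Fin (2 ^ k + 2 ^ k), ∑ um : Fin (2 ^ k + 2 ^ k),
      ‖frm (red i a b Κ (t x ui um).1) k (t x ui um).2
        (off bb (2 ^ k) (t x ui um).1 ((ui : ℕ) : ℤ) ((um : ℕ) : ℤ) - (t x ui um).2)‖ := by
    intro x
    rw [LboxG_eq i m a b h Κ k bb x (fun ui um => (t x ui um).1) (fun ui um => (t x ui um).2)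
      (fun ui um => ht2 x ui um), norm_mul]
    have hn : ‖(1 / (((2 ^ k : ℕ) : ℂ) + ((2 ^ k : ℕ) : ℂ)) ^ 2)‖ =
        1 / (((2 ^ k : ℕ) : ℝ) + ((2 ^ k : ℕ) : ℝ)) ^ 2 := by
      rw [norm_div, norm_one, norm_pow]
      congr 2
      rw [← Nat.cast_add, Complex.norm_natCast, Nat.cast_add]
    rw [hn]
    refine mul_le_mul_of_nonneg_left ?_ (by positivity)
    refine (norm_sum_le _ _).trans (Finset.sum_le_sum fun ui _ => ?_)
    refine (norm_sum_le _ _).trans (Finset.sum_le_sum fun um _ => ?_)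
    rw [norm_mul, Complex.ofReal_mul, norm_mul, norm_hsg, norm_hsg, one_mul, one_mul]
  refine (Finset.sum_le_sum fun x _ => h1 x).trans ?_
  rw [← Finset.mul_sum]
  refine mul_le_mul_of_nonneg_left ?_ (by positivity)
  rw [Finset.sum_comm]
  refine Finset.sum_le_sum fun ui _ => ?_
  rw [Finset.sum_comm]
  refine Finset.sum_le_sum fun um _ => ?_
  rw [← Finset.sum_product' (range (dd a b).natAbs) Q (fun r q =>
    if xq i m a b bb (2 ^ k) q r ((ui : ℕ) : ℤ) ((um : ℕ) : ℤ) ∈ S then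
            ‖frm (red i a b Κ r) k q (off bb (2 ^ k) r ((ui : ℕ) : ℤ) ((um : ℕ) : ℤ) - q)‖ else 0)]
  have hinj : Set.InjOn (fun x => t x ui um) (S : Set ℤ) := by
    intro x _ y _ hxy
    have hxy' : t x ui um = t y ui um := hxy
    rw [← ht2 x ui um, ← ht2 y ui um, hxy']
  have himg : S.image (fun x => t x ui um) ⊆ range (dd a b).natAbs ×ˢ Q := by
    intro z hz
    rw [Finset.mem_image] at hz
    obtain ⟨x, hx, rfl⟩ := hz
    rw [Finset.mem_product, Finset.mem_range]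
    refine ⟨ht1 x ui um, hQ ui um _ _ (ht1 x ui um) ?_⟩
    rw [ht2 x ui um]
    exact hx
  refine le_trans (le_of_eq ?_) (Finset.sum_le_sum_of_subset_of_nonneg himg fun z _ _ => ?_)
  · rw [Finset.sum_image hinj]
    refine Finset.sum_congr rfl fun x hx => ?_
    rw [if_pos]
    rw [ht2 x ui um]
    exact hx
  · split_ifs
    · exact norm_nonneg _
    · exact le_refl _

/-- one level of the window, general kernel -/
lemma levelG_le (i m a b : Fin 4) (h : Dst i m a b) (Κ : ℤ → ℤ → ℂ) {bb : ℤ}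
    (hbb : bb = -1 ∨ bb = -7) {W : Finset Nd} {I : Nd} (hW : Full W I) (C : ℕ) (X : Finset Nd)
    (hX : X ⊆ W) (hXb : ∀ p ∈ X, ¬ Bad W C p) (be al : ℕ → ℤ → E)
    (hK : ∀ r : ℕ, r < (dd a b).natAbs → ∀ z z' : ℤ,
      (sl i - sl a) * r + dd a b * z' ∈ iv I → (sl i - sl b) * r + -dd a b * z ∈ iv I →
      (sl a - sl i) * z + (sl b - sl i) * z' ∈ iv I →
      (sl i - sl m) * r + (sl a - sl m) * z + (sl b - sl m) * z' ∈ iv I →
      red i a b Κ r z z' = inner ℂ (be r z) (al r z')) (k : ℕ) :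
    ∑ p ∈ X with p.1 = k, ∑ x ∈ adm p.1 p.2, ‖LboxG (2 ^ p.1) bb Κ x‖ ≤
      ∑ r ∈ range (dd a b).natAbs,
        √(DE W C ((sl i - sl b) * r) (-dd a b) (be r) k) *
          √(DE W C ((sl i - sl a) * r) (dd a b) (al r) k) := by
  classical
  have hd := dd_ne i m a b h
  set Xk : Finset Nd := X.filter (fun p => p.1 = k) with hXk
  set S : Finset ℤ := Xk.biUnion (fun p => adm p.1 p.2) with hS
  have hdis : (Xk : Set Nd).PairwiseDisjoint (fun p => adm p.1 p.2) := by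
    intro p hp q hq hne
    rw [Finset.mem_coe, hXk, Finset.mem_filter] at hp hq
    rw [Function.onFun, Finset.disjoint_left]
    intro y hy hy'
    apply hne
    have h1 := mem_iv.1 (adm_iv hy)
    have h2 := mem_iv.1 (adm_iv hy')
    simp only at h1 h2
    refine Prod.ext (hp.2.trans hq.2.symm) ?_
    rw [← h1, ← h2, hp.2, hq.2]
  have e1 : ∑ p ∈ Xk, ∑ x ∈ adm p.1 p.2, ‖LboxG (2 ^ p.1) bb Κ x‖ =
      ∑ x ∈ S, ‖LboxG (2 ^ k) bb Κ x‖ := by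
    rw [hS, Finset.sum_biUnion hdis]
    refine Finset.sum_congr rfl fun p hp => ?_
    rw [hXk, Finset.mem_filter] at hp
    rw [hp.2]
  rw [e1]
  have hfin : {q : ℤ | ∃ ui um : Fin (2 ^ k + 2 ^ k), ∃ r : Fin (dd a b).natAbs,
      xq i m a b bb (2 ^ k) q ((r : ℕ) : ℤ) ((ui : ℕ) : ℤ) ((um : ℕ) : ℤ) ∈ S}.Finite := by
    simp only [Set.ofPred_exists]
    refine Set.finite_iUnion fun ui => Set.finite_iUnion fun um => Set.finite_iUnion fun r => ?_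
    refine S.finite_toSet.preimage (f := fun q => xq i m a b bb (2 ^ k) q ((r : ℕ) : ℤ)
      ((ui : ℕ) : ℤ) ((um : ℕ) : ℤ)) ?_
    intro x _ y _ hxy
    simp only [xq] at hxy
    have : dd a b * x = dd a b * y := by linarith
    exact mul_left_cancel₀ hd this
  refine (sum_norm_LboxG_le i m a b h Κ k bb S hfin.toFinset ?_).trans ?_
  · intro ui um r q hr hq
    rw [Set.Finite.mem_toFinset]
    exact ⟨ui, um, ⟨r, hr⟩, hq⟩
  set B : ℝ := ∑ r ∈ range (dd a b).natAbs,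
        √(DE W C ((sl i - sl b) * r) (-dd a b) (be r) k) *
          √(DE W C ((sl i - sl a) * r) (dd a b) (al r) k) with hB
  have key : ∀ ui um : Fin (2 ^ k + 2 ^ k), ∑ r ∈ range (dd a b).natAbs, ∑ q ∈ hfin.toFinset,
      (if xq i m a b bb (2 ^ k) q r ((ui : ℕ) : ℤ) ((um : ℕ) : ℤ) ∈ S then
        ‖frm (red i a b Κ r) k q (off bb (2 ^ k) r ((ui : ℕ) : ℤ) ((um : ℕ) : ℤ) - q)‖ else 0) ≤
      B := by
    intro ui um
    rw [hB]
    refine Finset.sum_le_sum fun r hr => ?_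
    rw [← Finset.sum_filter]
    set Q := hfin.toFinset.filter (fun q =>
      xq i m a b bb (2 ^ k) q r ((ui : ℕ) : ℤ) ((um : ℕ) : ℤ) ∈ S) with hQ
    have hQm : ∀ q ∈ Q, ∃ p ∈ X, p.1 = k ∧
        xq i m a b bb (2 ^ k) q r ((ui : ℕ) : ℤ) ((um : ℕ) : ℤ) ∈ adm p.1 p.2 := by
      intro q hq
      rw [hQ, Finset.mem_filter] at hq
      have hq2 := hq.2
      rw [hS, Finset.mem_biUnion] at hq2
      obtain ⟨p, hp, hpx⟩ := hq2
      rw [hXk, Finset.mem_filter] at hp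
      exact ⟨p, hp.1, hp.2, hpx⟩
    have hterm : ∀ q ∈ Q,
        ‖frm (red i a b Κ r) k q (off bb (2 ^ k) r ((ui : ℕ) : ℤ) ((um : ℕ) : ℤ) - q)‖ ≤
        ‖Dm k (msk (AA W C ((sl i - sl b) * r) (-dd a b)) (be r) k) q‖ *
          ‖Dm k (msk (AA W C ((sl i - sl a) * r) (dd a b)) (al r) k)
            (off bb (2 ^ k) r ((ui : ℕ) : ℤ) ((um : ℕ) : ℤ) - q)‖ := by
      intro q hq
      obtain ⟨p, hpX, hpk, hpx⟩ := hQm q hq
      subst hpk
      have hsh := fun u v hu hv => shadows i m a b h hbb hpx r q ui um rfl u v hu hv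
      have hiv : ∀ y ∈ iv p, y ∈ iv I := fun y hy => hW.reg.1 p (hX hpX) hy
      rw [frm_congr _ (fun z z' => inner ℂ (be r z) (al r z')) p.1 q _ (by
        intro u v hu hv
        obtain ⟨s1, s2, s3, s4⟩ := hsh u v hu hv
        exact hK r (Finset.mem_range.1 hr) _ _ (hiv _ s1) (hiv _ s2) (hiv _ s3) (hiv _ s4))]
      rw [frm_inner]
      have d1 : Dm p.1 (be r) q =
          Dm p.1 (msk (AA W C ((sl i - sl b) * r) (-dd a b)) (be r) p.1) q := by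
        refine Dm_congr _ _ _ _ fun u hu => ?_
        obtain ⟨s1, s2, s3, s4⟩ := hsh u 0 hu (by positivity)
        rw [msk_pos]
        exact er_of_not_bad (hXb p hpX) s2
      have d2 : Dm p.1 (al r) (off bb (2 ^ p.1) r ((ui : ℕ) : ℤ) ((um : ℕ) : ℤ) - q) =
          Dm p.1 (msk (AA W C ((sl i - sl a) * r) (dd a b)) (al r) p.1)
            (off bb (2 ^ p.1) r ((ui : ℕ) : ℤ) ((um : ℕ) : ℤ) - q) := by
        refine Dm_congr _ _ _ _ fun v hv => ?_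
        obtain ⟨s1, s2, s3, s4⟩ := hsh 0 v (by positivity) hv
        rw [msk_pos]
        exact er_of_not_bad (hXb p hpX) s1
      rw [d1, d2]
      exact norm_inner_le_norm _ _
    refine (Finset.sum_le_sum hterm).trans ?_
    exact pair_le hW C _ _ (neg_ne_zero.2 hd) hd (be r) (al r) k Q _
  have hN : ((2 ^ k : ℕ) : ℝ) + ((2 ^ k : ℕ) : ℝ) = ((2 ^ k + 2 ^ k : ℕ) : ℝ) := by push_cast; ring
  calc _ ≤ (1 / (((2 ^ k : ℕ) : ℝ) + ((2 ^ k : ℕ) : ℝ)) ^ 2) *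
        ∑ ui : Fin (2 ^ k + 2 ^ k), ∑ um : Fin (2 ^ k + 2 ^ k), B := by
        refine mul_le_mul_of_nonneg_left ?_ (by positivity)
        exact Finset.sum_le_sum fun ui _ => Finset.sum_le_sum fun um _ => key ui um
    _ = B := by
        rw [hN]
        simp only [Finset.sum_const, Finset.card_univ, Fintype.card_fin, nsmul_eq_mul]
        have : ((2 ^ k + 2 ^ k : ℕ) : ℝ) ≠ 0 := by positivity
        field_simp
    _ ≤ B := le_rfl

/-- **COMPOSITION, general kernel** -/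
theorem windowG_le (i m a b : Fin 4) (h : Dst i m a b) (Κ : ℤ → ℤ → ℂ) {bb : ℤ}
    (hbb : bb = -1 ∨ bb = -7) {W : Finset Nd} {I : Nd} (hW : Full W I) (C : ℕ) (X : Finset Nd)
    (hX : X ⊆ W) (hXb : ∀ p ∈ X, ¬ Bad W C p) (be al : ℕ → ℤ → E)
    (hK : ∀ r : ℕ, r < (dd a b).natAbs → ∀ z z' : ℤ,
      (sl i - sl a) * r + dd a b * z' ∈ iv I → (sl i - sl b) * r + -dd a b * z ∈ iv I →
      (sl a - sl i) * z + (sl b - sl i) * z' ∈ iv I →
      (sl i - sl m) * r + (sl a - sl m) * z + (sl b - sl m) * z' ∈ iv I →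
      red i a b Κ r z z' = inner ℂ (be r z) (al r z')) :
    ∑ p ∈ X, ∑ x ∈ adm p.1 p.2, ‖LboxG (2 ^ p.1) bb Κ x‖ ≤
      ∑ r ∈ range (dd a b).natAbs,
        √(EX W C ((sl i - sl b) * r) (-dd a b) (be r) I.1) *
          √(EX W C ((sl i - sl a) * r) (dd a b) (al r) I.1) := by
  classical
  have hd := dd_ne i m a b h
  rw [← Finset.sum_fiberwise_of_maps_to (s := X) (t := range (I.1 + 1)) (g := fun p : Nd => p.1)
    (fun p hp => by
      rw [Finset.mem_range]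
      have := Qe292.iv_level (hW.reg.1 p (hX hp))
      omega)]
  refine (Finset.sum_le_sum fun k _ => levelG_le i m a b h Κ hbb hW C X hX hXb be al hK k).trans ?_
  rw [Finset.sum_comm]
  refine Finset.sum_le_sum fun r _ => ?_
  refine (Real.sum_sqrt_mul_sqrt_le _ (fun k => DE_nonneg _ _ _ _ _ k)
    (fun k => DE_nonneg _ _ _ _ _ k)).trans ?_
  refine mul_le_mul (Real.sqrt_le_sqrt ?_) (Real.sqrt_le_sqrt ?_) (Real.sqrt_nonneg _)
    (Real.sqrt_nonneg _)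
  · exact energy hW C _ (neg_ne_zero.2 hd) (be r)
  · exact energy hW C _ hd (al r)

end Crest.Agent.R079.Cg408
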