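import Crest.Agent.R079.WinA_222

/-! R079, doc 2541 (673), (4): LEVEL SETS AND BUDGETS OF AN OWN-NODE FIELD (helper110).

`dev I p` = squared distance at the node `p` of the own-node field of `I` and of `p`; `D q` = one step
drift at the node `q`.  Nested windows `V_0, V_1, ..`: level `l` has fineness `dl * 4^-l`, number
`<= K * 4^l`, so that `sum_{tops of level l+1} |v| dev (top of its level l window, v) <= 4 K dl`,
for EVERY level: the budget of 2541 (4), which feeds `Move59.move`. -/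

set_option autoImplicit false

namespace Crest.Agent.R079.Chn110

open Finset Crest.Agent.R079.Grid Crest.Agent.R079.Growth Crest.Agent.R079.QRed
  Crest.Agent.R079.TWin Crest.Agent.R079.Qe292 Crest.Agent.R079.Qh249

open Classical in
/-- own drift of the region `R` below `p` -/
noncomputable def dr (R : Finset Nd) (D : Nd → ℝ) (p : Nd) : ℝ :=
  ∑ q ∈ (R \ lf R).filter (fun q => iv q ⊆ iv p), len q * D q

lemma nl_sub {W R : Finset Nd} (h : W ⊆ R) {q : Nd} (hq : q ∈ W) (hl : q ∉ lf W) :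
    q ∈ R ∧ q ∉ lf R := by
  refine ⟨h hq, fun hc => hl (mem_lf.2 ⟨hq, fun q' hq' hs => (mem_lf.1 hc).2 q' (h hq') hs⟩)⟩

lemma dr_nonneg {R : Finset Nd} {D : Nd → ℝ} (hD : ∀ q, 0 ≤ D q) (p : Nd) : 0 ≤ dr R D p :=
  Finset.sum_nonneg fun q _ => mul_nonneg (Growth.len_pos q).le (hD q)

lemma dr_mono {W R : Finset Nd} (h : W ⊆ R) {D : Nd → ℝ} (hD : ∀ q, 0 ≤ D q) (p : Nd) :
    dr W D p ≤ dr R D p := by
  classical
  unfold dr
  refine Finset.sum_le_sum_of_subset_of_nonneg ?_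
    fun q _ _ => mul_nonneg (Growth.len_pos q).le (hD q)
  intro q hq
  rw [Finset.mem_filter, Finset.mem_sdiff] at hq ⊢
  exact ⟨nl_sub h hq.1.1 hq.1.2, hq.2⟩

/-- disjoint windows: the own drifts add up to at most the drift of the region -/
lemma dr_windows {R S : Finset Nd} {W : Nd → Finset Nd} {D : Nd → ℝ} (hD : ∀ q, 0 ≤ D q)
    (hW : ∀ K ∈ S, W K ⊆ R) (hd : ∀ K ∈ S, ∀ K' ∈ S, K ≠ K' → Disjoint (W K) (W K')) (p : Nd)
    (hp : ∀ K ∈ S, iv K ⊆ iv p) : ∑ K ∈ S, dr (W K) D K ≤ dr R D p := by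
  classical
  unfold dr
  rw [← Finset.sum_biUnion]
  · refine Finset.sum_le_sum_of_subset_of_nonneg ?_
      fun q _ _ => mul_nonneg (Growth.len_pos q).le (hD q)
    intro q hq
    obtain ⟨K, hK, hq⟩ := Finset.mem_biUnion.1 hq
    rw [Finset.mem_filter, Finset.mem_sdiff] at hq ⊢
    exact ⟨nl_sub (hW K hK) hq.1.1 hq.1.2, hq.2.trans (hp K hK)⟩
  · intro K hK K' hK' hne
    rw [Function.onFun, Finset.disjoint_left]
    intro q hq hq'
    rw [Finset.mem_filter, Finset.mem_sdiff] at hq hq'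
    exact Finset.disjoint_left.1 (hd K (by exact_mod_cast hK) K' (by exact_mod_cast hK') hne)
      hq.1.1 hq'.1.1

/-- the potential `dr / len` dominates the deviation -/
lemma dr_leaves {R : Finset Nd} {I : Nd} {D : Nd → ℝ} (hD : ∀ q, 0 ≤ D q) {W : Finset Nd}
    (hW : Full W I) (hWR : W ⊆ R) :
    ∑ q ∈ W \ lf W, len q * D q + ∑ p ∈ lf W, dr R D p ≤ dr R D I := by
  classical
  unfold dr
  rw [← Finset.sum_biUnion, ← Finset.sum_union]
  · refine Finset.sum_le_sum_of_subset_of_nonneg ?_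
      fun q _ _ => mul_nonneg (Growth.len_pos q).le (hD q)
    intro q hq
    rcases Finset.mem_union.1 hq with h | h
    · rw [Finset.mem_sdiff] at h
      rw [Finset.mem_filter, Finset.mem_sdiff]
      exact ⟨nl_sub hWR h.1 h.2, hW.reg.1 q h.1⟩
    · obtain ⟨p, hp, h⟩ := Finset.mem_biUnion.1 h
      rw [Finset.mem_filter] at h ⊢
      exact ⟨h.1, h.2.trans (hW.reg.1 p (mem_lf.1 hp).1)⟩
  · rw [Finset.disjoint_left]
    intro q hq hq'
    obtain ⟨p, hp, h⟩ := Finset.mem_biUnion.1 hq'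
    rw [Finset.mem_filter] at h
    rw [Finset.mem_sdiff] at hq
    have := (mem_lf.1 hp).2 q hq.1 h.2
    exact hq.2 (this ▸ hp)
  · intro p hp p' hp' hne
    rw [Function.onFun, Finset.disjoint_left]
    intro q hq hq'
    rw [Finset.mem_filter] at hq hq'
    obtain ⟨y, hy⟩ := iv_nonempty q
    have h1 := hq.2 hy
    have h2 := hq'.2 hy
    have hpl := mem_lf.1 (show p ∈ lf W by exact_mod_cast hp)
    have hpl' := mem_lf.1 (show p' ∈ lf W by exact_mod_cast hp')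
    rcases iv_nest h1 h2 with h | h
    · exact hne (hpl'.2 p hpl.1 h)
    · exact hne (hpl.2 p' hpl'.1 h).symm

/-- drift axioms of an own-node field on the region `R` -/
structure Fld (R : Finset Nd) (D : Nd → ℝ) (dev : Nd → Nd → ℝ) (P₀ : ℝ) : Prop where
  D0 : ∀ q, 0 ≤ D q
  dev0 : ∀ I p, 0 ≤ dev I p
  self : ∀ I, dev I I = 0
  le : ∀ I ∈ R, ∀ W : Finset Nd, Full W I → W ⊆ R →
    ∑ p ∈ lf W, len p * dev I p ≤ ∑ q ∈ W \ lf W, len q * D q
  bd : ∀ p ∈ R, dr R D p ≤ len p * P₀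

variable {R : Finset Nd} {J : Nd} {D : Nd → ℝ} {dev : Nd → Nd → ℝ} {P₀ : ℝ}

lemma Fld.sub (h : Fld R D dev P₀) {W : Finset Nd} (hW : W ⊆ R) : Fld W D dev P₀ :=
  ⟨h.D0, h.dev0, h.self, fun I hI V hV hVW => h.le I (hW hI) V hV (hVW.trans hW),
    fun p hp => (dr_mono hW h.D0 p).trans (h.bd p (hW hp))⟩

/-- one stop rule inside a region: own top, additive number of windows -/
theorem region (hR : Full R J) (h : Fld R D dev P₀) {δ : ℝ} (hδ : 0 < δ) :
    ∃ (S : Finset Nd) (W : Nd → Finset Nd), Part R S W (2 + 4 * P₀ / δ) ∧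
      (∀ K ∈ S, ∀ p ∈ W K, dev K p ≤ δ) ∧
      ∑ K ∈ S, len K ≤ 2 * len J + 4 / δ * dr R D J := by
  classical
  have hlen := fun p => Growth.len_pos p
  obtain ⟨S, hSR, hSJ, hSd, hSc, htot, hcnt⟩ := tops2 (g := dev) (δ := δ) hR
    (P := fun p => dr R D p / len p) (P₀ := P₀) hδ
    (fun p _ => div_nonneg (dr_nonneg h.D0 p) (hlen p).le)
    (fun p hp => by
      rw [div_le_iff₀ (hlen p), mul_comm]
      exact h.bd p hp)
    h.dev0
    (fun I hI W hW hWR => by
      have h1 := h.le I hI W hW hWR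
      have h2 := dr_leaves h.D0 hW hWR
      have e1 : ∀ p : Nd, len p * (dev I p + dr R D p / len p) = len p * dev I p + dr R D p := by
        intro p
        have := (hlen p).ne'
        field_simp
      have e2 : len I * (dr R D I / len I + δ / 4) = dr R D I + len I * (δ / 4) := by
        have := (hlen I).ne'
        field_simp
      rw [Finset.sum_congr rfl fun p _ => e1 p, Finset.sum_add_distrib, e2]
      have h3 : 0 ≤ len I * (δ / 4) := mul_nonneg (hlen I).le (by positivity)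
      linarith)
    (J.1 + 1) J hR.top (Nat.lt_succ_self _)
  refine ⟨S, fun K => Wd R dev δ K, ⟨hSR, fun K hK => Wd_full hR (hSR hK), fun K _ => Wd_sub,
    hSd, fun p hp => hSc p hp (hR.reg.1 p hp), fun p hp => ?_⟩, fun K _ p hp =>
      Wd_good (fun I => by rw [h.self I]; exact hδ.le) hp, ?_⟩
  · have := hcnt p hp (hR.reg.1 p hp)
    linarith
  · refine htot.trans (le_of_eq ?_)
    have h1 := (hlen J).ne'
    have h2 := hδ.ne'
    field_simp

/-- **one level**: every window is cut again by the stop rule of its OWN top; the number of windows is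
ADDITIVE up to a factor 2 -/
theorem level (hR : Full R J) (h : Fld R D dev P₀) (hP₀ : 0 ≤ P₀) {δ : ℝ} (hδ : 0 < δ)
    {S : Finset Nd} {W : Nd → Finset Nd} {C : ℝ} (hPt : Part R S W C) :
    ∃ (S' : Finset Nd) (W' : Nd → Finset Nd), Part R S' W' (2 * C + 2 + 8 * P₀ / δ) ∧
      (∀ K' ∈ S', ∀ p ∈ W' K', dev K' p ≤ δ) ∧
      ∀ K' ∈ S', ∃ K ∈ S, K' ∈ W K ∧ W' K' ⊆ W K := by
  classical
  have hex : ∀ K : Nd, ∃ (T : Finset Nd) (V : Nd → Finset Nd), K ∈ S →
      (Part (W K) T V (2 + 4 * P₀ / δ) ∧ (∀ K' ∈ T, ∀ p ∈ V K', dev K' p ≤ δ) ∧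
      ∑ K' ∈ T, len K' ≤ 2 * len K + 4 / δ * dr (W K) D K) := by
    intro K
    by_cases hK : K ∈ S
    · obtain ⟨T, V, h1⟩ := region (hPt.full K hK) (h.sub (hPt.wsub K hK)) hδ
      exact ⟨T, V, fun _ => h1⟩
    · exact ⟨∅, fun _ => ∅, fun h' => absurd h' hK⟩
  choose T V hTV using hex
  have hB : 0 ≤ 2 + 4 * P₀ / δ := by positivity
  obtain ⟨S', W', hPt', hin⟩ := refine_part hR hB hPt T V fun K hK => (hTV K hK).1
  have huniq : ∀ K ∈ S, ∀ K₁ ∈ S, ∀ q, q ∈ W K → q ∈ W K₁ → K = K₁ := by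
    intro K hK K₁ hK₁ q h1 h2
    by_contra hne
    exact Finset.disjoint_left.1 (hPt.disj K hK K₁ hK₁ hne) h1 h2
  refine ⟨S', W', ⟨hPt'.sub, hPt'.full, hPt'.wsub, hPt'.disj, hPt'.cover, ?_⟩, ?_, ?_⟩
  · intro p hp
    obtain ⟨K₀, hK₀, hpK₀⟩ := hPt.cover p hp
    have hsub : S'.filter (fun K' => iv K' ⊆ iv p) ⊆
        S.biUnion (fun K => (T K).filter (fun K' => iv K' ⊆ iv p)) := by
      intro K' hK'
      rw [Finset.mem_filter] at hK'
      obtain ⟨K, hK, hT, _⟩ := hin K' hK'.1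
      exact Finset.mem_biUnion.2 ⟨K, hK, Finset.mem_filter.2 ⟨hT, hK'.2⟩⟩
    have h1 : ∑ K' ∈ S'.filter (fun K' => iv K' ⊆ iv p), len K'
        ≤ ∑ K ∈ S, ∑ K' ∈ (T K).filter (fun K' => iv K' ⊆ iv p), len K' := by
      refine (Finset.sum_le_sum_of_subset_of_nonneg hsub
        fun K _ _ => (Growth.len_pos K).le).trans (le_of_eq ?_)
      rw [Finset.sum_biUnion]
      intro K hK K₁ hK₁ hne
      rw [Function.onFun, Finset.disjoint_left]
      intro K' h2 h3
      rw [Finset.mem_filter] at h2 h3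
      exact hne (huniq K (by exact_mod_cast hK) K₁ (by exact_mod_cast hK₁) K'
        ((hTV K (by exact_mod_cast hK)).1.sub h2.1) ((hTV K₁ (by exact_mod_cast hK₁)).1.sub h3.1))
    have h2 : ∀ K ∈ S, ∑ K' ∈ (T K).filter (fun K' => iv K' ⊆ iv p), len K' ≤
        (if K = K₀ then (2 + 4 * P₀ / δ) * len p else 0) +
          (if iv K ⊆ iv p then 2 * len K + 4 / δ * dr (W K) D K else 0) := by
      intro K hK
      have hn1 : 0 ≤ (2 + 4 * P₀ / δ) * len p := mul_nonneg hB (Growth.len_pos p).le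
      have hn2 : 0 ≤ 2 * len K + 4 / δ * dr (W K) D K := by
        have h3 := dr_nonneg (R := W K) h.D0 K
        have h4 := (Growth.len_pos K).le
        have h5 : 0 ≤ 4 / δ := by positivity
        have := mul_nonneg h5 h3
        linarith
      by_cases hKe : K = K₀
      · subst hKe
        rw [if_pos rfl]
        have h3 := (hTV K hK).1.cnt p hpK₀
        have h4 : 0 ≤ (if iv K ⊆ iv p then 2 * len K + 4 / δ * dr (W K) D K else 0) := by
          split_ifs
          · exact hn2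
          · exact le_refl _
        linarith
      · rw [if_neg hKe, zero_add]
        by_cases hKp : iv K ⊆ iv p
        · rw [if_pos hKp]
          exact (Finset.sum_le_sum_of_subset_of_nonneg (Finset.filter_subset _ _)
            fun K' _ _ => (Growth.len_pos K').le).trans (hTV K hK).2.2
        · rw [if_neg hKp]
          refine le_of_eq (Finset.sum_eq_zero fun K' hK' => ?_)
          exfalso
          rw [Finset.mem_filter] at hK'
          have hKW := (hTV K hK).1.sub hK'.1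
          have hKI := (hPt.full K hK).reg.1 K' hKW
          rcases Qe292.sub_total hKI hK'.2 with h3 | h3
          · exact hKp h3
          · have hpW : p ∈ W K := (hPt.full K hK).reg.2 K' hKW p hK'.2 h3
            exact hKe (huniq K hK K₀ hK₀ p hpW hpK₀)
    have h3 := Finset.sum_le_sum h2
    rw [Finset.sum_add_distrib, Finset.sum_ite_eq' S K₀ (fun _ => (2 + 4 * P₀ / δ) * len p),
      if_pos hK₀, ← Finset.sum_filter, Finset.sum_add_distrib, ← Finset.mul_sum,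
      ← Finset.mul_sum] at h3
    have h4 := hPt.cnt p hp
    have h5 : ∑ K ∈ S.filter (fun K => iv K ⊆ iv p), dr (W K) D K ≤ len p * P₀ := by
      refine (dr_windows h.D0 (fun K hK => hPt.wsub K (Finset.mem_filter.1 hK).1)
        (fun K hK K' hK' => hPt.disj K (Finset.mem_filter.1 hK).1 K' (Finset.mem_filter.1 hK').1)
        p fun K hK => (Finset.mem_filter.1 hK).2).trans (h.bd p hp)
    have h6 := mul_le_mul_of_nonneg_left h5 (show (0 : ℝ) ≤ 4 / δ by positivity)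
    have e : (2 * C + 2 + 8 * P₀ / δ) * len p
        = (2 + 4 * P₀ / δ) * len p + (2 * (C * len p) + 4 / δ * (len p * P₀)) := by
      ring
    rw [e]
    linarith
  · intro K' hK' p hp
    obtain ⟨K, hK, hT, hV, _⟩ := hin K' hK'
    rw [hV] at hp
    exact (hTV K hK).2.1 K' hT p hp
  · intro K' hK'
    obtain ⟨K, hK, hT, _, hs⟩ := hin K' hK'
    exact ⟨K, hK, (hTV K hK).1.sub hT, hs⟩

/-- the constant of the count -/
noncomputable def cK (P₀ δ : ℝ) : ℝ := 4 + 16 * P₀ / δ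

/-- **nested level sets**, all levels at once -/
theorem levels (hR : Full R J) (h : Fld R D dev P₀) (hP₀ : 0 ≤ P₀) {δ : ℝ} (hδ : 0 < δ) :
    ∃ (S : ℕ → Finset Nd) (W : ℕ → Nd → Finset Nd),
      (∀ l, Part R (S l) (W l) (cK P₀ δ * 4 ^ l)) ∧
      (∀ l, ∀ K ∈ S l, ∀ p ∈ W l K, dev K p ≤ δ / 4 ^ l) ∧
      ∀ l, ∀ K' ∈ S (l + 1), ∃ K ∈ S l, K' ∈ W l K ∧ W (l + 1) K' ⊆ W l K := by
  classical
  have hpd : 0 ≤ P₀ / δ := by positivity
  have hcK : 0 ≤ cK P₀ δ := by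
    unfold cK
    have : 16 * P₀ / δ = 16 * (P₀ / δ) := by ring
    rw [this]
    positivity
  -- one step
  have hstep : ∀ (l : ℕ) (S : Finset Nd) (W : Nd → Finset Nd), Part R S W (cK P₀ δ * 4 ^ l) →
      ∃ (S' : Finset Nd) (W' : Nd → Finset Nd), Part R S' W' (cK P₀ δ * 4 ^ (l + 1)) ∧
        (∀ K' ∈ S', ∀ p ∈ W' K', dev K' p ≤ δ / 4 ^ (l + 1)) ∧
        ∀ K' ∈ S', ∃ K ∈ S, K' ∈ W K ∧ W' K' ⊆ W K := by
    intro l S W hPt
    have h4 : (0 : ℝ) < 4 ^ (l + 1) := by positivity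
    obtain ⟨S', W', a1, a2, a3⟩ := level hR h hP₀ (show 0 < δ / 4 ^ (l + 1) by positivity) hPt
    refine ⟨S', W', ⟨a1.sub, a1.full, a1.wsub, a1.disj, a1.cover, fun p hp => ?_⟩, a2, a3⟩
    refine (a1.cnt p hp).trans (mul_le_mul_of_nonneg_right ?_ (Growth.len_pos p).le)
    have e : 8 * P₀ / (δ / 4 ^ (l + 1)) = 8 * (P₀ / δ) * 4 ^ (l + 1) := by
      have := hδ.ne'
      field_simp
    rw [e]
    have h5 : (1 : ℝ) ≤ 4 ^ (l + 1) := one_le_pow₀ (by norm_num)
    have e2 : cK P₀ δ = 4 + 16 * (P₀ / δ) := by unfold cK; ring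
    rw [e2, pow_succ]
    rw [pow_succ] at h5
    nlinarith [h5, hpd]
  -- the start
  obtain ⟨S₀, W₀, b1, b2, _⟩ := region hR h hδ
  have hst : Part R S₀ W₀ (cK P₀ δ * 4 ^ 0) ∧ ∀ K ∈ S₀, ∀ p ∈ W₀ K, dev K p ≤ δ / 4 ^ 0 := by
    refine ⟨⟨b1.sub, b1.full, b1.wsub, b1.disj, b1.cover, fun p hp => ?_⟩, ?_⟩
    · refine (b1.cnt p hp).trans (mul_le_mul_of_nonneg_right ?_ (Growth.len_pos p).le)
      have e2 : cK P₀ δ = 4 + 16 * (P₀ / δ) := by unfold cK; ring
      have e3 : 4 * P₀ / δ = 4 * (P₀ / δ) := by ring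
      rw [e2, e3, pow_zero]
      linarith
    · simpa using b2
  -- recursion
  let St : ℕ → Type := fun l => {x : Finset Nd × (Nd → Finset Nd) //
    Part R x.1 x.2 (cK P₀ δ * 4 ^ l) ∧ ∀ K ∈ x.1, ∀ p ∈ x.2 K, dev K p ≤ δ / 4 ^ l}
  have hnext : ∀ (l : ℕ) (x : St l), ∃ y : St (l + 1),
      ∀ K' ∈ y.1.1, ∃ K ∈ x.1.1, K' ∈ x.1.2 K ∧ y.1.2 K' ⊆ x.1.2 K := by
    intro l x
    obtain ⟨S', W', a1, a2, a3⟩ := hstep l x.1.1 x.1.2 x.2.1
    exact ⟨⟨(S', W'), a1, a2⟩, a3⟩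
  choose nx hnx using hnext
  let F : ∀ l, St l := fun l => Nat.rec (motive := St) ⟨(S₀, W₀), hst⟩ (fun l x => nx l x) l
  refine ⟨fun l => (F l).1.1, fun l => (F l).1.2, fun l => (F l).2.1, fun l => (F l).2.2,
    fun l K' hK' => ?_⟩
  exact hnx l (F l) K' hK'

/-- **budget of one level**: the increments from the level `l` top to the level `l + 1` tops -/
theorem budget {S S' : Finset Nd} {W W' : Nd → Finset Nd} {C δ : ℝ} {J : Nd} (hJ : J ∈ R)
    (hPt' : Part R S' W' C) (hsub : ∀ K ∈ S', iv K ⊆ iv J) (hδ : 0 ≤ δ)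
    (hd : ∀ K ∈ S, ∀ p ∈ W K, dev K p ≤ δ) (s : Nd → Nd) (hs : ∀ K' ∈ S', s K' ∈ S ∧ K' ∈ W (s K')) :
    ∑ K' ∈ S', len K' * dev (s K') K' ≤ C * δ * len J := by
  classical
  have h1 : ∑ K' ∈ S', len K' * dev (s K') K' ≤ ∑ K' ∈ S', len K' * δ :=
    Finset.sum_le_sum fun K' hK' => mul_le_mul_of_nonneg_left
      (hd _ (hs K' hK').1 K' (hs K' hK').2) (Growth.len_pos K').le
  rw [← Finset.sum_mul] at h1
  have h2 := hPt'.cnt J hJ
  rw [Finset.filter_eq_self.2 hsub] at h2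
  have h3 := mul_le_mul_of_nonneg_right h2 hδ
  calc _ ≤ _ := h1
    _ ≤ _ := h3
    _ = C * δ * len J := by ring

end Crest.Agent.R079.Chn110
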