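import Crest.Agent.R079.HiP_881

/-!
# R079, S1 (59's 28031 (1)-(3)): the matrix clip (helper881)

`clip A s` has singular values `min (σ, s)`; it is the projection of `A` onto the operator ball
`Op B s : ∀ f, ∑_x |∑_y B x y f y|² ≤ s² ∑ |f|²` in the Hilbert-Schmidt norm; `chi A s = A - clip A s`.
`clip_op`, `clip_proj`, `clip_firm`, `chi_factor` (labels, Gram, rows, PSD majorants), `clip_clip`,
`chi_ladder`.
-/

open scoped BigOperators ComplexConjugate

namespace Crest.Agent.R079.HiF881

variable {m n : Type*} [Fintype m] [Fintype n] [DecidableEq n]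

/-- real Hilbert-Schmidt inner product -/
noncomputable def ip (F G : m → n → ℂ) : ℝ := ∑ x, ∑ y, (F x y * conj (G x y)).re

/-- Hilbert-Schmidt norm squared -/
noncomputable def hs (F : m → n → ℂ) : ℝ := ∑ x, ∑ y, ‖F x y‖ ^ 2

/-- operator norm `≤ s` -/
def Op (B : m → n → ℂ) (s : ℝ) : Prop :=
  ∀ f : n → ℂ, ∑ x, ‖∑ y, B x y * f y‖ ^ 2 ≤ s ^ 2 * ∑ y, ‖f y‖ ^ 2

section ipbasic
omit [DecidableEq n]

theorem ip_self (F : m → n → ℂ) : ip F F = hs F := by
  unfold ip hs
  refine Finset.sum_congr rfl fun x _ => Finset.sum_congr rfl fun y _ => ?_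
  rw [mul_conj_self, Complex.ofReal_re]

theorem ip_comm (F G : m → n → ℂ) : ip F G = ip G F := by
  unfold ip
  refine Finset.sum_congr rfl fun x _ => Finset.sum_congr rfl fun y _ => ?_
  simp [Complex.mul_re, Complex.conj_re, Complex.conj_im]; ring

theorem ip_add_left (F F' G : m → n → ℂ) : ip (fun x y => F x y + F' x y) G = ip F G + ip F' G := by
  unfold ip
  rw [← Finset.sum_add_distrib]
  refine Finset.sum_congr rfl fun x _ => ?_
  rw [← Finset.sum_add_distrib]
  refine Finset.sum_congr rfl fun y _ => ?_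
  rw [add_mul, Complex.add_re]

theorem ip_sub_left (F F' G : m → n → ℂ) : ip (fun x y => F x y - F' x y) G = ip F G - ip F' G := by
  unfold ip
  rw [← Finset.sum_sub_distrib]
  refine Finset.sum_congr rfl fun x _ => ?_
  rw [← Finset.sum_sub_distrib]
  refine Finset.sum_congr rfl fun y _ => ?_
  rw [sub_mul, Complex.sub_re]

theorem ip_add_right (F G G' : m → n → ℂ) : ip F (fun x y => G x y + G' x y) = ip F G + ip F G' := by
  rw [ip_comm, ip_add_left, ip_comm G, ip_comm G']

theorem ip_sub_right (F G G' : m → n → ℂ) : ip F (fun x y => G x y - G' x y) = ip F G - ip F G' := by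
  rw [ip_comm, ip_sub_left, ip_comm G, ip_comm G']

theorem hs_nonneg (F : m → n → ℂ) : 0 ≤ hs F :=
  Finset.sum_nonneg fun _ _ => Finset.sum_nonneg fun _ _ => sq_nonneg _

theorem hs_sub (F G : m → n → ℂ) :
    hs (fun x y => F x y - G x y) = hs F - 2 * ip F G + hs G := by
  rw [← ip_self, ip_sub_left, ip_sub_right, ip_sub_right, ip_self, ip_self, ip_comm G F]; ring

theorem hs_eq_zero {F : m → n → ℂ} (h : hs F = 0) (x : m) (y : n) : F x y = 0 := by
  have h1 := (Finset.sum_eq_zero_iff_of_nonneg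
    (fun _ _ => Finset.sum_nonneg fun _ _ => sq_nonneg _)).1 h x (Finset.mem_univ _)
  have h2 := (Finset.sum_eq_zero_iff_of_nonneg (fun _ _ => sq_nonneg _)).1 h1 y (Finset.mem_univ _)
  simpa using h2

end ipbasic

section
variable {A : m → n → ℂ} {X : n → n → ℂ} {s : n → ℝ}

/-- action of a multiplier on `X_k` -/
theorem AX_Mul (h : SVD A X s) (c : n → ℝ) (k : n) (x : m) :
    AX (Mul A X c) X k x = (c k : ℂ) * AX A X k x := by
  have h1 : ∀ y, Mul A X c x y * X k y
      = ∑ l, (c l : ℂ) * AX A X l x * (conj (X l y) * X k y) := by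
    intro y
    rw [Mul, Finset.sum_mul]
    exact Finset.sum_congr rfl fun l _ => by ring
  rw [AX, Finset.sum_congr rfl fun y _ => h1 y, Finset.sum_comm]
  have h2 : ∀ l, ∑ y, (c l : ℂ) * AX A X l x * (conj (X l y) * X k y)
      = (c l : ℂ) * AX A X l x * (if l = k then 1 else 0) := by
    intro l
    rw [← h.orth l k, Finset.mul_sum]
  rw [Finset.sum_congr rfl fun l _ => h2 l]
  simp

/-- a nonnegative multiplier has the same singular vectors -/
theorem SVD.mul (h : SVD A X s) {c : n → ℝ} (hc : ∀ k, 0 ≤ c k) :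
    SVD (Mul A X c) X (fun k => c k * s k) where
  nn := fun k => mul_nonneg (hc k) (h.nn k)
  orth := h.orth
  comp := h.comp
  gram := by
    intro k l
    have h1 : ∀ k x, ∑ y, Mul A X c x y * X k y = (c k : ℂ) * AX A X k x := fun k x =>
      AX_Mul h c k x
    simp only [h1]
    have h2 : ∀ x, conj ((c k : ℂ) * AX A X k x) * ((c l : ℂ) * AX A X l x)
        = ((c k : ℂ) * (c l : ℂ)) * (conj (∑ y, A x y * X k y) * (∑ y, A x y * X l y)) := by
      intro x
      simp only [AX, map_mul, Complex.conj_ofReal]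
      ring
    rw [Finset.sum_congr rfl fun x _ => h2 x, ← Finset.mul_sum, h.gram]
    by_cases hkl : k = l
    · subst hkl; simp only [if_true]; push_cast; ring
    · simp [hkl]

omit [Fintype m] [DecidableEq n] in
theorem Mul_Mul (h : ∀ (c : n → ℝ) (k : n) (x : m), AX (Mul A X c) X k x = (c k : ℂ) * AX A X k x)
    (c d : n → ℝ) (x : m) (y : n) :
    Mul (Mul A X c) X d x y = Mul A X (fun k => c k * d k) x y := by
  unfold Mul
  refine Finset.sum_congr rfl fun k _ => ?_
  have := h c k x
  unfold Mul at this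
  rw [this]
  push_cast
  ring

omit [DecidableEq n] in
/-- inner product of a multiplier with a matrix, column by column -/
theorem ip_Mul_gen (c : n → ℝ) (B : m → n → ℂ) :
    ∑ x, ∑ y, Mul A X c x y * conj (B x y)
      = ∑ k, (c k : ℂ) * ∑ x, AX A X k x * conj (∑ y, B x y * X k y) := by
  have h1 : ∀ x, ∑ y, Mul A X c x y * conj (B x y)
      = ∑ k, (c k : ℂ) * (AX A X k x * conj (∑ y, B x y * X k y)) := by
    intro x
    have h2 : ∀ y, Mul A X c x y * conj (B x y)
        = ∑ k, (c k : ℂ) * AX A X k x * conj (B x y * X k y) := by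
      intro y
      rw [Mul, Finset.sum_mul]
      refine Finset.sum_congr rfl fun k _ => ?_
      rw [map_mul]; ring
    rw [Finset.sum_congr rfl fun y _ => h2 y, Finset.sum_comm]
    refine Finset.sum_congr rfl fun k _ => ?_
    rw [map_sum, ← Finset.mul_sum]
    ring
  rw [Finset.sum_congr rfl fun x _ => h1 x, Finset.sum_comm]
  exact Finset.sum_congr rfl fun k _ => by rw [Finset.mul_sum]

/-- inner product of two multipliers -/
theorem ip_Mul (h : SVD A X s) (c d : n → ℝ) :
    ip (Mul A X c) (Mul A X d) = ∑ k, c k * d k * s k ^ 2 := by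
  have h1 : ∑ x, ∑ y, Mul A X c x y * conj (Mul A X d x y)
      = ∑ k, ((c k * d k * s k ^ 2 : ℝ) : ℂ) := by
    rw [ip_Mul_gen]
    refine Finset.sum_congr rfl fun k _ => ?_
    have h2 : ∀ x, AX A X k x * conj (∑ y, Mul A X d x y * X k y)
        = (d k : ℂ) * (conj (AX A X k x) * AX A X k x) := by
      intro x
      have := AX_Mul h d k x
      rw [AX] at this
      rw [this, map_mul, Complex.conj_ofReal]; ring
    rw [Finset.sum_congr rfl fun x _ => h2 x, ← Finset.mul_sum]
    have h3 : ∑ x, conj (AX A X k x) * AX A X k x = (s k : ℂ) ^ 2 := by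
      have := h.gram k k
      simpa [AX] using this
    rw [h3]; push_cast; ring
  have h4 : ip (Mul A X c) (Mul A X d)
      = (∑ x, ∑ y, Mul A X c x y * conj (Mul A X d x y)).re := by
    unfold ip
    simp only [Complex.re_sum]
  rw [h4, h1]
  simp only [Complex.re_sum, Complex.ofReal_re]

/-- inner product of a nonnegative multiplier with an operator-bounded matrix -/
theorem ip_Mul_Op (h : SVD A X s) {c : n → ℝ} (hc : ∀ k, 0 ≤ c k) {B : m → n → ℂ} {M : ℝ}
    (hM : 0 ≤ M) (hB : Op B M) : ip (Mul A X c) B ≤ ∑ k, c k * (s k * M) := by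
  have h4 : ip (Mul A X c) B = (∑ x, ∑ y, Mul A X c x y * conj (B x y)).re := by
    unfold ip
    simp only [Complex.re_sum]
  rw [h4, ip_Mul_gen, Complex.re_sum]
  refine Finset.sum_le_sum fun k _ => ?_
  have h5 : ((c k : ℂ) * ∑ x, AX A X k x * conj (∑ y, B x y * X k y)).re
      = c k * (∑ x, AX A X k x * conj (∑ y, B x y * X k y)).re := by
    rw [Complex.re_ofReal_mul]
  rw [h5]
  refine mul_le_mul_of_nonneg_left ?_ (hc k)
  have h6 : (∑ x, AX A X k x * conj (∑ y, B x y * X k y)).re
      ≤ ∑ x, ‖AX A X k x‖ * ‖∑ y, B x y * X k y‖ := by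
    rw [Complex.re_sum]
    refine Finset.sum_le_sum fun x _ => ?_
    refine (Complex.re_le_norm _).trans ?_
    rw [norm_mul, RCLike.norm_conj]
  refine h6.trans ?_
  refine (Real.sum_mul_le_sqrt_mul_sqrt _ _ _).trans ?_
  rw [sum_AX_sq h k, Real.sqrt_sq (h.nn k)]
  refine mul_le_mul_of_nonneg_left ?_ (h.nn k)
  have h7 := hB (X k)
  rw [sum_X_sq h k, mul_one] at h7
  calc Real.sqrt (∑ x, ‖∑ y, B x y * X k y‖ ^ 2) ≤ Real.sqrt (M ^ 2) := Real.sqrt_le_sqrt h7
    _ = M := Real.sqrt_sq hM

end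

/-! ## the clip -/

/-- multiplier of the clip -/
noncomputable def cc (s : n → ℝ) (th : ℝ) (k : n) : ℝ := if th < s k then th / s k else 1

section
variable {s : n → ℝ} {th : ℝ}

omit [Fintype n] [DecidableEq n] in
theorem cc_nonneg (hs : ∀ k, 0 ≤ s k) (hth : 0 ≤ th) (k : n) : 0 ≤ cc s th k := by
  unfold cc; split_ifs
  · exact div_nonneg hth (hs k)
  · exact zero_le_one

omit [Fintype n] [DecidableEq n] in
theorem cc_le_one (hth : 0 ≤ th) (k : n) : cc s th k ≤ 1 := by
  unfold cc; split_ifs with h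
  · exact (div_le_one (lt_of_le_of_lt hth h)).2 h.le
  · exact le_rfl

omit [Fintype n] [DecidableEq n] in
theorem cc_mul (hth : 0 ≤ th) (k : n) : cc s th k * s k = min (s k) th := by
  unfold cc; split_ifs with h
  · have : s k ≠ 0 := (lt_of_le_of_lt hth h).ne'
    rw [min_eq_right h.le]; field_simp
  · rw [min_eq_left (not_lt.1 h), one_mul]

end

/-- the clip of `A` at height `th` (singular values `min (σ, th)`) -/
noncomputable def clip (A : m → n → ℂ) (th : ℝ) : m → n → ℂ :=
  Mul A (Classical.choose (exists_SVD A)) (cc (Classical.choose (Classical.choose_spec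
    (exists_SVD A))) th)

/-- the part above the clip -/
noncomputable def chi (A : m → n → ℂ) (th : ℝ) : m → n → ℂ := fun x y => A x y - clip A th x y

/-- for one decomposition -/
structure IsClip (A : m → n → ℂ) (th : ℝ) (C : m → n → ℂ) : Prop where
  op : Op C th
  proj : ∀ B, Op B th → ip (fun x y => A x y - C x y) B ≤ ip (fun x y => A x y - C x y) C

theorem isClip_of (A : m → n → ℂ) {X : n → n → ℂ} {s : n → ℝ} (h : SVD A X s) {th : ℝ}
    (hth : 0 ≤ th) : IsClip A th (Mul A X (cc s th)) := by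
  have hsub : (fun x y => A x y - Mul A X (cc s th) x y) = Mul A X (fun k => 1 - cc s th k) := by
    funext x y
    have h1 := Mul_add (A := A) (X := X) (fun k => 1 - cc s th k) (cc s th) x y
    have h2 : (fun k => 1 - cc s th k + cc s th k) = fun _ => (1 : ℝ) := by funext k; ring
    rw [h2, Mul_one h] at h1
    rw [← h1]; ring
  constructor
  · intro f
    refine Mul_op h (fun k => ?_) f
    have h1 : cc s th k * s k = min (s k) th := cc_mul hth k
    have h2 : 0 ≤ min (s k) th := le_min (h.nn k) hth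
    have h3 : min (s k) th ≤ th := min_le_right _ _
    calc cc s th k ^ 2 * s k ^ 2 = (cc s th k * s k) ^ 2 := by ring
      _ = (min (s k) th) ^ 2 := by rw [h1]
      _ ≤ th ^ 2 := by nlinarith
  · intro B hB
    rw [hsub, ip_Mul h]
    refine (ip_Mul_Op h (fun k => sub_nonneg.2 (cc_le_one hth k)) hth hB).trans (le_of_eq ?_)
    refine Finset.sum_congr rfl fun k _ => ?_
    unfold cc
    split_ifs with hk
    · have : s k ≠ 0 := (lt_of_le_of_lt hth hk).ne'
      field_simp
    · simp

omit [DecidableEq n] in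
/-- uniqueness of the projection -/
theorem IsClip.unique {A : m → n → ℂ} {th : ℝ} {C C' : m → n → ℂ} (h : IsClip A th C)
    (h' : IsClip A th C') : C = C' := by
  have h1 := h.proj C' h'.op
  have h2 := h'.proj C h.op
  have h3 : hs (fun x y => C x y - C' x y) ≤ 0 := by
    rw [ip_sub_left, ip_sub_left] at h1 h2
    rw [hs_sub, ← ip_self C, ← ip_self C']
    rw [ip_comm C' C] at h2
    linarith
  have h4 : hs (fun x y => C x y - C' x y) = 0 := le_antisymm h3 (hs_nonneg _)
  funext x y
  have := hs_eq_zero h4 x y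
  exact sub_eq_zero.1 this

theorem isClip (A : m → n → ℂ) {th : ℝ} (hth : 0 ≤ th) : IsClip A th (clip A th) :=
  isClip_of A (Classical.choose_spec (Classical.choose_spec (exists_SVD A))) hth

theorem clip_eq {A : m → n → ℂ} {X : n → n → ℂ} {s : n → ℝ} (h : SVD A X s) {th : ℝ}
    (hth : 0 ≤ th) : clip A th = Mul A X (cc s th) :=
  (isClip A hth).unique (isClip_of A h hth)

theorem clip_op (A : m → n → ℂ) {th : ℝ} (hth : 0 ≤ th) : Op (clip A th) th := (isClip A hth).op

theorem clip_proj (A : m → n → ℂ) {th : ℝ} (hth : 0 ≤ th) {B : m → n → ℂ} (hB : Op B th) :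
    ip (chi A th) B ≤ ip (chi A th) (clip A th) := (isClip A hth).proj B hB

/-- distance form -/
theorem clip_dist (A : m → n → ℂ) {th : ℝ} (hth : 0 ≤ th) {B : m → n → ℂ} (hB : Op B th) :
    hs (chi A th) + hs (fun x y => clip A th x y - B x y) ≤ hs (fun x y => A x y - B x y) := by
  have h1 := clip_proj A hth hB
  have h2 : (fun x y => A x y - B x y) = fun x y => chi A th x y - (B x y - clip A th x y) := by
    funext x y; simp only [chi]; ring
  have h3 : hs (fun x y => B x y - clip A th x y) = hs (fun x y => clip A th x y - B x y) := by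
    rw [hs_sub, hs_sub, ip_comm]; ring
  rw [h2, hs_sub (chi A th) (fun x y => B x y - clip A th x y), ip_sub_right, h3]
  linarith

/-- firm nonexpansiveness -/
theorem clip_firm (A A' : m → n → ℂ) {th : ℝ} (hth : 0 ≤ th) :
    hs (fun x y => clip A th x y - clip A' th x y) + hs (fun x y => chi A th x y - chi A' th x y)
      ≤ hs (fun x y => A x y - A' x y) := by
  have h1 := clip_proj A hth (clip_op A' hth)
  have h2 := clip_proj A' hth (clip_op A hth)
  have h3 : (fun x y => A x y - A' x y)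
      = fun x y => (clip A th x y - clip A' th x y) + (chi A th x y - chi A' th x y) := by
    funext x y; simp only [chi]; ring
  have h4 : hs (fun x y => A x y - A' x y)
      = hs (fun x y => clip A th x y - clip A' th x y)
        + 2 * ip (fun x y => chi A th x y - chi A' th x y)
            (fun x y => clip A th x y - clip A' th x y)
        + hs (fun x y => chi A th x y - chi A' th x y) := by
    rw [h3, ← ip_self, ip_add_left, ip_add_right, ip_add_right, ip_self, ip_self,
      ip_comm (fun x y => clip A th x y - clip A' th x y)]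
    ring
  rw [h4, ip_sub_left, ip_sub_right, ip_sub_right]
  linarith

theorem clip_lip (A A' : m → n → ℂ) {th : ℝ} (hth : 0 ≤ th) :
    hs (fun x y => clip A th x y - clip A' th x y) ≤ hs (fun x y => A x y - A' x y) := by
  have := clip_firm A A' hth
  have h2 := hs_nonneg (fun x y => chi A th x y - chi A' th x y)
  linarith

theorem chi_lip (A A' : m → n → ℂ) {th : ℝ} (hth : 0 ≤ th) :
    hs (fun x y => chi A th x y - chi A' th x y) ≤ hs (fun x y => A x y - A' x y) := by
  have := clip_firm A A' hth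
  have h2 := hs_nonneg (fun x y => clip A th x y - clip A' th x y)
  linarith

theorem chi_eq {A : m → n → ℂ} {X : n → n → ℂ} {s : n → ℝ} (h : SVD A X s) {th : ℝ}
    (hth : 0 ≤ th) : chi A th = Mul A X (fun k => 1 - cc s th k) := by
  funext x y
  have h1 := Mul_add (A := A) (X := X) (fun k => 1 - cc s th k) (cc s th) x y
  have h2 : (fun k => 1 - cc s th k + cc s th k) = fun _ => (1 : ℝ) := by funext k; ring
  rw [h2, Mul_one h] at h1
  rw [chi, clip_eq h hth, ← h1]; ring

/-- clips compose -/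
theorem clip_clip (A : m → n → ℂ) {s t : ℝ} (hs : 0 ≤ s) (hst : s ≤ t) :
    clip (clip A t) s = clip A s := by
  obtain ⟨X, σ, h⟩ := exists_SVD A
  have ht : 0 ≤ t := hs.trans hst
  rw [clip_eq h ht, clip_eq (h.mul (cc_nonneg h.nn ht)) hs, clip_eq h hs]
  funext x y
  rw [Mul_Mul (fun c k x => AX_Mul h c k x)]
  congr 1
  funext k
  have hn := h.nn k
  have h1 : cc σ t k * σ k = min (σ k) t := cc_mul ht k
  unfold cc at h1 ⊢
  beta_reduce
  rw [h1]
  by_cases h2 : t < σ k
  · have hσ : σ k ≠ 0 := (lt_of_le_of_lt ht h2).ne'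
    rw [if_pos h2, min_eq_right h2.le, if_pos (lt_of_le_of_lt hst h2)]
    by_cases h3 : s < t
    · rw [if_pos h3]
      have : t ≠ 0 := (lt_of_le_of_lt hs h3).ne'
      field_simp
    · rw [if_neg h3]
      have : s = t := le_antisymm hst (not_lt.1 h3)
      rw [this]; ring
  · rw [if_neg h2, min_eq_left (not_lt.1 h2)]
    split_ifs <;> ring

/-- ladder: `chi_s A = chi_s (clip_t A) + chi_t A` for `s ≤ t` -/
theorem chi_ladder (A : m → n → ℂ) {s t : ℝ} (hs : 0 ≤ s) (hst : s ≤ t) (x : m) (y : n) :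
    chi A s x y = chi (clip A t) s x y + chi A t x y := by
  simp only [chi, clip_clip A hs hst]
  ring

/-- factorisation of `chi`: labels `n`, Gram `diag (σ - s)_+`, PSD majorants `A A* / 4s`, `A* A / 4s` -/
structure ChiFac (A : m → n → ℂ) (s : ℝ) (P : m → n → ℂ) (Q : n → n → ℂ) (ψ : n → ℝ) : Prop where
  nn : ∀ k, 0 ≤ ψ k
  eq : ∀ x y, ∑ k, P x k * Q k y = chi A s x y
  gP : ∀ k l, ∑ x, conj (P x k) * P x l = if k = l then (ψ k : ℂ) else 0
  gQ : ∀ k l, ∑ y, Q k y * conj (Q l y) = if k = l then (ψ k : ℂ) else 0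
  rowP : ∀ x, 4 * s * ∑ k, ‖P x k‖ ^ 2 ≤ ∑ y, ‖A x y‖ ^ 2
  rowQ : ∀ y, 4 * s * ∑ k, ‖Q k y‖ ^ 2 ≤ ∑ x, ‖A x y‖ ^ 2
  majP : ∀ f : m → ℂ, 4 * s * ∑ k, ‖∑ x, P x k * f x‖ ^ 2 ≤ ∑ y, ‖∑ x, A x y * f x‖ ^ 2
  majQ : ∀ f : n → ℂ, 4 * s * ∑ k, ‖∑ y, Q k y * f y‖ ^ 2 ≤ ∑ x, ‖∑ y, A x y * f y‖ ^ 2
  hsψ : ∑ k, ψ k ^ 2 = hs (chi A s)

theorem chiFac (A : m → n → ℂ) {th : ℝ} (hth : 0 < th) : ∃ P Q ψ, ChiFac A th P Q ψ := by
  obtain ⟨X, s, h⟩ := exists_SVD A
  set ψ : n → ℝ := fun k => (1 - cc s th k) * s k with hψd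
  have hψ : ∀ k, 0 ≤ ψ k := fun k => mul_nonneg (sub_nonneg.2 (cc_le_one hth.le k)) (h.nn k)
  have hψ0 : ∀ k, s k = 0 → ψ k = 0 := fun k hk => by simp [hψd, hk]
  have hψ4 : ∀ k, ψ k ≤ (4 * th)⁻¹ * s k ^ 2 := by
    intro k
    have h1 : ψ k = s k - min (s k) th := by
      simp only [hψd, sub_mul, one_mul, cc_mul hth.le]
    rw [h1]
    rcases le_total (s k) th with h2 | h2
    · rw [min_eq_left h2, sub_self]; positivity
    · rw [min_eq_right h2]
      have h3 : (4 * th) * (s k - th) ≤ s k ^ 2 := by nlinarith [sq_nonneg (s k - 2 * th)]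
      have h4 : (s k - th) = (4 * th)⁻¹ * ((4 * th) * (s k - th)) := by field_simp
      rw [h4]
      exact mul_le_mul_of_nonneg_left h3 (by positivity)
  have hC : (0 : ℝ) ≤ (4 * th)⁻¹ := by positivity
  have hmulC : ∀ a b : ℝ, a ≤ (4 * th)⁻¹ * b → 4 * th * a ≤ b := by
    intro a b hab
    have h1 := mul_le_mul_of_nonneg_left hab (by positivity : (0 : ℝ) ≤ 4 * th)
    have h2 : 4 * th * ((4 * th)⁻¹ * b) = b := by field_simp
    linarith
  refine ⟨Pf A X s ψ, Qf X ψ, ψ, ?_⟩
  constructor
  · exact hψ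
  · intro x y
    rw [PQ_eq hψ, chi_eq h hth.le]
    unfold Mul
    refine Finset.sum_congr rfl fun k _ => ?_
    by_cases hk : th < s k
    · have : s k ≠ 0 := (hth.trans hk).ne'
      congr 2
      simp only [hψd]; field_simp
    · have h1 : cc s th k = 1 := by simp [cc, hk]
      simp [hψd, h1]
  · exact gramP h hψ hψ0
  · exact gramQ h hψ
  · intro x
    exact hmulC _ _ (rowP h hψ hC hψ4 x)
  · intro y
    exact hmulC _ _ (rowQ h hψ hψ4 y)
  · intro f
    -- `∑_x A x y f x = ∑_k conj (X_k y) (∑_x AX_k x f x)`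
    set e : n → ℂ := fun k => ∑ x, AX A X k x * f x with he
    have h1 : ∀ y, ∑ x, A x y * f x = ∑ k, e k * conj (X k y) := by
      intro y
      have h2 : ∀ x, A x y * f x = ∑ k, AX A X k x * f x * conj (X k y) := by
        intro x
        rw [expand h x y, Finset.sum_mul]
        exact Finset.sum_congr rfl fun k _ => by ring
      rw [Finset.sum_congr rfl fun x _ => h2 x, Finset.sum_comm]
      refine Finset.sum_congr rfl fun k _ => ?_
      rw [he]; simp only [Finset.sum_mul]
    have h3 : ∑ y, ‖∑ x, A x y * f x‖ ^ 2 = ∑ k, ‖e k‖ ^ 2 := by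
      have key : ∑ y, conj (∑ k, e k * conj (X k y)) * (∑ k, e k * conj (X k y))
          = ∑ k, conj (e k) * e k := by
        simp only [map_sum, Finset.sum_mul_sum]
        rw [Finset.sum_comm]
        refine Finset.sum_congr rfl fun k _ => ?_
        rw [Finset.sum_comm]
        have h4 : ∀ l, ∑ y, conj (e k * conj (X k y)) * (e l * conj (X l y))
            = conj (e k) * e l * (if l = k then 1 else 0) := by
          intro l
          rw [← h.orth l k, Finset.mul_sum]
          refine Finset.sum_congr rfl fun y _ => ?_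
          simp only [map_mul, Complex.conj_conj]
          ring
        rw [Finset.sum_congr rfl fun l _ => h4 l]
        simp
      simp only [conj_mul_self] at key
      simp only [h1]
      exact_mod_cast key
    rw [h3, Finset.mul_sum]
    refine Finset.sum_le_sum fun k _ => ?_
    have h5 : ∑ x, Pf A X s ψ x k * f x = (Real.sqrt (ψ k) : ℂ) * ((s k : ℂ)⁻¹ * e k) := by
      simp only [he, Pf, Finset.mul_sum]
      exact Finset.sum_congr rfl fun x _ => by ring
    have h6 : ‖∑ x, Pf A X s ψ x k * f x‖ ^ 2 = ψ k * ((s k)⁻¹ ^ 2 * ‖e k‖ ^ 2) := by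
      rw [h5]
      simp only [norm_mul, Complex.norm_real, norm_inv, mul_pow,
        Real.norm_of_nonneg (Real.sqrt_nonneg _), Real.norm_of_nonneg (h.nn k),
        Real.sq_sqrt (hψ k)]
    rw [h6]
    apply hmulC
    by_cases hs : s k = 0
    · simp only [hs, inv_zero]
      have : 0 ≤ (4 * th)⁻¹ * ‖e k‖ ^ 2 := by positivity
      simpa using this
    · have hsk : 0 < s k := lt_of_le_of_ne (h.nn k) (Ne.symm hs)
      have h2 : ψ k * ((s k)⁻¹ ^ 2 * ‖e k‖ ^ 2)
          ≤ ((4 * th)⁻¹ * s k ^ 2) * ((s k)⁻¹ ^ 2 * ‖e k‖ ^ 2) :=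
        mul_le_mul_of_nonneg_right (hψ4 k) (by positivity)
      have h3 : ((4 * th)⁻¹ * s k ^ 2) * ((s k)⁻¹ ^ 2 * ‖e k‖ ^ 2) = (4 * th)⁻¹ * ‖e k‖ ^ 2 := by
        field_simp
      linarith
  · intro f
    set d : n → ℂ := fun k => ∑ y, conj (X k y) * f y with hd
    have h1 : ∀ x, ∑ y, A x y * f y = ∑ k, AX A X k x * d k := by
      intro x
      have h2 : ∀ y, A x y * f y = ∑ k, AX A X k x * (conj (X k y) * f y) := by
        intro y
        rw [expand h x y, Finset.sum_mul]
        exact Finset.sum_congr rfl fun k _ => by ring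
      rw [Finset.sum_congr rfl fun y _ => h2 y, Finset.sum_comm]
      refine Finset.sum_congr rfl fun k _ => ?_
      rw [hd]; simp only [Finset.mul_sum]
    have h3 : ∑ x, ‖∑ y, A x y * f y‖ ^ 2 = ∑ k, s k ^ 2 * ‖d k‖ ^ 2 := by
      have key : ∑ x, conj (∑ k, AX A X k x * d k) * (∑ k, AX A X k x * d k)
          = ∑ k, (s k : ℂ) ^ 2 * (conj (d k) * d k) := by
        simp only [map_sum, Finset.sum_mul_sum]
        rw [Finset.sum_comm]
        refine Finset.sum_congr rfl fun k _ => ?_
        rw [Finset.sum_comm]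
        have h4 : ∀ l, ∑ x, conj (AX A X k x * d k) * (AX A X l x * d l)
            = (conj (d k) * d l) * (if k = l then ((s k : ℂ)) ^ 2 else 0) := by
          intro l
          rw [← h.gram k l, Finset.mul_sum]
          refine Finset.sum_congr rfl fun x _ => ?_
          simp only [AX, map_mul]
          ring
        rw [Finset.sum_congr rfl fun l _ => h4 l]
        simp only [mul_ite, mul_zero, Finset.sum_ite_eq, Finset.mem_univ, if_true]
        ring
      simp only [conj_mul_self] at key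
      simp only [h1]
      exact_mod_cast key
    rw [h3, Finset.mul_sum]
    refine Finset.sum_le_sum fun k _ => ?_
    have h5 : ∑ y, Qf X ψ k y * f y = (Real.sqrt (ψ k) : ℂ) * d k := by
      simp only [hd, Qf, Finset.mul_sum]
      exact Finset.sum_congr rfl fun y _ => by ring
    have h6 : ‖∑ y, Qf X ψ k y * f y‖ ^ 2 = ψ k * ‖d k‖ ^ 2 := by
      rw [h5]
      simp only [norm_mul, Complex.norm_real, mul_pow,
        Real.norm_of_nonneg (Real.sqrt_nonneg _), Real.sq_sqrt (hψ k)]
    rw [h6]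
    apply hmulC
    have := mul_le_mul_of_nonneg_right (hψ4 k) (sq_nonneg ‖d k‖)
    linarith
  · rw [chi_eq h hth.le, ← ip_self, ip_Mul h]
    refine Finset.sum_congr rfl fun k _ => ?_
    simp only [hψd]; ring

end Crest.Agent.R079.HiF881
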