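import Crest.Agent.R079.Qh_249

/-! R079, doc 2489 (911), section (0), part 1 (helper903): tree tools (induction over a full window,
sums over the leaves below a node, glued functions, accumulated drift along the path). -/

set_option autoImplicit false

namespace Crest.Agent.R079.TWin

open Finset Crest.Agent.R079.Grid Crest.Agent.R079.Growth Crest.Agent.R079.QRed
  Crest.Agent.R079.Qh249

lemma sub_ch0 (m : ℕ) (l : ℤ) : iv (m, 2 * l) ⊆ iv (m + 1, l) := by
  have := L0e.dI_sub (m + 7) 1 (2 * l)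
  rw [pow_one, show 2 * l / 2 = l by omega] at this
  exact this

lemma sub_ch1 (m : ℕ) (l : ℤ) : iv (m, 2 * l + 1) ⊆ iv (m + 1, l) := by
  have := L0e.dI_sub (m + 7) 1 (2 * l + 1)
  rw [pow_one, show (2 * l + 1) / 2 = l by omega] at this
  exact this

lemma len_ch (m : ℕ) (l l' : ℤ) : len (m + 1, l) = 2 * len (m, l') := by
  unfold len
  simp only
  rw [show m + 1 + 7 = m + 7 + 1 by omega, pow_succ]
  ring

lemma sum_ch (m : ℕ) (l : ℤ) (g : ℤ → ℝ) :
    ∑ y ∈ iv (m + 1, l), g y = ∑ y ∈ iv (m, 2 * l), g y + ∑ y ∈ iv (m, 2 * l + 1), g y :=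
  L0e.sum_dI_succ (m + 7) l g

lemma iv_ch (m : ℕ) (l : ℤ) : iv (m + 1, l) = iv (m, 2 * l) ∪ iv (m, 2 * l + 1) :=
  L0e.dI_succ (m + 7) l

lemma disj_ch (m : ℕ) (l : ℤ) : Disjoint (iv (m, 2 * l)) (iv (m, 2 * l + 1)) :=
  L0e.dI_disj (by omega)

/-- both children of a node of `W` which is not a leaf are in `W` -/
lemma children_mem {W : Finset Nd} {I : Nd} (hW : Full W I) {p : Nd} (hp : p ∈ W)
    (hnl : p ∉ lf W) : ∃ (m : ℕ) (l : ℤ), p = (m + 1, l) ∧ (m, 2 * l) ∈ W ∧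
      (m, 2 * l + 1) ∈ W := by
  have hex : ∃ q ∈ W, iv q ⊆ iv p ∧ q ≠ p := by
    by_contra hcon
    push Not at hcon
    exact hnl (mem_lf.2 ⟨hp, hcon⟩)
  obtain ⟨q, hq, hqp, hne⟩ := hex
  have hlev : q.1 < p.1 := by
    rcases (Growth.iv_level hqp).lt_or_eq with h | h
    · exact h
    · exact absurd (iv_eq_of_level hqp h.symm.le).symm hne
  obtain ⟨m, hm⟩ : ∃ m, p.1 = m + 1 := ⟨p.1 - 1, by omega⟩
  have hpe : p = (m + 1, p.2) := Prod.ext hm rfl
  refine ⟨m, p.2, hpe, ?_⟩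
  obtain ⟨z, hz⟩ := iv_nonempty q
  have hzp := hqp hz
  rw [hpe, iv_ch, Finset.mem_union] at hzp
  have hup : ∀ c : Nd, c.1 = m → z ∈ iv c → iv c ⊆ iv p → c ∈ W := by
    intro c hc hzc hcp
    refine hW.reg.2 q hq c (sub_of_level hz hzc (by omega)) (hcp.trans (hW.reg.1 p hp))
  have h1 : (m, 2 * p.2) ∈ W ∨ (m, 2 * p.2 + 1) ∈ W := by
    rcases hzp with h | h
    · exact Or.inl (hup _ rfl h (hpe ▸ sub_ch0 m p.2))
    · exact Or.inr (hup _ rfl h (hpe ▸ sub_ch1 m p.2))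
  have hb := hW.bin m p.2 (hpe ▸ hp)
  tauto

/-- induction over a full window -/
theorem full_ind {W : Finset Nd} {I : Nd} (hW : Full W I) {M : Nd → Prop}
    (leaf : ∀ p ∈ lf W, M p)
    (node : ∀ (m : ℕ) (l : ℤ), (m + 1, l) ∈ W → (m + 1, l) ∉ lf W → (m, 2 * l) ∈ W →
      (m, 2 * l + 1) ∈ W → M (m, 2 * l) → M (m, 2 * l + 1) → M (m + 1, l)) :
    ∀ p ∈ W, M p := by
  suffices h : ∀ (n : ℕ) (p : Nd), p.1 = n → p ∈ W → M p from fun p hp => h p.1 p rfl hp
  intro n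
  induction n using Nat.strong_induction_on with
  | _ n ih =>
    intro p hn hp
    by_cases hl : p ∈ lf W
    · exact leaf p hl
    · obtain ⟨m, l, rfl, h0, h1⟩ := children_mem hW hp hl
      simp only at hn
      exact node m l hp hl h0 h1 (ih m (by omega) _ rfl h0) (ih m (by omega) _ rfl h1)

/-- sum over the leaves below `p` -/
noncomputable def SL (W : Finset Nd) (p : Nd) (F : Nd → ℝ) : ℝ :=
  ∑ L ∈ (lf W).filter (fun L => iv L ⊆ iv p), len L * F L

lemma SL_leaf {W : Finset Nd} {p : Nd} (hp : p ∈ lf W) (F : Nd → ℝ) :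
    SL W p F = len p * F p := by
  unfold SL
  have : (lf W).filter (fun L => iv L ⊆ iv p) = {p} := by
    ext L
    rw [Finset.mem_filter, Finset.mem_singleton]
    constructor
    · rintro ⟨h1, h2⟩
      exact (mem_lf.1 hp).2 L (mem_lf.1 h1).1 h2
    · rintro rfl
      exact ⟨hp, subset_rfl⟩
  rw [this, Finset.sum_singleton]

lemma leaf_below {W : Finset Nd} {I : Nd} (hW : Full W I) {L c : Nd} (hL : L ∈ lf W) (hc : c ∈ W)
    {y : ℤ} (h1 : y ∈ iv L) (h2 : y ∈ iv c) : iv L ⊆ iv c := by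
  rcases iv_nest h1 h2 with h | h
  · exact h
  · rw [(mem_lf.1 hL).2 c hc h]

lemma SL_node {W : Finset Nd} {I : Nd} (hW : Full W I) {m : ℕ} {l : ℤ}
    (hnl : (m + 1, l) ∉ lf W) (h0 : (m, 2 * l) ∈ W) (h1 : (m, 2 * l + 1) ∈ W) (F : Nd → ℝ) :
    SL W (m + 1, l) F = SL W (m, 2 * l) F + SL W (m, 2 * l + 1) F := by
  classical
  unfold SL
  rw [← Finset.sum_union]
  · refine Finset.sum_congr ?_ fun _ _ => rfl
    ext L
    simp only [Finset.mem_union, Finset.mem_filter]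
    constructor
    · rintro ⟨hL, hs⟩
      obtain ⟨y, hy⟩ := iv_nonempty L
      have hyp := hs hy
      rw [iv_ch, Finset.mem_union] at hyp
      rcases hyp with h | h
      · exact Or.inl ⟨hL, leaf_below hW hL h0 hy h⟩
      · exact Or.inr ⟨hL, leaf_below hW hL h1 hy h⟩
    · rintro (⟨hL, hs⟩ | ⟨hL, hs⟩)
      · exact ⟨hL, hs.trans (sub_ch0 m l)⟩
      · exact ⟨hL, hs.trans (sub_ch1 m l)⟩
  · rw [Finset.disjoint_left]
    intro L hL hL'
    rw [Finset.mem_filter] at hL hL'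
    obtain ⟨y, hy⟩ := iv_nonempty L
    exact Finset.disjoint_left.1 (disj_ch m l) (hL.2 hy) (hL'.2 hy)

lemma SL_mono {W : Finset Nd} {p : Nd} {F G : Nd → ℝ}
    (h : ∀ L ∈ lf W, iv L ⊆ iv p → F L ≤ G L) : SL W p F ≤ SL W p G := by
  unfold SL
  refine Finset.sum_le_sum fun L hL => ?_
  rw [Finset.mem_filter] at hL
  exact mul_le_mul_of_nonneg_left (h L hL.1 hL.2) (Growth.len_pos L).le

lemma SL_congr {W : Finset Nd} {p : Nd} {F G : Nd → ℝ}
    (h : ∀ L ∈ lf W, iv L ⊆ iv p → F L = G L) : SL W p F = SL W p G := by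
  unfold SL
  refine Finset.sum_congr rfl fun L hL => ?_
  rw [Finset.mem_filter] at hL
  rw [h L hL.1 hL.2]

lemma SL_add (W : Finset Nd) (p : Nd) (F G : Nd → ℝ) :
    SL W p (fun L => F L + G L) = SL W p F + SL W p G := by
  unfold SL
  rw [← Finset.sum_add_distrib]
  exact Finset.sum_congr rfl fun L _ => by ring

lemma SL_smul (W : Finset Nd) (p : Nd) (a : ℝ) (F : Nd → ℝ) :
    SL W p (fun L => a * F L) = a * SL W p F := by
  unfold SL
  rw [Finset.mul_sum]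
  exact Finset.sum_congr rfl fun L _ => by ring

lemma SL_sum {κ : Type*} (s : Finset κ) (W : Finset Nd) (p : Nd) (F : κ → Nd → ℝ) :
    SL W p (fun L => ∑ k ∈ s, F k L) = ∑ k ∈ s, SL W p (F k) := by
  unfold SL
  rw [Finset.sum_comm]
  exact Finset.sum_congr rfl fun L _ => by rw [Finset.mul_sum]

/-- integration of a function which is known on the leaves -/
lemma sum_SL {W : Finset Nd} {I : Nd} (hW : Full W I) (H : ℤ → ℝ) (h : Nd → ℝ)
    (hh : ∀ L ∈ lf W, ∑ y ∈ iv L, H y = len L * h L) :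
    ∀ p ∈ W, ∑ y ∈ iv p, H y = SL W p h := by
  refine full_ind hW (fun p hp => ?_) fun m l hp hnl h0 h1 e0 e1 => ?_
  · rw [SL_leaf hp, hh p hp]
  · rw [sum_ch, SL_node hW hnl h0 h1, e0, e1]

lemma SL_const {W : Finset Nd} {I : Nd} (hW : Full W I) (a : ℝ) :
    ∀ p ∈ W, SL W p (fun _ => a) = len p * a := by
  intro p hp
  have := sum_SL hW (fun _ => a) (fun _ => a) (fun L _ => by
    rw [Finset.sum_const, nsmul_eq_mul, Growth.card_iv]) p hp
  rw [← this, Finset.sum_const, nsmul_eq_mul, Growth.card_iv]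

/-- squared averages are integrated exactly -/
lemma SL_av {W : Finset Nd} {I : Nd} (hW : Full W I) (X : Fn) :
    ∀ p ∈ W, SL W p (fun L => av L X ^ 2) = len p * av p X ^ 2 := by
  intro p hp
  rw [← Growth.sum_av, sum_SL hW (fun y => ‖X y‖ ^ 2) (fun L => av L X ^ 2)
    (fun L _ => Growth.sum_av L X) p hp]

open Classical in
/-- the leaf of `W` above the point `y` -/
noncomputable def lfOf (W : Finset Nd) (y : ℤ) : Nd :=
  if h : ∃ L ∈ lf W, y ∈ iv L then h.choose else (0, 0)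

/-- glued function -/
noncomputable def gl (W : Finset Nd) (F : Nd → Fn) : Fn := fun y => F (lfOf W y) y

lemma lfOf_eq {W : Finset Nd} {I : Nd} (hW : Full W I) {L : Nd} (hL : L ∈ lf W) {y : ℤ}
    (hy : y ∈ iv L) : lfOf W y = L := by
  have hex : ∃ L ∈ lf W, y ∈ iv L := ⟨L, hL, hy⟩
  unfold lfOf
  rw [dif_pos hex]
  have h1 := hex.choose_spec
  have hs := leaf_below hW h1.1 (mem_lf.1 hL).1 h1.2 hy
  exact (mem_lf.1 hL).2 _ (mem_lf.1 h1.1).1 hs

lemma gl_eq {W : Finset Nd} {I : Nd} (hW : Full W I) (F : Nd → Fn) {L : Nd} (hL : L ∈ lf W)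
    {y : ℤ} (hy : y ∈ iv L) : gl W F y = F L y := by
  unfold gl
  rw [lfOf_eq hW hL hy]

lemma exists_leaf {W : Finset Nd} {I : Nd} (hW : Full W I) {p : Nd} (hp : p ∈ W) {y : ℤ}
    (hy : y ∈ iv p) : ∃ L ∈ lf W, y ∈ iv L ∧ iv L ⊆ iv p := by
  obtain ⟨L, hL, hs, hyL, _⟩ := (qh W I hW p hp).2 y hy
  exact ⟨L, hL, hyL, hs⟩

lemma av_congr {p : Nd} {X Y : Fn} (h : ∀ y ∈ iv p, X y = Y y) : av p X = av p Y := by
  unfold av av2
  congr 2
  exact Finset.sum_congr rfl fun y hy => by rw [h y hy]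

/-- energy of a glued function -/
lemma av_gl {W : Finset Nd} {I : Nd} (hW : Full W I) (Z : Nd → Fn) :
    ∀ p ∈ W, len p * av p (gl W Z) ^ 2 = SL W p (fun L => av L (Z L) ^ 2) := by
  intro p hp
  rw [← SL_av hW (gl W Z) p hp]
  refine SL_congr fun L hL _ => ?_
  rw [av_congr fun y hy => gl_eq hW Z hL hy]

/-! ### accumulated drift -/

/-- sum of `D` over the proper ancestors of `p` up to `I` -/
noncomputable def acc (D : Nd → ℝ) (I p : Nd) : ℝ :=
  ∑ k ∈ range (I.1 - p.1), D (p.1 + k + 1, p.2 / 2 ^ (k + 1))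

lemma acc_self (D : Nd → ℝ) (I : Nd) : acc D I I = 0 := by
  unfold acc
  rw [Nat.sub_self, Finset.range_zero, Finset.sum_empty]

lemma acc_nonneg {D : Nd → ℝ} (hD : ∀ q, 0 ≤ D q) (I p : Nd) : 0 ≤ acc D I p :=
  Finset.sum_nonneg fun _ _ => hD _

/-- additivity along a path -/
lemma acc_trans (D : Nd → ℝ) {I p L : Nd} (h1 : iv L ⊆ iv p) (h2 : iv p ⊆ iv I) :
    acc D I L = acc D p L + acc D I p := by
  obtain ⟨j, hj⟩ := Qe292.iv_sub_iff.1 h1
  obtain ⟨k, hk⟩ := Qe292.iv_sub_iff.1 h2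
  have e1 : p.1 = L.1 + j := by rw [hj]
  have e2 : p.2 = L.2 / 2 ^ j := by rw [hj]
  have e3 : I.1 = p.1 + k := by rw [hk]
  unfold acc
  rw [show I.1 - L.1 = j + k by omega, show p.1 - L.1 = j by omega,
    show I.1 - p.1 = k by omega, Finset.sum_range_add]
  congr 1
  refine Finset.sum_congr rfl fun i _ => ?_
  congr 1
  refine Prod.ext ?_ ?_
  · simp only; omega
  · simp only
    rw [e2, L0e.ediv_pow_pow]
    congr 2

lemma acc_par (D : Nd → ℝ) (m : ℕ) (l l' : ℤ) (h : l' / 2 = l) :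
    acc D (m + 1, l) (m, l') = D (m + 1, l) := by
  unfold acc
  simp only
  rw [show m + 1 - m = 1 by omega, Finset.sum_range_one, pow_one, h]

lemma SL_acc_ch {W : Finset Nd} {I : Nd} (hW : Full W I) (D : Nd → ℝ) {m : ℕ} {l l' : ℤ}
    (h : l' / 2 = l) (hs : iv (m, l') ⊆ iv (m + 1, l)) (hc : (m, l') ∈ W) (Φ : Nd → ℝ) :
    SL W (m, l') (fun L => Φ L + acc D (m + 1, l) L)
      = SL W (m, l') (fun L => Φ L + acc D (m, l') L) + len (m, l') * D (m + 1, l) := by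
  rw [← SL_const hW (D (m + 1, l)) _ hc, ← SL_add]
  refine SL_congr fun L _ hL => ?_
  rw [acc_trans D hL hs, acc_par D m l l' h]
  ring

/-- telescoping: upper bound -/
lemma SL_acc_le {W : Finset Nd} {I : Nd} (hW : Full W I) (D Φ : Nd → ℝ) (e : ℝ) (he : 0 ≤ e)
    (hD : ∀ (m : ℕ) (l : ℤ), D (m + 1, l) ≤ Φ (m + 1, l) - (Φ (m, 2 * l) + Φ (m, 2 * l + 1)) / 2
      + e) : ∀ p ∈ W, SL W p (fun L => Φ L + acc D p L) ≤ len p * (Φ p + e * p.1) := by
  refine full_ind hW (fun p hp => ?_) fun m l hp hnl h0 h1 e0 e1 => ?_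
  · rw [SL_leaf hp, acc_self]
    have := Growth.len_pos p
    refine mul_le_mul_of_nonneg_left ?_ this.le
    have : (0 : ℝ) ≤ e * p.1 := by positivity
    linarith
  · rw [SL_node hW hnl h0 h1, SL_acc_ch hW D (by omega) (sub_ch0 m l) h0,
      SL_acc_ch hW D (by omega) (sub_ch1 m l) h1]
    have hl0 : len (m + 1, l) = 2 * len (m, 2 * l) := len_ch m l _
    have hl1 : len (m, 2 * l + 1) = len (m, 2 * l) := rfl
    rw [hl1] at e1 ⊢
    rw [hl0]
    have hpos := Growth.len_pos (m, 2 * l)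
    have h2 := mul_le_mul_of_nonneg_left (hD m l) hpos.le
    simp only at e0 e1 ⊢
    push_cast
    nlinarith [h2, e0, e1]

/-- telescoping: lower bound -/
lemma le_SL_acc {W : Finset Nd} {I : Nd} (hW : Full W I) (D Φ : Nd → ℝ)
    (hD : ∀ (m : ℕ) (l : ℤ), Φ (m + 1, l) - (Φ (m, 2 * l) + Φ (m, 2 * l + 1)) / 2 ≤
      D (m + 1, l)) : ∀ p ∈ W, len p * Φ p ≤ SL W p (fun L => Φ L + acc D p L) := by
  refine full_ind hW (fun p hp => ?_) fun m l hp hnl h0 h1 e0 e1 => ?_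
  · rw [SL_leaf hp, acc_self, add_zero]
  · rw [SL_node hW hnl h0 h1, SL_acc_ch hW D (by omega) (sub_ch0 m l) h0,
      SL_acc_ch hW D (by omega) (sub_ch1 m l) h1]
    have hl0 : len (m + 1, l) = 2 * len (m, 2 * l) := len_ch m l _
    have hl1 : len (m, 2 * l + 1) = len (m, 2 * l) := rfl
    rw [hl1] at e1 ⊢
    rw [hl0]
    have hpos := Growth.len_pos (m, 2 * l)
    have h2 := mul_le_mul_of_nonneg_left (hD m l) hpos.le
    nlinarith [h2, e0, e1]

end Crest.Agent.R079.TWin
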