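import Crest.Agent.R079.TWinB_649
import Crest.Agent.R079.TWin1_903

/-! R079, doc 2539 (5) of helper142, leaf L3 (helper526): COUNTING OF THE ERODED MASKS.

`Alv W m z` : `z` is alive at level `m` (the node of level `m` containing `z` is in `W`);
`Er W C m y` : all points at distance `≤ C 2^(m+7)` of `y` are alive at level `m`;
positions which see a change of `Er` between the levels `m-1` and `m`: total number `≤ K len I`;
bad nodes (`C1 len p`-neighbourhood not alive at level `p.1`): total length `≤ K len I`. -/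

set_option autoImplicit false

namespace Crest.Agent.R079.Ero526

open Finset Crest.Agent.R079.Grid Crest.Agent.R079.Growth Crest.Agent.R079.QRed
open Crest.Agent.R079.Qh249 (mem_iv mem_lf sub_of_level)

/-- `z` is alive at level `m` -/
def Alv (W : Finset Nd) (m : ℕ) (z : ℤ) : Prop := (m, z / 2 ^ (m + 7)) ∈ W

/-- eroded alive set of level `m` -/
def Er (W : Finset Nd) (C : ℕ) (m : ℕ) (y : ℤ) : Prop :=
  ∀ z : ℤ, |z - y| ≤ C * 2 ^ (m + 7) → Alv W m z

theorem alv_iff {W : Finset Nd} {m : ℕ} {z : ℤ} : Alv W m z ↔ ∃ l, (m, l) ∈ W ∧ z ∈ iv (m, l) := by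
  constructor
  · intro h
    exact ⟨_, h, mem_iv.2 rfl⟩
  · rintro ⟨l, h, hz⟩
    have := mem_iv.1 hz
    simp only at this
    unfold Alv
    rw [this]
    exact h

theorem alv_of_mem {W : Finset Nd} {p : Nd} (hp : p ∈ W) {z : ℤ} (hz : z ∈ iv p) :
    Alv W p.1 z := alv_iff.2 ⟨p.2, hp, hz⟩

theorem alv_mono {W : Finset Nd} {I : Nd} (hW : Full W I) {m m' : ℕ} (h : m ≤ m') (h' : m' ≤ I.1)
    {z : ℤ} (hz : Alv W m z) : Alv W m' z := by
  obtain ⟨l, hl, hzl⟩ := alv_iff.1 hz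
  have h1 : z ∈ iv (m', z / 2 ^ (m' + 7)) := mem_iv.2 rfl
  have h2 : z ∈ iv I := hW.reg.1 _ hl hzl
  exact hW.reg.2 _ hl _ (sub_of_level hzl h1 h) (sub_of_level h1 h2 h')

theorem alv_top {W : Finset Nd} {I : Nd} (hW : Full W I) {m : ℕ} {z : ℤ} (hz : Alv W m z) :
    z ∈ iv I := by
  obtain ⟨l, hl, hzl⟩ := alv_iff.1 hz
  exact hW.reg.1 _ hl hzl

theorem alv_level {W : Finset Nd} {I : Nd} (hW : Full W I) {m : ℕ} {z : ℤ} (hz : Alv W m z) :
    m ≤ I.1 := Qe292.iv_level (hW.reg.1 _ hz)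

theorem er_self {W : Finset Nd} {C m : ℕ} {y : ℤ} (h : Er W C m y) : Alv W m y :=
  h y (by rw [sub_self, abs_zero]; positivity)

theorem er_anti {W : Finset Nd} {C C' m : ℕ} (hC : C ≤ C') {y : ℤ} (h : Er W C' m y) :
    Er W C m y := fun z hz => h z (hz.trans (by
      have : (C : ℤ) ≤ C' := by exact_mod_cast hC
      gcongr))

/-- dead point of the top: it lies in a leaf of larger level -/
theorem dead_leaf {W : Finset Nd} {I : Nd} (hW : Full W I) {m : ℕ} (hm : m ≤ I.1) {z : ℤ}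
    (hz : z ∈ iv I) (hd : ¬ Alv W m z) : ∃ L ∈ lf W, z ∈ iv L ∧ m < L.1 := by
  obtain ⟨L, hL, _, hzL, _⟩ := (Qh249.qh W I hW I hW.top).2 z hz
  refine ⟨L, hL, hzL, ?_⟩
  by_contra hlt
  push Not at hlt
  exact hd (alv_mono hW hlt hm (alv_of_mem (mem_lf.1 hL).1 hzL))

/-- `e` is an end point of `L` -/
def End (L : Nd) (e : ℤ) : Prop := e = L.2 * 2 ^ (L.1 + 7) ∨ e = (L.2 + 1) * 2 ^ (L.1 + 7)

theorem mem_iv' {p : Nd} {y : ℤ} : y ∈ iv p ↔ p.2 * 2 ^ (p.1 + 7) ≤ y ∧ y < (p.2 + 1) * 2 ^ (p.1 + 7) := by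
  unfold iv dI
  rw [Finset.mem_Ico]

theorem end_between {L : Nd} {y z : ℤ} (hz : z ∈ iv L) (hy : y ∉ iv L) :
    ∃ e, End L e ∧ |e - y| ≤ |z - y| := by
  rw [mem_iv'] at hz hy
  by_cases h : L.2 * 2 ^ (L.1 + 7) ≤ y
  · have h2 : (L.2 + 1) * 2 ^ (L.1 + 7) ≤ y := by
      by_contra hc
      exact hy ⟨h, by linarith⟩
    refine ⟨_, Or.inr rfl, ?_⟩
    rw [abs_of_nonpos (by linarith), abs_of_nonpos (by linarith)]
    linarith
  · push Not at h
    refine ⟨_, Or.inl rfl, ?_⟩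
    rw [abs_of_nonneg (by linarith), abs_of_nonneg (by linarith)]
    linarith

theorem end_between' {L : Nd} {y z : ℤ} (hy : y ∈ iv L) (hz : z ∉ iv L) :
    ∃ e, End L e ∧ |e - y| ≤ |z - y| := by
  rw [mem_iv'] at hz hy
  by_cases h : L.2 * 2 ^ (L.1 + 7) ≤ z
  · have h2 : (L.2 + 1) * 2 ^ (L.1 + 7) ≤ z := by
      by_contra hc
      exact hz ⟨h, by linarith⟩
    refine ⟨_, Or.inr rfl, ?_⟩
    rw [abs_of_nonneg (by linarith), abs_of_nonneg (by linarith)]
    linarith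
  · push Not at h
    refine ⟨_, Or.inl rfl, ?_⟩
    rw [abs_of_nonpos (by linarith), abs_of_nonpos (by linarith)]
    linarith

/-- `Q` is near an end point of a leaf (or of the top) of level `≥ m - 1` -/
def NearE (W : Finset Nd) (I : Nd) (C m : ℕ) (Q : ℤ) : Prop :=
  ∃ L ∈ insert I (lf W), m ≤ L.1 + 1 ∧ ∃ e, End L e ∧ |e - Q| ≤ C * 2 ^ (m + 7)

/-- an alive point and a dead point at level `m`: an end point between them -/
theorem near_of_dead {W : Finset Nd} {I : Nd} (hW : Full W I) {m : ℕ} {y z : ℤ}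
    (hy : Alv W m y) (hz : ¬ Alv W m z) :
    ∃ L ∈ insert I (lf W), m ≤ L.1 ∧ ∃ e, End L e ∧ |e - y| ≤ |z - y| := by
  have hm := alv_level hW hy
  by_cases hzI : z ∈ iv I
  · obtain ⟨L, hL, hzL, hmL⟩ := dead_leaf hW hm hzI hz
    refine ⟨L, Finset.mem_insert_of_mem hL, hmL.le, end_between hzL ?_⟩
    intro hyL
    obtain ⟨l, hl, hyl⟩ := alv_iff.1 hy
    have := (mem_lf.1 hL).2 _ hl (sub_of_level hyl hyL hmL.le)
    rw [← this] at hmL
    exact lt_irrefl _ hmL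
  · exact ⟨I, Finset.mem_insert_self _ _, hm, end_between' (alv_top hW hy) hzI⟩

/-- a position which sees a change of the eroded mask is near an end point -/
theorem near_of_change {W : Finset Nd} {I : Nd} (hW : Full W I) {C C1 m : ℕ} (hm1 : 1 ≤ m)
    (hmI : m ≤ I.1) {Q : ℤ}
    (h : ∃ y, |y - Q| ≤ C1 * 2 ^ (m + 7) ∧ ¬ (Er W C m y ↔ Er W C (m - 1) y)) :
    NearE W I (C + C1 + 1) m Q := by
  obtain ⟨y, hyQ, hne⟩ := h
  have hpow : (2 : ℤ) ^ (m - 1 + 7) ≤ 2 ^ (m + 7) := pow_le_pow_right₀ (by norm_num) (by omega)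
  have hp0 : (0 : ℤ) < 2 ^ (m + 7) := by positivity
  have hC0 : (0 : ℤ) ≤ C := by positivity
  by_cases h1 : Er W C m y
  · -- death between `m` and `m - 1`
    have h2 : ¬ Er W C (m - 1) y := fun h2 => hne ⟨fun _ => h2, fun _ => h1⟩
    unfold Er at h2
    push Not at h2
    obtain ⟨z, hz, hzd⟩ := h2
    have hz' : |z - y| ≤ C * 2 ^ (m + 7) := hz.trans (mul_le_mul_of_nonneg_left hpow hC0)
    have hza := h1 z hz'
    obtain ⟨L, hL, hzL, hmL⟩ := dead_leaf hW (by omega : m - 1 ≤ I.1) (alv_top hW hza) hzd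
    obtain ⟨l, hl, hzl⟩ := alv_iff.1 hza
    have e := (mem_lf.1 hL).2 _ hl (sub_of_level hzl hzL (by show m ≤ L.1; omega))
    have hmL' : L.1 = m := by rw [← e]
    refine ⟨L, Finset.mem_insert_of_mem hL, by omega, _, Or.inl rfl, ?_⟩
    rw [mem_iv', hmL'] at hzL
    rw [hmL']
    have h3 : |L.2 * 2 ^ (m + 7) - z| ≤ 2 ^ (m + 7) := by
      rw [abs_of_nonpos (by linarith)]
      linarith
    have : L.2 * 2 ^ (m + 7) - Q = (L.2 * 2 ^ (m + 7) - z) + (z - y) + (y - Q) := by ring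
    rw [this]
    calc |(L.2 * 2 ^ (m + 7) - z) + (z - y) + (y - Q)|
        ≤ |L.2 * 2 ^ (m + 7) - z| + |z - y| + |y - Q| :=
          (abs_add_le _ _).trans (add_le_add_left (abs_add_le _ _) _)
      _ ≤ 2 ^ (m + 7) + C * 2 ^ (m + 7) + C1 * 2 ^ (m + 7) := by linarith
      _ = ((C + C1 + 1 : ℕ) : ℤ) * 2 ^ (m + 7) := by push_cast; ring
  · -- birth
    have h2 : Er W C (m - 1) y := by
      by_contra h2
      exact hne ⟨fun h => absurd h h1, fun h => absurd h h2⟩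
    have hya : Alv W m y := alv_mono hW (by omega) hmI (er_self h2)
    unfold Er at h1
    push Not at h1
    obtain ⟨z, hz, hzd⟩ := h1
    obtain ⟨L, hL, hmL, e, he, hey⟩ := near_of_dead hW hya hzd
    refine ⟨L, hL, by omega, e, he, ?_⟩
    have : e - Q = (e - y) + (y - Q) := by ring
    rw [this]
    calc |(e - y) + (y - Q)| ≤ |e - y| + |y - Q| := abs_add_le _ _
      _ ≤ C * 2 ^ (m + 7) + C1 * 2 ^ (m + 7) := by linarith
      _ ≤ ((C + C1 + 1 : ℕ) : ℤ) * 2 ^ (m + 7) := by push_cast; nlinarith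

open Classical in
/-- **counting**: positions near end points -/
theorem count_near {W : Finset Nd} {I : Nd} (hW : Full W I) (C : ℕ) (P : ℕ → Finset ℤ)
    (hP : ∀ m ≤ I.1, ∀ Q ∈ P m, NearE W I C m Q) :
    ∑ m ∈ range (I.1 + 1), ((P m).card : ℝ) ≤ 16 * (2 * C + 1) * len I := by
  classical
  set S : Finset Nd := insert I (lf W) with hS
  -- the interval of positions near an end point
  let B : Nd → ℕ → Finset ℤ := fun L m =>
    Finset.Icc (L.2 * 2 ^ (L.1 + 7) - C * 2 ^ (m + 7)) (L.2 * 2 ^ (L.1 + 7) + C * 2 ^ (m + 7)) ∪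
    Finset.Icc ((L.2 + 1) * 2 ^ (L.1 + 7) - C * 2 ^ (m + 7))
      ((L.2 + 1) * 2 ^ (L.1 + 7) + C * 2 ^ (m + 7))
  have hsub : ∀ m ≤ I.1, P m ⊆ (S.filter (fun L => m ≤ L.1 + 1)).biUnion (fun L => B L m) := by
    intro m hm Q hQ
    obtain ⟨L, hL, hmL, e, he, heQ⟩ := hP m hm Q hQ
    rw [Finset.mem_biUnion]
    refine ⟨L, Finset.mem_filter.2 ⟨hL, hmL⟩, ?_⟩
    rw [abs_le] at heQ
    simp only [B, Finset.mem_union, Finset.mem_Icc]
    rcases he with rfl | rfl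
    · left; constructor <;> linarith
    · right; constructor <;> linarith
  have hcardI : ∀ (x : ℤ) (m : ℕ), ((Finset.Icc (x - C * 2 ^ (m + 7)) (x + C * 2 ^ (m + 7))).card : ℝ)
      ≤ (2 * C + 1) * 2 ^ (m + 7) := by
    intro x m
    rw [Int.card_Icc]
    have h0 : x + C * 2 ^ (m + 7) + 1 - (x - C * 2 ^ (m + 7)) =
        ((2 * C * 2 ^ (m + 7) + 1 : ℕ) : ℤ) := by push_cast; ring
    rw [h0, Int.toNat_natCast]
    push_cast
    have : (1 : ℝ) ≤ 2 ^ (m + 7) := one_le_pow₀ (by norm_num)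
    linarith
  have hB : ∀ (L : Nd) (m : ℕ), ((B L m).card : ℝ) ≤ 2 * (2 * C + 1) * 2 ^ (m + 7) := by
    intro L m
    have h1 := Finset.card_union_le
      (Finset.Icc (L.2 * 2 ^ (L.1 + 7) - C * 2 ^ (m + 7)) (L.2 * 2 ^ (L.1 + 7) + C * 2 ^ (m + 7)))
      (Finset.Icc ((L.2 + 1) * 2 ^ (L.1 + 7) - C * 2 ^ (m + 7))
        ((L.2 + 1) * 2 ^ (L.1 + 7) + C * 2 ^ (m + 7)))
    have h2 := hcardI (L.2 * 2 ^ (L.1 + 7)) m
    have h3 := hcardI ((L.2 + 1) * 2 ^ (L.1 + 7)) m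
    have h4 : ((B L m).card : ℝ) ≤
        (((Finset.Icc (L.2 * 2 ^ (L.1 + 7) - C * 2 ^ (m + 7))
          (L.2 * 2 ^ (L.1 + 7) + C * 2 ^ (m + 7))).card +
        (Finset.Icc ((L.2 + 1) * 2 ^ (L.1 + 7) - C * 2 ^ (m + 7))
          ((L.2 + 1) * 2 ^ (L.1 + 7) + C * 2 ^ (m + 7))).card : ℕ) : ℝ) := by
      exact_mod_cast h1
    push_cast at h4
    linarith
  have hPm : ∀ m ∈ range (I.1 + 1), ((P m).card : ℝ) ≤
      ∑ L ∈ S, if m ≤ L.1 + 1 then 2 * (2 * (C : ℝ) + 1) * 2 ^ (m + 7) else 0 := by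
    intro m hm
    have hm' : m ≤ I.1 := by have := Finset.mem_range.1 hm; omega
    have h1 : ((P m).card : ℝ) ≤ ∑ L ∈ S.filter (fun L => m ≤ L.1 + 1), ((B L m).card : ℝ) := by
      have := (Finset.card_le_card (hsub m hm')).trans Finset.card_biUnion_le
      exact_mod_cast this
    rw [Finset.sum_filter] at h1
    refine h1.trans (Finset.sum_le_sum fun L _ => ?_)
    split_ifs
    · exact hB L m
    · exact le_rfl
  refine (Finset.sum_le_sum hPm).trans ?_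
  rw [Finset.sum_comm]
  have hgeo : ∀ n : ℕ, ∑ m ∈ range (n + 2), (2 : ℝ) ^ (m + 7) ≤ 4 * 2 ^ (n + 7) := by
    intro n
    have : ∀ k : ℕ, ∑ m ∈ range k, (2 : ℝ) ^ (m + 7) = 2 ^ (k + 7) - 2 ^ 7 := by
      intro k
      induction k with
      | zero => simp
      | succ k ih => rw [Finset.sum_range_succ, ih]; ring
    rw [this]
    have : (2 : ℝ) ^ (n + 2 + 7) = 4 * 2 ^ (n + 7) := by ring
    rw [this]
    have : (0 : ℝ) ≤ 2 ^ 7 := by positivity
    linarith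
  have hL : ∀ L ∈ S, ∑ m ∈ range (I.1 + 1),
      (if m ≤ L.1 + 1 then 2 * (2 * (C : ℝ) + 1) * 2 ^ (m + 7) else 0) ≤
        8 * (2 * C + 1) * len L := by
    intro L _
    rw [← Finset.sum_filter]
    have h1 : ∑ m ∈ (range (I.1 + 1)).filter (fun m => m ≤ L.1 + 1),
        2 * (2 * (C : ℝ) + 1) * 2 ^ (m + 7) ≤ ∑ m ∈ range (L.1 + 2), 2 * (2 * (C : ℝ) + 1) * 2 ^ (m + 7) := by
      refine Finset.sum_le_sum_of_subset_of_nonneg ?_ (fun _ _ _ => by positivity)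
      intro m hm
      rw [Finset.mem_filter] at hm
      rw [Finset.mem_range]
      omega
    refine h1.trans ?_
    rw [← Finset.mul_sum]
    have h2 := hgeo L.1
    unfold len
    have h3 : (0 : ℝ) ≤ 2 * (2 * (C : ℝ) + 1) := by positivity
    calc 2 * (2 * (C : ℝ) + 1) * ∑ m ∈ range (L.1 + 2), (2 : ℝ) ^ (m + 7)
        ≤ 2 * (2 * (C : ℝ) + 1) * (4 * 2 ^ (L.1 + 7)) := mul_le_mul_of_nonneg_left h2 h3
      _ = 8 * (2 * C + 1) * 2 ^ (L.1 + 7) := by ring
  refine (Finset.sum_le_sum hL).trans ?_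
  rw [← Finset.mul_sum]
  have hsum : ∑ L ∈ S, len L ≤ 2 * len I := by
    have h1 : ∑ L ∈ S, len L ≤ len I + ∑ L ∈ lf W, len L := by
      by_cases hI : I ∈ lf W
      · rw [hS, Finset.insert_eq_of_mem hI]
        linarith [Qe292.len_pos I]
      · rw [hS, Finset.sum_insert hI]
    have h2 : ∑ L ∈ lf W, len L = len I := by
      rw [← TWin649.lb_top hW]
      exact TWin649.sum_len_lb hW hW.top
    linarith
  have h3 : (0 : ℝ) ≤ 8 * (2 * (C : ℝ) + 1) := by positivity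
  calc 8 * (2 * (C : ℝ) + 1) * ∑ L ∈ S, len L ≤ 8 * (2 * (C : ℝ) + 1) * (2 * len I) :=
        mul_le_mul_of_nonneg_left hsum h3
    _ = 16 * (2 * C + 1) * len I := by ring

/-- **L3 (a)**: positions which see a change of the eroded mask -/
theorem er_change {W : Finset Nd} {I : Nd} (hW : Full W I) (C C1 : ℕ) (P : ℕ → Finset ℤ)
    (hP : ∀ m, 1 ≤ m → m ≤ I.1 → ∀ Q ∈ P m, ∃ y, |y - Q| ≤ C1 * 2 ^ (m + 7) ∧
      ¬ (Er W C m y ↔ Er W C (m - 1) y)) :
    ∑ m ∈ Icc 1 I.1, ((P m).card : ℝ) ≤ 16 * (2 * (C + C1 + 1) + 1) * len I := by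
  have h := count_near hW (C + C1 + 1) (fun m => if m = 0 then ∅ else P m) (by
    intro m hm Q hQ
    by_cases h0 : m = 0
    · simp [h0] at hQ
    · simp only [h0, if_false] at hQ
      exact near_of_change hW (by omega) hm (hP m (by omega) hm Q hQ))
  push_cast at h
  refine le_trans ?_ h
  have : ∑ m ∈ Icc 1 I.1, ((P m).card : ℝ) =
      ∑ m ∈ Icc 1 I.1, (((if m = 0 then ∅ else P m : Finset ℤ)).card : ℝ) := by
    refine Finset.sum_congr rfl fun m hm => ?_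
    have := Finset.mem_Icc.1 hm
    rw [if_neg (by omega)]
  rw [this]
  refine Finset.sum_le_sum_of_subset_of_nonneg ?_ (fun _ _ _ => by positivity)
  intro m hm
  have := Finset.mem_Icc.1 hm
  rw [Finset.mem_range]
  omega

/-- **L3 (a')**: the same under an affine map `x ↦ c + d x`, `1 ≤ |d| ≤ 128` -/
theorem er_change_affine {W : Finset Nd} {I : Nd} (hW : Full W I) (C : ℕ) (c d : ℤ) (hd : d ≠ 0)
    (hd' : |d| ≤ 128) (P : ℕ → Finset ℤ)
    (hP : ∀ m, 1 ≤ m → m ≤ I.1 → ∀ q ∈ P m, ∃ x : ℤ, q ≤ x ∧ x < q + 2 ^ m ∧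
      ¬ (Er W C m (c + d * x) ↔ Er W C (m - 1) (c + d * x))) :
    ∑ m ∈ Icc 1 I.1, ((P m).card : ℝ) ≤ 16 * (2 * (C + 1 + 1) + 1) * len I := by
  classical
  have hinj : Function.Injective (fun q : ℤ => c + d * q) := by
    intro a b hab
    simpa [hd] using hab
  have h := er_change hW C 1 (fun m => (P m).image (fun q => c + d * q)) (by
    intro m h1 hm Q hQ
    obtain ⟨q, hq, rfl⟩ := Finset.mem_image.1 hQ
    obtain ⟨x, hx1, hx2, hne⟩ := hP m h1 hm q hq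
    refine ⟨_, ?_, hne⟩
    have e : c + d * x - (c + d * q) = d * (x - q) := by ring
    rw [e, abs_mul]
    have h2 : |x - q| ≤ 2 ^ m := by
      rw [abs_of_nonneg (by linarith)]
      linarith
    calc |d| * |x - q| ≤ 128 * 2 ^ m := by gcongr
      _ = ((1 : ℕ) : ℤ) * 2 ^ (m + 7) := by push_cast; ring)
  simp only [Finset.card_image_of_injective _ hinj] at h
  exact_mod_cast h

/-- `p` is bad: its `C1 len p`-neighbourhood is not alive at level `p.1` -/
def Bad (W : Finset Nd) (C1 : ℕ) (p : Nd) : Prop :=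
  ∃ y z : ℤ, y ∈ iv p ∧ |z - y| ≤ C1 * 2 ^ (p.1 + 7) ∧ ¬ Alv W p.1 z

theorem er_of_not_bad {W : Finset Nd} {C1 : ℕ} {p : Nd} (h : ¬ Bad W C1 p) {y : ℤ}
    (hy : y ∈ iv p) : Er W C1 p.1 y := by
  intro z hz
  by_contra hc
  exact h ⟨y, z, hy, hz, hc⟩

open Classical in
/-- **L3 (b)**: total length of the bad nodes -/
theorem sum_bad {W : Finset Nd} {I : Nd} (hW : Full W I) (C1 : ℕ) :
    ∑ p ∈ W.filter (Bad W C1), len p ≤ 16 * (2 * (C1 + 1) + 1) * len I := by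
  classical
  set Bd := W.filter (Bad W C1) with hBd
  have h := count_near hW (C1 + 1) (fun m => (Bd.filter (fun p => p.1 = m)).biUnion iv) (by
    intro m hm Q hQ
    obtain ⟨p, hp, hQp⟩ := Finset.mem_biUnion.1 hQ
    rw [Finset.mem_filter, hBd, Finset.mem_filter] at hp
    obtain ⟨⟨hpW, y, z, hy, hz, hzd⟩, rfl⟩ := hp
    obtain ⟨L, hL, hmL, e, he, hey⟩ := near_of_dead hW (alv_of_mem hpW hy) hzd
    refine ⟨L, hL, by omega, e, he, ?_⟩
    have hyQ : |y - Q| ≤ 2 ^ (p.1 + 7) := by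
      rw [mem_iv'] at hy hQp
      rw [abs_le]
      constructor <;> linarith
    have : e - Q = (e - y) + (y - Q) := by ring
    rw [this]
    calc |(e - y) + (y - Q)| ≤ |e - y| + |y - Q| := abs_add_le _ _
      _ ≤ C1 * 2 ^ (p.1 + 7) + 2 ^ (p.1 + 7) := by linarith
      _ = ((C1 + 1 : ℕ) : ℤ) * 2 ^ (p.1 + 7) := by push_cast; ring)
  push_cast at h
  refine le_trans (le_of_eq ?_) h
  have hcard : ∀ m, (((Bd.filter (fun p => p.1 = m)).biUnion iv).card : ℝ) =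
      ∑ p ∈ Bd.filter (fun p => p.1 = m), len p := by
    intro m
    rw [Finset.card_biUnion]
    · push_cast
      exact Finset.sum_congr rfl fun p _ => card_iv p
    · intro p hp q hq hne
      rw [Finset.mem_coe, Finset.mem_filter] at hp hq
      rw [Function.onFun, Finset.disjoint_left]
      intro y hy hy'
      rw [mem_iv] at hy hy'
      apply hne
      refine Prod.ext (hp.2.trans hq.2.symm) ?_
      rw [← hy, ← hy', hp.2, hq.2]
  simp only [hcard]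
  rw [← Finset.sum_fiberwise_of_maps_to (t := range (I.1 + 1)) (g := fun p : Nd => p.1)]
  intro p hp
  rw [hBd, Finset.mem_filter] at hp
  rw [Finset.mem_range]
  have := Qe292.iv_level (hW.reg.1 p hp.1)
  omega

end Crest.Agent.R079.Ero526
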