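import Mathlib.Analysis.InnerProductSpace.Basic
import Mathlib.Algebra.BigOperators.Finprod
import Mathlib.Algebra.Order.BigOperators.Group.Finset
import Mathlib.Tactic

/-! R079, doc 2531 step (II.3) in the LINE MODEL (helper71): vector valued Haar-Bessel inequality
over ALL positions, letters changing with the scale (windows = masks).

`Em m f p` = average of `f` over `[p, p + 2^m)`, `Dm m f p` = signed average over `[p, p + 2^(m+1))`.
Values in any complex inner product space `E` (a fixed metric `G` is `f ↦ G^(1/2) f`). -/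

set_option autoImplicit false
set_option linter.unusedSectionVars false

namespace Crest.Agent.R079.MBes71

open Finset

variable {E : Type*} [NormedAddCommGroup E] [InnerProductSpace ℂ E]

/-- average over `[p, p + 2^m)` -/
noncomputable def Em (m : ℕ) (f : ℤ → E) (p : ℤ) : E :=
  (1 / (2 : ℂ) ^ m) • ∑ i ∈ range (2 ^ m), f (p + (i : ℤ))

/-- signed average over `[p, p + 2^(m+1))` -/
noncomputable def Dm (m : ℕ) (f : ℤ → E) (p : ℤ) : E :=
  (1 / (2 : ℂ) ^ (m + 1)) • ∑ i ∈ range (2 ^ (m + 1)),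
    (if i < 2 ^ m then (1 : ℂ) else -1) • f (p + (i : ℤ))

lemma sum_split (m : ℕ) (g : ℕ → E) : ∑ i ∈ range (2 ^ (m + 1)), g i =
    ∑ i ∈ range (2 ^ m), g i + ∑ i ∈ range (2 ^ m), g (2 ^ m + i) := by
  rw [pow_succ, mul_two, Finset.sum_range_add]

lemma Em_succ (m : ℕ) (f : ℤ → E) (p : ℤ) :
    Em (m + 1) f p = (1 / 2 : ℂ) • (Em m f p + Em m f (p + 2 ^ m)) := by
  unfold Em
  rw [sum_split, ← smul_add, smul_smul]
  congr 1
  · rw [pow_succ]; ring
  · congr 1
    refine Finset.sum_congr rfl fun i _ => ?_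
    congr 1; push_cast; ring

lemma Dm_eq (m : ℕ) (f : ℤ → E) (p : ℤ) :
    Dm m f p = (1 / 2 : ℂ) • (Em m f p - Em m f (p + 2 ^ m)) := by
  unfold Dm Em
  rw [sum_split, ← smul_sub, smul_smul]
  congr 1
  · rw [pow_succ]; ring
  · rw [sub_eq_add_neg]
    congr 1
    · refine Finset.sum_congr rfl fun i hi => ?_
      rw [if_pos (Finset.mem_range.1 hi), one_smul]
    · rw [← Finset.sum_neg_distrib]
      refine Finset.sum_congr rfl fun i _ => ?_
      rw [if_neg (by omega), neg_one_smul]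
      congr 2; push_cast; ring

/-- parallelogram -/
lemma par (m : ℕ) (f : ℤ → E) (p : ℤ) : ‖Dm m f p‖ ^ 2 + ‖Em (m + 1) f p‖ ^ 2 =
    (‖Em m f p‖ ^ 2 + ‖Em m f (p + 2 ^ m)‖ ^ 2) / 2 := by
  rw [Dm_eq, Em_succ, norm_smul, norm_smul, mul_pow, mul_pow]
  have h := parallelogram_law_with_norm ℂ (Em m f p) (Em m f (p + 2 ^ m))
  have e : ‖(1 / 2 : ℂ)‖ ^ 2 = 1 / 4 := by norm_num
  rw [e]
  nlinarith [h]

lemma Em_support (m : ℕ) (f : ℤ → E) (hf : (Function.support f).Finite) :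
    (Function.support (Em m f)).Finite := by
  have : Function.support (Em m f) ⊆ ⋃ i ∈ range (2 ^ m), (fun p : ℤ => p + (i : ℤ)) ⁻¹'
      (Function.support f) := by
    intro p hp
    by_contra h
    apply hp
    simp only [Set.mem_iUnion, not_exists, Set.mem_preimage, Function.mem_support, not_not] at h
    unfold Em
    rw [Finset.sum_eq_zero fun i hi => h i hi, smul_zero]
  refine Set.Finite.subset ?_ this
  refine Set.Finite.biUnion (Finset.finite_toSet _) fun i _ => ?_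
  exact hf.preimage (fun a _ b _ hab => by simpa using hab)

lemma nsq_support {g : ℤ → E} (hg : (Function.support g).Finite) :
    (Function.support fun p => ‖g p‖ ^ 2).Finite := by
  refine hg.subset fun p hp => ?_
  intro h
  apply hp
  simp [h]

lemma shift (g : ℤ → ℝ) (a : ℤ) : ∑ᶠ p : ℤ, g (p + a) = ∑ᶠ p : ℤ, g p :=
  finsum_comp_equiv (Equiv.addRight a)

lemma shift_support {g : ℤ → ℝ} (hg : (Function.support g).Finite) (a : ℤ) :
    (Function.support fun p => g (p + a)).Finite :=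
  hg.preimage (f := fun p : ℤ => p + a) (fun x _ y _ hxy => by simpa using hxy)

/-- one scale: exact telescope over all positions -/
lemma one_scale (m : ℕ) (f : ℤ → E) (hf : (Function.support f).Finite) :
    ∑ᶠ p : ℤ, ‖Dm m f p‖ ^ 2 + ∑ᶠ p : ℤ, ‖Em (m + 1) f p‖ ^ 2 = ∑ᶠ p : ℤ, ‖Em m f p‖ ^ 2 := by
  have hE := nsq_support (Em_support m f hf)
  have hE1 := nsq_support (Em_support (m + 1) f hf)
  have hE' := shift_support hE (2 ^ m)
  have hD : (Function.support fun p => ‖Dm m f p‖ ^ 2).Finite := by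
    refine (hE.union hE').subset fun p hp => ?_
    by_contra h
    apply hp
    simp only [Set.mem_union, Function.mem_support, not_or, not_not] at h
    have := par m f p
    rw [h.1, h.2] at this
    nlinarith [sq_nonneg ‖Dm m f p‖, sq_nonneg ‖Em (m + 1) f p‖]
  rw [← finsum_add_distrib hD hE1]
  have : (fun p => ‖Dm m f p‖ ^ 2 + ‖Em (m + 1) f p‖ ^ 2) =
      fun p => (1 / 2 : ℝ) * ‖Em m f p‖ ^ 2 + (1 / 2 : ℝ) * ‖Em m f (p + 2 ^ m)‖ ^ 2 := by
    funext p
    rw [par]; ring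
  rw [this]
  have h1 : (Function.support fun p => (1 / 2 : ℝ) * ‖Em m f p‖ ^ 2).Finite :=
    hE.subset fun p hp h => hp (by simp only [h, mul_zero])
  have h2 : (Function.support fun p => (1 / 2 : ℝ) * ‖Em m f (p + 2 ^ m)‖ ^ 2).Finite :=
    hE'.subset fun p hp h => hp (by simp only [h, mul_zero])
  rw [finsum_add_distrib h1 h2, ← mul_finsum _ _, ← mul_finsum _ _,
    shift (fun p => ‖Em m f p‖ ^ 2) (2 ^ m)]
  ring

open Classical in
/-- contribution of the boxes `[p, p + 2^(m+1))` that see the change `f m → f (m+1)` -/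
noncomputable def chg (f : ℕ → ℤ → E) (m : ℕ) (p : ℤ) : ℝ :=
  if ∃ i : ℕ, i < 2 ^ (m + 1) ∧ f (m + 1) (p + (i : ℤ)) ≠ f m (p + (i : ℤ)) then
    ‖Em (m + 1) (f (m + 1)) p‖ ^ 2 else 0

lemma Em_congr (m : ℕ) (f g : ℤ → E) (p : ℤ) (h : ∀ i : ℕ, i < 2 ^ m → f (p + (i : ℤ)) = g (p + (i : ℤ))) :
    Em m f p = Em m g p := by
  unfold Em
  congr 1
  exact Finset.sum_congr rfl fun i hi => h i (Finset.mem_range.1 hi)

lemma chg_nonneg (f : ℕ → ℤ → E) (m : ℕ) (p : ℤ) : 0 ≤ chg f m p := by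
  unfold chg; split_ifs <;> positivity

lemma chg_support (f : ℕ → ℤ → E) (m : ℕ) (hf : (Function.support (f (m + 1))).Finite) :
    (Function.support (chg f m)).Finite := by
  refine (nsq_support (Em_support (m + 1) (f (m + 1)) hf)).subset fun p hp h => hp ?_
  unfold chg
  split_ifs
  · exact h
  · rfl

lemma le_chg (f : ℕ → ℤ → E) (m : ℕ) (p : ℤ) :
    ‖Em (m + 1) (f (m + 1)) p‖ ^ 2 ≤ ‖Em (m + 1) (f m) p‖ ^ 2 + chg f m p := by
  unfold chg
  split_ifs with h
  · nlinarith [sq_nonneg ‖Em (m + 1) (f m) p‖]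
  · push Not at h
    rw [Em_congr (m + 1) (f (m + 1)) (f m) p h, add_zero]

/-- **masked vector Haar-Bessel, all positions** -/
theorem bes (f : ℕ → ℤ → E) (hf : ∀ m, (Function.support (f m)).Finite) (M : ℕ) :
    ∑ m ∈ range M, ∑ᶠ p : ℤ, ‖Dm m (f m) p‖ ^ 2 + ∑ᶠ p : ℤ, ‖Em M (f M) p‖ ^ 2 ≤
      ∑ᶠ p : ℤ, ‖f 0 p‖ ^ 2 + ∑ m ∈ range M, ∑ᶠ p : ℤ, chg f m p := by
  induction M with
  | zero =>
    simp only [Finset.range_zero, Finset.sum_empty, zero_add, add_zero]
    refine le_of_eq (finsum_congr fun p => ?_)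
    unfold Em
    simp
  | succ M ih =>
    rw [Finset.sum_range_succ, Finset.sum_range_succ]
    have h1 := one_scale M (f M) (hf M)
    have hs1 := nsq_support (Em_support (M + 1) (f M) (hf M))
    have hs2 := chg_support f M (hf (M + 1))
    have h2 : ∑ᶠ p : ℤ, ‖Em (M + 1) (f (M + 1)) p‖ ^ 2 ≤
        ∑ᶠ p : ℤ, ‖Em (M + 1) (f M) p‖ ^ 2 + ∑ᶠ p : ℤ, chg f M p := by
      rw [← finsum_add_distrib hs1 hs2]
      refine finsum_le_finsum' (nsq_support (Em_support (M + 1) (f (M + 1)) (hf (M + 1))))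
        ((hs1.union hs2).subset (Function.support_add _ _)) (fun p => le_chg f M p)
    linarith

/-- the same for finite sets of positions at every scale -/
theorem bes_fin (f : ℕ → ℤ → E) (hf : ∀ m, (Function.support (f m)).Finite) (M : ℕ)
    (P : ℕ → Finset ℤ) :
    ∑ m ∈ range M, ∑ p ∈ P m, ‖Dm m (f m) p‖ ^ 2 ≤
      ∑ᶠ p : ℤ, ‖f 0 p‖ ^ 2 + ∑ m ∈ range M, ∑ᶠ p : ℤ, chg f m p := by
  have h := bes f hf M
  have h0 : 0 ≤ ∑ᶠ p : ℤ, ‖Em M (f M) p‖ ^ 2 := finsum_nonneg fun p => sq_nonneg _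
  have h1 : ∑ m ∈ range M, ∑ p ∈ P m, ‖Dm m (f m) p‖ ^ 2 ≤
      ∑ m ∈ range M, ∑ᶠ p : ℤ, ‖Dm m (f m) p‖ ^ 2 := by
    refine Finset.sum_le_sum fun m _ => ?_
    have hD : (Function.support fun p => ‖Dm m (f m) p‖ ^ 2).Finite := by
      have hE := nsq_support (Em_support m (f m) (hf m))
      refine (hE.union (shift_support hE (2 ^ m))).subset fun p hp => ?_
      by_contra h
      apply hp
      simp only [Set.mem_union, Function.mem_support, not_or, not_not] at h
      have := par m (f m) p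
      rw [h.1, h.2] at this
      nlinarith [sq_nonneg ‖Dm m (f m) p‖, sq_nonneg ‖Em (m + 1) (f m) p‖]
    rw [finsum_eq_sum_of_support_subset (s := hD.toFinset ∪ P m) _
      (by intro p hp; simp only [Finset.coe_union, Set.mem_union, Set.Finite.coe_toFinset]
          exact Or.inl hp)]
    exact Finset.sum_le_sum_of_subset_of_nonneg Finset.subset_union_right
      fun p _ _ => sq_nonneg _
  linarith

end Crest.Agent.R079.MBes71
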