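import Crest.Agent.R079.F2_408
import Crest.Agent.R079.MBes_71
import Crest.Agent.R079.Ero_526
import Crest.Agent.R079.Static_569

/-! R079, doc 2539 (helper142), COMPOSITION of L1 (F2_408), L2 (MBes_71), L3 (Ero_526) (helper408):
the sum of `‖Lbox‖` over the good nodes of a window is at most
`∑_r √(exit values of β_r) √(exit values of α_r) + errors`, when the kernel with letters
`Yb(z) K(z,z') Ya(z')` is `⟪β_r z, α_r z'⟫ + Err_r z z'` on the window. -/

set_option autoImplicit false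
set_option linter.unusedSectionVars false

namespace Crest.Agent.R079.Cmp408

open Finset Crest.Agent.R079.Grid Crest.Agent.R079.Growth Crest.Agent.R079.QRed
open Crest.Agent.R079.Qh249 (mem_iv)
open Crest.Agent.R079.F2 Crest.Agent.R079.MBes71 Crest.Agent.R079.Ero526

variable {E : Type*} [NormedAddCommGroup E] [InnerProductSpace ℂ E]

/-- sign of a position in a box of side `2^(k+1)` -/
noncomputable def sg (k u : ℕ) : ℂ := if u < 2 ^ k then 1 else -1

lemma conj_sg (k u : ℕ) : (starRingEnd ℂ) (sg k u) = sg k u := by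
  unfold sg; split_ifs <;> simp

lemma norm_sg (k u : ℕ) : ‖sg k u‖ = 1 := by
  unfold sg; split_ifs <;> simp

/-- two dimensional form of a kernel (letters included) on the box `[qa, +2^(k+1)) × [qb, +2^(k+1))` -/
noncomputable def frm (G : ℤ → ℤ → ℂ) (k : ℕ) (qa qb : ℤ) : ℂ :=
  (1 / (2 : ℂ) ^ (k + 1)) * ((1 / (2 : ℂ) ^ (k + 1)) * ∑ u ∈ range (2 ^ (k + 1)),
    ∑ v ∈ range (2 ^ (k + 1)), sg k u * sg k v * G (qa + (u : ℤ)) (qb + (v : ℤ)))

lemma frm_congr (G G' : ℤ → ℤ → ℂ) (k : ℕ) (qa qb : ℤ)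
    (h : ∀ u v : ℕ, u < 2 ^ (k + 1) → v < 2 ^ (k + 1) →
      G (qa + (u : ℤ)) (qb + (v : ℤ)) = G' (qa + (u : ℤ)) (qb + (v : ℤ))) :
    frm G k qa qb = frm G' k qa qb := by
  unfold frm
  congr 2
  refine Finset.sum_congr rfl fun u hu => Finset.sum_congr rfl fun v hv => ?_
  rw [h u v (Finset.mem_range.1 hu) (Finset.mem_range.1 hv)]

lemma frm_add (G G' : ℤ → ℤ → ℂ) (k : ℕ) (qa qb : ℤ) :
    frm (fun z z' => G z z' + G' z z') k qa qb = frm G k qa qb + frm G' k qa qb := by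
  unfold frm
  simp only [mul_add, Finset.sum_add_distrib]

lemma frm_inner (be al : ℤ → E) (k : ℕ) (qa qb : ℤ) :
    frm (fun z z' => inner ℂ (be z) (al z')) k qa qb = inner ℂ (Dm k be qa) (Dm k al qb) := by
  unfold frm Dm
  rw [inner_smul_left, inner_smul_right, sum_inner]
  congr 1
  · rw [map_div₀, map_one, map_pow]
    congr 2
    exact (Complex.conj_ofNat 2).symm
  · congr 1
    refine Finset.sum_congr rfl fun u _ => ?_
    rw [inner_sum]
    refine Finset.sum_congr rfl fun v _ => ?_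
    rw [inner_smul_left, inner_smul_right]
    have e1 : (starRingEnd ℂ) (if u < 2 ^ k then (1 : ℂ) else -1) = sg k u := by
      have := conj_sg k u
      unfold sg at this ⊢
      exact this
    rw [e1]
    unfold sg
    ring

lemma hsg_sg (k : ℕ) (u : Fin (2 ^ k + 2 ^ k)) : ((hsg (2 ^ k) u : ℝ) : ℂ) = sg k (u : ℕ) := by
  unfold hsg sg; split_ifs <;> simp

lemma sum_fin (k : ℕ) {M : Type*} [AddCommMonoid M] (g : ℕ → M) :
    ∑ u : Fin (2 ^ k + 2 ^ k), g (u : ℕ) = ∑ u ∈ range (2 ^ (k + 1)), g u := by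
  rw [Fin.sum_univ_eq_sum_range g, ← two_mul, ← pow_succ']

/-- `br` is the form of the kernel with letters -/
lemma br_frm (i m a b : Fin 4) (F : Fin 4 → ℤ → ℂ) (k : ℕ) (r qa qb : ℤ) :
    br i m a b F (2 ^ k) r qa qb =
      frm (fun z z' => Yb i a b F r z * Kk i m a b F r z z' * Ya i a b F r z') k qa qb := by
  unfold br frm
  have hN : (((2 ^ k : ℕ) : ℂ) + ((2 ^ k : ℕ) : ℂ)) = 2 ^ (k + 1) := by push_cast; ring
  rw [hN, ← mul_assoc]
  congr 1
  · ring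
  rw [← sum_fin k (fun u => ∑ v ∈ range (2 ^ (k + 1)), sg k u * sg k v *
    (Yb i a b F r (qa + (u : ℤ)) * Kk i m a b F r (qa + (u : ℤ)) (qb + (v : ℤ)) *
      Ya i a b F r (qb + (v : ℤ))))]
  refine Finset.sum_congr rfl fun u _ => ?_
  rw [← sum_fin k (fun v => sg k u * sg k v *
    (Yb i a b F r (qa + ((u : ℕ) : ℤ)) * Kk i m a b F r (qa + ((u : ℕ) : ℤ)) (qb + (v : ℤ)) *
      Ya i a b F r (qb + (v : ℤ))))]
  refine Finset.sum_congr rfl fun v _ => ?_
  rw [Complex.ofReal_mul, hsg_sg, hsg_sg]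

/-- the shadows of the box in the two dimensional coordinates -/
lemma shadows (i m a b : Fin 4) (h : Dst i m a b) {bb : ℤ} (hbb : bb = -1 ∨ bb = -7) {p : Nd}
    {x : ℤ} (hx : x ∈ adm p.1 p.2) (r q : ℤ) (ui um : Fin (2 ^ p.1 + 2 ^ p.1))
    (hxq : xq i m a b bb (2 ^ p.1) q r ((ui : ℕ) : ℤ) ((um : ℕ) : ℤ) = x) (u v : ℕ)
    (hu : u < 2 ^ (p.1 + 1)) (hv : v < 2 ^ (p.1 + 1)) :
    ((sl i - sl a) * r + dd a b * (off bb (2 ^ p.1) r ((ui : ℕ) : ℤ) ((um : ℕ) : ℤ) - q + v)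
      ∈ iv p) ∧
    ((sl i - sl b) * r + -dd a b * (q + u) ∈ iv p) ∧
    ((sl a - sl i) * (q + u) + (sl b - sl i) *
      (off bb (2 ^ p.1) r ((ui : ℕ) : ℤ) ((um : ℕ) : ℤ) - q + v) ∈ iv p) ∧
    ((sl i - sl m) * r + (sl a - sl m) * (q + u) + (sl b - sl m) *
      (off bb (2 ^ p.1) r ((ui : ℕ) : ℤ) ((um : ℕ) : ℤ) - q + v) ∈ iv p) := by
  have hN : 2 ^ p.1 + 2 ^ p.1 = 2 ^ (p.1 + 1) := by ring
  have h' := h
  obtain ⟨h1, h2, h3, h4, h5, h6⟩ := h
  set U : Fin 4 → Fin (2 ^ p.1 + 2 ^ p.1) := F2.mk i m a ui um ⟨u, by omega⟩ ⟨v, by omega⟩ with hU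
  have e1 : U i = ui := by simp [hU, F2.mk]
  have e2 : U m = um := by simp [hU, F2.mk, h1.symm]
  have e3 : U a = ⟨u, by omega⟩ := by simp [hU, F2.mk, h2.symm, h4.symm]
  have e4 : U b = ⟨v, by omega⟩ := by simp [hU, F2.mk, h3.symm, h5.symm, h6.symm]
  have ey : ∀ j : Fin 4, yv (2 ^ p.1) bb x U j =
      x + ((sl i - sl j) * ((ui : ℕ) : ℤ) + (sl m - sl j) * ((um : ℕ) : ℤ) +
        (sl a - sl j) * (u : ℤ) + (sl b - sl j) * (v : ℤ)) - sl j * (bb * (2 ^ p.1 : ℕ)) := by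
    intro j
    unfold yv
    rw [sum4 i m a b h', e1, e2, e3, e4]
  have hm : ∀ j : Fin 4, yv (2 ^ p.1) bb x U j ∈ iv p := fun j => yv_mem p.1 p.2 bb x hbb hx U j
  have c : ∀ {y z : ℤ}, y ∈ iv p → y = z → z ∈ iv p := fun hy hyz => hyz ▸ hy
  have ha := hm a
  have hb := hm b
  have hi := hm i
  have hmm := hm m
  rw [ey] at ha hb hi hmm
  subst hxq
  simp only [xq, off, dd] at *
  refine ⟨c ha ?_, c hb ?_, c hi ?_, c hmm ?_⟩ <;> ring

/-- masked vector: `A m z` = alive at level `m` -/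
noncomputable def msk (A : ℕ → ℤ → Prop) (f : ℤ → E) (m : ℕ) (z : ℤ) : E := by
  classical exact if A m z then f z else 0

/-- mask of the coordinate `z` through the affine map `c + d z` -/
def AA (W : Finset Nd) (C : ℕ) (c d : ℤ) (m : ℕ) (z : ℤ) : Prop := Er W C m (c + d * z)

/-- positions which pay at level `m` -/
def Pos (W : Finset Nd) (C : ℕ) (c d : ℤ) (m : ℕ) : Set ℤ :=
  {q | (m = 0 ∨ ∃ x : ℤ, q ≤ x ∧ x < q + 2 ^ m ∧ ¬ (AA W C c d m x ↔ AA W C c d (m - 1) x)) ∧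
    ∃ x : ℤ, q ≤ x ∧ x < q + 2 ^ m ∧ AA W C c d m x}

lemma AA_finite {W : Finset Nd} {I : Nd} (hW : Full W I) (C : ℕ) (c : ℤ) {d : ℤ} (hd : d ≠ 0)
    (m : ℕ) : {z | AA W C c d m z}.Finite := by
  have h1 : {z | AA W C c d m z} ⊆ (fun z : ℤ => c + d * z) ⁻¹' (iv I : Set ℤ) := by
    intro z hz
    exact alv_top hW (er_self hz)
  refine ((iv I).finite_toSet.preimage ?_).subset h1
  intro x _ y _ hxy
  simpa [hd] using hxy

lemma Pos_finite {W : Finset Nd} {I : Nd} (hW : Full W I) (C : ℕ) (c : ℤ) {d : ℤ} (hd : d ≠ 0)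
    (m : ℕ) : (Pos W C c d m).Finite := by
  have h1 : Pos W C c d m ⊆ ⋃ i ∈ range (2 ^ m), (fun q : ℤ => q + (i : ℤ)) ⁻¹'
      {z | AA W C c d m z} := by
    rintro q ⟨_, x, hx1, hx2, hx3⟩
    simp only [Set.mem_iUnion]
    have hlt : (x - q).toNat < 2 ^ m := by
      have : (((x - q).toNat : ℕ) : ℤ) < ((2 ^ m : ℕ) : ℤ) := by
        rw [Int.toNat_of_nonneg (by omega)]; push_cast; linarith
      exact_mod_cast this
    refine ⟨(x - q).toNat, Finset.mem_range.2 hlt, ?_⟩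
    show AA W C c d m (q + (((x - q).toNat : ℕ) : ℤ))
    rw [Int.toNat_of_nonneg (by omega)]
    have : q + (x - q) = x := by ring
    rw [this]
    exact hx3
  refine Set.Finite.subset ?_ h1
  refine Set.Finite.biUnion (Finset.finite_toSet _) fun j _ => ?_
  exact (AA_finite hW C c hd m).preimage (fun a _ b _ hab => by simpa using hab)

/-- positions which pay, as a finite set -/
noncomputable def pos (W : Finset Nd) (C : ℕ) (c d : ℤ) (m : ℕ) : Finset ℤ := by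
  classical exact if h : (Pos W C c d m).Finite then h.toFinset else ∅

lemma mem_pos {W : Finset Nd} {I : Nd} (hW : Full W I) (C : ℕ) (c : ℤ) {d : ℤ} (hd : d ≠ 0)
    (m : ℕ) (q : ℤ) : q ∈ pos W C c d m ↔ q ∈ Pos W C c d m := by
  unfold pos
  rw [dif_pos (Pos_finite hW C c hd m), Set.Finite.mem_toFinset]

/-- number of paying positions -/
theorem card_pos {W : Finset Nd} {I : Nd} (hW : Full W I) (C : ℕ) (c : ℤ) {d : ℤ} (hd : d ≠ 0)
    (hd' : |d| ≤ 128) :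
    ∑ m ∈ range (I.1 + 1), ((pos W C c d m).card : ℝ) ≤ (16 * (2 * (C + 1 + 1) + 1) + 1) * len I := by
  have h1 := er_change_affine hW C c d hd hd' (pos W C c d) (by
    intro m h1 _ q hq
    rcases ((mem_pos hW C c hd m q).1 hq).1 with h0 | h0
    · omega
    · exact h0)
  have h0 : ((pos W C c d 0).card : ℝ) ≤ len I := by
    have hsub : (pos W C c d 0).image (fun z => c + d * z) ⊆ iv I := by
      intro y hy
      obtain ⟨q, hq, rfl⟩ := Finset.mem_image.1 hy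
      obtain ⟨_, x, hx1, hx2, hx3⟩ := (mem_pos hW C c hd 0 q).1 hq
      have hxq : x = q := by
        have : (2 : ℤ) ^ 0 = 1 := pow_zero _
        omega
      rw [← hxq]
      exact alv_top hW (er_self hx3)
    have hc := Finset.card_le_card hsub
    rw [Finset.card_image_of_injective _ (fun x y hxy => by simpa [hd] using hxy)] at hc
    rw [← card_iv I]
    exact_mod_cast hc
  have hr : range (I.1 + 1) = insert 0 (Icc 1 I.1) := by
    ext n
    simp only [Finset.mem_range, Finset.mem_insert, Finset.mem_Icc]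
    omega
  rw [hr, Finset.sum_insert (by simp)]
  linarith

lemma msk_pos {A : ℕ → ℤ → Prop} (f : ℤ → E) {m : ℕ} {z : ℤ} (h : A m z) : msk A f m z = f z := by
  unfold msk; rw [if_pos h]

lemma msk_neg {A : ℕ → ℤ → Prop} (f : ℤ → E) {m : ℕ} {z : ℤ} (h : ¬ A m z) : msk A f m z = 0 := by
  unfold msk; rw [if_neg h]

lemma msk_support {W : Finset Nd} {I : Nd} (hW : Full W I) (C : ℕ) (c : ℤ) {d : ℤ} (hd : d ≠ 0)
    (f : ℤ → E) (m : ℕ) : (Function.support (msk (AA W C c d) f m)).Finite := by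
  refine (AA_finite hW C c hd m).subset fun z hz => ?_
  by_contra h
  exact hz (msk_neg f h)

lemma Dm_support {f : ℤ → E} (hf : (Function.support f).Finite) (m : ℕ) :
    (Function.support fun p => ‖Dm m f p‖ ^ 2).Finite := by
  have hE := nsq_support (Em_support m f hf)
  refine (hE.union (shift_support hE (2 ^ m))).subset fun p hp => ?_
  by_contra h
  apply hp
  simp only [Set.mem_union, Function.mem_support, not_or, not_not] at h
  have := par m f p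
  rw [h.1, h.2] at this
  nlinarith [sq_nonneg ‖Dm m f p‖, sq_nonneg ‖Em (m + 1) f p‖]

lemma sum_le_finsum {g : ℤ → ℝ} (hg : ∀ q, 0 ≤ g q) (hs : (Function.support g).Finite)
    (Q : Finset ℤ) : ∑ q ∈ Q, g q ≤ ∑ᶠ q : ℤ, g q := by
  rw [finsum_eq_sum_of_support_subset (s := hs.toFinset ∪ Q) _
    (by intro p hp; simp only [Finset.coe_union, Set.mem_union, Set.Finite.coe_toFinset]
        exact Or.inl hp)]
  exact Finset.sum_le_sum_of_subset_of_nonneg Finset.subset_union_right fun p _ _ => hg _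

lemma chg_sum_le {W : Finset Nd} {I : Nd} (hW : Full W I) (C : ℕ) (c : ℤ) {d : ℤ} (hd : d ≠ 0)
    (f : ℤ → E) (m : ℕ) :
    ∑ᶠ p : ℤ, chg (msk (AA W C c d) f) m p ≤
      ∑ q ∈ pos W C c d (m + 1), ‖Em (m + 1) (msk (AA W C c d) f (m + 1)) q‖ ^ 2 := by
  have hsub : Function.support (chg (msk (AA W C c d) f) m) ⊆ (pos W C c d (m + 1) : Set ℤ) := by
    intro p hp
    rw [Finset.mem_coe, mem_pos hW C c hd]
    have hp' : chg (msk (AA W C c d) f) m p ≠ 0 := hp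
    unfold chg at hp'
    split_ifs at hp' with hc
    · obtain ⟨i, hi, hne⟩ := hc
      have hi' : (i : ℤ) < 2 ^ (m + 1) := by exact_mod_cast hi
      refine ⟨Or.inr ⟨p + i, by omega, by linarith, ?_⟩, ?_⟩
      · intro hiff
        apply hne
        have hiff' : AA W C c d (m + 1) (p + i) ↔ AA W C c d m (p + i) := hiff
        by_cases h1 : AA W C c d m (p + i)
        · rw [msk_pos f h1, msk_pos f (hiff'.2 h1)]
        · rw [msk_neg f h1, msk_neg f (fun h => h1 (hiff'.1 h))]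
      · by_contra hno
        push Not at hno
        apply hp'
        have : Em (m + 1) (msk (AA W C c d) f (m + 1)) p = 0 := by
          unfold Em
          rw [Finset.sum_eq_zero, smul_zero]
          intro j hj
          have hj' : (j : ℤ) < 2 ^ (m + 1) := by exact_mod_cast Finset.mem_range.1 hj
          exact msk_neg f (hno (p + j) (by omega) (by linarith))
        rw [this, norm_zero]
        norm_num
    · exact absurd rfl hp'
  rw [finsum_eq_sum_of_support_subset _ hsub]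
  refine Finset.sum_le_sum fun q _ => ?_
  unfold chg
  split_ifs
  · exact le_rfl
  · positivity

/-- **L2 + L3**: all differences of all scales against the exit values -/
theorem energy {W : Finset Nd} {I : Nd} (hW : Full W I) (C : ℕ) (c : ℤ) {d : ℤ} (hd : d ≠ 0)
    (f : ℤ → E) :
    ∑ k ∈ range (I.1 + 1), ∑ᶠ q : ℤ, ‖Dm k (msk (AA W C c d) f k) q‖ ^ 2 ≤
      ∑ k ∈ range (I.1 + 1), ∑ q ∈ pos W C c d k, ‖Em k (msk (AA W C c d) f k) q‖ ^ 2 := by
  have h := bes (msk (AA W C c d) f) (msk_support hW C c hd f) (I.1 + 1)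
  have h0 : (0 : ℝ) ≤ ∑ᶠ p : ℤ, ‖Em (I.1 + 1) (msk (AA W C c d) f (I.1 + 1)) p‖ ^ 2 :=
    finsum_nonneg fun p => sq_nonneg _
  have h1 : ∑ᶠ p : ℤ, ‖msk (AA W C c d) f 0 p‖ ^ 2 ≤
      ∑ q ∈ pos W C c d 0, ‖Em 0 (msk (AA W C c d) f 0) q‖ ^ 2 := by
    have hsub : Function.support (fun p => ‖msk (AA W C c d) f 0 p‖ ^ 2) ⊆
        (pos W C c d 0 : Set ℤ) := by
      intro p hp
      rw [Finset.mem_coe, mem_pos hW C c hd]
      refine ⟨Or.inl rfl, p, le_rfl, by norm_num, ?_⟩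
      by_contra hno
      apply hp
      show ‖msk (AA W C c d) f 0 p‖ ^ 2 = 0
      rw [msk_neg f hno, norm_zero]
      norm_num
    rw [finsum_eq_sum_of_support_subset _ hsub]
    refine le_of_eq (Finset.sum_congr rfl fun q _ => ?_)
    unfold Em
    simp
  have h2 : ∑ m ∈ range (I.1 + 1), ∑ᶠ p : ℤ, chg (msk (AA W C c d) f) m p ≤
      ∑ m ∈ range (I.1 + 1), ∑ q ∈ pos W C c d (m + 1),
        ‖Em (m + 1) (msk (AA W C c d) f (m + 1)) q‖ ^ 2 :=
    Finset.sum_le_sum fun m _ => chg_sum_le hW C c hd f m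
  have h3 : pos W C c d (I.1 + 1) = ∅ := by
    rw [Finset.eq_empty_iff_forall_notMem]
    intro q hq
    obtain ⟨_, x, _, _, hx⟩ := (mem_pos hW C c hd _ q).1 hq
    have := alv_level hW (er_self hx)
    omega
  have h4 := Finset.sum_range_succ' (fun k => ∑ q ∈ pos W C c d k,
    ‖Em k (msk (AA W C c d) f k) q‖ ^ 2) (I.1 + 1)
  have h5 := Finset.sum_range_succ (fun k => ∑ q ∈ pos W C c d k,
    ‖Em k (msk (AA W C c d) f k) q‖ ^ 2) (I.1 + 1)
  simp only [h3, Finset.sum_empty, add_zero] at h5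
  linarith

/-- energy of all differences of level `k` -/
noncomputable def DE (W : Finset Nd) (C : ℕ) (c d : ℤ) (f : ℤ → E) (k : ℕ) : ℝ :=
  ∑ᶠ q : ℤ, ‖Dm k (msk (AA W C c d) f k) q‖ ^ 2

/-- exit value -/
noncomputable def EX (W : Finset Nd) (C : ℕ) (c d : ℤ) (f : ℤ → E) (n : ℕ) : ℝ :=
  ∑ k ∈ range (n + 1), ∑ q ∈ pos W C c d k, ‖Em k (msk (AA W C c d) f k) q‖ ^ 2

lemma DE_nonneg (W : Finset Nd) (C : ℕ) (c d : ℤ) (f : ℤ → E) (k : ℕ) : 0 ≤ DE W C c d f k :=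
  finsum_nonneg fun _ => sq_nonneg _

lemma Dm_congr (m : ℕ) (f g : ℤ → E) (p : ℤ)
    (h : ∀ i : ℕ, i < 2 ^ (m + 1) → f (p + (i : ℤ)) = g (p + (i : ℤ))) :
    Dm m f p = Dm m g p := by
  unfold Dm
  congr 1
  exact Finset.sum_congr rfl fun i hi => by rw [h i (Finset.mem_range.1 hi)]

/-- Cauchy-Schwarz for one offset -/
lemma pair_le {W : Finset Nd} {I : Nd} (hW : Full W I) (C : ℕ) (c c' : ℤ) {d d' : ℤ} (hd : d ≠ 0)
    (hd' : d' ≠ 0) (be al : ℤ → E) (k : ℕ) (Q : Finset ℤ) (o : ℤ) :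
    ∑ q ∈ Q, ‖Dm k (msk (AA W C c d) be k) q‖ * ‖Dm k (msk (AA W C c' d') al k) (o - q)‖ ≤
      √(DE W C c d be k) * √(DE W C c' d' al k) := by
  refine (Real.sum_mul_le_sqrt_mul_sqrt _ _ _).trans ?_
  refine mul_le_mul (Real.sqrt_le_sqrt ?_) (Real.sqrt_le_sqrt ?_) (Real.sqrt_nonneg _)
    (Real.sqrt_nonneg _)
  · exact sum_le_finsum (fun q => sq_nonneg _) (Dm_support (msk_support hW C c hd be k) k) Q
  · have h1 : ∑ q ∈ Q, ‖Dm k (msk (AA W C c' d') al k) (o - q)‖ ^ 2 =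
        ∑ q ∈ Q.image (fun q => o - q), ‖Dm k (msk (AA W C c' d') al k) q‖ ^ 2 := by
      rw [Finset.sum_image]
      intro x _ y _ hxy
      have : o - x = o - y := hxy
      linarith
    rw [h1]
    exact sum_le_finsum (fun q => sq_nonneg _) (Dm_support (msk_support hW C c' hd' al k) k) _

lemma dd_ne (i m a b : Fin 4) (h : Dst i m a b) : dd a b ≠ 0 := by
  rcases dd_cases i m a b h with h | h | ⟨h | h, _⟩ | ⟨h | h, _⟩ <;> rw [h] <;> norm_num

lemma dd_abs (i m a b : Fin 4) (h : Dst i m a b) : |dd a b| ≤ 128 := by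
  rcases dd_cases i m a b h with h | h | ⟨h | h, _⟩ | ⟨h | h, _⟩ <;> rw [h] <;> norm_num

lemma adm_iv {m : ℕ} {l x : ℤ} (hx : x ∈ adm m l) : x ∈ iv (m, l) := by
  unfold adm at hx
  unfold iv dI
  rw [Finset.mem_Ico] at hx ⊢
  have h1 : (0 : ℤ) < 2 ^ (m + 1) := by positivity
  constructor <;> linarith [hx.1, hx.2]

/-- one level of the window -/
lemma level_le (i m a b : Fin 4) (h : Dst i m a b) (F : Fin 4 → ℤ → ℂ) {bb : ℤ}
    (hbb : bb = -1 ∨ bb = -7) {W : Finset Nd} {I : Nd} (hW : Full W I) (C : ℕ) (X : Finset Nd)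
    (hX : X ⊆ W) (hXb : ∀ p ∈ X, ¬ Bad W C p) (be al : ℕ → ℤ → E) (Err : ℕ → ℤ → ℤ → ℂ)
    (hK : ∀ r : ℕ, r < (dd a b).natAbs → ∀ z z' : ℤ,
      (sl i - sl a) * r + dd a b * z' ∈ iv I → (sl i - sl b) * r + -dd a b * z ∈ iv I →
      (sl a - sl i) * z + (sl b - sl i) * z' ∈ iv I →
      (sl i - sl m) * r + (sl a - sl m) * z + (sl b - sl m) * z' ∈ iv I →
      Yb i a b F r z * Kk i m a b F r z z' * Ya i a b F r z' =
        inner ℂ (be r z) (al r z') + Err r z z') (k : ℕ) (err : ℕ → ℝ)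
    (hErr : ∀ r : ℕ, r < (dd a b).natAbs → ∀ ui um : Fin (2 ^ k + 2 ^ k), ∀ Q : Finset ℤ,
      (∀ q ∈ Q, ∃ p ∈ X, p.1 = k ∧
        xq i m a b bb (2 ^ k) q r ((ui : ℕ) : ℤ) ((um : ℕ) : ℤ) ∈ adm p.1 p.2) →
      ∑ q ∈ Q, ‖frm (Err r) k q (off bb (2 ^ k) r ((ui : ℕ) : ℤ) ((um : ℕ) : ℤ) - q)‖ ≤ err r) :
    ∑ p ∈ X with p.1 = k, ∑ x ∈ adm p.1 p.2, ‖Lbox (2 ^ p.1) bb F x‖ ≤
      ∑ r ∈ range (dd a b).natAbs,
        (√(DE W C ((sl i - sl b) * r) (-dd a b) (be r) k) *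
          √(DE W C ((sl i - sl a) * r) (dd a b) (al r) k) + err r) := by
  classical
  have hd := dd_ne i m a b h
  set Xk : Finset Nd := X.filter (fun p => p.1 = k) with hXk
  set S : Finset ℤ := Xk.biUnion (fun p => adm p.1 p.2) with hS
  have hdis : (Xk : Set Nd).PairwiseDisjoint (fun p => adm p.1 p.2) := by
    intro p hp q hq hne
    rw [Finset.mem_coe, hXk, Finset.mem_filter] at hp hq
    rw [Function.onFun, Finset.disjoint_left]
    intro y hy hy'
    apply hne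
    have h1 := mem_iv.1 (adm_iv hy)
    have h2 := mem_iv.1 (adm_iv hy')
    simp only at h1 h2
    refine Prod.ext (hp.2.trans hq.2.symm) ?_
    rw [← h1, ← h2, hp.2, hq.2]
  have e1 : ∑ p ∈ Xk, ∑ x ∈ adm p.1 p.2, ‖Lbox (2 ^ p.1) bb F x‖ =
      ∑ x ∈ S, ‖Lbox (2 ^ k) bb F x‖ := by
    rw [hS, Finset.sum_biUnion hdis]
    refine Finset.sum_congr rfl fun p hp => ?_
    rw [hXk, Finset.mem_filter] at hp
    rw [hp.2]
  rw [e1]
  have hfin : {q : ℤ | ∃ ui um : Fin (2 ^ k + 2 ^ k), ∃ r : Fin (dd a b).natAbs,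
      xq i m a b bb (2 ^ k) q ((r : ℕ) : ℤ) ((ui : ℕ) : ℤ) ((um : ℕ) : ℤ) ∈ S}.Finite := by
    simp only [Set.ofPred_exists]
    refine Set.finite_iUnion fun ui => Set.finite_iUnion fun um => Set.finite_iUnion fun r => ?_
    refine S.finite_toSet.preimage (f := fun q => xq i m a b bb (2 ^ k) q ((r : ℕ) : ℤ)
      ((ui : ℕ) : ℤ) ((um : ℕ) : ℤ)) ?_
    intro x _ y _ hxy
    simp only [xq] at hxy
    have : dd a b * x = dd a b * y := by linarith
    exact mul_left_cancel₀ hd this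
  refine (sum_norm_Lbox_le i m a b h F (2 ^ k) bb S hfin.toFinset ?_).trans ?_
  · intro ui um r q hr hq
    rw [Set.Finite.mem_toFinset]
    exact ⟨ui, um, ⟨r, hr⟩, hq⟩
  set B : ℝ := ∑ r ∈ range (dd a b).natAbs,
        (√(DE W C ((sl i - sl b) * r) (-dd a b) (be r) k) *
          √(DE W C ((sl i - sl a) * r) (dd a b) (al r) k) + err r) with hB
  have key : ∀ ui um : Fin (2 ^ k + 2 ^ k), ∑ r ∈ range (dd a b).natAbs, ∑ q ∈ hfin.toFinset,
      (if xq i m a b bb (2 ^ k) q r ((ui : ℕ) : ℤ) ((um : ℕ) : ℤ) ∈ S then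
        ‖br i m a b F (2 ^ k) r q (off bb (2 ^ k) r ((ui : ℕ) : ℤ) ((um : ℕ) : ℤ) - q)‖ else 0) ≤
      B := by
    intro ui um
    rw [hB]
    refine Finset.sum_le_sum fun r hr => ?_
    rw [← Finset.sum_filter]
    set Q := hfin.toFinset.filter (fun q =>
      xq i m a b bb (2 ^ k) q r ((ui : ℕ) : ℤ) ((um : ℕ) : ℤ) ∈ S) with hQ
    have hQm : ∀ q ∈ Q, ∃ p ∈ X, p.1 = k ∧
        xq i m a b bb (2 ^ k) q r ((ui : ℕ) : ℤ) ((um : ℕ) : ℤ) ∈ adm p.1 p.2 := by
      intro q hq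
      rw [hQ, Finset.mem_filter] at hq
      have hq2 := hq.2
      rw [hS, Finset.mem_biUnion] at hq2
      obtain ⟨p, hp, hpx⟩ := hq2
      rw [hXk, Finset.mem_filter] at hp
      exact ⟨p, hp.1, hp.2, hpx⟩
    have hterm : ∀ q ∈ Q,
        ‖br i m a b F (2 ^ k) r q (off bb (2 ^ k) r ((ui : ℕ) : ℤ) ((um : ℕ) : ℤ) - q)‖ ≤
        ‖Dm k (msk (AA W C ((sl i - sl b) * r) (-dd a b)) (be r) k) q‖ *
          ‖Dm k (msk (AA W C ((sl i - sl a) * r) (dd a b)) (al r) k)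
            (off bb (2 ^ k) r ((ui : ℕ) : ℤ) ((um : ℕ) : ℤ) - q)‖ +
        ‖frm (Err r) k q (off bb (2 ^ k) r ((ui : ℕ) : ℤ) ((um : ℕ) : ℤ) - q)‖ := by
      intro q hq
      obtain ⟨p, hpX, hpk, hpx⟩ := hQm q hq
      subst hpk
      have hsh := fun u v hu hv => shadows i m a b h hbb hpx r q ui um rfl u v hu hv
      have hiv : ∀ y ∈ iv p, y ∈ iv I := fun y hy => hW.reg.1 p (hX hpX) hy
      rw [br_frm]
      rw [frm_congr _ (fun z z' => inner ℂ (be r z) (al r z') + Err r z z') p.1 q _ (by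
        intro u v hu hv
        obtain ⟨s1, s2, s3, s4⟩ := hsh u v hu hv
        exact hK r (Finset.mem_range.1 hr) _ _ (hiv _ s1) (hiv _ s2) (hiv _ s3) (hiv _ s4))]
      rw [frm_add, frm_inner]
      refine (norm_add_le _ _).trans (add_le_add_left ?_ _)
      have d1 : Dm p.1 (be r) q =
          Dm p.1 (msk (AA W C ((sl i - sl b) * r) (-dd a b)) (be r) p.1) q := by
        refine Dm_congr _ _ _ _ fun u hu => ?_
        obtain ⟨s1, s2, s3, s4⟩ := hsh u 0 hu (by positivity)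
        rw [msk_pos]
        exact er_of_not_bad (hXb p hpX) s2
      have d2 : Dm p.1 (al r) (off bb (2 ^ p.1) r ((ui : ℕ) : ℤ) ((um : ℕ) : ℤ) - q) =
          Dm p.1 (msk (AA W C ((sl i - sl a) * r) (dd a b)) (al r) p.1)
            (off bb (2 ^ p.1) r ((ui : ℕ) : ℤ) ((um : ℕ) : ℤ) - q) := by
        refine Dm_congr _ _ _ _ fun v hv => ?_
        obtain ⟨s1, s2, s3, s4⟩ := hsh 0 v (by positivity) hv
        rw [msk_pos]
        exact er_of_not_bad (hXb p hpX) s1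
      rw [d1, d2]
      exact norm_inner_le_norm _ _
    refine (Finset.sum_le_sum hterm).trans ?_
    rw [Finset.sum_add_distrib]
    refine add_le_add ?_ (hErr r (Finset.mem_range.1 hr) ui um Q hQm)
    exact pair_le hW C _ _ (neg_ne_zero.2 hd) hd (be r) (al r) k Q _
  have hN : ((2 ^ k : ℕ) : ℝ) + ((2 ^ k : ℕ) : ℝ) = ((2 ^ k + 2 ^ k : ℕ) : ℝ) := by push_cast; ring
  calc _ ≤ (1 / (((2 ^ k : ℕ) : ℝ) + ((2 ^ k : ℕ) : ℝ)) ^ 2) *
        ∑ ui : Fin (2 ^ k + 2 ^ k), ∑ um : Fin (2 ^ k + 2 ^ k), B := by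
        refine mul_le_mul_of_nonneg_left ?_ (by positivity)
        exact Finset.sum_le_sum fun ui _ => Finset.sum_le_sum fun um _ => key ui um
    _ = B := by
        rw [hN]
        simp only [Finset.sum_const, Finset.card_univ, Fintype.card_fin, nsmul_eq_mul]
        have : ((2 ^ k + 2 ^ k : ℕ) : ℝ) ≠ 0 := by positivity
        field_simp
    _ ≤ B := le_rfl

/-- **COMPOSITION** (doc 2539 (2), (3), (5)) -/
theorem window_le (i m a b : Fin 4) (h : Dst i m a b) (F : Fin 4 → ℤ → ℂ) {bb : ℤ}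
    (hbb : bb = -1 ∨ bb = -7) {W : Finset Nd} {I : Nd} (hW : Full W I) (C : ℕ) (X : Finset Nd)
    (hX : X ⊆ W) (hXb : ∀ p ∈ X, ¬ Bad W C p) (be al : ℕ → ℤ → E) (Err : ℕ → ℤ → ℤ → ℂ)
    (hK : ∀ r : ℕ, r < (dd a b).natAbs → ∀ z z' : ℤ,
      (sl i - sl a) * r + dd a b * z' ∈ iv I → (sl i - sl b) * r + -dd a b * z ∈ iv I →
      (sl a - sl i) * z + (sl b - sl i) * z' ∈ iv I →
      (sl i - sl m) * r + (sl a - sl m) * z + (sl b - sl m) * z' ∈ iv I →
      Yb i a b F r z * Kk i m a b F r z z' * Ya i a b F r z' =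
        inner ℂ (be r z) (al r z') + Err r z z') (err : ℕ → ℕ → ℝ)
    (hErr : ∀ k ≤ I.1, ∀ r : ℕ, r < (dd a b).natAbs → ∀ ui um : Fin (2 ^ k + 2 ^ k),
      ∀ Q : Finset ℤ, (∀ q ∈ Q, ∃ p ∈ X, p.1 = k ∧
        xq i m a b bb (2 ^ k) q r ((ui : ℕ) : ℤ) ((um : ℕ) : ℤ) ∈ adm p.1 p.2) →
      ∑ q ∈ Q, ‖frm (Err r) k q (off bb (2 ^ k) r ((ui : ℕ) : ℤ) ((um : ℕ) : ℤ) - q)‖ ≤ err k r) :
    ∑ p ∈ X, ∑ x ∈ adm p.1 p.2, ‖Lbox (2 ^ p.1) bb F x‖ ≤
      ∑ r ∈ range (dd a b).natAbs,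
        (√(EX W C ((sl i - sl b) * r) (-dd a b) (be r) I.1) *
          √(EX W C ((sl i - sl a) * r) (dd a b) (al r) I.1) +
          ∑ k ∈ range (I.1 + 1), err k r) := by
  classical
  have hd := dd_ne i m a b h
  rw [← Finset.sum_fiberwise_of_maps_to (s := X) (t := range (I.1 + 1)) (g := fun p : Nd => p.1)
    (fun p hp => by
      rw [Finset.mem_range]
      have := Qe292.iv_level (hW.reg.1 p (hX hp))
      omega)]
  refine (Finset.sum_le_sum fun k hk => level_le i m a b h F hbb hW C X hX hXb be al Err hK k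
    (err k) (fun r hr ui um Q hQ => hErr k (by have := Finset.mem_range.1 hk; omega) r hr ui um Q hQ)).trans ?_
  rw [Finset.sum_comm]
  refine Finset.sum_le_sum fun r _ => ?_
  rw [Finset.sum_add_distrib]
  refine add_le_add_left ?_ _
  refine (Real.sum_sqrt_mul_sqrt_le _ (fun k => DE_nonneg _ _ _ _ _ k)
    (fun k => DE_nonneg _ _ _ _ _ k)).trans ?_
  refine mul_le_mul (Real.sqrt_le_sqrt ?_) (Real.sqrt_le_sqrt ?_) (Real.sqrt_nonneg _)
    (Real.sqrt_nonneg _)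
  · exact energy hW C _ (neg_ne_zero.2 hd) (be r)
  · exact energy hW C _ hd (al r)

/-- exact factorisation (no error) -/
theorem window_le' (i m a b : Fin 4) (h : Dst i m a b) (F : Fin 4 → ℤ → ℂ) {bb : ℤ}
    (hbb : bb = -1 ∨ bb = -7) {W : Finset Nd} {I : Nd} (hW : Full W I) (C : ℕ) (X : Finset Nd)
    (hX : X ⊆ W) (hXb : ∀ p ∈ X, ¬ Bad W C p) (be al : ℕ → ℤ → E)
    (hK : ∀ r : ℕ, r < (dd a b).natAbs → ∀ z z' : ℤ,
      (sl i - sl a) * r + dd a b * z' ∈ iv I → (sl i - sl b) * r + -dd a b * z ∈ iv I →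
      (sl a - sl i) * z + (sl b - sl i) * z' ∈ iv I →
      (sl i - sl m) * r + (sl a - sl m) * z + (sl b - sl m) * z' ∈ iv I →
      Yb i a b F r z * Kk i m a b F r z z' * Ya i a b F r z' = inner ℂ (be r z) (al r z')) :
    ∑ p ∈ X, ∑ x ∈ adm p.1 p.2, ‖Lbox (2 ^ p.1) bb F x‖ ≤
      ∑ r ∈ range (dd a b).natAbs,
        √(EX W C ((sl i - sl b) * r) (-dd a b) (be r) I.1) *
          √(EX W C ((sl i - sl a) * r) (dd a b) (al r) I.1) := by
  have := window_le i m a b h F hbb hW C X hX hXb be al (fun _ _ _ => 0)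
    (fun r hr z z' h1 h2 h3 h4 => by rw [hK r hr z z' h1 h2 h3 h4, add_zero]) (fun _ _ => 0)
    (fun k _ r _ ui um Q _ => by
      refine le_of_eq (Finset.sum_eq_zero fun q _ => ?_)
      unfold frm
      simp)
  simpa using this

end Crest.Agent.R079.Cmp408
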