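import Crest.Agent.R079.TS0_903
import Crest.Agent.R079.Qc_406

/-! R079 (helper813): cutting a full region at a scale `m0` (242's remark 26907: the labelled words
hold only for nodes with `m0 ≤ p.1`; the `m0` small scales are paid by the one-node bound). -/

set_option autoImplicit false

namespace Crest.Agent.R079.Cut813

open Finset Crest.Agent.R079.Grid Crest.Agent.R079.Growth Crest.Agent.R079.QRed

/-- the part of `W` above scale `m0` -/
def up (W : Finset Nd) (m0 : ℕ) : Finset Nd := W.filter (fun p => m0 ≤ p.1)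

/-- the part of `W` below scale `m0` -/
def lo (W : Finset Nd) (m0 : ℕ) : Finset Nd := W.filter (fun p => p.1 < m0)

variable {W : Finset Nd} {I : Nd} {m0 : ℕ}

theorem mem_up {p : Nd} : p ∈ up W m0 ↔ p ∈ W ∧ m0 ≤ p.1 := Finset.mem_filter

theorem mem_lo {p : Nd} : p ∈ lo W m0 ↔ p ∈ W ∧ p.1 < m0 := Finset.mem_filter

theorem up_sub : up W m0 ⊆ W := Finset.filter_subset _ _

theorem lo_sub : lo W m0 ⊆ W := Finset.filter_subset _ _

/-- the upper part is a full region -/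
theorem full_up (hW : Full W I) (hm : m0 ≤ I.1) : Full (up W m0) I := by
  refine ⟨⟨fun p hp => hW.reg.1 p (up_sub hp), fun p hp q h1 h2 => ?_⟩,
    mem_up.2 ⟨hW.top, hm⟩, fun m l h => ?_⟩
  · have hp' := mem_up.1 hp
    refine mem_up.2 ⟨hW.reg.2 p hp'.1 q h1 h2, hp'.2.trans ?_⟩
    exact Qe292.iv_level h1
  · have h' := mem_up.1 h
    have hb := hW.bin m l h'.1
    rw [mem_up, mem_up, hb]

/-- splitting the total form -/
theorem TR_split (bb : ℤ) (ε : ℕ → ℤ → ℂ) (F : Fin 4 → Fn) :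
    TR bb ε W F = TR bb ε (up W m0) F + TR bb ε (lo W m0) F := by
  unfold TR
  have h := Finset.sum_filter_add_sum_filter_not W (fun p : Nd => m0 ≤ p.1)
    (fun p => TI bb ε F p)
  have e : lo W m0 = W.filter (fun p => ¬ m0 ≤ p.1) := by
    unfold lo
    exact Finset.filter_congr fun p _ => by omega
  rw [e]
  exact h.symm

/-- `m0` scales, each of total length `≤ len I` -/
theorem sum_len_lo (hW : Full W I) : ∑ p ∈ lo W m0, len p ≤ m0 * len I := by
  have h1 : ∑ p ∈ lo W m0, len p = ∑ m ∈ Finset.range m0, ∑ p ∈ W.filter (fun p => p.1 = m), len p := by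
    have h2 := Finset.sum_fiberwise_of_maps_to (s := lo W m0) (t := Finset.range m0)
      (g := fun p : Nd => p.1) (fun p hp => Finset.mem_range.2 (mem_lo.1 hp).2)
      (fun p => len p)
    rw [← h2]
    refine Finset.sum_congr rfl fun m hm => Finset.sum_congr ?_ fun _ _ => rfl
    ext p
    have := Finset.mem_range.1 hm
    simp only [mem_lo, Finset.mem_filter]
    constructor
    · rintro ⟨⟨a, _⟩, c⟩
      exact ⟨a, c⟩
    · rintro ⟨a, c⟩
      exact ⟨⟨a, by omega⟩, c⟩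
  rw [h1]
  calc ∑ m ∈ Finset.range m0, ∑ p ∈ W.filter (fun p => p.1 = m), len p
      ≤ ∑ _m ∈ Finset.range m0, len I := Finset.sum_le_sum fun m _ => Qc406.level_sum W I hW.reg.1 m
    _ = m0 * len I := by rw [Finset.sum_const, Finset.card_range, nsmul_eq_mul]

/-- small scales: `m0` times the one-node bound -/
theorem norm_TR_lo (hW : Full W I) {bb : ℤ} {ε : ℕ → ℤ → ℂ} {F : Fin 4 → Fn} {g : ℝ} (hg : 0 ≤ g)
    (h : ∀ p ∈ W, p.1 < m0 → ‖TI bb ε F p‖ ≤ g * len p) :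
    ‖TR bb ε (lo W m0) F‖ ≤ m0 * g * len I := by
  unfold TR
  calc ‖∑ p ∈ lo W m0, TI bb ε F p‖ ≤ ∑ p ∈ lo W m0, ‖TI bb ε F p‖ := norm_sum_le _ _
    _ ≤ ∑ p ∈ lo W m0, g * len p :=
        Finset.sum_le_sum fun p hp => h p (mem_lo.1 hp).1 (mem_lo.1 hp).2
    _ = g * ∑ p ∈ lo W m0, len p := by rw [Finset.mul_sum]
    _ ≤ g * (m0 * len I) := mul_le_mul_of_nonneg_left (sum_len_lo hW) hg
    _ = m0 * g * len I := by ring

/-- **CUT**: a bound for the region above `m0` + the one-node bound below `m0` -/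
theorem norm_TR_cut (hW : Full W I) {bb : ℤ} {ε : ℕ → ℤ → ℂ} {F : Fin 4 → Fn} {g A : ℝ}
    (hg : 0 ≤ g) (hA : 0 ≤ A) (h : ∀ p ∈ W, p.1 < m0 → ‖TI bb ε F p‖ ≤ g * len p)
    (hup : m0 ≤ I.1 → ‖TR bb ε (up W m0) F‖ ≤ A * len I) :
    ‖TR bb ε W F‖ ≤ (A + m0 * g) * len I := by
  rw [TR_split (m0 := m0)]
  have h0 : 0 < len I := by unfold len; positivity
  have h1 : ‖TR bb ε (up W m0) F‖ ≤ A * len I := by
    by_cases hm : m0 ≤ I.1
    · exact hup hm
    · have e : up W m0 = ∅ := by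
        refine Finset.eq_empty_of_forall_notMem fun p hp => ?_
        have hp' := mem_up.1 hp
        have := Qe292.iv_level (hW.reg.1 p hp'.1)
        omega
      rw [e]
      simp only [TR, Finset.sum_empty, norm_zero]
      exact mul_nonneg hA h0.le
  calc ‖TR bb ε (up W m0) F + TR bb ε (lo W m0) F‖
      ≤ ‖TR bb ε (up W m0) F‖ + ‖TR bb ε (lo W m0) F‖ := norm_add_le _ _
    _ ≤ A * len I + m0 * g * len I := add_le_add h1 (norm_TR_lo hW hg h)
    _ = (A + m0 * g) * len I := by ring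

/-- number of small scales: `m0 = ⌈C log₂ (1/t)⌉ ≤ K t^(-d)` -/
theorem m0_le {C d : ℝ} (hC : 0 ≤ C) (hd : 0 < d) : ∃ K : ℝ, 0 ≤ K ∧ ∀ t : ℝ, 0 < t → t ≤ 1 →
    ((⌈C * Real.logb 2 t⁻¹⌉₊ : ℕ) : ℝ) ≤ K * t ^ (-d) ∧
      t ^ (-C) ≤ (2 : ℝ) ^ (⌈C * Real.logb 2 t⁻¹⌉₊ : ℕ) := by
  refine ⟨C / (d * Real.log 2) + 1, by positivity, fun t ht ht1 => ⟨?_, ?_⟩⟩
  · have h1 : 1 ≤ t⁻¹ := (one_le_inv₀ ht).2 ht1
    have hl : 0 ≤ Real.log t⁻¹ := Real.log_nonneg h1
    have hL2 : 0 < Real.log 2 := Real.log_pos (by norm_num)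
    have hb : 0 ≤ C * Real.logb 2 t⁻¹ := mul_nonneg hC (by
      unfold Real.logb
      exact div_nonneg hl hL2.le)
    have h2 : ((⌈C * Real.logb 2 t⁻¹⌉₊ : ℕ) : ℝ) < C * Real.logb 2 t⁻¹ + 1 := Nat.ceil_lt_add_one hb
    have h3 : Real.log t⁻¹ ≤ t⁻¹ ^ d / d := Real.log_le_rpow_div (by positivity) hd
    have h4 : t⁻¹ ^ d = t ^ (-d) := by
      rw [Real.rpow_neg ht.le, Real.inv_rpow ht.le]
    have h5 : 1 ≤ t ^ (-d) := by
      rw [← h4]
      exact Real.one_le_rpow h1 hd.le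
    have h6 : C * Real.logb 2 t⁻¹ ≤ C / (d * Real.log 2) * t ^ (-d) := by
      unfold Real.logb
      rw [h4] at h3
      calc C * (Real.log t⁻¹ / Real.log 2) ≤ C * ((t ^ (-d) / d) / Real.log 2) := by
            refine mul_le_mul_of_nonneg_left (div_le_div_of_nonneg_right h3 hL2.le) hC
        _ = C / (d * Real.log 2) * t ^ (-d) := by
            field_simp
    calc ((⌈C * Real.logb 2 t⁻¹⌉₊ : ℕ) : ℝ) ≤ C * Real.logb 2 t⁻¹ + 1 := h2.le
      _ ≤ C / (d * Real.log 2) * t ^ (-d) + 1 * t ^ (-d) := by linarith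
      _ = (C / (d * Real.log 2) + 1) * t ^ (-d) := by ring
  · have h1 : t ^ (-C) = (2 : ℝ) ^ (C * Real.logb 2 t⁻¹) := by
      rw [Real.rpow_neg ht.le, ← Real.inv_rpow ht.le]
      rw [mul_comm, Real.rpow_mul (by norm_num), Real.rpow_logb (by norm_num) (by norm_num)
        (by positivity)]
    rw [h1, ← Real.rpow_natCast]
    exact Real.rpow_le_rpow_of_exponent_le (by norm_num) (Nat.le_ceil _)

end Crest.Agent.R079.Cut813
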