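import Crest.Agent.R079.GLA_110

/-! R079, Step I (doc 2541 / 59's 28347), helper661: A RAGGED WINDOW IS A DIFFERENCE OF CYLINDERS OF
UNIFORM DEPTH.  `V` full window with top `K` inside the full region `R`, `d` = common exit level:

`∑ inner nodes of V = ∑ (nodes of R below K of level ≥ d) - ∑_{p leaf of V} ∑ (the same below p)`.

So a bound for words on the sets `Wf R p d` (uniform leaves, `cornerL`) gives the bound on every window
(`norm_inner_le`), the price being the Cauchy-Schwarz sum over the DISJOINT leaves `p`. -/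

set_option autoImplicit false

namespace Crest.Agent.R079.Cyl661

open Finset Crest.Agent.R079.Grid Crest.Agent.R079.Growth Crest.Agent.R079.QRed
  Crest.Agent.R079.TWin Crest.Agent.R079.Qe292 Crest.Agent.R079.Qh249

/-- a proper sub-node of `(m+1,l)` lies below one of the two children -/
lemma below_child {q : Nd} {m : ℕ} {l : ℤ} (h : iv q ⊆ iv (m + 1, l)) :
    q = (m + 1, l) ∨ iv q ⊆ iv (m, 2 * l) ∨ iv q ⊆ iv (m, 2 * l + 1) := by
  obtain ⟨j, hj⟩ := Qe292.iv_sub_iff.1 h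
  rcases j with _ | j
  · left
    rw [hj]
    exact Prod.ext (by simp) (by simp)
  · right
    have h1 : m = q.1 + j := by
      have := congrArg Prod.fst hj
      simp only at this
      omega
    have h2 : l = q.2 / 2 ^ (j + 1) := congrArg Prod.snd hj
    have h3 : l = (q.2 / 2 ^ j) / 2 := by
      rw [h2, pow_succ, Int.ediv_ediv_of_nonneg (by positivity)]
    have h4 : q.2 / 2 ^ j = 2 * l ∨ q.2 / 2 ^ j = 2 * l + 1 := by omega
    rcases h4 with h4 | h4
    · left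
      exact Qe292.iv_sub_iff.2 ⟨j, Prod.ext h1 h4.symm⟩
    · right
      exact Qe292.iv_sub_iff.2 ⟨j, Prod.ext h1 h4.symm⟩

/-- every node below the top of a full window is an inner node or lies below a leaf -/
theorem inner_or_leaf {W : Finset Nd} {I : Nd} (hW : Full W I) :
    ∀ p ∈ W, ∀ q : Nd, iv q ⊆ iv p → q ∈ W \ lf W ∨ ∃ L ∈ lf W, iv q ⊆ iv L := by
  refine full_ind hW (fun p hp q hq => Or.inr ⟨p, hp, hq⟩) ?_
  intro m l hp hnl h0 h1 ih0 ih1 q hq
  rcases below_child hq with rfl | h | h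
  · exact Or.inl (Finset.mem_sdiff.2 ⟨hp, hnl⟩)
  · exact ih0 q h
  · exact ih1 q h

/-- an inner node is not below a leaf -/
lemma inner_not_below {W : Finset Nd} {q L : Nd} (hq : q ∈ W \ lf W) (hL : L ∈ lf W) :
    ¬ iv q ⊆ iv L := by
  intro h
  obtain ⟨h1, h2⟩ := Finset.mem_sdiff.1 hq
  rw [(mem_lf.1 hL).2 q h1 h] at h2
  exact h2 hL

/-- the leaves are pairwise disjoint -/
lemma leaf_unique {W : Finset Nd} {I : Nd} (hW : Full W I) {q L L' : Nd} (hL : L ∈ lf W)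
    (hL' : L' ∈ lf W) (h : iv q ⊆ iv L) (h' : iv q ⊆ iv L') : L = L' := by
  obtain ⟨y, hy⟩ := iv_nonempty q
  exact (mem_lf.1 hL').2 L (mem_lf.1 hL).1 (leaf_below hW hL (mem_lf.1 hL').1 (h hy) (h' hy))

open Classical in
/-- **inner nodes of a window = cylinder below the top minus the cylinders below the leaves**,
for any set `A` of nodes containing the inner nodes -/
theorem sum_filter_split {E : Type*} [AddCommMonoid E] {W : Finset Nd} {K : Nd} (hW : Full W K)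
    (A : Finset Nd) (hA : W \ lf W ⊆ A) (g : Nd → E) :
    ∑ q ∈ A.filter (fun q => iv q ⊆ iv K), g q =
      ∑ q ∈ W \ lf W, g q + ∑ L ∈ lf W, ∑ q ∈ A.filter (fun q => iv q ⊆ iv L), g q := by
  have hd : ∀ L ∈ lf W, ∀ L' ∈ lf W, L ≠ L' →
      Disjoint (A.filter (fun q => iv q ⊆ iv L)) (A.filter (fun q => iv q ⊆ iv L')) := by
    intro L hL L' hL' hne
    rw [Finset.disjoint_left]
    intro q hq hq'
    exact hne (leaf_unique hW hL hL' (Finset.mem_filter.1 hq).2 (Finset.mem_filter.1 hq').2)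
  rw [← Finset.sum_biUnion (fun L hL L' hL' hne => hd L (by exact_mod_cast hL) L'
    (by exact_mod_cast hL') hne)]
  have hdd : Disjoint (W \ lf W) ((lf W).biUnion fun L => A.filter (fun q => iv q ⊆ iv L)) := by
    rw [Finset.disjoint_left]
    intro q hq hq'
    obtain ⟨L, hL, hqL⟩ := Finset.mem_biUnion.1 hq'
    exact inner_not_below hq hL (Finset.mem_filter.1 hqL).2
  rw [← Finset.sum_union hdd]
  refine Finset.sum_congr ?_ fun _ _ => rfl
  ext q
  rw [Finset.mem_union, Finset.mem_biUnion, Finset.mem_filter]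
  constructor
  · rintro ⟨h1, h2⟩
    rcases inner_or_leaf hW K hW.top q h2 with h | ⟨L, hL, h⟩
    · exact Or.inl h
    · exact Or.inr ⟨L, hL, Finset.mem_filter.2 ⟨h1, h⟩⟩
  · rintro (h | ⟨L, hL, h⟩)
    · exact ⟨hA h, hW.reg.1 q (Finset.mem_sdiff.1 h).1⟩
    · exact ⟨(Finset.mem_filter.1 h).1,
        (Finset.mem_filter.1 h).2.trans (hW.reg.1 L (mem_lf.1 hL).1)⟩

/-- **`T_u = T_cyl(K) - ∑_p T_cyl(p)`** for the look-ahead cylinders `Wf R · d` of GLA_110 -/
theorem inner_eq {E : Type*} [AddCommGroup E] {R V : Finset Nd} {J K : Nd} {d : ℕ}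
    (_hR : Full R J) (hV : Full V K) (hVW : V ⊆ GLA110.Wf R K d) (g : Nd → E) :
    ∑ q ∈ V \ lf V, g q =
      ∑ q ∈ GLA110.Wf R K d, g q - ∑ L ∈ lf V, ∑ q ∈ GLA110.Wf R L d, g q := by
  classical
  have h := sum_filter_split hV (GLA110.Wf R K d)
    (fun q hq => hVW (Finset.mem_sdiff.1 hq).1) g
  have e1 : (GLA110.Wf R K d).filter (fun q => iv q ⊆ iv K) = GLA110.Wf R K d :=
    Finset.filter_true_of_mem fun q hq => (GLA110.mem_Wf.1 hq).2.1
  have e2 : ∀ L ∈ lf V, (GLA110.Wf R K d).filter (fun q => iv q ⊆ iv L) = GLA110.Wf R L d := by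
    intro L hL
    have hLK := hV.reg.1 L (mem_lf.1 hL).1
    ext q
    rw [Finset.mem_filter, GLA110.mem_Wf, GLA110.mem_Wf]
    constructor
    · rintro ⟨⟨h1, _, h3⟩, h4⟩
      exact ⟨h1, h4, h3⟩
    · rintro ⟨h1, h2, h3⟩
      exact ⟨⟨h1, h2.trans hLK, h3⟩, h2⟩
  have e3 : ∑ L ∈ lf V, ∑ q ∈ (GLA110.Wf R K d).filter (fun q => iv q ⊆ iv L), g q =
      ∑ L ∈ lf V, ∑ q ∈ GLA110.Wf R L d, g q :=
    Finset.sum_congr rfl fun L hL => by rw [e2 L hL]
  rw [e1, e3] at h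
  rw [h, add_sub_cancel_right]

open Classical in
/-- nodes of the full dyadic cylinder below `P`, levels `≥ d` -/
noncomputable def cyl (P : Nd) (d : ℕ) : Finset Nd :=
  (Finset.range (P.1 + 1)).biUnion fun m =>
    ((Finset.Ico (P.2 * 2 ^ (P.1 - m)) ((P.2 + 1) * 2 ^ (P.1 - m))).image fun l => (m, l)).filter
      fun q => iv q ⊆ iv P ∧ d ≤ q.1

lemma mem_cyl {P q : Nd} {d : ℕ} : q ∈ cyl P d ↔ iv q ⊆ iv P ∧ d ≤ q.1 := by
  classical
  unfold cyl
  rw [Finset.mem_biUnion]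
  constructor
  · rintro ⟨m, _, h⟩
    exact (Finset.mem_filter.1 h).2
  · rintro ⟨h1, h2⟩
    obtain ⟨j, hj⟩ := Qe292.iv_sub_iff.1 h1
    have hP1 : P.1 = q.1 + j := congrArg Prod.fst hj
    have hP2 : P.2 = q.2 / 2 ^ j := congrArg Prod.snd hj
    refine ⟨q.1, Finset.mem_range.2 (by omega), Finset.mem_filter.2 ⟨?_, h1, h2⟩⟩
    refine Finset.mem_image.2 ⟨q.2, ?_, rfl⟩
    have e : P.1 - q.1 = j := by omega
    have hp : (0 : ℤ) < 2 ^ j := by positivity
    rw [e, Finset.mem_Ico, hP2]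
    constructor
    · exact Int.ediv_mul_le _ hp.ne'
    · exact Int.lt_ediv_add_one_mul_self _ hp

/-- the same with full dyadic cylinders (masked letters) -/
theorem inner_eq_cyl {E : Type*} [AddCommGroup E] {V : Finset Nd} {K : Nd} {d : ℕ}
    (hV : Full V K) (hd : ∀ p ∈ V, d ≤ p.1) (g : Nd → E) :
    ∑ q ∈ V \ lf V, g q = ∑ q ∈ cyl K d, g q - ∑ L ∈ lf V, ∑ q ∈ cyl L d, g q := by
  classical
  have h := sum_filter_split hV (cyl K d)
    (fun q hq => mem_cyl.2 ⟨hV.reg.1 q (Finset.mem_sdiff.1 hq).1,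
      hd q (Finset.mem_sdiff.1 hq).1⟩) g
  have e1 : (cyl K d).filter (fun q => iv q ⊆ iv K) = cyl K d :=
    Finset.filter_true_of_mem fun q hq => (mem_cyl.1 hq).1
  have e2 : ∀ L ∈ lf V, (cyl K d).filter (fun q => iv q ⊆ iv L) = cyl L d := by
    intro L hL
    have hLK := hV.reg.1 L (mem_lf.1 hL).1
    ext q
    rw [Finset.mem_filter, mem_cyl, mem_cyl]
    constructor
    · rintro ⟨⟨_, h3⟩, h4⟩
      exact ⟨h4, h3⟩
    · rintro ⟨h2, h3⟩
      exact ⟨⟨h2.trans hLK, h3⟩, h2⟩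
  have e3 : ∑ L ∈ lf V, ∑ q ∈ (cyl K d).filter (fun q => iv q ⊆ iv L), g q =
      ∑ L ∈ lf V, ∑ q ∈ cyl L d, g q :=
    Finset.sum_congr rfl fun L hL => by rw [e2 L hL]
  rw [e1, e3] at h
  rw [h, add_sub_cancel_right]

/-- lengths of the leaves add up to the length of the top -/
theorem sum_len_leaf {V : Finset Nd} {K : Nd} (hV : Full V K) :
    ∑ L ∈ lf V, len L ≤ len K := by
  have key : ∀ p ∈ V, SL V p (fun _ => 1) = len p := by
    refine full_ind hV (fun p hp => by rw [SL_leaf hp]; ring) ?_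
    intro m l hp hnl h0 h1 ih0 ih1
    rw [SL_node hV hnl h0 h1, ih0, ih1]
    unfold len
    push_cast
    ring
  have h := key K hV.top
  unfold SL at h
  rw [← h]
  refine Finset.sum_le_sum_of_subset_of_nonneg (fun L hL => Finset.mem_filter.2
    ⟨hL, hV.reg.1 L (mem_lf.1 hL).1⟩) (fun L _ _ => by
      have := Growth.len_pos L
      positivity) |>.trans' (le_of_eq ?_)
  exact Finset.sum_congr rfl fun L _ => by ring

/-- **window bound from cylinder bounds**: `‖T_cyl(p)‖ ≤ N √(a p) √(b p)` with `a`, `b` (energies of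
the two `S_2` letters, NOT normalised) superadditive over the leaves gives `‖T_u‖ ≤ 2 N √a √b` -/
theorem norm_inner_le {R V : Finset Nd} {J K : Nd} {d : ℕ} (hR : Full R J) (hV : Full V K)
    (hVW : V ⊆ GLA110.Wf R K d) (g : Nd → ℂ) (a b : Nd → ℝ) (N : ℝ) (hN : 0 ≤ N)
    (ha : ∀ p, 0 ≤ a p) (hb : ∀ p, 0 ≤ b p) (hasum : ∑ L ∈ lf V, a L ≤ a K)
    (hbsum : ∑ L ∈ lf V, b L ≤ b K)
    (hK : ‖∑ q ∈ GLA110.Wf R K d, g q‖ ≤ N * (Real.sqrt (a K) * Real.sqrt (b K)))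
    (hL : ∀ L ∈ lf V, ‖∑ q ∈ GLA110.Wf R L d, g q‖ ≤ N * (Real.sqrt (a L) * Real.sqrt (b L))) :
    ‖∑ q ∈ V \ lf V, g q‖ ≤ 2 * N * (Real.sqrt (a K) * Real.sqrt (b K)) := by
  rw [inner_eq hR hV hVW g]
  have h1 : ‖∑ L ∈ lf V, ∑ q ∈ GLA110.Wf R L d, g q‖ ≤
      N * ∑ L ∈ lf V, Real.sqrt (a L) * Real.sqrt (b L) := by
    rw [Finset.mul_sum]
    exact (norm_sum_le _ _).trans (Finset.sum_le_sum hL)
  have h2 : ∑ L ∈ lf V, Real.sqrt (a L) * Real.sqrt (b L) ≤
      Real.sqrt (a K) * Real.sqrt (b K) :=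
    (Real.sum_sqrt_mul_sqrt_le (lf V) ha hb).trans
      (mul_le_mul (Real.sqrt_le_sqrt hasum) (Real.sqrt_le_sqrt hbsum) (Real.sqrt_nonneg _)
        (Real.sqrt_nonneg _))
  have h3 := mul_le_mul_of_nonneg_left h2 hN
  calc _ ≤ ‖∑ q ∈ GLA110.Wf R K d, g q‖ + ‖∑ L ∈ lf V, ∑ q ∈ GLA110.Wf R L d, g q‖ :=
        norm_sub_le _ _
    _ ≤ _ := by linarith

/-- masses over the disjoint leaves add up -/
theorem sum_mass_leaf {V : Finset Nd} {K : Nd} (hV : Full V K) (f : ℤ → ℝ) (hf : ∀ y, 0 ≤ f y) :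
    ∑ L ∈ lf V, ∑ y ∈ iv L, f y ≤ ∑ y ∈ iv K, f y := by
  classical
  have hd : ∀ L ∈ lf V, ∀ L' ∈ lf V, L ≠ L' → Disjoint (iv L) (iv L') := by
    intro L hL L' hL' hne
    rw [Finset.disjoint_left]
    intro y hy hy'
    exact hne ((mem_lf.1 hL').2 L (mem_lf.1 hL).1 (leaf_below hV hL (mem_lf.1 hL').1 hy hy'))
  rw [← Finset.sum_biUnion (fun L hL L' hL' hne => hd L (by exact_mod_cast hL) L'
    (by exact_mod_cast hL') hne)]
  refine Finset.sum_le_sum_of_subset_of_nonneg ?_ fun y _ _ => hf y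
  intro y hy
  obtain ⟨L, hL, hy⟩ := Finset.mem_biUnion.1 hy
  exact hV.reg.1 L (mem_lf.1 hL).1 hy

/-- the leaves themselves (one-box bounds) are added separately: `TR = inner + leaves` -/
theorem TR_inner_add {bb : ℤ} {ε : ℕ → ℤ → ℂ} {V : Finset Nd} (F : Fin 4 → Fn) :
    TR bb ε V F = ∑ q ∈ V \ lf V, TI bb ε F q + ∑ q ∈ lf V, TI bb ε F q := by
  classical
  have hs : lf V ⊆ V := fun q hq => (mem_lf.1 hq).1
  unfold TR
  rw [Finset.sum_sdiff hs]

end Crest.Agent.R079.Cyl661
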