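import Crest.Agent.R079.QDefs_248

/-! R079, leaf **Qa** (helper246): unit `A₃`-atoms are bounded by one. -/

set_option autoImplicit false

namespace Crest.Agent.R079.Qa246

open Finset Crest.Agent.R079.Grid Crest.Agent.R079.Glue Crest.Agent.R079.Growth
  Crest.Agent.R079.QRed

/-- Hölder `(3,3,3)` for finite sums of nonnegative reals, in the form with upper bounds. -/
theorem holder3 {ι : Type*} (S : Finset ι) (f g h : ι → ℝ) (hf : ∀ i ∈ S, 0 ≤ f i)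
    (hg : ∀ i ∈ S, 0 ≤ g i) (hh : ∀ i ∈ S, 0 ≤ h i) (A B C : ℝ)
    (hA : ∑ i ∈ S, f i ^ 3 ≤ A) (hB : ∑ i ∈ S, g i ^ 3 ≤ B) (hC : ∑ i ∈ S, h i ^ 3 ≤ C) :
    ∑ i ∈ S, f i * g i * h i ≤ (A * B * C) ^ (1 / 3 : ℝ) := by
  have hf3 : ∀ i ∈ S, 0 ≤ f i ^ 3 := fun i hi => pow_nonneg (hf i hi) 3
  have hg3 : ∀ i ∈ S, 0 ≤ g i ^ 3 := fun i hi => pow_nonneg (hg i hi) 3
  have hh3 : ∀ i ∈ S, 0 ≤ h i ^ 3 := fun i hi => pow_nonneg (hh i hi) 3
  have hA0 : 0 ≤ A := le_trans (Finset.sum_nonneg hf3) hA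
  have hB0 : 0 ≤ B := le_trans (Finset.sum_nonneg hg3) hB
  have hC0 : 0 ≤ C := le_trans (Finset.sum_nonneg hh3) hC
  have key : ∀ (u : ι → ℝ) (U : ℝ), (∀ i ∈ S, 0 ≤ u i) → ∑ i ∈ S, u i ^ 3 ≤ U → U = 0 →
      ∀ i ∈ S, u i = 0 := by
    intro u U hu hU h0 i hi
    have h1 : ∑ i ∈ S, u i ^ 3 = 0 :=
      le_antisymm (hU.trans h0.le) (Finset.sum_nonneg fun i hi => pow_nonneg (hu i hi) 3)
    have h2 := (Finset.sum_eq_zero_iff_of_nonneg (fun i hi => pow_nonneg (hu i hi) 3)).1 h1 i hi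
    exact pow_eq_zero_iff (by norm_num) |>.1 h2
  by_cases hA' : A = 0
  · have := key f A hf hA hA'
    rw [Finset.sum_eq_zero (fun i hi => by rw [this i hi]; ring)]
    positivity
  by_cases hB' : B = 0
  · have := key g B hg hB hB'
    rw [Finset.sum_eq_zero (fun i hi => by rw [this i hi]; ring)]
    positivity
  by_cases hC' : C = 0
  · have := key h C hh hC hC'
    rw [Finset.sum_eq_zero (fun i hi => by rw [this i hi]; ring)]
    positivity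
  have hAp : 0 < A := lt_of_le_of_ne hA0 (Ne.symm hA')
  have hBp : 0 < B := lt_of_le_of_ne hB0 (Ne.symm hB')
  have hCp : 0 < C := lt_of_le_of_ne hC0 (Ne.symm hC')
  have cube : ∀ x : ℝ, 0 ≤ x → (x ^ 3) ^ (1 / 3 : ℝ) = x := by
    intro x hx
    rw [← Real.rpow_natCast x 3, ← Real.rpow_mul hx]
    norm_num
  have pt : ∀ i ∈ S, f i * g i * h i ≤ (A * B * C) ^ (1 / 3 : ℝ) *
      ((1 / 3) * (f i ^ 3 / A) + (1 / 3) * (g i ^ 3 / B) + (1 / 3) * (h i ^ 3 / C)) := by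
    intro i hi
    have hfi := hf i hi
    have hgi := hg i hi
    have hhi := hh i hi
    have e : f i * g i * h i = (A * B * C) ^ (1 / 3 : ℝ) *
        ((f i ^ 3 / A) ^ (1 / 3 : ℝ) * (g i ^ 3 / B) ^ (1 / 3 : ℝ) *
          (h i ^ 3 / C) ^ (1 / 3 : ℝ)) := by
      rw [Real.mul_rpow (by positivity) (by positivity), Real.mul_rpow (by positivity)
        (by positivity), Real.div_rpow (by positivity) (by positivity),
        Real.div_rpow (by positivity) (by positivity),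
        Real.div_rpow (by positivity) (by positivity), cube _ hfi, cube _ hgi, cube _ hhi]
      have a1 : A ^ (1 / 3 : ℝ) ≠ 0 := (Real.rpow_pos_of_pos hAp _).ne'
      have a2 : B ^ (1 / 3 : ℝ) ≠ 0 := (Real.rpow_pos_of_pos hBp _).ne'
      have a3 : C ^ (1 / 3 : ℝ) ≠ 0 := (Real.rpow_pos_of_pos hCp _).ne'
      field_simp
    rw [e]
    refine mul_le_mul_of_nonneg_left ?_ (by positivity)
    exact Real.geom_mean_le_arith_mean3_weighted (by norm_num) (by norm_num) (by norm_num)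
      (by positivity) (by positivity) (by positivity) (by norm_num)
  calc ∑ i ∈ S, f i * g i * h i
      ≤ ∑ i ∈ S, (A * B * C) ^ (1 / 3 : ℝ) *
      ((1 / 3) * (f i ^ 3 / A) + (1 / 3) * (g i ^ 3 / B) + (1 / 3) * (h i ^ 3 / C)) :=
        Finset.sum_le_sum pt
    _ = (A * B * C) ^ (1 / 3 : ℝ) * ((1 / 3) * ((∑ i ∈ S, f i ^ 3) / A) +
        (1 / 3) * ((∑ i ∈ S, g i ^ 3) / B) + (1 / 3) * ((∑ i ∈ S, h i ^ 3) / C)) := by
        rw [← Finset.mul_sum, Finset.sum_add_distrib, Finset.sum_add_distrib, ← Finset.mul_sum,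
          ← Finset.mul_sum, ← Finset.mul_sum, Finset.sum_div, Finset.sum_div, Finset.sum_div]
    _ ≤ (A * B * C) ^ (1 / 3 : ℝ) * ((1 / 3) * 1 + (1 / 3) * 1 + (1 / 3) * 1) := by
        have h1 : (∑ i ∈ S, f i ^ 3) / A ≤ 1 := (div_le_one hAp).2 hA
        have h2 : (∑ i ∈ S, g i ^ 3) / B ≤ 1 := (div_le_one hBp).2 hB
        have h3 : (∑ i ∈ S, h i ^ 3) / C ≤ 1 := (div_le_one hCp).2 hC
        refine mul_le_mul_of_nonneg_left ?_ (by positivity)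
        linarith
    _ = _ := by ring

theorem sl_inj : Function.Injective sl := by
  intro i j h
  fin_cases i <;> fin_cases j <;> simp [sl] at h ⊢

theorem cf_ne (j : Fin 4) (i : Fin 3) : cf j i ≠ 0 := by
  unfold cf
  intro h
  exact Fin.succAbove_ne j i (sl_inj (by omega))

/-- sum over the plane of a function of two coordinates -/
theorem plane_sum_le (j : Fin 4) (T : Fin 3 → Finset ℤ) (y : ℤ) (X Y : Finset ℤ)
    (w : ℤ → ℤ → ℝ) (hw : ∀ u v, 0 ≤ w u v) (π : ℤ × ℤ × ℤ → ℤ × ℤ)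
    (hm : ∀ z : ℤ × ℤ × ℤ, z ∈ (T 0 ×ˢ T 1 ×ˢ T 2) → (π z).1 ∈ X ∧ (π z).2 ∈ Y)
    (hi : ∀ z z' : ℤ × ℤ × ℤ, cf j 0 * z.1 + cf j 1 * z.2.1 + cf j 2 * z.2.2 = y →
      cf j 0 * z'.1 + cf j 1 * z'.2.1 + cf j 2 * z'.2.2 = y → π z = π z' → z = z') :
    ∑ z ∈ (T 0 ×ˢ T 1 ×ˢ T 2).filter
      (fun z : ℤ × ℤ × ℤ => cf j 0 * z.1 + cf j 1 * z.2.1 + cf j 2 * z.2.2 = y),
      w (π z).1 (π z).2 ≤ ∑ u ∈ X, ∑ v ∈ Y, w u v := by
  classical
  rw [← Finset.sum_product' X Y w]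
  rw [← Finset.sum_image (f := fun p : ℤ × ℤ => w p.1 p.2) (g := π)]
  · refine Finset.sum_le_sum_of_subset_of_nonneg ?_ (fun _ _ _ => hw _ _)
    intro p hp
    obtain ⟨z, hz, rfl⟩ := Finset.mem_image.1 hp
    have := hm z (Finset.mem_filter.1 hz).1
    exact Finset.mem_product.2 this
  · intro z hz z' hz' h
    exact hi z z' (Finset.mem_filter.1 hz).2 (Finset.mem_filter.1 hz').2 h

/-- **(Qa)** -/
theorem qa : Qa := by
  classical
  rintro j φ ⟨κ, T, a, b, c, hκ, rfl, hn⟩ y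
  set S : Finset (ℤ × ℤ × ℤ) := (T 0 ×ˢ T 1 ×ˢ T 2).filter
    (fun z : ℤ × ℤ × ℤ => cf j 0 * z.1 + cf j 1 * z.2.1 + cf j 2 * z.2.2 = y) with hS
  have e1 : (∑ z0 ∈ T 0, ∑ z1 ∈ T 1, ∑ z2 ∈ T 2,
      if cf j 0 * z0 + cf j 1 * z1 + cf j 2 * z2 = y then a z0 z1 * b z1 z2 * c z2 z0 else 0) =
      ∑ z ∈ S, a z.1 z.2.1 * b z.2.1 z.2.2 * c z.2.2 z.1 := by
    rw [hS, Finset.sum_filter, Finset.sum_product]
    refine Finset.sum_congr rfl fun z0 _ => ?_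
    rw [Finset.sum_product]
  have c0 := cf_ne j 0
  have c1 := cf_ne j 1
  have c2 := cf_ne j 2
  have hA : ∑ z ∈ S, ‖a z.1 z.2.1‖ ^ 3 ≤ n3 (T 0) (T 1) a := by
    refine plane_sum_le j T y (T 0) (T 1) (fun u v => ‖a u v‖ ^ 3) (fun _ _ => by positivity)
      (fun z => (z.1, z.2.1)) (fun z hz => ?_) (fun z z' h h' e => ?_)
    · simp only [Finset.mem_product] at hz; exact ⟨hz.1, hz.2.1⟩
    · simp only [Prod.mk.injEq] at e
      have e3 : cf j 2 * z.2.2 = cf j 2 * z'.2.2 := by rw [e.1, e.2] at h; linarith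
      have := mul_left_cancel₀ c2 e3
      ext <;> simp [e.1, e.2, this]
  have hB : ∑ z ∈ S, ‖b z.2.1 z.2.2‖ ^ 3 ≤ n3 (T 1) (T 2) b := by
    refine plane_sum_le j T y (T 1) (T 2) (fun u v => ‖b u v‖ ^ 3) (fun _ _ => by positivity)
      (fun z => (z.2.1, z.2.2)) (fun z hz => ?_) (fun z z' h h' e => ?_)
    · simp only [Finset.mem_product] at hz; exact ⟨hz.2.1, hz.2.2⟩
    · simp only [Prod.mk.injEq] at e
      have e3 : cf j 0 * z.1 = cf j 0 * z'.1 := by rw [e.1, e.2] at h; linarith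
      have := mul_left_cancel₀ c0 e3
      ext <;> simp [e.1, e.2, this]
  have hC : ∑ z ∈ S, ‖c z.2.2 z.1‖ ^ 3 ≤ n3 (T 2) (T 0) c := by
    refine plane_sum_le j T y (T 2) (T 0) (fun u v => ‖c u v‖ ^ 3) (fun _ _ => by positivity)
      (fun z => (z.2.2, z.1)) (fun z hz => ?_) (fun z z' h h' e => ?_)
    · simp only [Finset.mem_product] at hz; exact ⟨hz.2.2, hz.1⟩
    · simp only [Prod.mk.injEq] at e
      have e3 : cf j 1 * z.2.1 = cf j 1 * z'.2.1 := by rw [e.1, e.2] at h; linarith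
      have := mul_left_cancel₀ c1 e3
      ext <;> simp [e.1, e.2, this]
  unfold atom
  rw [e1, norm_mul, Complex.norm_real, Real.norm_of_nonneg hκ]
  refine le_trans ?_ hn
  refine mul_le_mul_of_nonneg_left ?_ hκ
  refine (norm_sum_le _ _).trans ?_
  have e2 : ∀ z ∈ S, ‖a z.1 z.2.1 * b z.2.1 z.2.2 * c z.2.2 z.1‖ =
      ‖a z.1 z.2.1‖ * ‖b z.2.1 z.2.2‖ * ‖c z.2.2 z.1‖ := fun z _ => by
    rw [norm_mul, norm_mul]
  rw [Finset.sum_congr rfl e2]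
  exact holder3 S _ _ _ (fun _ _ => norm_nonneg _) (fun _ _ => norm_nonneg _)
    (fun _ _ => norm_nonneg _) _ _ _ hA hB hC

end Crest.Agent.R079.Qa246
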