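import Crest.Agent.R079.TFrz_679
import Crest.Agent.R079.Qa_246

/-! R079, **DICTIONARY SCHEME** (helper679).

`Fam S` = family of test functions with sup `≤ t⁻¹` and plain mass `≤ A t^(-C)`;
`DS S` = the dictionary generated by `S` and by the unit `A₃` atoms at price `t` (slot `3` empty);
`dic_DS`, `frzBd_DS`; `lv_pl`, `lv_fam` = what a level gives. -/

set_option autoImplicit false

namespace Crest.Agent.R079.Dic679

open Finset Crest.Agent.R079.Grid Crest.Agent.R079.Glue Crest.Agent.R079.Growth Crest.Agent.R079.QRed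
open Crest.Agent.R079.TFrz679

/-- admissible family of test functions -/
structure Fam (S : Fin 4 → ℝ → Set Fn) : Prop where
  sup : ∀ j, j ≠ 3 → ∀ t, 0 < t → t ≤ 1 → ∀ φ ∈ S j t, ∀ y, ‖φ y‖ ≤ t⁻¹
  mass : ∃ A C : ℝ, 0 ≤ A ∧ 0 ≤ C ∧ ∀ j, j ≠ 3 → ∀ t, 0 < t → t ≤ 1 → ∀ φ ∈ S j t, ∀ p : Nd,
    Rep j p φ (A * t ^ (-C))

/-- unit `A₃` atoms at price `t` -/
def Pl (j : Fin 4) (t : ℝ) : Set Fn :=
  {φ | ∃ ψ, IsAtom j ψ ∧ φ = fun y => ((t⁻¹ : ℝ) : ℂ) * ψ y}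

/-- the dictionary generated by a family -/
def DS (S : Fin 4 → ℝ → Set Fn) : TRec.Dict := fun j t =>
  {φ | j ≠ 3 ∧ ∃ s : ℝ, t ≤ s ∧ s ≤ 1 ∧ ∃ ψ : Fn, (ψ ∈ Pl j s ∨ ψ ∈ S j s) ∧
    ∃ c : ℝ, 0 ≤ c ∧ c ≤ 1 ∧
      ((φ = fun y => (c : ℂ) * ψ y) ∨ (φ = fun y => (c : ℂ) * (starRingEnd ℂ) (ψ y)))}

theorem rep_mono {j : Fin 4} {p : Nd} {f : Fn} {M M' : ℝ} (h : Rep j p f M) (hM : M ≤ M') :
    Rep j p f M' := by
  obtain ⟨n, φ, c, h1, h2, h3⟩ := h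
  exact ⟨n, φ, c, h1, h2, h3.trans hM⟩

theorem isAtom_conj {j : Fin 4} {φ : Fn} (h : IsAtom j φ) :
    IsAtom j (fun y => (starRingEnd ℂ) (φ y)) := by
  obtain ⟨κ, T, a, b, c, hκ, rfl, hn⟩ := h
  refine ⟨κ, T, fun z z' => (starRingEnd ℂ) (a z z'), fun z z' => (starRingEnd ℂ) (b z z'),
    fun z z' => (starRingEnd ℂ) (c z z'), hκ, ?_, ?_⟩
  · funext y
    unfold atom
    simp only [map_mul, map_sum, Complex.conj_ofReal, apply_ite (starRingEnd ℂ), map_zero]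
  · simpa only [n3, RCLike.norm_conj] using hn

theorem rep_conj {j : Fin 4} {p : Nd} {f : Fn} {M : ℝ} (h : Rep j p f M) :
    Rep j p (fun y => (starRingEnd ℂ) (f y)) M := by
  obtain ⟨n, φ, c, h1, h2, h3⟩ := h
  refine ⟨n, fun i y => (starRingEnd ℂ) (φ i y), fun i => (starRingEnd ℂ) (c i),
    fun i => isAtom_conj (h1 i), fun y hy => ?_, ?_⟩
  · show (starRingEnd ℂ) (f y) = _
    rw [h2 y hy, map_sum]
    exact Finset.sum_congr rfl fun i _ => map_mul _ _ _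
  · simpa only [RCLike.norm_conj] using h3

theorem rep_cmul {j : Fin 4} {p : Nd} {f : Fn} {M : ℝ} (hM : 0 ≤ M) (h : Rep j p f M) {c : ℝ}
    (hc : 0 ≤ c) (hc1 : c ≤ 1) : Rep j p (fun y => (c : ℂ) * f y) M := by
  have h1 : Rep j p (fun y => (c : ℂ) * f y) (c * M) := by
    refine rep_comb (n := 1) (φ := fun _ => f) (c := fun _ => (c : ℂ)) hM (fun _ => h) ?_ ?_
    · simp [abs_of_nonneg hc]
    · intro y _; simp
  refine rep_mono h1 ?_
  nlinarith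

/-- **`Dic`** -/
theorem dic_DS {S : Fin 4 → ℝ → Set Fn} (hS : Fam S) : TRec.Dic (DS S) 0 := by
  have hQa : Qa := Crest.Agent.R079.Qa246.qa
  refine ⟨?_, ?_, ?_, ?_⟩
  · rintro j t ht ht1 φ ⟨hj, s, hts, hs1, ψ, hψ, c, hc, hc1, hφ⟩ y
    have hs : 0 < s := lt_of_lt_of_le ht hts
    have h1 : ‖ψ y‖ ≤ s⁻¹ := by
      rcases hψ with hψ | hψ
      · obtain ⟨χ, hχ, rfl⟩ := hψ
        show ‖((s⁻¹ : ℝ) : ℂ) * χ y‖ ≤ _
        rw [norm_mul, Complex.norm_real, Real.norm_of_nonneg (by positivity)]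
        exact mul_le_of_le_one_right (by positivity) (hQa j χ hχ y)
      · exact hS.sup j hj s hs hs1 ψ hψ y
    have h2 : ‖φ y‖ ≤ s⁻¹ := by
      rcases hφ with rfl | rfl
      · show ‖(c : ℂ) * ψ y‖ ≤ _
        rw [norm_mul, Complex.norm_real, Real.norm_of_nonneg hc]
        calc c * ‖ψ y‖ ≤ 1 * ‖ψ y‖ := by gcongr
          _ ≤ s⁻¹ := by rw [one_mul]; exact h1
      · show ‖(c : ℂ) * (starRingEnd ℂ) (ψ y)‖ ≤ _
        rw [norm_mul, Complex.norm_real, Real.norm_of_nonneg hc, RCLike.norm_conj]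
        calc c * ‖ψ y‖ ≤ 1 * ‖ψ y‖ := by gcongr
          _ ≤ s⁻¹ := by rw [one_mul]; exact h1
    have h3 : TRec.sx 0 j = 1 := by simp [TRec.sx, hj]
    rw [h3, Real.rpow_neg_one]
    exact h2.trans (inv_anti₀ ht hts)
  · rintro j s t hs hst ht1 φ ⟨hj, r, hr, hr1, ψ, hψ, c, hc, hc1, hφ⟩
    refine ⟨φ, ⟨hj, r, hst.trans hr, hr1, ψ, hψ, c, hc, hc1, hφ⟩, 1, zero_le_one, le_rfl, ?_⟩
    funext y; simp
  · rintro j t φ ⟨hj, r, hr, hr1, ψ, hψ, c, hc, hc1, hφ⟩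
    refine ⟨hj, r, hr, hr1, ψ, hψ, c, hc, hc1, ?_⟩
    rcases hφ with rfl | rfl
    · right; funext y; simp
    · left; funext y; simp
  · intro j hj t ht ht1 y
    refine ⟨hj, t, le_rfl, ht1, fun x => if x = y then ((t : ℂ))⁻¹ else 0, Or.inl ?_, 1, zero_le_one,
      le_rfl, Or.inl (by funext x; simp)⟩
    have hpt : IsAtom j (fun x => if x = y then (1 : ℂ) else 0) := by
      obtain ⟨z, hz⟩ : ∃ z : Fin 3 → ℤ, cf j 0 * z 0 + cf j 1 * z 1 + cf j 2 * z 2 = y := by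
        fin_cases j
        · exact ⟨![y, 0, 0], by simp [cf, sl]⟩
        · exact ⟨![-y, 0, 0], by simp [cf, sl]⟩
        · exact ⟨![0, -y, 0], by simp [cf, sl, Fin.succAbove]⟩
        · exact ⟨![y, 0, 0], by simp [cf, sl, Fin.succAbove]⟩
      refine ⟨1, fun i => {z i}, fun _ _ => 1, fun _ _ => 1, fun _ _ => 1, zero_le_one, ?_, ?_⟩
      · funext x
        unfold atom
        simp only [Finset.sum_singleton, hz, Complex.ofReal_one, one_mul, mul_one]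
        rcases eq_or_ne x y with h | h
        · simp [h]
        · simp [h, Ne.symm h]
      · simp [n3]
    refine ⟨_, hpt, ?_⟩
    funext x
    rcases eq_or_ne x y with h | h
    · simp [h]
    · simp [h]

/-- masses of the elements of the dictionary -/
theorem rep_DS {S : Fin 4 → ℝ → Set Fn} (hS : Fam S) : ∀ j : Fin 4, j ≠ 3 → ∀ t : ℝ, 0 < t →
    t ≤ 1 → ∃ M : ℝ, 0 ≤ M ∧ ∀ φ ∈ DS S j t, ∀ p : Nd, Rep j p φ M := by
  intro j hj t ht ht1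
  obtain ⟨A, C, hA, hC, hm⟩ := hS.mass
  refine ⟨t⁻¹ + A * t ^ (-C), by positivity, ?_⟩
  rintro φ ⟨-, s, hts, hs1, ψ, hψ, c, hc, hc1, hφ⟩ p
  have hs : 0 < s := lt_of_lt_of_le ht hts
  have hM0 : 0 ≤ t⁻¹ + A * t ^ (-C) := by positivity
  have h1 : Rep j p ψ (t⁻¹ + A * t ^ (-C)) := by
    rcases hψ with hψ | hψ
    · obtain ⟨χ, hχ, rfl⟩ := hψ
      refine rep_smul hχ ((s⁻¹ : ℝ) : ℂ) ?_ p fun y _ => rfl
      rw [Complex.norm_real, Real.norm_of_nonneg (by positivity)]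
      have h2 : s⁻¹ ≤ t⁻¹ := inv_anti₀ ht hts
      have h3 : 0 ≤ A * t ^ (-C) := by positivity
      linarith
    · refine rep_mono (hm j hj s hs hs1 ψ hψ p) ?_
      have h2 : s ^ (-C) ≤ t ^ (-C) := Real.rpow_le_rpow_of_nonpos ht hts (by linarith)
      have h3 : 0 ≤ t⁻¹ := by positivity
      have h4 : A * s ^ (-C) ≤ A * t ^ (-C) := mul_le_mul_of_nonneg_left h2 hA
      linarith
  rcases hφ with rfl | rfl
  · exact rep_cmul hM0 h1 hc hc1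
  · exact rep_cmul hM0 (rep_conj h1) hc hc1

/-- **`FrzBd`** -/
theorem frzBd_DS {S : Fin 4 → ℝ → Set Fn} (hS : Fam S) {k q3 : ℝ} (hk : 0 ≤ k) (hq3 : 2 ≤ q3) :
    TRec.FrzBd (DS S) k q3 := frzBd_of_rep hk hq3 (rep_DS hS)

/-- level against the members of the family -/
theorem lv_fam {S : Fin 4 → ℝ → Set Fn} {j : Fin 4} (hj : j ≠ 3) {t : ℝ} (ht1 : t ≤ 1)
    {u : ℝ} {p : Nd} {g : Fn} (h : TRec.Lv (DS S) j t u p g) {φ : Fn} (hφ : φ ∈ S j t) :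
    ‖∑ y ∈ iv p, g y * φ y‖ ≤ u * len p :=
  h φ ⟨hj, t, le_rfl, ht1, φ, Or.inr hφ, 1, zero_le_one, le_rfl, Or.inl (by funext y; simp)⟩

/-- level against the unit `A₃` atoms -/
theorem lv_pl {S : Fin 4 → ℝ → Set Fn} {j : Fin 4} (hj : j ≠ 3) {t : ℝ} (ht : 0 < t) (ht1 : t ≤ 1)
    {u : ℝ} {p : Nd} {g : Fn} (h : TRec.Lv (DS S) j t u p g) {φ : Fn} (hφ : IsAtom j φ) :
    ‖∑ y ∈ iv p, g y * φ y‖ ≤ u * t * len p := by
  have h1 := h (fun y => ((t⁻¹ : ℝ) : ℂ) * φ y)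
    ⟨hj, t, le_rfl, ht1, _, Or.inl ⟨φ, hφ, rfl⟩, 1, zero_le_one, le_rfl,
      Or.inl (by funext y; simp)⟩
  have h2 : ∑ y ∈ iv p, g y * (((t⁻¹ : ℝ) : ℂ) * φ y) =
      ((t⁻¹ : ℝ) : ℂ) * ∑ y ∈ iv p, g y * φ y := by
    rw [Finset.mul_sum]
    exact Finset.sum_congr rfl fun y _ => by ring
  rw [h2, norm_mul, Complex.norm_real, Real.norm_of_nonneg (by positivity),
    inv_mul_le_iff₀ ht] at h1
  linarith

/-- level against `Rep` functions -/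
theorem lv_rep {S : Fin 4 → ℝ → Set Fn} {j : Fin 4} (hj : j ≠ 3) {t : ℝ} (ht : 0 < t) (ht1 : t ≤ 1)
    {u : ℝ} (hu : 0 ≤ u) {p : Nd} {g : Fn} (h : TRec.Lv (DS S) j t u p g) {φ : Fn} {M : ℝ}
    (hφ : Rep j p φ M) : ‖∑ y ∈ iv p, g y * φ y‖ ≤ u * t * M * len p := by
  obtain ⟨n, ψ, c, h1, h2, h3⟩ := hφ
  have e : ∑ y ∈ iv p, g y * φ y = ∑ i, c i * ∑ y ∈ iv p, g y * ψ i y := by
    rw [Finset.sum_congr rfl fun y hy => by rw [h2 y hy, Finset.mul_sum], Finset.sum_comm]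
    refine Finset.sum_congr rfl fun i _ => ?_
    rw [Finset.mul_sum]
    exact Finset.sum_congr rfl fun y _ => by ring
  rw [e]
  have hl : 0 ≤ len p := by unfold len; positivity
  calc ‖∑ i, c i * ∑ y ∈ iv p, g y * ψ i y‖ ≤ ∑ i, ‖c i‖ * (u * t * len p) := by
        refine (norm_sum_le _ _).trans (Finset.sum_le_sum fun i _ => ?_)
        rw [norm_mul]
        exact mul_le_mul_of_nonneg_left (lv_pl hj ht ht1 h (h1 i)) (norm_nonneg _)
    _ = (∑ i, ‖c i‖) * (u * t * len p) := by rw [Finset.sum_mul]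
    _ ≤ M * (u * t * len p) := mul_le_mul_of_nonneg_right h3 (by positivity)
    _ = _ := by ring

theorem Fam.union {S S' : Fin 4 → ℝ → Set Fn} (h : Fam S) (h' : Fam S') :
    Fam (fun j t => S j t ∪ S' j t) := by
  refine ⟨?_, ?_⟩
  · rintro j hj t ht ht1 φ (hφ | hφ) y
    · exact h.sup j hj t ht ht1 φ hφ y
    · exact h'.sup j hj t ht ht1 φ hφ y
  · obtain ⟨A, C, hA, hC, hm⟩ := h.mass
    obtain ⟨A', C', hA', hC', hm'⟩ := h'.mass
    refine ⟨A + A', C + C', by positivity, by positivity, ?_⟩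
    rintro j hj t ht ht1 φ (hφ | hφ) p
    · refine rep_mono (hm j hj t ht ht1 φ hφ p) ?_
      have e1 : t ^ (-C) ≤ t ^ (-(C + C')) :=
        Real.rpow_le_rpow_of_exponent_ge ht ht1 (by linarith)
      have e2 : 0 ≤ A' * t ^ (-(C + C')) := by positivity
      have e3 := mul_le_mul_of_nonneg_left e1 hA
      linarith
    · refine rep_mono (hm' j hj t ht ht1 φ hφ p) ?_
      have e1 : t ^ (-C') ≤ t ^ (-(C + C')) :=
        Real.rpow_le_rpow_of_exponent_ge ht ht1 (by linarith)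
      have e2 : 0 ≤ A * t ^ (-(C + C')) := by positivity
      have e3 := mul_le_mul_of_nonneg_left e1 hA'
      linarith

theorem Fam.empty : Fam (fun _ _ => (∅ : Set Fn)) := by
  refine ⟨?_, ⟨0, 0, le_rfl, le_rfl, ?_⟩⟩
  · rintro j hj t ht ht1 φ hφ
    exact absurd hφ (Set.notMem_empty φ)
  · rintro j hj t ht ht1 φ hφ
    exact absurd hφ (Set.notMem_empty φ)

end Crest.Agent.R079.Dic679
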