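import Crest.Agent.R079.ThB_159
import Crest.Agent.R079.ElW_778

/-! R079 Step I, leaf (e) over 159's NODE-DEPENDENT gauges (Whitney cells): port of ElS_440 (Euler-
Lagrange with arbitrary kernels) and of helper778's ElW_778 (variational inequality, firm
nonexpansiveness, ladder, `el_ladder`).  helper440. -/

set_option autoImplicit false

namespace Crest.Agent.R079.ElT440

open Finset Crest.Agent.R079.Grid Crest.Agent.R079.Growth Crest.Agent.R079.QRed
  Crest.Agent.R079.Qh249 Crest.Agent.R079.QVar181 Crest.Agent.R079.TWin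
open Crest.Agent.R079.RelW653 (vl NMP Jv Dv av_par sum_av' lf_sum_eq')
open Crest.Agent.R079.RelV653 Crest.Agent.R079.ThA159 Crest.Agent.R079.ThB159
open Crest.Agent.R079.ElS440 (Ln LnF Ln_sub)
open Crest.Agent.R079.ElW778 (Ln_congr Ln_sum tele)

section one

variable {Ω : Type*} {Bd : Nd → Finset Ω} {pos : Ω → ℤ} {N : Nd → (Ω → ℂ) → ℝ} {ν : ℝ}

lemma Gr_eq (a : Ω → ℂ) (r : ℝ) (p : Nd) (g : Fn) :
    Gr Bd pos N ν a r p g = Ln Bd pos ν a p (Rs Bd pos N a r p g) := rfl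

/-- pointwise bound -/
lemma Ln_pt (hB : Bnd Bd pos N ν) {a : Ω → ℂ} (ha : ∀ ω, ‖a ω‖ ≤ 1) (p : Nd) (U : Ω → ℂ) (y : ℤ) :
    ‖Ln Bd pos ν a p U y‖ ^ 2
      ≤ ν * ∑ ω ∈ (Bd p).filter (fun ω => pos ω = y), ‖U ω‖ ^ 2 := by
  classical
  set S := (Bd p).filter (fun ω => pos ω = y) with hS
  have h1 : ‖Ln Bd pos ν a p U y‖ ≤ ν * ∑ ω ∈ S, ‖U ω‖ := by
    unfold Ln
    rw [norm_mul, Complex.norm_real, Real.norm_eq_abs, abs_of_pos hB.nu]
    refine mul_le_mul_of_nonneg_left ?_ hB.nu.le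
    refine (norm_sum_le _ _).trans (Finset.sum_le_sum fun ω _ => ?_)
    rw [norm_mul, RCLike.norm_conj]
    exact mul_le_of_le_one_left (norm_nonneg _) (ha ω)
  have h2 : (∑ ω ∈ S, ‖U ω‖) ^ 2 ≤ S.card * ∑ ω ∈ S, ‖U ω‖ ^ 2 := sq_sum_le_card_mul_sum_sq
  have h3 : ν * (S.card : ℝ) ≤ 1 := hB.fib p y
  have h4 : 0 ≤ ∑ ω ∈ S, ‖U ω‖ ^ 2 := Finset.sum_nonneg fun _ _ => sq_nonneg _
  have h0 : 0 ≤ ν * ∑ ω ∈ S, ‖U ω‖ :=
    mul_nonneg hB.nu.le (Finset.sum_nonneg fun _ _ => norm_nonneg _)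
  calc ‖Ln Bd pos ν a p U y‖ ^ 2 ≤ (ν * ∑ ω ∈ S, ‖U ω‖) ^ 2 :=
        pow_le_pow_left₀ (norm_nonneg _) h1 2
    _ = ν * (ν * (∑ ω ∈ S, ‖U ω‖) ^ 2) := by ring
    _ ≤ ν * (ν * (S.card * ∑ ω ∈ S, ‖U ω‖ ^ 2)) :=
        mul_le_mul_of_nonneg_left (mul_le_mul_of_nonneg_left h2 hB.nu.le) hB.nu.le
    _ = ν * ((ν * S.card) * ∑ ω ∈ S, ‖U ω‖ ^ 2) := by ring
    _ ≤ ν * (1 * ∑ ω ∈ S, ‖U ω‖ ^ 2) :=
        mul_le_mul_of_nonneg_left (mul_le_mul_of_nonneg_right h3 h4) hB.nu.le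
    _ = ν * ∑ ω ∈ S, ‖U ω‖ ^ 2 := by ring

/-- the line function is `ℓ²` bounded by the kernel on the band -/
theorem Ln_av (hB : Bnd Bd pos N ν) {a : Ω → ℂ} (ha : ∀ ω, ‖a ω‖ ≤ 1) (p : Nd) (U : Ω → ℂ) :
    len p * av p (Ln Bd pos ν a p U) ^ 2 ≤ ν * ∑ ω ∈ Bd p, ‖U ω‖ ^ 2 := by
  classical
  rw [← sum_av', ← Finset.sum_fiberwise_of_maps_to (g := pos) (t := iv p)
    (fun ω hω => hB.mem p ω hω), Finset.mul_sum]
  exact Finset.sum_le_sum fun y _ => Ln_pt hB ha p U y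

theorem Ln_dst (hB : Bnd Bd pos N ν) {a : Ω → ℂ} (ha : ∀ ω, ‖a ω‖ ≤ 1) (p : Nd)
    (U U' : Ω → ℂ) :
    len p * av p (fun y => Ln Bd pos ν a p U y - Ln Bd pos ν a p U' y) ^ 2
      ≤ ν * dst Bd p U U' := by
  have h1 := Ln_av hB ha p (fun ω => U ω - U' ω)
  have e : (fun y => Ln Bd pos ν a p U y - Ln Bd pos ν a p U' y)
      = Ln Bd pos ν a p (fun ω => U ω - U' ω) := by
    funext y
    exact Ln_sub a p U U' y
  rw [e]
  exact h1

end one

section family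

variable {ι : Type*} [Fintype ι] {Ω : ι → Type*} {Bd : ∀ i, Nd → Finset (Ω i)}
  {pos : ∀ i, Ω i → ℤ} {N : ∀ i, Nd → (Ω i → ℂ) → ℝ} {ν : ι → ℝ} {a : ∀ i, Ω i → ℂ} {r : ι → ℝ}
  {κ : ι → ℝ} {X : Fn} {η : ℝ} {f : Nd → Fn}

lemma GrF_eq (p : Nd) (g : Fn) :
    GrF Bd pos N ν a r κ p g
      = LnF Bd pos ν a κ p (fun i => Rs (Bd i) (pos i) (N i) (a i) (r i) p g) := rfl

/-- replacement of the kernels -/
theorem LnF_dst (hB : ∀ i, Bnd (Bd i) (pos i) (N i) (ν i)) (ha : ∀ i ω, ‖a i ω‖ ≤ 1)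
    (hκ : ∀ i, 0 ≤ κ i) (p : Nd) (Z Z' : ∀ i, Ω i → ℂ) :
    len p * av p (fun y => LnF Bd pos ν a κ p Z y - LnF Bd pos ν a κ p Z' y) ^ 2
      ≤ (∑ i, κ i) * ∑ i, κ i * (ν i * dst (Bd i) p (Z i) (Z' i)) := by
  classical
  rw [← sum_av']
  have h1 : ∀ y, ‖LnF Bd pos ν a κ p Z y - LnF Bd pos ν a κ p Z' y‖ ^ 2
      ≤ (∑ i, κ i) * ∑ i, κ i * ‖Ln (Bd i) (pos i) (ν i) (a i) p (Z i) y
        - Ln (Bd i) (pos i) (ν i) (a i) p (Z' i) y‖ ^ 2 := by
    intro y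
    set D : ι → ℂ := fun i => Ln (Bd i) (pos i) (ν i) (a i) p (Z i) y
        - Ln (Bd i) (pos i) (ν i) (a i) p (Z' i) y with hD
    have e : LnF Bd pos ν a κ p Z y - LnF Bd pos ν a κ p Z' y = ∑ i, (κ i : ℂ) * D i := by
      unfold LnF
      rw [← Finset.sum_sub_distrib]
      exact Finset.sum_congr rfl fun i _ => by rw [hD]; ring
    rw [e]
    have h2 : ‖∑ i, (κ i : ℂ) * D i‖ ≤ ∑ i, κ i * ‖D i‖ := by
      refine (norm_sum_le _ _).trans (le_of_eq ?_)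
      refine Finset.sum_congr rfl fun i _ => ?_
      rw [norm_mul, Complex.norm_real, Real.norm_eq_abs, abs_of_nonneg (hκ i)]
    have h3 : (∑ i, κ i * ‖D i‖) ^ 2 ≤ (∑ i, κ i) * ∑ i, κ i * ‖D i‖ ^ 2 := by
      have h4 := Finset.sum_mul_sq_le_sq_mul_sq Finset.univ (fun i => Real.sqrt (κ i))
        (fun i => Real.sqrt (κ i) * ‖D i‖)
      have e1 : ∀ i, Real.sqrt (κ i) * (Real.sqrt (κ i) * ‖D i‖) = κ i * ‖D i‖ := fun i => by
        rw [← mul_assoc, Real.mul_self_sqrt (hκ i)]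
      have e2 : ∀ i, Real.sqrt (κ i) ^ 2 = κ i := fun i => Real.sq_sqrt (hκ i)
      have e3 : ∀ i, (Real.sqrt (κ i) * ‖D i‖) ^ 2 = κ i * ‖D i‖ ^ 2 := fun i => by
        rw [mul_pow, Real.sq_sqrt (hκ i)]
      simpa only [e1, e2, e3] using h4
    exact (pow_le_pow_left₀ (norm_nonneg _) h2 2).trans h3
  refine (Finset.sum_le_sum fun y _ => h1 y).trans ?_
  rw [← Finset.mul_sum, Finset.sum_comm]
  refine mul_le_mul_of_nonneg_left ?_ (Finset.sum_nonneg fun i _ => hκ i)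
  refine Finset.sum_le_sum fun i _ => ?_
  rw [← Finset.mul_sum]
  refine mul_le_mul_of_nonneg_left ?_ (hκ i)
  have h5 := Ln_dst (hB i) (ha i) p (Z i) (Z' i)
  rw [← sum_av'] at h5
  exact h5

/-- **EL + SWAP at every node of a window, arbitrary replacement kernels** -/
theorem el_swap (hB : ∀ i, Bnd (Bd i) (pos i) (N i) (ν i)) (ha : ∀ i ω, ‖a i ω‖ ≤ 1)
    (hr : ∀ i, 0 ≤ r i) (hκ : ∀ i, 0 ≤ κ i)
    (h : NMP (fun _ _ => True) (ThF Bd pos N ν a r κ) X η f)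
    {W : Finset Nd} {I : Nd} (hW : Full W I) {δ : ℝ}
    (hG : GdP (ThF Bd pos N ν a r κ) X η f δ W I) {p : Nd} (hp : p ∈ W)
    (Z : ∀ i, Ω i → ℂ) :
    av p (fun y => X y - gl W f y - LnF Bd pos ν a κ p Z y) ^ 2
      ≤ 2 * ((1 + ∑ i, κ i) * (δ + η))
        + 2 * ((∑ i, κ i) * ∑ i, κ i * (ν i * dst (Bd i) p
          (Rs (Bd i) (pos i) (N i) (a i) (r i) p (gl W f)) (Z i))) / len p := by
  have hP := pen_ThF (a := a) (κ := κ) hB hr hκ
  have hM : 0 ≤ ∑ i, κ i := Finset.sum_nonneg fun i _ => hκ i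
  have hL := Growth.len_pos p
  have h1 := el_win (Ψ := GrF Bd pos N ν a r κ p (gl W f)) hP h hW hG hp hM
    (fv_ThF hB ha hr hκ p _ _) trivial
  have h2 := LnF_dst hB ha hκ p (fun i => Rs (Bd i) (pos i) (N i) (a i) (r i) p (gl W f)) Z
  rw [← GrF_eq] at h2
  set g := gl W f with hg
  set G := GrF Bd pos N ν a r κ p g with hGG
  set L := LnF Bd pos ν a κ p Z with hLL
  have h3 : av p (fun y => X y - g y - L y) ^ 2
      ≤ 2 * av p (fun y => X y - g y - G y) ^ 2 + 2 * av p (fun y => G y - L y) ^ 2 := by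
    have h4 : len p * av p (fun y => X y - g y - L y) ^ 2
        ≤ len p * (2 * av p (fun y => X y - g y - G y) ^ 2
          + 2 * av p (fun y => G y - L y) ^ 2) := by
      rw [mul_add, mul_left_comm (len p) 2, mul_left_comm (len p) 2, ← sum_av', ← sum_av',
        ← sum_av', Finset.mul_sum, Finset.mul_sum, ← Finset.sum_add_distrib]
      refine Finset.sum_le_sum fun y _ => ?_
      have e : X y - g y - L y = (X y - g y - G y) + (G y - L y) := by ring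
      rw [e]
      have h5 := norm_add_le (X y - g y - G y) (G y - L y)
      have h6 := pow_le_pow_left₀ (norm_nonneg _) h5 2
      nlinarith [sq_nonneg (‖X y - g y - G y‖ - ‖G y - L y‖)]
    exact le_of_mul_le_mul_left h4 hL
  have h7 : av p (fun y => G y - L y) ^ 2
      ≤ ((∑ i, κ i) * ∑ i, κ i * (ν i * dst (Bd i) p
          (Rs (Bd i) (pos i) (N i) (a i) (r i) p g) (Z i))) / len p := by
    rw [le_div_iff₀ hL, mul_comm]
    exact h2
  have h8 : 2 * ((∑ i, κ i) * ∑ i, κ i * (ν i * dst (Bd i) p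
          (Rs (Bd i) (pos i) (N i) (a i) (r i) p g) (Z i))) / len p
      = 2 * (((∑ i, κ i) * ∑ i, κ i * (ν i * dst (Bd i) p
          (Rs (Bd i) (pos i) (N i) (a i) (r i) p g) (Z i))) / len p) := by ring
  rw [h8]
  linarith

end family


/-! ### the ladder (port of ElW_778) -/

section one

variable {Ω : Type*} {Bd : Nd → Finset Ω} {pos : Ω → ℤ} {N : Nd → (Ω → ℂ) → ℝ} {ν : ℝ}

lemma adm_dya (hB : Bnd Bd pos N ν) {r : ℝ} {p : Nd} {P B : Ω → ℂ} (hP : Adm Bd N r p P)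
    (hb : Adm Bd N r p B) (n : ℕ) :
    Adm Bd N r p (fun ω => P ω + (B ω - P ω) / 2 ^ n) := by
  induction n with
  | zero =>
    have : (fun ω => P ω + (B ω - P ω) / 2 ^ 0) = B := by
      funext ω; simp
    rw [this]; exact hb
  | succ n ih =>
    have h := adm_mid hB hP ih
    have e : (fun ω => (P ω + (P ω + (B ω - P ω) / 2 ^ n)) / 2)
        = fun ω => P ω + (B ω - P ω) / 2 ^ (n + 1) := by
      funext ω
      rw [pow_succ]
      field_simp
      ring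
    rw [e] at h
    exact h

/-- **variational inequality** of the projection -/
theorem var_ineq (hB : Bnd Bd pos N ν) {r : ℝ} (hr : 0 ≤ r) (p : Nd) (A : Ω → ℂ) {B : Ω → ℂ}
    (hb : Adm Bd N r p B) :
    ∑ ω ∈ Bd p, (starRingEnd ℂ (A ω - Pj Bd N r p A ω) * (B ω - Pj Bd N r p A ω)).re ≤ 0 := by
  have hs := Pj_spec hB hr p A
  set P := Pj Bd N r p A with hP
  set s := ∑ ω ∈ Bd p, (starRingEnd ℂ (A ω - P ω) * (B ω - P ω)).re with hsdef
  set D := dst Bd p B P with hD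
  have key : ∀ n : ℕ, 2 * s ≤ D * (1 / 2) ^ n := by
    intro n
    have h1 := hs.2 _ (adm_dya hB hs.1 hb n)
    have h2 : dst Bd p A (fun ω => P ω + (B ω - P ω) / 2 ^ n)
        = dst Bd p A P - 2 * (1 / 2) ^ n * s + ((1 / 2) ^ n) ^ 2 * D := by
      rw [hsdef, hD]
      unfold dst
      rw [Finset.mul_sum, Finset.mul_sum, ← Finset.sum_sub_distrib, ← Finset.sum_add_distrib]
      refine Finset.sum_congr rfl fun ω _ => ?_
      have e1 : A ω - (P ω + (B ω - P ω) / 2 ^ n)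
          = (A ω - P ω) - (((1 / 2 : ℝ) ^ n : ℝ) : ℂ) * (B ω - P ω) := by
        push_cast
        rw [one_div, inv_pow]
        field_simp
        ring
      rw [e1, ← Complex.normSq_eq_norm_sq, ← Complex.normSq_eq_norm_sq,
        ← Complex.normSq_eq_norm_sq]
      generalize (1 / 2 : ℝ) ^ n = c
      simp only [Complex.normSq_apply, Complex.mul_re, Complex.mul_im, Complex.conj_re,
        Complex.conj_im, Complex.sub_re, Complex.sub_im, Complex.ofReal_re, Complex.ofReal_im]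
      ring
    rw [h2] at h1
    have hc : (0 : ℝ) < (1 / 2) ^ n := by positivity
    have h3 : (1 / 2 : ℝ) ^ n * (2 * s) ≤ (1 / 2 : ℝ) ^ n * (D * (1 / 2) ^ n) := by nlinarith
    exact le_of_mul_le_mul_left h3 hc
  by_contra hcon
  rw [not_le] at hcon
  have hD0 : 0 ≤ D := dst_nonneg p _ _
  have ht : Filter.Tendsto (fun n : ℕ => D * (1 / 2 : ℝ) ^ n) Filter.atTop (nhds (D * 0)) :=
    (tendsto_pow_atTop_nhds_zero_of_lt_one (by norm_num) (by norm_num)).const_mul D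
  have := ge_of_tendsto' ht key
  linarith

/-- **the projection is firmly nonexpansive** -/
theorem firm (hB : Bnd Bd pos N ν) {r : ℝ} (hr : 0 ≤ r) (p : Nd) (A A' : Ω → ℂ) :
    dst Bd p (fun ω => A ω - Pj Bd N r p A ω) (fun ω => A' ω - Pj Bd N r p A' ω)
      + dst Bd p (Pj Bd N r p A) (Pj Bd N r p A') ≤ dst Bd p A A' := by
  have h1 := var_ineq hB hr p A (Pj_spec hB hr p A').1
  have h2 := var_ineq hB hr p A' (Pj_spec hB hr p A).1
  set P := Pj Bd N r p A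
  set P' := Pj Bd N r p A'
  have h3 : dst Bd p A A' = dst Bd p (fun ω => A ω - P ω) (fun ω => A' ω - P' ω)
      + dst Bd p P P'
      - 2 * ((∑ ω ∈ Bd p, (starRingEnd ℂ (A ω - P ω) * (P' ω - P ω)).re)
        + ∑ ω ∈ Bd p, (starRingEnd ℂ (A' ω - P' ω) * (P ω - P' ω)).re) := by
    unfold dst
    rw [← Finset.sum_add_distrib, ← Finset.sum_add_distrib, Finset.mul_sum,
      ← Finset.sum_sub_distrib]
    refine Finset.sum_congr rfl fun ω _ => ?_
    rw [← Complex.normSq_eq_norm_sq, ← Complex.normSq_eq_norm_sq,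
      ← Complex.normSq_eq_norm_sq]
    simp only [Complex.normSq_apply, Complex.mul_re, Complex.conj_re,
      Complex.conj_im, Complex.sub_re, Complex.sub_im]
    ring
  rw [h3]
  linarith

theorem chi_lip (hB : Bnd Bd pos N ν) {r : ℝ} (hr : 0 ≤ r) (p : Nd) (A A' : Ω → ℂ) :
    dst Bd p (fun ω => A ω - Pj Bd N r p A ω) (fun ω => A' ω - Pj Bd N r p A' ω)
      ≤ dst Bd p A A' := by
  have h := firm hB hr p A A'
  have h2 := dst_nonneg (Bd := Bd) p (Pj Bd N r p A) (Pj Bd N r p A')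
  linarith

/-- the ladder: `Σ_{i < K} (i + 1) χ_i (C_{i+1})`, `χ_i = 1 - (projection to the threshold i)` -/
noncomputable def lad (Bd : Nd → Finset Ω) (N : Nd → (Ω → ℂ) → ℝ) (r : ℕ → ℝ) (K : ℕ) (p : Nd)
    (C : ℕ → Ω → ℂ) : Ω → ℂ :=
  fun ω => ∑ i ∈ range K, ((i : ℂ) + 1) * (C (i + 1) ω - Pj Bd N (r i) p (C (i + 1)) ω)

/-- the sum of the parts above the thresholds is the ladder of the projections -/
theorem lad_eq {r : ℕ → ℝ} {K : ℕ} {p : Nd} {A : Ω → ℂ}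
    (comp : ∀ i < K, ∀ ω ∈ Bd p,
      Pj Bd N (r i) p (Pj Bd N (r (i + 1)) p A) ω = Pj Bd N (r i) p A ω)
    (top : ∀ ω ∈ Bd p, Pj Bd N (r K) p A ω = A ω) (ω : Ω) (hω : ω ∈ Bd p) :
    ∑ j ∈ range (K + 1), (A ω - Pj Bd N (r j) p A ω)
      = lad Bd N r K p (fun i => Pj Bd N (r i) p A) ω := by
  unfold lad
  have h1 : ∑ i ∈ range K, ((i : ℂ) + 1) * (Pj Bd N (r (i + 1)) p A ω
      - Pj Bd N (r i) p (Pj Bd N (r (i + 1)) p A) ω)
      = ∑ i ∈ range K, ((i : ℂ) + 1) * (Pj Bd N (r (i + 1)) p A ω - Pj Bd N (r i) p A ω) :=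
    Finset.sum_congr rfl fun i hi => by rw [comp i (Finset.mem_range.1 hi) ω hω]
  rw [h1, tele (fun i => Pj Bd N (r i) p A ω), top ω hω, Finset.sum_sub_distrib,
    Finset.sum_const, Finset.card_range, nsmul_eq_mul, Finset.sum_range_succ, top ω hω]
  push_cast
  ring

theorem lad_dst (hB : Bnd Bd pos N ν) {r : ℕ → ℝ} (hr : ∀ i, 0 ≤ r i) (K : ℕ) (p : Nd)
    (C C' : ℕ → Ω → ℂ) :
    dst Bd p (lad Bd N r K p C) (lad Bd N r K p C')
      ≤ (K : ℝ) ^ 3 * ∑ i ∈ range K, dst Bd p (C (i + 1)) (C' (i + 1)) := by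
  have h1 : ∀ ω, ‖lad Bd N r K p C ω - lad Bd N r K p C' ω‖ ^ 2
      ≤ (K : ℝ) ^ 3 * ∑ i ∈ range K, ‖(C (i + 1) ω - Pj Bd N (r i) p (C (i + 1)) ω)
        - (C' (i + 1) ω - Pj Bd N (r i) p (C' (i + 1)) ω)‖ ^ 2 := by
    intro ω
    unfold lad
    rw [← Finset.sum_sub_distrib]
    have h2 : ‖∑ i ∈ range K, (((i : ℂ) + 1) * (C (i + 1) ω - Pj Bd N (r i) p (C (i + 1)) ω)
        - ((i : ℂ) + 1) * (C' (i + 1) ω - Pj Bd N (r i) p (C' (i + 1)) ω))‖
        ≤ ∑ i ∈ range K, (K : ℝ) * ‖(C (i + 1) ω - Pj Bd N (r i) p (C (i + 1)) ω)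
        - (C' (i + 1) ω - Pj Bd N (r i) p (C' (i + 1)) ω)‖ := by
      refine (norm_sum_le _ _).trans (Finset.sum_le_sum fun i hi => ?_)
      rw [← mul_sub, norm_mul]
      refine mul_le_mul_of_nonneg_right ?_ (norm_nonneg _)
      have e : ((i : ℂ) + 1) = ((i + 1 : ℕ) : ℂ) := by push_cast; ring
      rw [e, Complex.norm_natCast]
      exact_mod_cast Finset.mem_range.1 hi
    have h3 : ‖∑ i ∈ range K, (((i : ℂ) + 1) * (C (i + 1) ω - Pj Bd N (r i) p (C (i + 1)) ω)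
        - ((i : ℂ) + 1) * (C' (i + 1) ω - Pj Bd N (r i) p (C' (i + 1)) ω))‖ ^ 2
        ≤ (∑ i ∈ range K, (K : ℝ) * ‖(C (i + 1) ω - Pj Bd N (r i) p (C (i + 1)) ω)
        - (C' (i + 1) ω - Pj Bd N (r i) p (C' (i + 1)) ω)‖) ^ 2 :=
      pow_le_pow_left₀ (norm_nonneg _) h2 2
    refine h3.trans ?_
    have h4 := sq_sum_le_card_mul_sum_sq (s := range K)
      (f := fun i => (K : ℝ) * ‖(C (i + 1) ω - Pj Bd N (r i) p (C (i + 1)) ω)
        - (C' (i + 1) ω - Pj Bd N (r i) p (C' (i + 1)) ω)‖)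
    rw [Finset.card_range] at h4
    refine h4.trans (le_of_eq ?_)
    rw [Finset.mul_sum, Finset.mul_sum]
    refine Finset.sum_congr rfl fun i _ => ?_
    ring
  have h5 : dst Bd p (lad Bd N r K p C) (lad Bd N r K p C')
      ≤ (K : ℝ) ^ 3 * ∑ i ∈ range K,
        dst Bd p (fun ω => C (i + 1) ω - Pj Bd N (r i) p (C (i + 1)) ω)
          (fun ω => C' (i + 1) ω - Pj Bd N (r i) p (C' (i + 1)) ω) := by
    unfold dst
    refine (Finset.sum_le_sum fun ω _ => h1 ω).trans (le_of_eq ?_)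
    rw [← Finset.mul_sum, Finset.sum_comm]
  refine h5.trans (mul_le_mul_of_nonneg_left (Finset.sum_le_sum fun i _ => ?_) (by positivity))
  exact chi_lip hB (hr i) p _ _

end one

section family

variable {ι : Type*} [Fintype ι] {Ω : ι → Type*} {Bd : ∀ i, Nd → Finset (Ω i)}
  {pos : ∀ i, Ω i → ℤ} {N : ∀ i, Nd → (Ω i → ℂ) → ℝ} {ν : ι → ℝ} {a : ∀ i, Ω i → ℂ}
  {r : ι → ℕ → ℝ} {κ : ι → ℝ} {X : Fn} {η : ℝ} {f : Nd → Fn}

/-- threshold penalties of the gauges `w` and the ladder `r w 0, …, r w K` -/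
noncomputable def ThL (K : ℕ) (Bd : ∀ i, Nd → Finset (Ω i)) (pos : ∀ i, Ω i → ℤ)
    (N : ∀ i, Nd → (Ω i → ℂ) → ℝ) (ν : ι → ℝ) (a : ∀ i, Ω i → ℂ) (r : ι → ℕ → ℝ) (κ : ι → ℝ) :
    Nd → Fn → ℝ :=
  ThF (ι := ι × Fin (K + 1)) (fun i => Bd i.1) (fun i => pos i.1) (fun i => N i.1)
    (fun i => ν i.1) (fun i => a i.1) (fun i => r i.1 i.2) (fun i => κ i.1)

/-- **(e): `X = g_Λ + Ψ' + e` at every node of a good window**: `g_Λ` = glued exit minimisers,
`Ψ'` = ladder of the glued exit projections in the calculus of the node -/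
theorem el_ladder {K : ℕ} (hB : ∀ i, Bnd (Bd i) (pos i) (N i) (ν i)) (ha : ∀ i ω, ‖a i ω‖ ≤ 1)
    (hr : ∀ i j, 0 ≤ r i j) (hκ : ∀ i, 0 ≤ κ i)
    (h : NMP (fun _ _ => True) (ThL K Bd pos N ν a r κ) X η f)
    {W : Finset Nd} {I : Nd} (hW : Full W I) {δ : ℝ}
    (hG : GdP (ThL K Bd pos N ν a r κ) X η f δ W I) {p : Nd} (hp : p ∈ W)
    (comp : ∀ w, ∀ i < K, ∀ ω ∈ Bd w p,
      Pj (Bd w) (N w) (r w i) p (Pj (Bd w) (N w) (r w (i + 1)) p
        (ag (Bd w) (pos w) (a w) p (gl W f))) ω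
      = Pj (Bd w) (N w) (r w i) p (ag (Bd w) (pos w) (a w) p (gl W f)) ω)
    (top : ∀ w, ∀ ω ∈ Bd w p,
      Pj (Bd w) (N w) (r w K) p (ag (Bd w) (pos w) (a w) p (gl W f)) ω
      = ag (Bd w) (pos w) (a w) p (gl W f) ω) :
    av p (fun y => X y - gl W f y - LnF Bd pos ν a κ p (fun w => lad (Bd w) (N w) (r w) K p
      (fun i => Bgl (Bd w) (pos w) (N w) (a w) (r w i) W p (gl W f))) y) ^ 2
      ≤ (2 * (1 + (K + 1) * ∑ i, κ i) + 4 * ((∑ i, κ i) * (K : ℝ) ^ 3)) * (δ + η) := by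
  have hP : PenC 0 (fun _ _ => True) (ThL K Bd pos N ν a r κ) :=
    pen_ThF (fun i => hB i.1) (fun i => hr i.1 i.2) (fun i => hκ i.1)
  have hM0 : 0 ≤ ∑ i, κ i := Finset.sum_nonneg fun i _ => hκ i
  have hM : ∑ i : ι × Fin (K + 1), κ i.1 = (K + 1) * ∑ i, κ i := by
    rw [Fintype.sum_prod_type, Finset.mul_sum]
    refine Finset.sum_congr rfl fun i _ => ?_
    simp
  have hL := Growth.len_pos p
  set g := gl W f with hg
  set A : ∀ w, Ω w → ℂ := fun w => ag (Bd w) (pos w) (a w) p g with hA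
  have h1 := el_win (Ψ := GrF (ι := ι × Fin (K + 1)) (fun i => Bd i.1) (fun i => pos i.1)
    (fun i => N i.1) (fun i => ν i.1) (fun i => a i.1) (fun i => r i.1 i.2) (fun i => κ i.1) p
    (gl W f)) (M := ∑ i : ι × Fin (K + 1), κ i.1) hP h hW hG hp
    (Finset.sum_nonneg fun i _ => hκ i.1)
    (fv_ThF (ι := ι × Fin (K + 1)) (a := fun i => a i.1) (r := fun i => r i.1 i.2)
      (κ := fun i => κ i.1) (fun i => hB i.1) (fun i => ha i.1) (fun i => hr i.1 i.2)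
      (fun i => hκ i.1) p _ _)
    trivial
  rw [← hg, hM] at h1
  -- the half gradient is the ladder of the own projections
  have h2 : GrF (ι := ι × Fin (K + 1)) (fun i => Bd i.1) (fun i => pos i.1)
      (fun i => N i.1) (fun i => ν i.1) (fun i => a i.1) (fun i => r i.1 i.2) (fun i => κ i.1) p g
      = LnF Bd pos ν a κ p (fun w => lad (Bd w) (N w) (r w) K p
        (fun i => Pj (Bd w) (N w) (r w i) p (A w))) := by
    rw [GrF_eq]
    funext y
    unfold LnF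
    rw [Fintype.sum_prod_type]
    refine Finset.sum_congr rfl fun w _ => ?_
    show ∑ j : Fin (K + 1), (κ w : ℂ) * Ln (Bd w) (pos w) (ν w) (a w) p
      (Rs (Bd w) (pos w) (N w) (a w) (r w j) p g) y = _
    rw [← Finset.mul_sum]
    congr 1
    have h3 := Ln_sum (Bd := Bd w) (pos := pos w) (ν := ν w) (a := a w) (p := p)
      (Finset.univ : Finset (Fin (K + 1)))
      (fun j => Rs (Bd w) (pos w) (N w) (a w) (r w j) p g) y
    refine h3.trans ?_
    refine congrFun (Ln_congr fun ω hω => ?_) y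
    refine Eq.trans ?_ (lad_eq (comp w) (top w) ω hω)
    exact Fin.sum_univ_eq_sum_range (fun j => A w ω - Pj (Bd w) (N w) (r w j) p (A w) ω) (K + 1)
  rw [h2] at h1
  have h3 := LnF_dst hB ha hκ p (fun w => lad (Bd w) (N w) (r w) K p
        (fun i => Pj (Bd w) (N w) (r w i) p (A w)))
        (fun w => lad (Bd w) (N w) (r w) K p
      (fun i => Bgl (Bd w) (pos w) (N w) (a w) (r w i) W p g))
  have h4 : ∑ w, κ w * (ν w * dst (Bd w) p (lad (Bd w) (N w) (r w) K p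
        (fun i => Pj (Bd w) (N w) (r w i) p (A w)))
        (lad (Bd w) (N w) (r w) K p
      (fun i => Bgl (Bd w) (pos w) (N w) (a w) (r w i) W p g)))
      ≤ (K : ℝ) ^ 3 * (2 * (len p * (δ + η))) := by
    have h5 := thr_win (ι := ι × Fin (K + 1)) (fun i => hB i.1) (fun i => hr i.1 i.2)
      (fun i => hκ i.1) h hW hG hp
    rw [Fintype.sum_prod_type] at h5
    have h6 : ∀ w, κ w * (ν w * dst (Bd w) p (lad (Bd w) (N w) (r w) K p
        (fun i => Pj (Bd w) (N w) (r w i) p (A w)))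
        (lad (Bd w) (N w) (r w) K p
      (fun i => Bgl (Bd w) (pos w) (N w) (a w) (r w i) W p g)))
        ≤ (K : ℝ) ^ 3 * (2 * ∑ j : Fin (K + 1), κ w * (ν w / 2 * dst (Bd w) p
          (Pj (Bd w) (N w) (r w j) p (A w))
          (Bgl (Bd w) (pos w) (N w) (a w) (r w j) W p g))) := by
      intro w
      have h7 := lad_dst (hB w) (hr w) K p (fun i => Pj (Bd w) (N w) (r w i) p (A w))
        (fun i => Bgl (Bd w) (pos w) (N w) (a w) (r w i) W p g)
      have h8 : ∑ j : Fin (K + 1), κ w * (ν w / 2 * dst (Bd w) p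
          (Pj (Bd w) (N w) (r w j) p (A w))
          (Bgl (Bd w) (pos w) (N w) (a w) (r w j) W p g))
          = κ w * ν w / 2 * ∑ j ∈ range (K + 1), dst (Bd w) p
          (Pj (Bd w) (N w) (r w j) p (A w))
          (Bgl (Bd w) (pos w) (N w) (a w) (r w j) W p g) := by
        rw [← Fin.sum_univ_eq_sum_range (fun j => dst (Bd w) p
          (Pj (Bd w) (N w) (r w j) p (A w))
          (Bgl (Bd w) (pos w) (N w) (a w) (r w j) W p g)) (K + 1), Finset.mul_sum]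
        refine Finset.sum_congr rfl fun j _ => ?_
        ring
      have h9 : ∑ i ∈ range K, dst (Bd w) p (Pj (Bd w) (N w) (r w (i + 1)) p (A w))
          (Bgl (Bd w) (pos w) (N w) (a w) (r w (i + 1)) W p g)
          ≤ ∑ j ∈ range (K + 1), dst (Bd w) p
          (Pj (Bd w) (N w) (r w j) p (A w))
          (Bgl (Bd w) (pos w) (N w) (a w) (r w j) W p g) := by
        rw [Finset.sum_range_succ']
        have := dst_nonneg (Bd := Bd w) p (Pj (Bd w) (N w) (r w 0) p (A w))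
          (Bgl (Bd w) (pos w) (N w) (a w) (r w 0) W p g)
        linarith
      rw [h8]
      have hκν : 0 ≤ κ w * ν w := mul_nonneg (hκ w) (hB w).nu.le
      have hK3 : (0 : ℝ) ≤ (K : ℝ) ^ 3 := by positivity
      have h10 := h7.trans (mul_le_mul_of_nonneg_left h9 hK3)
      have h11 := mul_le_mul_of_nonneg_left h10 hκν
      refine le_trans (le_of_eq ?_) (h11.trans (le_of_eq ?_))
      · ring
      · ring
    refine (Finset.sum_le_sum fun w _ => h6 w).trans ?_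
    rw [← Finset.mul_sum, ← Finset.mul_sum]
    exact mul_le_mul_of_nonneg_left (mul_le_mul_of_nonneg_left h5 (by norm_num)) (by positivity)
  set G := LnF Bd pos ν a κ p (fun w => lad (Bd w) (N w) (r w) K p
        (fun i => Pj (Bd w) (N w) (r w i) p (A w)))
  set L := LnF Bd pos ν a κ p (fun w => lad (Bd w) (N w) (r w) K p
      (fun i => Bgl (Bd w) (pos w) (N w) (a w) (r w i) W p g))
  have h5 : av p (fun y => G y - L y) ^ 2 ≤ (∑ i, κ i) * ((K : ℝ) ^ 3 * (2 * (δ + η))) := by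
    have h6 := h3.trans (mul_le_mul_of_nonneg_left h4 hM0)
    have h7 : len p * av p (fun y => G y - L y) ^ 2
        ≤ len p * ((∑ i, κ i) * ((K : ℝ) ^ 3 * (2 * (δ + η)))) := by
      refine h6.trans (le_of_eq ?_)
      ring
    exact le_of_mul_le_mul_left h7 hL
  have h6 : av p (fun y => X y - g y - L y) ^ 2
      ≤ 2 * av p (fun y => X y - g y - G y) ^ 2 + 2 * av p (fun y => G y - L y) ^ 2 := by
    have h4 : len p * av p (fun y => X y - g y - L y) ^ 2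
        ≤ len p * (2 * av p (fun y => X y - g y - G y) ^ 2
          + 2 * av p (fun y => G y - L y) ^ 2) := by
      rw [mul_add, mul_left_comm (len p) 2, mul_left_comm (len p) 2, ← sum_av', ← sum_av',
        ← sum_av', Finset.mul_sum, Finset.mul_sum, ← Finset.sum_add_distrib]
      refine Finset.sum_le_sum fun y _ => ?_
      have e : X y - g y - L y = (X y - g y - G y) + (G y - L y) := by ring
      rw [e]
      have h5 := norm_add_le (X y - g y - G y) (G y - L y)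
      have h6 := pow_le_pow_left₀ (norm_nonneg _) h5 2
      nlinarith [sq_nonneg (‖X y - g y - G y‖ - ‖G y - L y‖)]
    exact le_of_mul_le_mul_left h4 hL
  refine h6.trans ?_
  nlinarith [h1, h5]

end family

end Crest.Agent.R079.ElT440
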