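import Crest.Agent.R079.FrozenB_569

/-! R079, doc 2539 (5) (helper118): boundary points of the alive sets of a region, ERODED masks,
counting. -/

set_option autoImplicit false
set_option linter.unusedVariables false

namespace Crest.Agent.R079.ErM

open Finset Crest.Agent.R079.Grid Crest.Agent.R079.Glue

/-- indices of the nodes of level `m` -/
noncomputable def Am (R : Finset (ℕ × ℤ)) (m : ℕ) : Finset ℤ :=
  (R.filter (fun p => p.1 = m)).image Prod.snd

lemma mem_Am (R : Finset (ℕ × ℤ)) (m : ℕ) (l : ℤ) : l ∈ Am R m ↔ (m, l) ∈ R := by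
  unfold Am
  rw [Finset.mem_image]
  constructor
  · rintro ⟨p, hp, rfl⟩
    rw [Finset.mem_filter] at hp
    obtain ⟨a, b⟩ := p
    obtain ⟨h1, h2⟩ := hp
    simp only at h2
    subst h2
    exact h1
  · intro h
    exact ⟨(m, l), Finset.mem_filter.mpr ⟨h, rfl⟩, rfl⟩

/-- boundary points `l 2^(m+7)` of the alive set of level `m` -/
noncomputable def Bd (R : Finset (ℕ × ℤ)) (m : ℕ) : Finset ℤ :=
  ((Am R m).filter (fun l => l - 1 ∉ Am R m)) ∪
    (((Am R m).image (fun l => l + 1)).filter (fun l => l ∉ Am R m))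

lemma mem_Bd (R : Finset (ℕ × ℤ)) (m : ℕ) (l : ℤ) :
    l ∈ Bd R m ↔ ((m, l) ∈ R ∧ (m, l - 1) ∉ R) ∨ ((m, l - 1) ∈ R ∧ (m, l) ∉ R) := by
  unfold Bd
  rw [Finset.mem_union, Finset.mem_filter, Finset.mem_filter, mem_Am, mem_Am, Finset.mem_image]
  constructor
  · rintro (h | ⟨⟨a, ha, rfl⟩, h2⟩)
    · exact Or.inl h
    · right
      rw [mem_Am] at ha
      rw [add_sub_cancel_right]
      exact ⟨ha, h2⟩
  · rintro (h | ⟨h1, h2⟩)
    · exact Or.inl h
    · right
      exact ⟨⟨l - 1, (mem_Am R m _).mpr h1, by ring⟩, h2⟩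

/-- nodes of level `m` which are dead although their parent is alive -/
noncomputable def Ex (R : Finset (ℕ × ℤ)) (m : ℕ) : Finset ℤ :=
  (((Am R (m + 1)).image (fun l => 2 * l)) ∪ ((Am R (m + 1)).image (fun l => 2 * l + 1))).filter
    (fun l => l ∉ Am R m)

lemma mem_Ex (R : Finset (ℕ × ℤ)) (m : ℕ) (l : ℤ) :
    l ∈ Ex R m ↔ (m + 1, l / 2) ∈ R ∧ (m, l) ∉ R := by
  unfold Ex
  rw [Finset.mem_filter, mem_Am, Finset.mem_union, Finset.mem_image, Finset.mem_image]
  constructor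
  · rintro ⟨⟨a, ha, rfl⟩ | ⟨a, ha, rfl⟩, h⟩
    · rw [mem_Am] at ha
      refine ⟨?_, h⟩
      rw [show 2 * a / 2 = a by omega]
      exact ha
    · rw [mem_Am] at ha
      refine ⟨?_, h⟩
      rw [show (2 * a + 1) / 2 = a by omega]
      exact ha
  · rintro ⟨h1, h2⟩
    refine ⟨?_, h2⟩
    rcases Int.even_or_odd l with he | ho
    · left
      refine ⟨l / 2, (mem_Am R _ _).mpr h1, ?_⟩
      obtain ⟨k, hk⟩ := he
      omega
    · right
      refine ⟨l / 2, (mem_Am R _ _).mpr h1, ?_⟩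
      obtain ⟨k, hk⟩ := ho
      omega

variable {R : Finset (ℕ × ℤ)} {J : ℕ × ℤ}

/-- parents of alive nodes are alive -/
lemma parent_mem (hR : IsRegion R J) (m : ℕ) (hm : m + 1 ≤ J.1) (l : ℤ) (h : (m, l) ∈ R) :
    (m + 1, l / 2) ∈ R := by
  have hy : l * 2 ^ (m + 7) ∈ Rm R m := by
    rw [mem_Rm, Int.mul_ediv_cancel _ (by positivity)]
    exact h
  have h2 := Rm_mono R J hR m hm hy
  rw [mem_Rm] at h2
  have e : l * 2 ^ (m + 7) / 2 ^ (m + 1 + 7) = l / 2 := by
    rw [show m + 1 + 7 = m + 7 + 1 by ring, ediv_pow_ediv,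
      Int.mul_ediv_cancel _ (by positivity), pow_one]
  rwa [e] at h2

/-- recurrence for the boundary -/
lemma card_Bd_le (hR : IsRegion R J) (m : ℕ) (hm : m + 1 ≤ J.1) :
    (Bd R m).card ≤ (Bd R (m + 1)).card + 2 * (Ex R m).card := by
  classical
  have hsub : Bd R m ⊆ ((Bd R (m + 1)).image (fun l => 2 * l)) ∪
      ((Ex R m).image (fun l => l + 1) ∪ Ex R m) := by
    intro l hl
    rw [mem_Bd] at hl
    rw [Finset.mem_union, Finset.mem_union, Finset.mem_image, Finset.mem_image]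
    rcases hl with ⟨h1, h2⟩ | ⟨h1, h2⟩
    · have hp := parent_mem hR m hm l h1
      by_cases hq : (m + 1, (l - 1) / 2) ∈ R
      · right; left
        exact ⟨l - 1, (mem_Ex R m _).mpr ⟨hq, h2⟩, by ring⟩
      · left
        have hne : l / 2 ≠ (l - 1) / 2 := fun e => hq (e ▸ hp)
        refine ⟨l / 2, ?_, by omega⟩
        rw [mem_Bd]
        left
        refine ⟨hp, ?_⟩
        rw [show l / 2 - 1 = (l - 1) / 2 by omega]
        exact hq
    · have hp := parent_mem hR m hm (l - 1) h1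
      by_cases hq : (m + 1, l / 2) ∈ R
      · right; right
        exact (mem_Ex R m _).mpr ⟨hq, h2⟩
      · left
        have hne : l / 2 ≠ (l - 1) / 2 := fun e => hq (e ▸ hp)
        refine ⟨l / 2, ?_, by omega⟩
        rw [mem_Bd]
        right
        refine ⟨?_, hq⟩
        rw [show l / 2 - 1 = (l - 1) / 2 by omega]
        exact hp
  refine (Finset.card_le_card hsub).trans ?_
  refine (Finset.card_union_le _ _).trans ?_
  have h1 : ((Bd R (m + 1)).image (fun l => 2 * l)).card ≤ (Bd R (m + 1)).card :=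
    Finset.card_image_le
  have h2 := Finset.card_union_le ((Ex R m).image (fun l => l + 1)) (Ex R m)
  have h3 : ((Ex R m).image (fun l => l + 1)).card ≤ (Ex R m).card := Finset.card_image_le
  omega

/-- exit intervals are exits -/
lemma card_Ex_le (m : ℕ) : (Ex R m).card * 2 ^ (m + 7) ≤ (Dm R (m + 1)).card := by
  classical
  have h1 : ((Ex R m).biUnion fun l => dI (m + 7) l).card = (Ex R m).card * 2 ^ (m + 7) := by
    rw [Finset.card_biUnion]
    · simp only [card_dI]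
      rw [Finset.sum_const, smul_eq_mul]
    · intro l _ l' _ hll
      rw [Function.onFun, Finset.disjoint_left]
      intro y hy hy'
      rw [mem_dI_iff] at hy hy'
      exact hll (hy.symm.trans hy')
  rw [← h1]
  refine Finset.card_le_card ?_
  intro y hy
  rw [Finset.mem_biUnion] at hy
  obtain ⟨l, hl, hy⟩ := hy
  rw [mem_Ex] at hl
  rw [mem_dI_iff] at hy
  unfold Dm
  rw [Finset.mem_sdiff]
  constructor
  · show y ∈ Rm R (m + 1)
    rw [mem_Rm, show m + 1 + 7 = m + 7 + 1 by ring, ediv_pow_ediv, hy, pow_one]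
    exact hl.1
  · show y ∉ Rm R m
    rw [mem_Rm, hy]
    exact hl.2

/-- the top level -/
lemma card_Bd_top (hR : IsRegion R J) : (Bd R J.1).card ≤ 2 := by
  classical
  have hA : ∀ l, (J.1, l) ∈ R → l = J.2 := by
    intro l hl
    have h := hR.1 _ hl
    have hy : l * 2 ^ (J.1 + 7) ∈ dI (J.1 + 7) l := by
      rw [mem_dI_iff, Int.mul_ediv_cancel _ (by positivity)]
    have h2 := h hy
    rw [mem_dI_iff, Int.mul_ediv_cancel _ (by positivity)] at h2
    exact h2
  have hsub : Bd R J.1 ⊆ {J.2, J.2 + 1} := by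
    intro l hl
    rw [mem_Bd] at hl
    rw [Finset.mem_insert, Finset.mem_singleton]
    rcases hl with ⟨h1, _⟩ | ⟨h1, _⟩
    · exact Or.inl (hA l h1)
    · right
      have := hA _ h1
      omega
  refine (Finset.card_le_card hsub).trans ?_
  exact Finset.card_le_two

/-- **total boundary**: `∑_m |Bd m| 2^(m+7) ≤ 8 |J|` -/
theorem sum_Bd (hR : IsRegion R J) :
    ∑ m ∈ range (J.1 + 1), ((Bd R m).card : ℝ) * 2 ^ (m + 7) ≤ 8 * 2 ^ (J.1 + 7) := by
  have h1 : ∀ m ∈ range J.1, ((Bd R m).card : ℝ) * 2 ^ (m + 7) ≤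
      2 * ((Dm R (m + 1)).card : ℝ) + (1 / 2) * (((Bd R (m + 1)).card : ℝ) * 2 ^ (m + 1 + 7)) := by
    intro m hm
    rw [Finset.mem_range] at hm
    have a1 : ((Bd R m).card : ℝ) ≤ (Bd R (m + 1)).card + 2 * (Ex R m).card := by
      exact_mod_cast card_Bd_le hR m (by omega)
    have a2 : ((Ex R m).card : ℝ) * 2 ^ (m + 7) ≤ (Dm R (m + 1)).card := by
      exact_mod_cast card_Ex_le (R := R) m
    have hp : (0 : ℝ) < 2 ^ (m + 7) := by positivity
    have a3 := mul_le_mul_of_nonneg_right a1 hp.le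
    have e : (2 : ℝ) ^ (m + 1 + 7) = 2 * 2 ^ (m + 7) := by
      rw [show m + 1 + 7 = m + 7 + 1 by ring, pow_succ]; ring
    rw [e]
    nlinarith
  have h2 := Finset.sum_le_sum h1
  rw [Finset.sum_add_distrib, ← Finset.mul_sum, ← Finset.mul_sum] at h2
  -- shift
  have h3 : ∑ m ∈ range J.1, ((Dm R (m + 1)).card : ℝ) ≤ 2 ^ (J.1 + 7) := by
    have := sum_card_Dm R J hR
    rw [Finset.sum_range_succ'] at this
    have h0 : (0 : ℝ) ≤ ((Dm R 0).card : ℝ) := by positivity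
    linarith
  have h4 : ∑ m ∈ range J.1, ((Bd R (m + 1)).card : ℝ) * 2 ^ (m + 1 + 7) ≤
      ∑ m ∈ range (J.1 + 1), ((Bd R m).card : ℝ) * 2 ^ (m + 7) := by
    rw [Finset.sum_range_succ' (fun m => ((Bd R m).card : ℝ) * 2 ^ (m + 7)) J.1]
    have h0 : (0 : ℝ) ≤ ((Bd R 0).card : ℝ) * 2 ^ (0 + 7) := by positivity
    linarith
  have h5 : ((Bd R J.1).card : ℝ) * 2 ^ (J.1 + 7) ≤ 2 * 2 ^ (J.1 + 7) := by
    have : ((Bd R J.1).card : ℝ) ≤ 2 := by exact_mod_cast card_Bd_top hR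
    exact mul_le_mul_of_nonneg_right this (by positivity)
  have h6 : ∑ m ∈ range (J.1 + 1), ((Bd R m).card : ℝ) * 2 ^ (m + 7) =
      ∑ m ∈ range J.1, ((Bd R m).card : ℝ) * 2 ^ (m + 7) +
        ((Bd R J.1).card : ℝ) * 2 ^ (J.1 + 7) := Finset.sum_range_succ _ _
  linarith

/-! ### neighbourhoods of the boundary -/

/-- points within `K 2^m` of the boundary of the alive set of level `m` -/
noncomputable def NB (R : Finset (ℕ × ℤ)) (m K : ℕ) : Finset ℤ :=
  (Bd R m).biUnion fun l => Icc (l * 2 ^ (m + 7) - K * 2 ^ m) (l * 2 ^ (m + 7) + K * 2 ^ m)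

lemma mem_NB (R : Finset (ℕ × ℤ)) (m K : ℕ) (l y : ℤ) (hl : l ∈ Bd R m)
    (h : |y - l * 2 ^ (m + 7)| ≤ K * 2 ^ m) : y ∈ NB R m K := by
  unfold NB
  rw [Finset.mem_biUnion]
  refine ⟨l, hl, ?_⟩
  rw [Finset.mem_Icc]
  rw [abs_le] at h
  constructor <;> linarith [h.1, h.2]

lemma NB_add {m K c : ℕ} {y q : ℤ} (hy : y ∈ NB R m K) (h : |q - y| ≤ c * 2 ^ m) :
    q ∈ NB R m (K + c) := by
  unfold NB at hy
  rw [Finset.mem_biUnion] at hy
  obtain ⟨l, hl, hy⟩ := hy
  rw [Finset.mem_Icc] at hy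
  refine mem_NB R m (K + c) l q hl ?_
  rw [abs_le] at h ⊢
  push_cast
  constructor <;> nlinarith [h.1, h.2, hy.1, hy.2]

lemma Dp_add {m K c : ℕ} {y q : ℤ} (hy : y ∈ Dp R m K) (h : |q - y| ≤ c * 2 ^ m) :
    q ∈ Dp R m (K + c) := by
  unfold Dp at hy ⊢
  rw [Finset.mem_biUnion] at hy ⊢
  obtain ⟨d, hd, hy⟩ := hy
  refine ⟨d, hd, ?_⟩
  rw [Finset.mem_Icc] at hy ⊢
  rw [abs_le] at h
  push_cast
  constructor <;> nlinarith [h.1, h.2, hy.1, hy.2]

lemma card_NB_le (m K : ℕ) : ((NB R m K).card : ℝ) ≤ ((Bd R m).card : ℝ) * ((2 * K + 1) * 2 ^ m) := by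
  classical
  have h : (NB R m K).card ≤ (Bd R m).card * ((2 * K + 1) * 2 ^ m) := by
    unfold NB
    refine Finset.card_biUnion_le_card_mul _ _ _ fun l _ => ?_
    rw [Int.card_Icc]
    have h1 : (1 : ℤ) ≤ 2 ^ m := one_le_pow₀ (by norm_num)
    have e : (l * 2 ^ (m + 7) + K * 2 ^ m + 1 - (l * 2 ^ (m + 7) - K * 2 ^ m) : ℤ) ≤
        (((2 * K + 1) * 2 ^ m : ℕ) : ℤ) := by
      push_cast
      nlinarith
    exact Int.toNat_le.mpr e
  exact_mod_cast h

/-- **number of points near the boundary** -/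
theorem sum_card_NB (hR : IsRegion R J) (K : ℕ) :
    ∑ m ∈ range (J.1 + 1), ((NB R m K).card : ℝ) ≤ (2 * K + 1) * 2 ^ (J.1 + 7) := by
  have h1 : ∀ m ∈ range (J.1 + 1), ((NB R m K).card : ℝ) ≤
      ((2 * K + 1) / 128) * (((Bd R m).card : ℝ) * 2 ^ (m + 7)) := by
    intro m _
    refine (card_NB_le m K).trans (le_of_eq ?_)
    rw [pow_add]
    ring
  refine (Finset.sum_le_sum h1).trans ?_
  rw [← Finset.mul_sum]
  refine (mul_le_mul_of_nonneg_left (sum_Bd hR) (by positivity)).trans ?_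
  have hp : (0 : ℝ) ≤ (2 * K + 1) * 2 ^ (J.1 + 7) := by positivity
  have e : (2 * (K : ℝ) + 1) / 128 * (8 * 2 ^ (J.1 + 7)) =
      (1 / 16) * ((2 * K + 1) * 2 ^ (J.1 + 7)) := by ring
  rw [e]
  linarith

/-- card of the neighbourhood of the exits -/
lemma card_Dp_le (m K : ℕ) : ((Dp R m K).card : ℝ) ≤ (2 * (K + 128) + 1) * (Dm R m).card := by
  classical
  set E := (Dm R m).image fun y => y / 2 ^ (m + 7) with hE
  have hsub : Dp R m K ⊆ E.biUnion fun l =>
      Icc (l * 2 ^ (m + 7) - ((K + 128 : ℕ) : ℤ) * 2 ^ m)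
        (l * 2 ^ (m + 7) + ((K + 128 : ℕ) : ℤ) * 2 ^ m) := by
    intro y hy
    unfold Dp at hy
    rw [Finset.mem_biUnion] at hy ⊢
    obtain ⟨d, hd, hy⟩ := hy
    refine ⟨d / 2 ^ (m + 7), Finset.mem_image_of_mem _ hd, ?_⟩
    have hdd : d ∈ dI (m + 7) (d / 2 ^ (m + 7)) := by rw [mem_dI_iff]
    unfold dI at hdd
    rw [Finset.mem_Ico] at hdd
    have e : (d / 2 ^ (m + 7) + 1) * (2 : ℤ) ^ (m + 7) =
        d / 2 ^ (m + 7) * 2 ^ (m + 7) + 128 * 2 ^ m := by
      rw [add_mul, one_mul]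
      congr 1
      rw [pow_add]; ring
    rw [e] at hdd
    rw [Finset.mem_Icc] at hy ⊢
    have hp : (0 : ℤ) < 2 ^ m := by positivity
    push_cast
    constructor <;> nlinarith [hy.1, hy.2, hdd.1, hdd.2]
  have h1 : (Dp R m K).card ≤ E.card * ((2 * (K + 128) + 1) * 2 ^ m) := by
    refine (Finset.card_le_card hsub).trans (Finset.card_biUnion_le_card_mul _ _ _ fun l _ => ?_)
    rw [Int.card_Icc]
    have h1 : (1 : ℤ) ≤ 2 ^ m := one_le_pow₀ (by norm_num)
    have e : (l * 2 ^ (m + 7) + ((K + 128 : ℕ) : ℤ) * 2 ^ m + 1 -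
        (l * 2 ^ (m + 7) - ((K + 128 : ℕ) : ℤ) * 2 ^ m) : ℤ) ≤
        (((2 * (K + 128) + 1) * 2 ^ m : ℕ) : ℤ) := by
      push_cast
      nlinarith
    exact Int.toNat_le.mpr e
  have h2 : E.card * 2 ^ (m + 6) ≤ (Dm R m).card := card_nodes R m
  have h3 : E.card * 2 ^ m ≤ (Dm R m).card :=
    (Nat.mul_le_mul_left _ (Nat.pow_le_pow_right (by norm_num) (by omega))).trans h2
  have h4 : (Dp R m K).card ≤ (2 * (K + 128) + 1) * (Dm R m).card := by
    calc (Dp R m K).card ≤ E.card * ((2 * (K + 128) + 1) * 2 ^ m) := h1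
      _ = (2 * (K + 128) + 1) * (E.card * 2 ^ m) := by ring
      _ ≤ _ := Nat.mul_le_mul_left _ h3
  exact_mod_cast h4

theorem sum_card_Dp (hR : IsRegion R J) (K : ℕ) :
    ∑ m ∈ range (J.1 + 1), ((Dp R m K).card : ℝ) ≤ (2 * (K + 128) + 1) * 2 ^ (J.1 + 7) := by
  refine (Finset.sum_le_sum fun m _ => card_Dp_le m K).trans ?_
  rw [← Finset.mul_sum]
  exact mul_le_mul_of_nonneg_left (sum_card_Dm R J hR) (by positivity)

/-! ### a dead point near an alive point -/

/-- discrete intermediate value: going up -/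
lemma exists_up (P : ℤ → Prop) (a b : ℤ) (hab : a ≤ b) (ha : P a) (hb : ¬ P b) :
    ∃ l, a < l ∧ l ≤ b ∧ P (l - 1) ∧ ¬ P l := by
  classical
  obtain ⟨n, rfl⟩ : ∃ n : ℕ, b = a + n := ⟨(b - a).toNat, by omega⟩
  clear hab
  induction n with
  | zero => exact absurd ha (by simpa using hb)
  | succ n ih =>
    by_cases h : P (a + n)
    · refine ⟨a + ((n + 1 : ℕ) : ℤ), by push_cast; omega, le_rfl, ?_, hb⟩
      have e : a + ((n + 1 : ℕ) : ℤ) - 1 = a + n := by push_cast; ring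
      rw [e]
      exact h
    · obtain ⟨l, h1, h2, h3, h4⟩ := ih h
      exact ⟨l, h1, by push_cast; omega, h3, h4⟩

/-- alive point close to a dead point: close to the boundary -/
lemma near_of_dead (m K : ℕ) (y z : ℤ) (hy : y ∈ Rm R m) (hz : z ∉ Rm R m)
    (h : |y - z| ≤ K * 2 ^ m) : y ∈ NB R m K := by
  have hP : (0 : ℤ) < 2 ^ (m + 7) := by positivity
  rw [mem_Rm] at hy hz
  have y1 : y / 2 ^ (m + 7) * 2 ^ (m + 7) ≤ y := Int.ediv_mul_le y hP.ne'
  have y2 : y < (y / 2 ^ (m + 7) + 1) * 2 ^ (m + 7) := Int.lt_ediv_add_one_mul_self y hP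
  have z1 : z / 2 ^ (m + 7) * 2 ^ (m + 7) ≤ z := Int.ediv_mul_le z hP.ne'
  have z2 : z < (z / 2 ^ (m + 7) + 1) * 2 ^ (m + 7) := Int.lt_ediv_add_one_mul_self z hP
  rw [abs_le] at h
  rcases le_total (y / 2 ^ (m + 7)) (z / 2 ^ (m + 7)) with hle | hle
  · obtain ⟨l, h1, h2, h3, h4⟩ := exists_up (fun l => (m, l) ∈ R) _ _ hle hy hz
    have hl : l ∈ Bd R m := (mem_Bd R m l).mpr (Or.inr ⟨h3, h4⟩)
    refine mem_NB R m K l y hl ?_
    have a1 : (y / 2 ^ (m + 7) + 1) * 2 ^ (m + 7) ≤ l * 2 ^ (m + 7) :=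
      mul_le_mul_of_nonneg_right (by omega) hP.le
    have a2 : l * 2 ^ (m + 7) ≤ z / 2 ^ (m + 7) * 2 ^ (m + 7) :=
      mul_le_mul_of_nonneg_right h2 hP.le
    rw [abs_le]
    constructor <;> linarith [h.1, h.2]
  · obtain ⟨l, h1, h2, h3, h4⟩ := exists_up (fun l => (m, l) ∉ R) _ _ hle hz (by simpa using hy)
    have h4' : (m, l) ∈ R := by simpa using h4
    have hl : l ∈ Bd R m := (mem_Bd R m l).mpr (Or.inl ⟨h4', h3⟩)
    refine mem_NB R m K l y hl ?_
    have a1 : (z / 2 ^ (m + 7) + 1) * 2 ^ (m + 7) ≤ l * 2 ^ (m + 7) :=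
      mul_le_mul_of_nonneg_right (by omega) hP.le
    have a2 : l * 2 ^ (m + 7) ≤ y / 2 ^ (m + 7) * 2 ^ (m + 7) :=
      mul_le_mul_of_nonneg_right h2 hP.le
    rw [abs_le]
    constructor <;> linarith [h.1, h.2]

/-! ### eroded masks -/

open Classical in
/-- eroded alive set of level `m` -/
noncomputable def Um (R : Finset (ℕ × ℤ)) (K m : ℕ) : Finset ℤ :=
  (Rm R m).filter (fun y => ∀ z : ℤ, |z - y| ≤ K * 2 ^ m → z ∈ Rm R m)

/-- shifted family -/
noncomputable def Us (R : Finset (ℕ × ℤ)) (K : ℕ) : ℕ → Finset ℤ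
  | 0 => ∅
  | m + 1 => Um R K m

lemma Um_subset (K m : ℕ) : Um R K m ⊆ Rm R m := by
  classical
  unfold Um
  exact Finset.filter_subset _ _

lemma mem_Um (K m : ℕ) (y : ℤ) :
    y ∈ Um R K m ↔ ∀ z : ℤ, |z - y| ≤ K * 2 ^ m → z ∈ Rm R m := by
  classical
  unfold Um
  rw [Finset.mem_filter]
  refine ⟨fun h => h.2, fun h => ⟨h y ?_, h⟩⟩
  rw [sub_self, abs_zero]
  positivity

lemma not_Um_near (K m : ℕ) (y : ℤ) (hy : y ∈ Rm R m) (h : y ∉ Um R K m) : y ∈ NB R m K := by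
  rw [mem_Um] at h
  push Not at h
  obtain ⟨z, hz, hzd⟩ := h
  refine near_of_dead m K y z hy hzd ?_
  rw [abs_sub_comm]
  exact hz

/-- **births and deaths of the eroded mask** are near the boundary or near the exits -/
theorem change_mem (hR : IsRegion R J) (K m : ℕ) (hm : m ≤ J.1) (y : ℤ)
    (h : ¬ (y ∈ Us R K (m + 1) ↔ y ∈ Us R K m)) : y ∈ NB R m K ∪ Dp R m K := by
  classical
  rw [Finset.mem_union]
  by_cases h1 : y ∈ Us R K (m + 1)
  · -- birth
    have h2 : y ∉ Us R K m := fun h2 => h ⟨fun _ => h2, fun _ => h1⟩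
    have h1' : y ∈ Um R K m := h1
    rw [mem_Um] at h1'
    right
    cases m with
    | zero =>
      have h0 : |y - y| ≤ (K : ℤ) * 2 ^ 0 := by
        rw [sub_self, abs_zero]
        positivity
      refine mem_Dp' (d := y) ?_ h0
      unfold Dm
      rw [Finset.mem_sdiff]
      exact ⟨h1' y h0, by simp [Rs]⟩
    | succ m =>
      have h2' : y ∉ Um R K m := h2
      rw [mem_Um] at h2'
      push Not at h2'
      obtain ⟨z, hz, hzd⟩ := h2'
      have hz' : |z - y| ≤ K * 2 ^ (m + 1) := by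
        refine hz.trans ?_
        have : (2 : ℤ) ^ m ≤ 2 ^ (m + 1) := pow_le_pow_right₀ (by norm_num) (by omega)
        exact mul_le_mul_of_nonneg_left this (by positivity)
      refine mem_Dp' (d := z) ?_ (by rw [abs_sub_comm]; exact hz')
      unfold Dm
      rw [Finset.mem_sdiff]
      exact ⟨h1' z hz', hzd⟩
  · -- death
    have h2 : y ∈ Us R K m := by
      by_contra h2
      exact h ⟨fun h3 => absurd h3 h1, fun h3 => absurd h3 h2⟩
    left
    cases m with
    | zero => exact absurd h2 (by simp [Us])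
    | succ m =>
      have h2' : y ∈ Um R K m := h2
      have hy : y ∈ Rm R (m + 1) := Rm_mono R J hR m hm (Um_subset K m h2')
      exact not_Um_near K (m + 1) y hy h1
where
  mem_Dp' {m : ℕ} {d : ℤ} (hd : d ∈ Dm R m) (h1 : |y - d| ≤ K * 2 ^ m) : y ∈ Dp R m K := by
    unfold Dp
    rw [Finset.mem_biUnion]
    refine ⟨d, hd, ?_⟩
    rw [Finset.mem_Icc]
    rw [abs_le] at h1
    constructor <;> linarith [h1.1, h1.2]

/-- positions which see a change -/
theorem sees_mem (hR : IsRegion R J) (K c m : ℕ) (hm : m ≤ J.1) (q y : ℤ)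
    (h : ¬ (y ∈ Us R K (m + 1) ↔ y ∈ Us R K m)) (hq : |q - y| ≤ c * 2 ^ m) :
    q ∈ NB R m (K + c) ∪ Dp R m (K + c) := by
  have h1 := change_mem hR K m hm y h
  rw [Finset.mem_union] at h1 ⊢
  exact h1.imp (fun h => NB_add h hq) (fun h => Dp_add h hq)

/-- **number of positions which see a change** -/
theorem sum_card_sees (hR : IsRegion R J) (K : ℕ) :
    ∑ m ∈ range (J.1 + 1), ((NB R m K ∪ Dp R m K).card : ℝ) ≤ (4 * K + 258) * 2 ^ (J.1 + 7) := by
  have h1 : ∀ m ∈ range (J.1 + 1), ((NB R m K ∪ Dp R m K).card : ℝ) ≤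
      (NB R m K).card + (Dp R m K).card := fun m _ => by
    exact_mod_cast Finset.card_union_le _ _
  refine (Finset.sum_le_sum h1).trans ?_
  rw [Finset.sum_add_distrib]
  have h2 := sum_card_NB hR K
  have h3 := sum_card_Dp hR K
  refine (add_le_add h2 h3).trans (le_of_eq ?_)
  ring

/-- **nodes which are not inside the eroded set** -/
theorem sum_bad (hR : IsRegion R J) (K : ℕ) :
    ∑ p ∈ R.filter (fun p => ¬ dI (p.1 + 7) p.2 ⊆ Um R K p.1), (2 : ℝ) ^ (p.1 + 7) ≤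
      8 * (2 * K + 3) * 2 ^ (J.1 + 7) := by
  classical
  set Bad := R.filter (fun p => ¬ dI (p.1 + 7) p.2 ⊆ Um R K p.1) with hBad
  have hlev : ∀ p ∈ Bad, p.1 ∈ range (J.1 + 1) := fun p hp =>
    Finset.mem_range.mpr (Nat.lt_succ_of_le (level_le R J hR p (Finset.mem_filter.mp hp).1))
  rw [← Finset.sum_fiberwise_of_maps_to hlev]
  have h1 : ∀ m ∈ range (J.1 + 1), ∑ p ∈ Bad.filter (fun p => p.1 = m), (2 : ℝ) ^ (p.1 + 7) ≤
      (2 * K + 3) * (((Bd R m).card : ℝ) * 2 ^ (m + 7)) := by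
    intro m _
    have e : ∑ p ∈ Bad.filter (fun p => p.1 = m), (2 : ℝ) ^ (p.1 + 7) =
        ((Bad.filter (fun p => p.1 = m)).card : ℝ) * 2 ^ (m + 7) := by
      rw [← nsmul_eq_mul, ← Finset.sum_const]
      refine Finset.sum_congr rfl fun p hp => ?_
      rw [(Finset.mem_filter.mp hp).2]
    rw [e, ← mul_assoc]
    refine mul_le_mul_of_nonneg_right ?_ (by positivity)
    have hcard : (Bad.filter (fun p => p.1 = m)).card ≤ (Bd R m).card * (2 * K + 3) := by
      have hinj : Set.InjOn (fun p : ℕ × ℤ => p.2) (Bad.filter (fun p => p.1 = m)) := by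
        intro p hp q hq hpq
        rw [Finset.mem_coe, Finset.mem_filter] at hp hq
        exact Prod.ext (hp.2.trans hq.2.symm) hpq
      rw [← Finset.card_image_of_injOn hinj]
      have hsub : (Bad.filter (fun p => p.1 = m)).image (fun p => p.2) ⊆
          (Bd R m).biUnion fun l => Icc (l - ((K : ℤ) + 1)) (l + (K + 1)) := by
        intro l' hl'
        rw [Finset.mem_image] at hl'
        obtain ⟨p, hp, rfl⟩ := hl'
        rw [Finset.mem_filter, hBad, Finset.mem_filter] at hp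
        obtain ⟨⟨hpR, hpb⟩, hpm⟩ := hp
        obtain ⟨a, b⟩ := p
        simp only at hpm hpb ⊢
        subst hpm
        rw [Finset.not_subset] at hpb
        obtain ⟨y, hy, hyU⟩ := hpb
        rw [mem_dI_iff] at hy
        have hyR : y ∈ Rm R a := by rw [mem_Rm, hy]; exact hpR
        have hN := not_Um_near K a y hyR hyU
        unfold NB at hN
        rw [Finset.mem_biUnion] at hN ⊢
        obtain ⟨l, hl, hyl⟩ := hN
        refine ⟨l, hl, ?_⟩
        rw [Finset.mem_Icc] at hyl ⊢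
        have hP : (0 : ℤ) < 2 ^ (a + 7) := by positivity
        have hK : (K : ℤ) * 2 ^ a ≤ K * 2 ^ (a + 7) :=
          mul_le_mul_of_nonneg_left (pow_le_pow_right₀ (by norm_num) (by omega)) (by positivity)
        constructor
        · have h3 : (0 + (l - K) * 2 ^ (a + 7)) / 2 ^ (a + 7) ≤ y / 2 ^ (a + 7) :=
            Int.ediv_le_ediv hP (by nlinarith [hyl.1])
          rw [Int.add_mul_ediv_right _ _ hP.ne', Int.zero_ediv, hy] at h3
          linarith
        · have h3 : y / 2 ^ (a + 7) ≤ (0 + (l + K) * 2 ^ (a + 7)) / 2 ^ (a + 7) :=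
            Int.ediv_le_ediv hP (by nlinarith [hyl.2])
          rw [Int.add_mul_ediv_right _ _ hP.ne', Int.zero_ediv, hy] at h3
          linarith
      refine (Finset.card_le_card hsub).trans (Finset.card_biUnion_le_card_mul _ _ _ fun l _ => ?_)
      rw [Int.card_Icc]
      omega
    calc ((Bad.filter (fun p => p.1 = m)).card : ℝ) ≤ (((Bd R m).card * (2 * K + 3) : ℕ) : ℝ) := by
          exact_mod_cast hcard
      _ = (2 * K + 3) * ((Bd R m).card : ℝ) := by push_cast; ring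
  refine (Finset.sum_le_sum h1).trans ?_
  rw [← Finset.mul_sum]
  refine (mul_le_mul_of_nonneg_left (sum_Bd hR) (by positivity)).trans (le_of_eq ?_)
  ring

end Crest.Agent.R079.ErM
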