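import Crest.Agent.R079.ExA_999

/-!
# R079, Step I (leaf (d) of `28494`): exit cost of the truncated frames

`S4_le_op` : the `S_4` form of a box is at most (operator bound)^2 x (Hilbert-Schmidt)^2.
`exit_cost` : if `C` has own operator size `<= s N` on every exit box of side `N` (columns windows
`[b, b+N)`), the top kernel `(C C^*)_P` restricted to the exit `[p, p+N)` has normalised
Hilbert-Schmidt square `<= ((L+N)/L) s^2 |C|^2`.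
`exit_cost_mul` : the same for `k = c C C^*` (in the application `c = M (i+1) / (4 s_i)` and
`s = s_(i+1) = s_i t^(-y)`, so the cost is `<= 2 (M K)^2 t^(-2y) |C|^2 / 16`: no ageing).
-/

open Finset
open scoped BigOperators ComplexConjugate

namespace Crest.Agent.R079.ExA999

/-- operator bound `s` of the `M x N` box with corner `(q, p)`, acting on vectors of the row variable -/
def OpB (X : ℤ → ℤ → ℂ) (M N : ℕ) (q p : ℤ) (s : ℝ) : Prop :=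
  ∀ f : ℕ → ℂ, ∑ j ∈ range N, ‖∑ i ∈ range M, X (q + (i : ℤ)) (p + (j : ℤ)) * f i‖ ^ 2 ≤
    s ^ 2 * ∑ i ∈ range M, ‖f i‖ ^ 2

/-- Hilbert-Schmidt square of a box -/
noncomputable def HS (X : ℤ → ℤ → ℂ) (M N : ℕ) (q p : ℤ) : ℝ :=
  ∑ i ∈ range M, ∑ j ∈ range N, ‖X (q + (i : ℤ)) (p + (j : ℤ))‖ ^ 2

theorem HS_nonneg (X : ℤ → ℤ → ℂ) (M N : ℕ) (q p : ℤ) : 0 ≤ HS X M N q p :=
  sum_nonneg fun _ _ => sum_nonneg fun _ _ => sq_nonneg _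

theorem S4_le_op (X : ℤ → ℤ → ℂ) (M N : ℕ) (q p : ℤ) (s : ℝ) (h : OpB X M N q p s) :
    S4 X M N q p ≤ s ^ 2 * HS X M N q p := by
  unfold S4 HS
  rw [sum_comm]
  calc ∑ j' ∈ range N, ∑ j ∈ range N, ‖∑ i ∈ range M, X (q + (i : ℤ)) (p + (j : ℤ)) *
        (starRingEnd ℂ) (X (q + (i : ℤ)) (p + (j' : ℤ)))‖ ^ 2
      ≤ ∑ j' ∈ range N, s ^ 2 * ∑ i ∈ range M, ‖X (q + (i : ℤ)) (p + (j' : ℤ))‖ ^ 2 := by
        refine sum_le_sum fun j' _ => ?_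
        have := h (fun i => (starRingEnd ℂ) (X (q + (i : ℤ)) (p + (j' : ℤ))))
        simpa using this
    _ = s ^ 2 * ∑ i ∈ range M, ∑ j ∈ range N, ‖X (q + (i : ℤ)) (p + (j : ℤ))‖ ^ 2 := by
        rw [← mul_sum, sum_comm]

/-- normalised: own operator size `<= s N` gives `E4 <= s^2 (box average of |X|^2)` -/
theorem E4_le_op (X : ℤ → ℤ → ℂ) (N : ℕ) (hN : 0 < N) (q p : ℤ) (s : ℝ)
    (h : OpB X N N q p (s * N)) :
    E4 X N q p ≤ s ^ 2 * ((1 / (N : ℝ) ^ 2) * HS X N N q p) := by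
  have hN' : (0 : ℝ) < N := by exact_mod_cast hN
  rw [E4_eq]
  have h1 := mul_le_mul_of_nonneg_left (S4_le_op X N N q p (s * N) h)
    (by positivity : (0 : ℝ) ≤ 1 / (N : ℝ) ^ 4)
  refine h1.trans (le_of_eq ?_)
  field_simp

/-- the windows cover every column exactly `N` times: energy -/
theorem HS_win (X : ℤ → ℤ → ℂ) (a : ℤ) (L N : ℕ) (p : ℤ)
    (hX : ∀ y, ¬ (a ≤ y ∧ y < a + L) → ∀ j : ℕ, j < N → X y (p + (j : ℤ)) = 0) :
    ∑ b ∈ Ico (a - N + 1) (a + L), HS X N N b p =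
      (N : ℝ) * ∑ y ∈ Ico a (a + L), ∑ j ∈ range N, ‖X y (p + (j : ℤ))‖ ^ 2 := by
  have h := win_avg (fun y => ∑ j ∈ range N, ‖X y (p + (j : ℤ))‖ ^ 2) a L N (by
    intro y hy
    refine sum_eq_zero fun j hj => ?_
    rw [hX y hy j (mem_range.1 hj)]
    simp)
  unfold HS
  rw [h, nsmul_eq_mul]

/-- **exit cost** of the truncated letter: own operator size `<= s N` at the exit boxes gives
normalised HS square of the top kernel on the exit `<= ((L+N)/L) s^2 x (top average of |C|^2 on the exit)`. -/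
theorem exit_cost (X : ℤ → ℤ → ℂ) (a : ℤ) (L N : ℕ) (hL : 0 < L) (hN : 0 < N) (p : ℤ)
    (hX : ∀ y, ¬ (a ≤ y ∧ y < a + L) → ∀ j : ℕ, j < N → X y (p + (j : ℤ)) = 0) (s : ℝ)
    (hop : ∀ b ∈ Ico (a - (N : ℤ) + 1) (a + L), OpB X N N b p (s * N)) :
    (1 / (N : ℝ) ^ 2) * ∑ j ∈ range N, ∑ j' ∈ range N,
        ‖(1 / (L : ℝ) : ℝ) • ∑ y ∈ Ico a (a + L), X y (p + (j : ℤ)) *
          (starRingEnd ℂ) (X y (p + (j' : ℤ)))‖ ^ 2 ≤
      (((L : ℝ) + N) / L) * (s ^ 2 * ((1 / ((L : ℝ) * N)) *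
        ∑ y ∈ Ico a (a + L), ∑ j ∈ range N, ‖X y (p + (j : ℤ))‖ ^ 2)) := by
  have hL' : (0 : ℝ) < L := by exact_mod_cast hL
  have hN' : (0 : ℝ) < N := by exact_mod_cast hN
  refine (exit_avg X a L N hL hN p hX).trans ?_
  refine mul_le_mul_of_nonneg_left ?_ (by positivity)
  have h1 : ∑ b ∈ Ico (a - N + 1) (a + L), E4 X N b p ≤
      ∑ b ∈ Ico (a - (N : ℤ) + 1) (a + L), s ^ 2 * ((1 / (N : ℝ) ^ 2) * HS X N N b p) :=
    sum_le_sum fun b hb => E4_le_op X N hN b p s (hop b hb)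
  have h2 : ∑ b ∈ Ico (a - (N : ℤ) + 1) (a + L), s ^ 2 * ((1 / (N : ℝ) ^ 2) * HS X N N b p) =
      s ^ 2 * ((1 / (N : ℝ) ^ 2) * ((N : ℝ) *
        ∑ y ∈ Ico a (a + L), ∑ j ∈ range N, ‖X y (p + (j : ℤ))‖ ^ 2)) := by
    rw [← mul_sum, ← mul_sum, HS_win X a L N p hX]
  rw [h2] at h1
  refine (mul_le_mul_of_nonneg_left h1 (by positivity : (0 : ℝ) ≤ 1 / (L : ℝ))).trans
    (le_of_eq ?_)
  field_simp

/-- the same with a factor `c` in front of the kernel -/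
theorem exit_cost_mul (X : ℤ → ℤ → ℂ) (a : ℤ) (L N : ℕ) (hL : 0 < L) (hN : 0 < N) (hNL : N ≤ L)
    (p : ℤ)
    (hX : ∀ y, ¬ (a ≤ y ∧ y < a + L) → ∀ j : ℕ, j < N → X y (p + (j : ℤ)) = 0) (s c : ℝ)
    (hop : ∀ b ∈ Ico (a - (N : ℤ) + 1) (a + L), OpB X N N b p (s * N)) :
    (1 / (N : ℝ) ^ 2) * ∑ j ∈ range N, ∑ j' ∈ range N,
        ‖(c * (1 / (L : ℝ)) : ℝ) • ∑ y ∈ Ico a (a + L), X y (p + (j : ℤ)) *
          (starRingEnd ℂ) (X y (p + (j' : ℤ)))‖ ^ 2 ≤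
      2 * (c * s) ^ 2 * ((1 / ((L : ℝ) * N)) *
        ∑ y ∈ Ico a (a + L), ∑ j ∈ range N, ‖X y (p + (j : ℤ))‖ ^ 2) := by
  have hL' : (0 : ℝ) < L := by exact_mod_cast hL
  have hN' : (0 : ℝ) < N := by exact_mod_cast hN
  have hNL' : (N : ℝ) ≤ L := by exact_mod_cast hNL
  have h := exit_cost X a L N hL hN p hX s hop
  set W := ∑ y ∈ Ico a (a + L), ∑ j ∈ range N, ‖X y (p + (j : ℤ))‖ ^ 2 with hW
  have hW0 : 0 ≤ W := sum_nonneg fun _ _ => sum_nonneg fun _ _ => sq_nonneg _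
  have e1 : ∀ j j' : ℕ, ‖(c * (1 / (L : ℝ)) : ℝ) • ∑ y ∈ Ico a (a + L), X y (p + (j : ℤ)) *
          (starRingEnd ℂ) (X y (p + (j' : ℤ)))‖ ^ 2 = c ^ 2 *
        ‖(1 / (L : ℝ) : ℝ) • ∑ y ∈ Ico a (a + L), X y (p + (j : ℤ)) *
          (starRingEnd ℂ) (X y (p + (j' : ℤ)))‖ ^ 2 := by
    intro j j'
    rw [mul_smul, norm_smul, mul_pow, Real.norm_eq_abs, sq_abs]
  simp only [e1, ← mul_sum]
  set Z := ∑ j ∈ range N, ∑ j' ∈ range N,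
        ‖(1 / (L : ℝ) : ℝ) • ∑ y ∈ Ico a (a + L), X y (p + (j : ℤ)) *
          (starRingEnd ℂ) (X y (p + (j' : ℤ)))‖ ^ 2 with hZ
  have h3 : ((L : ℝ) + N) / L ≤ 2 := by
    rw [div_le_iff₀ hL']
    linarith
  have h4 : 0 ≤ s ^ 2 * ((1 / ((L : ℝ) * N)) * W) := by positivity
  have h5 := mul_le_mul_of_nonneg_right h3 h4
  have h6 := mul_le_mul_of_nonneg_left (h.trans h5) (sq_nonneg c)
  calc 1 / (N : ℝ) ^ 2 * (c ^ 2 * Z) = c ^ 2 * (1 / (N : ℝ) ^ 2 * Z) := by ring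
    _ ≤ c ^ 2 * (2 * (s ^ 2 * ((1 / ((L : ℝ) * N)) * W))) := h6
    _ = 2 * (c * s) ^ 2 * ((1 / ((L : ℝ) * N)) * W) := by ring

end Crest.Agent.R079.ExA999
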