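import Crest.Agent.R079.Qh_249

/-! R079, Step II of doc 2531, LINE MODEL, masks: the exit count (helper694).

`Ul W m` = union of the nodes of level `m` of `W`; `Us W 0 = ∅`, `Us W (m+1) = Ul W m`;
`Vs W r k` = erosion of `Us W k` by `r k` (`r (m+1) ≤ 2^m - 1`).  A box of level `m` with base in
`adm m l`, `(m,l) ∈ W`, has all its shadows in `Vs W r (m+1)` (`shadow_mem`).  A box of length `2^m`
which sees a change of `Vs W r (m+1)` to `Vs W r m` lies in `Nb W D m` (`see_Nb`), and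
`∑_m card (Nb W D m) ≤ (183 + 38 D) 2^I.1` (`sum_Nb`): all exits together cost `C len I`. -/

set_option autoImplicit false

namespace Crest.Agent.R079.ExC694

open Finset Crest.Agent.R079.Grid Crest.Agent.R079.Growth Crest.Agent.R079.QRed

variable {W : Finset Nd} {I : Nd}

/-- union of the nodes of level `m` -/
def Ul (W : Finset Nd) (m : ℕ) : Set ℤ := {y | ((m, y / 2 ^ (m + 7)) : Nd) ∈ W}

/-- shifted by one, empty at `0` -/
def Us (W : Finset Nd) : ℕ → Set ℤ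
  | 0 => ∅
  | m + 1 => Ul W m

/-- erosion by `r k` -/
def Vs (W : Finset Nd) (r : ℕ → ℤ) (k : ℕ) : Set ℤ := {y | ∀ z, |z - y| ≤ r k → z ∈ Us W k}

theorem mem_Ul {m : ℕ} {y : ℤ} : y ∈ Ul W m ↔ ((m, y / 2 ^ (m + 7)) : Nd) ∈ W := Iff.rfl

theorem mem_Ul_iff {m : ℕ} {y : ℤ} : y ∈ Ul W m ↔ ∃ p ∈ W, p.1 = m ∧ y ∈ iv p := by
  constructor
  · intro h
    exact ⟨_, h, rfl, Qh249.mem_iv.2 rfl⟩
  · rintro ⟨p, hp, rfl, hy⟩
    rw [Qh249.mem_iv] at hy
    show ((p.1, y / 2 ^ (p.1 + 7)) : Nd) ∈ W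
    rw [hy]
    exact hp

theorem Vs_sub {r : ℕ → ℤ} {k : ℕ} (h0 : 0 ≤ r k) {y : ℤ} (h : y ∈ Vs W r k) : y ∈ Us W k :=
  h y (by simpa using h0)

theorem level_le (hW : Full W I) {p : Nd} (hp : p ∈ W) : p.1 ≤ I.1 :=
  Growth.iv_level (hW.reg.1 p hp)

/-- the parent of a node of level `m < I.1` -/
theorem parent_mem (hW : Full W I) {m : ℕ} {l : ℤ} (hm : m < I.1) (h : ((m, l) : Nd) ∈ W) :
    ((m + 1, l / 2) : Nd) ∈ W := by
  have hs : iv ((m, l) : Nd) ⊆ iv ((m + 1, l / 2) : Nd) := by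
    have := L0e.dI_sub (m + 7) 1 l
    rw [pow_one] at this
    exact this
  obtain ⟨z, hz⟩ := iv_nonempty ((m, l) : Nd)
  exact hW.reg.2 _ h _ hs (Qh249.sub_of_level (hs hz) (hW.reg.1 _ h hz) (by simp only; omega))

theorem div_succ (m : ℕ) (y : ℤ) : y / 2 ^ (m + 7) / 2 = y / 2 ^ (m + 1 + 7) := by
  have := L0e.ediv_pow_pow y (m + 7) 1
  rw [pow_one] at this
  rw [this]

theorem Ul_mono (hW : Full W I) {m : ℕ} (hm : m < I.1) {y : ℤ} (h : y ∈ Ul W m) :
    y ∈ Ul W (m + 1) := by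
  have := parent_mem hW hm h
  rw [div_succ] at this
  exact this

/-- siblings -/
theorem sib (hW : Full W I) {m : ℕ} {l : ℤ} (hm : m < I.1) (h : ((m, l) : Nd) ∈ W) :
    ((m, 2 * (l / 2)) : Nd) ∈ W ∧ ((m, 2 * (l / 2) + 1) : Nd) ∈ W := by
  have hp := parent_mem hW hm h
  have hb := hW.bin m (l / 2) hp
  have h2 : l = 2 * (l / 2) ∨ l = 2 * (l / 2) + 1 := by omega
  rcases h2 with h2 | h2
  · have h1 : ((m, 2 * (l / 2)) : Nd) ∈ W := by rw [← h2]; exact h
    exact ⟨h1, hb.1 h1⟩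
  · have h1 : ((m, 2 * (l / 2) + 1) : Nd) ∈ W := by rw [← h2]; exact h
    exact ⟨hb.2 h1, h1⟩

/-! ### nodes, leaves and ends of a level (by index) -/

/-- indices of the nodes of level `m` -/
def nI (W : Finset Nd) (m : ℕ) : Finset ℤ := (W.filter fun p => p.1 = m).image Prod.snd

theorem mem_nI {m : ℕ} {l : ℤ} : l ∈ nI W m ↔ ((m, l) : Nd) ∈ W := by
  unfold nI
  rw [mem_image]
  constructor
  · rintro ⟨p, hp, rfl⟩
    rw [mem_filter] at hp
    obtain ⟨hp, rfl⟩ := hp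
    exact hp
  · intro h
    exact ⟨(m, l), mem_filter.2 ⟨h, rfl⟩, rfl⟩

/-- indices of the leaves of level `m` -/
def lI (W : Finset Nd) : ℕ → Finset ℤ
  | 0 => nI W 0
  | m + 1 => (nI W (m + 1)).filter fun l => ((m, 2 * l) : Nd) ∉ W

/-- left ends, right ends -/
def eL (W : Finset Nd) (m : ℕ) : Finset ℤ := (nI W m).filter fun l => ((m, l - 1) : Nd) ∉ W

/-- right ends -/
def eR (W : Finset Nd) (m : ℕ) : Finset ℤ := (nI W m).filter fun l => ((m, l + 1) : Nd) ∉ W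

theorem lI_sub {m : ℕ} : lI W m ⊆ nI W m := by
  cases m with
  | zero => exact subset_rfl
  | succ m => exact filter_subset _ _

theorem nI_top (hW : Full W I) : nI W I.1 = {I.2} := by
  ext l
  rw [mem_nI, mem_singleton]
  constructor
  · intro h
    have h1 := hW.reg.1 _ h
    have h2 : I = (I.1, l) := Growth.iv_eq_of_level h1 (le_refl I.1)
    exact (congrArg Prod.snd h2).symm
  · rintro rfl
    exact hW.top

theorem card_half (s : Finset ℤ) : s.card ≤ 2 * (s.image fun l => l / 2).card := by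
  refine card_le_mul_card_image s 2 ?_
  intro a ha
  refine (card_le_card (t := {2 * a, 2 * a + 1}) ?_).trans card_le_two
  intro l hl
  rw [mem_filter] at hl
  rw [mem_insert, mem_singleton]
  omega

/-- nodes of level `m` below the non-leaves of level `m+1` -/
theorem card_nodes (hW : Full W I) {m : ℕ} (hm : m < I.1) :
    (nI W m).card + 2 * (lI W (m + 1)).card ≤ 2 * (nI W (m + 1)).card := by
  have h1 := card_half (nI W m)
  have h2 : (nI W m).image (fun l => l / 2) ⊆ nI W (m + 1) \ lI W (m + 1) := by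
    intro k hk
    obtain ⟨l, hl, rfl⟩ := mem_image.1 hk
    rw [mem_nI] at hl
    rw [mem_sdiff]
    refine ⟨mem_nI.2 (parent_mem hW hm hl), ?_⟩
    intro hc
    have := (mem_filter.1 hc).2
    exact this (sib hW hm hl).1
  have h3 := card_le_card h2
  rw [card_sdiff_of_subset lI_sub] at h3
  have h4 := card_le_card (lI_sub (W := W) (m := m + 1))
  omega

/-- the leaves are disjoint -/
theorem sum_leaves (hW : Full W I) : ∀ m ≤ I.1,
    ∑ k ∈ range (m + 1), 2 ^ k * (lI W k).card ≤ 2 ^ m * (nI W m).card := by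
  intro m
  induction m with
  | zero =>
    intro _
    simp [lI]
  | succ m ih =>
    intro hm
    rw [sum_range_succ]
    have h1 := ih (by omega)
    have h2 := card_nodes hW (show m < I.1 by omega)
    have h3 : 2 ^ m * ((nI W m).card + 2 * (lI W (m + 1)).card) ≤
        2 ^ m * (2 * (nI W (m + 1)).card) := Nat.mul_le_mul_left _ h2
    rw [pow_succ]
    nlinarith

theorem sum_leaves_top (hW : Full W I) :
    ∑ k ∈ range (I.1 + 1), 2 ^ k * (lI W k).card ≤ 2 ^ I.1 := by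
  have h := sum_leaves hW I.1 le_rfl
  rw [nI_top hW, card_singleton, mul_one] at h
  exact h

theorem card_eL (hW : Full W I) {m : ℕ} (hm : m < I.1) :
    (eL W m).card ≤ (eL W (m + 1)).card + (lI W (m + 1)).card := by
  classical
  have key : ∀ l ∈ eL W m, ∃ k, l = 2 * k ∧ (k ∈ eL W (m + 1) ∨ k - 1 ∈ lI W (m + 1)) := by
    intro l hl
    obtain ⟨h1, h2⟩ := mem_filter.1 hl
    rw [mem_nI] at h1
    obtain ⟨s1, s2⟩ := sib hW hm h1
    have hp := parent_mem hW hm h1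
    have he : l = 2 * (l / 2) := by
      by_contra hne
      have : l - 1 = 2 * (l / 2) := by omega
      rw [this] at h2
      exact h2 s1
    refine ⟨l / 2, he, ?_⟩
    by_cases hk : ((m + 1, l / 2 - 1) : Nd) ∈ W
    · right
      refine mem_filter.2 ⟨mem_nI.2 hk, ?_⟩
      intro hc
      have hb := (hW.bin m (l / 2 - 1) hk).1 hc
      have e : 2 * (l / 2 - 1) + 1 = l - 1 := by omega
      rw [e] at hb
      exact h2 hb
    · left
      exact mem_filter.2 ⟨mem_nI.2 hp, hk⟩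
  have hsub : eL W m ⊆ (eL W (m + 1)).image (fun k => 2 * k) ∪
      (lI W (m + 1)).image (fun k => 2 * (k + 1)) := by
    intro l hl
    obtain ⟨k, rfl, hk⟩ := key l hl
    rw [mem_union, mem_image, mem_image]
    rcases hk with hk | hk
    · exact Or.inl ⟨k, hk, rfl⟩
    · exact Or.inr ⟨k - 1, hk, by ring⟩
  calc (eL W m).card ≤ _ := card_le_card hsub
    _ ≤ _ := card_union_le _ _
    _ ≤ _ := Nat.add_le_add card_image_le card_image_le

theorem card_eR (hW : Full W I) {m : ℕ} (hm : m < I.1) :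
    (eR W m).card ≤ (eR W (m + 1)).card + (lI W (m + 1)).card := by
  classical
  have key : ∀ l ∈ eR W m, ∃ k, l = 2 * k + 1 ∧ (k ∈ eR W (m + 1) ∨ k + 1 ∈ lI W (m + 1)) := by
    intro l hl
    obtain ⟨h1, h2⟩ := mem_filter.1 hl
    rw [mem_nI] at h1
    obtain ⟨s1, s2⟩ := sib hW hm h1
    have hp := parent_mem hW hm h1
    have he : l = 2 * (l / 2) + 1 := by
      by_contra hne
      have : l + 1 = 2 * (l / 2) + 1 := by omega
      rw [this] at h2
      exact h2 s2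
    refine ⟨l / 2, he, ?_⟩
    by_cases hk : ((m + 1, l / 2 + 1) : Nd) ∈ W
    · right
      refine mem_filter.2 ⟨mem_nI.2 hk, ?_⟩
      intro hc
      have e : 2 * (l / 2 + 1) = l + 1 := by omega
      rw [e] at hc
      exact h2 hc
    · left
      exact mem_filter.2 ⟨mem_nI.2 hp, hk⟩
  have hsub : eR W m ⊆ (eR W (m + 1)).image (fun k => 2 * k + 1) ∪
      (lI W (m + 1)).image (fun k => 2 * (k - 1) + 1) := by
    intro l hl
    obtain ⟨k, rfl, hk⟩ := key l hl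
    rw [mem_union, mem_image, mem_image]
    rcases hk with hk | hk
    · exact Or.inl ⟨k, hk, rfl⟩
    · exact Or.inr ⟨k + 1, hk, by ring⟩
  calc (eR W m).card ≤ _ := card_le_card hsub
    _ ≤ _ := card_union_le _ _
    _ ≤ _ := Nat.add_le_add card_image_le card_image_le

/-- abstract summation -/
theorem sum_ends {e ν : ℕ → ℕ} {M : ℕ} (h1 : ∀ m < M, e m ≤ e (m + 1) + ν (m + 1))
    (h2 : e M ≤ 1) (h3 : ∑ k ∈ range (M + 1), 2 ^ k * ν k ≤ 2 ^ M) :
    ∑ k ∈ range (M + 1), 2 ^ k * e k ≤ 3 * 2 ^ M := by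
  have a1 : ∑ k ∈ range M, 2 * (2 ^ k * e k) ≤
      ∑ k ∈ range M, (2 ^ (k + 1) * e (k + 1) + 2 ^ (k + 1) * ν (k + 1)) := by
    refine sum_le_sum fun k hk => ?_
    have := h1 k (mem_range.1 hk)
    have h4 : 2 ^ (k + 1) * e k ≤ 2 ^ (k + 1) * (e (k + 1) + ν (k + 1)) :=
      Nat.mul_le_mul_left _ this
    calc 2 * (2 ^ k * e k) = 2 ^ (k + 1) * e k := by rw [pow_succ]; ring
      _ ≤ _ := h4
      _ = _ := by ring
  rw [← mul_sum, sum_add_distrib] at a1
  have a2 : ∑ k ∈ range M, 2 ^ (k + 1) * e (k + 1) ≤ ∑ k ∈ range (M + 1), 2 ^ k * e k := by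
    rw [sum_range_succ' (fun k => 2 ^ k * e k)]
    exact Nat.le_add_right _ _
  have a3 : ∑ k ∈ range M, 2 ^ (k + 1) * ν (k + 1) ≤ ∑ k ∈ range (M + 1), 2 ^ k * ν k := by
    rw [sum_range_succ' (fun k => 2 ^ k * ν k)]
    exact Nat.le_add_right _ _
  have a4 := sum_range_succ (fun k => 2 ^ k * e k) M
  have a5 : 2 ^ M * e M ≤ 2 ^ M * 1 := Nat.mul_le_mul_left _ h2
  omega

theorem sum_eL (hW : Full W I) :
    ∑ k ∈ range (I.1 + 1), 2 ^ k * (eL W k).card ≤ 3 * 2 ^ I.1 := by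
  refine sum_ends (ν := fun k => (lI W k).card) (fun m hm => card_eL hW hm) ?_ (sum_leaves_top hW)
  refine (card_le_card (filter_subset _ _)).trans ?_
  rw [nI_top hW, card_singleton]

theorem sum_eR (hW : Full W I) :
    ∑ k ∈ range (I.1 + 1), 2 ^ k * (eR W k).card ≤ 3 * 2 ^ I.1 := by
  refine sum_ends (ν := fun k => (lI W k).card) (fun m hm => card_eR hW hm) ?_ (sum_leaves_top hW)
  refine (card_le_card (filter_subset _ _)).trans ?_
  rw [nI_top hW, card_singleton]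

/-! ### the exit set -/

/-- end points of `Ul W m` -/
def En (W : Finset Nd) (m : ℕ) : Finset ℤ :=
  (eL W m).image (fun l => l * 2 ^ (m + 7)) ∪ (eR W m).image (fun l => (l + 1) * 2 ^ (m + 7))

/-- end points of `Us W k` -/
def Es (W : Finset Nd) : ℕ → Finset ℤ
  | 0 => ∅
  | m + 1 => En W m

theorem card_En (m : ℕ) : (En W m).card ≤ (eL W m).card + (eR W m).card :=
  (card_union_le _ _).trans (Nat.add_le_add card_image_le card_image_le)

/-- an end point between a point of `Ul` and a point outside -/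
theorem near_end {m : ℕ} {y z : ℤ} (hy : y ∈ Ul W m) (hz : z ∉ Ul W m) :
    ∃ e ∈ En W m, |y - e| ≤ |z - y| := by
  classical
  rw [mem_Ul] at hy hz
  have h2 : (0 : ℤ) < 2 ^ (m + 7) := by positivity
  rcases lt_trichotomy z y with h | h | h
  · set s := (Icc (z / 2 ^ (m + 7)) (y / 2 ^ (m + 7))).filter fun l => ((m, l) : Nd) ∉ W with hs
    have hne : s.Nonempty :=
      ⟨z / 2 ^ (m + 7), mem_filter.2 ⟨mem_Icc.2 ⟨le_rfl, Int.ediv_le_ediv h2 h.le⟩, hz⟩⟩
    obtain ⟨l, hl, hmax⟩ := exists_max_image s id hne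
    obtain ⟨hl1, hl2⟩ := mem_filter.1 hl
    rw [mem_Icc] at hl1
    have hlt : l < y / 2 ^ (m + 7) := by
      refine lt_of_le_of_ne hl1.2 ?_
      rintro rfl
      exact hl2 hy
    have hW1 : ((m, l + 1) : Nd) ∈ W := by
      by_contra hc
      have := hmax (l + 1) (mem_filter.2 ⟨mem_Icc.2 ⟨by omega, by omega⟩, hc⟩)
      simp at this
    refine ⟨(l + 1) * 2 ^ (m + 7), mem_union_left _ (mem_image.2 ⟨l + 1,
      mem_filter.2 ⟨mem_nI.2 hW1, by rw [add_sub_cancel_right]; exact hl2⟩, rfl⟩), ?_⟩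
    have k1 : (l + 1) * 2 ^ (m + 7) ≤ y := (Int.le_ediv_iff_mul_le h2).1 (by omega)
    have k2 : z < (l + 1) * 2 ^ (m + 7) := (Int.ediv_lt_iff_lt_mul h2).1 (by omega)
    rw [abs_of_nonneg (by linarith), abs_of_nonpos (by linarith)]
    linarith
  · subst h
    exact absurd hy hz
  · set s := (Icc (y / 2 ^ (m + 7)) (z / 2 ^ (m + 7))).filter fun l => ((m, l) : Nd) ∉ W with hs
    have hne : s.Nonempty :=
      ⟨z / 2 ^ (m + 7), mem_filter.2 ⟨mem_Icc.2 ⟨Int.ediv_le_ediv h2 h.le, le_rfl⟩, hz⟩⟩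
    obtain ⟨l, hl, hmin⟩ := exists_min_image s id hne
    obtain ⟨hl1, hl2⟩ := mem_filter.1 hl
    rw [mem_Icc] at hl1
    have hlt : y / 2 ^ (m + 7) < l := by
      refine lt_of_le_of_ne hl1.1 ?_
      rintro rfl
      exact hl2 hy
    have hW1 : ((m, l - 1) : Nd) ∈ W := by
      by_contra hc
      have := hmin (l - 1) (mem_filter.2 ⟨mem_Icc.2 ⟨by omega, by omega⟩, hc⟩)
      simp at this
    refine ⟨(l - 1 + 1) * 2 ^ (m + 7), mem_union_right _ (mem_image.2 ⟨l - 1,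
      mem_filter.2 ⟨mem_nI.2 hW1, by rw [sub_add_cancel]; exact hl2⟩, rfl⟩), ?_⟩
    have k1 : l * 2 ^ (m + 7) ≤ z := (Int.le_ediv_iff_mul_le h2).1 (by omega)
    have k2 : y < l * 2 ^ (m + 7) := (Int.ediv_lt_iff_lt_mul h2).1 (by omega)
    rw [sub_add_cancel, abs_of_nonpos (by linarith), abs_of_nonneg (by linarith)]
    linarith

/-- **exit neighbourhood** -/
noncomputable def Nb (W : Finset Nd) (D m : ℕ) : Finset ℤ :=
  (lI W m).biUnion (fun l => Icc (l * 2 ^ (m + 7) - D * 2 ^ m) ((l + 1) * 2 ^ (m + 7) + D * 2 ^ m)) ∪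
    (En W m ∪ Es W m).biUnion (fun e => Icc (e - (D + 1) * 2 ^ m) (e + (D + 1) * 2 ^ m))

/-- a change at `y`: `y` is in a leaf of level `m` or `2^m`-close to an end point of level `m` or
`m - 1` -/
theorem change (hW : Full W I) {r : ℕ → ℤ} {m : ℕ} (hm : m ≤ I.1) (h0 : 0 ≤ r m)
    (h1 : 0 ≤ r (m + 1)) (h2 : r m ≤ 2 ^ m) (h3 : r (m + 1) ≤ 2 ^ m) {y : ℤ}
    (hy : ¬ (y ∈ Vs W r (m + 1) ↔ y ∈ Vs W r m)) :
    (∃ l ∈ lI W m, l * 2 ^ (m + 7) ≤ y ∧ y < (l + 1) * 2 ^ (m + 7)) ∨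
      ∃ e ∈ En W m ∪ Es W m, |y - e| ≤ 2 ^ m := by
  have hmono : Us W m ⊆ Ul W m := by
    cases m with
    | zero => exact Set.empty_subset _
    | succ m => exact fun z hz => Ul_mono hW (by omega) hz
  have hpos : (0 : ℤ) < 2 ^ (m + 7) := by positivity
  by_cases hU : y ∈ Ul W m
  · by_cases hU' : y ∈ Us W m
    · right
      by_cases hV : y ∈ Vs W r (m + 1)
      · have hV' : y ∉ Vs W r m := fun h => hy ⟨fun _ => h, fun _ => hV⟩
        simp only [Vs, Set.mem_ofPred_eq, not_forall] at hV'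
        obtain ⟨z, hz1, hz2⟩ := hV'
        cases m with
        | zero => exact absurd hU' (by simp [Us])
        | succ m =>
          obtain ⟨e, he, h4⟩ := near_end hU' hz2
          exact ⟨e, mem_union_right _ he, h4.trans (hz1.trans h2)⟩
      · simp only [Vs, Set.mem_ofPred_eq, not_forall] at hV
        obtain ⟨z, hz1, hz2⟩ := hV
        obtain ⟨e, he, h4⟩ := near_end hU hz2
        exact ⟨e, mem_union_left _ he, h4.trans (hz1.trans h3)⟩
    · left
      refine ⟨y / 2 ^ (m + 7), ?_, (Int.le_ediv_iff_mul_le hpos).1 le_rfl,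
        (Int.ediv_lt_iff_lt_mul hpos).1 (by omega)⟩
      cases m with
      | zero => exact mem_nI.2 hU
      | succ m =>
        refine mem_filter.2 ⟨mem_nI.2 hU, ?_⟩
        intro hc
        apply hU'
        show ((m, y / 2 ^ (m + 7)) : Nd) ∈ W
        have hb := (hW.bin m (y / 2 ^ (m + 1 + 7)) hU).1 hc
        have hd := div_succ m y
        rw [← hd] at hc hb
        have : y / 2 ^ (m + 7) = 2 * (y / 2 ^ (m + 7) / 2) ∨
            y / 2 ^ (m + 7) = 2 * (y / 2 ^ (m + 7) / 2) + 1 := by omega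
        rcases this with h | h
        · rw [h]; exact hc
        · rw [h]; exact hb
  · exfalso
    apply hy
    constructor
    · intro h
      exact absurd (Vs_sub h1 h) hU
    · intro h
      exact absurd (hmono (Vs_sub h0 h)) hU

/-- **every point `D 2^m`-close to a change lies in `Nb`** -/
theorem see_Nb (hW : Full W I) {r : ℕ → ℤ} {m D : ℕ} (hm : m ≤ I.1) (h0 : 0 ≤ r m)
    (h1 : 0 ≤ r (m + 1)) (h2 : r m ≤ 2 ^ m) (h3 : r (m + 1) ≤ 2 ^ m) {y y' : ℤ}
    (hy : ¬ (y ∈ Vs W r (m + 1) ↔ y ∈ Vs W r m)) (hd : |y' - y| ≤ D * 2 ^ m) : y' ∈ Nb W D m := by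
  have hd' := abs_le.1 hd
  rcases change hW hm h0 h1 h2 h3 hy with ⟨l, hl, a, b⟩ | ⟨e, he, h⟩
  · refine mem_union_left _ (mem_biUnion.2 ⟨l, hl, mem_Icc.2 ⟨by linarith [hd'.1], by
      linarith [hd'.2]⟩⟩)
  · have h' := abs_le.1 h
    refine mem_union_right _ (mem_biUnion.2 ⟨e, he, mem_Icc.2 ⟨?_, ?_⟩⟩)
    · linarith [hd'.1, h'.1]
    · linarith [hd'.2, h'.2]

theorem card_Nb (W : Finset Nd) (D m : ℕ) : (Nb W D m).card ≤
    (129 + 2 * D) * (2 ^ m * (lI W m).card) +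
      (2 * D + 3) * (2 ^ m * (En W m).card + 2 ^ m * (Es W m).card) := by
  unfold Nb
  have hp : (1 : ℤ) ≤ 2 ^ m := one_le_pow₀ (by norm_num)
  have hpn : 1 ≤ 2 ^ m := Nat.one_le_two_pow
  have c1 : ∀ l ∈ lI W m, (Icc (l * 2 ^ (m + 7) - D * 2 ^ m)
      ((l + 1) * 2 ^ (m + 7) + D * 2 ^ m) : Finset ℤ).card ≤ (129 + 2 * D) * 2 ^ m := by
    intro l _
    rw [Int.card_Icc]
    have e : (l + 1) * 2 ^ (m + 7) + (D : ℤ) * 2 ^ m + 1 - (l * 2 ^ (m + 7) - D * 2 ^ m) =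
        (128 + 2 * D) * 2 ^ m + 1 := by
      rw [pow_add]; ring
    rw [e]
    have : ((128 + 2 * D : ℤ) * 2 ^ m + 1) ≤ ((129 + 2 * D) * 2 ^ m : ℕ) := by
      push_cast; nlinarith
    omega
  have c2 : ∀ e ∈ En W m ∪ Es W m, (Icc (e - (D + 1) * 2 ^ m)
      (e + (D + 1) * 2 ^ m) : Finset ℤ).card ≤ (2 * D + 3) * 2 ^ m := by
    intro e _
    rw [Int.card_Icc]
    have e' : e + ((D : ℤ) + 1) * 2 ^ m + 1 - (e - (D + 1) * 2 ^ m) = (2 * D + 2) * 2 ^ m + 1 := by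
      ring
    rw [e']
    have : ((2 * D + 2 : ℤ) * 2 ^ m + 1) ≤ ((2 * D + 3) * 2 ^ m : ℕ) := by
      push_cast; nlinarith
    omega
  have b1 := card_biUnion_le_card_mul (lI W m) _ _ c1
  have b2 := card_biUnion_le_card_mul (En W m ∪ Es W m) _ _ c2
  have b3 := card_union_le (En W m) (Es W m)
  have b4 : (En W m ∪ Es W m).card * ((2 * D + 3) * 2 ^ m) ≤
      ((En W m).card + (Es W m).card) * ((2 * D + 3) * 2 ^ m) := Nat.mul_le_mul_right _ b3
  refine (card_union_le _ _).trans ?_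
  calc _ ≤ (lI W m).card * ((129 + 2 * D) * 2 ^ m) +
        ((En W m).card + (Es W m).card) * ((2 * D + 3) * 2 ^ m) := Nat.add_le_add b1 (b2.trans b4)
    _ = _ := by ring

theorem sum_En (hW : Full W I) :
    ∑ k ∈ range (I.1 + 1), 2 ^ k * (En W k).card ≤ 6 * 2 ^ I.1 := by
  have h : ∑ k ∈ range (I.1 + 1), 2 ^ k * (En W k).card ≤
      ∑ k ∈ range (I.1 + 1), (2 ^ k * (eL W k).card + 2 ^ k * (eR W k).card) := by
    refine sum_le_sum fun k _ => ?_
    rw [← mul_add]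
    exact Nat.mul_le_mul_left _ (card_En k)
  rw [sum_add_distrib] at h
  have := sum_eL hW
  have := sum_eR hW
  omega

theorem sum_Es (hW : Full W I) :
    ∑ k ∈ range (I.1 + 1), 2 ^ k * (Es W k).card ≤ 12 * 2 ^ I.1 := by
  rw [sum_range_succ']
  simp only [Es, card_empty, mul_zero, add_zero]
  have h1 : ∑ k ∈ range I.1, 2 ^ (k + 1) * (En W k).card =
      2 * ∑ k ∈ range I.1, 2 ^ k * (En W k).card := by
    rw [mul_sum]
    exact sum_congr rfl fun k _ => by rw [pow_succ]; ring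
  rw [h1]
  have h2 := sum_En hW
  rw [sum_range_succ] at h2
  omega

/-- **the exit count**: all exits together cost `C len I` -/
theorem sum_Nb (hW : Full W I) (D : ℕ) :
    ∑ m ∈ range (I.1 + 1), (Nb W D m).card ≤ (183 + 38 * D) * 2 ^ I.1 := by
  have h1 : ∑ m ∈ range (I.1 + 1), (Nb W D m).card ≤ ∑ m ∈ range (I.1 + 1),
      ((129 + 2 * D) * (2 ^ m * (lI W m).card) +
      (2 * D + 3) * (2 ^ m * (En W m).card + 2 ^ m * (Es W m).card)) :=
    sum_le_sum fun m _ => card_Nb W D m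
  rw [sum_add_distrib, ← mul_sum, ← mul_sum, sum_add_distrib] at h1
  have a1 := Nat.mul_le_mul_left (129 + 2 * D) (sum_leaves_top hW)
  have a2 := Nat.mul_le_mul_left (2 * D + 3) (Nat.add_le_add (sum_En hW) (sum_Es hW))
  calc _ ≤ _ := h1
    _ ≤ (129 + 2 * D) * 2 ^ I.1 + (2 * D + 3) * (6 * 2 ^ I.1 + 12 * 2 ^ I.1) :=
        Nat.add_le_add a1 a2
    _ = _ := by ring

/-! ### shadows -/

/-- all shadows of a box with base `x` lie in `[x - 9 N, x + 21 N]` -/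
theorem yv_range {m : ℕ} {b x : ℤ} (hb : b = -1 ∨ b = -7) (u : Fin 4 → Fin (2 ^ m + 2 ^ m))
    (j : Fin 4) : x - 9 * 2 ^ m ≤ yv (2 ^ m) b x u j ∧ yv (2 ^ m) b x u j ≤ x + 21 * 2 ^ m := by
  have h0 := (u 0).2
  have h1 := (u 1).2
  have h2 := (u 2).2
  have h3 := (u 3).2
  have hN : (0 : ℤ) < 2 ^ m := by positivity
  have c : ((2 ^ m : ℕ) : ℤ) = 2 ^ m := by push_cast; rfl
  zify at h0 h1 h2 h3
  have g0 : (0 : ℤ) ≤ ((u 0 : ℕ) : ℤ) := Int.natCast_nonneg _
  have g1 : (0 : ℤ) ≤ ((u 1 : ℕ) : ℤ) := Int.natCast_nonneg _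
  have g2 : (0 : ℤ) ≤ ((u 2 : ℕ) : ℤ) := Int.natCast_nonneg _
  have g3 : (0 : ℤ) ≤ ((u 3 : ℕ) : ℤ) := Int.natCast_nonneg _
  unfold yv
  rw [Fin.sum_univ_four]
  rcases hb with rfl | rfl <;> fin_cases j <;> simp [sl] <;> constructor <;> linarith

/-- **all shadows of an admissible box of `W` lie in the eroded set** -/
theorem shadow_mem {r : ℕ → ℤ} {m : ℕ} {l b x : ℤ} (hW : ((m, l) : Nd) ∈ W)
    (hr : r (m + 1) ≤ 2 ^ m - 1) (hb : b = -1 ∨ b = -7) (hx : x ∈ adm m l)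
    (u : Fin 4 → Fin (2 ^ m + 2 ^ m)) (j : Fin 4) : yv (2 ^ m) b x u j ∈ Vs W r (m + 1) := by
  intro z hz
  obtain ⟨h1, h2⟩ := yv_range (x := x) hb u j
  obtain ⟨h3, h4⟩ := abs_le.1 hz
  unfold adm at hx
  rw [mem_Ico] at hx
  obtain ⟨h5, h6⟩ := hx
  have hpos : (0 : ℤ) < 2 ^ (m + 7) := by positivity
  rw [pow_succ (2 : ℤ) m] at h5 h6
  show ((m, z / 2 ^ (m + 7)) : Nd) ∈ W
  have e : z / 2 ^ (m + 7) = l := by
    apply Int.le_antisymm
    · exact Int.lt_add_one_iff.1 ((Int.ediv_lt_iff_lt_mul hpos).2 (by linarith))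
    · exact (Int.le_ediv_iff_mul_le hpos).2 (by linarith)
  rw [e]
  exact hW

/-- **line form**: with slope `s`, the positions of the boxes of length `2^m` which see a change inject
into `Nb W D m`, `D ≥ |s|` -/
theorem line_Nb (hW : Full W I) {r : ℕ → ℤ} {m D : ℕ} (hm : m ≤ I.1) (h0 : 0 ≤ r m)
    (h1 : 0 ≤ r (m + 1)) (h2 : r m ≤ 2 ^ m) (h3 : r (m + 1) ≤ 2 ^ m) {s y0 c : ℤ}
    (hs : |s| ≤ D) (i : ℕ) (hi : i ≤ 2 ^ m)
    (hy : ¬ (y0 + s * (c + i) ∈ Vs W r (m + 1) ↔ y0 + s * (c + i) ∈ Vs W r m)) :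
    y0 + s * c ∈ Nb W D m := by
  refine see_Nb hW hm h0 h1 h2 h3 hy ?_
  have e : y0 + s * c - (y0 + s * (c + i)) = -(s * i) := by ring
  rw [e, abs_neg, abs_mul]
  have h4 : |(i : ℤ)| ≤ 2 ^ m := by
    rw [abs_of_nonneg (Int.natCast_nonneg i)]
    exact_mod_cast hi
  exact mul_le_mul hs h4 (abs_nonneg _) (Int.natCast_nonneg D)

end Crest.Agent.R079.ExC694
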