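import Crest.Agent.R079.FrozenC_569

/-! R079, S2.line_plug (doc 2531 / 2539), helper442: EXIT COUNT along a line `y = β + γ z`
(asked by 949, 27013).  `S m p` = "the interval `[p, p + 2^(m+s))` sees a mask change of level `m`". -/

set_option autoImplicit false

namespace Crest.Agent.R079.ExitC442

open Finset Crest.Agent.R079.Grid Crest.Agent.R079.Glue

/-- one level; `g` = any nonnegative function -/
theorem exit_level_gen (R : Finset (ℕ × ℤ)) (m s : ℕ) (g : ℤ → ℝ) (hg : ∀ y, 0 ≤ g y)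
    (β γ : ℤ) (hγ : γ ≠ 0) (hγ3 : |γ| ≤ 3) (Pf : Finset ℤ) (S : ℤ → Prop) [DecidablePred S]
    (hS : ∀ p ∈ Pf, S p → ∃ j : ℕ, j < 2 ^ (m + s) ∧ β + γ * (p + (j : ℤ)) ∈ Dm R m) :
    ∑ p ∈ Pf, (if S p then (1 / ((2 ^ (m + s) : ℕ) : ℝ)) * ∑ i ∈ range (2 ^ (m + s)),
        g (β + γ * (p + (i : ℤ))) else 0) ≤ ∑ y ∈ Dp R m (3 * 2 ^ s), g y := by
  classical
  set N : ℕ := 2 ^ (m + s) with hN
  have hNpos : 0 < N := by positivity
  have hNz : (N : ℤ) = 2 ^ s * 2 ^ m := by rw [hN]; push_cast; rw [pow_add]; ring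
  have h1 : ∑ p ∈ Pf, (if S p then (1 / (N : ℝ)) * ∑ i ∈ range N, g (β + γ * (p + (i : ℤ))) else 0)
      ≤ (1 / (N : ℝ)) * ∑ i ∈ range N, ∑ p ∈ Pf,
        (if β + γ * (p + (i : ℤ)) ∈ Dp R m (3 * 2 ^ s) then g (β + γ * (p + (i : ℤ))) else 0) := by
    rw [Finset.sum_comm (s := range N), Finset.mul_sum]
    refine Finset.sum_le_sum fun p hp => ?_
    split_ifs with hs
    · refine mul_le_mul_of_nonneg_left (Finset.sum_le_sum fun i hi => ?_) (by positivity)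
      obtain ⟨j, hj, hd⟩ := hS p hp hs
      rw [if_pos]
      refine mem_Dp R m _ _ _ hd ?_
      have hi' : i < N := Finset.mem_range.1 hi
      have e : β + γ * (p + (i : ℤ)) - (β + γ * (p + (j : ℤ))) = γ * ((i : ℤ) - (j : ℤ)) := by ring
      rw [e, abs_mul]
      have hij : |(i : ℤ) - (j : ℤ)| ≤ N := by
        rw [abs_le]
        have a1 : (i : ℤ) < N := by exact_mod_cast hi'
        have a2 : (j : ℤ) < N := by exact_mod_cast hj
        have a3 : (0 : ℤ) ≤ i := by positivity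
        have a4 : (0 : ℤ) ≤ j := by positivity
        constructor <;> linarith
      have h2 : |γ| * |(i : ℤ) - (j : ℤ)| ≤ 3 * N :=
        mul_le_mul hγ3 hij (abs_nonneg _) (by norm_num)
      refine h2.trans (le_of_eq ?_)
      rw [hNz]
      push_cast
      ring
    · refine mul_nonneg (by positivity) (Finset.sum_nonneg fun i _ => ?_)
      split_ifs
      · exact hg _
      · exact le_rfl
  refine h1.trans ?_
  have h2 : ∀ i ∈ range N, ∑ p ∈ Pf,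
      (if β + γ * (p + (i : ℤ)) ∈ Dp R m (3 * 2 ^ s) then g (β + γ * (p + (i : ℤ))) else 0) ≤
      ∑ y ∈ Dp R m (3 * 2 ^ s), g y := by
    intro i _
    rw [← Finset.sum_filter]
    have hinj : Set.InjOn (fun p : ℤ => β + γ * (p + (i : ℤ)))
        ((Pf.filter (fun p => β + γ * (p + (i : ℤ)) ∈ Dp R m (3 * 2 ^ s)) : Finset ℤ) : Set ℤ) := by
      intro p _ p' _ h
      have h' : β + γ * (p + (i : ℤ)) = β + γ * (p' + (i : ℤ)) := h
      have h3 : γ * (p - p') = 0 := by linear_combination h'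
      rcases mul_eq_zero.1 h3 with h4 | h4
      · exact absurd h4 hγ
      · linarith
    rw [← Finset.sum_image (f := fun y => g y) (g := fun p : ℤ => β + γ * (p + (i : ℤ))) hinj]
    refine Finset.sum_le_sum_of_subset_of_nonneg ?_ (fun y _ _ => hg y)
    intro y hy
    obtain ⟨p, hp, rfl⟩ := Finset.mem_image.1 hy
    exact (Finset.mem_filter.1 hp).2
  have h3 := Finset.sum_le_sum h2
  rw [Finset.sum_const, card_range, nsmul_eq_mul] at h3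
  calc (1 / (N : ℝ)) * ∑ i ∈ range N, ∑ p ∈ Pf,
        (if β + γ * (p + (i : ℤ)) ∈ Dp R m (3 * 2 ^ s) then g (β + γ * (p + (i : ℤ))) else 0)
      ≤ (1 / (N : ℝ)) * ((N : ℝ) * ∑ y ∈ Dp R m (3 * 2 ^ s), g y) :=
        mul_le_mul_of_nonneg_left h3 (by positivity)
    _ = ∑ y ∈ Dp R m (3 * 2 ^ s), g y := by
        have : (N : ℝ) ≠ 0 := by exact_mod_cast hNpos.ne'
        field_simp

/-- one level, masked letter -/
theorem exit_level (R : Finset (ℕ × ℤ)) (m s : ℕ) (F : ℤ → ℂ) (A : ℝ)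
    (hF : ∀ p ∈ R, av2 (p.1 + 7) p.2 F ≤ A)
    (β γ : ℤ) (hγ : γ ≠ 0) (hγ3 : |γ| ≤ 3) (Pf : Finset ℤ) (S : ℤ → Prop) [DecidablePred S]
    (hS : ∀ p ∈ Pf, S p → ∃ j : ℕ, j < 2 ^ (m + s) ∧ β + γ * (p + (j : ℤ)) ∈ Dm R m) :
    ∑ p ∈ Pf, (if S p then (1 / ((2 ^ (m + s) : ℕ) : ℝ)) * ∑ i ∈ range (2 ^ (m + s)),
        ‖msk (Rm R m) F (β + γ * (p + (i : ℤ)))‖ ^ 2 else 0) ≤
      (12 * 2 ^ s + 514) * A ^ 2 * (Dm R m).card := by
  refine (exit_level_gen R m s (fun y => ‖msk (Rm R m) F y‖ ^ 2) (fun y => by positivity) β γ hγ hγ3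
    Pf S hS).trans ((sum_msk_Dp R m F A hF (3 * 2 ^ s)).trans (le_of_eq ?_))
  push_cast
  ring

open Classical in
/-- **EXIT COUNT**, all levels (`Pf m` may depend on the level) -/
theorem exit_count (R : Finset (ℕ × ℤ)) (J : ℕ × ℤ) (hR : IsRegion R J) (s : ℕ) (F : ℤ → ℂ) (A : ℝ)
    (hF : ∀ p ∈ R, av2 (p.1 + 7) p.2 F ≤ A)
    (β : ℕ → ℤ) (γ : ℤ) (hγ : γ ≠ 0) (hγ3 : |γ| ≤ 3) (Pf : ℕ → Finset ℤ) (S : ℕ → ℤ → Prop)
    (hS : ∀ m, ∀ p ∈ Pf m, S m p →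
      ∃ j : ℕ, j < 2 ^ (m + s) ∧ β m + γ * (p + (j : ℤ)) ∈ Dm R m) :
    ∑ m ∈ range (J.1 + 1), ∑ p ∈ Pf m,
        (if S m p then (1 / ((2 ^ (m + s) : ℕ) : ℝ)) * ∑ i ∈ range (2 ^ (m + s)),
          ‖msk (Rm R m) F (β m + γ * (p + (i : ℤ)))‖ ^ 2 else 0) ≤
      (12 * 2 ^ s + 514) * A ^ 2 * 2 ^ (J.1 + 7) := by
  have h1 : ∀ m ∈ range (J.1 + 1), ∑ p ∈ Pf m,
        (if S m p then (1 / ((2 ^ (m + s) : ℕ) : ℝ)) * ∑ i ∈ range (2 ^ (m + s)),
          ‖msk (Rm R m) F (β m + γ * (p + (i : ℤ)))‖ ^ 2 else 0) ≤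
      (12 * 2 ^ s + 514) * A ^ 2 * (Dm R m).card := fun m _ =>
    exit_level R m s F A hF (β m) γ hγ hγ3 (Pf m) (S m) (hS m)
  refine (Finset.sum_le_sum h1).trans ?_
  rw [← Finset.mul_sum]
  exact mul_le_mul_of_nonneg_left (sum_card_Dm R J hR) (by positivity)

/-- a box which sees a change of the masked letter sees the exit set -/
theorem sees_Dm (R : Finset (ℕ × ℤ)) (J : ℕ × ℤ) (hR : IsRegion R J) (m : ℕ) (hm : m ≤ J.1)
    (F : ℤ → ℂ) (y : ℤ) (h : msk (Rs R (m + 1)) F y ≠ msk (Rs R m) F y) : y ∈ Dm R m := by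
  classical
  unfold Dm
  rw [Finset.mem_sdiff]
  unfold msk at h
  by_cases h1 : y ∈ Rs R (m + 1)
  · by_cases h2 : y ∈ Rs R m
    · rw [if_pos h1, if_pos h2] at h
      exact absurd rfl h
    · exact ⟨h1, h2⟩
  · by_cases h2 : y ∈ Rs R m
    · exact absurd (Rs_mono R J hR m hm h2) h1
    · rw [if_neg h1, if_neg h2] at h
      exact absurd rfl h

open Classical in
/-- **EXIT COUNT** in the letter form: `a m z = msk (Rs R m) F (β + γ z)` (scale dependent letters,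
`a 0 = 0`); the boxes `[p, p + 2^(m+s))` which see `a (m+1) ≠ a m`. -/
theorem exit_count' (R : Finset (ℕ × ℤ)) (J : ℕ × ℤ) (hR : IsRegion R J) (s : ℕ) (F : ℤ → ℂ) (A : ℝ)
    (hF : ∀ p ∈ R, av2 (p.1 + 7) p.2 F ≤ A)
    (β γ : ℤ) (hγ : γ ≠ 0) (hγ3 : |γ| ≤ 3) (Pf : Finset ℤ) :
    ∑ m ∈ range (J.1 + 1), ∑ p ∈ Pf,
        (if ∃ j : ℕ, j < 2 ^ (m + s) ∧ msk (Rs R (m + 1)) F (β + γ * (p + (j : ℤ))) ≠
            msk (Rs R m) F (β + γ * (p + (j : ℤ)))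
          then (1 / ((2 ^ (m + s) : ℕ) : ℝ)) * ∑ i ∈ range (2 ^ (m + s)),
          ‖msk (Rs R (m + 1)) F (β + γ * (p + (i : ℤ)))‖ ^ 2 else 0) ≤
      (12 * 2 ^ s + 514) * A ^ 2 * 2 ^ (J.1 + 7) := by
  have h1 : ∀ m ∈ range (J.1 + 1), ∑ p ∈ Pf,
        (if ∃ j : ℕ, j < 2 ^ (m + s) ∧ msk (Rs R (m + 1)) F (β + γ * (p + (j : ℤ))) ≠
            msk (Rs R m) F (β + γ * (p + (j : ℤ)))
          then (1 / ((2 ^ (m + s) : ℕ) : ℝ)) * ∑ i ∈ range (2 ^ (m + s)),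
          ‖msk (Rs R (m + 1)) F (β + γ * (p + (i : ℤ)))‖ ^ 2 else 0) ≤
      (12 * 2 ^ s + 514) * A ^ 2 * (Dm R m).card := by
    intro m hm
    refine exit_level R m s F A hF β γ hγ hγ3 Pf _ ?_
    rintro p _ ⟨j, hj, hne⟩
    exact ⟨j, hj, sees_Dm R J hR m (by have := Finset.mem_range.1 hm; omega) F _ hne⟩
  refine (Finset.sum_le_sum h1).trans ?_
  rw [← Finset.mul_sum]
  exact mul_le_mul_of_nonneg_left (sum_card_Dm R J hR) (by positivity)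

end Crest.Agent.R079.ExitC442
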