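import Crest.Agent.R079.GridDefs_569

/-! R079, doc 2539 (1) (helper142), leaf L1 (helper408): **EXACT 2D FORMULA** for `Grid.Lbox`.

Slots `i` (frozen), `m` (killer), `a`, `b` (arbitrary letters), all distinct.  For fixed `u_i, u_m` the box
average over `u_a, u_b` is the two dimensional form `br` of the kernel `Kk` (product of the letters of the
slots `i`, `m`) against `Yb` (function of the variable `x_a` only) and `Ya` (function of `x_b` only), after a
translation to `x_m = 0`, `x_i = r ∈ {0, …, |d|-1}`, `d = sl b - sl a`. -/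

set_option autoImplicit false

namespace Crest.Agent.R079.F2

open Finset Crest.Agent.R079.Grid

/-- the four slots are distinct -/
def Dst (i m a b : Fin 4) : Prop := i ≠ m ∧ i ≠ a ∧ i ≠ b ∧ m ≠ a ∧ m ≠ b ∧ a ≠ b

instance (i m a b : Fin 4) : Decidable (Dst i m a b) := by unfold Dst; infer_instance

/-- slope difference of the two arbitrary slots -/
def dd (a b : Fin 4) : ℤ := sl b - sl a

/-- letter of slot `a` as a function of `x_b` -/
def Ya (i a b : Fin 4) (F : Fin 4 → ℤ → ℂ) (r : ℤ) (z : ℤ) : ℂ :=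
  F a ((sl i - sl a) * r + dd a b * z)

/-- letter of slot `b` as a function of `x_a` -/
def Yb (i a b : Fin 4) (F : Fin 4 → ℤ → ℂ) (r : ℤ) (z : ℤ) : ℂ :=
  F b ((sl i - sl b) * r - dd a b * z)

/-- the kernel: product of the letters of the slots `i` and `m`, function of `(x_a, x_b)` -/
def Kk (i m a b : Fin 4) (F : Fin 4 → ℤ → ℂ) (r : ℤ) (z z' : ℤ) : ℂ :=
  F i ((sl a - sl i) * z + (sl b - sl i) * z') *
    F m ((sl i - sl m) * r + (sl a - sl m) * z + (sl b - sl m) * z')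

/-- the two dimensional form: boxes `[qa, qa + 2N) × [qb, qb + 2N)` -/
noncomputable def br (i m a b : Fin 4) (F : Fin 4 → ℤ → ℂ) (N : ℕ) (r qa qb : ℤ) : ℂ :=
  (1 / ((N : ℂ) + N) ^ 2) * ∑ ua : Fin (N + N), ∑ ub : Fin (N + N),
    ((hsg N ua * hsg N ub : ℝ) : ℂ) *
      (Yb i a b F r (qa + ((ua : ℕ) : ℤ)) * Kk i m a b F r (qa + ((ua : ℕ) : ℤ)) (qb + ((ub : ℕ) : ℤ)) *
        Ya i a b F r (qb + ((ub : ℕ) : ℤ)))

/-- base point of the box with data `(q_a = q, r, u_i, u_m)` -/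
def xq (i m a b : Fin 4) (bb : ℤ) (N : ℕ) (q r ui um : ℤ) : ℤ :=
  sl b * (bb * N) - dd a b * q + (sl i - sl b) * (r - ui) - (sl m - sl b) * um

/-- the offset `q_a + q_b` -/
def off (bb : ℤ) (N : ℕ) (r ui um : ℤ) : ℤ := bb * N + ui + um - r

lemma univ4 (i m a b : Fin 4) (h : Dst i m a b) : (univ : Finset (Fin 4)) = {i, m, a, b} := by
  revert i m a b; decide

lemma prod4 {M : Type*} [CommMonoid M] (i m a b : Fin 4) (h : Dst i m a b) (g : Fin 4 → M) :
    ∏ j, g j = g i * g m * g a * g b := by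
  obtain ⟨h1, h2, h3, h4, h5, h6⟩ := h
  rw [univ4 i m a b ⟨h1, h2, h3, h4, h5, h6⟩, Finset.prod_insert (by simp [h1, h2, h3]),
    Finset.prod_insert (by simp [h4, h5]), Finset.prod_insert (by simp [h6]), Finset.prod_singleton]
  simp only [mul_assoc]

lemma sum4 {M : Type*} [AddCommMonoid M] (i m a b : Fin 4) (h : Dst i m a b) (g : Fin 4 → M) :
    ∑ j, g j = g i + g m + g a + g b := by
  obtain ⟨h1, h2, h3, h4, h5, h6⟩ := h
  rw [univ4 i m a b ⟨h1, h2, h3, h4, h5, h6⟩, Finset.sum_insert (by simp [h1, h2, h3]),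
    Finset.sum_insert (by simp [h4, h5]), Finset.sum_insert (by simp [h6]), Finset.sum_singleton]
  simp only [add_assoc]

/-- point of the box from its four coordinates -/
def mk {α : Type*} (i m a : Fin 4) (ui um ua ub : α) : Fin 4 → α :=
  fun j => if j = i then ui else if j = m then um else if j = a then ua else ub

lemma mem4 (i m a b j : Fin 4) (h : Dst i m a b) : j = i ∨ j = m ∨ j = a ∨ j = b := by
  revert i m a b j; decide

/-- Fubini: the sum over the box in the coordinates `(u_i, u_m, u_a, u_b)` -/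
lemma sum_box {α : Type*} [Fintype α] [DecidableEq α] (i m a b : Fin 4) (h : Dst i m a b)
    {M : Type*} [AddCommMonoid M] (g : (Fin 4 → α) → M) :
    ∑ u : Fin 4 → α, g u = ∑ ui : α, ∑ um : α, ∑ ua : α, ∑ ub : α, g (mk i m a ui um ua ub) := by
  have h' := h
  obtain ⟨h1, h2, h3, h4, h5, h6⟩ := h
  let e : (Fin 4 → α) ≃ α × α × α × α :=
    { toFun := fun u => (u i, u m, u a, u b)
      invFun := fun t => mk i m a t.1 t.2.1 t.2.2.1 t.2.2.2
      left_inv := by
        intro u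
        funext j
        rcases mem4 i m a b j h' with rfl | rfl | rfl | rfl
        · simp [mk]
        · simp [mk, h1.symm]
        · simp [mk, h2.symm, h4.symm]
        · simp [mk, h3.symm, h5.symm, h6.symm]
      right_inv := by
        rintro ⟨x, y, z, w⟩
        simp [mk, h1.symm, h2.symm, h4.symm, h3.symm, h5.symm, h6.symm] }
  rw [← e.symm.sum_comp g, Fintype.sum_prod_type]
  refine Finset.sum_congr rfl fun ui _ => ?_
  rw [Fintype.sum_prod_type]
  refine Finset.sum_congr rfl fun um _ => ?_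
  rw [Fintype.sum_prod_type]
  rfl

lemma dd_cases (i m a b : Fin 4) (h : Dst i m a b) :
    dd a b = 1 ∨ dd a b = -1 ∨ ((dd a b = 2 ∨ dd a b = -2) ∧ (sl i - sl a) % 2 = 1) ∨
      ((dd a b = 3 ∨ dd a b = -3) ∧ ((sl i - sl a) % 3 = 1 ∨ (sl i - sl a) % 3 = 2)) := by
  revert i m a b; decide

/-- arithmetic: the residue `r` -/
lemma exists_res (i m a b : Fin 4) (h : Dst i m a b) (c : ℤ) :
    ∃ r : ℕ, r < (dd a b).natAbs ∧ ∃ q : ℤ, dd a b * q = c - (sl i - sl a) * r := by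
  generalize hs : sl i - sl a = s
  rcases dd_cases i m a b h with h1 | h1 | ⟨h1, h2⟩ | ⟨h1, h2⟩
  · exact ⟨0, by rw [h1]; decide, c, by rw [h1]; simp⟩
  · exact ⟨0, by rw [h1]; decide, -c, by rw [h1]; simp⟩
  · rw [hs] at h2
    have hc2 : c % 2 = 0 ∨ c % 2 = 1 := by omega
    rcases hc2 with hc | hc
    · refine ⟨0, by rcases h1 with h1 | h1 <;> rw [h1] <;> decide, ?_⟩
      rcases h1 with h1 | h1 <;> rw [h1]
      · exact ⟨c / 2, by push_cast; omega⟩
      · exact ⟨-(c / 2), by push_cast; omega⟩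
    · refine ⟨1, by rcases h1 with h1 | h1 <;> rw [h1] <;> decide, ?_⟩
      rcases h1 with h1 | h1 <;> rw [h1]
      · exact ⟨(c - s) / 2, by push_cast; omega⟩
      · exact ⟨-((c - s) / 2), by push_cast; omega⟩
  · rw [hs] at h2
    have hc3 : c % 3 = 0 ∨ c % 3 = 1 ∨ c % 3 = 2 := by omega
    have key : ∃ r : ℕ, r < 3 ∧ (c - s * r) % 3 = 0 := by
      rcases h2 with h2 | h2 <;> rcases hc3 with hc | hc | hc
      · exact ⟨0, by norm_num, by push_cast; omega⟩
      · exact ⟨1, by norm_num, by push_cast; omega⟩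
      · exact ⟨2, by norm_num, by push_cast; omega⟩
      · exact ⟨0, by norm_num, by push_cast; omega⟩
      · exact ⟨2, by norm_num, by push_cast; omega⟩
      · exact ⟨1, by norm_num, by push_cast; omega⟩
    obtain ⟨r, hr, hr'⟩ := key
    refine ⟨r, by rcases h1 with h1 | h1 <;> rw [h1] <;> simpa using hr, ?_⟩
    rcases h1 with h1 | h1 <;> rw [h1]
    · exact ⟨(c - s * r) / 3, by omega⟩
    · exact ⟨-((c - s * r) / 3), by omega⟩

/-- **pointwise formula** for fixed `u_i, u_m` -/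
lemma br_eq (i m a b : Fin 4) (h : Dst i m a b) (F : Fin 4 → ℤ → ℂ) (N : ℕ) (bb x r q : ℤ)
    (ui um : Fin (N + N)) (hx : xq i m a b bb N q r ui um = x) :
    (1 / ((N : ℂ) + N) ^ 2) * ∑ ua : Fin (N + N), ∑ ub : Fin (N + N),
      ((hsg N ua * hsg N ub : ℝ) : ℂ) * ∏ j, F j (yv N bb x (mk i m a ui um ua ub) j) =
    br i m a b F N r q (off bb N r ui um - q) := by
  unfold br
  congr 1
  refine Finset.sum_congr rfl fun ua _ => Finset.sum_congr rfl fun ub _ => ?_
  congr 1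
  rw [prod4 i m a b h]
  have h' := h
  obtain ⟨h1, h2, h3, h4, h5, h6⟩ := h
  have e1 : mk i m a ui um ua ub i = ui := by simp [mk]
  have e2 : mk i m a ui um ua ub m = um := by simp [mk, h1.symm]
  have e3 : mk i m a ui um ua ub a = ua := by simp [mk, h2.symm, h4.symm]
  have e4 : mk i m a ui um ua ub b = ub := by simp [mk, h3.symm, h5.symm, h6.symm]
  have ey : ∀ k : Fin 4, yv N bb x (mk i m a ui um ua ub) k =
      x + ((sl i - sl k) * ((ui : ℕ) : ℤ) + (sl m - sl k) * ((um : ℕ) : ℤ) +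
        (sl a - sl k) * ((ua : ℕ) : ℤ) + (sl b - sl k) * ((ub : ℕ) : ℤ)) - sl k * (bb * N) := by
    intro k
    unfold yv
    rw [sum4 i m a b h', e1, e2, e3, e4]
  rw [ey i, ey m, ey a, ey b]
  simp only [Ya, Yb, Kk]
  subst hx
  simp only [xq, off, dd]
  have c1 : ∀ (k : Fin 4) (y z : ℤ), y = z → F k y = F k z := fun k y z hyz => by rw [hyz]
  rw [c1 i _ ((sl a - sl i) * (q + ((ua : ℕ) : ℤ)) +
      (sl b - sl i) * (bb * N + ((ui : ℕ) : ℤ) + ((um : ℕ) : ℤ) - r - q + ((ub : ℕ) : ℤ))) (by ring),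
    c1 m _ ((sl i - sl m) * r + (sl a - sl m) * (q + ((ua : ℕ) : ℤ)) +
      (sl b - sl m) * (bb * N + ((ui : ℕ) : ℤ) + ((um : ℕ) : ℤ) - r - q + ((ub : ℕ) : ℤ))) (by ring),
    c1 a _ ((sl i - sl a) * r +
      (sl b - sl a) * (bb * N + ((ui : ℕ) : ℤ) + ((um : ℕ) : ℤ) - r - q + ((ub : ℕ) : ℤ))) (by ring),
    c1 b _ ((sl i - sl b) * r - (sl b - sl a) * (q + ((ua : ℕ) : ℤ))) (by ring)]
  ring

/-- the data `(r, q)` of a box exist -/
lemma exists_rq (i m a b : Fin 4) (h : Dst i m a b) (bb : ℤ) (N : ℕ) (x ui um : ℤ) :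
    ∃ r : ℕ, r < (dd a b).natAbs ∧ ∃ q : ℤ, xq i m a b bb N q r ui um = x := by
  obtain ⟨r, hr, q, hq⟩ := exists_res i m a b h
    (x + (sl i - sl a) * ui + (sl m - sl a) * um - sl a * (bb * N))
  refine ⟨r, hr, off bb N r ui um - q, ?_⟩
  unfold xq off
  have : dd a b * (bb * N + ui + um - r - q) = dd a b * (bb * N + ui + um - r) - dd a b * q := by ring
  rw [this, hq]
  unfold dd
  ring

/-- **EXACT FORMULA (2539 (1))** -/
theorem Lbox_eq (i m a b : Fin 4) (h : Dst i m a b) (F : Fin 4 → ℤ → ℂ) (N : ℕ) (bb x : ℤ)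
    (r : Fin (N + N) → Fin (N + N) → ℕ) (q : Fin (N + N) → Fin (N + N) → ℤ)
    (hq : ∀ ui um, xq i m a b bb N (q ui um) (r ui um) ((ui : ℕ) : ℤ) ((um : ℕ) : ℤ) = x) :
    Lbox N bb F x = (1 / ((N : ℂ) + N) ^ 2) * ∑ ui : Fin (N + N), ∑ um : Fin (N + N),
      ((hsg N ui * hsg N um : ℝ) : ℂ) *
        br i m a b F N (r ui um) (q ui um)
          (off bb N (r ui um) ((ui : ℕ) : ℤ) ((um : ℕ) : ℤ) - q ui um) := by
  unfold Lbox
  rw [sum_box i m a b h, Finset.mul_sum, Finset.mul_sum]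
  refine Finset.sum_congr rfl fun ui _ => ?_
  rw [Finset.mul_sum, Finset.mul_sum]
  refine Finset.sum_congr rfl fun um _ => ?_
  rw [← br_eq i m a b h F N bb x (r ui um) (q ui um) ui um (hq ui um)]
  have h' := h
  obtain ⟨h1, h2, h3, h4, h5, h6⟩ := h
  have e1 : ∀ ua ub, mk i m a ui um ua ub i = ui := by intros; simp [mk]
  have e2 : ∀ ua ub, mk i m a ui um ua ub m = um := by intros; simp [mk, h1.symm]
  have e3 : ∀ ua ub, mk i m a ui um ua ub a = ua := by intros; simp [mk, h2.symm, h4.symm]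
  have e4 : ∀ ua ub, mk i m a ui um ua ub b = ub := by intros; simp [mk, h3.symm, h5.symm, h6.symm]
  simp only [Finset.mul_sum]
  refine Finset.sum_congr rfl fun ua _ => Finset.sum_congr rfl fun ub _ => ?_
  rw [prod4 i m a b h' (fun j => hsg N (mk i m a ui um ua ub j)), e1, e2, e3, e4]
  push_cast
  ring

lemma norm_hsg (N : ℕ) (u : Fin (N + N)) : ‖(hsg N u : ℂ)‖ = 1 := by
  unfold hsg
  split_ifs <;> simp

/-- **norm form, summed over the base points** -/
theorem sum_norm_Lbox_le (i m a b : Fin 4) (h : Dst i m a b) (F : Fin 4 → ℤ → ℂ) (N : ℕ) (bb : ℤ)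
    (S Q : Finset ℤ)
    (hQ : ∀ (ui um : Fin (N + N)) (r : ℕ) (q : ℤ), r < (dd a b).natAbs →
      xq i m a b bb N q r ((ui : ℕ) : ℤ) ((um : ℕ) : ℤ) ∈ S → q ∈ Q) :
    ∑ x ∈ S, ‖Lbox N bb F x‖ ≤
      (1 / ((N : ℝ) + N) ^ 2) * ∑ ui : Fin (N + N), ∑ um : Fin (N + N),
        ∑ r ∈ range (dd a b).natAbs, ∑ q ∈ Q,
          if xq i m a b bb N q r ((ui : ℕ) : ℤ) ((um : ℕ) : ℤ) ∈ S then
            ‖br i m a b F N r q (off bb N r ((ui : ℕ) : ℤ) ((um : ℕ) : ℤ) - q)‖ else 0 := by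
  classical
  have hex : ∀ (x : ℤ) (ui um : Fin (N + N)), ∃ t : ℕ × ℤ, t.1 < (dd a b).natAbs ∧
      xq i m a b bb N t.2 t.1 ((ui : ℕ) : ℤ) ((um : ℕ) : ℤ) = x := by
    intro x ui um
    obtain ⟨r, hr, q, hq⟩ := exists_rq i m a b h bb N x ((ui : ℕ) : ℤ) ((um : ℕ) : ℤ)
    exact ⟨(r, q), hr, hq⟩
  choose t ht1 ht2 using hex
  have h1 : ∀ x, ‖Lbox N bb F x‖ ≤ (1 / ((N : ℝ) + N) ^ 2) * ∑ ui : Fin (N + N), ∑ um : Fin (N + N),
      ‖br i m a b F N (t x ui um).1 (t x ui um).2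
        (off bb N (t x ui um).1 ((ui : ℕ) : ℤ) ((um : ℕ) : ℤ) - (t x ui um).2)‖ := by
    intro x
    rw [Lbox_eq i m a b h F N bb x (fun ui um => (t x ui um).1) (fun ui um => (t x ui um).2)
      (fun ui um => ht2 x ui um), norm_mul]
    have hn : ‖(1 / ((N : ℂ) + N) ^ 2)‖ = 1 / ((N : ℝ) + N) ^ 2 := by
      rw [norm_div, norm_one, norm_pow]
      congr 2
      rw [← Nat.cast_add, Complex.norm_natCast, Nat.cast_add]
    rw [hn]
    refine mul_le_mul_of_nonneg_left ?_ (by positivity)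
    refine (norm_sum_le _ _).trans (Finset.sum_le_sum fun ui _ => ?_)
    refine (norm_sum_le _ _).trans (Finset.sum_le_sum fun um _ => ?_)
    rw [norm_mul, Complex.ofReal_mul, norm_mul, norm_hsg, norm_hsg, one_mul, one_mul]
  refine (Finset.sum_le_sum fun x _ => h1 x).trans ?_
  rw [← Finset.mul_sum]
  refine mul_le_mul_of_nonneg_left ?_ (by positivity)
  rw [Finset.sum_comm]
  refine Finset.sum_le_sum fun ui _ => ?_
  rw [Finset.sum_comm]
  refine Finset.sum_le_sum fun um _ => ?_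
  -- injection `x ↦ (r, q)`
  rw [← Finset.sum_product' (range (dd a b).natAbs) Q (fun r q =>
    if xq i m a b bb N q r ((ui : ℕ) : ℤ) ((um : ℕ) : ℤ) ∈ S then
            ‖br i m a b F N r q (off bb N r ((ui : ℕ) : ℤ) ((um : ℕ) : ℤ) - q)‖ else 0)]
  have hinj : Set.InjOn (fun x => t x ui um) (S : Set ℤ) := by
    intro x _ y _ hxy
    have hxy' : t x ui um = t y ui um := hxy
    rw [← ht2 x ui um, ← ht2 y ui um, hxy']
  have himg : S.image (fun x => t x ui um) ⊆ range (dd a b).natAbs ×ˢ Q := by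
    intro z hz
    rw [Finset.mem_image] at hz
    obtain ⟨x, hx, rfl⟩ := hz
    rw [Finset.mem_product, Finset.mem_range]
    refine ⟨ht1 x ui um, hQ ui um _ _ (ht1 x ui um) ?_⟩
    rw [ht2 x ui um]
    exact hx
  refine le_trans (le_of_eq ?_) (Finset.sum_le_sum_of_subset_of_nonneg himg fun z _ _ => ?_)
  · rw [Finset.sum_image hinj]
    refine Finset.sum_congr rfl fun x hx => ?_
    rw [if_pos]
    rw [ht2 x ui um]
    exact hx
  · split_ifs
    · exact norm_nonneg _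
    · exact le_refl _

end Crest.Agent.R079.F2
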