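import Crest.Agent.R079.QDefs_248

/-! R079, doc 2531 Step II, line model: the exact box family (helper230's (F), typed by helper696).

For every `p0 p3` the box `(N, b, x)` is the box with corners `pos b N x p0 p3`, `∑ pos = b N`,
`∑ sl pos = x`; the two shadows `0, 3` are functions of `(X0, X3; Z1, Z2)`. -/

set_option autoImplicit false

namespace Crest.Agent.R079.Fam696

open Finset Crest.Agent.R079.Grid Crest.Agent.R079.Growth Crest.Agent.R079.QRed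

/-- corners of the box of base point `x` -/
def pos (b N x p0 p3 : ℤ) : Fin 4 → ℤ :=
  ![p0, 3 * (b * N) - x - 2 * p0 - 3 * p3, x + p0 + 2 * p3 - 2 * (b * N), p3]

/-- shadows in product coordinates -/
def sh (X0 X3 Z1 Z2 : ℤ) : Fin 4 → ℤ :=
  ![Z1 + 2 * Z2 - X3, -X0 + Z2 - 2 * X3, -2 * X0 - Z1 - 3 * X3, X0 + 2 * Z1 + 3 * Z2]

theorem yv_pos (N : ℕ) (b x p0 p3 : ℤ) (u : Fin 4 → Fin (N + N)) (j : Fin 4) :
    yv N b x u j = sh (p0 + ((u 0 : ℕ) : ℤ)) (p3 + ((u 3 : ℕ) : ℤ))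
      (pos b N x p0 p3 1 + ((u 1 : ℕ) : ℤ)) (pos b N x p0 p3 2 + ((u 2 : ℕ) : ℤ)) j := by
  fin_cases j <;> simp [yv, sh, pos, sl, Fin.sum_univ_four] <;> ring

/-- inner form at fixed `(X0, X3)`: a bilinear Haar form in `(1, 2)` -/
noncomputable def Inn (N : ℕ) (F : Fin 4 → ℤ → ℂ) (X0 X3 q1 q2 : ℤ) : ℂ :=
  (1 / ((N : ℂ) + N) ^ 2) * ∑ u1 : Fin (N + N), ∑ u2 : Fin (N + N),
    ((hsg N u1 * hsg N u2 : ℝ) : ℂ) *
      ∏ j, F j (sh X0 X3 (q1 + ((u1 : ℕ) : ℤ)) (q2 + ((u2 : ℕ) : ℤ)) j)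

theorem sum_fin4 {n : ℕ} (f : (Fin 4 → Fin n) → ℂ) :
    ∑ u : Fin 4 → Fin n, f u = ∑ u0 : Fin n, ∑ u3 : Fin n, ∑ u1 : Fin n, ∑ u2 : Fin n,
      f ![u0, u1, u2, u3] := by
  let e : (Fin 4 → Fin n) ≃ (Fin n × Fin n × Fin n × Fin n) :=
    { toFun := fun u => (u 0, u 3, u 1, u 2)
      invFun := fun p => ![p.1, p.2.2.1, p.2.2.2, p.2.1]
      left_inv := fun u => by
        ext i
        fin_cases i <;> rfl
      right_inv := fun p => rfl }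
  rw [Fintype.sum_equiv e f (fun p => f ![p.1, p.2.2.1, p.2.2.2, p.2.1])
    (fun u => by
      congr 1
      ext i
      fin_cases i <;> rfl)]
  rw [Fintype.sum_prod_type]
  refine sum_congr rfl fun a _ => ?_
  rw [Fintype.sum_prod_type]
  refine sum_congr rfl fun c _ => ?_
  rw [Fintype.sum_prod_type]

theorem Lbox_fam (N : ℕ) (b : ℤ) (F : Fin 4 → ℤ → ℂ) (x p0 p3 : ℤ) :
    Lbox N b F x = (1 / ((N : ℂ) + N) ^ 2) * ∑ u0 : Fin (N + N), ∑ u3 : Fin (N + N),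
      ((hsg N u0 * hsg N u3 : ℝ) : ℂ) *
        Inn N F (p0 + ((u0 : ℕ) : ℤ)) (p3 + ((u3 : ℕ) : ℤ)) (pos b N x p0 p3 1)
          (pos b N x p0 p3 2) := by
  unfold Lbox
  rw [sum_fin4]
  have h4 : (1 / ((N : ℂ) + N) ^ 4) = (1 / ((N : ℂ) + N) ^ 2) * (1 / ((N : ℂ) + N) ^ 2) := by
    rw [div_mul_div_comm, ← pow_add, one_mul]
  rw [h4, mul_assoc]
  congr 1
  rw [mul_sum]
  refine sum_congr rfl fun u0 _ => ?_
  rw [mul_sum]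
  refine sum_congr rfl fun u3 _ => ?_
  unfold Inn
  rw [mul_left_comm]
  congr 1
  rw [mul_sum]
  refine sum_congr rfl fun u1 _ => ?_
  rw [mul_sum]
  refine sum_congr rfl fun u2 _ => ?_
  rw [← mul_assoc]
  congr 1
  · rw [Fin.prod_univ_four]
    have e0 : (![u0, u1, u2, u3] : Fin 4 → Fin (N + N)) 0 = u0 := rfl
    have e1 : (![u0, u1, u2, u3] : Fin 4 → Fin (N + N)) 1 = u1 := rfl
    have e2 : (![u0, u1, u2, u3] : Fin 4 → Fin (N + N)) 2 = u2 := rfl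
    have e3 : (![u0, u1, u2, u3] : Fin 4 → Fin (N + N)) 3 = u3 := rfl
    rw [e0, e1, e2, e3]
    push_cast
    ring
  · refine prod_congr rfl fun j _ => ?_
    rw [yv_pos N b x p0 p3]
    rfl

/-- normalised Haar difference of side `2N` at the position `q` -/
noncomputable def hd (N : ℕ) (f : ℤ → ℂ) (q : ℤ) : ℂ :=
  (1 / ((N : ℂ) + N)) * ∑ u : Fin (N + N), ((hsg N u : ℝ) : ℂ) * f (q + ((u : ℕ) : ℤ))

/-- factorised kernel: `Inn` is a label sum of products of Haar differences -/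
theorem Inn_fact {ι : Type*} [Fintype ι] (N : ℕ) (F : Fin 4 → ℤ → ℂ) (X0 X3 q1 q2 : ℤ)
    (w v : ι → ℤ → ℂ)
    (hK : ∀ u1 u2 : Fin (N + N),
      F 0 (q1 + ((u1 : ℕ) : ℤ) + 2 * (q2 + ((u2 : ℕ) : ℤ)) - X3) *
        F 3 (X0 + 2 * (q1 + ((u1 : ℕ) : ℤ)) + 3 * (q2 + ((u2 : ℕ) : ℤ))) =
      ∑ l, w l (q1 + ((u1 : ℕ) : ℤ)) * v l (q2 + ((u2 : ℕ) : ℤ))) :
    Inn N F X0 X3 q1 q2 =
      ∑ l, hd N (fun Z1 => F 2 (-2 * X0 - Z1 - 3 * X3) * w l Z1) q1 *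
        hd N (fun Z2 => F 1 (-X0 + Z2 - 2 * X3) * v l Z2) q2 := by
  unfold Inn hd
  have hp : ∀ u1 u2 : Fin (N + N),
      ((hsg N u1 * hsg N u2 : ℝ) : ℂ) *
        ∏ j, F j (sh X0 X3 (q1 + ((u1 : ℕ) : ℤ)) (q2 + ((u2 : ℕ) : ℤ)) j) =
      ∑ l, (((hsg N u1 : ℝ) : ℂ) * (F 2 (-2 * X0 - (q1 + ((u1 : ℕ) : ℤ)) - 3 * X3) *
          w l (q1 + ((u1 : ℕ) : ℤ)))) *
        (((hsg N u2 : ℝ) : ℂ) * (F 1 (-X0 + (q2 + ((u2 : ℕ) : ℤ)) - 2 * X3) *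
          v l (q2 + ((u2 : ℕ) : ℤ)))) := by
    intro u1 u2
    rw [Fin.prod_univ_four]
    have e0 : sh X0 X3 (q1 + ((u1 : ℕ) : ℤ)) (q2 + ((u2 : ℕ) : ℤ)) 0 =
      q1 + ((u1 : ℕ) : ℤ) + 2 * (q2 + ((u2 : ℕ) : ℤ)) - X3 := rfl
    have e1 : sh X0 X3 (q1 + ((u1 : ℕ) : ℤ)) (q2 + ((u2 : ℕ) : ℤ)) 1 =
      -X0 + (q2 + ((u2 : ℕ) : ℤ)) - 2 * X3 := rfl
    have e2 : sh X0 X3 (q1 + ((u1 : ℕ) : ℤ)) (q2 + ((u2 : ℕ) : ℤ)) 2 =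
      -2 * X0 - (q1 + ((u1 : ℕ) : ℤ)) - 3 * X3 := rfl
    have e3 : sh X0 X3 (q1 + ((u1 : ℕ) : ℤ)) (q2 + ((u2 : ℕ) : ℤ)) 3 =
      X0 + 2 * (q1 + ((u1 : ℕ) : ℤ)) + 3 * (q2 + ((u2 : ℕ) : ℤ)) := rfl
    rw [e0, e1, e2, e3]
    calc _ = (((hsg N u1 : ℝ) : ℂ) * ((hsg N u2 : ℝ) : ℂ) *
            (F 1 (-X0 + (q2 + ((u2 : ℕ) : ℤ)) - 2 * X3) *
              F 2 (-2 * X0 - (q1 + ((u1 : ℕ) : ℤ)) - 3 * X3))) *
          (F 0 (q1 + ((u1 : ℕ) : ℤ) + 2 * (q2 + ((u2 : ℕ) : ℤ)) - X3) *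
            F 3 (X0 + 2 * (q1 + ((u1 : ℕ) : ℤ)) + 3 * (q2 + ((u2 : ℕ) : ℤ)))) := by
            push_cast; ring
      _ = _ := by
            rw [hK u1 u2, mul_sum]
            refine sum_congr rfl fun l _ => ?_
            ring
  calc _ = (1 / ((N : ℂ) + N) ^ 2) * ∑ u1 : Fin (N + N), ∑ u2 : Fin (N + N),
      ∑ l, (((hsg N u1 : ℝ) : ℂ) * (F 2 (-2 * X0 - (q1 + ((u1 : ℕ) : ℤ)) - 3 * X3) *
          w l (q1 + ((u1 : ℕ) : ℤ)))) *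
        (((hsg N u2 : ℝ) : ℂ) * (F 1 (-X0 + (q2 + ((u2 : ℕ) : ℤ)) - 2 * X3) *
          v l (q2 + ((u2 : ℕ) : ℤ)))) := by
        congr 1
        exact sum_congr rfl fun u1 _ => sum_congr rfl fun u2 _ => hp u1 u2
    _ = _ := by
        have h1 : ∀ u1 : Fin (N + N), (∑ u2 : Fin (N + N),
            ∑ l, (((hsg N u1 : ℝ) : ℂ) * (F 2 (-2 * X0 - (q1 + ((u1 : ℕ) : ℤ)) - 3 * X3) *
              w l (q1 + ((u1 : ℕ) : ℤ)))) *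
            (((hsg N u2 : ℝ) : ℂ) * (F 1 (-X0 + (q2 + ((u2 : ℕ) : ℤ)) - 2 * X3) *
              v l (q2 + ((u2 : ℕ) : ℤ))))) =
            ∑ l, (((hsg N u1 : ℝ) : ℂ) * (F 2 (-2 * X0 - (q1 + ((u1 : ℕ) : ℤ)) - 3 * X3) *
              w l (q1 + ((u1 : ℕ) : ℤ)))) * ∑ u2 : Fin (N + N),
            (((hsg N u2 : ℝ) : ℂ) * (F 1 (-X0 + (q2 + ((u2 : ℕ) : ℤ)) - 2 * X3) *
              v l (q2 + ((u2 : ℕ) : ℤ)))) := by
          intro u1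
          rw [sum_comm]
          exact sum_congr rfl fun l _ => (mul_sum _ _ _).symm
        simp_rw [h1]
        rw [sum_comm, mul_sum]
        refine sum_congr rfl fun l _ => ?_
        rw [← sum_mul]
        have h2 : (1 / ((N : ℂ) + N) ^ 2) = (1 / ((N : ℂ) + N)) * (1 / ((N : ℂ) + N)) := by
          rw [div_mul_div_comm, one_mul, sq]
        rw [h2]
        ring

theorem hsg_abs (N : ℕ) (u : Fin (N + N)) : ‖((hsg N u : ℝ) : ℂ)‖ = 1 := by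
  unfold hsg
  split_ifs <;> simp

/-- absolute values at a free corner `(p0, p3)` -/
theorem norm_Lbox_le (N : ℕ) (b : ℤ) (F : Fin 4 → ℤ → ℂ) (x p0 p3 : ℤ) :
    ‖Lbox N b F x‖ ≤ (1 / ((N : ℝ) + N) ^ 2) * ∑ u0 : Fin (N + N), ∑ u3 : Fin (N + N),
      ‖Inn N F (p0 + ((u0 : ℕ) : ℤ)) (p3 + ((u3 : ℕ) : ℤ)) (pos b N x p0 p3 1)
          (pos b N x p0 p3 2)‖ := by
  rw [Lbox_fam N b F x p0 p3, norm_mul]
  have h0 : ‖(1 / ((N : ℂ) + N) ^ 2)‖ = 1 / ((N : ℝ) + N) ^ 2 := by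
    have h1 : ((N : ℂ) + N) = (((N : ℝ) + N : ℝ) : ℂ) := by push_cast; rfl
    rw [h1, norm_div, norm_one, norm_pow, Complex.norm_real, Real.norm_eq_abs,
      abs_of_nonneg (by positivity)]
  rw [h0]
  refine mul_le_mul_of_nonneg_left ?_ (by positivity)
  refine (norm_sum_le _ _).trans (sum_le_sum fun u0 _ => ?_)
  refine (norm_sum_le _ _).trans (sum_le_sum fun u3 _ => ?_)
  rw [norm_mul, Complex.ofReal_mul, norm_mul, hsg_abs, hsg_abs, one_mul, one_mul]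

/-- **family average**: for every `L > 0` and every `D ≥ 2N`, the box form is at most the average
over `(X0, X3)` of the inner forms -/
theorem norm_Lbox_fam (N : ℕ) (b : ℤ) (F : Fin 4 → ℤ → ℂ) (x : ℤ) (L D : ℕ) (hL : 0 < L)
    (hD : N + N ≤ D) :
    ‖Lbox N b F x‖ ≤ (1 / (L : ℝ) ^ 2) * ∑ X0 ∈ range (L + D), ∑ X3 ∈ range (L + D),
      (1 / ((N : ℝ) + N) ^ 2) * ∑ u0 : Fin (N + N), ∑ u3 : Fin (N + N),
      ‖Inn N F (X0 : ℤ) (X3 : ℤ)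
        (b * N - ((X0 : ℤ) - ((u0 : ℕ) : ℤ)) - ((X3 : ℤ) - ((u3 : ℕ) : ℤ)) -
          (x + ((X0 : ℤ) - ((u0 : ℕ) : ℤ)) + 2 * ((X3 : ℤ) - ((u3 : ℕ) : ℤ)) - 2 * (b * N)))
        (x + ((X0 : ℤ) - ((u0 : ℕ) : ℤ)) + 2 * ((X3 : ℤ) - ((u3 : ℕ) : ℤ)) - 2 * (b * N))‖ := by
  set G : ℤ → ℤ → ℤ → ℤ → ℝ := fun X0 X3 v0 v3 => ‖Inn N F X0 X3
        (b * N - (X0 - v0) - (X3 - v3) - (x + (X0 - v0) + 2 * (X3 - v3) - 2 * (b * N)))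
        (x + (X0 - v0) + 2 * (X3 - v3) - 2 * (b * N))‖ with hG
  have hG0 : ∀ a c d e, 0 ≤ G a c d e := fun a c d e => norm_nonneg _
  -- average over the corners
  have h1 : (L : ℝ) ^ 2 * ‖Lbox N b F x‖ ≤ ∑ p0 ∈ range L, ∑ p3 ∈ range L,
      (1 / ((N : ℝ) + N) ^ 2) * ∑ u0 : Fin (N + N), ∑ u3 : Fin (N + N),
        G ((p0 : ℤ) + ((u0 : ℕ) : ℤ)) ((p3 : ℤ) + ((u3 : ℕ) : ℤ)) ((u0 : ℕ) : ℤ)
          ((u3 : ℕ) : ℤ) := by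
    have h2 : (L : ℝ) ^ 2 * ‖Lbox N b F x‖ =
        ∑ p0 ∈ range L, ∑ p3 ∈ range L, ‖Lbox N b F x‖ := by
      simp [sum_const, card_range, sq, mul_assoc]
    rw [h2]
    refine sum_le_sum fun p0 _ => sum_le_sum fun p3 _ => ?_
    have hkey : ∀ u0 u3 : Fin (N + N),
        ‖Inn N F ((p0 : ℤ) + ((u0 : ℕ) : ℤ)) ((p3 : ℤ) + ((u3 : ℕ) : ℤ))
          (pos b N x (p0 : ℤ) (p3 : ℤ) 1) (pos b N x (p0 : ℤ) (p3 : ℤ) 2)‖ =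
        G ((p0 : ℤ) + ((u0 : ℕ) : ℤ)) ((p3 : ℤ) + ((u3 : ℕ) : ℤ)) ((u0 : ℕ) : ℤ)
          ((u3 : ℕ) : ℤ) := by
      intro u0 u3
      have e1 : pos b N x (p0 : ℤ) (p3 : ℤ) 1 =
          b * N - ((p0 : ℤ) + ((u0 : ℕ) : ℤ) - ((u0 : ℕ) : ℤ)) -
            ((p3 : ℤ) + ((u3 : ℕ) : ℤ) - ((u3 : ℕ) : ℤ)) -
          (x + ((p0 : ℤ) + ((u0 : ℕ) : ℤ) - ((u0 : ℕ) : ℤ)) +
            2 * ((p3 : ℤ) + ((u3 : ℕ) : ℤ) - ((u3 : ℕ) : ℤ)) - 2 * (b * N)) := by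
        show 3 * (b * N) - x - 2 * (p0 : ℤ) - 3 * (p3 : ℤ) = _
        ring
      have e2 : pos b N x (p0 : ℤ) (p3 : ℤ) 2 =
          x + ((p0 : ℤ) + ((u0 : ℕ) : ℤ) - ((u0 : ℕ) : ℤ)) +
            2 * ((p3 : ℤ) + ((u3 : ℕ) : ℤ) - ((u3 : ℕ) : ℤ)) - 2 * (b * N) := by
        show x + (p0 : ℤ) + 2 * (p3 : ℤ) - 2 * (b * N) = _
        ring
      rw [e1, e2]
    calc _ ≤ _ := norm_Lbox_le N b F x (p0 : ℤ) (p3 : ℤ)
      _ = _ := by simp only [hkey]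
  have h3 : ∑ p0 ∈ range L, ∑ p3 ∈ range L,
      (1 / ((N : ℝ) + N) ^ 2) * ∑ u0 : Fin (N + N), ∑ u3 : Fin (N + N),
        G ((p0 : ℤ) + ((u0 : ℕ) : ℤ)) ((p3 : ℤ) + ((u3 : ℕ) : ℤ)) ((u0 : ℕ) : ℤ)
          ((u3 : ℕ) : ℤ) ≤
      ∑ X0 ∈ range (L + D), ∑ X3 ∈ range (L + D),
      (1 / ((N : ℝ) + N) ^ 2) * ∑ u0 : Fin (N + N), ∑ u3 : Fin (N + N),
        G (X0 : ℤ) (X3 : ℤ) ((u0 : ℕ) : ℤ) ((u3 : ℕ) : ℤ) := by
    simp_rw [← mul_sum]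
    refine mul_le_mul_of_nonneg_left ?_ (by positivity)
    have hsh : ∀ (u : Fin (N + N)) (H : ℤ → ℝ), (∀ a, 0 ≤ H a) →
        ∑ p ∈ range L, H ((p : ℤ) + ((u : ℕ) : ℤ)) ≤ ∑ X ∈ range (L + D), H (X : ℤ) := by
      intro u H hH
      have hu : (u : ℕ) ≤ D := (le_of_lt u.2).trans hD
      calc ∑ p ∈ range L, H ((p : ℤ) + ((u : ℕ) : ℤ))
          = ∑ X ∈ (range L).map (addRightEmbedding (u : ℕ)), H (X : ℤ) := by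
            rw [sum_map]
            refine sum_congr rfl fun p _ => ?_
            simp [addRightEmbedding]
        _ ≤ ∑ X ∈ range (L + D), H (X : ℤ) := by
            refine sum_le_sum_of_subset_of_nonneg ?_ (fun _ _ _ => hH _)
            intro X hX
            rw [mem_map] at hX
            obtain ⟨p, hp, rfl⟩ := hX
            rw [mem_range] at hp ⊢
            simp only [addRightEmbedding_apply]
            omega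
    have hA : ∑ p0 ∈ range L, ∑ p3 ∈ range L, ∑ u0 : Fin (N + N), ∑ u3 : Fin (N + N),
        G ((p0 : ℤ) + ((u0 : ℕ) : ℤ)) ((p3 : ℤ) + ((u3 : ℕ) : ℤ)) ((u0 : ℕ) : ℤ)
          ((u3 : ℕ) : ℤ) =
        ∑ u0 : Fin (N + N), ∑ u3 : Fin (N + N), ∑ p0 ∈ range L, ∑ p3 ∈ range L,
        G ((p0 : ℤ) + ((u0 : ℕ) : ℤ)) ((p3 : ℤ) + ((u3 : ℕ) : ℤ)) ((u0 : ℕ) : ℤ)
          ((u3 : ℕ) : ℤ) := by
      calc _ = ∑ p0 ∈ range L, ∑ u0 : Fin (N + N), ∑ u3 : Fin (N + N), ∑ p3 ∈ range L,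
            G ((p0 : ℤ) + ((u0 : ℕ) : ℤ)) ((p3 : ℤ) + ((u3 : ℕ) : ℤ)) ((u0 : ℕ) : ℤ)
              ((u3 : ℕ) : ℤ) := by
              refine sum_congr rfl fun p0 _ => ?_
              rw [sum_comm]
              refine sum_congr rfl fun u0 _ => ?_
              rw [sum_comm]
        _ = _ := by
              rw [sum_comm]
              refine sum_congr rfl fun u0 _ => ?_
              rw [sum_comm]
    have hB : ∑ X0 ∈ range (L + D), ∑ X3 ∈ range (L + D), ∑ u0 : Fin (N + N),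
        ∑ u3 : Fin (N + N), G (X0 : ℤ) (X3 : ℤ) ((u0 : ℕ) : ℤ) ((u3 : ℕ) : ℤ) =
        ∑ u0 : Fin (N + N), ∑ u3 : Fin (N + N), ∑ X0 ∈ range (L + D), ∑ X3 ∈ range (L + D),
          G (X0 : ℤ) (X3 : ℤ) ((u0 : ℕ) : ℤ) ((u3 : ℕ) : ℤ) := by
      calc _ = ∑ X0 ∈ range (L + D), ∑ u0 : Fin (N + N), ∑ u3 : Fin (N + N),
            ∑ X3 ∈ range (L + D), G (X0 : ℤ) (X3 : ℤ) ((u0 : ℕ) : ℤ) ((u3 : ℕ) : ℤ) := by
              refine sum_congr rfl fun X0 _ => ?_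
              rw [sum_comm]
              refine sum_congr rfl fun u0 _ => ?_
              rw [sum_comm]
        _ = _ := by
              rw [sum_comm]
              refine sum_congr rfl fun u0 _ => ?_
              rw [sum_comm]
    rw [hA, hB]
    refine sum_le_sum fun u0 _ => sum_le_sum fun u3 _ => ?_
    calc _ ≤ ∑ p0 ∈ range L, ∑ X3 ∈ range (L + D),
          G ((p0 : ℤ) + ((u0 : ℕ) : ℤ)) (X3 : ℤ) ((u0 : ℕ) : ℤ) ((u3 : ℕ) : ℤ) :=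
          sum_le_sum fun p0 _ => hsh u3
            (fun a => G ((p0 : ℤ) + ((u0 : ℕ) : ℤ)) a ((u0 : ℕ) : ℤ) ((u3 : ℕ) : ℤ))
            (fun a => hG0 _ _ _ _)
      _ ≤ _ := hsh u0 (fun a => ∑ X3 ∈ range (L + D),
          G a (X3 : ℤ) ((u0 : ℕ) : ℤ) ((u3 : ℕ) : ℤ)) (fun a => sum_nonneg fun _ _ => hG0 _ _ _ _)
  have h5 := h1.trans h3
  have hL2 : (0 : ℝ) < (L : ℝ) ^ 2 := by positivity
  rw [one_div, ← div_eq_inv_mul, le_div_iff₀ hL2, mul_comm]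
  exact h5

/-- **family bound of the total form** -/
theorem TR_fam (b : ℤ) (ε : ℕ → ℤ → ℂ) (hε : ∀ m x, ‖ε m x‖ ≤ 1) (W : Finset Nd)
    (F : Fin 4 → Fn) (L D : ℕ) (hL : 0 < L) (hD : ∀ p ∈ W, 2 ^ p.1 + 2 ^ p.1 ≤ D) :
    ‖TR b ε W F‖ ≤ (1 / (L : ℝ) ^ 2) * ∑ X0 ∈ range (L + D), ∑ X3 ∈ range (L + D),
      ∑ p ∈ W, (1 / (((2 ^ p.1 : ℕ) : ℝ) + ((2 ^ p.1 : ℕ) : ℝ)) ^ 2) *
        ∑ u0 : Fin (2 ^ p.1 + 2 ^ p.1), ∑ u3 : Fin (2 ^ p.1 + 2 ^ p.1), ∑ x ∈ adm p.1 p.2,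
      ‖Inn (2 ^ p.1) F (X0 : ℤ) (X3 : ℤ)
        (b * (2 ^ p.1 : ℕ) - ((X0 : ℤ) - ((u0 : ℕ) : ℤ)) - ((X3 : ℤ) - ((u3 : ℕ) : ℤ)) -
          (x + ((X0 : ℤ) - ((u0 : ℕ) : ℤ)) + 2 * ((X3 : ℤ) - ((u3 : ℕ) : ℤ)) -
            2 * (b * (2 ^ p.1 : ℕ))))
        (x + ((X0 : ℤ) - ((u0 : ℕ) : ℤ)) + 2 * ((X3 : ℤ) - ((u3 : ℕ) : ℤ)) -
          2 * (b * (2 ^ p.1 : ℕ)))‖ := by
  unfold TR TI
  calc ‖∑ p ∈ W, ∑ x ∈ adm p.1 p.2, ε p.1 x * Lbox (2 ^ p.1) b F x‖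
      ≤ ∑ p ∈ W, ∑ x ∈ adm p.1 p.2, ‖Lbox (2 ^ p.1) b F x‖ := by
        refine (norm_sum_le _ _).trans (sum_le_sum fun p _ => ?_)
        refine (norm_sum_le _ _).trans (sum_le_sum fun x _ => ?_)
        rw [norm_mul]
        exact mul_le_of_le_one_left (norm_nonneg _) (hε _ _)
    _ ≤ ∑ p ∈ W, ∑ x ∈ adm p.1 p.2, (1 / (L : ℝ) ^ 2) * ∑ X0 ∈ range (L + D),
        ∑ X3 ∈ range (L + D), (1 / (((2 ^ p.1 : ℕ) : ℝ) + ((2 ^ p.1 : ℕ) : ℝ)) ^ 2) *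
        ∑ u0 : Fin (2 ^ p.1 + 2 ^ p.1), ∑ u3 : Fin (2 ^ p.1 + 2 ^ p.1),
      ‖Inn (2 ^ p.1) F (X0 : ℤ) (X3 : ℤ)
        (b * (2 ^ p.1 : ℕ) - ((X0 : ℤ) - ((u0 : ℕ) : ℤ)) - ((X3 : ℤ) - ((u3 : ℕ) : ℤ)) -
          (x + ((X0 : ℤ) - ((u0 : ℕ) : ℤ)) + 2 * ((X3 : ℤ) - ((u3 : ℕ) : ℤ)) -
            2 * (b * (2 ^ p.1 : ℕ))))
        (x + ((X0 : ℤ) - ((u0 : ℕ) : ℤ)) + 2 * ((X3 : ℤ) - ((u3 : ℕ) : ℤ)) -
          2 * (b * (2 ^ p.1 : ℕ)))‖ :=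
        sum_le_sum fun p hp => sum_le_sum fun x _ =>
          norm_Lbox_fam (2 ^ p.1) b F x L D hL (hD p hp)
    _ = _ := by
        simp_rw [← mul_sum]
        congr 1
        simp_rw [mul_sum]
        have hx : ∀ p ∈ W, ∀ (Φ : ℤ → ℕ → ℕ → Fin (2 ^ p.1 + 2 ^ p.1) →
            Fin (2 ^ p.1 + 2 ^ p.1) → ℝ),
            ∑ x ∈ adm p.1 p.2, ∑ X0 ∈ range (L + D), ∑ X3 ∈ range (L + D),
              ∑ u0, ∑ u3, Φ x X0 X3 u0 u3 =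
            ∑ X0 ∈ range (L + D), ∑ X3 ∈ range (L + D), ∑ u0, ∑ u3, ∑ x ∈ adm p.1 p.2,
              Φ x X0 X3 u0 u3 := by
          intro p _ Φ
          rw [sum_comm]
          refine sum_congr rfl fun X0 _ => ?_
          rw [sum_comm]
          refine sum_congr rfl fun X3 _ => ?_
          rw [sum_comm]
          refine sum_congr rfl fun u0 _ => ?_
          rw [sum_comm]
        rw [sum_congr rfl fun p hp => hx p hp _]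
        rw [sum_comm]
        refine sum_congr rfl fun X0 _ => ?_
        rw [sum_comm]

end Crest.Agent.R079.Fam696
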