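import Crest.Agent.R079.RelW_653

/-! R079, (R1) windows (helper653): `RelW_653` with a relaxed `zero` (static words may have a cost
`≤ c`), COUNT-FREE increments of the penalty along the glued exit minimisers, and the first
variation form at every node of a window. -/

set_option autoImplicit false

namespace Crest.Agent.R079.RelV653

open Finset Crest.Agent.R079.Grid Crest.Agent.R079.Growth Crest.Agent.R079.QRed
  Crest.Agent.R079.Qh249 Crest.Agent.R079.QVar181 Crest.Agent.R079.TWin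
open Crest.Agent.R079.RelW653 (vl NMP Jv Dv GdP av_par sum_av' lf_sum_eq')

/-- admissible penalty with walls, `Φ p 0 ≤ c` -/
structure PenC (c : ℝ) (K : Nd → Fn → Prop) (Φ : Nd → Fn → ℝ) : Prop where
  nonneg : ∀ p g, 0 ≤ Φ p g
  loc : ∀ p g g', (∀ y ∈ iv p, g y = g' y) → Φ p g = Φ p g'
  mid : ∀ p g g', Φ p (fun y => (g y + g' y) / 2) ≤ (Φ p g + Φ p g') / 2
  glue : ∀ (m : ℕ) (l : ℤ) (g : Fn), Φ (m + 1, l) g ≤ (Φ (m, 2 * l) g + Φ (m, 2 * l + 1) g) / 2
  zero : ∀ p, Φ p (fun _ => 0) ≤ c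
  Kloc : ∀ p g g', (∀ y ∈ iv p, g y = g' y) → K p g → K p g'
  Kmid : ∀ p g g', K p g → K p g' → K p (fun y => (g y + g' y) / 2)
  Kglue : ∀ (m : ℕ) (l : ℤ) (g : Fn), K (m, 2 * l) g → K (m, 2 * l + 1) g → K (m + 1, l) g
  Kzero : ∀ p, K p (fun _ => 0)

lemma PenC.c_nonneg {c : ℝ} {K : Nd → Fn → Prop} {Φ : Nd → Fn → ℝ} (hP : PenC c K Φ) : 0 ≤ c :=
  (hP.nonneg (0, 0) _).trans (hP.zero (0, 0))

section facts

variable {c : ℝ} {K : Nd → Fn → Prop} {Φ : Nd → Fn → ℝ} {X : Fn} {η : ℝ} {f : Nd → Fn}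

lemma vl_nonneg (hP : PenC c K Φ) (p : Nd) (g : Fn) : 0 ≤ vl Φ X p g :=
  add_nonneg (sq_nonneg _) (hP.nonneg p g)

lemma vl_loc (hP : PenC c K Φ) (p : Nd) {g g' : Fn} (h : ∀ y ∈ iv p, g y = g' y) :
    vl Φ X p g = vl Φ X p g' := by
  unfold vl
  rw [hP.loc p g g' h, av_congr (p := p) (X := fun y => X y - g y) (Y := fun y => X y - g' y)
    fun y hy => by rw [h y hy]]

/-- the functional of fixed data grows under refinement -/
lemma vl_glue (hP : PenC c K Φ) (m : ℕ) (l : ℤ) (g : Fn) :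
    vl Φ X (m + 1, l) g ≤ (vl Φ X (m, 2 * l) g + vl Φ X (m, 2 * l + 1) g) / 2 := by
  unfold vl
  rw [av_ch]
  have := hP.glue m l g
  linarith

/-- 1-strong convexity with a near-minimiser -/
lemma cmpP (hP : PenC c K Φ) (h : NMP K Φ X η f) (p : Nd) {g : Fn} (hg : K p g) :
    Jv Φ X f p + (1 / 2) * av p (fun y => f p y - g y) ^ 2 ≤ vl Φ X p g + 2 * η := by
  have h1 := h.le p (fun y => (f p y + g y) / 2) (hP.Kmid p _ _ (h.mem p) hg)
  have h2 := av_par p X (f p) g
  have h3 := hP.mid p (f p) g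
  unfold Jv
  unfold vl at h1 ⊢
  linarith

lemma Jv_nonneg (hP : PenC c K Φ) (p : Nd) : 0 ≤ Jv Φ X f p := vl_nonneg hP p _

lemma vl_zero (hP : PenC c K Φ) (p : Nd) : vl Φ X p (fun _ => 0) ≤ av p X ^ 2 + c := by
  unfold vl
  have := hP.zero p
  simp only [sub_zero]
  linarith

lemma Jv_le (hP : PenC c K Φ) (h : NMP K Φ X η f) (p : Nd) :
    Jv Φ X f p ≤ av p X ^ 2 + c + η := by
  have h1 := h.le p (fun _ => 0) (hP.Kzero p)
  have h2 := vl_zero (X := X) hP p
  unfold Jv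
  linarith

/-- size of the residual -/
lemma res_leP (hP : PenC c K Φ) (h : NMP K Φ X η f) (p : Nd) :
    av p (fun y => X y - f p y) ^ 2 ≤ av p X ^ 2 + c + η := by
  have h1 := Jv_le hP h p
  unfold Jv vl at h1
  linarith [hP.nonneg p (f p)]

/-- size of the penalty -/
lemma pen_leP (hP : PenC c K Φ) (h : NMP K Φ X η f) (p : Nd) :
    Φ p (f p) ≤ av p X ^ 2 + c + η := by
  have h1 := Jv_le hP h p
  unfold Jv vl at h1
  linarith [sq_nonneg (av p (fun y => X y - f p y))]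

/-- size of the near-minimiser -/
lemma size_leP (hP : PenC c K Φ) (h : NMP K Φ X η f) (p : Nd) :
    av p (f p) ^ 2 ≤ 2 * av p X ^ 2 + 2 * c + 4 * η := by
  have h1 := cmpP hP h p (hP.Kzero p)
  have h2 := vl_zero (X := X) hP p
  have h3 := Jv_nonneg (f := f) (X := X) hP p
  simp only [sub_zero] at h1
  linarith

/-- the glued function satisfies the walls at every node of the window -/
lemma Kgl (hP : PenC c K Φ) (h : NMP K Φ X η f) {W : Finset Nd} {I : Nd} (hW : Full W I) :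
    ∀ p ∈ W, K p (gl W f) := by
  refine full_ind hW (fun p hp => ?_) fun m l hp hnl h0 h1 e0 e1 => hP.Kglue m l _ e0 e1
  exact hP.Kloc p (f p) _ (fun y hy => (gl_eq hW f hp hy).symm) (h.mem p)

/-- value of the glued function -/
lemma vl_gl (hP : PenC c K Φ) {W : Finset Nd} {I : Nd} (hW : Full W I) :
    ∀ p ∈ W, len p * vl Φ X p (gl W f) ≤ SL W p (Jv Φ X f) := by
  refine full_ind hW (fun p hp => ?_) fun m l hp hnl h0 h1 e0 e1 => ?_
  · rw [SL_leaf hp, vl_loc hP p fun y hy => gl_eq hW f hp hy]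
    exact le_refl _
  · rw [SL_node hW hnl h0 h1]
    have hg := vl_glue (X := X) hP m l (gl W f)
    have hl0 : len (m + 1, l) = 2 * len (m, 2 * l) := len_ch m l _
    have hl1 : len (m, 2 * l + 1) = len (m, 2 * l) := rfl
    rw [hl1] at e1
    rw [hl0]
    have hpos := Growth.len_pos (m, 2 * l)
    have h2 := mul_le_mul_of_nonneg_left hg hpos.le
    linarith

/-- penalty of the glued function -/
lemma pen_gl (hP : PenC c K Φ) {W : Finset Nd} {I : Nd} (hW : Full W I) (g : Fn) :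
    ∀ p ∈ W, len p * Φ p g ≤ SL W p (fun L => Φ L g) := by
  refine full_ind hW (fun p hp => ?_) fun m l hp hnl h0 h1 e0 e1 => ?_
  · rw [SL_leaf hp]
  · rw [SL_node hW hnl h0 h1]
    have hg := hP.glue m l g
    have hl0 : len (m + 1, l) = 2 * len (m, 2 * l) := len_ch m l _
    have hl1 : len (m, 2 * l + 1) = len (m, 2 * l) := rfl
    rw [hl1] at e1
    rw [hl0]
    have hpos := Growth.len_pos (m, 2 * l)
    have h2 := mul_le_mul_of_nonneg_left hg hpos.le
    linarith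

/-- near-minimiser against the glued leaf data -/
lemma av_glP (hP : PenC c K Φ) (h : NMP K Φ X η f) {W : Finset Nd} {I : Nd} (hW : Full W I) {p : Nd}
    (hp : p ∈ W) :
    len p * (Jv Φ X f p + (1 / 2) * av p (fun y => f p y - gl W f y) ^ 2)
      ≤ SL W p (Jv Φ X f) + len p * (2 * η) := by
  have h1 := cmpP hP h p (Kgl hP h hW p hp)
  have h2 := vl_gl (X := X) (f := f) hP hW p hp
  have h3 := mul_le_mul_of_nonneg_left h1 (Growth.len_pos p).le
  linarith

/-- deviation at the leaves -/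
lemma dev_leP (hP : PenC c K Φ) (h : NMP K Φ X η f) {W : Finset Nd} {I : Nd} (hW : Full W I) {p : Nd}
    (hp : p ∈ W) :
    SL W p (fun L => (1 / 2) * av L (fun y => f p y - f L y) ^ 2)
      ≤ SL W p (Jv Φ X f) - len p * Jv Φ X f p + len p * (2 * η) := by
  have h1 := av_glP hP h hW hp
  have h2 : SL W p (fun L => av L (fun y => f p y - f L y) ^ 2)
      = len p * av p (fun y => f p y - gl W f y) ^ 2 := by
    have := av_gl hW (fun L y => f p y - f L y) p hp
    rw [← this]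
    rfl
  rw [SL_smul, h2]
  linarith

lemma Dv_nonneg (hP : PenC c K Φ) (h : NMP K Φ X η f) : ∀ q, 0 ≤ Dv (Jv Φ X f) η q
  | (0, _) => le_refl _
  | (m + 1, l) => by
    classical
    -- glue the two children
    set g : Fn := fun y => if y ∈ iv (m, 2 * l) then f (m, 2 * l) y else f (m, 2 * l + 1) y with hg
    have hg0 : ∀ y ∈ iv (m, 2 * l), f (m, 2 * l) y = g y := fun y hy => by
      rw [hg]; simp only [if_pos hy]
    have hg1 : ∀ y ∈ iv (m, 2 * l + 1), f (m, 2 * l + 1) y = g y := fun y hy => by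
      have : y ∉ iv (m, 2 * l) := fun h' => Finset.disjoint_left.1 (disj_ch m l) h' hy
      rw [hg]; simp only [if_neg this]
    have hK : K (m + 1, l) g := hP.Kglue m l g (hP.Kloc _ _ _ hg0 (h.mem _))
      (hP.Kloc _ _ _ hg1 (h.mem _))
    have h1 := h.le (m + 1, l) g hK
    have h2 := vl_glue (X := X) hP m l g
    rw [← vl_loc (X := X) hP (m, 2 * l) hg0, ← vl_loc (X := X) hP (m, 2 * l + 1) hg1] at h2
    show 0 ≤ (Jv Φ X f (m, 2 * l) + Jv Φ X f (m, 2 * l + 1)) / 2 - Jv Φ X f (m + 1, l) + η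
    unfold Jv
    linarith

/-- admissible window of fineness `δ` -/
def GdP (Φ : Nd → Fn → ℝ) (X : Fn) (η : ℝ) (f : Nd → Fn) (δ : ℝ) (W : Finset Nd) (I : Nd) :
    Prop :=
  ∀ p ∈ W, (1 / 2) * av p (fun y => f I y - f p y) ^ 2 + acc (Dv (Jv Φ X f) η) I p ≤ δ

/-- **top minimiser against the glued leaf minimisers, at EVERY node of the window** -/
theorem av_E_P {W : Finset Nd} {I : Nd} (hP : PenC c K Φ) (h : NMP K Φ X η f) (hW : Full W I)
    {δ : ℝ} (hG : GdP Φ X η f δ W I) {p : Nd} (hp : p ∈ W) :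
    av p (fun y => f I y - gl W f y) ^ 2 ≤ 2 * δ := by
  have hL := Growth.len_pos p
  have h2 : SL W p (fun L => av L (fun y => f I y - f L y) ^ 2)
      = len p * av p (fun y => f I y - gl W f y) ^ 2 := by
    have := av_gl hW (fun L y => f I y - f L y) p hp
    rw [← this]
    rfl
  have h3 : SL W p (fun L => av L (fun y => f I y - f L y) ^ 2) ≤ SL W p (fun _ => 2 * δ) := by
    refine SL_mono fun L hL' _ => ?_
    have h4 := hG L (mem_lf.1 hL').1
    have h5 := acc_nonneg (Dv_nonneg hP h) I L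
    linarith
  rw [h2, SL_const hW _ p hp] at h3
  exact le_of_mul_le_mul_left h3 hL

lemma acc_leP {W : Finset Nd} {I : Nd} (hP : PenC c K Φ) (h : NMP K Φ X η f) (hW : Full W I)
    {δ : ℝ} (hG : GdP Φ X η f δ W I) {p L : Nd} (hp : p ∈ W) (hL : L ∈ W) (hLp : iv L ⊆ iv p) :
    acc (Dv (Jv Φ X f) η) p L ≤ δ := by
  have h1 := hG L hL
  have h2 := acc_trans (Dv (Jv Φ X f) η) hLp (hW.reg.1 p hp)
  have h3 := acc_nonneg (Dv_nonneg hP h) I p
  have h4 : 0 ≤ (1 / 2 : ℝ) * av L (fun y => f I y - f L y) ^ 2 := by positivity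
  linarith

/-- **drift of the value below every node of the window** -/
theorem drift_P {W : Finset Nd} {I : Nd} (hP : PenC c K Φ) (h : NMP K Φ X η f) (hW : Full W I)
    {δ : ℝ} (hG : GdP Φ X η f δ W I) {p : Nd} (hp : p ∈ W) :
    SL W p (Jv Φ X f) ≤ len p * (Jv Φ X f p + δ) := by
  have h3 := le_SL_acc hW (Dv (Jv Φ X f) η) (fun q => -Jv Φ X f q) (fun m l => by
    show _ ≤ (Jv Φ X f (m, 2 * l) + Jv Φ X f (m, 2 * l + 1)) / 2 - Jv Φ X f (m + 1, l) + η
    linarith [h.eta]) p hp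
  rw [SL_add] at h3
  have h4 : SL W p (fun L => acc (Dv (Jv Φ X f) η) p L) ≤ SL W p (fun _ => δ) :=
    SL_mono fun L hL hLp => acc_leP hP h hW hG hp (mem_lf.1 hL).1 hLp
  rw [SL_const hW δ p hp] at h4
  have h5 : SL W p (fun L => -Jv Φ X f L) = -SL W p (Jv Φ X f) := by
    have := SL_smul W p (-1) (Jv Φ X f)
    simp only [neg_mul, one_mul] at this
    exact this
  rw [h5] at h3
  linarith

/-- the glued function almost minimises at every node of the window -/
theorem vl_gl_le {W : Finset Nd} {I : Nd} (hP : PenC c K Φ) (h : NMP K Φ X η f) (hW : Full W I)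
    {δ : ℝ} (hG : GdP Φ X η f δ W I) {p : Nd} (hp : p ∈ W) :
    vl Φ X p (gl W f) ≤ Jv Φ X f p + δ := by
  have h1 := vl_gl (X := X) (f := f) hP hW p hp
  have h2 := drift_P hP h hW hG hp
  exact le_of_mul_le_mul_left (h1.trans h2) (Growth.len_pos p)

/-- leaf penalties, averaged over the leaves below any node of the window -/
theorem pen_leaf_le {W : Finset Nd} {I : Nd} (hP : PenC c K Φ) (h : NMP K Φ X η f) (hW : Full W I)
    {R : Finset Nd} (hWR : W ⊆ R) {ρ : ℝ} (hX : ∀ p ∈ R, av p X ≤ ρ) {p : Nd}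
    (hp : p ∈ W) : SL W p (fun L => Φ L (f L)) ≤ len p * (ρ ^ 2 + c + η) := by
  rw [← SL_const hW _ p hp]
  refine SL_mono fun L hL _ => (pen_leP hP h L).trans ?_
  have h1 := hX L (hWR (mem_lf.1 hL).1)
  have h2 := Growth.av_nonneg L X
  have : av L X ^ 2 ≤ ρ ^ 2 := pow_le_pow_left₀ h2 h1 2
  linarith

end facts

/-! ### existence -/

/-- near-minimisers exist -/
theorem exists_NMP {c : ℝ} {K : Nd → Fn → Prop} {Φ : Nd → Fn → ℝ} (hP : PenC c K Φ) (X : Fn) {η : ℝ}
    (hη : 0 < η) : ∃ f : Nd → Fn, NMP K Φ X η f := by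
  have hex : ∀ p : Nd, ∃ g : Fn, K p g ∧ ∀ g', K p g' → vl Φ X p g ≤ vl Φ X p g' + η := by
    intro p
    let s : Set ℝ := {r | ∃ g, K p g ∧ vl Φ X p g = r}
    have hs0 : s.Nonempty := ⟨_, fun _ => 0, hP.Kzero p, rfl⟩
    have hsb : BddBelow s := ⟨0, by
      rintro r ⟨g, _, rfl⟩
      exact vl_nonneg hP p g⟩
    obtain ⟨r, ⟨g, hg, rfl⟩, hr⟩ := Real.lt_sInf_add_pos hs0 hη
    refine ⟨g, hg, fun g' hg' => ?_⟩
    have := csInf_le hsb (⟨g', hg', rfl⟩ : vl Φ X p g' ∈ s)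
    linarith
  choose f hf using hex
  exact ⟨f, hη.le, fun p => (hf p).1, fun p g hg => (hf p).2 g hg⟩

/-- **REL windows (loss-free)** for a finite family -/
theorem exists_relwin {c : ℝ} {ι : Type*} [Fintype ι] {R : Finset Nd} {J : Nd} (hR : Full R J)
    (K : ι → Nd → Fn → Prop) (Φ : ι → Nd → Fn → ℝ) (hP : ∀ i, PenC c (K i) (Φ i)) (X : ι → Fn)
    (η : ℝ) (hη0 : 0 ≤ η) (f : ι → Nd → Fn) (h : ∀ i, NMP (K i) (Φ i) (X i) η (f i))
    (hX : ∀ i, ∀ p ∈ R, av p (X i) ≤ 1) (hη1 : η ≤ 1) {δ : ℝ} (hδ : 0 < δ)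
    (hη : Fintype.card ι * (η * (2 + J.1)) ≤ δ / 4) :
    ∃ (S : Finset Nd) (W : Nd → Finset Nd), Part R S W (2 + 8 * (2 + c) * Fintype.card ι / δ) ∧
      ∀ T ∈ S, ∀ i, GdP (Φ i) (X i) η (f i) δ (W T) T := by
  classical
  let V : ι → Nd → ℝ := fun i => Jv (Φ i) (X i) (f i)
  let D : ι → Nd → ℝ := fun i => Dv (V i) η
  let g : Nd → Nd → ℝ := fun I p =>
    ∑ i, ((1 / 2) * av p (fun y => f i I y - f i p y) ^ 2 + acc (D i) I p)
  have hterm : ∀ i I p, 0 ≤ (1 / 2) * av p (fun y => f i I y - f i p y) ^ 2 + acc (D i) I p :=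
    fun i I p => add_nonneg (by positivity) (acc_nonneg (Dv_nonneg (hP i) (h i)) I p)
  have hV0 : ∀ i p, 0 ≤ V i p := fun i p => Jv_nonneg (hP i) p
  have hV2 : ∀ i, ∀ p ∈ R, V i p ≤ 2 + c := by
    intro i p hp
    have h1 := Jv_le (hP i) (h i) p
    have h2 : av p (X i) ^ 2 ≤ 1 := pow_le_one₀ (Growth.av_nonneg p _) (hX i p hp)
    show Jv (Φ i) (X i) (f i) p ≤ 2 + c
    linarith
  obtain ⟨S, W, hPt, hg⟩ := exists_part hR (g := g) (P := fun p => ∑ i, 2 * (2 + c - V i p))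
    (P₀ := 2 * (2 + c) * Fintype.card ι) hδ
    (fun p hp => Finset.sum_nonneg fun i _ => by linarith [hV2 i p hp])
    (fun p _ => by
      calc ∑ i, 2 * (2 + c - V i p) ≤ ∑ _i : ι, (2 * (2 + c)) :=
            Finset.sum_le_sum fun i _ => by linarith [hV0 i p]
        _ = 2 * (2 + c) * Fintype.card ι := by
            rw [Finset.sum_const, nsmul_eq_mul, Finset.card_univ]; ring)
    (fun I p => Finset.sum_nonneg fun i _ => hterm i I p)
    (fun I => by
      have : g I I = 0 := by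
        refine Finset.sum_eq_zero fun i _ => ?_
        rw [acc_self, add_zero]
        have : av I (fun y => f i I y - f i I y) = 0 := by
          unfold av av2
          simp
        rw [this]
        ring
      rw [this]
      exact hδ.le)
    (fun I hI W hW hWR => by
      rw [lf_sum_eq' hW]
      have hlen := Growth.len_pos I
      have e1 : SL W I (fun p => g I p + ∑ i, 2 * (2 + c - V i p)) =
          ∑ i, (SL W I (fun L => (1 / 2) * av L (fun y => f i I y - f i L y) ^ 2) +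
            SL W I (fun L => -V i L + acc (D i) I L) + SL W I (fun L => -V i L) +
            SL W I (fun _ => 2 * (2 + c))) := by
        rw [Finset.sum_congr rfl fun i _ => by rw [← SL_add, ← SL_add, ← SL_add], ← SL_sum]
        refine SL_congr fun L _ _ => ?_
        simp only [g]
        rw [← Finset.sum_add_distrib]
        exact Finset.sum_congr rfl fun i _ => by ring
      rw [e1]
      have h1 : ∀ i, SL W I (fun L => (1 / 2) * av L (fun y => f i I y - f i L y) ^ 2) +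
            SL W I (fun L => -V i L + acc (D i) I L) + SL W I (fun L => -V i L) +
            SL W I (fun _ => 2 * (2 + c)) ≤
          len I * (2 * (2 + c - V i I) + η * (2 + J.1)) := by
        intro i
        have a1 := dev_leP (hP i) (h i) hW hW.top
        have a2 := SL_acc_le hW (D i) (fun q => -V i q) η hη0
          (fun m l => by
            show (V i (m, 2 * l) + V i (m, 2 * l + 1)) / 2 - V i (m + 1, l) + η ≤ _
            linarith) I hW.top
        have hlev : (I.1 : ℝ) ≤ J.1 := by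
          exact_mod_cast Growth.iv_level (hR.reg.1 I hI)
        have a3 : len I * (η * I.1) ≤ len I * (η * J.1) :=
          mul_le_mul_of_nonneg_left (mul_le_mul_of_nonneg_left hlev hη0) hlen.le
        have a4 : SL W I (fun L => -V i L) = -SL W I (V i) := by
          have := SL_smul W I (-1) (V i)
          simp only [neg_mul, one_mul] at this
          exact this
        have a5 := SL_const hW (2 * (2 + c)) I hW.top
        rw [a4, a5]
        have a1' : SL W I (fun L => (1 / 2) * av L (fun y => f i I y - f i L y) ^ 2)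
            ≤ SL W I (V i) - len I * V i I + len I * (2 * η) := a1
        nlinarith [a1', a2, a3]
      refine (Finset.sum_le_sum fun i _ => h1 i).trans ?_
      rw [← Finset.mul_sum, Finset.sum_add_distrib, Finset.sum_const, nsmul_eq_mul,
        Finset.card_univ]
      refine mul_le_mul_of_nonneg_left ?_ hlen.le
      linarith)
  refine ⟨S, W, ?_, fun T hT i p hp => ?_⟩
  · have e : 4 * (2 * (2 + c) * (Fintype.card ι : ℝ)) / δ = 8 * (2 + c) * Fintype.card ι / δ := by ring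
    rw [← e]
    exact hPt
  · have h1 := hg T hT p hp
    have h2 : (1 / 2) * av p (fun y => f i T y - f i p y) ^ 2 + acc (D i) T p ≤ g T p :=
      Finset.single_le_sum (f := fun i => (1 / 2) * av p (fun y => f i T y - f i p y) ^ 2 +
        acc (D i) T p) (fun i _ => hterm i T p) (Finset.mem_univ i)
    exact h2.trans h1

/-- **refinement** of a given partition into windows -/
theorem refine_relwin {c : ℝ} (hc : 0 ≤ c) {ι : Type*} [Fintype ι] {R : Finset Nd} {J : Nd} (hR : Full R J)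
    {S : Finset Nd} {W : Nd → Finset Nd} {C : ℝ} (hPt : Part R S W C)
    (K : ι → Nd → Fn → Prop) (Φ : ι → Nd → Fn → ℝ) (hP : ∀ i, PenC c (K i) (Φ i)) (X : ι → Fn)
    (η : ℝ) (hη0 : 0 ≤ η) (f : ι → Nd → Fn) (h : ∀ i, NMP (K i) (Φ i) (X i) η (f i))
    (hX : ∀ i, ∀ p ∈ R, av p (X i) ≤ 1) (hη1 : η ≤ 1) {δ : ℝ} (hδ : 0 < δ)
    (hη : Fintype.card ι * (η * (2 + J.1)) ≤ δ / 4) :
    ∃ (S' : Finset Nd) (W' : Nd → Finset Nd),
      Part R S' W' ((2 + 8 * (2 + c) * Fintype.card ι / δ) * (1 + C)) ∧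
      (∀ T' ∈ S', ∃ T ∈ S, T' ∈ W T ∧ W' T' ⊆ W T) ∧
      ∀ T' ∈ S', ∀ i, GdP (Φ i) (X i) η (f i) δ (W' T') T' := by
  classical
  have hex : ∀ T : Nd, ∃ (S1 : Finset Nd) (V : Nd → Finset Nd), T ∈ S →
      (Part (W T) S1 V (2 + 8 * (2 + c) * Fintype.card ι / δ) ∧
        ∀ T' ∈ S1, ∀ i, GdP (Φ i) (X i) η (f i) δ (V T') T') := by
    intro T
    by_cases hT : T ∈ S
    · have hlev : (T.1 : ℝ) ≤ J.1 := by
        exact_mod_cast Growth.iv_level (hR.reg.1 T (hPt.sub hT))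
      have h1 : Fintype.card ι * (η * (2 + T.1)) ≤ δ / 4 := by
        refine le_trans ?_ hη
        have : η * (2 + (T.1 : ℝ)) ≤ η * (2 + J.1) :=
          mul_le_mul_of_nonneg_left (by linarith) hη0
        exact mul_le_mul_of_nonneg_left this (Nat.cast_nonneg _)
      obtain ⟨S1, V, h2, h3⟩ := exists_relwin (hPt.full T hT) K Φ hP X η hη0 f h
        (fun i p hp => hX i p (hPt.wsub T hT hp)) hη1 hδ h1
      exact ⟨S1, V, fun _ => ⟨h2, h3⟩⟩
    · exact ⟨∅, fun _ => ∅, fun h => absurd h hT⟩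
  choose S1 V hTV using hex
  obtain ⟨S', W', h1, h2⟩ := refine_part hR (by positivity) hPt S1 V fun T hT => (hTV T hT).1
  refine ⟨S', W', h1, fun T' hT' => ?_, fun T' hT' i => ?_⟩
  · obtain ⟨T, hT, hTT, _, hs⟩ := h2 T' hT'
    exact ⟨T, hT, (hTV T hT).1.sub hTT, hs⟩
  · obtain ⟨T, hT, hTT, he, _⟩ := h2 T' hT'
    rw [he]
    exact (hTV T hT).2 T' hTT i

/-- `exists_relwin` with near-minimisers of arbitrarily small defect, everything in one statement -/
theorem exists_rel {c : ℝ} {ι : Type*} [Fintype ι] {R : Finset Nd} {J : Nd} (hR : Full R J)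
    (K : ι → Nd → Fn → Prop) (Φ : ι → Nd → Fn → ℝ) (hP : ∀ i, PenC c (K i) (Φ i)) (X : ι → Fn)
    (hX : ∀ i, ∀ p ∈ R, av p (X i) ≤ 1) {δ : ℝ} (hδ : 0 < δ) {η₁ : ℝ} (hη₁ : 0 < η₁) :
    ∃ (η : ℝ) (f : ι → Nd → Fn) (S : Finset Nd) (W : Nd → Finset Nd),
      0 < η ∧ η ≤ η₁ ∧ η ≤ 1 ∧ (∀ i, NMP (K i) (Φ i) (X i) η (f i)) ∧
      Part R S W (2 + 8 * (2 + c) * Fintype.card ι / δ) ∧
      ∀ T ∈ S, ∀ i, GdP (Φ i) (X i) η (f i) δ (W T) T := by
  set c : ℝ := 4 * ((Fintype.card ι : ℝ) + 1) * (2 + J.1) with hc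
  have hc0 : 0 < c := by positivity
  set η : ℝ := min (min η₁ 1) (δ / c) with hη
  have h0 : 0 < η := lt_min (lt_min hη₁ one_pos) (div_pos hδ hc0)
  choose f hf using fun i => exists_NMP (hP i) (X i) h0
  obtain ⟨S, W, h1, h2⟩ := exists_relwin hR K Φ hP X η h0.le f hf hX
    ((min_le_left _ _).trans (min_le_right _ _)) hδ (by
      have h3 : η ≤ δ / c := min_le_right _ _
      rw [le_div_iff₀ hc0, hc] at h3
      have h4 : 0 ≤ η * (2 + (J.1 : ℝ)) := by positivity
      nlinarith)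
  exact ⟨η, f, S, W, h0, (min_le_left _ _).trans (min_le_left _ _),
    (min_le_left _ _).trans (min_le_right _ _), hf, h1, h2⟩



/-! ### increments along a full window -/

/-- increment at an interior node -/
noncomputable def Inc (F : Nd → ℝ) : Nd → ℝ
  | (0, _) => 0
  | (m + 1, l) => (F (m, 2 * l) + F (m, 2 * l + 1)) / 2 - F (m + 1, l)

/-- sum over the interior nodes below `p` -/
noncomputable def SN (W : Finset Nd) (p : Nd) (F : Nd → ℝ) : ℝ :=
  open Classical in ∑ q ∈ (W \ lf W).filter (fun q => iv q ⊆ iv p), len q * F q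

lemma sub_child {m : ℕ} {l : ℤ} {q : Nd} (h : iv q ⊆ iv (m + 1, l)) (hne : q ≠ (m + 1, l)) :
    iv q ⊆ iv (m, 2 * l) ∨ iv q ⊆ iv (m, 2 * l + 1) := by
  obtain ⟨j, hj⟩ := Qe292.iv_sub_iff.1 h
  have e1 : m + 1 = q.1 + j := congrArg Prod.fst hj
  have e2 : l = q.2 / 2 ^ j := congrArg Prod.snd hj
  rcases j with _ | i
  · exfalso
    apply hne
    refine Prod.ext ?_ ?_
    · simp only at e1 ⊢; omega
    · simpa using e2.symm
  · have e3 : l = q.2 / 2 ^ i / 2 := by
      have h5 := L0e.ediv_pow_pow q.2 i 1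
      rw [pow_one] at h5
      rw [e2, h5]
    have e4 : q.2 / 2 ^ i = 2 * l ∨ q.2 / 2 ^ i = 2 * l + 1 := by omega
    rcases e4 with e4 | e4
    · left
      exact Qe292.iv_sub_iff.2 ⟨i, Prod.ext (by simp only; omega) (by simp only; rw [e4])⟩
    · right
      exact Qe292.iv_sub_iff.2 ⟨i, Prod.ext (by simp only; omega) (by simp only; rw [e4])⟩


lemma SN_leaf {W : Finset Nd} {p : Nd} (hp : p ∈ lf W) (F : Nd → ℝ) : SN W p F = 0 := by
  classical
  unfold SN
  refine Finset.sum_eq_zero fun q hq => ?_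
  rw [Finset.mem_filter, Finset.mem_sdiff] at hq
  have h1 := (mem_lf.1 hp).2 q hq.1.1 hq.2
  rw [h1] at hq
  exact absurd hp hq.1.2

lemma SN_node {W : Finset Nd} {m : ℕ} {l : ℤ} (hp : (m + 1, l) ∈ W)
    (hnl : (m + 1, l) ∉ lf W) (F : Nd → ℝ) :
    SN W (m + 1, l) F = len (m + 1, l) * F (m + 1, l) + (SN W (m, 2 * l) F
      + SN W (m, 2 * l + 1) F) := by
  classical
  unfold SN
  have e1 : (W \ lf W).filter (fun q => iv q ⊆ iv (m + 1, l))
      = insert (m + 1, l) ((W \ lf W).filter (fun q => iv q ⊆ iv (m, 2 * l)) ∪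
        (W \ lf W).filter (fun q => iv q ⊆ iv (m, 2 * l + 1))) := by
    ext q
    simp only [Finset.mem_insert, Finset.mem_union, Finset.mem_filter, Finset.mem_sdiff]
    constructor
    · rintro ⟨hq, hs⟩
      by_cases hne : q = (m + 1, l)
      · exact Or.inl hne
      · rcases sub_child hs hne with h | h
        · exact Or.inr (Or.inl ⟨hq, h⟩)
        · exact Or.inr (Or.inr ⟨hq, h⟩)
    · rintro (rfl | ⟨hq, hs⟩ | ⟨hq, hs⟩)
      · exact ⟨⟨hp, hnl⟩, subset_rfl⟩
      · exact ⟨hq, hs.trans (sub_ch0 m l)⟩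
      · exact ⟨hq, hs.trans (sub_ch1 m l)⟩
  have hlen : ∀ l' : ℤ, ¬ iv (m + 1, l) ⊆ iv (m, l') := fun l' h => by
    have := Growth.iv_level h
    simp only at this
    omega
  rw [e1, Finset.sum_insert, Finset.sum_union]
  · rw [Finset.disjoint_left]
    intro L hL hL'
    rw [Finset.mem_filter] at hL hL'
    obtain ⟨y, hy⟩ := iv_nonempty L
    exact Finset.disjoint_left.1 (disj_ch m l) (hL.2 hy) (hL'.2 hy)
  · rw [Finset.mem_union, Finset.mem_filter, Finset.mem_filter]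
    rintro (⟨_, h⟩ | ⟨_, h⟩)
    · exact hlen _ h
    · exact hlen _ h

lemma SN_mono {W : Finset Nd} {p : Nd} {F G : Nd → ℝ}
    (h : ∀ q ∈ W \ lf W, iv q ⊆ iv p → F q ≤ G q) : SN W p F ≤ SN W p G := by
  classical
  unfold SN
  refine Finset.sum_le_sum fun q hq => ?_
  rw [Finset.mem_filter] at hq
  exact mul_le_mul_of_nonneg_left (h q hq.1 hq.2) (Growth.len_pos q).le

/-- telescoping -/
lemma SN_Inc {W : Finset Nd} {I : Nd} (hW : Full W I) (F : Nd → ℝ) :
    ∀ p ∈ W, SN W p (Inc F) = SL W p F - len p * F p := by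
  refine full_ind hW (fun p hp => ?_) fun m l hp hnl h0 h1 e0 e1 => ?_
  · rw [SN_leaf hp, SL_leaf hp, sub_self]
  · rw [SN_node hp hnl, SL_node hW hnl h0 h1, e0, e1]
    have hl0 : len (m + 1, l) = 2 * len (m, 2 * l) := len_ch m l _
    have hl1 : len (m, 2 * l + 1) = len (m, 2 * l) := rfl
    show len (m + 1, l) * ((F (m, 2 * l) + F (m, 2 * l + 1)) / 2 - F (m + 1, l)) + _ = _
    rw [hl1, hl0]
    ring

lemma SN_top {W : Finset Nd} {I : Nd} (hW : Full W I) (F : Nd → ℝ) :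
    SN W I F = ∑ q ∈ W \ lf W, len q * F q := by
  classical
  unfold SN
  refine Finset.sum_congr ?_ fun _ _ => rfl
  rw [Finset.filter_eq_self]
  exact fun q hq => hW.reg.1 q (Finset.mem_sdiff.1 hq).1

/-- energies do not contribute -/
lemma Inc_av (X : Fn) (q : Nd) (hq : q.1 ≠ 0) : Inc (fun p => av p X ^ 2) q = 0 := by
  obtain ⟨m, l⟩ := q
  rcases m with _ | m
  · exact absurd rfl hq
  · show (av (m, 2 * l) X ^ 2 + av (m, 2 * l + 1) X ^ 2) / 2 - av (m + 1, l) X ^ 2 = 0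
    rw [av_ch]
    ring

section incr

variable {c : ℝ} {K : Nd → Fn → Prop} {Φ : Nd → Fn → ℝ} {X : Fn} {η : ℝ} {f : Nd → Fn}

/-- **increments of the penalty along the glued exit minimiser are paid by the drift of the
value, at every node `p` of the window** -/
theorem incr_le (hP : PenC c K Φ) (h : NMP K Φ X η f) {W : Finset Nd} {I : Nd} (hW : Full W I)
    {p : Nd} (hp : p ∈ W) :
    SN W p (Inc fun q => Φ q (gl W f)) ≤ SL W p (Jv Φ X f) - len p * Jv Φ X f p + len p * η := by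
  rw [SN_Inc hW _ p hp]
  have h1 := h.le p (gl W f) (Kgl hP h hW p hp)
  have h2 : SL W p (fun q => vl Φ X q (gl W f)) = SL W p (Jv Φ X f) :=
    SL_congr fun L hL _ => (vl_loc hP L fun y hy => (gl_eq hW f hL hy).symm).symm
  have h3 : SL W p (fun q => vl Φ X q (gl W f))
      = SL W p (fun q => av q (fun y => X y - gl W f y) ^ 2) + SL W p (fun q => Φ q (gl W f)) :=
    SL_add W p _ _
  rw [SL_av hW (fun y => X y - gl W f y) p hp] at h3
  have h4 : vl Φ X p (gl W f) = av p (fun y => X y - gl W f y) ^ 2 + Φ p (gl W f) := rfl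
  have h5 := mul_le_mul_of_nonneg_left h1 (Growth.len_pos p).le
  rw [h4] at h5
  unfold Jv at h2 ⊢
  nlinarith [h5, h2, h3]

lemma len_lv {R : Finset Nd} {V : Nd} (hR : Full R V) :
    ∑ q ∈ R \ lf R, len q ≤ len V * V.1 := by
  have h1 : ∀ p ∈ R, SN R p (fun _ => 1) ≤ len p * p.1 := by
    refine full_ind hR (fun p hp => ?_) fun m l hp hnl h0 h1 e0 e1 => ?_
    · rw [SN_leaf hp]
      have := Growth.len_pos p
      positivity
    · rw [SN_node hp hnl]
      have hl0 : len (m + 1, l) = 2 * len (m, 2 * l) := len_ch m l _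
      have hl1 : len (m, 2 * l + 1) = len (m, 2 * l) := rfl
      rw [hl1] at e1
      rw [hl0]
      simp only at e0 e1 ⊢
      push_cast
      linarith
  have h2 := h1 V hR.top
  rw [SN_top hR] at h2
  simpa using h2


lemma Inc_le_Dv (J : Nd → ℝ) (e : ℝ) (he : 0 ≤ e) : ∀ q, Inc J q ≤ Dv J e q
  | (0, _) => le_refl _
  | (m + 1, l) => by
    show (J (m, 2 * l) + J (m, 2 * l + 1)) / 2 - J (m + 1, l)
      ≤ (J (m, 2 * l) + J (m, 2 * l + 1)) / 2 - J (m + 1, l) + e
    linarith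

lemma Dv_le_Inc (J : Nd → ℝ) (e : ℝ) (he : 0 ≤ e) : ∀ q, Dv J e q ≤ Inc J q + e
  | (0, _) => by
    show (0 : ℝ) ≤ 0 + e
    linarith
  | (_ + 1, _) => le_refl _

lemma inner_sub {R W : Finset Nd} (hWR : W ⊆ R) : W \ lf W ⊆ R \ lf R := by
  intro q hq
  rw [Finset.mem_sdiff] at hq ⊢
  refine ⟨hWR hq.1, fun h => hq.2 ?_⟩
  rw [mem_lf] at h ⊢
  exact ⟨hq.1, fun r hr hs => h.2 r (hWR hr) hs⟩

/-- total drift over all windows of a partition -/
theorem drift_sum (hP : PenC c K Φ) (h : NMP K Φ X η f) {R : Finset Nd} {V : Nd} (hR : Full R V)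
    {S : Finset Nd} {W : Nd → Finset Nd} {C : ℝ} (hPt : Part R S W C)
    (hX : ∀ p ∈ R, av p X ≤ 1) :
    ∑ T ∈ S, (SL (W T) T (Jv Φ X f) - len T * Jv Φ X f T)
      ≤ len V * (1 + c + η * (1 + V.1)) := by
  classical
  have hDv := Dv_nonneg hP h
  have h1 : ∀ T ∈ S, SL (W T) T (Jv Φ X f) - len T * Jv Φ X f T
      ≤ ∑ q ∈ W T \ lf (W T), len q * Dv (Jv Φ X f) η q := by
    intro T hT
    rw [← SN_Inc (hPt.full T hT) _ T (hPt.full T hT).top, SN_top (hPt.full T hT)]
    exact Finset.sum_le_sum fun q _ =>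
      mul_le_mul_of_nonneg_left (Inc_le_Dv _ _ h.eta q) (Growth.len_pos q).le
  have h2 : ∑ T ∈ S, ∑ q ∈ W T \ lf (W T), len q * Dv (Jv Φ X f) η q
      ≤ ∑ q ∈ R \ lf R, len q * Dv (Jv Φ X f) η q := by
    rw [← Finset.sum_biUnion]
    · refine Finset.sum_le_sum_of_subset_of_nonneg ?_ fun q _ _ =>
        mul_nonneg (Growth.len_pos q).le (hDv q)
      exact Finset.biUnion_subset.2 fun T hT => inner_sub (hPt.wsub T hT)
    · intro T hT T' hT' hne
      exact (hPt.disj T hT T' hT' hne).mono Finset.sdiff_subset Finset.sdiff_subset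
  have h3 : ∑ q ∈ R \ lf R, len q * Dv (Jv Φ X f) η q
      ≤ (SL R V (Jv Φ X f) - len V * Jv Φ X f V) + η * (len V * V.1) := by
    rw [← SN_Inc hR _ V hR.top, SN_top hR]
    have h4 := mul_le_mul_of_nonneg_left (len_lv hR) h.eta
    have h5 : ∑ q ∈ R \ lf R, len q * Dv (Jv Φ X f) η q
        ≤ ∑ q ∈ R \ lf R, (len q * Inc (Jv Φ X f) q + η * len q) := by
      refine Finset.sum_le_sum fun q _ => ?_
      have := mul_le_mul_of_nonneg_left (Dv_le_Inc (Jv Φ X f) η h.eta q) (Growth.len_pos q).le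
      linarith
    rw [Finset.sum_add_distrib, ← Finset.mul_sum] at h5
    linarith
  have h6 : SL R V (Jv Φ X f) ≤ len V * (1 + c + η) := by
    rw [← SL_const hR _ V hR.top]
    refine SL_mono fun L hL _ => (Jv_le hP h L).trans ?_
    have : av L X ^ 2 ≤ 1 :=
      pow_le_one₀ (Growth.av_nonneg L _) (hX L (mem_lf.1 hL).1)
    linarith
  have h7 : 0 ≤ len V * Jv Φ X f V := mul_nonneg (Growth.len_pos V).le (Jv_nonneg hP V)
  have h8 := (Finset.sum_le_sum h1).trans (h2.trans h3)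
  linarith

lemma cnt_top {R : Finset Nd} {V : Nd} (hR : Full R V) {S : Finset Nd} {W : Nd → Finset Nd}
    {C : ℝ} (hPt : Part R S W C) : ∑ T ∈ S, len T ≤ C * len V := by
  classical
  have h1 := hPt.cnt V hR.top
  have h2 : S.filter (fun K => iv K ⊆ iv V) = S := by
    rw [Finset.filter_eq_self]
    exact fun q hq => hR.reg.1 q (hPt.sub hq)
  rwa [h2] at h1

/-- **(G'), COUNT-FREE**: increments of the penalty along the glued exit minimisers, summed over
all windows of an arbitrary partition -/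
theorem gsum (hP : PenC c K Φ) (h : NMP K Φ X η f) {R : Finset Nd} {V : Nd} (hR : Full R V)
    {S : Finset Nd} {W : Nd → Finset Nd} {C : ℝ} (hPt : Part R S W C)
    (hX : ∀ p ∈ R, av p X ≤ 1) :
    ∑ T ∈ S, ∑ q ∈ W T \ lf (W T), len q * Inc (fun q => Φ q (gl (W T) f)) q
      ≤ len V * (1 + c + η * (1 + V.1 + C)) := by
  have h1 : ∀ T ∈ S, ∑ q ∈ W T \ lf (W T), len q * Inc (fun q => Φ q (gl (W T) f)) q
      ≤ (SL (W T) T (Jv Φ X f) - len T * Jv Φ X f T) + len T * η := by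
    intro T hT
    rw [← SN_top (hPt.full T hT)]
    exact incr_le hP h (hPt.full T hT) (hPt.full T hT).top
  have h2 := Finset.sum_le_sum h1
  rw [Finset.sum_add_distrib, ← Finset.sum_mul] at h2
  have h3 := drift_sum hP h hR hPt hX
  have h4 := mul_le_mul_of_nonneg_right (cnt_top hR hPt) h.eta
  linarith

/-- words dominated by the increments -/
theorem gsum_word (hP : PenC c K Φ) (h : NMP K Φ X η f) {R : Finset Nd} {V : Nd} (hR : Full R V)
    {S : Finset Nd} {W : Nd → Finset Nd} {C : ℝ} (hPt : Part R S W C)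
    (hX : ∀ p ∈ R, av p X ≤ 1) {κ : ℝ} (hκ : 0 < κ) (τ : Nd → Fn → ℝ)
    (hτ : ∀ (m : ℕ) (l : ℤ), (m + 1, l) ∈ R → ∀ g : Fn, Φ (m + 1, l) g + κ * τ (m + 1, l) g
      ≤ (Φ (m, 2 * l) g + Φ (m, 2 * l + 1) g) / 2) :
    ∑ T ∈ S, ∑ q ∈ W T \ lf (W T), len q * τ q (gl (W T) f)
      ≤ len V * (1 + c + η * (1 + V.1 + C)) / κ := by
  rw [le_div_iff₀ hκ]
  refine le_trans ?_ (gsum hP h hR hPt hX)
  rw [Finset.sum_mul]
  refine Finset.sum_le_sum fun T hT => ?_
  rw [Finset.sum_mul]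
  refine Finset.sum_le_sum fun q hq => ?_
  rw [mul_assoc]
  refine mul_le_mul_of_nonneg_left ?_ (Growth.len_pos q).le
  rw [Finset.mem_sdiff] at hq
  obtain ⟨m, l, rfl, -, -⟩ := children_mem (hPt.full T hT) hq.1 hq.2
  have := hτ m l (hPt.wsub T hT hq.1) (gl (W T) f)
  show τ (m + 1, l) (gl (W T) f) * κ ≤ (Φ (m, 2 * l) (gl (W T) f)
    + Φ (m, 2 * l + 1) (gl (W T) f)) / 2 - Φ (m + 1, l) (gl (W T) f)
  linarith

/-! ### first variation -/

/-- upper quadratic model of `Φ p` at `g` with gradient `2 Ψ` and constant `M` in direction `h` -/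
def FV (Φ : Nd → Fn → ℝ) (p : Nd) (g Ψ : Fn) (M : ℝ) (h : Fn) : Prop :=
  Φ p (fun y => g y + h y) ≤ Φ p g
    + 2 * (∑ y ∈ iv p, (starRingEnd ℂ (Ψ y) * h y).re) / len p + M * av p h ^ 2

/-- **the first variation at an almost minimiser**: `X - g - Ψ` is small -/
theorem el_node (h : NMP K Φ X η f) (p : Nd) {g Ψ : Fn} {M : ℝ} (hM : 0 ≤ M)
    (hF : FV Φ p g Ψ M (fun y => ((1 + M)⁻¹ : ℝ) * (X y - g y - Ψ y)))
    (hK : K p (fun y => g y + ((1 + M)⁻¹ : ℝ) * (X y - g y - Ψ y))) :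
    av p (fun y => X y - g y - Ψ y) ^ 2 ≤ (1 + M) * (vl Φ X p g - Jv Φ X f p + η) := by
  have hL := Growth.len_pos p
  set s : ℝ := (1 + M)⁻¹ with hs
  have hs0 : 0 < 1 + M := by linarith
  have hs1 : (1 + M) * s = 1 := mul_inv_cancel₀ hs0.ne'
  set e : Fn := fun y => X y - g y - Ψ y with he
  have h1 := h.le p _ hK
  unfold FV at hF
  have h2 : len p * av p (fun y => X y - (g y + (s : ℂ) * e y)) ^ 2
      = len p * av p (fun y => X y - g y) ^ 2
        - 2 * s * ∑ y ∈ iv p, (starRingEnd ℂ (X y - g y) * e y).re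
        + s ^ 2 * (len p * av p e ^ 2) := by
    rw [← sum_av', ← sum_av', ← sum_av', Finset.mul_sum, Finset.mul_sum,
      ← Finset.sum_sub_distrib, ← Finset.sum_add_distrib]
    refine Finset.sum_congr rfl fun y _ => ?_
    rw [show X y - (g y + (s : ℂ) * e y) = (X y - g y) - (s : ℂ) * e y by ring,
      ← Complex.normSq_eq_norm_sq, ← Complex.normSq_eq_norm_sq, ← Complex.normSq_eq_norm_sq]
    simp only [Complex.normSq_apply, Complex.mul_re, Complex.mul_im, Complex.conj_re,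
      Complex.conj_im, Complex.sub_re, Complex.sub_im, Complex.ofReal_re, Complex.ofReal_im]
    ring
  have h3 : av p (fun y => (s : ℂ) * e y) ^ 2 = s ^ 2 * av p e ^ 2 := by
    have : len p * av p (fun y => (s : ℂ) * e y) ^ 2 = len p * (s ^ 2 * av p e ^ 2) := by
      rw [← sum_av', mul_left_comm, ← sum_av', Finset.mul_sum]
      refine Finset.sum_congr rfl fun y _ => ?_
      rw [norm_mul, mul_pow, Complex.norm_real, Real.norm_eq_abs, sq_abs]
    exact mul_left_cancel₀ hL.ne' this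
  have h4 : ∑ y ∈ iv p, (starRingEnd ℂ (Ψ y) * ((s : ℂ) * e y)).re
      = s * ∑ y ∈ iv p, (starRingEnd ℂ (Ψ y) * e y).re := by
    rw [Finset.mul_sum]
    refine Finset.sum_congr rfl fun y _ => ?_
    simp only [Complex.mul_re, Complex.mul_im, Complex.conj_re, Complex.conj_im,
      Complex.ofReal_re, Complex.ofReal_im]
    ring
  have h5 : ∑ y ∈ iv p, (starRingEnd ℂ (X y - g y) * e y).re
      - ∑ y ∈ iv p, (starRingEnd ℂ (Ψ y) * e y).re = len p * av p e ^ 2 := by
    rw [← sum_av', ← Finset.sum_sub_distrib]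
    refine Finset.sum_congr rfl fun y _ => ?_
    rw [← Complex.normSq_eq_norm_sq]
    simp only [he, Complex.normSq_apply, Complex.mul_re, Complex.conj_re,
      Complex.conj_im, Complex.sub_re, Complex.sub_im]
    ring
  have hF' : len p * Φ p (fun y => g y + (s : ℂ) * e y) ≤ len p * Φ p g
      + 2 * (s * ∑ y ∈ iv p, (starRingEnd ℂ (Ψ y) * e y).re)
      + M * (s ^ 2 * (len p * av p e ^ 2)) := by
    have h6 := mul_le_mul_of_nonneg_left hF hL.le
    rw [h3, h4] at h6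
    have h7 : len p * (2 * (s * ∑ y ∈ iv p, (starRingEnd ℂ (Ψ y) * e y).re) / len p)
        = 2 * (s * ∑ y ∈ iv p, (starRingEnd ℂ (Ψ y) * e y).re) := by
      field_simp
    nlinarith [h6, h7]
  have h8 := mul_le_mul_of_nonneg_left h1 hL.le
  have h9 : len p * vl Φ X p (fun y => g y + (s : ℂ) * e y)
      ≤ len p * vl Φ X p g - s * (len p * av p e ^ 2) := by
    unfold vl
    rw [mul_add, h2, mul_add]
    have h10 : (1 + M) * s ^ 2 = s := by
      rw [pow_two, ← mul_assoc, hs1, one_mul]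
    have h11 : (1 + M) * s ^ 2 * (len p * av p e ^ 2) = s * (len p * av p e ^ 2) := by rw [h10]
    nlinarith [hF', h5, h11]
  have h12 : len p * (s * av p e ^ 2) ≤ len p * (vl Φ X p g - Jv Φ X f p + η) := by
    unfold Jv
    nlinarith [h8, h9]
  have h13 := le_of_mul_le_mul_left h12 hL
  have h14 := mul_le_mul_of_nonneg_left h13 hs0.le
  rwa [← mul_assoc, hs1, one_mul] at h14

/-- first variation along a good window, at EVERY node -/
theorem el_win (hP : PenC c K Φ) (h : NMP K Φ X η f) {W : Finset Nd} {I : Nd} (hW : Full W I)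
    {δ : ℝ} (hG : GdP Φ X η f δ W I) {p : Nd} (hp : p ∈ W) {Ψ : Fn} {M : ℝ} (hM : 0 ≤ M)
    (hF : FV Φ p (gl W f) Ψ M (fun y => ((1 + M)⁻¹ : ℝ) * (X y - gl W f y - Ψ y)))
    (hK : K p (fun y => gl W f y + ((1 + M)⁻¹ : ℝ) * (X y - gl W f y - Ψ y))) :
    av p (fun y => X y - gl W f y - Ψ y) ^ 2 ≤ (1 + M) * (δ + η) := by
  refine (el_node h p hM hF hK).trans (mul_le_mul_of_nonneg_left ?_ (by linarith))
  have := vl_gl_le hP h hW hG hp
  linarith

end incr

/-- **restart windows**: a family of top-dependent letters which is small at its own top is small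
at every node of suitable windows, count 2 -/
theorem exists_elwin {ι : Type*} [Fintype ι] {R : Finset Nd} {V : Nd} (hR : Full R V)
    (e : ι → Nd → Fn) {ε : ℝ} (hε : 0 < ε) (he : ∀ i, ∀ p ∈ R, av p (e i p) ^ 2 ≤ ε) :
    ∃ (S : Finset Nd) (W : Nd → Finset Nd), Part R S W 2 ∧
      ∀ T ∈ S, ∀ p ∈ W T, ∀ i, av p (e i T) ^ 2 ≤ 4 * (Fintype.card ι + 1) * ε := by
  classical
  set δ : ℝ := 4 * (Fintype.card ι + 1) * ε with hδ
  have hδ0 : 0 < δ := by positivity
  have hcard : ∀ I ∈ R, ∑ i, av I (e i I) ^ 2 ≤ δ / 4 := by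
    intro I hI
    have h1 : ∑ i, av I (e i I) ^ 2 ≤ ∑ _i : ι, ε := Finset.sum_le_sum fun i _ => he i I hI
    rw [Finset.sum_const, nsmul_eq_mul, Finset.card_univ] at h1
    have : δ / 4 = Fintype.card ι * ε + ε := by rw [hδ]; ring
    linarith
  obtain ⟨S, W, hPt, hg⟩ := exists_part hR
    (g := fun I p => if I ∈ R then ∑ i, av p (e i I) ^ 2 else 0) (P := fun _ => 0)
    (P₀ := 0) hδ0 (fun _ _ => le_refl _) (fun _ _ => le_refl _)
    (fun I p => by
      split_ifs
      · exact Finset.sum_nonneg fun i _ => sq_nonneg _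
      · exact le_refl _)
    (fun I => by
      split_ifs with hI
      · have := hcard I hI
        linarith
      · exact hδ0.le)
    (fun I hI W hW hWR => by
      rw [lf_sum_eq' hW]
      simp only [if_pos hI, add_zero, zero_add]
      rw [SL_sum]
      have h1 : ∀ i, SL W I (fun L => av L (e i I) ^ 2) = len I * av I (e i I) ^ 2 :=
        fun i => SL_av hW _ I hW.top
      rw [Finset.sum_congr rfl fun i _ => h1 i, ← Finset.mul_sum]
      exact mul_le_mul_of_nonneg_left (hcard I hI) (Growth.len_pos I).le)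
  refine ⟨S, W, by simpa using hPt, fun T hT p hp i => ?_⟩
  have h1 := hg T hT p hp
  rw [if_pos (hPt.sub hT)] at h1
  exact (Finset.single_le_sum (f := fun i => av p (e i T) ^ 2) (fun i _ => sq_nonneg _)
    (Finset.mem_univ i)).trans h1

/-- transfer of a sum over interior nodes to a refined partition -/
lemma sum_refine {R : Finset Nd} {S S' : Finset Nd} {W W' : Nd → Finset Nd} {C C' : ℝ}
    (h : Part R S W C) (h' : Part R S' W' C') (par : Nd → Nd) (hpar : ∀ T' ∈ S', par T' ∈ S)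
    (hsub : ∀ T' ∈ S', W' T' ⊆ W (par T')) (F : Nd → Nd → ℝ) (hF : ∀ T q, 0 ≤ F T q) :
    ∑ T' ∈ S', ∑ q ∈ W' T' \ lf (W' T'), F (par T') q
      ≤ ∑ T ∈ S, ∑ q ∈ W T \ lf (W T), F T q := by
  classical
  let own : Nd → Nd := fun q => if h : ∃ T ∈ S, q ∈ W T then h.choose else q
  have hown : ∀ T ∈ S, ∀ q ∈ W T, own q = T := by
    intro T hT q hq
    have hex : ∃ T ∈ S, q ∈ W T := ⟨T, hT, hq⟩
    have e : own q = hex.choose := by
      show (if h : ∃ T ∈ S, q ∈ W T then h.choose else q) = _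
      rw [dif_pos hex]
    rw [e]
    by_contra hne
    exact Finset.disjoint_left.1 (h.disj _ hex.choose_spec.1 T hT hne) hex.choose_spec.2 hq
  have e1 : ∑ T ∈ S, ∑ q ∈ W T \ lf (W T), F T q
      = ∑ q ∈ S.biUnion (fun T => W T \ lf (W T)), F (own q) q := by
    rw [Finset.sum_biUnion]
    · refine Finset.sum_congr rfl fun T hT => Finset.sum_congr rfl fun q hq => ?_
      rw [hown T hT q (Finset.mem_sdiff.1 hq).1]
    · intro T hT T' hT' hne
      exact (h.disj T hT T' hT' hne).mono Finset.sdiff_subset Finset.sdiff_subset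
  have e2 : ∑ T' ∈ S', ∑ q ∈ W' T' \ lf (W' T'), F (par T') q
      = ∑ q ∈ S'.biUnion (fun T' => W' T' \ lf (W' T')), F (own q) q := by
    rw [Finset.sum_biUnion]
    · refine Finset.sum_congr rfl fun T hT => Finset.sum_congr rfl fun q hq => ?_
      rw [hown (par T) (hpar T hT) q (hsub T hT (Finset.mem_sdiff.1 hq).1)]
    · intro T hT T' hT' hne
      exact (h'.disj T hT T' hT' hne).mono Finset.sdiff_subset Finset.sdiff_subset
  rw [e1, e2]
  refine Finset.sum_le_sum_of_subset_of_nonneg (fun q hq => ?_) fun q _ _ => hF _ _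
  rw [Finset.mem_biUnion] at hq ⊢
  obtain ⟨T', hT', hq⟩ := hq
  exact ⟨par T', hpar T' hT', inner_sub (hsub T' hT') hq⟩

/-- **(R1) package.**  `Ψ i p g` = half gradient of the penalty `Φ i p` at `g`. -/
theorem exists_R1 {c : ℝ} (hc : 0 ≤ c) {ι : Type*} [Fintype ι] {R : Finset Nd} {V : Nd}
    (hR : Full R V) (K : ι → Nd → Fn → Prop) (Φ : ι → Nd → Fn → ℝ)
    (hP : ∀ i, PenC c (K i) (Φ i)) (hK : ∀ i p g, K i p g) (X : ι → Fn)
    (hX : ∀ i, ∀ p ∈ R, av p (X i) ≤ 1) {M : ℝ} (hM : 0 ≤ M) (Ψ : ι → Nd → Fn → Fn)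
    (hF : ∀ i p g h, FV (Φ i) p g (Ψ i p g) M h) {δ : ℝ} (hδ : 0 < δ) {η₁ : ℝ} (hη₁ : 0 < η₁) :
    ∃ (η : ℝ) (f : ι → Nd → Fn) (S : Finset Nd) (W : Nd → Finset Nd) (S' : Finset Nd)
      (W' : Nd → Finset Nd) (par : Nd → Nd),
      0 < η ∧ η ≤ η₁ ∧ η ≤ 1 ∧ η ≤ δ ∧ (∀ i, NMP (K i) (Φ i) (X i) η (f i)) ∧
      Part R S W (2 + 8 * (2 + c) * Fintype.card ι / δ) ∧
      Part R S' W' (2 * (1 + (2 + 8 * (2 + c) * Fintype.card ι / δ))) ∧
      (∀ T ∈ S, ∀ i, GdP (Φ i) (X i) η (f i) δ (W T) T) ∧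
      (∀ T' ∈ S', par T' ∈ S ∧ T' ∈ W (par T') ∧ W' T' ⊆ W (par T')) ∧
      (∀ T' ∈ S', ∀ i, ∀ p ∈ W' T', av p (fun y => X i y - gl (W (par T')) (f i) y
        - Ψ i T' (gl (W (par T')) (f i)) y) ^ 2
          ≤ 8 * (Fintype.card ι + 1) * ((1 + M) * δ)) ∧
      (∀ i (κ : ℝ) (τ : Nd → Fn → ℝ), 0 < κ → (∀ q g, 0 ≤ τ q g) →
        (∀ (m : ℕ) (l : ℤ), (m + 1, l) ∈ R → ∀ g : Fn, Φ i (m + 1, l) g + κ * τ (m + 1, l) g
          ≤ (Φ i (m, 2 * l) g + Φ i (m, 2 * l + 1) g) / 2) →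
        ∑ T' ∈ S', ∑ q ∈ W' T' \ lf (W' T'), len q * τ q (gl (W (par T')) (f i))
          ≤ len V * (2 + c) / κ) := by
  classical
  set C : ℝ := 2 + 8 * (2 + c) * Fintype.card ι / δ with hC
  have hC0 : 0 ≤ C := by positivity
  set η₂ : ℝ := min (min η₁ δ) (1 / (1 + V.1 + C)) with hη₂
  have hpos : (0 : ℝ) < 1 + V.1 + C := by positivity
  have hη₂0 : 0 < η₂ := lt_min (lt_min hη₁ hδ) (by positivity)
  obtain ⟨η, f, S, W, h0, h1, h2, h3, h4, h5⟩ := exists_rel hR K Φ hP X hX hδ hη₂0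
  have hex : ∀ T : Nd, ∃ (S1 : Finset Nd) (V1 : Nd → Finset Nd), T ∈ S →
      (Part (W T) S1 V1 2 ∧ ∀ T' ∈ S1, ∀ p ∈ V1 T', ∀ i, av p (fun y => X i y
        - gl (W T) (f i) y - Ψ i T' (gl (W T) (f i)) y) ^ 2
          ≤ 8 * (Fintype.card ι + 1) * ((1 + M) * δ)) := by
    intro T
    by_cases hT : T ∈ S
    · have hε : 0 < (1 + M) * (δ + η) := by positivity
      obtain ⟨S1, V1, h6, h7⟩ := exists_elwin (h4.full T hT)
        (fun i p => fun y => X i y - gl (W T) (f i) y - Ψ i p (gl (W T) (f i)) y) hε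
        (fun i p hp => el_win (hP i) (h3 i) (h4.full T hT) (h5 T hT i) hp hM
          (hF i p _ _) (hK i p _))
      refine ⟨S1, V1, fun _ => ⟨h6, fun T' hT' p hp i => (h7 T' hT' p hp i).trans ?_⟩⟩
      have h8 : η ≤ δ := h1.trans ((min_le_left _ _).trans (min_le_right _ _))
      have h9 : (1 + M) * (δ + η) ≤ (1 + M) * (2 * δ) :=
        mul_le_mul_of_nonneg_left (by linarith) (by linarith)
      have h10 : (0 : ℝ) ≤ 4 * (Fintype.card ι + 1) := by positivity
      have h11 := mul_le_mul_of_nonneg_left h9 h10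
      linarith
    · exact ⟨∅, fun _ => ∅, fun h => absurd h hT⟩
  choose S1 V1 hSV using hex
  obtain ⟨S', W', h6, h7⟩ := refine_part hR (by norm_num) h4 S1 V1 fun T hT => (hSV T hT).1
  choose! par hpar1 hpar2 hpar3 hpar4 using h7
  refine ⟨η, f, S, W, S', W', par, h0, h1.trans ((min_le_left _ _).trans (min_le_left _ _)), h2,
    h1.trans ((min_le_left _ _).trans (min_le_right _ _)), h3, h4, h6, h5,
    fun T' hT' => ⟨hpar1 T' hT', (hSV _ (hpar1 T' hT')).1.sub (hpar2 T' hT'), hpar4 T' hT'⟩,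
    fun T' hT' i p hp => ?_, fun i κ τ hκ hτ0 hτ => ?_⟩
  · rw [hpar3 T' hT'] at hp
    exact (hSV _ (hpar1 T' hT')).2 T' (hpar2 T' hT') p hp i
  · refine (sum_refine h4 h6 par hpar1 hpar4
      (fun T q => len q * τ q (gl (W T) (f i)))
      (fun T q => mul_nonneg (Growth.len_pos q).le (hτ0 _ _))).trans ?_
    refine (gsum_word (hP i) (h3 i) hR h4 (hX i) hκ τ hτ).trans ?_
    refine div_le_div_of_nonneg_right ?_ hκ.le
    refine mul_le_mul_of_nonneg_left ?_ (Growth.len_pos V).le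
    have h8 : η ≤ 1 / (1 + V.1 + C) := h1.trans (min_le_right _ _)
    rw [le_div_iff₀ hpos] at h8
    linarith

end Crest.Agent.R079.RelV653
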