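import Crest.Agent.R079.GLA_110
import Crest.Agent.R079.RelV_653

/-! R079, doc 2541 (5) for the own-node minimisers of `RelV_653` (helper110): FEED OF THE GRADED
LOOK-AHEAD WINDOWS.

`DR q` = one step drift of the value (plus `2 η`) at the interior nodes of `R`.  For `V K ⊆ Wf R K d`
(uniform exit level `d` of the frames) the drift of the value below EVERY node `p` of the window
down to the level `d`, and the local average at `p` of any energy `E K d` which is paid at the top by
the drift, are `≤ θ (grade + 1)`. -/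

set_option autoImplicit false

namespace Crest.Agent.R079.Feed110

open Finset Crest.Agent.R079.Grid Crest.Agent.R079.Growth Crest.Agent.R079.QRed
  Crest.Agent.R079.Qh249 Crest.Agent.R079.Qe292 Crest.Agent.R079.TWin Crest.Agent.R079.GLA110
open Crest.Agent.R079.RelW653 (vl NMP Jv Dv)
open Crest.Agent.R079.RelV653 (PenC SN Inc SN_Inc SN_top inner_sub Inc_le_Dv Dv_le_Inc len_lv)

open Classical in
/-- one step drift of `V` at the interior nodes of `R` -/
noncomputable def DR (R : Finset Nd) (V : Nd → ℝ) (e : ℝ) (q : Nd) : ℝ :=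
  if q ∈ R \ lf R then Dv V e q else 0

section

variable {c : ℝ} {K : Nd → Fn → Prop} {Φ : Nd → Fn → ℝ} {X : Fn} {η : ℝ} {f : Nd → Fn}

lemma Dv_mono (V : Nd → ℝ) {e e' : ℝ} (h : e ≤ e') : ∀ q, Dv V e q ≤ Dv V e' q
  | (0, _) => le_refl _
  | (m + 1, l) => by
    show (V (m, 2 * l) + V (m, 2 * l + 1)) / 2 - V (m + 1, l) + e
      ≤ (V (m, 2 * l) + V (m, 2 * l + 1)) / 2 - V (m + 1, l) + e'
    linarith

lemma DR_nonneg (hP : PenC c K Φ) (h : NMP K Φ X η f) (R : Finset Nd) :
    ∀ q, 0 ≤ DR R (Jv Φ X f) (2 * η) q := by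
  intro q
  unfold DR
  split_ifs
  · exact (RelV653.Dv_nonneg hP h q).trans (Dv_mono _ (by linarith [h.eta]) q)
  · exact le_refl _

/-- inner nodes of `Wf R P d` are counted by `la` -/
lemma inner_Wf {R : Finset Nd} {P : Nd} {d : ℕ} {p q : Nd}
    (hq : q ∈ Wf R P d \ lf (Wf R P d)) (hqp : iv q ⊆ iv p) :
    q ∈ R \ lf R ∧ q ∈ R.filter (fun q => iv q ⊆ iv p ∧ d < q.1) := by
  classical
  have h1 := inner_sub Wf_sub hq
  refine ⟨h1, Finset.mem_filter.2 ⟨(Finset.mem_sdiff.1 h1).1, hqp, ?_⟩⟩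
  rw [Finset.mem_sdiff] at hq
  have h2 : ∃ r ∈ Wf R P d, iv r ⊆ iv q ∧ r ≠ q := by
    by_contra hcon
    push Not at hcon
    exact hq.2 (mem_lf.2 ⟨hq.1, hcon⟩)
  obtain ⟨r, hr, hrq, hne⟩ := h2
  have h3 := (mem_Wf.1 hr).2.2
  rcases (Qe292.iv_level hrq).lt_or_eq with h4 | h4
  · omega
  · exact absurd (eq_of_sub_level hrq h4) hne

/-- **drift of the value below `p` down to the level `d`, with the defect** -/
theorem drift_la (hP : PenC c K Φ) (h : NMP K Φ X η f) {R : Finset Nd} {J : Nd} (hR : Full R J)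
    {P : Nd} (hPR : P ∈ R) {d : ℕ} (hd : d ≤ P.1) {p : Nd} (hp : p ∈ Wf R P d) :
    SL (Wf R P d) p (Jv Φ X f) - len p * Jv Φ X f p
      + (if p ∈ lf (Wf R P d) then 0 else len p * (2 * η))
      ≤ la R (DR R (Jv Φ X f) (2 * η)) p d := by
  classical
  have hW := Wf_full hR hPR hd
  have hη := h.eta
  have hD := DR_nonneg hP h R
  set V := Jv Φ X f with hV
  rw [← SN_Inc hW V p hp]
  have h1 : SN (Wf R P d) p (Inc V) + (if p ∈ lf (Wf R P d) then 0 else len p * (2 * η))
      ≤ ∑ q ∈ (Wf R P d \ lf (Wf R P d)).filter (fun q => iv q ⊆ iv p),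
        len q * DR R V (2 * η) q := by
    have h2 : ∀ q ∈ (Wf R P d \ lf (Wf R P d)).filter (fun q => iv q ⊆ iv p),
        len q * Inc V q + len q * (2 * η) ≤ len q * DR R V (2 * η) q := by
      intro q hq
      rw [Finset.mem_filter] at hq
      have h3 := (inner_Wf hq.1 hq.2).1
      obtain ⟨m, l, rfl, -, -⟩ := children_mem hW (Finset.mem_sdiff.1 hq.1).1
        (Finset.mem_sdiff.1 hq.1).2
      have e : DR R V (2 * η) (m + 1, l) = Inc V (m + 1, l) + 2 * η := by
        unfold DR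
        rw [if_pos h3]
        rfl
      rw [e, mul_add]
    have h3 := Finset.sum_le_sum h2
    rw [Finset.sum_add_distrib] at h3
    have h4 : (if p ∈ lf (Wf R P d) then 0 else len p * (2 * η)) ≤
        ∑ q ∈ (Wf R P d \ lf (Wf R P d)).filter (fun q => iv q ⊆ iv p), len q * (2 * η) := by
      have h5 : ∀ q ∈ (Wf R P d \ lf (Wf R P d)).filter (fun q => iv q ⊆ iv p),
          0 ≤ len q * (2 * η) := fun q _ => mul_nonneg (Growth.len_pos q).le (by linarith)
      split_ifs with hpl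
      · exact Finset.sum_nonneg h5
      · exact Finset.single_le_sum (f := fun q => len q * (2 * η)) h5
          (Finset.mem_filter.2 ⟨Finset.mem_sdiff.2 ⟨hp, hpl⟩, subset_rfl⟩)
    unfold SN
    linarith
  refine h1.trans ?_
  unfold la
  refine Finset.sum_le_sum_of_subset_of_nonneg ?_
    fun q _ _ => mul_nonneg (Growth.len_pos q).le (hD q)
  intro q hq
  rw [Finset.mem_filter] at hq
  exact (inner_Wf hq.1 hq.2).2

/-- the same without the defect -/
lemma drift_la' (hP : PenC c K Φ) (h : NMP K Φ X η f) {R : Finset Nd} {J : Nd} (hR : Full R J)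
    {P : Nd} (hPR : P ∈ R) {d : ℕ} (hd : d ≤ P.1) {p : Nd} (hp : p ∈ Wf R P d) :
    SL (Wf R P d) p (Jv Φ X f) - len p * Jv Φ X f p
      ≤ la R (DR R (Jv Φ X f) (2 * η)) p d := by
  have h1 := drift_la hP h hR hPR hd hp
  have h2 : (0 : ℝ) ≤ if p ∈ lf (Wf R P d) then 0 else len p * (2 * η) := by
    split_ifs
    · exact le_refl _
    · exact mul_nonneg (Growth.len_pos p).le (by linarith [h.eta])
  linarith

/-- the own-node minimiser of ANY node `p` of the window against the minimisers of uniform depth -/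
theorem own_la (hP : PenC c K Φ) (h : NMP K Φ X η f) {R : Finset Nd} {J : Nd} (hR : Full R J)
    {P : Nd} (hPR : P ∈ R) {d : ℕ} (hd : d ≤ P.1) {p : Nd} (hp : p ∈ Wf R P d) :
    len p * av p (fun y => f p y - gl (Wf R P d) f y) ^ 2
      ≤ 2 * la R (DR R (Jv Φ X f) (2 * η)) p d := by
  have hW := Wf_full hR hPR hd
  have h1 := drift_la hP h hR hPR hd hp
  by_cases hl : p ∈ lf (Wf R P d)
  · have h2 : av p (fun y => f p y - gl (Wf R P d) f y) = 0 := by
      rw [av_congr (p := p) (Y := fun _ => 0) fun y hy => by rw [gl_eq hW f hl hy, sub_self]]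
      unfold av av2
      simp
    rw [h2]
    have := la_nonneg (R := R) (DR_nonneg hP h R) p d
    nlinarith
  · rw [if_neg hl] at h1
    have h2 := RelV653.av_glP hP h hW hp
    nlinarith [h1, h2]

/-- total drift -/
theorem la_total (hP : PenC c K Φ) (h : NMP K Φ X η f) {R : Finset Nd} {J : Nd} (hR : Full R J)
    (hX : ∀ p ∈ R, av p X ≤ 1) {p : Nd} (hp : p ∈ R) (d : ℕ) :
    la R (DR R (Jv Φ X f) (2 * η)) p d ≤ len p * (1 + c + η * (1 + 2 * p.1)) := by
  classical
  have hη := h.eta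
  have hD := DR_nonneg hP h R
  set V := Jv Φ X f with hV
  have hW : Full (Wf R p 0) p := Wf_full hR hp (Nat.zero_le _)
  have hWR : Wf R p 0 ⊆ R := Wf_sub
  have h1 : la R (DR R V (2 * η)) p d ≤ ∑ q ∈ Wf R p 0 \ lf (Wf R p 0),
      (len q * Inc V q + 2 * η * len q) := by
    unfold la
    have e1 : ∑ q ∈ R.filter (fun q => iv q ⊆ iv p ∧ d < q.1), len q * DR R V (2 * η) q
        ≤ ∑ q ∈ R.filter (fun q => iv q ⊆ iv p), len q * DR R V (2 * η) q := by
      refine Finset.sum_le_sum_of_subset_of_nonneg ?_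
        fun q _ _ => mul_nonneg (Growth.len_pos q).le (hD q)
      intro q hq
      rw [Finset.mem_filter] at hq ⊢
      exact ⟨hq.1, hq.2.1⟩
    refine e1.trans ?_
    have e2 : ∑ q ∈ R.filter (fun q => iv q ⊆ iv p), len q * DR R V (2 * η) q
        = ∑ q ∈ Wf R p 0 \ lf (Wf R p 0), len q * DR R V (2 * η) q := by
      symm
      refine Finset.sum_subset ?_ ?_
      · intro q hq
        rw [Finset.mem_sdiff, mem_Wf] at hq
        exact Finset.mem_filter.2 ⟨hq.1.1, hq.1.2.1⟩
      · intro q hq hq'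
        rw [Finset.mem_filter] at hq
        have hqW : q ∈ Wf R p 0 := mem_Wf.2 ⟨hq.1, hq.2, Nat.zero_le _⟩
        have hql : q ∈ lf (Wf R p 0) := by
          by_contra hcon
          exact hq' (Finset.mem_sdiff.2 ⟨hqW, hcon⟩)
        have : q ∉ R \ lf R := by
          intro hc
          rw [Finset.mem_sdiff] at hc
          refine hc.2 (mem_lf.2 ⟨hq.1, fun r hr hs => (mem_lf.1 hql).2 r
            (mem_Wf.2 ⟨hr, hs.trans hq.2, Nat.zero_le _⟩) hs⟩)
        unfold DR
        rw [if_neg this, mul_zero]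
    rw [e2]
    refine Finset.sum_le_sum fun q hq => ?_
    have h3 := inner_sub hWR hq
    have e : DR R V (2 * η) q ≤ Inc V q + 2 * η := by
      unfold DR
      rw [if_pos h3]
      exact Dv_le_Inc V (2 * η) (by linarith) q
    have := mul_le_mul_of_nonneg_left e (Growth.len_pos q).le
    linarith
  rw [Finset.sum_add_distrib, ← Finset.mul_sum, ← SN_top hW, SN_Inc hW _ p hW.top] at h1
  have h2 := mul_le_mul_of_nonneg_left (len_lv hW) (show (0 : ℝ) ≤ 2 * η by linarith)
  have h3 : SL (Wf R p 0) p V ≤ len p * (1 + c + η) := by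
    rw [← SL_const hW _ p hW.top]
    refine SL_mono fun L hL _ => (RelV653.Jv_le hP h L).trans ?_
    have : av L X ^ 2 ≤ 1 :=
      pow_le_one₀ (Growth.av_nonneg L _) (hX L (hWR (mem_lf.1 hL).1))
    linarith
  have h4 : 0 ≤ len p * V p := mul_nonneg (Growth.len_pos p).le (RelV653.Jv_nonneg hP p)
  nlinarith [h1, h2, h3, h4]

/-- superadditivity, one node -/
lemma la_sub {R : Finset Nd} {D : Nd → ℝ} (hD : ∀ q, 0 ≤ D q) {P p : Nd} (h : iv p ⊆ iv P)
    (d : ℕ) : la R D p d ≤ la R D P d := by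
  have := la_sum_le (R := R) hD (P := P) (d := d) {p} (fun c hc => by
    rw [Finset.mem_singleton.1 hc]; exact h) (fun c hc c' hc' hne => by
    rw [Finset.mem_singleton] at hc hc'
    exact absurd (hc.trans hc'.symm) hne)
  simpa using this

/-- **GRADED WINDOWS FOR THE OWN-NODE MINIMISERS**: uniform exit level `dp K` of the frames; at EVERY
node `p` of the window the drift of the value below `p` (down to the exit level) and the average of the
energy `E K` are `≤ θ (grade + 1)`; weighted and unweighted numbers of windows -/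
theorem graded_rel (hP : PenC c K Φ) (h : NMP K Φ X η f) {R : Finset Nd} {J : Nd} (hR : Full R J)
    (hX : ∀ p ∈ R, av p X ≤ 1) {E : Nd → ℕ → ℤ → ℝ} (hE : ∀ P d y, 0 ≤ E P d y) {Ce B δ lam : ℝ}
    (hCe : 0 ≤ Ce) (hδ : 0 < δ) (hlam : Ce + 1 ≤ lam)
    (hT : ∀ P ∈ R, ∀ d ≤ P.1, ∑ y ∈ iv P, E P d y
      ≤ Ce * la R (DR R (Jv Φ X f) (2 * η)) P d)
    (hB : ∀ P ∈ R, ∀ d ≤ P.1, ∀ p ∈ Wf R P d, (∑ y ∈ iv p, E P d y) / len p ≤ B)
    (hη : η * (1 + 2 * J.1) ≤ 1) (n : ℕ) (hn : B + (2 + c) ≤ lam ^ (n + 1) * δ) :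
    ∃ (S : Finset Nd) (V : Nd → Finset Nd) (lv dp : Nd → ℕ),
      Part R S V (∑ K ∈ S, len K) ∧
      (∀ K ∈ S, dp K ≤ K.1 ∧ V K ⊆ Wf R K (dp K) ∧
        la R (DR R (Jv Φ X f) (2 * η)) K (dp K) ≤ lam ^ (lv K) * δ * len K ∧ lv K ≤ n ∧
        ∀ p ∈ V K,
          (∑ y ∈ iv p, E K (dp K) y) / len p ≤ lam ^ (lv K + 1) * δ ∧
          SL (Wf R K (dp K)) p (Jv Φ X f) - len p * Jv Φ X f p
            ≤ len p * (lam ^ (lv K + 1) * δ) ∧
          av p (fun y => f p y - gl (Wf R K (dp K)) f y) ^ 2 ≤ 2 * (lam ^ (lv K + 1) * δ)) ∧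
      ∑ K ∈ S, len K * (lam ^ (lv K) * δ) ≤ As (2 * (Ce + 1) + 1) n * (len J * (δ + 2 + c)) ∧
      ∑ K ∈ S, len K ≤ As (2 * (Ce + 1) + 1) n * (len J * (1 + (2 + c) / δ)) := by
  classical
  set D := DR R (Jv Φ X f) (2 * η) with hDdef
  have hD : ∀ q, 0 ≤ D q := DR_nonneg hP h R
  have hla : ∀ p ∈ R, ∀ d, la R D p d ≤ len p * (2 + c) := by
    intro p hp d
    refine (la_total hP h hR hX hp d).trans
      (mul_le_mul_of_nonneg_left ?_ (Growth.len_pos p).le)
    have h1 : (p.1 : ℝ) ≤ J.1 := by exact_mod_cast Qe292.iv_level (hR.reg.1 p hp)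
    have h2 := h.eta
    nlinarith
  obtain ⟨S, V, lv, dp, h1, h2, h3, h4⟩ := graded hR hD
    (dev := fun P d p => (∑ y ∈ iv p, E P d y) / len p + la R D p d / len p)
    (Cd := Ce + 1) (η := δ) (lam := lam) (by linarith) hδ (by linarith) hlam
    (fun P d p => add_nonneg
      (div_nonneg (Finset.sum_nonneg fun y _ => hE P d y) (Growth.len_pos p).le)
      (div_nonneg (la_nonneg hD p d) (Growth.len_pos p).le))
    (fun P hPR d hd A hA hdis => by
      have a1 := h1_of_top hE hT P hPR d hd A hA hdis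
      have a2 := la_sum_le (R := R) hD (P := P) (d := d) A
        (fun c hc => (mem_Wf.1 (hA hc)).2.1) hdis
      have e : ∀ p : Nd, len p * ((∑ y ∈ iv p, E P d y) / len p + la R D p d / len p)
          = len p * ((∑ y ∈ iv p, E P d y) / len p) + la R D p d := by
        intro p
        have := (Growth.len_pos p).ne'
        field_simp
      rw [Finset.sum_congr rfl fun p _ => e p, Finset.sum_add_distrib]
      linarith)
    n
    (fun P hPR d hd p hp => by
      have a1 := hB P hPR d hd p hp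
      have a2 := hla p (mem_Wf.1 hp).1 d
      have a3 : la R D p d / len p ≤ 2 + c := by
        rw [div_le_iff₀ (Growth.len_pos p), mul_comm]
        exact a2
      linarith)
  refine ⟨S, V, lv, dp, h1, fun K hK => ?_, ?_, ?_⟩
  · obtain ⟨b1, b2, b3, b4, b5⟩ := h2 K hK
    have hKR := h1.sub hK
    refine ⟨b1, b2, b3, b5, fun p hp => ?_⟩
    have hlen := Growth.len_pos p
    have c1 := b4 p hp
    have c2 : 0 ≤ (∑ y ∈ iv p, E K (dp K) y) / len p :=
      div_nonneg (Finset.sum_nonneg fun y _ => hE K (dp K) y) hlen.le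
    have c3 : 0 ≤ la R D p (dp K) / len p := div_nonneg (la_nonneg hD p _) hlen.le
    have c4 : la R D p (dp K) ≤ len p * (lam ^ (lv K + 1) * δ) := by
      have : la R D p (dp K) / len p ≤ lam ^ (lv K + 1) * δ := by
        linarith
      rw [div_le_iff₀ hlen] at this
      linarith
    refine ⟨by linarith, ?_, ?_⟩
    · exact (drift_la' hP h hR hKR b1 (b2 hp)).trans c4
    · have c5 := own_la hP h hR hKR b1 (b2 hp)
      refine le_of_mul_le_mul_left (c5.trans ?_) hlen
      linarith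
  · refine h3.trans (mul_le_mul_of_nonneg_left ?_ (As_nonneg (by linarith) n))
    have := hla J hR.top 0
    linarith
  · refine h4.trans (mul_le_mul_of_nonneg_left ?_ (As_nonneg (by linarith) n))
    have a1 := hla J hR.top 0
    have a2 : la R D J 0 / δ ≤ len J * (2 + c) / δ := by gcongr
    calc len J + la R D J 0 / δ ≤ len J + len J * (2 + c) / δ := by linarith
      _ = len J * (1 + (2 + c) / δ) := by ring

end

end Crest.Agent.R079.Feed110
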