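import Mathlib

/-!
# R079, CORE (doc 2478 (1)-(2), 473's chain): delta-freezing of a strongly concave martingale
functional (helper316)

Abstract finite tree: nodes of depth `n` = a finite type `α n`, `par : α (n+1) → α n`, weights
`w n : α n → ℝ`.  `Φ n p c` : value of the static parameter `c` at the node `p`; for a fixed `c` a
martingale; `c n p` maximises `Φ n p`, with `τ`-strong concavity.  The frozen parameter `frz δ`
keeps the old value as long as the new one is at distance `≤ δ`.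
-/

set_option autoImplicit false

namespace Crest.Agent.R079.Frz316

open Finset

/-- a finite weighted tree -/
structure Tree where
  α : ℕ → Type
  fin : ∀ n, Fintype (α n)
  par : ∀ n, α (n + 1) → α n
  w : ∀ n, α n → ℝ
  w0 : ∀ n p, 0 ≤ w n p

attribute [instance] Tree.fin

variable {H : Type*} [NormedAddCommGroup H]

/-- the frozen parameter -/
noncomputable def frz (T : Tree) (c : ∀ n, T.α n → H) (δ : ℝ) : ∀ n, T.α n → H
  | 0, p => c 0 p
  | n + 1, q =>
    open Classical in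
    if ‖c (n + 1) q - frz T c δ n (T.par n q)‖ ≤ δ then frz T c δ n (T.par n q) else c (n + 1) q

variable {T : Tree} {c : ∀ n, T.α n → H} {δ : ℝ}

theorem frz_zero (p : T.α 0) : frz T c δ 0 p = c 0 p := rfl

theorem frz_keep {n : ℕ} {q : T.α (n + 1)} (h : ‖c (n + 1) q - frz T c δ n (T.par n q)‖ ≤ δ) :
    frz T c δ (n + 1) q = frz T c δ n (T.par n q) := by
  rw [frz, if_pos h]

theorem frz_move {n : ℕ} {q : T.α (n + 1)} (h : ¬ ‖c (n + 1) q - frz T c δ n (T.par n q)‖ ≤ δ) :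
    frz T c δ (n + 1) q = c (n + 1) q := by
  rw [frz, if_neg h]

/-- the frozen parameter is `δ`-close to the true one -/
theorem frz_close (hδ : 0 ≤ δ) : ∀ (n : ℕ) (p : T.α n), ‖c n p - frz T c δ n p‖ ≤ δ
  | 0, p => by rw [frz_zero, sub_self, norm_zero]; exact hδ
  | n + 1, q => by
    by_cases h : ‖c (n + 1) q - frz T c δ n (T.par n q)‖ ≤ δ
    · rw [frz_keep h]; exact h
    · rw [frz_move h, sub_self, norm_zero]; exact hδ

/-- all values of the frozen parameter are values of `c` (so every bound of `c` passes) -/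
theorem frz_mem (P : H → Prop) (hP : ∀ n p, P (c n p)) : ∀ (n : ℕ) (p : T.α n),
    P (frz T c δ n p)
  | 0, p => hP 0 p
  | n + 1, q => by
    by_cases h : ‖c (n + 1) q - frz T c δ n (T.par n q)‖ ≤ δ
    · rw [frz_keep h]; exact frz_mem P hP n _
    · rw [frz_move h]; exact hP _ _

/-- every move is longer than `δ` -/
theorem move_le_sq (hδ : 0 < δ) {n : ℕ} (q : T.α (n + 1)) :
    ‖frz T c δ (n + 1) q - frz T c δ n (T.par n q)‖ ≤
      δ⁻¹ * ‖frz T c δ (n + 1) q - frz T c δ n (T.par n q)‖ ^ 2 := by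
  by_cases h : ‖c (n + 1) q - frz T c δ n (T.par n q)‖ ≤ δ
  · rw [frz_keep h, sub_self, norm_zero]; simp
  · rw [frz_move h]
    push Not at h
    have h0 : 0 ≤ ‖c (n + 1) q - frz T c δ n (T.par n q)‖ := norm_nonneg _
    rw [inv_mul_eq_div, le_div_iff₀ hδ, sq]
    exact mul_le_mul_of_nonneg_left h.le h0

open Classical in
/-- **budget of the moves**: `Φ` martingale for every fixed parameter, `c` a `τ`-strong maximiser,
`Φ ≤ 1` at the values of the frozen parameter at the level `N`, `Φ ≥ 0` at the root. -/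
theorem sq_budget {Φ : ∀ n, T.α n → H → ℝ} {τ : ℝ}
    (mart : ∀ n (p : T.α n) (x : H),
      ∑ q ∈ univ.filter (fun q => T.par n q = p), T.w (n + 1) q * Φ (n + 1) q x =
        T.w n p * Φ n p x)
    (max : ∀ n (q : T.α (n + 1)) (x : H),
      Φ (n + 1) q x + τ * ‖c (n + 1) q - x‖ ^ 2 ≤ Φ (n + 1) q (c (n + 1) q))
    (N : ℕ) :
    τ * ∑ n ∈ range N, ∑ q : T.α (n + 1),
        T.w (n + 1) q * ‖frz T c δ (n + 1) q - frz T c δ n (T.par n q)‖ ^ 2 ≤
      ∑ p : T.α N, T.w N p * Φ N p (frz T c δ N p) -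
        ∑ p : T.α 0, T.w 0 p * Φ 0 p (c 0 p) := by
  induction N with
  | zero => simp [frz_zero]
  | succ N ih =>
    have step : ∑ p : T.α N, T.w N p * Φ N p (frz T c δ N p) +
        τ * ∑ q : T.α (N + 1),
          T.w (N + 1) q * ‖frz T c δ (N + 1) q - frz T c δ N (T.par N q)‖ ^ 2 ≤
        ∑ q : T.α (N + 1), T.w (N + 1) q * Φ (N + 1) q (frz T c δ (N + 1) q) := by
      have e1 : ∑ p : T.α N, T.w N p * Φ N p (frz T c δ N p) =
          ∑ q : T.α (N + 1), T.w (N + 1) q * Φ (N + 1) q (frz T c δ N (T.par N q)) := by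
        rw [← Finset.sum_fiberwise (s := univ) (g := T.par N)
          (f := fun q => T.w (N + 1) q * Φ (N + 1) q (frz T c δ N (T.par N q)))]
        refine Finset.sum_congr rfl fun p _ => ?_
        rw [← mart N p (frz T c δ N p)]
        refine Finset.sum_congr rfl fun q hq => ?_
        rw [(Finset.mem_filter.1 hq).2]
      rw [e1, Finset.mul_sum, ← Finset.sum_add_distrib]
      refine Finset.sum_le_sum fun q _ => ?_
      have hw := T.w0 (N + 1) q
      by_cases h : ‖c (N + 1) q - frz T c δ N (T.par N q)‖ ≤ δ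
      · rw [frz_keep h, sub_self, norm_zero]; simp
      · rw [frz_move h]
        have h2 := max N q (frz T c δ N (T.par N q))
        calc T.w (N + 1) q * Φ (N + 1) q (frz T c δ N (T.par N q)) +
              τ * (T.w (N + 1) q * ‖c (N + 1) q - frz T c δ N (T.par N q)‖ ^ 2)
            = T.w (N + 1) q * (Φ (N + 1) q (frz T c δ N (T.par N q)) +
                τ * ‖c (N + 1) q - frz T c δ N (T.par N q)‖ ^ 2) := by ring
          _ ≤ _ := mul_le_mul_of_nonneg_left h2 hw
    rw [Finset.sum_range_succ, mul_add]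
    linarith

open Classical in
/-- **the chain**: `Φ ≤ B` everywhere, `Φ ≥ 0` at the root, total weight at most one: the moves of
the `δ`-frozen parameter have total square at most `B / τ` and total variation at most
`B / (τ δ)`. -/
theorem chain {Φ : ∀ n, T.α n → H → ℝ} {τ B : ℝ} (hτ : 0 < τ) (hδ : 0 < δ)
    (mart : ∀ n (p : T.α n) (x : H),
      ∑ q ∈ univ.filter (fun q => T.par n q = p), T.w (n + 1) q * Φ (n + 1) q x =
        T.w n p * Φ n p x)
    (max : ∀ n (q : T.α (n + 1)) (x : H),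
      Φ (n + 1) q x + τ * ‖c (n + 1) q - x‖ ^ 2 ≤ Φ (n + 1) q (c (n + 1) q))
    (hB : ∀ n p x, Φ n p x ≤ B) (hB0 : 0 ≤ B) (h0 : ∀ p, 0 ≤ Φ 0 p (c 0 p))
    (hw : ∀ n, ∑ p, T.w n p ≤ 1) (N : ℕ) :
    (∑ n ∈ range N, ∑ q : T.α (n + 1),
        T.w (n + 1) q * ‖frz T c δ (n + 1) q - frz T c δ n (T.par n q)‖ ^ 2 ≤ B / τ) ∧
    (∑ n ∈ range N, ∑ q : T.α (n + 1),
        T.w (n + 1) q * ‖frz T c δ (n + 1) q - frz T c δ n (T.par n q)‖ ≤ B / (τ * δ)) := by
  have h1 := sq_budget (c := c) (δ := δ) mart max N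
  have h2 : ∑ p : T.α N, T.w N p * Φ N p (frz T c δ N p) ≤ B := by
    calc _ ≤ ∑ p : T.α N, T.w N p * B :=
          Finset.sum_le_sum fun p _ => mul_le_mul_of_nonneg_left (hB _ _ _) (T.w0 _ _)
      _ = (∑ p : T.α N, T.w N p) * B := by rw [Finset.sum_mul]
      _ ≤ 1 * B := mul_le_mul_of_nonneg_right (hw N) hB0
      _ = B := one_mul B
  have h3 : 0 ≤ ∑ p : T.α 0, T.w 0 p * Φ 0 p (c 0 p) :=
    Finset.sum_nonneg fun p _ => mul_nonneg (T.w0 _ _) (h0 p)
  have h4 : ∑ n ∈ range N, ∑ q : T.α (n + 1),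
      T.w (n + 1) q * ‖frz T c δ (n + 1) q - frz T c δ n (T.par n q)‖ ^ 2 ≤ B / τ := by
    rw [le_div_iff₀ hτ, mul_comm]
    linarith
  refine ⟨h4, ?_⟩
  calc _ ≤ ∑ n ∈ range N, ∑ q : T.α (n + 1),
        T.w (n + 1) q * (δ⁻¹ * ‖frz T c δ (n + 1) q - frz T c δ n (T.par n q)‖ ^ 2) :=
        Finset.sum_le_sum fun n _ => Finset.sum_le_sum fun q _ =>
          mul_le_mul_of_nonneg_left (move_le_sq hδ q) (T.w0 _ _)
    _ = δ⁻¹ * ∑ n ∈ range N, ∑ q : T.α (n + 1),
        T.w (n + 1) q * ‖frz T c δ (n + 1) q - frz T c δ n (T.par n q)‖ ^ 2 := by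
        rw [Finset.mul_sum]
        refine Finset.sum_congr rfl fun n _ => ?_
        rw [Finset.mul_sum]
        exact Finset.sum_congr rfl fun q _ => by ring
    _ ≤ δ⁻¹ * (B / τ) := mul_le_mul_of_nonneg_left h4 (by positivity)
    _ = B / (τ * δ) := by field_simp

/-- **one link of the chain** `e = frz δ₁ - frz δ₂`: size at most `δ₁ + δ₂`, total variation at most
the sum of the two variations. -/
theorem link_size {δ₁ δ₂ : ℝ} (h1 : 0 ≤ δ₁) (h2 : 0 ≤ δ₂) (n : ℕ) (p : T.α n) :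
    ‖frz T c δ₁ n p - frz T c δ₂ n p‖ ≤ δ₁ + δ₂ := by
  have a1 := frz_close (c := c) h1 n p
  have a2 := frz_close (c := c) h2 n p
  have e : frz T c δ₁ n p - frz T c δ₂ n p =
      (c n p - frz T c δ₂ n p) - (c n p - frz T c δ₁ n p) := by abel
  rw [e]
  exact (norm_sub_le _ _).trans (by linarith)

theorem link_var {δ₁ δ₂ : ℝ} (n : ℕ) (q : T.α (n + 1)) :
    ‖(frz T c δ₁ (n + 1) q - frz T c δ₂ (n + 1) q) -
        (frz T c δ₁ n (T.par n q) - frz T c δ₂ n (T.par n q))‖ ≤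
      ‖frz T c δ₁ (n + 1) q - frz T c δ₁ n (T.par n q)‖ +
        ‖frz T c δ₂ (n + 1) q - frz T c δ₂ n (T.par n q)‖ := by
  have e : (frz T c δ₁ (n + 1) q - frz T c δ₂ (n + 1) q) -
      (frz T c δ₁ n (T.par n q) - frz T c δ₂ n (T.par n q)) =
      (frz T c δ₁ (n + 1) q - frz T c δ₁ n (T.par n q)) -
        (frz T c δ₂ (n + 1) q - frz T c δ₂ n (T.par n q)) := by abel
  rw [e]
  exact norm_sub_le _ _

end Crest.Agent.R079.Frz316
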