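import Crest.Agent.R079.GInst_531

/-! R079 (helper531): the node cost of `GInst_531` is super-averaging also when the atoms of a node
restrict to MIXTURES of atoms of the children (shift-averaged cells: the average over the shifts of the
parent is the mean of two averages over the shifts of the children). -/

set_option autoImplicit false

namespace Crest.Agent.R079.GInst531

open Finset Crest.Agent.R079.Grid Crest.Agent.R079.Growth Crest.Agent.R079.QRed
  Crest.Agent.R079.Qh249 Crest.Agent.R079.TWin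

variable {At : Nd → Set Fn} {L : ℝ} {p : Nd} {f g : Fn}

theorem C_sum {ι : Type*} (hL : 0 ≤ L) (s : Finset ι) (F : ι → Fn) :
    C At L p (fun y => ∑ i ∈ s, F i y) ≤ ∑ i ∈ s, C At L p (F i) := by
  classical
  induction s using Finset.induction_on with
  | empty => simp only [Finset.sum_empty]; rw [C_zero hL]
  | insert a s ha ih =>
    simp only [Finset.sum_insert ha]
    exact (C_add hL).trans (add_le_add le_rfl ih)

/-- a mixture of atoms of mass `M` costs at most `M` -/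
theorem C_mx (hL : 0 ≤ L) {M : ℝ} (h : Mx (At p) p M f) : C At L p f ≤ M := by
  obtain ⟨n, φ, c, h1, h2, h3⟩ := h
  refine le_trans (C_le hL ⟨n, φ, c, fun _ => 0, h1, fun y hy => ?_, rfl⟩) ?_
  · rw [h2 y hy, add_zero]
  · simp only [a1, norm_zero, Finset.sum_const_zero, zero_div, mul_zero, add_zero]
    exact h3

/-- the atoms of a node restrict to mixtures of the atoms of its children, averaged mass `≤ 1` -/
def RstM (At : Nd → Set Fn) : Prop :=
  ∀ (m : ℕ) (l : ℤ), ∀ φ ∈ At (m + 1, l), ∃ M0 M1 : ℝ, M0 + M1 ≤ 2 ∧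
    Mx (At (m, 2 * l)) (m, 2 * l) M0 φ ∧ Mx (At (m, 2 * l + 1)) (m, 2 * l + 1) M1 φ

theorem C_dec_le (hL : 0 ≤ L) {n : ℕ} (φ : Fin n → Fn) (c : Fin n → ℂ) (T : Fn)
    (h : ∀ y ∈ iv p, f y = ∑ i, c i * φ i y + T y) :
    C At L p f ≤ ∑ i, ‖c i‖ * C At L p (φ i) + L * a1 p T := by
  rw [C_local h]
  refine (C_add hL).trans (add_le_add ?_ (C_le_a1 hL))
  refine (C_sum hL univ fun i y => c i * φ i y).trans (Finset.sum_le_sum fun i _ => ?_)
  rw [C_smul hL]

/-- **super-averaging**, mixture form -/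
theorem C_chM (hL : 0 ≤ L) (hAt : RstM At) (m : ℕ) (l : ℤ) (f : Fn) :
    C At L (m, 2 * l) f + C At L (m, 2 * l + 1) f ≤ 2 * C At L (m + 1, l) f := by
  refine le_of_forall_pos_le_add fun ε hε => ?_
  obtain ⟨v, hv, n, φ, c, T, h1, h2, h3⟩ :=
    exists_dec (show C At L (m + 1, l) f < C At L (m + 1, l) f + ε / 2 by linarith)
  choose M0 M1 hM hx0 hx1 using fun i => hAt m l (φ i) (h1 i)
  have d0 := C_dec_le (At := At) (p := (m, 2 * l)) (f := f) hL φ c T
    fun y hy => h2 y (sub_ch0 m l hy)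
  have d1 := C_dec_le (At := At) (p := (m, 2 * l + 1)) (f := f) hL φ c T
    fun y hy => h2 y (sub_ch1 m l hy)
  have hs : ∑ i, ‖c i‖ * C At L (m, 2 * l) (φ i) + ∑ i, ‖c i‖ * C At L (m, 2 * l + 1) (φ i)
      ≤ 2 * ∑ i, ‖c i‖ := by
    rw [← Finset.sum_add_distrib, Finset.mul_sum]
    refine Finset.sum_le_sum fun i _ => ?_
    have e0 := C_mx (At := At) hL (hx0 i)
    have e1 := C_mx (At := At) hL (hx1 i)
    nlinarith [norm_nonneg (c i), hM i]
  have ha := a1_ch m l T
  have : L * a1 (m, 2 * l) T + L * a1 (m, 2 * l + 1) T = 2 * (L * a1 (m + 1, l) T) := by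
    rw [← mul_add, ha]; ring
  linarith

theorem C_superM (hL : 0 ≤ L) (hAt : RstM At) (m : ℕ) (l : ℤ) (f : Fn) :
    (C At L (m, 2 * l) f + C At L (m, 2 * l + 1) f) / 2 ≤ C At L (m + 1, l) f := by
  have := C_chM hL hAt m l f
  linarith

theorem C_superM_len (hL : 0 ≤ L) (hAt : RstM At) (m : ℕ) (l : ℤ) (f : Fn) :
    len (m, 2 * l) * C At L (m, 2 * l) f + len (m, 2 * l + 1) * C At L (m, 2 * l + 1) f
      ≤ len (m + 1, l) * C At L (m + 1, l) f := by
  have h := C_chM hL hAt m l f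
  have e : len (m, 2 * l + 1) = len (m, 2 * l) := rfl
  rw [e, len_ch m l (2 * l)]
  have hp := lenp (m, 2 * l)
  nlinarith

theorem Mx.mono {A B : Set Fn} (h : A ⊆ B) {M N : ℝ} (hMN : M ≤ N) (hf : Mx A p M f) :
    Mx B p N f := by
  obtain ⟨n, φ, c, h1, h2, h3⟩ := hf
  exact ⟨n, φ, c, fun i => h (h1 i), h2, h3.trans hMN⟩

theorem mx_single {A : Set Fn} {φ : Fn} (h : φ ∈ A) (r : ℝ) (hr : 0 ≤ r)
    (hf : ∀ y ∈ iv p, f y = (r : ℂ) * φ y) : Mx A p r f :=
  ⟨1, fun _ => φ, fun _ => (r : ℂ), fun _ => h, fun y hy => by simp [hf y hy], by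
    simp [Complex.norm_real, abs_of_nonneg hr]⟩

theorem Rst.toM (h : Rst At) : RstM At := by
  intro m l φ hφ
  obtain ⟨g0, g1, φ0, h0, φ1, h1, hg0, hg1, hg, e0, e1⟩ := h m l φ hφ
  exact ⟨g0, g1, hg, mx_single h0 g0 hg0 e0, mx_single h1 g1 hg1 e1⟩

theorem RstM.union {A B : Nd → Set Fn} (hA : RstM A) (hB : RstM B) :
    RstM (fun q => A q ∪ B q) := by
  rintro m l φ (h | h)
  · obtain ⟨M0, M1, hM, h0, h1⟩ := hA m l φ h
    exact ⟨M0, M1, hM, h0.mono Set.subset_union_left le_rfl,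
      h1.mono Set.subset_union_left le_rfl⟩
  · obtain ⟨M0, M1, hM, h0, h1⟩ := hB m l φ h
    exact ⟨M0, M1, hM, h0.mono Set.subset_union_right le_rfl,
      h1.mono Set.subset_union_right le_rfl⟩

/-- along a chain of nodes: the average of the costs over any exact partition of a node by nodes
(given by a predicate closed under splitting) is at most the cost of the node -/
theorem cost_split (hL : 0 ≤ L) (hAt : RstM At) (f : Fn) (W : Finset Nd)
    (SL : Nd → (Nd → ℝ) → ℝ)
    (hleaf : ∀ q ∈ W, ∀ F : Nd → ℝ, (∀ m l, q = (m + 1, l) → (m, 2 * l) ∉ W) →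
      SL q F = F q)
    (hnode : ∀ m l, (m + 1, l) ∈ W → (m, 2 * l) ∈ W → ∀ F : Nd → ℝ,
      SL (m + 1, l) F = SL (m, 2 * l) F + SL (m, 2 * l + 1) F)
    (hbin : ∀ m l, (m + 1, l) ∈ W → ((m, 2 * l) ∈ W ↔ (m, 2 * l + 1) ∈ W)) :
    ∀ q ∈ W, SL q (fun r => len r * C At L r f) ≤ len q * C At L q f := by
  rintro ⟨n, l⟩
  induction n generalizing l with
  | zero =>
    intro hq
    rw [hleaf _ hq]
    intro m l' h
    exact absurd (congrArg Prod.fst h) (by simp)
  | succ n ih =>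
    intro hq
    by_cases h : (n, 2 * l) ∈ W
    · rw [hnode n l hq h]
      exact (add_le_add (ih (2 * l) h) (ih (2 * l + 1) ((hbin n l hq).1 h))).trans
        (C_superM_len hL hAt n l f)
    · rw [hleaf _ hq]
      intro m l' he
      obtain ⟨h1, h2⟩ := Prod.mk.inj he
      have h1' : n = m := by omega
      subst h1'
      subst h2
      exact h

end Crest.Agent.R079.GInst531
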