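import Crest.Agent.R079.TWin1_903

/-! R079 (helper531), heights, 540's text 28030 (1): the NODE COST of the internal LASSO.

`At p` = atoms of the node `p` divided by their prices (plain / op atoms, cells normalised in
`L²(p)`), `L` = height.  `C At L p f = inf { ∑ ‖c i‖ + L * avg_p ‖T‖ : f = ∑ c i φ i + T on iv p }`.
Nonnegative, local, subadditive, homogeneous, SUPER-AVERAGING; `≤ 1` on `At p`; `≤ L * avg_p ‖f‖`;
the residual of a LASSO with this cost is therefore leveled against `At p` and bounded by `s * L`. -/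

set_option autoImplicit false

namespace Crest.Agent.R079.GInst531

open Finset Crest.Agent.R079.Grid Crest.Agent.R079.Growth Crest.Agent.R079.QRed
  Crest.Agent.R079.Qh249 Crest.Agent.R079.TWin

/-- `L¹` average -/
noncomputable def a1 (p : Nd) (f : Fn) : ℝ := (∑ y ∈ iv p, ‖f y‖) / len p

theorem lenp (p : Nd) : 0 < len p := by unfold len; positivity

theorem a1_nonneg (p : Nd) (f : Fn) : 0 ≤ a1 p f :=
  div_nonneg (Finset.sum_nonneg fun _ _ => norm_nonneg _) (lenp p).le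

theorem a1_congr {p : Nd} {f g : Fn} (h : ∀ y ∈ iv p, f y = g y) : a1 p f = a1 p g := by
  unfold a1
  rw [Finset.sum_congr rfl fun y hy => by rw [h y hy]]

theorem a1_add (p : Nd) (f g : Fn) : a1 p (fun y => f y + g y) ≤ a1 p f + a1 p g := by
  unfold a1
  rw [← add_div, ← Finset.sum_add_distrib]
  exact div_le_div_of_nonneg_right (Finset.sum_le_sum fun y _ => norm_add_le _ _) (lenp p).le

theorem a1_smul (p : Nd) (z : ℂ) (f : Fn) : a1 p (fun y => z * f y) = ‖z‖ * a1 p f := by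
  unfold a1
  simp only [norm_mul]
  rw [← Finset.mul_sum, mul_div_assoc]

theorem a1_ch (m : ℕ) (l : ℤ) (f : Fn) :
    a1 (m, 2 * l) f + a1 (m, 2 * l + 1) f = 2 * a1 (m + 1, l) f := by
  unfold a1
  rw [sum_ch m l (fun y => ‖f y‖), len_ch m l (2 * l)]
  have e : len (m, 2 * l + 1) = len (m, 2 * l) := rfl
  rw [e]
  have h := lenp (m, 2 * l)
  field_simp

/-- a decomposition of `f` on `iv p` of value `v` -/
def Dec (At : Nd → Set Fn) (L : ℝ) (p : Nd) (f : Fn) (v : ℝ) : Prop :=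
  ∃ (n : ℕ) (φ : Fin n → Fn) (c : Fin n → ℂ) (T : Fn), (∀ i, φ i ∈ At p) ∧
    (∀ y ∈ iv p, f y = ∑ i, c i * φ i y + T y) ∧ v = ∑ i, ‖c i‖ + L * a1 p T

/-- **the node cost** -/
noncomputable def C (At : Nd → Set Fn) (L : ℝ) (p : Nd) (f : Fn) : ℝ := sInf {v | Dec At L p f v}

variable {At : Nd → Set Fn} {L : ℝ} {p : Nd} {f g : Fn}

theorem Dec.nonneg (hL : 0 ≤ L) {v : ℝ} (h : Dec At L p f v) : 0 ≤ v := by
  obtain ⟨n, φ, c, T, _, _, rfl⟩ := h
  exact add_nonneg (Finset.sum_nonneg fun _ _ => norm_nonneg _) (mul_nonneg hL (a1_nonneg _ _))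

theorem dec_self (At : Nd → Set Fn) (L : ℝ) (p : Nd) (f : Fn) : Dec At L p f (L * a1 p f) :=
  ⟨0, Fin.elim0, Fin.elim0, f, fun i => i.elim0, fun y _ => by simp, by simp⟩

theorem bdd (hL : 0 ≤ L) : BddBelow {v | Dec At L p f v} := ⟨0, fun _ hv => hv.nonneg hL⟩

theorem ne : {v | Dec At L p f v}.Nonempty := ⟨_, dec_self At L p f⟩

theorem C_nonneg (hL : 0 ≤ L) : 0 ≤ C At L p f :=
  le_csInf ne fun _ hv => hv.nonneg hL

theorem C_le (hL : 0 ≤ L) {v : ℝ} (h : Dec At L p f v) : C At L p f ≤ v := csInf_le (bdd hL) h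

/-- `C ≤ L * avg` (the `L¹` cost alone) -/
theorem C_le_a1 (hL : 0 ≤ L) : C At L p f ≤ L * a1 p f := C_le hL (dec_self At L p f)

/-- atoms cost at most `1` -/
theorem C_atom (hL : 0 ≤ L) (hf : f ∈ At p) : C At L p f ≤ 1 :=
  C_le hL ⟨1, fun _ => f, fun _ => 1, fun _ => 0, fun _ => hf, fun y _ => by simp, by simp [a1]⟩

theorem exists_dec {v : ℝ} (h : C At L p f < v) : ∃ w, w < v ∧ Dec At L p f w := by
  obtain ⟨w, hw, hlt⟩ := exists_lt_of_csInf_lt ne h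
  exact ⟨w, hlt, hw⟩

theorem Dec.congr {v : ℝ} (h : Dec At L p f v) (hfg : ∀ y ∈ iv p, f y = g y) :
    Dec At L p g v := by
  obtain ⟨n, φ, c, T, h1, h2, h3⟩ := h
  exact ⟨n, φ, c, T, h1, fun y hy => by rw [← hfg y hy, h2 y hy], h3⟩

/-- local -/
theorem C_local (hfg : ∀ y ∈ iv p, f y = g y) : C At L p f = C At L p g := by
  unfold C
  congr 1
  ext v
  exact ⟨fun h => h.congr hfg, fun h => h.congr fun y hy => (hfg y hy).symm⟩

theorem Dec.add (hL : 0 ≤ L) {v w : ℝ} (hf : Dec At L p f v) (hg : Dec At L p g w) :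
    ∃ u, u ≤ v + w ∧ Dec At L p (fun y => f y + g y) u := by
  obtain ⟨n, φ, c, T, h1, h2, h3⟩ := hf
  obtain ⟨n', φ', c', T', h1', h2', h3'⟩ := hg
  refine ⟨_, ?_, n + n', Fin.append φ φ', Fin.append c c', fun y => T y + T' y, ?_, ?_, rfl⟩
  · rw [Fin.sum_univ_add]
    simp only [Fin.append_left, Fin.append_right]
    rw [h3, h3']
    have := mul_le_mul_of_nonneg_left (a1_add p T T') hL
    linarith
  · intro i
    refine Fin.addCases (fun j => ?_) (fun j => ?_) i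
    · rw [Fin.append_left]; exact h1 j
    · rw [Fin.append_right]; exact h1' j
  · intro y hy
    rw [Fin.sum_univ_add]
    simp only [Fin.append_left, Fin.append_right]
    rw [h2 y hy, h2' y hy]
    ring

/-- subadditive -/
theorem C_add (hL : 0 ≤ L) : C At L p (fun y => f y + g y) ≤ C At L p f + C At L p g := by
  refine le_of_forall_pos_le_add fun ε hε => ?_
  obtain ⟨v, hv, hdv⟩ := exists_dec (show C At L p f < C At L p f + ε / 2 by linarith)
  obtain ⟨w, hw, hdw⟩ := exists_dec (show C At L p g < C At L p g + ε / 2 by linarith)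
  obtain ⟨u, hu, hdu⟩ := hdv.add hL hdw
  have := C_le hL hdu
  linarith

theorem Dec.smul {v : ℝ} (z : ℂ) (h : Dec At L p f v) :
    Dec At L p (fun y => z * f y) (‖z‖ * v) := by
  obtain ⟨n, φ, c, T, h1, h2, h3⟩ := h
  refine ⟨n, φ, fun i => z * c i, fun y => z * T y, h1, fun y hy => ?_, ?_⟩
  · beta_reduce
    rw [h2 y hy, mul_add, Finset.mul_sum]
    congr 1
    exact Finset.sum_congr rfl fun i _ => by ring
  · rw [h3, a1_smul]
    simp only [norm_mul]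
    rw [← Finset.mul_sum]
    ring

theorem C_smul_le (hL : 0 ≤ L) (z : ℂ) : C At L p (fun y => z * f y) ≤ ‖z‖ * C At L p f := by
  refine le_of_forall_pos_le_add fun ε hε => ?_
  have hz : 0 < ‖z‖ + 1 := by positivity
  obtain ⟨v, hv, hdv⟩ := exists_dec (show C At L p f < C At L p f + ε / (‖z‖ + 1) by
    have := div_pos hε hz
    linarith)
  have h := C_le hL (hdv.smul z)
  have h1 : ‖z‖ * v ≤ ‖z‖ * (C At L p f + ε / (‖z‖ + 1)) :=
    mul_le_mul_of_nonneg_left hv.le (norm_nonneg z)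
  have h2 : ‖z‖ * (ε / (‖z‖ + 1)) ≤ ε := by
    rw [mul_div_assoc', div_le_iff₀ hz]
    nlinarith [norm_nonneg z]
  calc _ ≤ ‖z‖ * v := h
    _ ≤ ‖z‖ * (C At L p f + ε / (‖z‖ + 1)) := h1
    _ = ‖z‖ * C At L p f + ‖z‖ * (ε / (‖z‖ + 1)) := by ring
    _ ≤ _ := by linarith

/-- homogeneous -/
theorem C_smul (hL : 0 ≤ L) (z : ℂ) : C At L p (fun y => z * f y) = ‖z‖ * C At L p f := by
  refine le_antisymm (C_smul_le hL z) ?_
  rcases eq_or_ne z 0 with rfl | hz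
  · rw [norm_zero, zero_mul]
    exact C_nonneg hL
  · have h := C_smul_le (At := At) (p := p) (f := fun y => z * f y) hL z⁻¹
    have e : (fun y => z⁻¹ * (z * f y)) = f := by
      funext y
      rw [← mul_assoc, inv_mul_cancel₀ hz, one_mul]
    rw [e, norm_inv] at h
    have hz' : 0 < ‖z‖ := norm_pos_iff.2 hz
    calc ‖z‖ * C At L p f ≤ ‖z‖ * (‖z‖⁻¹ * C At L p (fun y => z * f y)) :=
          mul_le_mul_of_nonneg_left h hz'.le
      _ = _ := by field_simp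

theorem C_zero (hL : 0 ≤ L) : C At L p (fun _ => 0) = 0 := by
  have h := C_smul (At := At) (p := p) (f := fun _ => 0) hL 0
  simpa using h

theorem C_neg (hL : 0 ≤ L) : C At L p (fun y => - f y) = C At L p f := by
  have h := C_smul (At := At) (p := p) (f := f) hL (-1)
  simpa using h

/-- the atoms of a node restrict to its children with averaged prices -/
def Rst (At : Nd → Set Fn) : Prop :=
  ∀ (m : ℕ) (l : ℤ), ∀ φ ∈ At (m + 1, l), ∃ g0 g1 : ℝ, ∃ φ0 ∈ At (m, 2 * l),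
    ∃ φ1 ∈ At (m, 2 * l + 1), 0 ≤ g0 ∧ 0 ≤ g1 ∧ g0 + g1 ≤ 2 ∧
    (∀ y ∈ iv (m, 2 * l), φ y = (g0 : ℂ) * φ0 y) ∧
    (∀ y ∈ iv (m, 2 * l + 1), φ y = (g1 : ℂ) * φ1 y)

/-- **super-averaging** -/
theorem C_ch (hL : 0 ≤ L) (hAt : Rst At) (m : ℕ) (l : ℤ) (f : Fn) :
    C At L (m, 2 * l) f + C At L (m, 2 * l + 1) f ≤ 2 * C At L (m + 1, l) f := by
  refine le_of_forall_pos_le_add fun ε hε => ?_
  obtain ⟨v, hv, n, φ, c, T, h1, h2, h3⟩ :=
    exists_dec (show C At L (m + 1, l) f < C At L (m + 1, l) f + ε / 2 by linarith)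
  choose g0 g1 φ0 hφ0 φ1 hφ1 hg0 hg1 hg he0 he1 using fun i => hAt m l (φ i) (h1 i)
  have d0 : C At L (m, 2 * l) f ≤ ∑ i, ‖c i‖ * g0 i + L * a1 (m, 2 * l) T := by
    refine C_le hL ⟨n, φ0, fun i => c i * (g0 i : ℂ), T, hφ0, fun y hy => ?_, ?_⟩
    · rw [h2 y (sub_ch0 m l hy)]
      congr 1
      exact Finset.sum_congr rfl fun i _ => by rw [he0 i y hy]; ring
    · congr 1
      exact Finset.sum_congr rfl fun i _ => by
        rw [norm_mul, Complex.norm_real, Real.norm_eq_abs, abs_of_nonneg (hg0 i)]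
  have d1 : C At L (m, 2 * l + 1) f ≤ ∑ i, ‖c i‖ * g1 i + L * a1 (m, 2 * l + 1) T := by
    refine C_le hL ⟨n, φ1, fun i => c i * (g1 i : ℂ), T, hφ1, fun y hy => ?_, ?_⟩
    · rw [h2 y (sub_ch1 m l hy)]
      congr 1
      exact Finset.sum_congr rfl fun i _ => by rw [he1 i y hy]; ring
    · congr 1
      exact Finset.sum_congr rfl fun i _ => by
        rw [norm_mul, Complex.norm_real, Real.norm_eq_abs, abs_of_nonneg (hg1 i)]
  have hs : ∑ i, ‖c i‖ * g0 i + ∑ i, ‖c i‖ * g1 i ≤ 2 * ∑ i, ‖c i‖ := by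
    rw [← Finset.sum_add_distrib, Finset.mul_sum]
    exact Finset.sum_le_sum fun i _ => by
      nlinarith [norm_nonneg (c i), hg i]
  have ha := a1_ch m l T
  have : L * a1 (m, 2 * l) T + L * a1 (m, 2 * l + 1) T = 2 * (L * a1 (m + 1, l) T) := by
    rw [← mul_add, ha]; ring
  linarith

/-- the same in 525's shape -/
theorem C_super (hL : 0 ≤ L) (hAt : Rst At) (m : ℕ) (l : ℤ) (f : Fn) :
    (C At L (m, 2 * l) f + C At L (m, 2 * l + 1) f) / 2 ≤ C At L (m + 1, l) f := by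
  have := C_ch hL hAt m l f
  linarith

/-- the same in 623's shape -/
theorem C_super_len (hL : 0 ≤ L) (hAt : Rst At) (m : ℕ) (l : ℤ) (f : Fn) :
    len (m, 2 * l) * C At L (m, 2 * l) f + len (m, 2 * l + 1) * C At L (m, 2 * l + 1) f
      ≤ len (m + 1, l) * C At L (m + 1, l) f := by
  have h := C_ch hL hAt m l f
  have e : len (m, 2 * l + 1) = len (m, 2 * l) := rfl
  rw [e, len_ch m l (2 * l)]
  have hp := lenp (m, 2 * l)
  nlinarith

/-! ### point masses: the pointwise bound -/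

/-- point mass -/
noncomputable def pt (y : ℤ) (z : ℂ) : Fn := fun x => if x = y then z else 0

theorem a1_pt {y : ℤ} (hy : y ∈ iv p) (z : ℂ) : a1 p (pt y z) = ‖z‖ / len p := by
  unfold a1 pt
  congr 1
  rw [Finset.sum_eq_single y]
  · simp
  · intro b _ hb
    simp [hb]
  · intro h
    exact absurd hy h

theorem C_pt (hL : 0 ≤ L) {y : ℤ} (hy : y ∈ iv p) (z : ℂ) :
    C At L p (pt y z) ≤ L * (‖z‖ / len p) := by
  rw [← a1_pt hy z]
  exact C_le_a1 hL

/-- **POINTWISE BOUND**: level `s` against the cost gives `|ρ y| ≤ s L + err` -/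
theorem sup_of_level (hL : 0 ≤ L) {s : ℝ} (hs : 0 ≤ s) {ρ : Fn} {E : Fn → ℝ}
    (h : ∀ φ : Fn, ‖∑ y ∈ iv p, ρ y * φ y‖ ≤ (s * C At L p φ + E φ) * len p) {y : ℤ}
    (hy : y ∈ iv p) : ‖ρ y‖ ≤ s * L + E (pt y 1) * len p := by
  have h1 := h (pt y 1)
  have e : ∑ x ∈ iv p, ρ x * pt y 1 x = ρ y := by
    rw [Finset.sum_eq_single y]
    · simp [pt]
    · intro b _ hb
      simp [pt, hb]
    · intro h
      exact absurd hy h
  rw [e] at h1
  have h2 := C_pt (At := At) hL hy (1 : ℂ)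
  rw [norm_one] at h2
  have hp := lenp p
  have h3 : s * C At L p (pt y 1) * len p ≤ s * L := by
    have := mul_le_mul_of_nonneg_left h2 (mul_nonneg hs hp.le)
    calc s * C At L p (pt y 1) * len p = s * len p * C At L p (pt y 1) := by ring
      _ ≤ s * len p * (L * (1 / len p)) := this
      _ = s * L := by field_simp
  calc ‖ρ y‖ ≤ (s * C At L p (pt y 1) + E (pt y 1)) * len p := h1
    _ = s * C At L p (pt y 1) * len p + E (pt y 1) * len p := by ring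
    _ ≤ _ := by linarith

/-- if the additive error is a CONSTANT (does not scale with `φ`) it disappears -/
theorem level_of_const (hL : 0 ≤ L) {s ε : ℝ} {ρ : Fn}
    (h : ∀ φ : Fn, ‖∑ y ∈ iv p, ρ y * φ y‖ ≤ (s * C At L p φ + ε) * len p) (φ : Fn) :
    ‖∑ y ∈ iv p, ρ y * φ y‖ ≤ s * C At L p φ * len p := by
  refine le_of_forall_pos_le_add fun δ hδ => ?_
  have hp := lenp p
  set K : ℝ := max 1 (|ε| * len p / δ) with hK
  have hK1 : 1 ≤ K := le_max_left _ _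
  have hK0 : 0 < K := by linarith
  have hK2 : |ε| * len p / δ ≤ K := le_max_right _ _
  have h1 := h (fun y => (K : ℂ) * φ y)
  rw [C_smul hL] at h1
  have e : ∑ y ∈ iv p, ρ y * ((K : ℂ) * φ y) = (K : ℂ) * ∑ y ∈ iv p, ρ y * φ y := by
    rw [Finset.mul_sum]
    exact Finset.sum_congr rfl fun y _ => by ring
  rw [e, norm_mul, Complex.norm_real, Real.norm_eq_abs, abs_of_pos hK0] at h1
  have h2 : |ε| * len p ≤ K * δ := by
    rwa [div_le_iff₀ hδ] at hK2
  have h3 : ε * len p ≤ |ε| * len p := mul_le_mul_of_nonneg_right (le_abs_self ε) hp.le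
  have h4 : K * ‖∑ y ∈ iv p, ρ y * φ y‖ ≤ K * (s * C At L p φ * len p + δ) := by
    calc K * ‖∑ y ∈ iv p, ρ y * φ y‖ ≤ (s * (K * C At L p φ) + ε) * len p := h1
      _ = K * (s * C At L p φ * len p) + ε * len p := by ring
      _ ≤ K * (s * C At L p φ * len p) + K * δ := by linarith
      _ = _ := by ring
  exact le_of_mul_le_mul_left h4 hK0

/-- level against the atoms -/
theorem level_atom (hL : 0 ≤ L) {s : ℝ} (hs : 0 ≤ s) {ρ : Fn}
    (h : ∀ φ : Fn, ‖∑ y ∈ iv p, ρ y * φ y‖ ≤ s * C At L p φ * len p) {φ : Fn} (hφ : φ ∈ At p) :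
    ‖∑ y ∈ iv p, ρ y * φ y‖ ≤ s * len p := by
  refine (h φ).trans ?_
  have := C_atom hL hφ
  have h1 : s * C At L p φ ≤ s * 1 := mul_le_mul_of_nonneg_left this hs
  rw [mul_one] at h1
  exact mul_le_mul_of_nonneg_right h1 (lenp p).le

/-! ### reading the structured letter: plain part + cells + `L¹` part -/

/-- `f = ∑ c i φ i` on `iv p`, `φ i ∈ A`, mass `≤ M` -/
def Mx (A : Set Fn) (p : Nd) (M : ℝ) (f : Fn) : Prop :=
  ∃ (n : ℕ) (φ : Fin n → Fn) (c : Fin n → ℂ), (∀ i, φ i ∈ A) ∧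
    (∀ y ∈ iv p, f y = ∑ i, c i * φ i y) ∧ ∑ i, ‖c i‖ ≤ M

theorem mx_of_finset {A : Set Fn} {M : ℝ} {n : ℕ} (φ : Fin n → Fn) (c : Fin n → ℂ)
    (s : Finset (Fin n)) (h1 : ∀ i ∈ s, φ i ∈ A) (h2 : ∑ i ∈ s, ‖c i‖ ≤ M) :
    Mx A p M (fun y => ∑ i ∈ s, c i * φ i y) := by
  classical
  refine ⟨s.card, fun j => φ (s.equivFin.symm j), fun j => c (s.equivFin.symm j),
    fun j => h1 _ (s.equivFin.symm j).2, fun y _ => ?_, ?_⟩
  · rw [Equiv.sum_comp s.equivFin.symm (fun i : s => c i * φ i y)]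
    exact (Finset.sum_coe_sort s (fun i => c i * φ i y)).symm
  · rw [Equiv.sum_comp s.equivFin.symm (fun i : s => ‖c i‖),
      Finset.sum_coe_sort s (fun i => ‖c i‖)]
    exact h2

/-- **SPLIT**: a letter of cost `< v` for `At = A ∪ B` is (mixture of `A`) + (mixture of `B`) +
(`L¹`-small), masses `≤ v`, `L * avg ‖T‖ ≤ v` -/
theorem split {A B : Nd → Set Fn} (hL : 0 ≤ L) {v : ℝ}
    (h : C (fun q => A q ∪ B q) L p f < v) :
    ∃ H S T : Fn, Mx (A p) p v H ∧ Mx (B p) p v S ∧ L * a1 p T ≤ v ∧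
      ∀ y ∈ iv p, f y = H y + S y + T y := by
  classical
  obtain ⟨w, hw, n, φ, c, T, h1, h2, h3⟩ := exists_dec h
  have hT := mul_nonneg hL (a1_nonneg p T)
  have hc : (0 : ℝ) ≤ ∑ i, ‖c i‖ := Finset.sum_nonneg fun _ _ => norm_nonneg _
  refine ⟨_, _, T, mx_of_finset φ c (univ.filter fun i => φ i ∈ A p) ?_ ?_,
    mx_of_finset φ c (univ.filter fun i => ¬ φ i ∈ A p) ?_ ?_, ?_, fun y hy => ?_⟩
  · exact fun i hi => (Finset.mem_filter.1 hi).2
  · refine (Finset.sum_le_sum_of_subset_of_nonneg (Finset.filter_subset _ _)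
      fun _ _ _ => norm_nonneg _).trans ?_
    linarith
  · intro i hi
    rcases h1 i with h | h
    · exact absurd h (Finset.mem_filter.1 hi).2
    · exact h
  · refine (Finset.sum_le_sum_of_subset_of_nonneg (Finset.filter_subset _ _)
      fun _ _ _ => norm_nonneg _).trans ?_
    linarith
  · linarith
  · rw [h2 y hy, Finset.sum_filter_add_sum_filter_not]

/-! ### construction of restrictable families -/

/-- unions -/
theorem Rst.union {A B : Nd → Set Fn} (hA : Rst A) (hB : Rst B) : Rst (fun q => A q ∪ B q) := by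
  rintro m l φ (h | h)
  · obtain ⟨g0, g1, φ0, h0, φ1, h1, r⟩ := hA m l φ h
    exact ⟨g0, g1, φ0, Or.inl h0, φ1, Or.inl h1, r⟩
  · obtain ⟨g0, g1, φ0, h0, φ1, h1, r⟩ := hB m l φ h
    exact ⟨g0, g1, φ0, Or.inr h0, φ1, Or.inr h1, r⟩

/-- node independent families -/
theorem rst_const (A : Set Fn) : Rst (fun _ => A) :=
  fun _ _ φ h => ⟨1, 1, φ, h, φ, h, zero_le_one, zero_le_one, by norm_num,
    fun _ _ => by simp, fun _ _ => by simp⟩

/-- families normalised by a super-averaging gauge `N` -/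
theorem rst_norm (F : Set Fn) (N : Nd → Fn → ℝ) (h0 : (fun _ => 0) ∈ F)
    (hF : ∀ φ ∈ F, ∀ r : ℝ, 0 ≤ r → (fun y => (r : ℂ) * φ y) ∈ F)
    (hN0 : ∀ p φ, 0 ≤ N p φ) (hNz : ∀ p, N p (fun _ => 0) ≤ 1)
    (hN : ∀ p φ, ∀ r : ℝ, 0 ≤ r → N p (fun y => (r : ℂ) * φ y) = r * N p φ)
    (hNv : ∀ p, ∀ φ ∈ F, N p φ = 0 → ∀ y ∈ iv p, φ y = 0)
    (hNs : ∀ (m : ℕ) (l : ℤ), ∀ φ ∈ F,
      N (m, 2 * l) φ + N (m, 2 * l + 1) φ ≤ 2 * N (m + 1, l) φ) :
    Rst (fun q => {φ | φ ∈ F ∧ N q φ ≤ 1}) := by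
  have key : ∀ q, ∀ φ ∈ F, ∃ φ' ∈ {φ | φ ∈ F ∧ N q φ ≤ 1}, ∀ y ∈ iv q,
      φ y = (N q φ : ℂ) * φ' y := by
    intro q φ hφ
    rcases eq_or_lt_of_le (hN0 q φ) with h | h
    · refine ⟨fun _ => 0, ⟨h0, hNz q⟩, fun y hy => ?_⟩
      rw [hNv q φ hφ h.symm y hy, mul_zero]
    · refine ⟨fun y => (((N q φ)⁻¹ : ℝ) : ℂ) * φ y,
        ⟨hF φ hφ _ (inv_nonneg.2 h.le), ?_⟩, fun y _ => ?_⟩
      · rw [hN q φ _ (inv_nonneg.2 h.le), inv_mul_cancel₀ h.ne']
      · rw [← mul_assoc, ← Complex.ofReal_mul, mul_inv_cancel₀ h.ne', Complex.ofReal_one, one_mul]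
  rintro m l φ ⟨hφ, hφ1⟩
  obtain ⟨φ0, hφ0, e0⟩ := key (m, 2 * l) φ hφ
  obtain ⟨φ1, hφ1', e1⟩ := key (m, 2 * l + 1) φ hφ
  refine ⟨_, _, φ0, hφ0, φ1, hφ1', hN0 _ _, hN0 _ _, ?_, e0, e1⟩
  have := hNs m l φ hφ
  linarith

end Crest.Agent.R079.GInst531
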