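import Crest.Agent.R079.QDefs_248
import Crest.Agent.R079.Static_569

/-! R079, leaf (Qb) of `QDefs_248` (helper247): a slot which is on `iv J` a combination of unit atoms
of total mass `≤ t` costs `≤ K t`; from `FrozenAtom` and linearity in the structured slot. -/

set_option autoImplicit false

namespace Crest.Agent.R079.QRed

open Finset Crest.Agent.R079.Grid Crest.Agent.R079.Glue Crest.Agent.R079.Growth

namespace Qb247

/-- `Lbox` only sees the values on the node interval -/
lemma Lbox_congr (m : ℕ) (l bb x : ℤ) (hbb : bb = -1 ∨ bb = -7) (hx : x ∈ adm m l)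
    (F G : Fin 4 → ℤ → ℂ) (h : ∀ j, ∀ y ∈ dI (m + 7) l, F j y = G j y) :
    Lbox (2 ^ m) bb F x = Lbox (2 ^ m) bb G x := by
  unfold Lbox
  congr 1
  refine Finset.sum_congr rfl fun u _ => ?_
  congr 1
  exact Finset.prod_congr rfl fun k _ => h k _ (yv_mem m l bb x hbb hx u k)

/-- the product of a family with one slot replaced -/
lemma prod_update (F : Fin 4 → ℤ → ℂ) (i : Fin 4) (g : ℤ → ℂ) (y : Fin 4 → ℤ) :
    ∏ j, Function.update F i g j (y j) = g (y i) * ∏ j ∈ Finset.univ.erase i, F j (y j) := by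
  rw [← Finset.mul_prod_erase Finset.univ (fun j => Function.update F i g j (y j))
    (Finset.mem_univ i)]
  rw [Function.update_self]
  congr 1
  refine Finset.prod_congr rfl fun j hj => ?_
  rw [Function.update_of_ne (Finset.ne_of_mem_erase hj)]

/-- linearity of `Lbox` in one slot -/
lemma Lbox_update_sum (N : ℕ) (bb x : ℤ) (F : Fin 4 → ℤ → ℂ) (i : Fin 4) (n : ℕ)
    (φ : Fin n → ℤ → ℂ) (c : Fin n → ℂ) :
    Lbox N bb (Function.update F i (fun y => ∑ k, c k * φ k y)) x =
      ∑ k, c k * Lbox N bb (Function.update F i (φ k)) x := by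
  unfold Lbox
  simp only [prod_update]
  simp only [Finset.mul_sum, Finset.sum_mul]
  rw [Finset.sum_comm]
  refine Finset.sum_congr rfl fun k _ => ?_
  refine Finset.sum_congr rfl fun u _ => ?_
  ring

/-- linearity of the node form in one slot -/
lemma TI_update_sum (bb : ℤ) (ε : ℕ → ℤ → ℂ) (F : Fin 4 → ℤ → ℂ) (i : Fin 4) (n : ℕ)
    (φ : Fin n → ℤ → ℂ) (c : Fin n → ℂ) (p : ℕ × ℤ) :
    TI bb ε (Function.update F i (fun y => ∑ k, c k * φ k y)) p =
      ∑ k, c k * TI bb ε (Function.update F i (φ k)) p := by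
  unfold TI
  simp only [Lbox_update_sum]
  simp only [Finset.mul_sum]
  rw [Finset.sum_comm]
  refine Finset.sum_congr rfl fun k _ => ?_
  refine Finset.sum_congr rfl fun u _ => ?_
  ring

/-- the node form only sees the values on the node interval -/
lemma TI_congr (bb : ℤ) (hbb : bb = -1 ∨ bb = -7) (ε : ℕ → ℤ → ℂ) (F G : Fin 4 → ℤ → ℂ)
    (p : ℕ × ℤ) (h : ∀ j, ∀ y ∈ dI (p.1 + 7) p.2, F j y = G j y) :
    TI bb ε F p = TI bb ε G p := by
  unfold TI
  refine Finset.sum_congr rfl fun x hx => ?_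
  rw [Lbox_congr p.1 p.2 bb x hbb hx F G h]

/-- the total form is bounded by the absolute sum of the boxes -/
lemma norm_TR_le {bb : ℤ} {ε : ℕ → ℤ → ℂ} (hε : ∀ m x, ‖ε m x‖ ≤ 1) (R : Finset Nd)
    (F : Fin 4 → Fn) :
    ‖TR bb ε R F‖ ≤ ∑ p ∈ R, ∑ x ∈ adm p.1 p.2, ‖Lbox (2 ^ p.1) bb F x‖ := by
  unfold TR
  refine (norm_sum_le _ _).trans (Finset.sum_le_sum fun p _ => ?_)
  unfold TI
  refine (norm_sum_le _ _).trans (Finset.sum_le_sum fun x _ => ?_)
  rw [norm_mul]
  calc ‖ε p.1 x‖ * ‖Lbox (2 ^ p.1) bb F x‖ ≤ 1 * ‖Lbox (2 ^ p.1) bb F x‖ :=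
        mul_le_mul_of_nonneg_right (hε _ _) (norm_nonneg _)
    _ = _ := one_mul _

end Qb247

open Qb247 in
/-- **(Qb)** from the frozen atom theorem -/
theorem qb_of_frozenAtom (h : FrozenAtom) : Qb := by
  obtain ⟨K, hK, hF⟩ := h
  refine ⟨K, hK, ?_⟩
  intro bb ε hA R J hR F A hA0 hav i t hrep
  obtain ⟨n, φ, c, hφ, hFi, hc⟩ := hrep
  -- replace the slot `i` by the combination
  have h1 : TR bb ε R F = ∑ k, c k * TR bb ε R (Function.update F i (φ k)) := by
    have e1 : TR bb ε R F = TR bb ε R (Function.update F i (fun y => ∑ k, c k * φ k y)) := by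
      unfold TR
      refine Finset.sum_congr rfl fun p hp => ?_
      refine TI_congr bb hA.1 ε _ _ p fun j y hy => ?_
      by_cases hj : j = i
      · subst hj
        rw [Function.update_self]
        exact hFi y (hR.reg.1 p hp hy)
      · rw [Function.update_of_ne hj]
    rw [e1]
    unfold TR
    simp only [TI_update_sum, Finset.mul_sum]
    rw [Finset.sum_comm]
  have hP : 0 ≤ ∏ j : Fin 3, A (i.succAbove j) := Finset.prod_nonneg fun j _ => hA0 _
  have hlen : 0 ≤ len J := by unfold len; positivity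
  set B : ℝ := K * (∏ j : Fin 3, A (i.succAbove j)) * len J with hB
  have hB0 : 0 ≤ B := by positivity
  have h2 : ∀ k, ‖TR bb ε R (Function.update F i (φ k))‖ ≤ B := by
    intro k
    obtain ⟨κ, T, a, b, c', hκ, hφk, hle⟩ := hφ k
    refine (norm_TR_le hA.2 R _).trans ?_
    have h3 := hF bb hA.1 R J hR.reg i κ hκ T a b c' (Function.update F i (φ k))
      (fun j => A (i.succAbove j)) (fun j => hA0 _) (fun j p hp => by
        rw [Function.update_of_ne (Fin.succAbove_ne i j)]
        exact hav _ p hp) (by rw [Function.update_self, hφk])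
    refine h3.trans ?_
    have e2 : K * (κ * 2 ^ (J.1 + 7) * (∏ j : Fin 3, A (i.succAbove j)) *
        (n3 (T 0) (T 1) a * n3 (T 1) (T 2) b * n3 (T 2) (T 0) c') ^ (1 / 3 : ℝ)) =
        B * (κ * (n3 (T 0) (T 1) a * n3 (T 1) (T 2) b * n3 (T 2) (T 0) c') ^ (1 / 3 : ℝ)) := by
      rw [hB]; unfold len; ring
    rw [e2]
    calc _ ≤ B * 1 := mul_le_mul_of_nonneg_left hle hB0
      _ = B := mul_one _
  rw [h1]
  refine (norm_sum_le _ _).trans ?_
  calc ∑ k, ‖c k * TR bb ε R (Function.update F i (φ k))‖ ≤ ∑ k, ‖c k‖ * B := by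
        refine Finset.sum_le_sum fun k _ => ?_
        rw [norm_mul]
        exact mul_le_mul_of_nonneg_left (h2 k) (norm_nonneg _)
    _ = (∑ k, ‖c k‖) * B := by rw [Finset.sum_mul]
    _ ≤ t * B := mul_le_mul_of_nonneg_right hc hB0
    _ = K * t * (∏ j : Fin 3, A (i.succAbove j)) * len J := by rw [hB]; ring

end Crest.Agent.R079.QRed
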