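import Crest.Agent.R079.TSign_815
import Crest.Agent.R079.Qb_247
import Crest.Agent.R079.GrowthG1_215

/-! R079, doc 2489 (2): the conversion lemma for windows of the line model (helper815). -/

set_option autoImplicit false

namespace Crest.Agent.R079.TSign

open Finset Grid Growth

/-- coefficients multiplied by the sign of the window of the node `(m, x / 2^(m+7))` -/
noncomputable def esg {n : ℕ} (W : Fin n → Finset Nd) (ε : ℕ → ℤ → ℂ) (θ : Sg (Fin n)) : ℕ → ℤ → ℂ :=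
  open Classical in
  fun m x => (∑ i, if (m, x / 2 ^ (m + 7)) ∈ W i then sv (θ i) else 0) * ε m x

lemma esg_le {n : ℕ} (W : Fin n → Finset Nd) (hd : ∀ i i', i ≠ i' → Disjoint (W i) (W i'))
    (ε : ℕ → ℤ → ℂ) (hε : ∀ m x, ‖ε m x‖ ≤ 1) (θ : Sg (Fin n)) (m : ℕ) (x : ℤ) :
    ‖esg W ε θ m x‖ ≤ 1 := by
  classical
  unfold esg
  rw [norm_mul]
  refine mul_le_one₀ ?_ (norm_nonneg _) (hε m x)
  by_cases h : ∃ i, (m, x / 2 ^ (m + 7)) ∈ W i
  · obtain ⟨i, hi⟩ := h
    rw [Finset.sum_eq_single i]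
    · rw [if_pos hi, norm_sv]
    · intro k _ hk
      rw [if_neg fun hk' => (Finset.disjoint_left.1 (hd k i hk)) hk' hi]
    · simp
  · push Not at h
    rw [Finset.sum_eq_zero fun i _ => if_neg (h i)]; simp

lemma div_of_mem {k : ℕ} {l x : ℤ} (h : x ∈ dI k l) : x / 2 ^ k = l := by
  rw [dI, Finset.mem_Ico] at h
  have hp : (0 : ℤ) < 2 ^ k := by positivity
  exact le_antisymm (Int.lt_add_one_iff.1 ((Int.ediv_lt_iff_lt_mul hp).2 h.2))
    ((Int.le_ediv_iff_mul_le hp).2 h.1)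

lemma adm_sub (m : ℕ) (l : ℤ) : adm m l ⊆ dI (m + 7) l := by
  intro x hx
  rw [adm, Finset.mem_Ico] at hx
  rw [dI, Finset.mem_Ico]
  have hp : (0 : ℤ) < 2 ^ (m + 1) := by positivity
  constructor <;> omega

lemma TI_esg {n : ℕ} (W : Fin n → Finset Nd) (hd : ∀ i i', i ≠ i' → Disjoint (W i) (W i'))
    (b : ℤ) (ε : ℕ → ℤ → ℂ) (θ : Sg (Fin n)) (F : Fin 4 → Fn) (i : Fin n) (p : Nd) (hp : p ∈ W i) :
    TI b (esg W ε θ) F p = sv (θ i) * TI b ε F p := by
  classical
  unfold TI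
  rw [Finset.mul_sum]
  refine Finset.sum_congr rfl fun x hx => ?_
  have hx' : x / 2 ^ (p.1 + 7) = p.2 := div_of_mem (adm_sub p.1 p.2 hx)
  have hp' : ((p.1, x / 2 ^ (p.1 + 7)) : Nd) ∈ W i := by rw [hx']; exact hp
  unfold esg
  rw [Finset.sum_eq_single i]
  · rw [if_pos hp']; ring
  · intro k _ hk
    rw [if_neg fun hk' => (Finset.disjoint_left.1 (hd k i hk)) hk' hp']
  · simp

/-- **conversion, total form**: `F i` = the three other letters in the window `i` (arbitrary). -/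
theorem conv_TI {n : ℕ} (W : Fin n → Finset Nd) (hd : ∀ i i', i ≠ i' → Disjoint (W i) (W i'))
    (b : ℤ) (ε : ℕ → ℤ → ℂ) (j : Fin 4) (F : Fin n → Fin 4 → Fn) (E : Fin n → Fn) :
    ∑ i, ∑ p ∈ W i, TI b ε (Function.update (F i) j (E i)) p
      = (1 / (2 : ℂ) ^ n) * ∑ θ : Sg (Fin n), ∑ i, ∑ p ∈ W i,
          TI b (esg W ε θ) (Function.update (F i) j (zs E θ)) p := by
  have h1 : ∀ θ : Sg (Fin n), ∑ i, ∑ p ∈ W i, TI b (esg W ε θ) (Function.update (F i) j (zs E θ)) p
      = ∑ i, ∑ k, (sv (θ i) * sv (θ k)) * ∑ p ∈ W i, TI b ε (Function.update (F i) j (E k)) p := by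
    intro θ
    refine Finset.sum_congr rfl fun i _ => ?_
    have : ∀ p ∈ W i, TI b (esg W ε θ) (Function.update (F i) j (zs E θ)) p
        = ∑ k, (sv (θ i) * sv (θ k)) * TI b ε (Function.update (F i) j (E k)) p := by
      intro p hp
      rw [TI_esg W hd b ε θ _ i p hp]
      have := QRed.Qb247.TI_update_sum b ε (F i) j n E (fun k => sv (θ k)) p
      unfold zs
      rw [this, Finset.mul_sum]
      exact Finset.sum_congr rfl fun k _ => by ring
    rw [Finset.sum_congr rfl this, Finset.sum_comm]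
    exact Finset.sum_congr rfl fun k _ => by rw [Finset.mul_sum]
  rw [Finset.sum_congr rfl fun θ _ => h1 θ, Finset.sum_comm]
  have h2 : ∀ i, ∑ θ : Sg (Fin n), ∑ k, (sv (θ i) * sv (θ k)) *
      ∑ p ∈ W i, TI b ε (Function.update (F i) j (E k)) p
      = (2 : ℂ) ^ n * ∑ p ∈ W i, TI b ε (Function.update (F i) j (E i)) p := by
    intro i
    rw [Finset.sum_comm]
    have : ∀ k, ∑ θ : Sg (Fin n), (sv (θ i) * sv (θ k)) *
        ∑ p ∈ W i, TI b ε (Function.update (F i) j (E k)) p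
        = (if i = k then (2 : ℂ) ^ n else 0) *
          ∑ p ∈ W i, TI b ε (Function.update (F i) j (E k)) p := by
      intro k
      rw [← Finset.sum_mul, sum_sv_mul, Fintype.card_fin]
    rw [Finset.sum_congr rfl fun k _ => this k]
    simp
  rw [Finset.sum_congr rfl fun i _ => h2 i, ← Finset.mul_sum]
  have : (2 : ℂ) ^ n ≠ 0 := pow_ne_zero _ two_ne_zero
  field_simp

/-- **conversion, bound**: if every signed static version is bounded by `B θ`, the sum is bounded by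
the average. -/
theorem conv_TI_le {n : ℕ} (W : Fin n → Finset Nd) (hd : ∀ i i', i ≠ i' → Disjoint (W i) (W i'))
    (b : ℤ) (ε : ℕ → ℤ → ℂ) (j : Fin 4) (F : Fin n → Fin 4 → Fn) (E : Fin n → Fn)
    (B : Sg (Fin n) → ℝ)
    (hB : ∀ θ : Sg (Fin n), ‖∑ i, ∑ p ∈ W i,
      TI b (esg W ε θ) (Function.update (F i) j (zs E θ)) p‖ ≤ B θ) :
    ‖∑ i, ∑ p ∈ W i, TI b ε (Function.update (F i) j (E i)) p‖ ≤ (1 / 2 ^ n) * ∑ θ, B θ := by
  rw [conv_TI W hd b ε j F E, norm_mul]
  have h1 : ‖(1 / (2 : ℂ) ^ n)‖ = 1 / 2 ^ n := by simp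
  rw [h1]
  refine mul_le_mul_of_nonneg_left ((norm_sum_le _ _).trans (Finset.sum_le_sum fun θ _ => hB θ))
    (by positivity)

open Classical in
/-- **number of windows, second moment** from the count below every top and below `J`. -/
theorem count_sq {n : ℕ} (I : Fin n → Nd) (J : Nd) (K : ℝ) (hK : 0 ≤ K)
    (hc : ∀ i, ∑ k ∈ univ.filter (fun k => iv (I k) ⊆ iv (I i)), len (I k) ≤ K * len (I i))
    (hc' : ∑ k, len (I k) ≤ K * len J) :
    ∑ y ∈ iv J, ((univ.filter fun i => y ∈ (iv (I i) : Set ℤ)).card : ℝ) ^ 2 ≤ 2 * K ^ 2 * len J := by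
  have h1 : ∀ y, ((univ.filter fun i => y ∈ (iv (I i) : Set ℤ)).card : ℝ) ^ 2
      = ∑ i, ∑ k, (if y ∈ iv (I i) ∧ y ∈ iv (I k) then (1 : ℝ) else 0) := by
    intro y
    have : ((univ.filter fun i => y ∈ (iv (I i) : Set ℤ)).card : ℝ)
        = ∑ i, (if y ∈ iv (I i) then (1 : ℝ) else 0) := by
      rw [Finset.card_filter]; push_cast; simp
    rw [this, sq, Finset.sum_mul_sum]
    refine Finset.sum_congr rfl fun i _ => Finset.sum_congr rfl fun k _ => ?_
    by_cases h : y ∈ iv (I i) <;> by_cases h' : y ∈ iv (I k) <;> simp [h, h']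
  have h2 : ∀ i k, ∑ y ∈ iv J, (if y ∈ iv (I i) ∧ y ∈ iv (I k) then (1 : ℝ) else 0)
      ≤ (if iv (I k) ⊆ iv (I i) then len (I k) else 0) +
        (if iv (I i) ⊆ iv (I k) then len (I i) else 0) := by
    intro i k
    have l0 : ∀ p : Nd, 0 ≤ len p := fun p => by unfold len; positivity
    rw [← Finset.sum_filter, Finset.sum_const, nsmul_eq_mul, mul_one]
    by_cases hne : ∃ y, y ∈ iv (I i) ∧ y ∈ iv (I k)
    · obtain ⟨y, hy1, hy2⟩ := hne
      rcases iv_nest hy1 hy2 with h | h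
      · have : (((iv J).filter fun y => y ∈ iv (I i) ∧ y ∈ iv (I k)).card : ℝ) ≤ len (I i) := by
          rw [← card_iv]
          exact_mod_cast Finset.card_le_card (fun z hz => by
            simp only [Finset.mem_filter] at hz; exact hz.2.1)
        rw [if_pos h]
        have h0 : 0 ≤ (if iv (I k) ⊆ iv (I i) then len (I k) else 0) := by split_ifs <;> simp [l0]
        linarith
      · have : (((iv J).filter fun y => y ∈ iv (I i) ∧ y ∈ iv (I k)).card : ℝ) ≤ len (I k) := by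
          rw [← card_iv]
          exact_mod_cast Finset.card_le_card (fun z hz => by
            simp only [Finset.mem_filter] at hz; exact hz.2.2)
        rw [if_pos h]
        have h0 : 0 ≤ (if iv (I i) ⊆ iv (I k) then len (I i) else 0) := by split_ifs <;> simp [l0]
        linarith
    · push Not at hne
      rw [Finset.filter_eq_empty_iff.2 fun y _ hy => hne y hy.1 hy.2]
      have h0 : 0 ≤ (if iv (I k) ⊆ iv (I i) then len (I k) else 0) := by split_ifs <;> simp [l0]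
      have h0' : 0 ≤ (if iv (I i) ⊆ iv (I k) then len (I i) else 0) := by split_ifs <;> simp [l0]
      simp only [Finset.card_empty, Nat.cast_zero]
      linarith
  calc ∑ y ∈ iv J, ((univ.filter fun i => y ∈ (iv (I i) : Set ℤ)).card : ℝ) ^ 2
      = ∑ i, ∑ k, ∑ y ∈ iv J, (if y ∈ iv (I i) ∧ y ∈ iv (I k) then (1 : ℝ) else 0) := by
        rw [Finset.sum_congr rfl fun y _ => h1 y, Finset.sum_comm]
        exact Finset.sum_congr rfl fun i _ => Finset.sum_comm
    _ ≤ ∑ i, ∑ k, ((if iv (I k) ⊆ iv (I i) then len (I k) else 0) +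
        (if iv (I i) ⊆ iv (I k) then len (I i) else 0)) :=
        Finset.sum_le_sum fun i _ => Finset.sum_le_sum fun k _ => h2 i k
    _ = 2 * ∑ i, ∑ k, (if iv (I k) ⊆ iv (I i) then len (I k) else 0) := by
        simp only [Finset.sum_add_distrib]
        rw [Finset.sum_comm (f := fun i k => if iv (I i) ⊆ iv (I k) then len (I i) else 0)]
        ring
    _ ≤ 2 * ∑ i, K * len (I i) := by
        refine mul_le_mul_of_nonneg_left (Finset.sum_le_sum fun i _ => ?_) (by norm_num)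
        rw [← Finset.sum_filter]
        exact hc i
    _ ≤ 2 * K ^ 2 * len J := by
        rw [← Finset.mul_sum]
        nlinarith [mul_le_mul_of_nonneg_left hc' hK]

open Classical in
/-- **(2), final form**: `r = 2 + κ`; letters `E i` supported on the window intervals, bounded by `M`,
total `L²` mass `≤ A * len J`; the average over the signs of `∑ ‖z θ‖^r` costs `M^(3κ) A^(1-κ) (2K²)^κ`. -/
theorem conv_norm {n : ℕ} (I : Fin n → Nd) (J : Nd) (K M κ A : ℝ) (hK : 0 ≤ K) (hM0 : 0 ≤ M)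
    (hκ0 : 0 ≤ κ) (hκ1 : κ ≤ 1) (hJ : ∀ i, iv (I i) ⊆ iv J)
    (hc : ∀ i, ∑ k ∈ univ.filter (fun k => iv (I k) ⊆ iv (I i)), len (I k) ≤ K * len (I i))
    (hc' : ∑ k, len (I k) ≤ K * len J)
    (E : Fin n → Fn) (hE : ∀ i y, y ∉ iv (I i) → E i y = 0) (hM : ∀ i y, ‖E i y‖ ≤ M)
    (hA : ∑ i, ∑ y ∈ iv (I i), ‖E i y‖ ^ 2 ≤ A * len J) :
    (1 / (2 : ℝ) ^ n) * ∑ θ : Sg (Fin n), ∑ y ∈ iv J, ‖zs E θ y‖ ^ (2 + κ)
      ≤ M ^ (3 * κ) * (A ^ (1 - κ) * (2 * K ^ 2) ^ κ) * len J := by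
  have hlen : 0 < len J := by unfold len; positivity
  have hA0 : 0 ≤ A := by
    have h0 : 0 ≤ ∑ i, ∑ y ∈ iv (I i), ‖E i y‖ ^ 2 := by positivity
    exact nonneg_of_mul_nonneg_left (h0.trans hA) hlen
  have h1 := avg_rpow (iv J) E (fun i => ((iv (I i) : Finset ℤ) : Set ℤ)) M κ (A * len J)
    (2 * K ^ 2 * len J) hM0 hκ0 hκ1 (fun i y => by
      by_cases h : y ∈ iv (I i)
      · simp only [Finset.mem_coe, h, if_true]; exact hM i y
      · simp only [Finset.mem_coe, h, if_false]; rw [hE i y h]; simp)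
    (by
      rw [Finset.sum_comm]
      refine le_trans (le_of_eq (Finset.sum_congr rfl fun i _ => ?_)) hA
      refine (Finset.sum_subset (hJ i) fun y _ hy => ?_).symm
      rw [hE i y hy]; simp)
    (count_sq I J K hK hc hc')
  rw [Fintype.card_fin] at h1
  have e1 : (A * len J) ^ (1 - κ) * (2 * K ^ 2 * len J) ^ κ
      = (A ^ (1 - κ) * (2 * K ^ 2) ^ κ) * len J := by
    rw [Real.mul_rpow hA0 hlen.le, Real.mul_rpow (by positivity) hlen.le]
    have : len J = len J ^ (1 - κ) * len J ^ κ := by rw [← Real.rpow_add hlen]; simp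
    calc A ^ (1 - κ) * len J ^ (1 - κ) * ((2 * K ^ 2) ^ κ * len J ^ κ)
        = (A ^ (1 - κ) * (2 * K ^ 2) ^ κ) * (len J ^ (1 - κ) * len J ^ κ) := by ring
      _ = _ := by rw [← this]
  rw [e1] at h1
  have h2 : (0 : ℝ) < 2 ^ n := by positivity
  rw [one_div, inv_mul_le_iff₀ h2]
  calc _ ≤ _ := h1
    _ = _ := by ring

end Crest.Agent.R079.TSign
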