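import Crest.Agent.R079.TWinD_649
import Crest.Agent.R079.TSignW_815

/-! R079, piece (0) of doc 2489 (helper649), part 5: the letters `E_w` of a window system in the format
of 815's conversion lemma. -/

set_option autoImplicit false

namespace Crest.Agent.R079.TWin649

open Finset Crest.Agent.R079.Grid Crest.Agent.R079.Glue Crest.Agent.R079.Growth
  Crest.Agent.R079.QRed Crest.Agent.R079.Qe292

open Classical in
/-- `E_w = f_leaf - f_top` on `iv K`, `0` elsewhere -/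
noncomputable def Ew (f : Nd → Fn) (W : Finset Nd) (K : Nd) : Fn :=
  fun y => if y ∈ iv K then gl W f y - f K y else 0

theorem Ew_of {f : Nd → Fn} {W : Finset Nd} {K : Nd} {y : ℤ} (hy : y ∈ iv K) :
    Ew f W K y = gl W f y - f K y := by
  unfold Ew; rw [if_pos hy]

theorem Ew_off {f : Nd → Fn} {W : Finset Nd} {K : Nd} {y : ℤ} (hy : y ∉ iv K) :
    Ew f W K y = 0 := by
  unfold Ew; rw [if_neg hy]

/-- splitting of a letter on a window: `F = ρ + f_top + E` on `iv K`, `ρ = F - gl` -/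
theorem split_w (F : Fn) (f : Nd → Fn) (W : Finset Nd) {K : Nd} {y : ℤ} (hy : y ∈ iv K) :
    F y = (F y - gl W f y) + f K y + Ew f W K y := by
  rw [Ew_of hy]; ring

theorem av_congr {p : Nd} {X Y : Fn} (h : ∀ y ∈ iv p, X y = Y y) : av p X = av p Y := by
  unfold av av2
  congr 2
  refine Finset.sum_congr rfl fun y hy => ?_
  rw [h y hy]

theorem av_Ew {f : Nd → Fn} {W : Finset Nd} {K : Nd} {p : Nd} (hp : iv p ⊆ iv K) :
    av p (Ew f W K) = av p (fun y => gl W f y - f K y) :=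
  av_congr fun _ hy => Ew_of (hp hy)

/-- sup bound of the glued function -/
theorem gl_sup {f : Nd → Fn} {W : Finset Nd} {K : Nd} (hW : Full W K) {M : ℝ}
    (hM : ∀ p ∈ W, ∀ y ∈ iv p, ‖f p y‖ ≤ M) : ∀ y ∈ iv K, ‖gl W f y‖ ≤ M := by
  intro y hy
  obtain ⟨L, hL, _, hyL, _⟩ := (Qh249.qh W K hW K hW.top).2 y hy
  rw [gl_eq f hL hyL]
  exact hM L (lf_sub hL) y hyL

theorem Ew_sup {f : Nd → Fn} {W : Finset Nd} {K : Nd} (hW : Full W K) {M : ℝ} (hM0 : 0 ≤ M)
    (hM : ∀ p ∈ W, ∀ y ∈ iv p, ‖f p y‖ ≤ M) (y : ℤ) : ‖Ew f W K y‖ ≤ 2 * M := by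
  by_cases hy : y ∈ iv K
  · rw [Ew_of hy]
    have h1 := gl_sup hW hM y hy
    have h2 := hM K hW.top y hy
    exact (norm_sub_le _ _).trans (by linarith)
  · rw [Ew_off hy, norm_zero]
    linarith

section letters

variable {ι : Type*} [Fintype ι] {D : ι → Dict} {η : ℝ} {G : ι → Fn} {f : ι → Nd → Fn}
  {t : ι → Nd → ℝ}

/-- sup bound of the near-minimisers: prices `≥ m`, local norms `≤ 1` -/
theorem Data.sup (h : Data D η G f t) {i : ι} {p : Nd} {m : ℝ} (hm : 0 < m)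
    (hw : ∀ φ w, (D i).at' φ w → m ≤ w) (hG : av p (G i) ≤ 1) :
    ∀ y ∈ iv p, ‖f i p y‖ ≤ (1 + 2 * η) / (2 * m) := by
  intro y hy
  refine (rp_sup hm hw ((h.near i).rep p) y hy).trans ?_
  have h1 := (h.near i).t_le p
  have h2 : av p (G i) ^ 2 ≤ 1 := pow_le_one₀ (Real.sqrt_nonneg _) hG
  rw [div_le_div_iff₀ hm (by positivity)]
  nlinarith

open Classical in
/-- local size of `E_w` at the nodes of the window -/
theorem Ew_loc {W : Finset Nd} {K : Nd} {δ : ℝ} (hW : Full W K) (hd : ∀ p ∈ W, dv f K p ≤ δ)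
    (i : ι) {p : Nd} (hp : p ∈ W) : av p (Ew (f i) W K) ^ 2 ≤ δ := by
  rw [av_Ew (hW.reg.1 p hp)]
  refine le_trans ?_ (dv_gl hW hd hp)
  exact Finset.single_le_sum (f := fun i => av p (fun y => gl W (f i) y - f i K y) ^ 2)
    (fun i _ => sq_nonneg _) (Finset.mem_univ i)

open Classical in
/-- **815's conversion norm for the windows of one letter** -/
theorem conv_windows {R : Finset Nd} {J : Nd} (hR : Full R J)
    {S : Finset Nd} {W : Nd → Finset Nd} {K₀ A M κ : ℝ} (hS : Sysw R S W K₀)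
    (hen : ∑ K ∈ S, en f (W K) K ≤ len J * A) (hM0 : 0 ≤ M)
    (i : ι) (hM : ∀ p ∈ R, ∀ y ∈ iv p, ‖f i p y‖ ≤ M) (hκ0 : 0 ≤ κ) (hκ1 : κ ≤ 1) :
    (1 / (2 : ℝ) ^ S.card) * ∑ θ : TSign.Sg (Fin S.card), ∑ y ∈ iv J,
        ‖TSign.zs (fun k : Fin S.card => Ew (f i) (W (S.equivFin.symm k)) (S.equivFin.symm k)) θ y‖
          ^ (2 + κ)
      ≤ (2 * M) ^ (3 * κ) * (A ^ (1 - κ) * (2 * K₀ ^ 2) ^ κ) * len J := by
  have hcntJ := hS.cnt J hR.top
  have hJall : S.filter (fun K => iv K ⊆ iv J) = S :=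
    Finset.filter_true_of_mem fun K hK => hR.reg.1 K (hS.sub hK)
  have hK0 : 0 ≤ K₀ := by
    have h1 : 0 ≤ ∑ K ∈ S.filter (fun K => iv K ⊆ iv J), len K :=
      Finset.sum_nonneg fun K _ => (Growth.len_pos K).le
    exact nonneg_of_mul_nonneg_left (h1.trans hcntJ) (Growth.len_pos J)
  have hsum : ∀ X : Nd → ℝ, ∑ k : Fin S.card, X (S.equivFin.symm k : Nd) = ∑ K ∈ S, X K := by
    intro X
    rw [← Finset.sum_coe_sort S X]
    exact Equiv.sum_comp S.equivFin.symm (fun K : S => X (K : Nd))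
  have hsumf : ∀ (X : Nd → ℝ) (P : Nd → Prop),
      ∑ k ∈ Finset.univ.filter (fun k : Fin S.card => P (S.equivFin.symm k : Nd)),
        X (S.equivFin.symm k : Nd) = ∑ K ∈ S.filter P, X K := by
    intro X P
    rw [Finset.sum_filter, Finset.sum_filter]
    exact hsum fun K => if P K then X K else 0
  refine TSign.conv_norm (fun k => (S.equivFin.symm k : Nd)) J K₀ (2 * M) κ A hK0 (by linarith)
    hκ0 hκ1 ?_ ?_ ?_ _ ?_ ?_ ?_
  · exact fun k => hR.reg.1 _ (hS.sub (S.equivFin.symm k).2)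
  · intro k
    have h3 := hS.cnt _ (hS.sub (S.equivFin.symm k).2)
    refine le_trans (le_of_eq ?_) h3
    have e := hsumf len (fun K => iv K ⊆ iv (S.equivFin.symm k : Nd))
    refine Eq.trans (Finset.sum_congr ?_ fun _ _ => rfl) (e.trans
      (Finset.sum_congr ?_ fun _ _ => rfl))
    · ext x; simp
    · ext x; simp
  · rw [hsum len]
    rw [hJall] at hcntJ
    exact hcntJ
  · exact fun k y hy => Ew_off hy
  · intro k y
    have hK := (S.equivFin.symm k).2
    exact Ew_sup (hS.full _ hK) hM0 (fun p hp => hM p (hS.wsub _ hK hp)) y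
  · have h1 : ∀ K ∈ S, ∑ y ∈ iv K, ‖Ew (f i) (W K) K y‖ ^ 2 ≤ en f (W K) K := by
      intro K hK
      rw [sum_av, av_Ew subset_rfl]
      unfold en
      refine mul_le_mul_of_nonneg_left ?_ (Growth.len_pos K).le
      exact Finset.single_le_sum
        (f := fun i => av K (fun y => gl (W K) (f i) y - f i K y) ^ 2)
        (fun i _ => sq_nonneg _) (Finset.mem_univ i)
    rw [hsum fun K => ∑ y ∈ iv K, ‖Ew (f i) (W K) K y‖ ^ 2]
    refine (Finset.sum_le_sum h1).trans ?_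
    linarith

end letters

end Crest.Agent.R079.TWin649
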