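import Crest.Agent.R079.TDef_853
import Crest.Agent.R079.TWinE_649

/-! R079, [T1] of `TDef_853` (helper649): common windows of four static letters.

`winLem_of` : the statement `WinLem` for dictionaries closed under conjugation. -/

set_option autoImplicit false

namespace Crest.Agent.R079.TWL649

open Finset Crest.Agent.R079.Grid Crest.Agent.R079.Glue Crest.Agent.R079.Growth
  Crest.Agent.R079.QRed Crest.Agent.R079.Qe292 Crest.Agent.R079.TWin649

/-- power means -/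
theorem av_le_aq {q : ℝ} (hq : 2 ≤ q) (p : Nd) (f : Fn) : av p f ≤ TRec.aq q p f := by
  have hl := Growth.len_pos p
  have hq0 : 0 < q := by linarith
  have h0 : 0 ≤ TRec.aq q p f := Lq853.avq_nonneg _ _ _ _
  have ha0 : 0 ≤ av p f := Real.sqrt_nonneg _
  have h1 : TRec.aq q p f ^ q = (1 / len p) * ∑ y ∈ iv p, ‖f y‖ ^ q := by
    unfold TRec.aq Lq853.avq len iv
    rw [← Real.rpow_mul (mul_nonneg (by positivity)
      (Finset.sum_nonneg fun y _ => Real.rpow_nonneg (norm_nonneg _) _)),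
      one_div_mul_cancel hq0.ne', Real.rpow_one]
  have h2 : (av p f ^ 2) ^ (q / 2) ≤ TRec.aq q p f ^ q := by
    rw [h1, QVar181.av_sq]
    have h := Real.rpow_arith_mean_le_arith_mean_rpow (iv p) (fun _ => 1 / len p)
      (fun y => ‖f y‖ ^ 2) (fun _ _ => by positivity) ?_ (fun y _ => by positivity)
      (p := q / 2) (by linarith)
    · rw [← Finset.mul_sum, ← Finset.mul_sum] at h
      refine h.trans (le_of_eq ?_)
      congr 1
      refine Finset.sum_congr rfl fun y _ => ?_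
      rw [← Real.rpow_natCast, ← Real.rpow_mul (norm_nonneg _)]
      congr 1
      push_cast
      ring
    · rw [Finset.sum_const, nsmul_eq_mul, card_iv]
      field_simp
  have h3 : (av p f ^ 2) ^ (q / 2) = av p f ^ q := by
    rw [← Real.rpow_natCast, ← Real.rpow_mul ha0]
    congr 1
    push_cast
    ring
  rw [h3] at h2
  exact (Real.rpow_le_rpow_iff ha0 h0 hq0).1 h2

theorem sx_nonneg {sg : ℝ} (h : 0 ≤ sg) (j : Fin 4) : 0 ≤ TRec.sx sg j := by
  unfold TRec.sx; split_ifs <;> linarith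

theorem sx_le_one {sg : ℝ} (h : sg ≤ 1) (j : Fin 4) : TRec.sx sg j ≤ 1 := by
  unfold TRec.sx; split_ifs <;> linarith

theorem av_two (p : Nd) (X Y : Fn) :
    av p X ^ 2 ≤ 2 * av p (fun y => X y - Y y) ^ 2 + 2 * av p Y ^ 2 := by
  have hl := Growth.len_pos p
  rw [QVar181.av_sq, QVar181.av_sq, QVar181.av_sq]
  have h : ∑ y ∈ iv p, ‖X y‖ ^ 2 ≤ 2 * ∑ y ∈ iv p, ‖X y - Y y‖ ^ 2 + 2 * ∑ y ∈ iv p, ‖Y y‖ ^ 2 := by
    rw [Finset.mul_sum, Finset.mul_sum, ← Finset.sum_add_distrib]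
    refine Finset.sum_le_sum fun y _ => ?_
    have h1 : ‖X y‖ ≤ ‖X y - Y y‖ + ‖Y y‖ := by
      have := norm_add_le (X y - Y y) (Y y)
      rwa [sub_add_cancel] at this
    nlinarith [norm_nonneg (X y), norm_nonneg (X y - Y y), norm_nonneg (Y y),
      sq_nonneg (‖X y - Y y‖ - ‖Y y‖)]
  have h2 := mul_le_mul_of_nonneg_left h (by positivity : 0 ≤ 1 / len p)
  linarith

/-- closed under conjugation -/
def CC (D : TRec.Dict) : Prop :=
  ∀ j t, ∀ φ ∈ D j t, (fun y => (starRingEnd ℂ) (φ y)) ∈ D j t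

section dict

variable {D : TRec.Dict} {sg : ℝ} (hD : TRec.Dic D sg) (hc : CC D) (j : Fin 4) {t : ℝ}
  (ht : 0 < t) (ht1 : t ≤ 1)

/-- 853's dictionary as a priced dictionary: atoms `t^sx φ` of price `t^sx` -/
noncomputable def dic : TWin649.Dict where
  at' φ w := w = t ^ TRec.sx sg j ∧ ∃ ψ ∈ D j t, φ = fun y => ((w : ℝ) : ℂ) * ψ y
  conj φ w h := by
    obtain ⟨h1, ψ, hψ, rfl⟩ := h
    exact ⟨h1, _, hc j t ψ hψ, funext fun y => by rw [map_mul, Complex.conj_ofReal]⟩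
  bd φ w h y := by
    obtain ⟨h1, ψ, hψ, rfl⟩ := h
    have hw : 0 ≤ w := h1 ▸ Real.rpow_nonneg ht.le _
    rw [norm_mul, Complex.norm_real, Real.norm_of_nonneg hw]
    calc w * ‖ψ y‖ ≤ w * t ^ (-(TRec.sx sg j)) :=
          mul_le_mul_of_nonneg_left (hD.sup j t ht ht1 ψ hψ y) hw
      _ = 1 := by rw [h1, ← Real.rpow_add ht, add_neg_cancel, Real.rpow_zero]
  pos φ w h := h.1 ▸ Real.rpow_pos_of_pos ht _

variable {hD hc j ht ht1}

theorem fz_of {p : Nd} {f : Fn} {τ M : ℝ} (h : Rp (dic hD hc j ht ht1) p f τ) (hM : τ ≤ M) :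
    TRec.Fz D j t M p f := by
  obtain ⟨n, φ, w, c, ha, hf, ht'⟩ := h
  have ha' : ∀ i, w i = t ^ TRec.sx sg j ∧ ∃ ψ ∈ D j t, φ i = fun y => ((w i : ℝ) : ℂ) * ψ y := ha
  choose hw ψ hψ hφ using ha'
  refine ⟨n, ψ, fun i => c i * ((w i : ℝ) : ℂ), hψ, ?_, ?_⟩
  · intro y hy
    rw [hf y hy]
    refine Finset.sum_congr rfl fun i _ => ?_
    rw [hφ i]
    ring
  · refine le_trans (le_of_eq ?_) (ht'.trans hM)
    refine Finset.sum_congr rfl fun i _ => ?_
    have : 0 ≤ w i := by rw [hw i]; exact Real.rpow_nonneg ht.le _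
    rw [norm_mul, Complex.norm_real, Real.norm_of_nonneg this]

theorem lv_of {p : Nd} {g : Fn} {e : ℝ} (h : Lv (dic hD hc j ht ht1) p g e)
    (he : e ≤ t ^ TRec.sx sg j) : TRec.Lv D j t 2 p g := by
  intro ψ hψ
  have hw : 0 < t ^ TRec.sx sg j := Real.rpow_pos_of_pos ht _
  have h1 := h (fun y => ((t ^ TRec.sx sg j : ℝ) : ℂ) * ψ y) (t ^ TRec.sx sg j)
    ⟨rfl, ψ, hψ, rfl⟩
  have e1 : ∑ y ∈ iv p, g y * (((t ^ TRec.sx sg j : ℝ) : ℂ) * ψ y)
      = ((t ^ TRec.sx sg j : ℝ) : ℂ) * ∑ y ∈ iv p, g y * ψ y := by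
    rw [Finset.mul_sum]
    exact Finset.sum_congr rfl fun y _ => by ring
  rw [e1, norm_mul, Complex.norm_real, Real.norm_of_nonneg hw.le] at h1
  have h2 : (t ^ TRec.sx sg j + e) * len p ≤ t ^ TRec.sx sg j * (2 * len p) := by
    have := mul_le_mul_of_nonneg_right he (Growth.len_pos p).le
    linarith
  exact le_of_mul_le_mul_left (h1.trans h2) hw

theorem price (φ : Fn) (w : ℝ) (h : (dic hD hc j ht ht1).at' φ w) : t ^ TRec.sx sg j ≤ w :=
  le_of_eq h.1.symm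

end dict

/-- the window of a node between -/
theorem win_eq {R : Finset Nd} {S : Finset Nd} {W : Nd → Finset Nd}
    {A : ℝ} (hS : Sysw R S W A) {K K' p q : Nd} (hK : K ∈ S) (hK' : K' ∈ S) (hp : p ∈ W K)
    (hpq : iv p ⊆ iv q) (hq : iv q ⊆ iv K) (hq' : q ∈ W K') : K = K' := by
  have h1 : q ∈ W K := (hS.full K hK).reg.2 p hp q hpq hq
  by_contra hne
  exact Finset.disjoint_left.1 (hS.disj K hK K' hK' hne) h1 hq'

theorem iv_child (m : ℕ) (l c : ℤ) (hc : c / 2 = l) : iv (m, c) ⊆ iv (m + 1, l) :=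
  iv_sub_iff.2 ⟨1, by rw [pow_one, hc]⟩

/-- a node strictly above a child contains the parent -/
theorem above_child {m : ℕ} {l c : ℤ} (hc : c / 2 = l) {K : Nd} (h : iv (m, c) ⊆ iv K)
    (hne : K ≠ (m, c)) : iv (m + 1, l) ⊆ iv K := by
  obtain ⟨i, hi⟩ := iv_sub_iff.1 h
  cases i with
  | zero => exact absurd (by rw [hi]; simp) hne
  | succ i =>
    refine iv_sub_iff.2 ⟨i, ?_⟩
    rw [hi, ← hc]
    refine Prod.ext ?_ ?_
    · simp only
      omega
    · simp only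
      have := L0e.ediv_pow_pow c 1 i
      rw [pow_one] at this
      rw [this, Nat.add_comm]

theorem not_sub_child {m : ℕ} {l c : ℤ} : ¬ iv (m + 1, l) ⊆ iv (m, c) := by
  intro h
  obtain ⟨i, hi⟩ := iv_sub_iff.1 h
  have := congrArg Prod.fst hi
  simp only at this
  omega

theorem sib_half {R : Finset Nd} {J : Nd} (hR : Full R J) {S : Finset Nd} {W : Nd → Finset Nd}
    {A : ℝ} (hS : Sysw R S W A) {m : ℕ} {l c c' : ℤ} (hP : (m + 1, l) ∈ R) (hc : c / 2 = l)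
    (hc' : c' / 2 = l) (hb : ∀ (V : Finset Nd) (I : Nd), Full V I → (m + 1, l) ∈ V →
      ((m, c) ∈ V ↔ (m, c') ∈ V)) (hK : (m, c) ∈ S) : (m, c') ∈ S := by
  have hcR : (m, c') ∈ R := (hb R J hR hP).1 (hS.sub hK)
  obtain ⟨K₀, hK₀, hPK₀⟩ := hS.cover _ hP
  obtain ⟨K₁, hK₁, hcK₁⟩ := hS.cover _ hcR
  by_cases hne : K₁ = (m, c')
  · rw [← hne]; exact hK₁
  · exfalso
    have h1 : iv (m + 1, l) ⊆ iv K₁ :=
      above_child hc' ((hS.full K₁ hK₁).reg.1 _ hcK₁) hne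
    have h2 : K₁ = K₀ := win_eq hS hK₁ hK₀ hcK₁ (iv_child m l c' hc') h1 hPK₀
    rw [h2] at hcK₁
    have h3 : (m, c) ∈ W K₀ := (hb (W K₀) K₀ (hS.full K₀ hK₀) hPK₀).2 hcK₁
    have h4 : (m, c) = K₀ := by
      by_contra h5
      exact Finset.disjoint_left.1 (hS.disj _ hK _ hK₀ h5) (hS.full _ hK).top h3
    have h6 := (hS.full K₀ hK₀).reg.1 _ hPK₀
    rw [← h4] at h6
    exact not_sub_child h6

theorem tops_of {R : Finset Nd} {J : Nd} (hR : Full R J) {S : Finset Nd} {W : Nd → Finset Nd}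
    {A : ℝ} (hS : Sysw R S W A) (hJ : J ∈ S) : TRec.Tops R J S where
  sub := hS.sub
  top := hJ
  sib m l hP := by
    have h1 : (2 * l) / 2 = l := by omega
    have h2 : (2 * l + 1) / 2 = l := by omega
    exact ⟨sib_half hR hS hP h1 h2 fun V I hV h => hV.bin m l h,
      sib_half hR hS hP h2 h1 fun V I hV h => (hV.bin m l h).symm⟩

/-- the window top of `p` is the owner -/
theorem wn_eq {R : Finset Nd} {S : Finset Nd} {W : Nd → Finset Nd}
    {A : ℝ} (hS : Sysw R S W A) {K p I : Nd} (hK : K ∈ S) (hp : p ∈ W K) (hI : TRec.Wn S I p) :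
    K = I := by
  have h1 := (hS.full K hK).reg.1 p hp
  exact win_eq hS hK hI.1 hp hI.2.1 (hI.2.2 K hK h1) (hS.full I hI.1).top

/-- **[T1]** -/
theorem winLem_of : ∃ C : ℝ, 1 ≤ C ∧ ∀ (D : TRec.Dict) (k q3 sg c1 : ℝ), TRec.Dic D sg → CC D →
    0 < k → k < 1 → 2 < q3 → 0 ≤ sg →
    sg ≤ 1 → 0 < c1 → c1 ≤ 1 → ∀ R J, Full R J → ∀ G : Fin 4 → Fn, TRec.nrm k q3 R G →
    ∀ t, 0 < t → t ≤ 1 → ∃ (T : Finset Nd) (H E : Fin 4 → Nd → Fn),
      ∀ j, TRec.WRd D k q3 sg c1 C j t R J T (G j) (H j) (E j)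
        (fun p y => G j y - H j p y - E j p y) := by
  classical
  refine ⟨100, by norm_num, ?_⟩
  intro D k q3 sg c1 hD hc hk0 hk1 hq3 hsg0 hsg1 hc10 hc11 R J hR G hG t ht ht1
  have hloc : ∀ j, ∀ p ∈ R, av p (G j) ≤ 1 := by
    intro j p hp
    refine (av_le_aq ?_ p (G j)).trans (hG j p hp)
    unfold TRec.qx
    split_ifs <;> linarith
  -- parameters
  have hδ0 : 0 < t ^ c1 := Real.rpow_pos_of_pos ht _
  have hδ1 : t ^ c1 ≤ 1 := Real.rpow_le_one ht.le ht1 hc10.le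
  set δ : ℝ := t ^ c1 with hδ
  set η : ℝ := t ^ 2 * δ / 64 with hη
  have ht2 : 0 < t ^ 2 := by positivity
  have ht21 : t ^ 2 ≤ 1 := pow_le_one₀ ht.le ht1
  have hη0 : 0 < η := by positivity
  have hη2 : η ≤ t ^ 2 := by
    rw [hη]
    have : t ^ 2 * δ ≤ t ^ 2 * 1 := mul_le_mul_of_nonneg_left hδ1 ht2.le
    linarith
  have hηh : η ≤ 1 / 64 := by
    rw [hη]
    have : t ^ 2 * δ ≤ 1 := mul_le_one₀ ht21 hδ0.le hδ1
    linarith
  have hηδ : 16 * (Fintype.card (Fin 4) : ℝ) * η ≤ δ := by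
    rw [hη, Fintype.card_fin]
    push_cast
    have : t ^ 2 * δ ≤ 1 * δ := mul_le_mul_of_nonneg_right ht21 hδ0.le
    linarith
  have hsq : ∀ j, Real.sqrt η ≤ t ^ TRec.sx sg j := by
    intro j
    have h1 : Real.sqrt η ≤ t := (Real.sqrt_le_left ht.le).2 hη2
    refine h1.trans ?_
    have := Real.rpow_le_rpow_of_exponent_ge ht ht1 (sx_le_one hsg1 j)
    rwa [Real.rpow_one] at this
  obtain ⟨f, τ, hdat⟩ := exists_Data (fun j : Fin 4 => dic hD hc j ht ht1) hη0 G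
  obtain ⟨S, W, hS, hJS, hdv, hen⟩ := exists_windows hdat hR hloc hδ0 hη0.le (by linarith) hηδ
  have hex : ∀ p : Nd, ∃ K : Nd, p ∈ R → K ∈ S ∧ p ∈ W K := by
    intro p
    by_cases hp : p ∈ R
    · obtain ⟨K, hK, hpK⟩ := hS.cover p hp
      exact ⟨K, fun _ => ⟨hK, hpK⟩⟩
    · exact ⟨p, fun h => absurd h hp⟩
  choose o ho using hex
  have hoI : ∀ p ∈ R, ∀ I, TRec.Wn S I p → o p = I := fun p hp I hI =>
    wn_eq hS (ho p hp).1 (ho p hp).2 hI
  have hoS : ∀ I ∈ S, o I = I := fun I hI =>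
    wn_eq hS (ho I (hS.sub hI)).1 (ho I (hS.sub hI)).2
      ⟨hI, subset_rfl, fun I' _ h => h⟩
  have hsub : ∀ p ∈ R, iv p ⊆ iv (o p) := fun p hp =>
    (hS.full _ (ho p hp).1).reg.1 p (ho p hp).2
  -- sup bound of the near-minimisers
  have htm : ∀ j, t ^ (-(TRec.sx sg j)) = 1 / t ^ TRec.sx sg j := fun j => by
    rw [Real.rpow_neg ht.le, one_div]
  have hsup : ∀ j, ∀ p ∈ R, ∀ y ∈ iv p, ‖f j p y‖ ≤ t ^ (-(TRec.sx sg j)) := by
    intro j p hp y hy
    have hw : 0 < t ^ TRec.sx sg j := Real.rpow_pos_of_pos ht _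
    refine (hdat.sup hw (price) (hloc j p hp) y hy).trans ?_
    rw [htm j, div_le_div_iff₀ (by positivity) hw]
    nlinarith
  have hmass : ∀ j, ∀ p ∈ R, τ j p ≤ 1 := by
    intro j p hp
    have h1 := (hdat.near j).t_le p
    have h2 : av p (G j) ^ 2 ≤ 1 := pow_le_one₀ (Real.sqrt_nonneg _) (hloc j p hp)
    linarith
  have hsup0 : ∀ j, 0 ≤ t ^ (-(TRec.sx sg j)) := fun j => Real.rpow_nonneg ht.le _
  have hdvi : ∀ j, ∀ p ∈ R, av p (fun y => f j (o p) y - f j p y) ^ 2 ≤ δ := by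
    intro j p hp
    refine le_trans ?_ (hdv (o p) (ho p hp).1 p (ho p hp).2)
    unfold dv
    exact Finset.single_le_sum (f := fun i => av p (fun y => f i (o p) y - f i p y) ^ 2)
      (fun i _ => sq_nonneg _) (Finset.mem_univ j)
  have hδh : δ ^ (1 / 2 : ℝ) = t ^ (c1 / 2) := by
    rw [hδ, ← Real.rpow_mul ht.le]
    congr 1
    ring
  refine ⟨S, fun j p => f j (o p), fun j p => Ew (f j) (W (o p)) (o p), fun j => ?_⟩
  refine ⟨tops_of hR hS hJS, ?_, ?_, fun _ _ _ => rfl, hG j, ?_, ?_, ?_, ?_, ?_, ?_, ?_, ?_⟩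
  · -- adH
    intro p hp I hI
    show f j (o p) = f j (o I)
    rw [hoI p hp I hI, hoS I hI.1]
  · intro p hp I hI
    show Ew (f j) (W (o p)) (o p) = Ew (f j) (W (o I)) (o I)
    rw [hoI p hp I hI, hoS I hI.1]
  · -- level
    intro p hp φ hφ
    have hK := (ho p hp).1
    have h1 : Lv (dic hD hc j ht ht1) p (fun y => G j y - gl (W (o p)) (f j) y) (Real.sqrt η) :=
      lv_gl (hS.full _ hK) (hdat.near j).lev (ho p hp).2
    have h2 := lv_of h1 (hsq j) φ hφ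
    have h3 : ∑ y ∈ iv p, (G j y - f j (o p) y - Ew (f j) (W (o p)) (o p) y) * φ y
        = ∑ y ∈ iv p, (G j y - gl (W (o p)) (f j) y) * φ y := by
      refine Finset.sum_congr rfl fun y hy => ?_
      rw [Ew_of (hsub p hp hy)]
      ring
    rw [h3]
    refine h2.trans (mul_le_mul_of_nonneg_right (by norm_num) (Growth.len_pos p).le)
  · -- frozen
    intro p hp
    refine fz_of (rp_mono (hsub p hp) ((hdat.near j).rep (o p))) ?_
    linarith [hmass j (o p) (hS.sub (ho p hp).1)]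
  · -- local norm of H
    intro p hp
    have h1 := av_two p (f j (o p)) (f j p)
    have h2 := (hdat.near j).av_le p
    have h3 : av p (G j) ^ 2 ≤ 1 := pow_le_one₀ (Real.sqrt_nonneg _) (hloc j p hp)
    have h4 := hdvi j p hp
    have h5 : 0 ≤ av p (f j (o p)) := Real.sqrt_nonneg _
    show av p (f j (o p)) ≤ 100
    nlinarith
  · -- local norm of E
    intro p hp
    have h1 := Ew_loc (hS.full _ (ho p hp).1) (hdv (o p) (ho p hp).1) j (ho p hp).2
    have h2 : 0 ≤ t ^ (c1 / 2) := Real.rpow_nonneg ht.le _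
    have h3 : (t ^ (c1 / 2)) ^ 2 = δ := by
      rw [← Real.rpow_natCast, ← Real.rpow_mul ht.le, hδ]
      congr 1
      push_cast
      ring
    rw [← h3] at h1
    have h4 := abs_le_of_sq_le_sq h1 h2
    show av p (Ew (f j) (W (o p)) (o p)) ≤ 100 * t ^ (c1 / 2)
    have h5 : av p (Ew (f j) (W (o p)) (o p)) ≤ t ^ (c1 / 2) := (le_abs_self _).trans h4
    linarith
  · intro p hp y hy
    refine (hsup j (o p) (hS.sub (ho p hp).1) y (hsub p hp hy)).trans ?_
    linarith [hsup0 j]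
  · intro p hp y hy
    have h1 := Ew_sup (hS.full _ (ho p hp).1) (hsup0 j)
      (fun q hq => hsup j q (hS.wsub _ (ho p hp).1 hq)) y
    refine h1.trans ?_
    linarith [hsup0 j]
  · -- count
    intro p hp
    have h1 := hS.cnt p hp
    refine le_trans (Finset.sum_le_sum_of_subset_of_nonneg ?_ fun I _ _ =>
      (Growth.len_pos I).le) (h1.trans ?_)
    · intro I hI
      rw [Finset.mem_filter] at hI ⊢
      exact ⟨hI.1, hI.2.1⟩
    · refine mul_le_mul_of_nonneg_right ?_ (Growth.len_pos p).le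
      rw [Real.rpow_neg ht.le, Fintype.card_fin, ← hδ]
      push_cast
      have h2 : 1 ≤ δ⁻¹ := (one_le_inv₀ hδ0).2 hδ1
      rw [div_eq_mul_inv]
      linarith
  · -- squares
    intro p hp
    have h1 := hen p hp
    refine le_trans (le_trans (Finset.sum_le_sum fun I hI => ?_)
      (Finset.sum_le_sum_of_subset_of_nonneg (f := fun K => en f (W K) K)
        (t := S.filter fun K => iv K ⊆ iv p) ?_ fun I _ _ => en_nonneg f (W I) I)) (h1.trans ?_)
    · have hIS : I ∈ S := (Finset.mem_filter.1 hI).1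
      show ∑ y ∈ iv I, ‖Ew (f j) (W (o I)) (o I) y‖ ^ 2 ≤ en f (W I) I
      rw [hoS I hIS, sum_av, av_Ew subset_rfl]
      unfold en
      refine mul_le_mul_of_nonneg_left ?_ (Growth.len_pos I).le
      exact Finset.single_le_sum
        (f := fun i => av I (fun y => gl (W I) (f i) y - f i I y) ^ 2)
        (fun i _ => sq_nonneg _) (Finset.mem_univ j)
    · intro I hI
      rw [Finset.mem_filter] at hI ⊢
      exact ⟨hI.1, hI.2.1⟩
    · rw [Fintype.card_fin, mul_comm]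
      refine mul_le_mul_of_nonneg_right ?_ (Growth.len_pos p).le
      push_cast
      linarith

/-- **[T1] WINDOWS** (literal of `TDef_853`) -/
theorem winLem : TRec.WinLem := by
  obtain ⟨C, hC, h⟩ := winLem_of
  exact ⟨C, hC, fun D k q3 sg c1 hD hk0 hk1 hq3 hs0 hs1 hc0 hc1 =>
    h D k q3 sg c1 hD hD.conj hk0 hk1 hq3 hs0 hs1 hc0 hc1⟩

end Crest.Agent.R079.TWL649
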