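import Crest.Agent.R079.TWinE_649
import Crest.Agent.R079.TWL_649

/-! R079 (helper623): LASSO of static letters with NODE-DEPENDENT super-averaging prices and an `L¹`
part (internal tool for `RuleA2`, text of helper540, msg 28030).  Generalises `TWin_649 .. TWinD_649`. -/

set_option autoImplicit false

namespace Crest.Agent.R079.GLas623

open Finset Crest.Agent.R079.Grid Crest.Agent.R079.Glue Crest.Agent.R079.Growth
  Crest.Agent.R079.QRed Crest.Agent.R079.Qe292 Crest.Agent.R079.TWin649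

/-- node dependent priced dictionary: atoms `φ` with price function `w : Nd → ℝ`, super-averaging -/
structure NDict where
  at' : Fn → (Nd → ℝ) → Prop
  conj : ∀ φ w, at' φ w → at' (fun y => (starRingEnd ℂ) (φ y)) w
  pos : ∀ φ w, at' φ w → ∀ p, 0 ≤ w p
  avg : ∀ φ w, at' φ w → ∀ W I, Full W I → ∀ p ∈ W, ∑ L ∈ lb W p, len L * w L ≤ len p * w p

/-- `L¹` average -/
noncomputable def av1 (p : Nd) (T : Fn) : ℝ := (1 / len p) * ∑ y ∈ iv p, ‖T y‖

theorem av1_nonneg (p : Nd) (T : Fn) : 0 ≤ av1 p T :=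
  mul_nonneg (one_div_nonneg.2 (Growth.len_pos p).le) (Finset.sum_nonneg fun _ _ => norm_nonneg _)

theorem av1_lb {W : Finset Nd} {I : Nd} (hW : Full W I) (T : Fn) {p : Nd} (hp : p ∈ W) :
    ∑ L ∈ lb W p, len L * av1 L T = len p * av1 p T := by
  have e : ∀ q : Nd, len q * av1 q T = ∑ y ∈ iv q, ‖T y‖ := by
    intro q
    unfold av1
    rw [← mul_assoc, mul_one_div_cancel (Growth.len_pos q).ne', one_mul]
  rw [e p, sum_lb hW hp]
  exact Finset.sum_congr rfl fun L _ => e L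

/-- a combination of atoms plus an arbitrary letter `T` -/
structure Rep (D : NDict) where
  n : ℕ
  φ : Fin n → Fn
  w : Fin n → Nd → ℝ
  c : Fin n → ℂ
  T : Fn
  mem : ∀ i, D.at' (φ i) (w i)

/-- the function -/
noncomputable def Rep.fn {D : NDict} (r : Rep D) : Fn := fun y => ∑ i, r.c i * r.φ i y + r.T y

/-- the price at a node -/
noncomputable def Rep.pr {D : NDict} (Λ : ℝ) (r : Rep D) (q : Nd) : ℝ :=
  ∑ i, ‖r.c i‖ * r.w i q + Λ * av1 q r.T

section rep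

variable {D : NDict} {Λ : ℝ}

theorem Rep.pr_nonneg (hΛ : 0 ≤ Λ) (r : Rep D) (q : Nd) : 0 ≤ r.pr Λ q :=
  add_nonneg (Finset.sum_nonneg fun i _ => mul_nonneg (norm_nonneg _) (D.pos _ _ (r.mem i) q))
    (mul_nonneg hΛ (av1_nonneg q r.T))

/-- super-averaging of the price of one representation -/
theorem Rep.pr_lb (r : Rep D) {W : Finset Nd} {I : Nd} (hW : Full W I) {p : Nd}
    (hp : p ∈ W) : ∑ L ∈ lb W p, len L * r.pr Λ L ≤ len p * r.pr Λ p := by
  unfold Rep.pr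
  simp only [mul_add, Finset.sum_add_distrib]
  refine add_le_add ?_ (le_of_eq ?_)
  · have e : ∀ L, len L * ∑ i, ‖r.c i‖ * r.w i L = ∑ i, ‖r.c i‖ * (len L * r.w i L) := by
      intro L
      rw [Finset.mul_sum]
      exact Finset.sum_congr rfl fun i _ => by ring
    rw [Finset.sum_congr rfl fun L _ => e L, Finset.sum_comm, e p]
    refine Finset.sum_le_sum fun i _ => ?_
    rw [← Finset.mul_sum]
    exact mul_le_mul_of_nonneg_left (D.avg _ _ (r.mem i) W I hW p hp) (norm_nonneg _)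
  · have e : ∀ L, len L * (Λ * av1 L r.T) = Λ * (len L * av1 L r.T) := fun L => by ring
    rw [Finset.sum_congr rfl fun L _ => e L, ← Finset.mul_sum, av1_lb hW r.T hp, e p]

/-- zero -/
def Rep.zero (D : NDict) : Rep D := ⟨0, Fin.elim0, Fin.elim0, Fin.elim0, fun _ => 0, fun i => i.elim0⟩

theorem Rep.fn_zero : (Rep.zero D).fn = fun _ => 0 := by
  funext y
  show ∑ i : Fin 0, (Fin.elim0 i : ℂ) * (Fin.elim0 i : Fn) y + (0 : ℂ) = 0
  rw [Fin.sum_univ_zero, add_zero]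

theorem Rep.pr_zero (q : Nd) : (Rep.zero D).pr Λ q = 0 := by
  show ∑ i : Fin 0, ‖(Fin.elim0 i : ℂ)‖ * (Fin.elim0 i : Nd → ℝ) q + Λ * av1 q (fun _ => 0) = 0
  rw [Fin.sum_univ_zero]
  simp [av1]

/-- sum -/
def Rep.add (r s : Rep D) : Rep D where
  n := r.n + s.n
  φ := Fin.append r.φ s.φ
  w := Fin.append r.w s.w
  c := Fin.append r.c s.c
  T := fun y => r.T y + s.T y
  mem := by
    intro i
    refine Fin.addCases (fun i => ?_) (fun i => ?_) i
    · rw [Fin.append_left, Fin.append_left]; exact r.mem i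
    · rw [Fin.append_right, Fin.append_right]; exact s.mem i

theorem Rep.fn_add (r s : Rep D) : (r.add s).fn = fun y => r.fn y + s.fn y := by
  funext y
  show ∑ i : Fin (r.n + s.n), Fin.append r.c s.c i * Fin.append r.φ s.φ i y + (r.T y + s.T y) = _
  rw [Fin.sum_univ_add]
  simp only [Fin.append_left, Fin.append_right]
  simp only [Rep.fn]
  ring

theorem av1_add (q : Nd) (T S : Fn) : av1 q (fun y => T y + S y) ≤ av1 q T + av1 q S := by
  unfold av1
  rw [← mul_add, ← Finset.sum_add_distrib]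
  exact mul_le_mul_of_nonneg_left (Finset.sum_le_sum fun y _ => norm_add_le _ _)
    (one_div_nonneg.2 (Growth.len_pos q).le)

theorem Rep.pr_add (hΛ : 0 ≤ Λ) (r s : Rep D) (q : Nd) :
    (r.add s).pr Λ q ≤ r.pr Λ q + s.pr Λ q := by
  show ∑ i : Fin (r.n + s.n), ‖Fin.append r.c s.c i‖ * Fin.append r.w s.w i q
    + Λ * av1 q (fun y => r.T y + s.T y) ≤ _
  rw [Fin.sum_univ_add]
  simp only [Fin.append_left, Fin.append_right]
  have := mul_le_mul_of_nonneg_left (av1_add q r.T s.T) hΛ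
  unfold Rep.pr
  linarith

/-- multiple -/
def Rep.smul (z : ℂ) (r : Rep D) : Rep D :=
  ⟨r.n, r.φ, r.w, fun i => z * r.c i, fun y => z * r.T y, r.mem⟩

theorem Rep.fn_smul (z : ℂ) (r : Rep D) : (r.smul z).fn = fun y => z * r.fn y := by
  funext y
  simp only [Rep.fn, Rep.smul, mul_add, Finset.mul_sum]
  congr 1
  exact Finset.sum_congr rfl fun i _ => by ring

theorem Rep.pr_smul (z : ℂ) (r : Rep D) (q : Nd) : (r.smul z).pr Λ q = ‖z‖ * r.pr Λ q := by
  simp only [Rep.pr, Rep.smul, norm_mul, mul_add, Finset.mul_sum, av1]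
  congr 1
  · exact Finset.sum_congr rfl fun i _ => by ring
  · refine Finset.sum_congr rfl fun y _ => by ring

/-- one atom -/
def Rep.atom {φ : Fn} {w : Nd → ℝ} (h : D.at' φ w) : Rep D :=
  ⟨1, fun _ => φ, fun _ => w, fun _ => 1, fun _ => 0, fun _ => h⟩

theorem Rep.fn_atom {φ : Fn} {w : Nd → ℝ} (h : D.at' φ w) : (Rep.atom h).fn = φ := by
  funext y
  show ∑ _i : Fin 1, (1 : ℂ) * φ y + 0 = φ y
  simp

theorem Rep.pr_atom {φ : Fn} {w : Nd → ℝ} (h : D.at' φ w) (q : Nd) :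
    (Rep.atom h).pr Λ q = w q := by
  show ∑ _i : Fin 1, ‖(1 : ℂ)‖ * w q + Λ * av1 q (fun _ => 0) = w q
  simp [av1]

end rep

/-! ### near minimisers -/

/-- soft threshold -/
noncomputable def soft (Λ : ℝ) (u : ℂ) : ℂ := if ‖u‖ ≤ Λ then 0 else ((1 - Λ / ‖u‖ : ℝ) : ℂ) * u

theorem soft_res {Λ : ℝ} (hΛ : 0 ≤ Λ) (u : ℂ) : ‖u - soft Λ u‖ ≤ Λ := by
  unfold soft
  split_ifs with h
  · rwa [sub_zero]
  · have hu : 0 < ‖u‖ := lt_of_le_of_lt hΛ (not_le.1 h)
    have e : u - ((1 - Λ / ‖u‖ : ℝ) : ℂ) * u = ((Λ / ‖u‖ : ℝ) : ℂ) * u := by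
      push_cast
      ring
    rw [e, norm_mul, Complex.norm_real, Real.norm_of_nonneg (div_nonneg hΛ hu.le),
      div_mul_cancel₀ _ hu.ne']

theorem soft_min {Λ : ℝ} (hΛ : 0 ≤ Λ) (u T : ℂ) :
    ‖u - soft Λ u‖ ^ 2 + 2 * Λ * ‖soft Λ u‖ ≤ ‖u - T‖ ^ 2 + 2 * Λ * ‖T‖ := by
  have h1 : |‖u‖ - ‖T‖| ≤ ‖u - T‖ := abs_norm_sub_norm_le u T
  have h2 : (‖u‖ - ‖T‖) ^ 2 ≤ ‖u - T‖ ^ 2 := by
    rw [← sq_abs (‖u‖ - ‖T‖)]
    exact pow_le_pow_left₀ (abs_nonneg _) h1 2
  have hT := norm_nonneg T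
  have hu0 := norm_nonneg u
  unfold soft
  split_ifs with h
  · rw [sub_zero, norm_zero, mul_zero, add_zero]
    nlinarith [mul_nonneg hT (sub_nonneg.2 h)]
  · have hlt := not_le.1 h
    have hu : 0 < ‖u‖ := lt_of_le_of_lt hΛ hlt
    have e : u - ((1 - Λ / ‖u‖ : ℝ) : ℂ) * u = ((Λ / ‖u‖ : ℝ) : ℂ) * u := by
      push_cast
      ring
    have e1 : ‖u - ((1 - Λ / ‖u‖ : ℝ) : ℂ) * u‖ = Λ := by
      rw [e, norm_mul, Complex.norm_real, Real.norm_of_nonneg (div_nonneg hΛ hu.le),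
        div_mul_cancel₀ _ hu.ne']
    have h3 : 0 ≤ 1 - Λ / ‖u‖ := by
      rw [sub_nonneg, div_le_one hu]
      exact hlt.le
    have e2 : ‖((1 - Λ / ‖u‖ : ℝ) : ℂ) * u‖ = ‖u‖ - Λ := by
      rw [norm_mul, Complex.norm_real, Real.norm_of_nonneg h3, sub_mul, one_mul,
        div_mul_cancel₀ _ hu.ne']
    rw [e1, e2]
    nlinarith [sq_nonneg (‖T‖ - (‖u‖ - Λ))]

section near

variable {D : NDict} {Λ : ℝ}

/-- functional of a representation -/
noncomputable def Fu (Λ : ℝ) (p : Nd) (F : Fn) (r : Rep D) : ℝ := PhD p F r.fn (r.pr Λ p)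

theorem Fu_nonneg (hΛ : 0 ≤ Λ) (p : Nd) (F : Fn) (r : Rep D) : 0 ≤ Fu Λ p F r := by
  unfold Fu PhD
  have := r.pr_nonneg hΛ p
  positivity

/-- replace `T` by the soft threshold -/
noncomputable def Rep.sft (Λ : ℝ) (F : Fn) (r : Rep D) : Rep D :=
  ⟨r.n, r.φ, r.w, r.c, fun y => soft Λ (F y - ∑ i, r.c i * r.φ i y), r.mem⟩

theorem sft_res (hΛ : 0 ≤ Λ) (F : Fn) (r : Rep D) (y : ℤ) : ‖F y - (r.sft Λ F).fn y‖ ≤ Λ := by
  simp only [Rep.fn, Rep.sft]
  rw [← sub_sub]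
  exact soft_res hΛ _

theorem sft_le (hΛ : 0 ≤ Λ) (p : Nd) (F : Fn) (r : Rep D) :
    Fu Λ p F (r.sft Λ F) ≤ Fu Λ p F r := by
  have hl := Growth.len_pos p
  unfold Fu PhD Rep.pr
  rw [QVar181.av_sq, QVar181.av_sq]
  have key : ∑ y ∈ iv p, ‖F y - (r.sft Λ F).fn y‖ ^ 2 + 2 * Λ * ∑ y ∈ iv p, ‖(r.sft Λ F).T y‖
      ≤ ∑ y ∈ iv p, ‖F y - r.fn y‖ ^ 2 + 2 * Λ * ∑ y ∈ iv p, ‖r.T y‖ := by
    rw [Finset.mul_sum, Finset.mul_sum, ← Finset.sum_add_distrib, ← Finset.sum_add_distrib]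
    refine Finset.sum_le_sum fun y _ => ?_
    have h := soft_min hΛ (F y - ∑ i, r.c i * r.φ i y) (r.T y)
    simp only [Rep.fn, Rep.sft]
    rw [← sub_sub, ← sub_sub]
    exact h
  have h2 := mul_le_mul_of_nonneg_left key (one_div_nonneg.2 hl.le)
  have e : (r.sft Λ F).c = r.c := rfl
  have e' : (r.sft Λ F).w = r.w := rfl
  have e3 : ∑ i, ‖(r.sft Λ F).c i‖ * (r.sft Λ F).w i p = ∑ i, ‖r.c i‖ * r.w i p := rfl
  rw [e3]
  unfold av1
  nlinarith [h2]

theorem exists_nr (D : NDict) (hΛ : 0 ≤ Λ) {η : ℝ} (hη : 0 < η) (F : Fn) (p : Nd) :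
    ∃ r : Rep D, (∀ s : Rep D, Fu Λ p F r ≤ Fu Λ p F s + η) ∧ ∀ y, ‖F y - r.fn y‖ ≤ Λ := by
  let S : Set ℝ := Set.range fun r : Rep D => Fu Λ p F r
  have hne : S.Nonempty := ⟨_, Rep.zero D, rfl⟩
  have hbd : BddBelow S := ⟨0, by
    rintro x ⟨r, rfl⟩
    exact Fu_nonneg hΛ p F r⟩
  obtain ⟨x, ⟨r, rfl⟩, hx⟩ := Real.lt_sInf_add_pos hne hη
  refine ⟨r.sft Λ F, fun s => ?_, sft_res hΛ F r⟩
  have h1 : sInf S ≤ Fu Λ p F s := csInf_le hbd ⟨s, rfl⟩
  have h2 := sft_le hΛ p F r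
  simp only at hx
  linarith

theorem nr_convex (hΛ : 0 ≤ Λ) {η : ℝ} {F : Fn} {p : Nd} {r : Rep D}
    (hmin : ∀ s : Rep D, Fu Λ p F r ≤ Fu Λ p F s + η) (s : Rep D) :
    Fu Λ p F r + (1 / 2) * av p (fun y => s.fn y - r.fn y) ^ 2 ≤ Fu Λ p F s + 2 * η := by
  have h := hmin ((r.add s).smul (1 / 2 : ℂ))
  have hn : ‖(1 / 2 : ℂ)‖ = 1 / 2 := by simp
  have hp : ((r.add s).smul (1 / 2 : ℂ)).pr Λ p ≤ (1 / 2) * (r.pr Λ p + s.pr Λ p) := by
    rw [Rep.pr_smul, hn]
    exact mul_le_mul_of_nonneg_left (Rep.pr_add hΛ r s p) (by norm_num)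
  have key : av p (fun y => F y - ((r.add s).smul (1 / 2 : ℂ)).fn y) ^ 2 =
      av p (fun y => F y - r.fn y) ^ 2 / 2 + av p (fun y => F y - s.fn y) ^ 2 / 2 -
        av p (fun y => s.fn y - r.fn y) ^ 2 / 4 := by
    rw [QVar181.av_sq, QVar181.av_sq, QVar181.av_sq, QVar181.av_sq]
    have : ∀ y, ‖F y - ((r.add s).smul (1 / 2 : ℂ)).fn y‖ ^ 2 =
        ‖F y - r.fn y‖ ^ 2 / 2 + ‖F y - s.fn y‖ ^ 2 / 2 - ‖s.fn y - r.fn y‖ ^ 2 / 4 := by
      intro y
      rw [Rep.fn_smul, Rep.fn_add]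
      simp only
      have e1 : F y - (1 / 2 : ℂ) * (r.fn y + s.fn y) =
          ((F y - r.fn y) + (F y - s.fn y)) / 2 := by ring
      have e2 : (F y - r.fn y) - (F y - s.fn y) = s.fn y - r.fn y := by ring
      rw [e1, QVar181.norm_mid, e2]
    rw [Finset.sum_congr rfl fun y _ => this y, Finset.sum_sub_distrib, Finset.sum_add_distrib,
      ← Finset.sum_div, ← Finset.sum_div, ← Finset.sum_div]
    ring
  unfold Fu PhD at h ⊢
  rw [key] at h
  linarith

theorem nr_level (hΛ : 0 ≤ Λ) {η : ℝ} (hη : 0 < η) {F : Fn} {p : Nd} {r : Rep D}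
    (hmin : ∀ s : Rep D, Fu Λ p F r ≤ Fu Λ p F s + η) {φ : Fn} {w : Nd → ℝ} (hφ : D.at' φ w) :
    ‖∑ y ∈ iv p, (F y - r.fn y) * φ y‖ ≤ (w p + Real.sqrt η * (1 + av p φ)) * len p := by
  set S : ℂ := ∑ y ∈ iv p, (F y - r.fn y) * φ y with hS
  have hL := QVar181.len_pos' p
  have hA : 0 ≤ av p φ := Real.sqrt_nonneg _
  have hw0 := D.pos _ _ hφ p
  set b := Real.sqrt η with hb
  have hb0 : 0 < b := Real.sqrt_pos.mpr hη
  have hbb : b ^ 2 = η := Real.sq_sqrt hη.le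
  set ρ : ℝ := b / (1 + av p φ) with hρ
  have h1A : 0 < 1 + av p φ := by linarith
  have hρ0 : 0 < ρ := div_pos hb0 h1A
  by_cases hS0 : S = 0
  · rw [hS0, norm_zero]
    positivity
  have hSn : 0 < ‖S‖ := norm_pos_iff.mpr hS0
  let z : ℂ := (ρ / ‖S‖ : ℝ) * S
  have hz : ‖z‖ = ρ := by
    simp only [z, norm_mul, Complex.norm_real, Real.norm_eq_abs]
    rw [abs_of_nonneg (by positivity)]
    field_simp
  have hzS : ((starRingEnd ℂ) z * S).re = ρ * ‖S‖ := by
    have e : (starRingEnd ℂ) z * S = ((ρ * ‖S‖ : ℝ) : ℂ) := by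
      simp only [z, map_mul, Complex.conj_ofReal]
      have : (starRingEnd ℂ) S * S = ((‖S‖ ^ 2 : ℝ) : ℂ) := by
        rw [mul_comm, Complex.mul_conj, Complex.normSq_eq_norm_sq]
      rw [mul_assoc, this]
      rw [← Complex.ofReal_mul]
      congr 1
      field_simp
    rw [e, Complex.ofReal_re]
  have hat := D.conj _ _ hφ
  have h := hmin (r.add ((Rep.atom hat).smul z))
  have hpr : (r.add ((Rep.atom hat).smul z)).pr Λ p ≤ r.pr Λ p + ρ * w p := by
    refine (Rep.pr_add hΛ r _ p).trans ?_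
    rw [Rep.pr_smul, Rep.pr_atom, hz]
  have key : av p (fun y => F y - (r.add ((Rep.atom hat).smul z)).fn y) ^ 2 =
      av p (fun y => F y - r.fn y) ^ 2 - 2 * (ρ * ‖S‖) / len p + ρ ^ 2 * av p φ ^ 2 := by
    rw [QVar181.av_sq, QVar181.av_sq, QVar181.av_sq]
    have : ∀ y, ‖F y - (r.add ((Rep.atom hat).smul z)).fn y‖ ^ 2 =
        ‖F y - r.fn y‖ ^ 2 - 2 * ((starRingEnd ℂ) z * ((F y - r.fn y) * φ y)).re
          + ρ ^ 2 * ‖φ y‖ ^ 2 := by
      intro y
      rw [Rep.fn_add, Rep.fn_smul, Rep.fn_atom]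
      simp only
      have e1 : F y - (r.fn y + z * (starRingEnd ℂ) (φ y)) =
          (F y - r.fn y) - z * (starRingEnd ℂ) (φ y) := by ring
      rw [e1, QVar181.norm_sub_mul, hz]
    rw [Finset.sum_congr rfl fun y _ => this y, Finset.sum_add_distrib, Finset.sum_sub_distrib,
      ← Finset.mul_sum, ← Finset.mul_sum]
    have e2 : ∑ y ∈ iv p, ((starRingEnd ℂ) z * ((F y - r.fn y) * φ y)).re = ρ * ‖S‖ := by
      rw [← hzS, hS, Finset.mul_sum, Complex.re_sum]
    rw [e2]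
    ring
  unfold Fu PhD at h
  rw [key] at h
  have h2 : 2 * (ρ * ‖S‖) / len p ≤ ρ ^ 2 * av p φ ^ 2 + 2 * (ρ * w p) + η := by linarith
  rw [div_le_iff₀ hL] at h2
  have h3 : ρ ^ 2 * av p φ ^ 2 + 2 * (ρ * w p) + η
      ≤ 2 * ρ * (w p + b * (1 + av p φ)) := by
    have e1 : b = ρ * (1 + av p φ) := by rw [hρ]; field_simp
    rw [← hbb, e1]
    nlinarith [mul_nonneg (sq_nonneg ρ) hA, mul_nonneg (sq_nonneg ρ) (sq_nonneg (av p φ)),
      sq_nonneg ρ]
  have h4 : 2 * ρ * ‖S‖ ≤ 2 * ρ * ((w p + b * (1 + av p φ)) * len p) := by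
    have := mul_le_mul_of_nonneg_right h3 hL.le
    nlinarith [h2]
  exact le_of_mul_le_mul_left h4 (by positivity)

end near

/-- near-minimisers of `F` at every node -/
structure NearN (D : NDict) (Λ η : ℝ) (F : Fn) (r : Nd → Rep D) : Prop where
  bd : ∀ p y, ‖F y - (r p).fn y‖ ≤ Λ
  lev : ∀ p φ w, D.at' φ w →
    ‖∑ y ∈ iv p, (F y - (r p).fn y) * φ y‖ ≤ (w p + Real.sqrt η * (1 + av p φ)) * len p
  cvx : ∀ p (s : Rep D), Fu Λ p F (r p) + (1 / 2) * av p (fun y => s.fn y - (r p).fn y) ^ 2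
    ≤ Fu Λ p F s + 2 * η

theorem exists_NearN (D : NDict) {Λ η : ℝ} (hΛ : 0 ≤ Λ) (hη : 0 < η) (F : Fn) :
    ∃ r : Nd → Rep D, NearN D Λ η F r := by
  choose r hmin hbd using exists_nr D hΛ hη F
  exact ⟨r, ⟨hbd, fun p φ w hφ => nr_level hΛ hη (hmin p) hφ,
    fun p s => nr_convex hΛ (hmin p) s⟩⟩

/-! ### windows -/

section near2

variable {D : NDict} {Λ η : ℝ} {F : Fn} {r : Nd → Rep D}

theorem NearN.Fu_le (h : NearN D Λ η F r) (p : Nd) : Fu Λ p F (r p) ≤ av p F ^ 2 + 2 * η := by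
  have h1 := h.cvx p (Rep.zero D)
  have h2 : Fu Λ p F (Rep.zero D) = av p F ^ 2 := by
    unfold Fu PhD
    rw [Rep.fn_zero, Rep.pr_zero]
    simp
  rw [h2] at h1
  have := sq_nonneg (av p (fun y => (Rep.zero D).fn y - (r p).fn y))
  linarith

theorem NearN.pr_le (h : NearN D Λ η F r) (p : Nd) :
    (r p).pr Λ p ≤ (av p F ^ 2 + 2 * η) / 2 := by
  have h1 := h.Fu_le p
  unfold Fu PhD at h1
  have := sq_nonneg (av p (fun y => F y - (r p).fn y))
  linarith

theorem NearN.av_le (h : NearN D Λ η F r) (hΛ : 0 ≤ Λ) (p : Nd) :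
    av p (r p).fn ^ 2 ≤ 2 * (av p F ^ 2 + 2 * η) := by
  have h1 := h.cvx p (Rep.zero D)
  have h2 : Fu Λ p F (Rep.zero D) = av p F ^ 2 := by
    unfold Fu PhD
    rw [Rep.fn_zero, Rep.pr_zero]
    simp
  have h3 : av p (fun y => (Rep.zero D).fn y - (r p).fn y) = av p (r p).fn := by
    rw [Rep.fn_zero]
    unfold av av2
    simp
  rw [h2, h3] at h1
  have := Fu_nonneg hΛ p F (r p)
  linarith

end near2

section letters

variable {ι : Type*} [Fintype ι] {D : ι → NDict} {Λ : ι → ℝ} {η : ℝ} {G : ι → Fn}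
  {r : (i : ι) → Nd → Rep (D i)}

/-- data: letters, dictionaries, near-minimisers -/
structure DataN (D : ι → NDict) (Λ : ι → ℝ) (η : ℝ) (G : ι → Fn)
    (r : (i : ι) → Nd → Rep (D i)) : Prop where
  pos : ∀ i, 0 ≤ Λ i
  near : ∀ i, NearN (D i) (Λ i) η (G i) (r i)

omit [Fintype ι] in
theorem exists_DataN (D : ι → NDict) {Λ : ι → ℝ} (hΛ : ∀ i, 0 ≤ Λ i) {η : ℝ} (hη : 0 < η)
    (G : ι → Fn) : ∃ r : (i : ι) → Nd → Rep (D i), DataN D Λ η G r := by
  choose r h using fun i => exists_NearN (D i) (hΛ i) hη (G i)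
  exact ⟨r, ⟨hΛ, h⟩⟩

/-- the functions of the near-minimisers -/
noncomputable def fs (r : (i : ι) → Nd → Rep (D i)) : ι → Nd → Fn := fun i p => (r i p).fn

/-- functional at `p` of the data frozen at `K` -/
noncomputable def FK (Λ : ι → ℝ) (G : ι → Fn) (r : (i : ι) → Nd → Rep (D i)) (K p : Nd) : ℝ :=
  2 * ∑ i, Fu (Λ i) p (G i) (r i K)

/-- total potential -/
noncomputable def PtN (Λ : ι → ℝ) (G : ι → Fn) (r : (i : ι) → Nd → Rep (D i)) (p : Nd) : ℝ :=
  FK Λ G r p p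

theorem PtN_nonneg (h : DataN D Λ η G r) (p : Nd) : 0 ≤ PtN Λ G r p := by
  unfold PtN FK
  have : 0 ≤ ∑ i, Fu (Λ i) p (G i) (r i p) :=
    Finset.sum_nonneg fun i _ => Fu_nonneg (h.pos i) p (G i) (r i p)
  linarith

theorem PtN_le (h : DataN D Λ η G r) (p : Nd) (hG : ∀ i, av p (G i) ≤ 1) :
    PtN Λ G r p ≤ 2 * Fintype.card ι * (1 + 2 * η) := by
  unfold PtN FK
  have : ∑ i, Fu (Λ i) p (G i) (r i p) ≤ ∑ _i : ι, (1 + 2 * η) := by
    refine Finset.sum_le_sum fun i _ => ?_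
    have h1 := (h.near i).Fu_le p
    have h2 : av p (G i) ^ 2 ≤ 1 := pow_le_one₀ (Real.sqrt_nonneg _) (hG i)
    linarith
  rw [Finset.sum_const, nsmul_eq_mul, Finset.card_univ] at this
  nlinarith [this]

/-- node inequality -/
theorem dv_add_PtN (h : DataN D Λ η G r) (K p : Nd) :
    dv (fs r) K p + PtN Λ G r p ≤ FK Λ G r K p + 4 * Fintype.card ι * η := by
  have key : ∀ i, av p (fun y => fs r i K y - fs r i p y) ^ 2 + 2 * Fu (Λ i) p (G i) (r i p)
      ≤ 2 * Fu (Λ i) p (G i) (r i K) + 4 * η := by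
    intro i
    have := (h.near i).cvx p (r i K)
    unfold fs
    linarith
  have hs := Finset.sum_le_sum fun i (_ : i ∈ (Finset.univ : Finset ι)) => key i
  rw [Finset.sum_add_distrib, Finset.sum_add_distrib, Finset.sum_const, nsmul_eq_mul,
    Finset.card_univ, ← Finset.mul_sum, ← Finset.mul_sum] at hs
  unfold dv PtN FK
  linarith

/-- super-averaging of the functional of frozen data -/
theorem FK_lb {W : Finset Nd} {I : Nd} (hW : Full W I) {p : Nd} (hp : p ∈ W) (K : Nd) :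
    ∑ L ∈ lb W p, len L * FK Λ G r K L ≤ len p * FK Λ G r K p := by
  have e : ∀ L, len L * FK Λ G r K L = 2 * ∑ i, len L * Fu (Λ i) L (G i) (r i K) := by
    intro L
    unfold FK
    rw [Finset.mul_sum, Finset.mul_sum, Finset.mul_sum]
    exact Finset.sum_congr rfl fun i _ => by ring
  rw [Finset.sum_congr rfl fun L _ => e L, ← Finset.mul_sum, Finset.sum_comm, e p]
  refine mul_le_mul_of_nonneg_left (Finset.sum_le_sum fun i _ => ?_) (by norm_num)
  unfold Fu PhD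
  simp only [mul_add, Finset.sum_add_distrib]
  refine add_le_add (le_of_eq ?_) ?_
  · rw [← sum_av, sum_lb hW hp]
    exact Finset.sum_congr rfl fun L _ => (sum_av L _).symm
  · have h1 := (r i K).pr_lb (Λ := Λ i) hW hp
    have e1 : ∀ L, len L * (2 * (r i K).pr (Λ i) L) = 2 * (len L * (r i K).pr (Λ i) L) :=
      fun L => by ring
    rw [Finset.sum_congr rfl fun L _ => e1 L, ← Finset.mul_sum, e1 p]
    linarith

/-- hypothesis of the stopping lemma -/
theorem stop_hypN (h : DataN D Λ η G r) {W : Finset Nd} {I : Nd} (hW : Full W I) {p : Nd}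
    (hp : p ∈ W) (K : Nd) :
    ∑ L ∈ lb W p, len L * (dv (fs r) K L + PtN Λ G r L)
      ≤ len p * (FK Λ G r K p + 4 * Fintype.card ι * η) := by
  calc ∑ L ∈ lb W p, len L * (dv (fs r) K L + PtN Λ G r L)
      ≤ ∑ L ∈ lb W p, len L * (FK Λ G r K L + 4 * Fintype.card ι * η) :=
        Finset.sum_le_sum fun L _ =>
          mul_le_mul_of_nonneg_left (dv_add_PtN h K L) (Growth.len_pos L).le
    _ = ∑ L ∈ lb W p, len L * FK Λ G r K L + len p * (4 * Fintype.card ι * η) := by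
        simp only [mul_add, Finset.sum_add_distrib]
        rw [← Finset.sum_mul, sum_len_lb hW hp]
    _ ≤ _ := by
        rw [mul_add]
        have := FK_lb (Λ := Λ) (G := G) (r := r) hW hp K
        linarith

/-- energy inequality of one window -/
theorem en_stepN (h : DataN D Λ η G r) {R : Finset Nd} {J : Nd} (hR : Full R J) {δ : ℝ}
    {K : Nd} (hK : K ∈ R) :
    en (fs r) (Wd R (dv (fs r)) δ K) K + ∑ c ∈ Tp R (dv (fs r)) δ K, len c * PtN Λ G r c
      ≤ len K * (PtN Λ G r K + 8 * Fintype.card ι * η) := by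
  classical
  have hW := Wd_full (g := dv (fs r)) (δ := δ) hR hK
  have hW' := W'_full (g := dv (fs r)) (δ := δ) hR hK
  -- next tops against leaves
  have h1 : ∑ c ∈ Tp R (dv (fs r)) δ K, len c * PtN Λ G r c
      ≤ ∑ L ∈ lf (Wd R (dv (fs r)) δ K),
          len L * (PtN Λ G r L + 4 * Fintype.card ι * η) := by
    rw [← Finset.sum_fiberwise_of_maps_to (fun c hc => par_lf hR hK hc)]
    refine Finset.sum_le_sum fun L hL => ?_
    have hLW' : L ∈ Wd R (dv (fs r)) δ K ∪ Tp R (dv (fs r)) δ K :=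
      Finset.mem_union_left _ (lf_sub hL)
    have h2 := stop_hypN h hW' hLW' L
    refine le_trans ?_ h2
    have hsub : (Tp R (dv (fs r)) δ K).filter (fun c => par c = L) ⊆
        lb (Wd R (dv (fs r)) δ K ∪ Tp R (dv (fs r)) δ K) L := by
      intro c hc
      rw [Finset.mem_filter] at hc
      refine mem_lb.2 ⟨Tp_sub_lf hR hK hc.1, ?_⟩
      rw [← hc.2]
      exact iv_par c
    refine le_trans (Finset.sum_le_sum fun c _ => ?_)
      (Finset.sum_le_sum_of_subset_of_nonneg hsub fun c _ _ =>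
        mul_nonneg (Growth.len_pos c).le (add_nonneg (dv_nonneg (fs r) L c) (PtN_nonneg h c)))
    exact mul_le_mul_of_nonneg_left (by linarith [dv_nonneg (fs r) L c]) (Growth.len_pos c).le
  have h4 : ∑ L ∈ lf (Wd R (dv (fs r)) δ K), len L * (PtN Λ G r L + 4 * Fintype.card ι * η)
      = ∑ L ∈ lf (Wd R (dv (fs r)) δ K), len L * PtN Λ G r L
        + len K * (4 * Fintype.card ι * η) := by
    simp only [mul_add, Finset.sum_add_distrib]
    rw [← Finset.sum_mul, ← lb_top hW, sum_len_lb hW hW.top]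
  have h5 := stop_hypN h hW hW.top K
  have h6 : ∑ L ∈ lb (Wd R (dv (fs r)) δ K) K, len L * (dv (fs r) K L + PtN Λ G r L)
      = en (fs r) (Wd R (dv (fs r)) δ K) K
        + ∑ L ∈ lf (Wd R (dv (fs r)) δ K), len L * PtN Λ G r L := by
    rw [en_eq hW, ← lb_top hW, ← Finset.sum_add_distrib]
    exact Finset.sum_congr rfl fun L _ => by ring
  have h7 : len K * (FK Λ G r K K + 4 * Fintype.card ι * η)
      = len K * (PtN Λ G r K + 4 * Fintype.card ι * η) := rfl
  rw [h6, h7] at h5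
  rw [h4] at h1
  have h8 : len K * (PtN Λ G r K + 8 * Fintype.card ι * η)
      = len K * (PtN Λ G r K + 4 * Fintype.card ι * η) + len K * (4 * Fintype.card ι * η) := by
    ring
  rw [h8]
  linarith

open Classical in
/-- **WINDOWS** for node-dependent super-averaging prices -/
theorem exists_windowsN (h : DataN D Λ η G r) {R : Finset Nd} {J : Nd} (hR : Full R J)
    (hG : ∀ i, ∀ p ∈ R, av p (G i) ≤ 1) {δ : ℝ} (hδ : 0 < δ) (hη0 : 0 ≤ η) (hη1 : η ≤ 1 / 2)
    (hη : 16 * Fintype.card ι * η ≤ δ) :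
    ∃ (S : Finset Nd) (W : Nd → Finset Nd), Sysw R S W (3 + 16 * Fintype.card ι / δ) ∧ J ∈ S ∧
      (∀ K ∈ S, ∀ p ∈ W K, dv (fs r) K p ≤ δ) ∧
      ∀ q ∈ R, ∑ K ∈ S.filter (fun K => iv K ⊆ iv q), en (fs r) (W K) K
        ≤ len q * (12 * Fintype.card ι + 2 * δ) := by
  obtain ⟨S, hJS, hSR, hSJ, hSd, hSc, hSX⟩ := tops2 (g := dv (fs r)) (δ := δ) hR (J.1 + 1) J
    hR.top (Nat.lt_succ_self _)
  have hc0 : (0 : ℝ) ≤ Fintype.card ι := Nat.cast_nonneg _
  have hyp : ∀ I ∈ R, ∀ W : Finset Nd, Full W I → W ⊆ R →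
      ∑ p ∈ lf W, len p * (dv (fs r) I p + PtN Λ G r p) ≤ len I * (PtN Λ G r I + δ / 4) := by
    intro I _ W hW _
    have h1 := stop_hypN h hW hW.top I
    rw [lb_top hW] at h1
    refine h1.trans (mul_le_mul_of_nonneg_left ?_ (Growth.len_pos I).le)
    have : FK Λ G r I I = PtN Λ G r I := rfl
    rw [this]
    linarith
  have hstep : ∀ K ∈ R, len K + ∑ c ∈ Tp R (dv (fs r)) δ K, len c * (2 + 4 * PtN Λ G r c / δ)
      ≤ len K * (2 + 4 * PtN Λ G r K / δ) := fun K hK =>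
    step hR hδ (fun p _ => PtN_nonneg h p) (dv_nonneg (fs r)) hyp hK
  have hP : ∀ K ∈ R, PtN Λ G r K ≤ 4 * Fintype.card ι := by
    intro K hK
    refine (PtN_le h K fun i => hG i K hK).trans ?_
    nlinarith
  have hP' : ∀ K ∈ R, 2 + 4 * PtN Λ G r K / δ ≤ 3 + 16 * Fintype.card ι / δ := by
    intro K hK
    have h1 : 4 * PtN Λ G r K / δ ≤ 16 * Fintype.card ι / δ := by
      refine div_le_div_of_nonneg_right ?_ hδ.le
      linarith [hP K hK]
    linarith
  have hA0 : (0 : ℝ) ≤ 3 + 16 * Fintype.card ι / δ := by positivity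
  refine ⟨S, Wd R (dv (fs r)) δ, ⟨hSR, fun K hK => Wd_full hR (hSR hK), fun K _ => Wd_sub, hSd,
    fun p hp => hSc p hp (hR.reg.1 p hp), ?_⟩, hJS, ?_, ?_⟩
  · intro q hq
    have := (hSX len (fun K => 2 + 4 * PtN Λ G r K / δ) _ (fun K => (Growth.len_pos K).le) hP'
      hA0 hstep).2 q hq (hR.reg.1 q hq)
    linarith
  · intro K _ p hp
    exact Wd_good (fun I => by rw [dv_self]; exact hδ.le) hp
  · intro q hq
    set k : ℝ := 8 * Fintype.card ι * η with hk
    have hk0 : 0 ≤ k := by positivity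
    have hkδ : k ≤ δ / 2 := by rw [hk]; linarith
    have hkey : ∀ K ∈ R, en (fs r) (Wd R (dv (fs r)) δ K) K + ∑ c ∈ Tp R (dv (fs r)) δ K, len c *
        (PtN Λ G r c + k * (2 + 4 * PtN Λ G r c / δ))
        ≤ len K * (PtN Λ G r K + k * (2 + 4 * PtN Λ G r K / δ)) := by
      intro K hK
      have h1 := en_stepN h hR (δ := δ) hK
      have h2 := mul_le_mul_of_nonneg_left (hstep K hK) hk0
      have e1 : ∑ c ∈ Tp R (dv (fs r)) δ K, len c * (PtN Λ G r c + k * (2 + 4 * PtN Λ G r c / δ))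
          = ∑ c ∈ Tp R (dv (fs r)) δ K, len c * PtN Λ G r c
            + k * ∑ c ∈ Tp R (dv (fs r)) δ K, len c * (2 + 4 * PtN Λ G r c / δ) := by
        rw [Finset.mul_sum, ← Finset.sum_add_distrib]
        exact Finset.sum_congr rfl fun c _ => by ring
      rw [e1]
      have e2 : len K * (PtN Λ G r K + 8 * Fintype.card ι * η)
          = len K * PtN Λ G r K + k * len K := by
        rw [hk]; ring
      rw [e2] at h1
      have e3 : k * (len K * (2 + 4 * PtN Λ G r K / δ))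
          = len K * (k * (2 + 4 * PtN Λ G r K / δ)) := by ring
      rw [e3] at h2
      rw [mul_add k] at h2
      rw [mul_add (len K)]
      linarith
    have hY : ∀ K ∈ R, PtN Λ G r K + k * (2 + 4 * PtN Λ G r K / δ)
        ≤ 12 * Fintype.card ι + 2 * δ := by
      intro K hK
      have h1 := hP K hK
      have h2 := hP' K hK
      have h3 : k * (2 + 4 * PtN Λ G r K / δ) ≤ δ / 2 * (3 + 16 * Fintype.card ι / δ) := by
        refine mul_le_mul hkδ h2 ?_ (by positivity)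
        have := PtN_nonneg h K
        positivity
      have h4 : δ / 2 * (3 + 16 * Fintype.card ι / δ) = 3 * δ / 2 + 8 * Fintype.card ι := by
        field_simp
        ring
      linarith
    exact (hSX (fun K => en (fs r) (Wd R (dv (fs r)) δ K) K) _ _ (fun K => en_nonneg (fs r) _ K)
      hY (by positivity) hkey).2 q hq (hR.reg.1 q hq)

end letters

/-! ### the glued residual -/

theorem av_lb {W : Finset Nd} {I : Nd} (hW : Full W I) (φ : Fn) {p : Nd} (hp : p ∈ W) :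
    ∑ L ∈ lb W p, len L * av L φ ≤ len p * av p φ := by
  have h2 : ∑ L ∈ lb W p, len L * av L φ ^ 2 = len p * av p φ ^ 2 := by
    rw [← sum_av, sum_lb hW hp]
    exact Finset.sum_congr rfl fun L _ => (sum_av L _).symm
  have hcs := Finset.sum_mul_sq_le_sq_mul_sq (lb W p) (fun L => Real.sqrt (len L))
    (fun L => Real.sqrt (len L) * av L φ)
  have e1 : ∑ L ∈ lb W p, Real.sqrt (len L) * (Real.sqrt (len L) * av L φ)
      = ∑ L ∈ lb W p, len L * av L φ := by
    refine Finset.sum_congr rfl fun L _ => ?_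
    rw [← mul_assoc, Real.mul_self_sqrt (Growth.len_pos L).le]
  have e2 : ∑ L ∈ lb W p, Real.sqrt (len L) ^ 2 = len p := by
    rw [← sum_len_lb hW hp]
    exact Finset.sum_congr rfl fun L _ => Real.sq_sqrt (Growth.len_pos L).le
  have e3 : ∑ L ∈ lb W p, (Real.sqrt (len L) * av L φ) ^ 2 = len p * av p φ ^ 2 := by
    rw [← h2]
    refine Finset.sum_congr rfl fun L _ => ?_
    rw [mul_pow, Real.sq_sqrt (Growth.len_pos L).le]
  rw [e1, e2, e3] at hcs
  have h3 : 0 ≤ len p * av p φ := mul_nonneg (Growth.len_pos p).le (Real.sqrt_nonneg _)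
  have h4 : (∑ L ∈ lb W p, len L * av L φ) ^ 2 ≤ (len p * av p φ) ^ 2 := by
    refine hcs.trans (le_of_eq ?_)
    ring
  exact (abs_le_of_sq_le_sq' h4 h3).2

section glue

variable {D : NDict} {Λ η : ℝ} {F : Fn} {r : Nd → Rep D}

/-- pointwise bound of the glued residual -/
theorem gl_bd (h : NearN D Λ η F r) {W : Finset Nd} {K : Nd} (hW : Full W K) :
    ∀ y ∈ iv K, ‖F y - gl W (fun p => (r p).fn) y‖ ≤ Λ := by
  intro y hy
  obtain ⟨L, hL, _, hyL, _⟩ := (Qh249.qh W K hW K hW.top).2 y hy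
  rw [gl_eq _ hL hyL]
  exact h.bd L y

/-- level of the glued residual at every node of the window -/
theorem gl_lev (h : NearN D Λ η F r) {W : Finset Nd} {K : Nd} (hW : Full W K) {p : Nd}
    (hp : p ∈ W) {φ : Fn} {w : Nd → ℝ} (hφ : D.at' φ w) :
    ‖∑ y ∈ iv p, (F y - gl W (fun p => (r p).fn) y) * φ y‖
      ≤ (w p + Real.sqrt η * (1 + av p φ)) * len p := by
  rw [sum_lb hW hp]
  calc ‖∑ L ∈ lb W p, ∑ y ∈ iv L, (F y - gl W (fun p => (r p).fn) y) * φ y‖
      ≤ ∑ L ∈ lb W p, (w L + Real.sqrt η * (1 + av L φ)) * len L := by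
        refine norm_sum_le_of_le _ fun L hL => ?_
        have : ∑ y ∈ iv L, (F y - gl W (fun p => (r p).fn) y) * φ y
            = ∑ y ∈ iv L, (F y - (r L).fn y) * φ y :=
          Finset.sum_congr rfl fun y hy => by rw [gl_eq _ (mem_lb.1 hL).1 hy]
        rw [this]
        exact h.lev L φ w hφ
    _ = ∑ L ∈ lb W p, len L * w L + Real.sqrt η * (len p + ∑ L ∈ lb W p, len L * av L φ) := by
        rw [← sum_len_lb hW hp, ← Finset.sum_add_distrib, Finset.mul_sum,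
          ← Finset.sum_add_distrib]
        exact Finset.sum_congr rfl fun L _ => by ring
    _ ≤ len p * w p + Real.sqrt η * (len p + len p * av p φ) :=
        add_le_add (D.avg φ w hφ W K hW p hp)
          (mul_le_mul_of_nonneg_left (by linarith [av_lb hW φ hp]) (Real.sqrt_nonneg _))
    _ = _ := by ring

end glue

section final

variable {ι : Type*} [Fintype ι]

open Classical in
/-- **INTERNAL LASSO** (540's 28030 (1)): finitely many static letters `G i`, node-dependent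
super-averaging dictionaries `D i`, `L¹` prices `Λ i`.  On every window `K`:
`G i = ρ + H + E` with `H = (r i K).fn` (a combination of atoms + an `L¹` part, total price `≤ 1` at
`K`), `E` small at all nodes, `ρ` of level `≤` price at ALL nodes and `|ρ| ≤ Λ i` pointwise. -/
theorem glas (D : ι → NDict) (Λ : ι → ℝ) (hΛ : ∀ i, 0 ≤ Λ i) (G : ι → Fn) {R : Finset Nd}
    {J : Nd} (hR : Full R J) (hG : ∀ i, ∀ p ∈ R, av p (G i) ≤ 1) {δ η : ℝ} (hδ : 0 < δ)
    (hη0 : 0 < η) (hη1 : η ≤ 1 / 2) (hη : 16 * Fintype.card ι * η ≤ δ) :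
    ∃ (S : Finset Nd) (W : Nd → Finset Nd) (r : (i : ι) → Nd → Rep (D i)) (E : ι → Nd → Fn),
      Sysw R S W (3 + 16 * Fintype.card ι / δ) ∧ J ∈ S ∧
      (∀ K ∈ S, ∀ i,
        (r i K).pr (Λ i) K ≤ 1 ∧
        (∀ p ∈ W K, av p (r i K).fn ^ 2 ≤ 2 * δ + 8) ∧
        (∀ p ∈ W K, av p (E i K) ^ 2 ≤ δ) ∧
        (∀ y ∈ iv K, ‖G i y - (r i K).fn y - E i K y‖ ≤ Λ i) ∧
        (∀ p ∈ W K, ∀ φ w, (D i).at' φ w →
          ‖∑ y ∈ iv p, (G i y - (r i K).fn y - E i K y) * φ y‖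
            ≤ (w p + Real.sqrt η * (1 + av p φ)) * len p)) ∧
      ∀ q ∈ R, ∑ K ∈ S.filter (fun K => iv K ⊆ iv q), ∑ i, len K * av K (E i K) ^ 2
        ≤ len q * (12 * Fintype.card ι + 2 * δ) := by
  obtain ⟨r, h⟩ := exists_DataN D hΛ hη0 G
  obtain ⟨S, W, hS, hJ, hd, hen⟩ := exists_windowsN h hR hG hδ hη0.le hη1 hη
  refine ⟨S, W, r, fun i K => Ew (fs r i) (W K) K, hS, hJ, ?_, ?_⟩
  · intro K hK i
    have hF := hS.full K hK
    have hKR := hS.sub hK
    have hres : ∀ y ∈ iv K, G i y - (r i K).fn y - Ew (fs r i) (W K) K y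
        = G i y - gl (W K) (fs r i) y := by
      intro y hy
      rw [Ew_of hy]
      show G i y - (r i K).fn y - (gl (W K) (fs r i) y - (r i K).fn y) = _
      ring
    refine ⟨?_, ?_, ?_, ?_, ?_⟩
    · have h1 := (h.near i).pr_le K
      have h2 : av K (G i) ^ 2 ≤ 1 := pow_le_one₀ (Real.sqrt_nonneg _) (hG i K hKR)
      linarith
    · intro p hp
      have h1 := TWL649.av_two p (r i K).fn (r i p).fn
      have h2 := (h.near i).av_le (hΛ i) p
      have h3 : av p (G i) ^ 2 ≤ 1 :=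
        pow_le_one₀ (Real.sqrt_nonneg _) (hG i p (hS.wsub K hK hp))
      have h4 : av p (fun y => (r i K).fn y - (r i p).fn y) ^ 2 ≤ δ := by
        refine le_trans ?_ (hd K hK p hp)
        exact Finset.single_le_sum
          (f := fun i => av p (fun y => fs r i K y - fs r i p y) ^ 2)
          (fun i _ => sq_nonneg _) (Finset.mem_univ i)
      linarith
    · intro p hp
      exact Ew_loc hF (hd K hK) i hp
    · intro y hy
      rw [hres y hy]
      exact gl_bd (h.near i) hF y hy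
    · intro p hp φ w hφ
      have e : ∑ y ∈ iv p, (G i y - (r i K).fn y - Ew (fs r i) (W K) K y) * φ y
          = ∑ y ∈ iv p, (G i y - gl (W K) (fs r i) y) * φ y :=
        Finset.sum_congr rfl fun y hy => by rw [hres y (hF.reg.1 p hp hy)]
      rw [e]
      exact gl_lev (h.near i) hF hp hφ
  · intro q hq
    refine le_trans (le_of_eq ?_) (hen q hq)
    refine Finset.sum_congr rfl fun K _ => ?_
    unfold en
    rw [Finset.mul_sum]
    exact Finset.sum_congr rfl fun i _ => by rw [av_Ew subset_rfl]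

end final

/-! ### super-averaging prices -/

/-- price `c * (local L² norm)` is super-averaging -/
theorem avg_av {c : ℝ} (hc : 0 ≤ c) (φ : Fn) {W : Finset Nd} {I : Nd} (hW : Full W I) {p : Nd}
    (hp : p ∈ W) : ∑ L ∈ lb W p, len L * (c * av L φ) ≤ len p * (c * av p φ) := by
  have e : ∀ L, len L * (c * av L φ) = c * (len L * av L φ) := fun L => by ring
  rw [Finset.sum_congr rfl fun L _ => e L, ← Finset.mul_sum, e p]
  exact mul_le_mul_of_nonneg_left (av_lb hW φ hp) hc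

/-- constant price is super-averaging -/
theorem avg_const (c : ℝ) {W : Finset Nd} {I : Nd} (hW : Full W I) {p : Nd} (hp : p ∈ W) :
    ∑ L ∈ lb W p, len L * c ≤ len p * c := by
  rw [← Finset.sum_mul, sum_len_lb hW hp]

end Crest.Agent.R079.GLas623
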