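import Mathlib

/-!
# R079, Step I (g): splitting `ZMod (L * Q')` into blocks of side `L` (helper104)

`io X = L * X` for `X : ZMod Q'`, a group morphism `ZMod Q' → ZMod (L * Q')`;
`sum_split` : a sum over `ZMod (L * Q')` = sum over the block number and the inner position.
-/

set_option autoImplicit false

namespace Crest.Agent.R079.GSa104

open Finset

variable {L Q' : ℕ}

/-- the block number `X`, first position -/
def io (L : ℕ) {Q' : ℕ} (X : ZMod Q') : ZMod (L * Q') := (L : ZMod (L * Q')) * ((X.val : ℕ) : ZMod (L * Q'))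

theorem LQ_zero : (L : ZMod (L * Q')) * (Q' : ZMod (L * Q')) = 0 := by
  have := ZMod.natCast_self (L * Q')
  rwa [Nat.cast_mul] at this

/-- (i) naturals -/
theorem io_nat [NeZero Q'] (n : ℕ) : io L ((n : ℕ) : ZMod Q') = (L : ZMod (L * Q')) * (n : ZMod (L * Q')) := by
  unfold io
  rw [ZMod.val_natCast]
  have h : (n : ZMod (L * Q')) = ((Q' * (n / Q') + n % Q' : ℕ) : ZMod (L * Q')) := by
    rw [Nat.div_add_mod]
  rw [h, Nat.cast_add, Nat.cast_mul, mul_add, ← mul_assoc, LQ_zero, zero_mul, zero_add]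

/-- (i) sums -/
theorem io_add [NeZero Q'] (X Y : ZMod Q') : io L (X + Y) = io L X + io L Y := by
  have hX := ZMod.natCast_zmod_val X
  have hY := ZMod.natCast_zmod_val Y
  have e : X + Y = ((X.val + Y.val : ℕ) : ZMod Q') := by rw [Nat.cast_add, hX, hY]
  rw [e, io_nat, Nat.cast_add, mul_add]
  rfl

theorem io_zero [NeZero Q'] : io L (0 : ZMod Q') = 0 := by
  have := io_nat (L := L) (Q' := Q') 0
  simpa using this

theorem io_neg [NeZero Q'] (X : ZMod Q') : io L (-X) = -io L X := by
  have h := io_add (L := L) (-X) X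
  rw [neg_add_cancel, io_zero] at h
  exact (neg_eq_of_add_eq_zero_left h.symm).symm

theorem io_sub [NeZero Q'] (X Y : ZMod Q') : io L (X - Y) = io L X - io L Y := by
  rw [sub_eq_add_neg, io_add, io_neg, ← sub_eq_add_neg]

/-- (i) integers -/
theorem io_int [NeZero Q'] (z : ℤ) : io L ((z : ℤ) : ZMod Q') = (L : ZMod (L * Q')) * (z : ZMod (L * Q')) := by
  obtain ⟨n, rfl | rfl⟩ := z.eq_nat_or_neg
  · rw [Int.cast_natCast, Int.cast_natCast, io_nat]
  · rw [Int.cast_neg, Int.cast_neg, Int.cast_natCast, Int.cast_natCast, io_neg, io_nat, mul_neg]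

/-- the block coordinates are bijective -/
theorem bij [NeZero L] [NeZero Q'] : Function.Bijective
    (fun p : ZMod Q' × Fin L => io L p.1 + ((p.2 : ℕ) : ZMod (L * Q'))) := by
  have : NeZero (L * Q') := ⟨Nat.mul_ne_zero (NeZero.ne L) (NeZero.ne Q')⟩
  rw [Fintype.bijective_iff_injective_and_card]
  refine ⟨?_, ?_⟩
  · rintro ⟨X, s⟩ ⟨Y, t⟩ h
    have hv : ∀ (X : ZMod Q') (s : Fin L),
        (io L X + ((s : ℕ) : ZMod (L * Q'))).val = L * X.val + (s : ℕ) := by
      intro X s
      have e : io L X + ((s : ℕ) : ZMod (L * Q')) = ((L * X.val + (s : ℕ) : ℕ) : ZMod (L * Q')) := by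
        unfold io
        push_cast
        ring
      rw [e]
      refine ZMod.val_natCast_of_lt ?_
      have h1 := ZMod.val_lt X
      have h2 := s.2
      calc L * X.val + (s : ℕ) < L * X.val + L := by omega
        _ = L * (X.val + 1) := by ring
        _ ≤ L * Q' := Nat.mul_le_mul_left L h1
    have h' := congrArg ZMod.val h
    simp only [hv] at h'
    have hL : 0 < L := Nat.pos_of_ne_zero (NeZero.ne L)
    have h1 : X.val = Y.val := by
      have a1 : (L * X.val + (s : ℕ)) / L = X.val := by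
        rw [Nat.mul_add_div hL, Nat.div_eq_of_lt s.2, add_zero]
      have a2 : (L * Y.val + (t : ℕ)) / L = Y.val := by
        rw [Nat.mul_add_div hL, Nat.div_eq_of_lt t.2, add_zero]
      rw [← a1, ← a2, h']
    have h2 : (s : ℕ) = (t : ℕ) := by
      rw [h1] at h'
      exact Nat.add_left_cancel h'
    exact Prod.ext (ZMod.val_injective Q' h1) (Fin.ext h2)
  · rw [Fintype.card_prod, ZMod.card, ZMod.card, Fintype.card_fin, Nat.mul_comm]

/-- (ii) **a sum over `ZMod (L * Q')` in block coordinates** -/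
theorem sum_split [NeZero L] [NeZero Q'] [NeZero (L * Q')] (f : ZMod (L * Q') → ℝ) :
    ∑ x : ZMod (L * Q'), f x =
      ∑ X : ZMod Q', ∑ s : Fin L, f (io L X + ((s : ℕ) : ZMod (L * Q'))) := by
  have h := Function.Bijective.sum_comp (bij (L := L) (Q' := Q')) f
  rw [← h, Fintype.sum_prod_type]

end Crest.Agent.R079.GSa104
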