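import Crest.Agent.R079.PLDefs_931

/-! R079: block averages with a small offset (leaf of helper377's coarse-graining).  helper878. -/

set_option autoImplicit false

namespace Crest.Agent.R079.PotL

open Finset

/-- **the average over a block shifted by `c ∈ {-2, -1, 0}` is at most three block averages** -/
theorem bl_off {Q : ℕ} (f : ZMod Q → ℝ) (hf : ∀ x, 0 ≤ f x) {N : ℕ} (hN : 0 < N) (l c : ℤ)
    (hc : -2 ≤ c) (hc0 : c ≤ 0) :
    (1 / (N : ℝ)) * ∑ I ∈ range N, f ((l : ZMod Q) * (N : ZMod Q) + (I : ZMod Q) + (c : ZMod Q)) ≤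
      bl f N l + bl f N (l - 1) + bl f N (l - 2) := by
  obtain ⟨a, ha⟩ : ∃ a : ℕ, (a : ℤ) = 2 * N + c := ⟨(2 * (N : ℤ) + c).toNat, by omega⟩
  have ha2 : a ≤ 2 * N := by omega
  set G : ℕ → ℝ := fun j => f ((l : ZMod Q) * (N : ZMod Q) + (j : ZMod Q) - 2 * (N : ZMod Q))
    with hG
  have haZ : (a : ZMod Q) = 2 * (N : ZMod Q) + (c : ZMod Q) := by
    have h := congrArg (fun z : ℤ => (z : ZMod Q)) ha
    push_cast at h
    exact h
  have e0 : ∑ I ∈ range N, f ((l : ZMod Q) * (N : ZMod Q) + (I : ZMod Q) + (c : ZMod Q)) =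
      ∑ I ∈ range N, G (I + a) := by
    refine sum_congr rfl fun I _ => ?_
    rw [hG]
    show _ = f _
    congr 1
    push_cast
    rw [haZ]
    ring
  have e1 : ∑ I ∈ range N, G (I + a) ≤ ∑ j ∈ range (N + N + N), G j := by
    rw [range_eq_Ico, sum_Ico_add' G 0 N a]
    refine sum_le_sum_of_subset_of_nonneg (fun j hj => ?_) fun j _ _ => hf _
    rw [mem_Ico] at hj
    rw [mem_range]
    omega
  have e2 : ∑ j ∈ range (N + N + N), G j =
      ∑ i ∈ range N, f (((l - 2 : ℤ) : ZMod Q) * (N : ZMod Q) + (i : ZMod Q)) +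
      ∑ i ∈ range N, f (((l - 1 : ℤ) : ZMod Q) * (N : ZMod Q) + (i : ZMod Q)) +
      ∑ i ∈ range N, f ((l : ZMod Q) * (N : ZMod Q) + (i : ZMod Q)) := by
    rw [sum_range_add, sum_range_add]
    refine congrArg₂ _ (congrArg₂ _ ?_ ?_) ?_
    · refine sum_congr rfl fun i _ => ?_
      show f _ = f _
      congr 1
      push_cast
      ring
    · refine sum_congr rfl fun i _ => ?_
      show f _ = f _
      congr 1
      push_cast
      ring
    · refine sum_congr rfl fun i _ => ?_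
      show f _ = f _
      congr 1
      push_cast
      ring
  have hN' : (0 : ℝ) ≤ 1 / (N : ℝ) := by positivity
  unfold bl
  rw [e0]
  calc (1 / (N : ℝ)) * ∑ I ∈ range N, G (I + a)
      ≤ (1 / (N : ℝ)) * ∑ j ∈ range (N + N + N), G j := mul_le_mul_of_nonneg_left e1 hN'
    _ = _ := by rw [e2]; ring

end Crest.Agent.R079.PotL
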