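import Crest.Agent.R079.PLF7_377

/-! R079, S1 (g): `cornerL` at the leaf scale `2^m0` by coarse-graining (uniform leaves): the inner
positions of the leaf cells become labels, all shifts.  helper377. -/

set_option autoImplicit false
set_option linter.unusedVariables false
set_option linter.unusedSectionVars false

namespace Crest.Agent.R079.PotL

open Matrix Finset Crest.Agent.R072
open scoped MatrixOrder

namespace GS

/-! ### positions -/

section pos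

variable {L Q' : ℕ} [NeZero Q'] [NeZero L] [NeZero (L * Q')]

/-- coarse position -/
def io (X : ZMod Q') : ZMod (L * Q') := (L : ZMod (L * Q')) * (X.val : ZMod (L * Q'))

theorem cast_mul_mod (a : ℕ) : ((L * (a % Q') : ℕ) : ZMod (L * Q')) = ((L * a : ℕ) : ZMod (L * Q')) := by
  rw [← Nat.mul_mod_mul_left]
  exact ZMod.natCast_mod _ _

theorem io_add (X Y : ZMod Q') : (io (X + Y) : ZMod (L * Q')) = io X + io Y := by
  unfold io
  rw [ZMod.val_add]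
  have h := cast_mul_mod (L := L) (Q' := Q') (X.val + Y.val)
  push_cast at h
  rw [h]
  ring

theorem io_nat (n : ℕ) : (io ((n : ℕ) : ZMod Q') : ZMod (L * Q')) = (L : ZMod (L * Q')) * n := by
  unfold io
  rw [ZMod.val_natCast]
  have h := cast_mul_mod (L := L) (Q' := Q') n
  push_cast at h
  exact h

theorem io_zero : (io (0 : ZMod Q') : ZMod (L * Q')) = 0 := by
  have := io_nat (L := L) (Q' := Q') 0
  simpa using this

theorem io_neg (X : ZMod Q') : (io (-X) : ZMod (L * Q')) = -io X := by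
  have h := io_add (L := L) (-X) X
  rw [neg_add_cancel, io_zero] at h
  exact eq_neg_of_add_eq_zero_left h.symm

theorem io_sub (X Y : ZMod Q') : (io (X - Y) : ZMod (L * Q')) = io X - io Y := by
  rw [sub_eq_add_neg, io_add, io_neg, ← sub_eq_add_neg]

theorem io_int (z : ℤ) : (io ((z : ℤ) : ZMod Q') : ZMod (L * Q')) = (L : ZMod (L * Q')) * z := by
  rcases Int.eq_nat_or_neg z with ⟨n, rfl | rfl⟩
  · have := io_nat (L := L) (Q' := Q') n
    simpa using this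
  · have := io_nat (L := L) (Q' := Q') n
    push_cast
    rw [io_neg, this]
    ring

theorem sum_split (f : ZMod (L * Q') → ℝ) :
    ∑ x : ZMod (L * Q'), f x = ∑ X : ZMod Q', ∑ s : Fin L, f (io X + ((s : ℕ) : ZMod (L * Q'))) := by
  rw [← Fintype.sum_prod_type']
  symm
  refine Fintype.sum_bijective
    (fun a : ZMod Q' × Fin L => io a.1 + ((a.2 : ℕ) : ZMod (L * Q'))) ?_ _ _ (fun a => rfl)
  have hval : ∀ a : ZMod Q' × Fin L,
      (io a.1 + ((a.2 : ℕ) : ZMod (L * Q')) : ZMod (L * Q')).val = L * a.1.val + a.2 := by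
    intro a
    have e : (io a.1 + ((a.2 : ℕ) : ZMod (L * Q')) : ZMod (L * Q')) =
        ((L * a.1.val + (a.2 : ℕ) : ℕ) : ZMod (L * Q')) := by
      unfold io; push_cast; ring
    rw [e, ZMod.val_natCast]
    apply Nat.mod_eq_of_lt
    have h1 := ZMod.val_lt a.1
    have h2 := a.2.2
    calc L * a.1.val + a.2 < L * a.1.val + L := by omega
      _ = L * (a.1.val + 1) := by ring
      _ ≤ L * Q' := Nat.mul_le_mul_left _ h1
  have hL : 0 < L := Nat.pos_of_ne_zero (NeZero.ne L)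
  rw [Fintype.bijective_iff_injective_and_card]
  constructor
  · intro a b hab
    have h := congrArg ZMod.val hab
    simp only [hval] at h
    have h3 : (L * a.1.val + (a.2 : ℕ)) / L = (L * b.1.val + (b.2 : ℕ)) / L := by rw [h]
    have h4 : (L * a.1.val + (a.2 : ℕ)) % L = (L * b.1.val + (b.2 : ℕ)) % L := by rw [h]
    rw [Nat.mul_add_div hL, Nat.mul_add_div hL, Nat.div_eq_of_lt a.2.2, Nat.div_eq_of_lt b.2.2] at h3
    rw [Nat.mul_add_mod, Nat.mul_add_mod, Nat.mod_eq_of_lt a.2.2, Nat.mod_eq_of_lt b.2.2] at h4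
    have h5 : a.1.val = b.1.val := by omega
    exact Prod.ext (ZMod.val_injective _ h5) (Fin.ext h4)
  · simp [ZMod.card, mul_comm]

theorem range_split (N : ℕ) (h : ℕ → ℝ) :
    ∑ i ∈ range (L * N), h i = ∑ I ∈ range N, ∑ s ∈ range L, h (L * I + s) := by
  induction N with
  | zero => simp
  | succ N ih =>
    rw [mul_add, mul_one, Finset.sum_range_add, ih, Finset.sum_range_succ]

end pos

/-! ### coarse letters -/

section cg

variable {L Q' : ℕ} [NeZero Q'] [NeZero L] [NeZero (L * Q')]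
  {κ lam : Type*} [Fintype κ] [DecidableEq κ] [Fintype lam] [DecidableEq lam]

/-- coarse-grained letter: labels = inner positions, shifts `s`, `t` -/
noncomputable def cg (F : ZMod (L * Q') → ZMod (L * Q') → Matrix κ lam ℝ) (s t : ZMod (L * Q')) :
    ZMod Q' → ZMod Q' → Matrix (Fin L × κ) (Fin L × lam) ℝ :=
  fun X Y => Matrix.of fun a b =>
    (1 / (L : ℝ)) * F (io X + s + ((a.1 : ℕ) : ZMod (L * Q'))) (io Y + t + ((b.1 : ℕ) : ZMod (L * Q')))
      a.2 b.2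

theorem hs2_cg (F : ZMod (L * Q') → ZMod (L * Q') → Matrix κ lam ℝ) (s t : ZMod (L * Q'))
    (X Y : ZMod Q') : hs2 (cg F s t X Y) = (1 / (L : ℝ) ^ 2) * ∑ i : Fin L, ∑ j : Fin L,
      hs2 (F (io X + s + ((i : ℕ) : ZMod (L * Q'))) (io Y + t + ((j : ℕ) : ZMod (L * Q')))) := by
  unfold hs2 cg
  rw [Fintype.sum_prod_type]
  simp only [Fintype.sum_prod_type, Matrix.of_apply, mul_pow, Finset.mul_sum]
  refine Finset.sum_congr rfl fun i _ => ?_
  rw [Finset.sum_comm]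
  refine Finset.sum_congr rfl fun j _ => Finset.sum_congr rfl fun a _ =>
    Finset.sum_congr rfl fun b _ => ?_
  ring

theorem sum_hs2_cg (F : ZMod (L * Q') → ZMod (L * Q') → Matrix κ lam ℝ) (s t : ZMod (L * Q')) :
    ∑ X, ∑ Y, hs2 (cg F s t X Y) = (1 / (L : ℝ) ^ 2) * ∑ x, ∑ y, hs2 (F x y) := by
  simp only [hs2_cg]
  simp only [← Finset.mul_sum]
  congr 1
  have h1 : ∀ (g : ZMod (L * Q') → ℝ) (s : ZMod (L * Q')),
      ∑ X : ZMod Q', ∑ i : Fin L, g (io X + s + ((i : ℕ) : ZMod (L * Q'))) = ∑ x, g x := by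
    intro g s
    rw [← Equiv.sum_comp (Equiv.addRight s) g, sum_split]
    refine Finset.sum_congr rfl fun X _ => Finset.sum_congr rfl fun i _ => ?_
    rw [Equiv.coe_addRight]
    congr 1
    ring
  have h2 : ∑ X : ZMod Q', ∑ Y : ZMod Q', ∑ i : Fin L, ∑ j : Fin L,
      hs2 (F (io X + s + ((i : ℕ) : ZMod (L * Q'))) (io Y + t + ((j : ℕ) : ZMod (L * Q')))) =
      ∑ X : ZMod Q', ∑ i : Fin L, ∑ y, hs2 (F (io X + s + ((i : ℕ) : ZMod (L * Q'))) y) := by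
    refine Finset.sum_congr rfl fun X _ => ?_
    rw [Finset.sum_comm]
    refine Finset.sum_congr rfl fun i _ => ?_
    exact h1 (fun y => hs2 (F (io X + s + ((i : ℕ) : ZMod (L * Q'))) y)) t
  rw [h2]
  exact h1 (fun x => ∑ y, hs2 (F x y)) s

end cg

section box

variable {L Q' : ℕ} [NeZero Q'] [NeZero L] [NeZero (L * Q')]
  {κ0 κ1 κ2 : Type*} [Fintype κ0] [DecidableEq κ0] [Fintype κ1] [DecidableEq κ1]
  [Fintype κ2] [DecidableEq κ2]

/-- sum over the fine half box = sum over coarse cells and inner positions -/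
theorem fin_split (N : ℕ) (g : ZMod (L * Q') → ℝ) (P : ZMod Q') (s : ZMod (L * Q')) :
    ∑ i : Fin (L * N + L * N), hsgn (L * N) i * g (io P + s + ((i : ℕ) : ZMod (L * Q'))) =
      ∑ I : Fin (N + N), ∑ j : Fin L, hsgn N I *
        g (io (P + ((I : ℕ) : ZMod Q')) + s + ((j : ℕ) : ZMod (L * Q'))) := by
  have hL : 0 < L := Nat.pos_of_ne_zero (NeZero.ne L)
  have h1 : ∑ i : Fin (L * N + L * N), hsgn (L * N) i * g (io P + s + ((i : ℕ) : ZMod (L * Q'))) =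
      ∑ i ∈ range (L * (N + N)), (if i < L * N then (1 : ℝ) else -1) *
        g (io P + s + ((i : ℕ) : ZMod (L * Q'))) := by
    rw [mul_add, Finset.sum_range]
    rfl
  rw [h1, range_split, Finset.sum_range]
  refine Finset.sum_congr rfl fun I _ => ?_
  rw [Finset.sum_range]
  refine Finset.sum_congr rfl fun j _ => ?_
  have e : (L * (I : ℕ) + (j : ℕ) < L * N) ↔ ((I : ℕ) < N) := by
    constructor
    · intro h
      by_contra hn
      have : L * N ≤ L * (I : ℕ) := Nat.mul_le_mul_left _ (not_lt.mp hn)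
      omega
    · intro h
      have h2 : L * ((I : ℕ) + 1) ≤ L * N := Nat.mul_le_mul_left _ h
      have h3 := j.2
      rw [mul_add, mul_one] at h2
      omega
  unfold hsgn
  rw [if_congr e rfl rfl]
  congr 2
  rw [io_add, io_nat]
  push_cast
  ring

theorem trace_cg (F0 : ZMod (L * Q') → ZMod (L * Q') → Matrix κ0 κ1 ℝ)
    (F1 : ZMod (L * Q') → ZMod (L * Q') → Matrix κ1 κ2 ℝ)
    (F2 : ZMod (L * Q') → ZMod (L * Q') → Matrix κ2 κ0 ℝ) (s0 s1 s2 : ZMod (L * Q'))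
    (X0 X1 X2 : ZMod Q') :
    (cg F0 s0 s1 X0 X1 * cg F1 s1 s2 X1 X2 * cg F2 s2 s0 X2 X0).trace =
      (1 / (L : ℝ) ^ 3) * ∑ j0 : Fin L, ∑ j1 : Fin L, ∑ j2 : Fin L,
        (F0 (io X0 + s0 + ((j0 : ℕ) : ZMod (L * Q'))) (io X1 + s1 + ((j1 : ℕ) : ZMod (L * Q'))) *
          F1 (io X1 + s1 + ((j1 : ℕ) : ZMod (L * Q'))) (io X2 + s2 + ((j2 : ℕ) : ZMod (L * Q'))) *
          F2 (io X2 + s2 + ((j2 : ℕ) : ZMod (L * Q')))
            (io X0 + s0 + ((j0 : ℕ) : ZMod (L * Q')))).trace := by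
  have hl : ∀ (f : Fin L → Fin L → Fin L → κ0 → κ1 → κ2 → ℝ),
      ∑ j0, ∑ a, ∑ j2, ∑ c, ∑ j1, ∑ b, f j0 j1 j2 a b c =
        ∑ j0, ∑ j1, ∑ j2, ∑ a, ∑ c, ∑ b, f j0 j1 j2 a b c := by
    intro f
    refine Finset.sum_congr rfl fun j0 _ => ?_
    calc ∑ a, ∑ j2, ∑ c, ∑ j1, ∑ b, f j0 j1 j2 a b c
        = ∑ a, ∑ j1, ∑ j2, ∑ c, ∑ b, f j0 j1 j2 a b c := by
          refine Finset.sum_congr rfl fun a _ => ?_
          rw [Finset.sum_comm (s := (Finset.univ : Finset (Fin L))) (t := (Finset.univ : Finset (Fin L)))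
            (f := fun j1 j2 => ∑ c, ∑ b, f j0 j1 j2 a b c)]
          exact Finset.sum_congr rfl fun j2 _ => Finset.sum_comm
      _ = ∑ j1, ∑ a, ∑ j2, ∑ c, ∑ b, f j0 j1 j2 a b c := Finset.sum_comm
      _ = ∑ j1, ∑ j2, ∑ a, ∑ c, ∑ b, f j0 j1 j2 a b c :=
          Finset.sum_congr rfl fun j1 _ => Finset.sum_comm
  have hLHS : (cg F0 s0 s1 X0 X1 * cg F1 s1 s2 X1 X2 * cg F2 s2 s0 X2 X0).trace =
      ∑ j0 : Fin L, ∑ a, ∑ j2 : Fin L, ∑ c, ∑ j1 : Fin L, ∑ b,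
        cg F0 s0 s1 X0 X1 (j0, a) (j1, b) * cg F1 s1 s2 X1 X2 (j1, b) (j2, c) *
          cg F2 s2 s0 X2 X0 (j2, c) (j0, a) := by
    simp only [Matrix.trace, Matrix.diag_apply, Matrix.mul_apply, Fintype.sum_prod_type,
      Finset.sum_mul]
  rw [hLHS, hl (fun j0 j1 j2 a b c => cg F0 s0 s1 X0 X1 (j0, a) (j1, b) *
    cg F1 s1 s2 X1 X2 (j1, b) (j2, c) * cg F2 s2 s0 X2 X0 (j2, c) (j0, a))]
  simp only [Matrix.trace, Matrix.diag_apply, Matrix.mul_apply, Finset.sum_mul, Finset.mul_sum]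
  refine Finset.sum_congr rfl fun j0 _ => Finset.sum_congr rfl fun j1 _ =>
    Finset.sum_congr rfl fun j2 _ => Finset.sum_congr rfl fun a _ =>
    Finset.sum_congr rfl fun c _ => Finset.sum_congr rfl fun b _ => ?_
  simp only [cg, Matrix.of_apply]
  ring

theorem LboxL_cg (F0 : ZMod (L * Q') → ZMod (L * Q') → Matrix κ0 κ1 ℝ)
    (F1 : ZMod (L * Q') → ZMod (L * Q') → Matrix κ1 κ2 ℝ)
    (F2 : ZMod (L * Q') → ZMod (L * Q') → Matrix κ2 κ0 ℝ) (s0 s1 s2 : ZMod (L * Q'))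
    (N : ℕ) (P0 P1 P2 : ZMod Q') :
    LboxL (cg F0 s0 s1) (cg F1 s1 s2) (cg F2 s2 s0) N P0 P1 P2 =
      LboxL F0 F1 F2 (L * N) (io P0 + s0) (io P1 + s1) (io P2 + s2) := by
  have hL : (L : ℝ) ≠ 0 := by exact_mod_cast (NeZero.ne L)
  unfold LboxL
  simp only [trace_cg]
  set T : ZMod (L * Q') → ZMod (L * Q') → ZMod (L * Q') → ℝ := fun x0 x1 x2 =>
    (F0 x0 x1 * F1 x1 x2 * F2 x2 x0).trace with hT
  -- right side
  have hR : ∑ i0 : Fin (L * N + L * N), ∑ i1 : Fin (L * N + L * N), ∑ i2 : Fin (L * N + L * N),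
      hsgn (L * N) i0 * hsgn (L * N) i1 * hsgn (L * N) i2 *
        T (io P0 + s0 + ((i0 : ℕ) : ZMod (L * Q'))) (io P1 + s1 + ((i1 : ℕ) : ZMod (L * Q')))
          (io P2 + s2 + ((i2 : ℕ) : ZMod (L * Q'))) =
      ∑ I0 : Fin (N + N), ∑ j0 : Fin L, hsgn N I0 * ∑ I1 : Fin (N + N), ∑ j1 : Fin L, hsgn N I1 *
        ∑ I2 : Fin (N + N), ∑ j2 : Fin L, hsgn N I2 *
          T (io (P0 + ((I0 : ℕ) : ZMod Q')) + s0 + ((j0 : ℕ) : ZMod (L * Q')))
            (io (P1 + ((I1 : ℕ) : ZMod Q')) + s1 + ((j1 : ℕ) : ZMod (L * Q')))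
            (io (P2 + ((I2 : ℕ) : ZMod Q')) + s2 + ((j2 : ℕ) : ZMod (L * Q'))) := by
    have e : ∀ i0 : Fin (L * N + L * N), ∑ i1 : Fin (L * N + L * N), ∑ i2 : Fin (L * N + L * N),
        hsgn (L * N) i0 * hsgn (L * N) i1 * hsgn (L * N) i2 *
          T (io P0 + s0 + ((i0 : ℕ) : ZMod (L * Q'))) (io P1 + s1 + ((i1 : ℕ) : ZMod (L * Q')))
            (io P2 + s2 + ((i2 : ℕ) : ZMod (L * Q'))) =
        hsgn (L * N) i0 * (∑ I1 : Fin (N + N), ∑ j1 : Fin L, hsgn N I1 *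
          ∑ I2 : Fin (N + N), ∑ j2 : Fin L, hsgn N I2 *
            T (io P0 + s0 + ((i0 : ℕ) : ZMod (L * Q')))
              (io (P1 + ((I1 : ℕ) : ZMod Q')) + s1 + ((j1 : ℕ) : ZMod (L * Q')))
              (io (P2 + ((I2 : ℕ) : ZMod Q')) + s2 + ((j2 : ℕ) : ZMod (L * Q')))) := by
      intro i0
      rw [← fin_split N (fun x1 => ∑ I2 : Fin (N + N), ∑ j2 : Fin L, hsgn N I2 *
        T (io P0 + s0 + ((i0 : ℕ) : ZMod (L * Q'))) x1
          (io (P2 + ((I2 : ℕ) : ZMod Q')) + s2 + ((j2 : ℕ) : ZMod (L * Q')))) P1 s1, Finset.mul_sum]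
      refine Finset.sum_congr rfl fun i1 _ => ?_
      rw [← fin_split N (fun x2 => T (io P0 + s0 + ((i0 : ℕ) : ZMod (L * Q')))
        (io P1 + s1 + ((i1 : ℕ) : ZMod (L * Q'))) x2) P2 s2, ← mul_assoc, Finset.mul_sum]
      exact Finset.sum_congr rfl fun i2 _ => by ring
    rw [Finset.sum_congr rfl fun i0 _ => e i0]
    exact fin_split N (fun x0 => ∑ I1 : Fin (N + N), ∑ j1 : Fin L, hsgn N I1 *
          ∑ I2 : Fin (N + N), ∑ j2 : Fin L, hsgn N I2 *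
            T x0 (io (P1 + ((I1 : ℕ) : ZMod Q')) + s1 + ((j1 : ℕ) : ZMod (L * Q')))
              (io (P2 + ((I2 : ℕ) : ZMod Q')) + s2 + ((j2 : ℕ) : ZMod (L * Q')))) P0 s0
  rw [hR]
  -- left side
  have hc : (1 / (((N + N : ℕ) : ℝ) ^ 3)) * (1 / (L : ℝ) ^ 3) =
      1 / (((L * N + L * N : ℕ) : ℝ) ^ 3) := by
    push_cast
    rw [one_div_mul_one_div]
    congr 1
    ring
  rw [← hc, mul_assoc]
  congr 1
  simp only [Finset.mul_sum]
  refine Finset.sum_congr rfl fun I0 _ => ?_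
  have e1 : ∀ I1 : Fin (N + N), ∑ I2 : Fin (N + N), ∑ j0 : Fin L, ∑ j1 : Fin L, ∑ j2 : Fin L,
      hsgn N I0 * hsgn N I1 * hsgn N I2 * (1 / (L : ℝ) ^ 3 *
        T (io (P0 + ((I0 : ℕ) : ZMod Q')) + s0 + ((j0 : ℕ) : ZMod (L * Q')))
          (io (P1 + ((I1 : ℕ) : ZMod Q')) + s1 + ((j1 : ℕ) : ZMod (L * Q')))
          (io (P2 + ((I2 : ℕ) : ZMod Q')) + s2 + ((j2 : ℕ) : ZMod (L * Q')))) =
      ∑ j0 : Fin L, ∑ j1 : Fin L, ∑ I2 : Fin (N + N), ∑ j2 : Fin L,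
      1 / (L : ℝ) ^ 3 * (hsgn N I0 * (hsgn N I1 * (hsgn N I2 *
        T (io (P0 + ((I0 : ℕ) : ZMod Q')) + s0 + ((j0 : ℕ) : ZMod (L * Q')))
          (io (P1 + ((I1 : ℕ) : ZMod Q')) + s1 + ((j1 : ℕ) : ZMod (L * Q')))
          (io (P2 + ((I2 : ℕ) : ZMod Q')) + s2 + ((j2 : ℕ) : ZMod (L * Q')))))) := by
    intro I1
    rw [Finset.sum_comm]
    refine Finset.sum_congr rfl fun j0 _ => ?_
    rw [Finset.sum_comm]
    refine Finset.sum_congr rfl fun j1 _ => Finset.sum_congr rfl fun I2 _ =>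
      Finset.sum_congr rfl fun j2 _ => ?_
    ring
  rw [Finset.sum_congr rfl fun I1 _ => e1 I1, Finset.sum_comm]

/-- block averages of a nonnegative box functional: fine = average over the shifts of coarse -/
theorem bl_cg (f : ZMod (L * Q') → ZMod (L * Q') → ZMod (L * Q') → ℝ) {N : ℕ} (hN : 0 < N) (l : ℤ) :
    bl (fun n => ∑ p0, ∑ p1, f p0 p1 (n - p0 - p1)) (L * N) l =
      (1 / (L : ℝ)) * ∑ i : Fin L, ∑ s0 : Fin L, ∑ s1 : Fin L,
        bl (fun n : ZMod Q' => ∑ P0 : ZMod Q', ∑ P1 : ZMod Q',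
          f (io P0 + ((s0 : ℕ) : ZMod (L * Q'))) (io P1 + ((s1 : ℕ) : ZMod (L * Q')))
            (io (n - P0 - P1) + (((i : ℕ) : ZMod (L * Q')) - ((s0 : ℕ) : ZMod (L * Q')) -
              ((s1 : ℕ) : ZMod (L * Q'))))) N l := by
  have hL : (L : ℝ) ≠ 0 := by exact_mod_cast (NeZero.ne L)
  have hN' : (N : ℝ) ≠ 0 := by exact_mod_cast hN.ne'
  unfold bl
  have hpt : ∀ I j : ℕ, ∑ p0, ∑ p1, f p0 p1 ((l : ZMod (L * Q')) * ((L * N : ℕ) : ZMod (L * Q')) +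
      ((L * I + j : ℕ) : ZMod (L * Q')) - p0 - p1) =
      ∑ s0 : Fin L, ∑ s1 : Fin L, ∑ P0 : ZMod Q', ∑ P1 : ZMod Q',
          f (io P0 + ((s0 : ℕ) : ZMod (L * Q'))) (io P1 + ((s1 : ℕ) : ZMod (L * Q')))
            (io ((l : ZMod Q') * (N : ZMod Q') + (I : ZMod Q') - P0 - P1) +
              ((j : ZMod (L * Q')) - ((s0 : ℕ) : ZMod (L * Q')) - ((s1 : ℕ) : ZMod (L * Q')))) := by
    intro I j
    have e0 : (l : ZMod (L * Q')) * ((L * N : ℕ) : ZMod (L * Q')) +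
        ((L * I + j : ℕ) : ZMod (L * Q')) =
        io ((l : ZMod Q') * (N : ZMod Q') + (I : ZMod Q')) + (j : ZMod (L * Q')) := by
      have h := io_int (L := L) (Q' := Q') (l * N + I)
      push_cast at h
      rw [h]
      push_cast
      ring
    rw [e0, sum_split]
    have e1 : ∀ (P0 : ZMod Q') (s0 : Fin L), ∑ p1, f (io P0 + ((s0 : ℕ) : ZMod (L * Q'))) p1
        (io ((l : ZMod Q') * (N : ZMod Q') + (I : ZMod Q')) + (j : ZMod (L * Q')) -
          (io P0 + ((s0 : ℕ) : ZMod (L * Q'))) - p1) =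
        ∑ s1 : Fin L, ∑ P1 : ZMod Q',
          f (io P0 + ((s0 : ℕ) : ZMod (L * Q'))) (io P1 + ((s1 : ℕ) : ZMod (L * Q')))
            (io ((l : ZMod Q') * (N : ZMod Q') + (I : ZMod Q') - P0 - P1) +
              ((j : ZMod (L * Q')) - ((s0 : ℕ) : ZMod (L * Q')) - ((s1 : ℕ) : ZMod (L * Q')))) := by
      intro P0 s0
      rw [sum_split, Finset.sum_comm]
      refine Finset.sum_congr rfl fun s1 _ => Finset.sum_congr rfl fun P1 _ => ?_
      congr 1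
      rw [io_sub, io_sub]
      ring
    simp only [e1]
    rw [Finset.sum_comm]
    refine Finset.sum_congr rfl fun s0 _ => ?_
    rw [Finset.sum_comm]
  rw [range_split]
  simp only [hpt]
  have e2 : ∀ F : ℕ → ℕ → Fin L → Fin L → ℝ, (1 / ((L * N : ℕ) : ℝ)) *
      ∑ I ∈ range N, ∑ j ∈ range L, ∑ s0 : Fin L, ∑ s1 : Fin L, F I j s0 s1 =
      (1 / (L : ℝ)) * ∑ i : Fin L, ∑ s0 : Fin L, ∑ s1 : Fin L,
        (1 / (N : ℝ)) * ∑ I ∈ range N, F I (i : ℕ) s0 s1 := by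
    intro F
    have hc : (1 / ((L * N : ℕ) : ℝ)) = (1 / (L : ℝ)) * (1 / (N : ℝ)) := by
      push_cast; field_simp
    rw [hc, mul_assoc]
    congr 1
    simp only [← Finset.mul_sum]
    congr 1
    rw [Finset.sum_comm, Finset.sum_range]
    refine Finset.sum_congr rfl fun i _ => ?_
    rw [Finset.sum_comm]
    refine Finset.sum_congr rfl fun s0 _ => ?_
    rw [Finset.sum_comm]
  exact e2 (fun I j s0 s1 => ∑ P0 : ZMod Q', ∑ P1 : ZMod Q',
          f (io P0 + ((s0 : ℕ) : ZMod (L * Q'))) (io P1 + ((s1 : ℕ) : ZMod (L * Q')))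
            (io ((l : ZMod Q') * (N : ZMod Q') + (I : ZMod Q') - P0 - P1) +
              ((j : ZMod (L * Q')) - ((s0 : ℕ) : ZMod (L * Q')) - ((s1 : ℕ) : ZMod (L * Q')))))

/-- `L × L` block of a letter at the position `(p, q)` -/
def blkm {κ lam : Type*} (F : ZMod (L * Q') → ZMod (L * Q') → Matrix κ lam ℝ)
    (p q : ZMod (L * Q')) : Matrix (Fin L × κ) (Fin L × lam) ℝ :=
  Matrix.of fun a b => F (p + ((a.1 : ℕ) : ZMod (L * Q'))) (q + ((b.1 : ℕ) : ZMod (L * Q'))) a.2 b.2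

/-- **the labelled corner at the leaf scale `L`**: smallness of the killer in the operator norm of
all blocks of side `L`, energies of the two other letters on the blocks of side `L`. -/
theorem cornerLc (F0 : ZMod (L * Q') → ZMod (L * Q') → Matrix κ0 κ1 ℝ)
    (F1 : ZMod (L * Q') → ZMod (L * Q') → Matrix κ1 κ2 ℝ)
    (F2 : ZMod (L * Q') → ZMod (L * Q') → Matrix κ2 κ0 ℝ)
    {M : ℕ} (hQ : 2 ^ M ∣ Q') (k : ℕ) (l : ℤ) (hk : 2 * |l| + 20 ≤ 2 ^ k) (J : ℕ)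
    {a2 b2 r τ : ℝ} (ha2 : 0 < a2) (hb2 : 0 < b2) (hr : 0 < r) (hτ : 0 < τ)
    (hA : ∑ x, ∑ y, hs2 (F0 x y) ≤ a2) (hB : ∑ x, ∑ y, hs2 (F1 x y) ≤ b2)
    (hA0 : ∀ p q, ∑ i : Fin L, ∑ j : Fin L, hs2 (F0 (p + ((i : ℕ) : ZMod (L * Q')))
      (q + ((j : ℕ) : ZMod (L * Q')))) ≤ a2 / r)
    (hB0 : ∀ p q, ∑ i : Fin L, ∑ j : Fin L, hs2 (F1 (p + ((i : ℕ) : ZMod (L * Q')))
      (q + ((j : ℕ) : ZMod (L * Q')))) ≤ b2 / r)
    (hF2 : ∀ p q (v : Fin L × κ2 → ℝ), ((blkm F2 p q)ᵀ *ᵥ v) ⬝ᵥ ((blkm F2 p q)ᵀ *ᵥ v) ≤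
      (L * τ) ^ 2 * (v ⬝ᵥ v))
    (hJ : ∑ x, ∑ y, hs2 (F2 x y) ≤ (L * τ) ^ 2 * (r * 2 ^ J)) :
    ∑ m ∈ range M, bl (fun n => ∑ p0, ∑ p1,
        |LboxL F0 F1 F2 (L * 2 ^ m) p0 p1 (n - p0 - p1)|) (L * 2 ^ m) l ≤
      (2 * J + 1) * Ck k l * (τ * √a2 * √b2) := by
  have hLn : 0 < L := Nat.pos_of_ne_zero (NeZero.ne L)
  have hL : (0 : ℝ) < L := by exact_mod_cast hLn
  have hL2 : (0 : ℝ) < (L : ℝ) ^ 2 := by positivity
  -- one shift
  have h1 : ∀ s0 s1 s2 : ZMod (L * Q'),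
      ∑ m ∈ range M, bl (fun n : ZMod Q' => ∑ P0 : ZMod Q', ∑ P1 : ZMod Q',
        |LboxL F0 F1 F2 (L * 2 ^ m) (io P0 + s0) (io P1 + s1) (io (n - P0 - P1) + s2)|) (2 ^ m) l ≤
      (2 * J + 1) * Ck k l * (τ * √a2 * √b2) / (L : ℝ) ^ 2 := by
    intro s0 s1 s2
    have hc := cornerL (cg F0 s0 s1) (cg F1 s1 s2) (cg F2 s2 s0) hQ k l hk J
      (a2 := a2 / (L : ℝ) ^ 2) (b2 := b2 / (L : ℝ) ^ 2) (r := r) (τ := τ)
      (by positivity) (by positivity) hr hτ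
      (by rw [sum_hs2_cg, div_mul_eq_mul_div, one_mul]
          exact div_le_div_of_nonneg_right hA hL2.le)
      (by rw [sum_hs2_cg, div_mul_eq_mul_div, one_mul]
          exact div_le_div_of_nonneg_right hB hL2.le)
      (by
        intro x y
        rw [hs2_cg, div_mul_eq_mul_div, one_mul, div_right_comm]
        exact div_le_div_of_nonneg_right (hA0 _ _) hL2.le)
      (by
        intro x y
        rw [hs2_cg, div_mul_eq_mul_div, one_mul, div_right_comm]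
        exact div_le_div_of_nonneg_right (hB0 _ _) hL2.le)
      (by
        intro x x0 v
        have h := hF2 (io x + s2) (io x0 + s0) v
        have e : cg F2 s2 s0 x x0 = (1 / (L : ℝ)) • blkm F2 (io x + s2) (io x0 + s0) := by
          ext a b
          simp [cg, blkm]
        rw [e, transpose_smul, Matrix.smul_mulVec, dotProduct_smul, smul_dotProduct, smul_eq_mul,
          smul_eq_mul]
        calc 1 / (L : ℝ) * (1 / (L : ℝ) * (((blkm F2 (io x + s2) (io x0 + s0))ᵀ *ᵥ v) ⬝ᵥ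
              ((blkm F2 (io x + s2) (io x0 + s0))ᵀ *ᵥ v)))
            ≤ 1 / (L : ℝ) * (1 / (L : ℝ) * ((L * τ) ^ 2 * (v ⬝ᵥ v))) := by
              have : (0 : ℝ) ≤ 1 / (L : ℝ) := by positivity
              exact mul_le_mul_of_nonneg_left (mul_le_mul_of_nonneg_left h this) this
          _ = τ ^ 2 * (v ⬝ᵥ v) := by field_simp)
      (by
        rw [sum_hs2_cg]
        calc (1 / (L : ℝ) ^ 2) * ∑ x, ∑ y, hs2 (F2 x y)
            ≤ (1 / (L : ℝ) ^ 2) * ((L * τ) ^ 2 * (r * 2 ^ J)) :=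
              mul_le_mul_of_nonneg_left hJ (by positivity)
          _ = τ ^ 2 * (r * 2 ^ J) := by field_simp)
    simp only [LboxL_cg] at hc
    refine hc.trans (le_of_eq ?_)
    rw [Real.sqrt_div ha2.le, Real.sqrt_div hb2.le, Real.sqrt_sq hL.le]
    field_simp
  have h2 : ∀ m ∈ range M, bl (fun n => ∑ p0, ∑ p1,
        |LboxL F0 F1 F2 (L * 2 ^ m) p0 p1 (n - p0 - p1)|) (L * 2 ^ m) l =
      (1 / (L : ℝ)) * ∑ i : Fin L, ∑ s0 : Fin L, ∑ s1 : Fin L,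
        bl (fun n : ZMod Q' => ∑ P0 : ZMod Q', ∑ P1 : ZMod Q',
          |LboxL F0 F1 F2 (L * 2 ^ m) (io P0 + ((s0 : ℕ) : ZMod (L * Q')))
            (io P1 + ((s1 : ℕ) : ZMod (L * Q')))
            (io (n - P0 - P1) + (((i : ℕ) : ZMod (L * Q')) - ((s0 : ℕ) : ZMod (L * Q')) -
              ((s1 : ℕ) : ZMod (L * Q'))))|) (2 ^ m) l :=
    fun m _ => bl_cg (fun x y z => |LboxL F0 F1 F2 (L * 2 ^ m) x y z|) (by positivity) l
  rw [Finset.sum_congr rfl h2, ← Finset.mul_sum]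
  have h3 : ∑ m ∈ range M, ∑ i : Fin L, ∑ s0 : Fin L, ∑ s1 : Fin L,
        bl (fun n : ZMod Q' => ∑ P0 : ZMod Q', ∑ P1 : ZMod Q',
          |LboxL F0 F1 F2 (L * 2 ^ m) (io P0 + ((s0 : ℕ) : ZMod (L * Q')))
            (io P1 + ((s1 : ℕ) : ZMod (L * Q')))
            (io (n - P0 - P1) + (((i : ℕ) : ZMod (L * Q')) - ((s0 : ℕ) : ZMod (L * Q')) -
              ((s1 : ℕ) : ZMod (L * Q'))))|) (2 ^ m) l =
      ∑ i : Fin L, ∑ s0 : Fin L, ∑ s1 : Fin L, ∑ m ∈ range M,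
        bl (fun n : ZMod Q' => ∑ P0 : ZMod Q', ∑ P1 : ZMod Q',
          |LboxL F0 F1 F2 (L * 2 ^ m) (io P0 + ((s0 : ℕ) : ZMod (L * Q')))
            (io P1 + ((s1 : ℕ) : ZMod (L * Q')))
            (io (n - P0 - P1) + (((i : ℕ) : ZMod (L * Q')) - ((s0 : ℕ) : ZMod (L * Q')) -
              ((s1 : ℕ) : ZMod (L * Q'))))|) (2 ^ m) l := by
    rw [Finset.sum_comm]
    refine Finset.sum_congr rfl fun i _ => ?_
    rw [Finset.sum_comm]
    refine Finset.sum_congr rfl fun s0 _ => ?_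
    rw [Finset.sum_comm]
  rw [h3]
  calc (1 / (L : ℝ)) * ∑ i : Fin L, ∑ s0 : Fin L, ∑ s1 : Fin L, ∑ m ∈ range M, _
      ≤ (1 / (L : ℝ)) * ∑ i : Fin L, ∑ s0 : Fin L, ∑ s1 : Fin L,
        ((2 * J + 1) * Ck k l * (τ * √a2 * √b2) / (L : ℝ) ^ 2) := by
        refine mul_le_mul_of_nonneg_left ?_ (by positivity)
        exact Finset.sum_le_sum fun i _ => Finset.sum_le_sum fun s0 _ =>
          Finset.sum_le_sum fun s1 _ => h1 _ _ _
    _ = _ := by
        simp only [Finset.sum_const, Finset.card_univ, Fintype.card_fin, nsmul_eq_mul]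
        field_simp

end box

end GS

end Crest.Agent.R079.PotL
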