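import Crest.Agent.R079.PLMask_931
import Crest.Agent.R072.Node

/-! R079, LABELLED line potentials: the instance `phi M = tr M^{3/2}` and the node inequality for
boxes with labels.  Letters `F0 x0 x1 : Matrix κ0 κ1`, `F1 x1 x2 : Matrix κ1 κ2`,
`F2 x2 x0 : Matrix κ2 κ0`; constants do not see the label types.  helper931. -/

set_option autoImplicit false
set_option linter.unusedVariables false
set_option linter.unusedSectionVars false

namespace Crest.Agent.R079.PotL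

open Matrix Finset Crest.Agent.R072
open scoped MatrixOrder

section inst

variable {α : Type*} [Fintype α] [DecidableEq α]

/-- the potential `tr M^{3/2}`, companion itself -/
noncomputable def phiP (α : Type*) [Fintype α] [DecidableEq α] : TPot α where
  F := fun _ M => phi M
  E := fun _ M => phi M

/-- half box sign, labels do not matter -/
noncomputable def hsL (r : ℕ) (α : Type*) (j : Fin (r + r) × α) : ℝ := hsgn r j.1

theorem hsL_mul_self (r : ℕ) (j : Fin (r + r) × α) : hsL r α j * hsL r α j = 1 :=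
  hsgn_mul_self r j.1

/-- `(Fin r × α) ⊕ (Fin r × α) ≃ Fin (r + r) × α` -/
def eqL (r : ℕ) (α : Type*) : (Fin r × α) ⊕ (Fin r × α) ≃ Fin (r + r) × α :=
  (Equiv.sumProdDistrib (Fin r) (Fin r) α).symm.trans
    (Equiv.prodCongr finSumFinEquiv (Equiv.refl α))

theorem eqL_inl (r : ℕ) (i : Fin r × α) :
    eqL r α (Sum.inl i) = (Fin.castAdd r i.1, i.2) := by
  rcases i with ⟨i, s⟩
  simp [eqL]

theorem eqL_inr (r : ℕ) (i : Fin r × α) :
    eqL r α (Sum.inr i) = (Fin.natAdd r i.1, i.2) := by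
  rcases i with ⟨i, s⟩
  simp [eqL]

/-- splitting of `Gam` for the half-box signs into diagonal blocks, with labels -/
theorem Gam_hsL (r : ℕ) {M : Matrix (Fin (r + r) × α) (Fin (r + r) × α) ℝ}
    (hM : M.PosSemidef) :
    Gam (hsL r α) M = gam (fun _ M => phi M) r M := by
  have hA : (blkA r M).PosSemidef := (hM.submatrix _).smul (by norm_num)
  have hD : (blkB r M).PosSemidef := (hM.submatrix _).smul (by norm_num)
  have e : (M + diagonal (hsL r α) * M * diagonal (hsL r α)).submatrix (eqL r α) (eqL r α) =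
      fromBlocks (blkA r M) 0 0 (blkB r M) := by
    ext i j
    rcases i with ⟨i, s⟩ | ⟨i, s⟩ <;> rcases j with ⟨j, t⟩ | ⟨j, t⟩ <;>
      simp [hsL, hsgn, diagonal_mul, mul_diagonal, two_mul, eqL_inl, eqL_inr, blkA, blkB]
  have hc := psd_conj hM (diagonal (hsL r α))
  rw [diagonal_transpose] at hc
  have e2 := phi_submatrix_equiv (eqL r α) (hM.add hc)
  rw [Gam, ← e2, e, phi_fromBlocks hA hD]
  rfl

theorem goodPot_phi : GoodPot (α := α) (fun _ M => phi M) where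
  nonneg := fun r M hM => phi_nonneg hM
  supp := by
    intro r Z hZ
    refine ⟨(3 / 2 : ℝ) • ((Matrix.traceLinearMap (Fin r × α) ℝ ℝ).comp
      (LinearMap.mulLeft ℝ (CFC.sqrt Z))), fun X hX => ?_⟩
    have h := breg_nonneg hZ hX
    rw [breg] at h
    simp only [LinearMap.smul_apply, LinearMap.comp_apply, LinearMap.mulLeft_apply,
      Matrix.traceLinearMap_apply, smul_eq_mul]
    linarith
  split := by
    intro r M hM
    rw [← Gam_hsL r hM]
    exact Gam_nonneg hM _ (hsL_mul_self r)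

theorem good_phiP : Good (phiP α) 4 where
  c0 := by norm_num
  F := goodPot_phi
  E := goodPot_phi
  mixed := by
    intro r a₁ a₂ b₁ b₂ h1 h2 h3 h4
    exact phi_mixed_abs h1 h2 h3 h4

end inst

section box

variable {Q : ℕ} [NeZero Q] {κ0 κ1 κ2 : Type*} [Fintype κ0] [DecidableEq κ0]
  [Fintype κ1] [DecidableEq κ1] [Fintype κ2] [DecidableEq κ2]

/-- normalised labelled box matrix -/
noncomputable def bm (F : ZMod Q → ZMod Q → Matrix κ0 κ1 ℝ) (r : ℕ) (p q : ZMod Q) :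
    Matrix (Fin r × κ0) (Fin r × κ1) ℝ :=
  fun i j => (1 / (r : ℝ)) * F (p + ((i.1 : ℕ) : ZMod Q)) (q + ((j.1 : ℕ) : ZMod Q)) i.2 j.2

theorem bm_mul_transpose (F : ZMod Q → ZMod Q → Matrix κ0 κ1 ℝ) (r : ℕ) (p q : ZMod Q) :
    bm F r p q * (bm F r p q)ᵀ = abar (fun x y => (F y x)ᵀ) r r q p := by
  ext i j
  simp only [bm, abar, Matrix.mul_apply, Matrix.transpose_apply]
  rw [Finset.sum_range, Finset.mul_sum, Fintype.sum_prod_type]
  refine Finset.sum_congr rfl fun k _ => ?_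
  rw [Finset.mul_sum]
  refine Finset.sum_congr rfl fun l _ => ?_
  ring

theorem transpose_mul_bm (F : ZMod Q → ZMod Q → Matrix κ0 κ1 ℝ) (r : ℕ) (p q : ZMod Q) :
    (bm F r p q)ᵀ * bm F r p q = abar F r r p q := by
  ext i j
  simp only [bm, abar, Matrix.mul_apply, Matrix.transpose_apply]
  rw [Finset.sum_range, Finset.mul_sum, Fintype.sum_prod_type]
  refine Finset.sum_congr rfl fun k _ => ?_
  rw [Finset.mul_sum]
  refine Finset.sum_congr rfl fun l _ => ?_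
  ring

/-- the Haar box form with labels: `(1/(2N))³ Σ sgn sgn sgn tr (F0(x0,x1) F1(x1,x2) F2(x2,x0))`
over the box of side `2N` at `(p0, p1, p2)` -/
noncomputable def LboxL (F0 : ZMod Q → ZMod Q → Matrix κ0 κ1 ℝ)
    (F1 : ZMod Q → ZMod Q → Matrix κ1 κ2 ℝ) (F2 : ZMod Q → ZMod Q → Matrix κ2 κ0 ℝ)
    (N : ℕ) (p0 p1 p2 : ZMod Q) : ℝ :=
  (1 / (((N + N : ℕ) : ℝ) ^ 3)) * ∑ i0 : Fin (N + N), ∑ i1 : Fin (N + N), ∑ i2 : Fin (N + N),
    hsgn N i0 * hsgn N i1 * hsgn N i2 *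
      (F0 (p0 + ((i0 : ℕ) : ZMod Q)) (p1 + ((i1 : ℕ) : ZMod Q)) *
        F1 (p1 + ((i1 : ℕ) : ZMod Q)) (p2 + ((i2 : ℕ) : ZMod Q)) *
        F2 (p2 + ((i2 : ℕ) : ZMod Q)) (p0 + ((i0 : ℕ) : ZMod Q))).trace

theorem LboxL_eq_trace (F0 : ZMod Q → ZMod Q → Matrix κ0 κ1 ℝ)
    (F1 : ZMod Q → ZMod Q → Matrix κ1 κ2 ℝ) (F2 : ZMod Q → ZMod Q → Matrix κ2 κ0 ℝ)
    (N : ℕ) (p0 p1 p2 : ZMod Q) :
    LboxL F0 F1 F2 N p0 p1 p2 =
      (diagonal (hsL N κ0) * bm F0 (N + N) p0 p1 * diagonal (hsL N κ1) *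
        bm F1 (N + N) p1 p2 * diagonal (hsL N κ2) * bm F2 (N + N) p2 p0).trace := by
  have hR : (diagonal (hsL N κ0) * bm F0 (N + N) p0 p1 * diagonal (hsL N κ1) *
        bm F1 (N + N) p1 p2 * diagonal (hsL N κ2) * bm F2 (N + N) p2 p0).trace =
      ∑ i0 : Fin (N + N), ∑ i1 : Fin (N + N), ∑ i2 : Fin (N + N),
        ∑ s0 : κ0, ∑ s1 : κ1, ∑ s2 : κ2,
          hsgn N i0 * bm F0 (N + N) p0 p1 (i0, s0) (i1, s1) * hsgn N i1 *
            bm F1 (N + N) p1 p2 (i1, s1) (i2, s2) * hsgn N i2 *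
            bm F2 (N + N) p2 p0 (i2, s2) (i0, s0) := by
    rw [Matrix.trace, Fintype.sum_prod_type]
    refine Finset.sum_congr rfl fun i0 _ => ?_
    have h1 : ∀ s0 : κ0, (diagonal (hsL N κ0) * bm F0 (N + N) p0 p1 * diagonal (hsL N κ1) *
        bm F1 (N + N) p1 p2 * diagonal (hsL N κ2) * bm F2 (N + N) p2 p0).diag (i0, s0) =
        ∑ i1 : Fin (N + N), ∑ i2 : Fin (N + N), ∑ s1 : κ1, ∑ s2 : κ2,
          hsgn N i0 * bm F0 (N + N) p0 p1 (i0, s0) (i1, s1) * hsgn N i1 *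
            bm F1 (N + N) p1 p2 (i1, s1) (i2, s2) * hsgn N i2 *
            bm F2 (N + N) p2 p0 (i2, s2) (i0, s0) := by
      intro s0
      rw [Matrix.diag_apply, Matrix.mul_apply]
      have h2 : ∀ j2 : Fin (N + N) × κ2, (diagonal (hsL N κ0) * bm F0 (N + N) p0 p1 *
          diagonal (hsL N κ1) * bm F1 (N + N) p1 p2 * diagonal (hsL N κ2)) (i0, s0) j2 =
          ∑ j1 : Fin (N + N) × κ1, hsgn N i0 * bm F0 (N + N) p0 p1 (i0, s0) j1 *
            hsgn N j1.1 * bm F1 (N + N) p1 p2 j1 j2 * hsgn N j2.1 := by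
        intro j2
        rw [Matrix.mul_diagonal, Matrix.mul_apply, Finset.sum_mul]
        refine Finset.sum_congr rfl fun j1 _ => ?_
        rw [Matrix.mul_diagonal, Matrix.diagonal_mul]
        rfl
      simp_rw [h2, Finset.sum_mul]
      rw [Finset.sum_comm]
      simp_rw [Fintype.sum_prod_type]
      refine Finset.sum_congr rfl fun i1 _ => ?_
      rw [Finset.sum_comm]
    rw [Finset.sum_congr rfl fun s0 _ => h1 s0, Finset.sum_comm]
    refine Finset.sum_congr rfl fun i1 _ => ?_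
    rw [Finset.sum_comm]
  rw [hR, LboxL, Finset.mul_sum]
  refine Finset.sum_congr rfl fun i0 _ => ?_
  rw [Finset.mul_sum]
  refine Finset.sum_congr rfl fun i1 _ => ?_
  rw [Finset.mul_sum]
  refine Finset.sum_congr rfl fun i2 _ => ?_
  rw [Matrix.trace, Finset.mul_sum, Finset.mul_sum]
  refine Finset.sum_congr rfl fun s0 _ => ?_
  rw [Matrix.diag_apply, Matrix.mul_apply]
  simp_rw [Matrix.mul_apply, Finset.sum_mul, Finset.mul_sum]
  rw [Finset.sum_comm]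
  refine Finset.sum_congr rfl fun s1 _ => Finset.sum_congr rfl fun s2 _ => ?_
  simp only [bm]
  push_cast
  ring

/-- node inequality for one labelled box -/
theorem LboxL_le_node (F0 : ZMod Q → ZMod Q → Matrix κ0 κ1 ℝ)
    (F1 : ZMod Q → ZMod Q → Matrix κ1 κ2 ℝ) (F2 : ZMod Q → ZMod Q → Matrix κ2 κ0 ℝ)
    (N : ℕ) (p0 p1 p2 : ZMod Q) :
    |LboxL F0 F1 F2 N p0 p1 p2| ≤ (Real.pi / 2) *
      (gam (phiP κ1).F N (abar F0 (N + N) (N + N) p0 p1 +
          abar (fun x y => (F1 y x)ᵀ) (N + N) (N + N) p2 p1) +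
        gam (phiP κ2).F N (abar F1 (N + N) (N + N) p1 p2 +
          abar (fun x y => (F2 y x)ᵀ) (N + N) (N + N) p0 p2) +
        gam (phiP κ0).F N (abar F2 (N + N) (N + N) p2 p0 +
          abar (fun x y => (F0 y x)ᵀ) (N + N) (N + N) p1 p0)) := by
  have h := node_ineq (bm F0 (N + N) p0 p1) (bm F1 (N + N) p1 p2)
    (bm F2 (N + N) p2 p0) (hsL N κ0) (hsL N κ1) (hsL N κ2) (hsL_mul_self N) (hsL_mul_self N)
    (hsL_mul_self N)
  rw [← LboxL_eq_trace, bm_mul_transpose, bm_mul_transpose, bm_mul_transpose,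
    transpose_mul_bm, transpose_mul_bm, transpose_mul_bm] at h
  rw [Gam_hsL N (abar_add_posSemidef _ _ _ _ _ _ _ _),
    Gam_hsL N (abar_add_posSemidef _ _ _ _ _ _ _ _),
    Gam_hsL N (abar_add_posSemidef _ _ _ _ _ _ _ _)] at h
  refine h.trans (le_of_eq ?_)
  rw [add_comm (abar (fun x y => (F0 y x)ᵀ) (N + N) (N + N) p1 p0)]
  simp only [phiP]
  ring

/-- node inequality summed over all labelled boxes with `p0 + p1 + p2 = n` -/
theorem LboxL_le (F0 : ZMod Q → ZMod Q → Matrix κ0 κ1 ℝ)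
    (F1 : ZMod Q → ZMod Q → Matrix κ1 κ2 ℝ) (F2 : ZMod Q → ZMod Q → Matrix κ2 κ0 ℝ)
    (N : ℕ) (n : ZMod Q) :
    ∑ p0 : ZMod Q, ∑ p1 : ZMod Q, |LboxL F0 F1 F2 N p0 p1 (n - p0 - p1)| ≤
      (Real.pi / 2) *
        (GW (phiP κ1) F0 (fun x y => (F1 y x)ᵀ) N n +
          GW (phiP κ2) F1 (fun x y => (F2 y x)ᵀ) N n +
          GW (phiP κ0) F2 (fun x y => (F0 y x)ᵀ) N n) := by
  have h1 : ∑ p0 : ZMod Q, ∑ p1 : ZMod Q, |LboxL F0 F1 F2 N p0 p1 (n - p0 - p1)| ≤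
      ∑ p0 : ZMod Q, ∑ p1 : ZMod Q, (Real.pi / 2) *
      (gam (phiP κ1).F N (abar F0 (N + N) (N + N) p0 p1 +
          abar (fun x y => (F1 y x)ᵀ) (N + N) (N + N) (n - p0 - p1) p1) +
        gam (phiP κ2).F N (abar F1 (N + N) (N + N) p1 (n - p0 - p1) +
          abar (fun x y => (F2 y x)ᵀ) (N + N) (N + N) p0 (n - p0 - p1)) +
        gam (phiP κ0).F N (abar F2 (N + N) (N + N) (n - p0 - p1) p0 +
          abar (fun x y => (F0 y x)ᵀ) (N + N) (N + N) p1 p0)) :=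
    Finset.sum_le_sum fun p0 _ => Finset.sum_le_sum fun p1 _ => LboxL_le_node F0 F1 F2 N p0 p1 _
  refine h1.trans (le_of_eq ?_)
  simp_rw [← Finset.mul_sum, Finset.sum_add_distrib]
  congr 1
  refine congrArg₂ (· + ·) (congrArg₂ (· + ·) ?_ ?_) ?_
  · unfold GW
    rw [Finset.sum_comm]
    refine Finset.sum_congr rfl fun p _ => Finset.sum_congr rfl fun q _ => ?_
    rw [sub_right_comm]
  · unfold GW
    rw [Finset.sum_comm (γ := ZMod Q)]
    conv_rhs => rw [Finset.sum_comm]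
    refine Finset.sum_congr rfl fun p1 _ => ?_
    rw [← Equiv.sum_comp (Equiv.subLeft (n - p1))
      (fun p2 => gam (phiP κ2).F N (abar F1 (N + N) (N + N) p1 p2 +
        abar (fun x y => (F2 y x)ᵀ) (N + N) (N + N) (n - p2 - p1) p2))]
    refine Finset.sum_congr rfl fun p0 _ => ?_
    rw [Equiv.subLeft_apply]
    have e1 : n - p1 - p0 = n - p0 - p1 := sub_right_comm _ _ _
    have e2 : n - (n - p0 - p1) - p1 = p0 := by ring
    rw [e1, e2]
  · unfold GW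
    refine Finset.sum_congr rfl fun p0 _ => ?_
    rw [← Equiv.sum_comp (Equiv.subLeft (n - p0))
      (fun p2 => gam (phiP κ0).F N (abar F2 (N + N) (N + N) p2 p0 +
        abar (fun x y => (F0 y x)ᵀ) (N + N) (N + N) (n - p0 - p2) p0))]
    refine Finset.sum_congr rfl fun p1 _ => ?_
    rw [Equiv.subLeft_apply]
    have e2 : n - p0 - (n - p0 - p1) = p1 := by ring
    rw [e2]

end box

section final

variable {Q : ℕ} [NeZero Q] {α β γ : Type*} [Fintype α] [DecidableEq α] [Fintype β] [Fintype γ]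

/-- the right hand side of `mask_sum` for `tr M^{3/2}` : only the changes of the letters are paid -/
noncomputable def MS (X : ℕ → ZMod Q → ZMod Q → Matrix β α ℝ)
    (Z : ℕ → ZMod Q → ZMod Q → Matrix γ α ℝ) (k M : ℕ) : ℝ :=
  4 * ∑ m ∈ range M, (Vb (phiP α) (X (m + 1)) (Z (m + 1)) (2 ^ m) -
      Vb (phiP α) (X m) (Z m) (2 ^ m)) +
    64 * ∑ j ∈ range k, ∑ m ∈ range M,
      (EE (phiP α) (X (m + 1)) (Z (m + 1)) (2 ^ (m + j)) -
        EE (phiP α) (X m) (Z m) (2 ^ (m + j))) +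
    4 * Vb (phiP α) (X 0) (Z 0) 1 + 64 * k * EE (phiP α) (X 0) (Z 0) 1

theorem bl_mono {f g : ZMod Q → ℝ} (h : ∀ n, f n ≤ g n) (N : ℕ) (l : ℤ) :
    bl f N l ≤ bl g N l := by
  unfold bl
  exact mul_le_mul_of_nonneg_left (Finset.sum_le_sum fun i _ => h _) (by positivity)

theorem bl_add (f g : ZMod Q → ℝ) (N : ℕ) (l : ℤ) :
    bl (fun n => f n + g n) N l = bl f N l + bl g N l := by
  unfold bl
  rw [Finset.sum_add_distrib, mul_add]

theorem bl_const_mul (c : ℝ) (f : ZMod Q → ℝ) (N : ℕ) (l : ℤ) :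
    bl (fun n => c * f n) N l = c * bl f N l := by
  unfold bl
  rw [← Finset.mul_sum]
  ring

theorem mask_sum_phi (X : ℕ → ZMod Q → ZMod Q → Matrix β α ℝ)
    (Z : ℕ → ZMod Q → ZMod Q → Matrix γ α ℝ) (k M : ℕ)
    (l : ℤ) (hk : 2 * |l| + 20 ≤ 2 ^ k) :
    ∑ m ∈ range M, bl (GW (phiP α) (X (m + 1)) (Z (m + 1)) (2 ^ m)) (2 ^ m) l ≤
      MS X Z k M := by
  refine (mask_sum good_phiP X Z k M l hk).trans (le_of_eq ?_)
  unfold MS
  ring

end final

section final2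

variable {Q : ℕ} [NeZero Q] {κ0 κ1 κ2 : Type*} [Fintype κ0] [DecidableEq κ0]
  [Fintype κ1] [DecidableEq κ1] [Fintype κ2] [DecidableEq κ2]

/-- **The labelled three-letter line sum.**  Letters with labels which may change at every scale
(`F (m+1)` is used at scale `2^m`); every position of the boxes, block `l` of offsets.  Total price
`π/2` times the changes of the three vertex potentials. -/
theorem box_sum (F0 : ℕ → ZMod Q → ZMod Q → Matrix κ0 κ1 ℝ)
    (F1 : ℕ → ZMod Q → ZMod Q → Matrix κ1 κ2 ℝ) (F2 : ℕ → ZMod Q → ZMod Q → Matrix κ2 κ0 ℝ)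
    (k M : ℕ) (l : ℤ) (hk : 2 * |l| + 20 ≤ 2 ^ k) :
    ∑ m ∈ range M, bl (fun n => ∑ p0 : ZMod Q, ∑ p1 : ZMod Q,
        |LboxL (F0 (m + 1)) (F1 (m + 1)) (F2 (m + 1)) (2 ^ m) p0 p1 (n - p0 - p1)|) (2 ^ m) l ≤
      (Real.pi / 2) *
        (MS F0 (fun m x y => (F1 m y x)ᵀ) k M + MS F1 (fun m x y => (F2 m y x)ᵀ) k M +
          MS F2 (fun m x y => (F0 m y x)ᵀ) k M) := by
  have h1 := mask_sum_phi F0 (fun m x y => (F1 m y x)ᵀ) k M l hk
  have h2 := mask_sum_phi F1 (fun m x y => (F2 m y x)ᵀ) k M l hk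
  have h3 := mask_sum_phi F2 (fun m x y => (F0 m y x)ᵀ) k M l hk
  have h0 : ∀ m ∈ range M, bl (fun n => ∑ p0 : ZMod Q, ∑ p1 : ZMod Q,
        |LboxL (F0 (m + 1)) (F1 (m + 1)) (F2 (m + 1)) (2 ^ m) p0 p1 (n - p0 - p1)|) (2 ^ m) l ≤
      (Real.pi / 2) *
        (bl (GW (phiP κ1) (F0 (m + 1)) (fun x y => (F1 (m + 1) y x)ᵀ) (2 ^ m)) (2 ^ m) l +
          bl (GW (phiP κ2) (F1 (m + 1)) (fun x y => (F2 (m + 1) y x)ᵀ) (2 ^ m)) (2 ^ m) l +
          bl (GW (phiP κ0) (F2 (m + 1)) (fun x y => (F0 (m + 1) y x)ᵀ) (2 ^ m)) (2 ^ m) l) := by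
    intro m _
    rw [← bl_add, ← bl_add, ← bl_const_mul]
    exact bl_mono (fun n => LboxL_le _ _ _ _ n) _ _
  refine (Finset.sum_le_sum h0).trans ?_
  rw [← Finset.mul_sum, Finset.sum_add_distrib, Finset.sum_add_distrib]
  refine mul_le_mul_of_nonneg_left ?_ (by positivity)
  linarith

end final2

end Crest.Agent.R079.PotL
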