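import Crest.Agent.R079.GlueK_914
import Crest.Agent.R079.Frozen_569
import Crest.Agent.R079.PLPhi_931

/-! R079, [AL3] part 2 (helper914): region sums of box forms with an ARBITRARY kernel in slot `j`, and the
LABELLED transfer `ℤ, ℂ → ZMod Q, ℝ` (complex labels = real labels `κ × Bool`), to 931's `LboxL` / `bl`. -/

set_option autoImplicit false

namespace Crest.Agent.R079.GlueK

open Finset Crest.Agent.R079.Grid Crest.Agent.R079.Pot Crest.Agent.R079.Glue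
open Matrix (trace)

/-! ### region sum, general kernel -/

lemma hone_aux (m : ℕ) (L1 W0 : ℕ) (J : ℕ × ℤ) (hpow : 2 ^ m ≤ 2 ^ (J.1 + 1))
    (hW0 : W0 = 3 * L1 + 8 * 2 ^ (J.1 + 1)) (G : ℤ → ℤ → ℤ → ℤ → ℝ) (hG0 : ∀ w x y z, 0 ≤ G w x y z)
    (l : ℤ) (hl : |l| ≤ 7) :
    (1 / (2 : ℝ) ^ m) * ∑ p ∈ Icc (-(L1 : ℤ)) L1 ×ˢ (Icc (-(L1 : ℤ)) L1 ×ˢ Icc (-(L1 : ℤ)) L1),
        ∑ i ∈ range (2 ^ m),
          G ((i : ℤ) + l * ((2 ^ m : ℕ) : ℤ) - p.1 - p.2.1 - p.2.2) p.1 p.2.1 p.2.2 ≤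
      ∑ w ∈ Icc (-(W0 : ℤ)) W0, (1 / (2 : ℝ) ^ m) * ∑ i ∈ range (2 ^ m),
        ∑ p0 ∈ Icc (-(L1 : ℤ)) L1, ∑ p1 ∈ Icc (-(L1 : ℤ)) L1,
          G w p0 p1 (l * 2 ^ m + (i : ℤ) - w - p0 - p1) := by
  rw [← Finset.mul_sum]
  refine mul_le_mul_of_nonneg_left ?_ (by positivity)
  rw [Finset.sum_comm, Finset.sum_comm (s := Icc (-(W0 : ℤ)) W0)]
  refine Finset.sum_le_sum fun i hi => ?_
  rw [Finset.mem_range] at hi
  refine (sum_cube_le L1 (2 ^ m) l i hi hl W0 (by rw [hW0]; omega) G hG0).trans (le_of_eq ?_)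
  refine Finset.sum_congr rfl fun w _ => Finset.sum_congr rfl fun p0 _ =>
    Finset.sum_congr rfl fun p1 _ => ?_
  congr 1

/-- the level-`m` sum with frozen variable `w`, block `l` -/
noncomputable def SLw (j : Fin 4) (T : Fin 3 → Finset ℤ) (Φ : ℤ → ℤ → ℤ → ℂ) (R : Finset (ℕ × ℤ))
    (F : Fin 4 → ℤ → ℂ) (L1 : ℕ) (l : ℤ) (w : ℤ) (m : ℕ) : ℝ :=
  (1 / (2 : ℝ) ^ m) * ∑ i ∈ range (2 ^ m), ∑ p0 ∈ Icc (-(L1 : ℤ)) L1, ∑ p1 ∈ Icc (-(L1 : ℤ)) L1,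
    ‖L3 (pK j T Φ (Fm R j F m) w) (2 ^ m) p0 p1 (l * 2 ^ m + (i : ℤ) - w - p0 - p1)‖

/-- **region sum, general kernel in slot `j`** (the other letters masked by the region: `Fm`) -/
theorem region_kerF (Kb : ℝ) (bb : ℤ) (hbb : bb = -1 ∨ bb = -7)
    (R : Finset (ℕ × ℤ)) (J : ℕ × ℤ) (hR : IsRegion R J) (j : Fin 4)
    (T : Fin 3 → Finset ℤ) (Φ : ℤ → ℤ → ℤ → ℂ) (F : Fin 4 → ℤ → ℂ)
    (hblock : ∀ l : ℤ, |l| ≤ 7 → ∀ (Wf : Finset ℤ) (L1 : ℕ),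
      ∑ w ∈ Wf, ∑ m ∈ range (J.1 + 1), SLw j T Φ R F L1 l w m ≤ Kb)
    (κ : ℝ) (hκ : 0 ≤ κ) (hFj : F j = kerF j κ T Φ) :
    ∑ p ∈ R, ∑ x ∈ adm p.1 p.2, ‖Lbox (2 ^ p.1) bb F x‖ ≤ κ * Kb := by
  classical
  obtain ⟨Lt, hLt⟩ := exists_bound T
  set L1 : ℕ := Lt + 2 * 2 ^ (J.1 + 1) with hL1
  set W0 : ℕ := 3 * L1 + 8 * 2 ^ (J.1 + 1) with hW0
  set P : Finset (ℤ × ℤ × ℤ) := Icc (-(L1 : ℤ)) L1 ×ˢ (Icc (-(L1 : ℤ)) L1 ×ˢ Icc (-(L1 : ℤ)) L1)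
    with hP
  set Wf := Icc (-(W0 : ℤ)) W0 with hWf
  rw [region_sum R J hR j F bb hbb]
  have hlevel : ∀ m ∈ range (J.1 + 1),
      ∑ x ∈ (R.filter (fun p => p.1 = m)).biUnion (fun p => adm p.1 p.2),
        ‖Lbox (2 ^ m) bb (Fm R j F m) x‖ ≤
      κ * ((1 / 2) * ((∑ w ∈ Wf, SLw j T Φ R F L1 bb w m) +
        (∑ w ∈ Wf, SLw j T Φ R F L1 (bb + 1) w m))) := by
    intro m hm
    rw [Finset.mem_range] at hm
    have hpow : 2 ^ m ≤ 2 ^ (J.1 + 1) := Nat.pow_le_pow_right (by norm_num) (by omega)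
    set G : ℤ → ℤ → ℤ → ℤ → ℝ := fun w p0 p1 p2 =>
      ‖L3 (pK j T Φ (Fm R j F m) w) (2 ^ m) p0 p1 p2‖ with hG
    have hG0 : ∀ w x y z, 0 ≤ G w x y z := fun w x y z => norm_nonneg _
    have g := sum_norm_Lbox_kerF_le j (2 ^ m) bb κ hκ T Φ (Fm R j F m)
      (by unfold Fm; rw [if_pos rfl, hFj])
      ((R.filter (fun p => p.1 = m)).biUnion (fun p => adm p.1 p.2)) P (by
        intro t0 t1 t2 z0 h0 z1 h1 z2 h2
        have c0 := abs_le.mp (hLt 0 z0 h0)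
        have c1 := abs_le.mp (hLt 1 z1 h1)
        have c2 := abs_le.mp (hLt 2 z2 h2)
        have d0 := t0.isLt
        have d1 := t1.isLt
        have d2 := t2.isLt
        rw [hP, Finset.mem_product, Finset.mem_product, Finset.mem_Icc, Finset.mem_Icc,
          Finset.mem_Icc]
        refine ⟨?_, ?_, ?_⟩ <;> constructor <;> simp only <;> omega)
    refine g.trans (mul_le_mul_of_nonneg_left ?_ hκ)
    -- two blocks
    have hsplit : ∀ p : ℤ × ℤ × ℤ, (1 / (((2 ^ m : ℕ) : ℝ) + ((2 ^ m : ℕ) : ℝ))) *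
        ∑ v : Fin (2 ^ m + 2 ^ m),
        ‖L3 (pK j T Φ (Fm R j F m) (((v : ℕ) : ℤ) + bb * ((2 ^ m : ℕ) : ℤ) - p.1 - p.2.1 - p.2.2))
            (2 ^ m) p.1 p.2.1 p.2.2‖ =
        (1 / 2) * ((1 / (2 : ℝ) ^ m) * ∑ i ∈ range (2 ^ m),
          G ((i : ℤ) + bb * ((2 ^ m : ℕ) : ℤ) - p.1 - p.2.1 - p.2.2) p.1 p.2.1 p.2.2 +
          (1 / (2 : ℝ) ^ m) * ∑ i ∈ range (2 ^ m),
          G ((i : ℤ) + (bb + 1) * ((2 ^ m : ℕ) : ℤ) - p.1 - p.2.1 - p.2.2) p.1 p.2.1 p.2.2) := by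
      intro p
      have e1 := sum_fin_two (2 ^ m) (fun v => G ((v : ℤ) + bb * ((2 ^ m : ℕ) : ℤ) - p.1 - p.2.1 -
        p.2.2) p.1 p.2.1 p.2.2)
      have e2 : ∑ v : Fin (2 ^ m + 2 ^ m),
        ‖L3 (pK j T Φ (Fm R j F m) (((v : ℕ) : ℤ) + bb * ((2 ^ m : ℕ) : ℤ) - p.1 - p.2.1 - p.2.2))
            (2 ^ m) p.1 p.2.1 p.2.2‖ = ∑ v : Fin (2 ^ m + 2 ^ m),
          G (((v : ℕ) : ℤ) + bb * ((2 ^ m : ℕ) : ℤ) - p.1 - p.2.1 - p.2.2) p.1 p.2.1 p.2.2 := rfl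
      rw [e2, e1]
      have e3 : ∀ i ∈ range (2 ^ m), G (((2 ^ m + i : ℕ) : ℤ) + bb * ((2 ^ m : ℕ) : ℤ) - p.1 -
          p.2.1 - p.2.2) p.1 p.2.1 p.2.2 =
          G ((i : ℤ) + (bb + 1) * ((2 ^ m : ℕ) : ℤ) - p.1 - p.2.1 - p.2.2) p.1 p.2.1 p.2.2 := by
        intro i _
        congr 1
        push_cast
        ring
      rw [Finset.sum_congr rfl e3]
      push_cast
      have h2m : (2 : ℝ) ^ m ≠ 0 := by positivity
      field_simp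
      ring
    rw [Finset.sum_congr rfl fun p _ => hsplit p, ← Finset.mul_sum, Finset.sum_add_distrib,
      ← Finset.mul_sum, ← Finset.mul_sum]
    refine mul_le_mul_of_nonneg_left ?_ (by norm_num)
    have hl0 : |bb| ≤ 7 := by rcases hbb with rfl | rfl <;> norm_num
    have hl1 : |bb + 1| ≤ 7 := by rcases hbb with rfl | rfl <;> norm_num
    exact add_le_add (hone_aux m L1 W0 J hpow hW0 G hG0 bb hl0)
      (hone_aux m L1 W0 J hpow hW0 G hG0 (bb + 1) hl1)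
  refine (Finset.sum_le_sum hlevel).trans ?_
  rw [← Finset.mul_sum, ← Finset.mul_sum, Finset.sum_add_distrib]
  refine mul_le_mul_of_nonneg_left ?_ hκ
  have htot : ∀ l : ℤ, |l| ≤ 7 → ∑ m ∈ range (J.1 + 1), ∑ w ∈ Wf, SLw j T Φ R F L1 l w m ≤ Kb := by
    intro l hl
    rw [Finset.sum_comm]
    exact hblock l hl Wf L1
  have hl0 : |bb| ≤ 7 := by rcases hbb with rfl | rfl <;> norm_num
  have hl1 : |bb + 1| ≤ 7 := by rcases hbb with rfl | rfl <;> norm_num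
  have t0 := htot bb hl0
  have t1 := htot (bb + 1) hl1
  linarith

/-! ### complex labels = real labels -/

/-- entry of the real `2 × 2` matrix of `z` -/
noncomputable def rp (a b : Bool) (z : ℂ) : ℝ := if a = b then z.re else if a then -z.im else z.im

lemma rp_mul (a c : Bool) (z w : ℂ) : rp a c (z * w) = ∑ b : Bool, rp a b z * rp b c w := by
  cases a <;> cases c <;> simp [rp] <;> ring

lemma rp_sum {ι : Type*} (s : Finset ι) (a b : Bool) (f : ι → ℂ) :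
    rp a b (∑ i ∈ s, f i) = ∑ i ∈ s, rp a b (f i) := by
  cases a <;> cases b <;> simp [rp]

variable {κ0 κ1 κ2 : Type*}

/-- real representation of a complex matrix (labels doubled by `Bool`) -/
noncomputable def cL (A : Matrix κ0 κ1 ℂ) : Matrix (κ0 × Bool) (κ1 × Bool) ℝ :=
  fun x y => rp x.2 y.2 (A x.1 y.1)

lemma cL_mul [Fintype κ1] (A : Matrix κ0 κ1 ℂ) (B : Matrix κ1 κ2 ℂ) : cL (A * B) = cL A * cL B := by
  ext x y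
  simp only [cL, Matrix.mul_apply]
  rw [rp_sum, Fintype.sum_prod_type]
  exact Finset.sum_congr rfl fun k _ => rp_mul _ _ _ _

lemma trace_cL [Fintype κ0] (A : Matrix κ0 κ0 ℂ) : (cL A).trace = 2 * (A.trace).re := by
  simp only [Matrix.trace, Matrix.diag, cL]
  rw [Fintype.sum_prod_type, Complex.re_sum, Finset.mul_sum]
  refine Finset.sum_congr rfl fun k _ => ?_
  rw [Fintype.sum_bool]
  simp only [rp, if_true]
  ring

lemma cL_conjTranspose (A : Matrix κ0 κ1 ℂ) : cL (A.conjTranspose) = (cL A).transpose := by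
  ext x y
  simp only [cL, Matrix.transpose_apply, Matrix.conjTranspose_apply]
  rcases x with ⟨k, a⟩
  rcases y with ⟨k', b⟩
  cases a <;> cases b <;> simp [rp]

/-- Hilbert–Schmidt norm of the real representation -/
lemma hs_cL [Fintype κ0] [Fintype κ1] (A : Matrix κ0 κ1 ℂ) :
    ∑ x, ∑ y, cL A x y ^ 2 = 2 * ∑ k, ∑ k', ‖A k k'‖ ^ 2 := by
  rw [Fintype.sum_prod_type, Finset.mul_sum]
  refine Finset.sum_congr rfl fun k _ => ?_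
  have h : ∀ a : Bool, ∑ y : κ1 × Bool, cL A (k, a) y ^ 2 = ∑ k', ‖A k k'‖ ^ 2 := by
    intro a
    rw [Fintype.sum_prod_type]
    refine Finset.sum_congr rfl fun k' _ => ?_
    rw [← Complex.normSq_eq_norm_sq, Complex.normSq_apply]
    cases a <;> simp [cL, rp] <;> ring
  rw [Fintype.sum_bool, h, h]
  ring

/-! ### transfer to `ZMod Q` -/

section transfer

variable [Fintype κ0] [DecidableEq κ0] [Fintype κ1] [DecidableEq κ1] [Fintype κ2] [DecidableEq κ2]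

/-- triple product of complex labelled letters on `ℤ` -/
noncomputable def tr3 (F0 : ℤ → ℤ → Matrix κ0 κ1 ℂ) (F1 : ℤ → ℤ → Matrix κ1 κ2 ℂ)
    (F2 : ℤ → ℤ → Matrix κ2 κ0 ℂ) (z0 z1 z2 : ℤ) : ℂ :=
  (F0 z0 z1 * F1 z1 z2 * F2 z2 z0).trace

/-- embedding of a complex labelled letter -/
noncomputable def emL (Q : ℕ) [NeZero Q] (F : ℤ → ℤ → Matrix κ0 κ1 ℂ) (x y : ZMod Q) :
    Matrix (κ0 × Bool) (κ1 × Bool) ℝ := cL (F x.valMinAbs y.valMinAbs)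

/-- shifts by the frozen variable -/
def shR (w : ℤ) (F : ℤ → ℤ → Matrix κ0 κ1 ℂ) (x y : ℤ) : Matrix κ0 κ1 ℂ := F x (y - w)

def shL (w : ℤ) (F : ℤ → ℤ → Matrix κ0 κ1 ℂ) (x y : ℤ) : Matrix κ0 κ1 ℂ := F (x - w) y

omit [DecidableEq κ0] [DecidableEq κ1] [DecidableEq κ2] in
lemma L3_shift (F0 : ℤ → ℤ → Matrix κ0 κ1 ℂ) (F1 : ℤ → ℤ → Matrix κ1 κ2 ℂ)
    (F2 : ℤ → ℤ → Matrix κ2 κ0 ℂ) (N : ℕ) (w p0 p1 p2 : ℤ) :
    L3 (tr3 F0 (shR w F1) (shL w F2)) N p0 p1 (p2 + w) = L3 (tr3 F0 F1 F2) N p0 p1 p2 := by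
  unfold L3 tr3 shR shL
  congr 1
  refine Finset.sum_congr rfl fun i0 _ => Finset.sum_congr rfl fun i1 _ =>
    Finset.sum_congr rfl fun i2 _ => ?_
  rw [show p2 + w + ((i2 : ℕ) : ℤ) - w = p2 + ((i2 : ℕ) : ℤ) by ring]

omit [DecidableEq κ0] [DecidableEq κ1] [DecidableEq κ2] in
lemma LboxL_emL {Q : ℕ} [NeZero Q] (F0 : ℤ → ℤ → Matrix κ0 κ1 ℂ) (F1 : ℤ → ℤ → Matrix κ1 κ2 ℂ)
    (F2 : ℤ → ℤ → Matrix κ2 κ0 ℂ) (N : ℕ) (p0 p1 p2 : ℤ) (h0 : 2 * (|p0| + 2 * N) < Q)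
    (h1 : 2 * (|p1| + 2 * N) < Q) (h2 : 2 * (|p2| + 2 * N) < Q) :
    PotL.LboxL (emL Q F0) (emL Q F1) (emL Q F2) N (p0 : ZMod Q) (p1 : ZMod Q) (p2 : ZMod Q) =
      2 * (L3 (tr3 F0 F1 F2) N p0 p1 p2).re := by
  have key : ∀ (p : ℤ) (i : Fin (N + N)), 2 * (|p| + 2 * N) < Q → 2 * |p + ((i : ℕ) : ℤ)| < Q := by
    intro p i h
    have hi : ((i : ℕ) : ℤ) < 2 * N := by
      have := i.isLt
      omega
    have h3 : |p + ((i : ℕ) : ℤ)| ≤ |p| + |((i : ℕ) : ℤ)| := abs_add_le _ _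
    have h4 : |((i : ℕ) : ℤ)| = ((i : ℕ) : ℤ) := abs_of_nonneg (by positivity)
    rw [h4] at h3
    linarith
  have hc : ∀ (p : ℤ) (i : Fin (N + N)), (p : ZMod Q) + (((i : ℕ) : ℕ) : ZMod Q) =
      ((p + ((i : ℕ) : ℤ) : ℤ) : ZMod Q) := by
    intro p i; push_cast; rfl
  have hv : ∀ (p : ℤ) (i : Fin (N + N)), 2 * (|p| + 2 * N) < Q →
      ((p + ((i : ℕ) : ℤ) : ℤ) : ZMod Q).valMinAbs = p + ((i : ℕ) : ℤ) := fun p i h =>
    Crest.Agent.R072.LatticeInt.vma _ (key p i h)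
  unfold PotL.LboxL L3
  have hcoef : (1 / ((N : ℂ) + N) ^ 3) = ((1 / (((N + N : ℕ) : ℝ) ^ 3) : ℝ) : ℂ) := by
    push_cast; rfl
  rw [hcoef, Complex.re_ofReal_mul, ← mul_assoc, mul_comm (2 : ℝ), mul_assoc]
  congr 1
  rw [Complex.re_sum, Finset.mul_sum]
  refine Finset.sum_congr rfl fun i0 _ => ?_
  rw [Complex.re_sum, Finset.mul_sum]
  refine Finset.sum_congr rfl fun i1 _ => ?_
  rw [Complex.re_sum, Finset.mul_sum]
  refine Finset.sum_congr rfl fun i2 _ => ?_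
  rw [Complex.re_ofReal_mul]
  unfold emL tr3
  rw [hc, hc, hc, hv p0 i0 h0, hv p1 i1 h1, hv p2 i2 h2, ← cL_mul, ← cL_mul, trace_cL]
  have hs : ∀ (i : Fin (N + N)), Crest.Agent.R072.hsgn N i = hsg N i := fun i => rfl
  rw [hs, hs, hs]
  ring

omit [DecidableEq κ0] [DecidableEq κ1] [DecidableEq κ2] in
lemma L3_smul (c : ℂ) (F0 : ℤ → ℤ → Matrix κ0 κ1 ℂ) (F1 : ℤ → ℤ → Matrix κ1 κ2 ℂ)
    (F2 : ℤ → ℤ → Matrix κ2 κ0 ℂ) (N : ℕ) (p0 p1 p2 : ℤ) :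
    L3 (tr3 (fun x y => c • F0 x y) F1 F2) N p0 p1 p2 = c * L3 (tr3 F0 F1 F2) N p0 p1 p2 := by
  unfold L3 tr3
  rw [mul_left_comm]
  congr 1
  rw [Finset.mul_sum]
  refine Finset.sum_congr rfl fun i0 _ => ?_
  rw [Finset.mul_sum]
  refine Finset.sum_congr rfl fun i1 _ => ?_
  rw [Finset.mul_sum]
  refine Finset.sum_congr rfl fun i2 _ => ?_
  rw [Matrix.smul_mul, Matrix.smul_mul, Matrix.trace_smul, smul_eq_mul]
  ring

/-- **one box**: complex labelled box form on `ℤ` by two real labelled box forms on `ZMod Q` -/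
lemma norm_L3_le {Q : ℕ} [NeZero Q] (F0 : ℤ → ℤ → Matrix κ0 κ1 ℂ) (F1 : ℤ → ℤ → Matrix κ1 κ2 ℂ)
    (F2 : ℤ → ℤ → Matrix κ2 κ0 ℂ) (N : ℕ) (p0 p1 p2 : ℤ) (h0 : 2 * (|p0| + 2 * N) < Q)
    (h1 : 2 * (|p1| + 2 * N) < Q) (h2 : 2 * (|p2| + 2 * N) < Q) :
    ‖L3 (tr3 F0 F1 F2) N p0 p1 p2‖ ≤
      (1 / 2) * (|PotL.LboxL (emL Q F0) (emL Q F1) (emL Q F2) N (p0 : ZMod Q) (p1 : ZMod Q)
          (p2 : ZMod Q)| +
        |PotL.LboxL (emL Q (fun x y => (-Complex.I) • F0 x y)) (emL Q F1) (emL Q F2) N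
          (p0 : ZMod Q) (p1 : ZMod Q) (p2 : ZMod Q)|) := by
  rw [LboxL_emL F0 F1 F2 N p0 p1 p2 h0 h1 h2, LboxL_emL _ F1 F2 N p0 p1 p2 h0 h1 h2, L3_smul]
  set z := L3 (tr3 F0 F1 F2) N p0 p1 p2
  have e : (-Complex.I * z).re = z.im := by simp
  rw [e, abs_mul, abs_mul, abs_of_pos (by norm_num : (0 : ℝ) < 2)]
  have := Complex.norm_le_abs_re_add_abs_im z
  linarith

/-- **one scale**: labelled transfer, side `N`, block `l`, frozen variable `w`. -/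
theorem scale_transfer {Q : ℕ} [NeZero Q] (F0 : ℤ → ℤ → Matrix κ0 κ1 ℂ)
    (F1 : ℤ → ℤ → Matrix κ1 κ2 ℂ) (F2 : ℤ → ℤ → Matrix κ2 κ0 ℂ) (N L1 : ℕ) (l : ℤ) (hl : |l| ≤ 7)
    (w : ℤ) (hQ : 2 * (2 * L1 + 10 * N) < Q) :
    (1 / (N : ℝ)) * ∑ i ∈ range N, ∑ p0 ∈ Icc (-(L1 : ℤ)) L1, ∑ p1 ∈ Icc (-(L1 : ℤ)) L1,
      ‖L3 (tr3 F0 F1 F2) N p0 p1 (l * N + (i : ℤ) - w - p0 - p1)‖ ≤
    (1 / 2) * (PotL.bl (fun n => ∑ p0 : ZMod Q, ∑ p1 : ZMod Q,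
        |PotL.LboxL (emL Q F0) (emL Q (shR w F1)) (emL Q (shL w F2)) N p0 p1 (n - p0 - p1)|) N l +
      PotL.bl (fun n => ∑ p0 : ZMod Q, ∑ p1 : ZMod Q,
        |PotL.LboxL (emL Q (fun x y => (-Complex.I) • F0 x y)) (emL Q (shR w F1))
          (emL Q (shL w F2)) N p0 p1 (n - p0 - p1)|) N l) := by
  set f : ZMod Q → ZMod Q → ZMod Q → ℝ := fun n p0 p1 =>
    |PotL.LboxL (emL Q F0) (emL Q (shR w F1)) (emL Q (shL w F2)) N p0 p1 (n - p0 - p1)| with hf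
  set g : ZMod Q → ZMod Q → ZMod Q → ℝ := fun n p0 p1 =>
    |PotL.LboxL (emL Q (fun x y => (-Complex.I) • F0 x y)) (emL Q (shR w F1))
      (emL Q (shL w F2)) N p0 p1 (n - p0 - p1)| with hg
  have hf0 : ∀ n p0 p1, 0 ≤ f n p0 p1 := fun _ _ _ => abs_nonneg _
  have hg0 : ∀ n p0 p1, 0 ≤ g n p0 p1 := fun _ _ _ => abs_nonneg _
  have hsum : PotL.bl (fun n => ∑ p0 : ZMod Q, ∑ p1 : ZMod Q, f n p0 p1) N l +
      PotL.bl (fun n => ∑ p0 : ZMod Q, ∑ p1 : ZMod Q, g n p0 p1) N l =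
      (1 / (N : ℝ)) * ∑ i ∈ range N, ∑ p0 : ZMod Q, ∑ p1 : ZMod Q,
        (f ((l : ZMod Q) * (N : ZMod Q) + (i : ZMod Q)) p0 p1 +
          g ((l : ZMod Q) * (N : ZMod Q) + (i : ZMod Q)) p0 p1) := by
    unfold PotL.bl
    rw [← mul_add, ← Finset.sum_add_distrib]
    congr 1
    refine Finset.sum_congr rfl fun i _ => ?_
    rw [← Finset.sum_add_distrib]
    refine Finset.sum_congr rfl fun p0 _ => ?_
    rw [← Finset.sum_add_distrib]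
  rw [hsum, ← mul_assoc, mul_comm (1 / 2 : ℝ), mul_assoc]
  refine mul_le_mul_of_nonneg_left ?_ (by positivity)
  rw [Finset.mul_sum]
  refine Finset.sum_le_sum fun i hi => ?_
  rw [Finset.mem_range] at hi
  set n : ZMod Q := (l : ZMod Q) * (N : ZMod Q) + (i : ZMod Q) with hn
  set h : ZMod Q → ZMod Q → ℝ := fun p0 p1 => (1 / 2) * (f n p0 p1 + g n p0 p1) with hh
  have hh0 : ∀ p0 p1, 0 ≤ h p0 p1 := fun p0 p1 =>
    mul_nonneg (by norm_num) (add_nonneg (hf0 _ _ _) (hg0 _ _ _))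
  have e1 : ∀ p0 ∈ Icc (-(L1 : ℤ)) L1, ∀ p1 ∈ Icc (-(L1 : ℤ)) L1,
      ‖L3 (tr3 F0 F1 F2) N p0 p1 (l * N + (i : ℤ) - w - p0 - p1)‖ ≤
        h (p0 : ZMod Q) (p1 : ZMod Q) := by
    intro p0 h0 p1 h1
    have hiz : (i : ℤ) < N := by exact_mod_cast hi
    have hi0 : (0 : ℤ) ≤ i := by positivity
    have hN0 : (0 : ℤ) ≤ N := by positivity
    have hL10 : (0 : ℤ) ≤ L1 := by positivity
    have hQz : (2 * (2 * L1 + 10 * N) : ℤ) < Q := by exact_mod_cast hQ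
    have hp0 : |p0| ≤ L1 := abs_le.2 (by simpa using Finset.mem_Icc.mp h0)
    have hp1 : |p1| ≤ L1 := abs_le.2 (by simpa using Finset.mem_Icc.mp h1)
    have hlN : |l * (N : ℤ)| ≤ 7 * N := by
      rw [abs_mul, abs_of_nonneg hN0]
      exact mul_le_mul_of_nonneg_right hl hN0
    have hp2 : |l * (N : ℤ) + (i : ℤ) - p0 - p1| ≤ 8 * N + 2 * L1 := by
      rw [abs_le] at hlN hp0 hp1 ⊢
      constructor <;> linarith [hlN.1, hlN.2, hp0.1, hp0.2, hp1.1, hp1.2]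
    have hcast : n - (p0 : ZMod Q) - (p1 : ZMod Q) =
        ((l * (N : ℤ) + (i : ℤ) - p0 - p1 : ℤ) : ZMod Q) := by
      rw [hn]; push_cast; rfl
    have e2 : L3 (tr3 F0 F1 F2) N p0 p1 (l * N + (i : ℤ) - w - p0 - p1) =
        L3 (tr3 F0 (shR w F1) (shL w F2)) N p0 p1 (l * (N : ℤ) + (i : ℤ) - p0 - p1) := by
      rw [← L3_shift F0 F1 F2 N w p0 p1 (l * N + (i : ℤ) - w - p0 - p1)]
      congr 1
      ring
    rw [e2]
    refine (norm_L3_le (Q := Q) F0 (shR w F1) (shL w F2) N p0 p1 _ (by linarith) (by linarith)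
      (by linarith)).trans (le_of_eq ?_)
    simp only [hh, hf, hg]
    rw [hcast]
  have e3 : ∑ p0 ∈ Icc (-(L1 : ℤ)) L1, ∑ p1 ∈ Icc (-(L1 : ℤ)) L1,
      ‖L3 (tr3 F0 F1 F2) N p0 p1 (l * N + (i : ℤ) - w - p0 - p1)‖ ≤
      ∑ p0 ∈ Icc (-(L1 : ℤ)) L1, (fun q => ∑ z : ZMod Q, h q z) (p0 : ZMod Q) := by
    refine Finset.sum_le_sum fun p0 h0 => ?_
    refine (Finset.sum_le_sum fun p1 h1 => e1 p0 h0 p1 h1).trans ?_
    exact sum_int_le (h (p0 : ZMod Q)) (hh0 _) L1 (by omega)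
  refine e3.trans ((sum_int_le (fun q => ∑ z : ZMod Q, h q z)
    (fun q => Finset.sum_nonneg fun z _ => hh0 q z) L1 (by omega)).trans (le_of_eq ?_))
  simp only [hh]
  rw [Finset.mul_sum]
  refine Finset.sum_congr rfl fun p0 _ => ?_
  rw [Finset.mul_sum]

/-- **THE ENTRY OF (K) / (nu)**: kernel in slot `j`, the product with the three masked line letters
factorised through labels; bounds of the labelled sums on `ZMod Q` (all large `Q`) give the bound of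
the region sum. -/
theorem region_labelled (bb : ℤ) (hbb : bb = -1 ∨ bb = -7)
    (R : Finset (ℕ × ℤ)) (J : ℕ × ℤ) (hR : IsRegion R J) (j : Fin 4)
    (T : Fin 3 → Finset ℤ) (Φ : ℤ → ℤ → ℤ → ℂ) (F : Fin 4 → ℤ → ℂ)
    (F0 : ℤ → ℕ → ℤ → ℤ → Matrix κ0 κ1 ℂ) (F1 : ℤ → ℕ → ℤ → ℤ → Matrix κ1 κ2 ℂ)
    (F2 : ℤ → ℕ → ℤ → ℤ → Matrix κ2 κ0 ℂ)
    (hfac : ∀ w, ∀ m ≤ J.1, ∀ z0 z1 z2,
      pK j T Φ (Fm R j F m) w z0 z1 z2 = tr3 (F0 w m) (F1 w m) (F2 w m) z0 z1 z2)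
    (B : ℤ → ℝ) (Kb : ℝ) (hB : ∀ Wf : Finset ℤ, ∑ w ∈ Wf, B w ≤ Kb)
    (h1 : ∀ l : ℤ, |l| ≤ 7 → ∀ w, ∃ Q0 : ℕ, ∀ (Q : ℕ) [NeZero Q], Q0 ≤ Q →
      ∑ m ∈ range (J.1 + 1), PotL.bl (fun n => ∑ p0 : ZMod Q, ∑ p1 : ZMod Q,
        |PotL.LboxL (emL Q (F0 w m)) (emL Q (shR w (F1 w m))) (emL Q (shL w (F2 w m))) (2 ^ m)
          p0 p1 (n - p0 - p1)|) (2 ^ m) l ≤ B w)
    (h2 : ∀ l : ℤ, |l| ≤ 7 → ∀ w, ∃ Q0 : ℕ, ∀ (Q : ℕ) [NeZero Q], Q0 ≤ Q →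
      ∑ m ∈ range (J.1 + 1), PotL.bl (fun n => ∑ p0 : ZMod Q, ∑ p1 : ZMod Q,
        |PotL.LboxL (emL Q (fun x y => (-Complex.I) • F0 w m x y)) (emL Q (shR w (F1 w m)))
          (emL Q (shL w (F2 w m))) (2 ^ m) p0 p1 (n - p0 - p1)|) (2 ^ m) l ≤ B w)
    (κ : ℝ) (hκ : 0 ≤ κ) (hFj : F j = kerF j κ T Φ) :
    ∑ p ∈ R, ∑ x ∈ adm p.1 p.2, ‖Lbox (2 ^ p.1) bb F x‖ ≤ κ * Kb := by
  refine region_kerF Kb bb hbb R J hR j T Φ F ?_ κ hκ hFj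
  intro l hl Wf L1
  refine (Finset.sum_le_sum fun w _ => ?_).trans (hB Wf)
  obtain ⟨Q1, hQ1⟩ := h1 l hl w
  obtain ⟨Q2, hQ2⟩ := h2 l hl w
  set Q : ℕ := Q1 + Q2 + 2 * (2 * L1 + 10 * 2 ^ (J.1 + 1)) + 1 with hQ
  have : NeZero Q := ⟨by omega⟩
  have b1 := hQ1 Q (by omega)
  have b2 := hQ2 Q (by omega)
  have hm : ∀ m ∈ range (J.1 + 1), SLw j T Φ R F L1 l w m ≤
      (1 / 2) * (PotL.bl (fun n => ∑ p0 : ZMod Q, ∑ p1 : ZMod Q,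
        |PotL.LboxL (emL Q (F0 w m)) (emL Q (shR w (F1 w m))) (emL Q (shL w (F2 w m))) (2 ^ m)
          p0 p1 (n - p0 - p1)|) (2 ^ m) l +
      PotL.bl (fun n => ∑ p0 : ZMod Q, ∑ p1 : ZMod Q,
        |PotL.LboxL (emL Q (fun x y => (-Complex.I) • F0 w m x y)) (emL Q (shR w (F1 w m)))
          (emL Q (shL w (F2 w m))) (2 ^ m) p0 p1 (n - p0 - p1)|) (2 ^ m) l) := by
    intro m hm
    rw [Finset.mem_range] at hm
    have hpow : 2 ^ m ≤ 2 ^ (J.1 + 1) := Nat.pow_le_pow_right (by norm_num) (by omega)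
    refine le_trans (le_of_eq ?_) (scale_transfer (Q := Q) (F0 w m) (F1 w m) (F2 w m) (2 ^ m) L1 l hl
      w (by omega))
    unfold SLw
    push_cast
    congr 1
    refine Finset.sum_congr rfl fun i _ => Finset.sum_congr rfl fun p0 _ =>
      Finset.sum_congr rfl fun p1 _ => ?_
    have e : pK j T Φ (Fm R j F m) w = tr3 (F0 w m) (F1 w m) (F2 w m) := by
      funext z0 z1 z2
      exact hfac w m (by omega) z0 z1 z2
    rw [e]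
  refine (Finset.sum_le_sum hm).trans ?_
  rw [← Finset.mul_sum, Finset.sum_add_distrib]
  linarith

end transfer

end Crest.Agent.R079.GlueK
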