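import Crest.Agent.R079.GSc_377
import Crest.Agent.R079.GlueL_914

/-! R079, S1 (g): `cornerLc` for complex labelled kernels on `ℤ` (sums over boxes at all positions).
helper377. -/

set_option autoImplicit false
set_option linter.unusedVariables false
set_option linter.unusedSectionVars false

namespace Crest.Agent.R079.PotL.GS

open Matrix Finset Crest.Agent.R072
open Crest.Agent.R079.GlueK (emL cL rp shR shL tr3 L3 hs_cL)

section emb

variable {κ lam : Type*} [Fintype κ] [DecidableEq κ] [Fintype lam] [DecidableEq lam]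

/-- Hilbert-Schmidt square of a complex matrix -/
noncomputable def hsC (A : Matrix κ lam ℂ) : ℝ := ∑ k, ∑ k', ‖A k k'‖ ^ 2

theorem hsC_nonneg (A : Matrix κ lam ℂ) : 0 ≤ hsC A := by unfold hsC; positivity

theorem hs2_cL (A : Matrix κ lam ℂ) : hs2 (cL A) = 2 * hsC A := by
  unfold hs2 hsC
  exact hs_cL A

theorem vma_cases {Q : ℕ} [NeZero Q] {S L : ℕ} (hQ : 2 * (S + L) < Q) (x : ZMod Q) {i : ℕ}
    (hi : i < L) : (x + (i : ZMod Q)).valMinAbs = x.valMinAbs + (i : ℤ) ∨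
      ((S : ℤ) < |(x + (i : ZMod Q)).valMinAbs| ∧ (S : ℤ) < |x.valMinAbs + (i : ℤ)|) := by
  have hcast : ((x.valMinAbs + (i : ℤ) : ℤ) : ZMod Q) = x + (i : ZMod Q) := by
    push_cast
    rfl
  by_cases h : 2 * |x.valMinAbs + (i : ℤ)| < Q
  · left
    have := Crest.Agent.R072.LatticeInt.vma (Q := Q) _ h
    rw [hcast] at this
    exact this
  · right
    push Not at h
    have hQz : (2 * (S + L) : ℤ) < Q := by exact_mod_cast hQ
    have hiz : (i : ℤ) < L := by exact_mod_cast hi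
    have hi0 : (0 : ℤ) ≤ i := by positivity
    refine ⟨?_, by linarith⟩
    by_contra hS
    push Not at hS
    set z := (x + (i : ZMod Q)).valMinAbs with hz
    have hzc : ((z : ℤ) : ZMod Q) = ((x.valMinAbs + (i : ℤ) : ℤ) : ZMod Q) := by
      rw [hcast, hz, ZMod.coe_valMinAbs]
    rw [ZMod.intCast_eq_intCast_iff_dvd_sub] at hzc
    obtain ⟨c, hc⟩ := hzc
    have hx : 2 * |x.valMinAbs| ≤ Q := by
      have := ZMod.natAbs_valMinAbs_le x
      have h2 : (x.valMinAbs.natAbs : ℤ) = |x.valMinAbs| := Int.natCast_natAbs _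
      rw [← h2]
      omega
    have hQ0 : (0 : ℤ) < Q := by linarith
    have hle : |x.valMinAbs + (i : ℤ)| ≤ |x.valMinAbs| + L := by
      have := abs_add_le x.valMinAbs (i : ℤ)
      rw [abs_of_nonneg hi0] at this
      linarith
    rcases lt_trichotomy c 0 with hc0 | hc0 | hc0
    · have h5 : (Q : ℤ) * c ≤ -Q := by nlinarith
      have h6 : x.valMinAbs + (i : ℤ) - z ≤ -Q := by linarith
      have a1 := (abs_le.mp hS).2
      have a2 := (abs_le.mp (le_refl |x.valMinAbs + (i : ℤ)|)).1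
      have a3 := (abs_le.mp (le_refl |x.valMinAbs|)).1
      linarith
    · rw [hc0, mul_zero] at hc
      have : x.valMinAbs + (i : ℤ) = z := by linarith
      rw [this] at h
      linarith
    · have h5 : (Q : ℤ) ≤ (Q : ℤ) * c := by nlinarith
      have h6 : (Q : ℤ) ≤ x.valMinAbs + (i : ℤ) - z := by linarith
      have a1 := (abs_le.mp hS).1
      have a2 := (abs_le.mp (le_refl |x.valMinAbs|)).2
      linarith

theorem emL_blk {Q : ℕ} [NeZero Q] {S L : ℕ} (hQ : 2 * (S + L) < Q)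
    (F : ℤ → ℤ → Matrix κ lam ℂ) (hS : ∀ z z', (S : ℤ) < |z| ∨ (S : ℤ) < |z'| → F z z' = 0)
    (x y : ZMod Q) {i j : ℕ} (hi : i < L) (hj : j < L) :
    emL Q F (x + (i : ZMod Q)) (y + (j : ZMod Q)) =
      cL (F (x.valMinAbs + (i : ℤ)) (y.valMinAbs + (j : ℤ))) := by
  unfold emL
  rcases vma_cases hQ x hi with h | ⟨h1, h2⟩
  · rcases vma_cases hQ y hj with h' | ⟨h3, h4⟩
    · rw [h, h']
    · rw [hS _ _ (Or.inr h3), hS _ _ (Or.inr h4)]
  · rw [hS _ _ (Or.inl h1), hS _ _ (Or.inl h2)]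

/-- complex operator bound ⟹ real operator bound (transpose side) -/
theorem op_cL {ι ι' : Type*} [Fintype ι] [Fintype ι'] (A : ι → ι' → Matrix κ lam ℂ) {K : ℝ}
    (h : ∀ u : ι × κ → ℂ, ∑ y : ι' × lam, ‖∑ x : ι × κ, A x.1 y.1 x.2 y.2 * u x‖ ^ 2 ≤
      K * ∑ x : ι × κ, ‖u x‖ ^ 2) (v : ι × (κ × Bool) → ℝ) :
    ((Matrix.of fun (a : ι × (κ × Bool)) (b : ι' × (lam × Bool)) => cL (A a.1 b.1) a.2 b.2)ᵀ *ᵥ v)
      ⬝ᵥ ((Matrix.of fun (a : ι × (κ × Bool)) (b : ι' × (lam × Bool)) =>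
        cL (A a.1 b.1) a.2 b.2)ᵀ *ᵥ v) ≤ K * (v ⬝ᵥ v) := by
  set u : ι × κ → ℂ := fun x => ⟨v (x.1, (x.2, true)), -v (x.1, (x.2, false))⟩ with hu
  have h1 : v ⬝ᵥ v = ∑ x : ι × κ, ‖u x‖ ^ 2 := by
    simp only [dotProduct, Fintype.sum_prod_type, Fintype.sum_bool]
    refine Finset.sum_congr rfl fun i _ => Finset.sum_congr rfl fun k _ => ?_
    rw [← Complex.normSq_eq_norm_sq, Complex.normSq_apply]
    simp only [hu]
    ring
  have h2 : ∀ (y : ι' × lam) (β : Bool), ((Matrix.of fun (a : ι × (κ × Bool))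
      (b : ι' × (lam × Bool)) => cL (A a.1 b.1) a.2 b.2)ᵀ *ᵥ v) (y.1, (y.2, β)) =
      if β then (∑ x : ι × κ, A x.1 y.1 x.2 y.2 * u x).re else
        -(∑ x : ι × κ, A x.1 y.1 x.2 y.2 * u x).im := by
    intro y β
    simp only [Matrix.mulVec, dotProduct, Matrix.transpose_apply, Matrix.of_apply, cL]
    rw [Complex.re_sum, Complex.im_sum, ← Finset.sum_neg_distrib]
    cases β
    · simp only [Bool.false_eq_true, if_false, Fintype.sum_prod_type, Fintype.sum_bool]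
      refine Finset.sum_congr rfl fun i _ => Finset.sum_congr rfl fun k _ => ?_
      simp [rp, hu]
    · simp only [if_true, Fintype.sum_prod_type, Fintype.sum_bool]
      refine Finset.sum_congr rfl fun i _ => Finset.sum_congr rfl fun k _ => ?_
      simp [rp, hu]
  rw [h1]
  refine le_trans (le_of_eq ?_) (h u)
  simp only [dotProduct]
  have h3 : ∀ g : ι' × (lam × Bool) → ℝ, ∑ b, g b =
      ∑ y : ι' × lam, (g (y.1, (y.2, true)) + g (y.1, (y.2, false))) := by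
    intro g
    simp only [Fintype.sum_prod_type, Fintype.sum_bool]
  rw [h3]
  refine Finset.sum_congr rfl fun y _ => ?_
  rw [h2, h2, ← Complex.normSq_eq_norm_sq, Complex.normSq_apply]
  simp only [if_true, Bool.false_eq_true, if_false]
  ring

end emb

section core

variable {κ0 κ1 κ2 : Type*} [Fintype κ0] [DecidableEq κ0] [Fintype κ1] [DecidableEq κ1]
  [Fintype κ2] [DecidableEq κ2]

/-- what a kernel of finite support must satisfy as a Hilbert-Schmidt letter -/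
structure HSl {κ lam : Type*} [Fintype κ] [Fintype lam] (F : ℤ → ℤ → Matrix κ lam ℂ) (S L : ℕ)
    (a2 r : ℝ) : Prop where
  supp : ∀ z z', (S : ℤ) < |z| ∨ (S : ℤ) < |z'| → F z z' = 0
  tot : ∀ U V : Finset ℤ, ∑ z ∈ U, ∑ z' ∈ V, hsC (F z z') ≤ a2
  blk : ∀ p q : ℤ, ∑ i : Fin L, ∑ j : Fin L,
    hsC (F (p + (((i : ℕ)) : ℤ)) (q + (((j : ℕ)) : ℤ))) ≤ a2 / r

/-- the op-small letter -/
structure OPl {κ lam : Type*} [Fintype κ] [Fintype lam] (F : ℤ → ℤ → Matrix κ lam ℂ) (S L : ℕ)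
    (τ h2 : ℝ) : Prop where
  supp : ∀ z z', (S : ℤ) < |z| ∨ (S : ℤ) < |z'| → F z z' = 0
  tot : ∀ U V : Finset ℤ, ∑ z ∈ U, ∑ z' ∈ V, hsC (F z z') ≤ h2
  op : ∀ (p q : ℤ) (u : Fin L × κ → ℂ), ∑ y : Fin L × lam, ‖∑ x : Fin L × κ,
    F (p + (((x.1 : ℕ)) : ℤ)) (q + (((y.1 : ℕ)) : ℤ)) x.2 y.2 * u x‖ ^ 2 ≤
      (L * τ) ^ 2 * ∑ x : Fin L × κ, ‖u x‖ ^ 2

theorem sum_emL {κ lam : Type*} [Fintype κ] [DecidableEq κ] [Fintype lam] [DecidableEq lam]
    (Q : ℕ) [NeZero Q] (F : ℤ → ℤ → Matrix κ lam ℂ) {h : ℝ}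
    (ht : ∀ U V : Finset ℤ, ∑ z ∈ U, ∑ z' ∈ V, hsC (F z z') ≤ h) :
    ∑ x : ZMod Q, ∑ y : ZMod Q, hs2 (emL Q F x y) ≤ 2 * h := by
  classical
  have hinj : Function.Injective (fun x : ZMod Q => x.valMinAbs) := fun a b hab =>
    (ZMod.injective_valMinAbs (n := Q)) hab
  have e : ∑ x : ZMod Q, ∑ y : ZMod Q, hs2 (emL Q F x y) =
      2 * ∑ z ∈ (Finset.univ : Finset (ZMod Q)).image (fun x => x.valMinAbs),
        ∑ z' ∈ (Finset.univ : Finset (ZMod Q)).image (fun x => x.valMinAbs), hsC (F z z') := by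
    rw [Finset.sum_image (fun a _ b _ h => hinj h), Finset.mul_sum]
    refine Finset.sum_congr rfl fun x _ => ?_
    rw [Finset.sum_image (fun a _ b _ h => hinj h), Finset.mul_sum]
    refine Finset.sum_congr rfl fun y _ => ?_
    unfold emL
    exact hs2_cL _
  rw [e]
  exact mul_le_mul_of_nonneg_left (ht _ _) (by norm_num)

theorem blk_emL {κ lam : Type*} [Fintype κ] [DecidableEq κ] [Fintype lam] [DecidableEq lam]
    {L Q' : ℕ} [NeZero (L * Q')] {S : ℕ} (hQ : 2 * (S + L) < L * Q')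
    {F : ℤ → ℤ → Matrix κ lam ℂ} {a2 r : ℝ} (h : HSl F S L a2 r) (p q : ZMod (L * Q')) :
    ∑ i : Fin L, ∑ j : Fin L, hs2 (emL (L * Q') F (p + ((i : ℕ) : ZMod (L * Q')))
      (q + ((j : ℕ) : ZMod (L * Q')))) ≤ 2 * a2 / r := by
  have e : ∀ i j : Fin L, hs2 (emL (L * Q') F (p + ((i : ℕ) : ZMod (L * Q')))
      (q + ((j : ℕ) : ZMod (L * Q')))) =
      2 * hsC (F (p.valMinAbs + ((i : ℕ) : ℤ)) (q.valMinAbs + ((j : ℕ) : ℤ))) := by
    intro i j
    rw [emL_blk hQ F h.supp p q i.2 j.2, hs2_cL]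
  simp only [e, ← Finset.mul_sum]
  calc 2 * ∑ i : Fin L, ∑ j : Fin L, hsC (F (p.valMinAbs + ((i : ℕ) : ℤ))
        (q.valMinAbs + ((j : ℕ) : ℤ))) ≤ 2 * (a2 / r) :=
        mul_le_mul_of_nonneg_left (h.blk _ _) (by norm_num)
    _ = _ := by ring

theorem op_emL {κ lam : Type*} [Fintype κ] [DecidableEq κ] [Fintype lam] [DecidableEq lam]
    {L Q' : ℕ} [NeZero (L * Q')] {S : ℕ} (hQ : 2 * (S + L) < L * Q')
    {F : ℤ → ℤ → Matrix κ lam ℂ} {τ h2 : ℝ} (h : OPl F S L τ h2) (p q : ZMod (L * Q'))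
    (v : Fin L × (κ × Bool) → ℝ) :
    ((blkm (emL (L * Q') F) p q)ᵀ *ᵥ v) ⬝ᵥ ((blkm (emL (L * Q') F) p q)ᵀ *ᵥ v) ≤
      (L * τ) ^ 2 * (v ⬝ᵥ v) := by
  have e : blkm (emL (L * Q') F) p q = Matrix.of fun (a : Fin L × (κ × Bool))
      (b : Fin L × (lam × Bool)) =>
      cL (F (p.valMinAbs + ((a.1 : ℕ) : ℤ)) (q.valMinAbs + ((b.1 : ℕ) : ℤ))) a.2 b.2 := by
    ext a b
    simp only [blkm, Matrix.of_apply]
    rw [emL_blk hQ F h.supp p q a.1.2 b.1.2]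
  rw [e]
  exact op_cL (fun i j : Fin L => F (p.valMinAbs + ((i : ℕ) : ℤ)) (q.valMinAbs + ((j : ℕ) : ℤ)))
    (h.op _ _) v

theorem core {L Q' : ℕ} [NeZero Q'] [NeZero L] [NeZero (L * Q')] {S : ℕ}
    (hQS : 2 * (S + L) < L * Q')
    {F0 : ℤ → ℤ → Matrix κ0 κ1 ℂ} {F1 : ℤ → ℤ → Matrix κ1 κ2 ℂ} {F2 : ℤ → ℤ → Matrix κ2 κ0 ℂ}
    {M : ℕ} (hQ : 2 ^ M ∣ Q') (k : ℕ) (l : ℤ) (hk : 2 * |l| + 20 ≤ 2 ^ k) (J : ℕ)
    {a2 b2 r τ : ℝ} (ha2 : 0 < a2) (hb2 : 0 < b2) (hr : 0 < r) (hτ : 0 < τ)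
    (hA : HSl F0 S L a2 r) (hB : HSl F1 S L b2 r) (hC : OPl F2 S L τ ((L * τ) ^ 2 * (r * 2 ^ J))) :
    ∑ m ∈ range M, bl (fun n => ∑ p0, ∑ p1,
        |LboxL (emL (L * Q') F0) (emL (L * Q') F1) (emL (L * Q') F2) (L * 2 ^ m) p0 p1
          (n - p0 - p1)|) (L * 2 ^ m) l ≤
      2 * ((2 * (J + 1) + 1) * Ck k l * (τ * √a2 * √b2)) := by
  have h := cornerLc (emL (L * Q') F0) (emL (L * Q') F1) (emL (L * Q') F2) hQ k l hk (J + 1)
    (a2 := 2 * a2) (b2 := 2 * b2) (r := r) (τ := τ) (by positivity) (by positivity) hr hτ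
    (sum_emL _ F0 hA.tot) (sum_emL _ F1 hB.tot) (fun p q => blk_emL hQS hA p q)
    (fun p q => blk_emL hQS hB p q) (fun p q v => op_emL hQS hC p q v)
    ((sum_emL _ F2 hC.tot).trans (le_of_eq (by ring)))
  refine h.trans (le_of_eq ?_)
  rw [Real.sqrt_mul (by norm_num : (0 : ℝ) ≤ 2), Real.sqrt_mul (by norm_num : (0 : ℝ) ≤ 2)]
  have h2 : √2 * √2 = (2 : ℝ) := Real.mul_self_sqrt (by norm_num)
  push_cast
  calc (2 * ((J : ℝ) + 1) + 1) * Ck k l * (τ * (√2 * √a2) * (√2 * √b2))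
      = (√2 * √2) * ((2 * ((J : ℝ) + 1) + 1) * Ck k l * (τ * √a2 * √b2)) := by ring
    _ = _ := by rw [h2]

/-! ### shifts by the frozen variable -/

theorem sum_sh (V : Finset ℤ) (w : ℤ) (g : ℤ → ℝ) :
    ∑ z ∈ V, g (z - w) = ∑ z ∈ V.image (fun z => z - w), g z := by
  rw [Finset.sum_image (fun a _ b _ h => by simpa using h)]

theorem HSl.shR {κ lam : Type*} [Fintype κ] [Fintype lam] {F : ℤ → ℤ → Matrix κ lam ℂ} {S L : ℕ}
    {a2 r : ℝ} (h : HSl F S L a2 r) (w : ℤ) : HSl (shR w F) (S + w.natAbs) L a2 r := by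
  refine ⟨?_, ?_, ?_⟩
  · intro z z' hz
    unfold GlueK.shR
    apply h.supp
    have hw : ((w.natAbs : ℕ) : ℤ) = |w| := Int.natCast_natAbs w
    push_cast at hz
    rcases hz with hz | hz
    · left
      have := abs_nonneg w
      omega
    · right
      have h1 : |z'| ≤ |z' - w| + |w| := by
        have := abs_add_le (z' - w) w
        rwa [sub_add_cancel] at this
      omega
  · intro U V
    have e : ∀ z, ∑ z' ∈ V, hsC (GlueK.shR w F z z') =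
        ∑ z' ∈ V.image (fun z => z - w), hsC (F z z') := fun z => sum_sh V w (fun z' => hsC (F z z'))
    simp only [e]
    exact h.tot U _
  · intro p q
    have h1 := h.blk p (q - w)
    refine le_trans (le_of_eq ?_) h1
    refine Finset.sum_congr rfl fun i _ => Finset.sum_congr rfl fun j _ => ?_
    unfold GlueK.shR
    rw [show q + ((j : ℕ) : ℤ) - w = q - w + ((j : ℕ) : ℤ) by ring]

theorem OPl.shL {κ lam : Type*} [Fintype κ] [Fintype lam] {F : ℤ → ℤ → Matrix κ lam ℂ} {S L : ℕ}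
    {τ h2 : ℝ} (h : OPl F S L τ h2) (w : ℤ) : OPl (shL w F) (S + w.natAbs) L τ h2 := by
  refine ⟨?_, ?_, ?_⟩
  · intro z z' hz
    unfold GlueK.shL
    apply h.supp
    have hw : ((w.natAbs : ℕ) : ℤ) = |w| := Int.natCast_natAbs w
    push_cast at hz
    rcases hz with hz | hz
    · left
      have h1 : |z| ≤ |z - w| + |w| := by
        have := abs_add_le (z - w) w
        rwa [sub_add_cancel] at this
      omega
    · right
      have := abs_nonneg w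
      omega
  · intro U V
    have e : ∑ z ∈ U, ∑ z' ∈ V, hsC (GlueK.shL w F z z') =
        ∑ z ∈ U.image (fun z => z - w), ∑ z' ∈ V, hsC (F z z') :=
      sum_sh U w (fun z => ∑ z' ∈ V, hsC (F z z'))
    rw [e]
    exact h.tot _ V
  · intro p q u
    have h1 := h.op (p - w) q u
    refine le_trans (le_of_eq ?_) h1
    refine Finset.sum_congr rfl fun y _ => ?_
    congr 2
    refine Finset.sum_congr rfl fun x _ => ?_
    unfold GlueK.shL
    rw [show p + ((x.1 : ℕ) : ℤ) - w = p - w + ((x.1 : ℕ) : ℤ) by ring]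

theorem HSl.smulI {κ lam : Type*} [Fintype κ] [Fintype lam] {F : ℤ → ℤ → Matrix κ lam ℂ} {S L : ℕ}
    {a2 r : ℝ} (h : HSl F S L a2 r) : HSl (fun x y => (-Complex.I) • F x y) S L a2 r := by
  have e : ∀ x y, hsC ((-Complex.I) • F x y) = hsC (F x y) := by
    intro x y
    unfold hsC
    refine Finset.sum_congr rfl fun k _ => Finset.sum_congr rfl fun k' _ => ?_
    rw [Matrix.smul_apply, norm_smul, norm_neg, Complex.norm_I, one_mul]
  refine ⟨fun z z' hz => by simp only [h.supp z z' hz, smul_zero], ?_, ?_⟩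
  · intro U V
    simp only [e]
    exact h.tot U V
  · intro p q
    simp only [e]
    exact h.blk p q

theorem HSl.mono {κ lam : Type*} [Fintype κ] [Fintype lam] {F : ℤ → ℤ → Matrix κ lam ℂ}
    {S S' L : ℕ} {a2 r : ℝ} (h : HSl F S L a2 r) (hS : S ≤ S') : HSl F S' L a2 r :=
  ⟨fun z z' hz => h.supp z z' (by
    have : (S : ℤ) ≤ S' := by exact_mod_cast hS
    rcases hz with hz | hz
    · left; linarith
    · right; linarith), h.tot, h.blk⟩

/-- **the corner `(oo-,2+,2+)` for complex labelled kernels on `ℤ`, leaf scale `L`**, frozen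
variable `w`, block `l`, boxes at all positions -/
theorem cornerZ {L : ℕ} [NeZero L] {S : ℕ}
    {F0 : ℤ → ℤ → Matrix κ0 κ1 ℂ} {F1 : ℤ → ℤ → Matrix κ1 κ2 ℂ} {F2 : ℤ → ℤ → Matrix κ2 κ0 ℂ}
    (M k : ℕ) (l w : ℤ) (hl : |l| ≤ 7) (hk : 2 * |l| + 20 ≤ 2 ^ k) (J L1 : ℕ)
    {a2 b2 r τ : ℝ} (ha2 : 0 < a2) (hb2 : 0 < b2) (hr : 0 < r) (hτ : 0 < τ)
    (hA : HSl F0 S L a2 r) (hB : HSl F1 S L b2 r) (hC : OPl F2 S L τ ((L * τ) ^ 2 * (r * 2 ^ J))) :
    ∑ m ∈ range M, (1 / ((L * 2 ^ m : ℕ) : ℝ)) * ∑ i ∈ range (L * 2 ^ m),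
      ∑ p0 ∈ Icc (-(L1 : ℤ)) L1, ∑ p1 ∈ Icc (-(L1 : ℤ)) L1,
      ‖L3 (tr3 F0 F1 F2) (L * 2 ^ m) p0 p1 (l * ((L * 2 ^ m : ℕ) : ℤ) + (i : ℤ) - w - p0 - p1)‖ ≤
    2 * ((2 * (J + 1) + 1) * Ck k l * (τ * √a2 * √b2)) := by
  set S' : ℕ := S + w.natAbs with hS'
  set K : ℕ := 2 * (S' + L) + 4 * L1 + 21 with hK
  set Q' : ℕ := 2 ^ M * K with hQ'
  have hL0 : 0 < L := Nat.pos_of_ne_zero (NeZero.ne L)
  have h2M : 0 < 2 ^ M := by positivity
  have hK0 : 0 < K := by omega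
  have : NeZero Q' := ⟨by positivity⟩
  have hLQ : 0 < L * Q' := by positivity
  have : NeZero (L * Q') := ⟨hLQ.ne'⟩
  have hKle : K ≤ L * Q' := by
    calc K = 1 * (1 * K) := by ring
      _ ≤ L * (2 ^ M * K) := Nat.mul_le_mul hL0 (Nat.mul_le_mul_right _ h2M)
  have hQS : 2 * (S' + L) < L * Q' := by omega
  have hdvd : 2 ^ M ∣ Q' := Dvd.intro _ rfl
  have hstep : ∀ m ∈ range M, (1 / ((L * 2 ^ m : ℕ) : ℝ)) * ∑ i ∈ range (L * 2 ^ m),
      ∑ p0 ∈ Icc (-(L1 : ℤ)) L1, ∑ p1 ∈ Icc (-(L1 : ℤ)) L1,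
      ‖L3 (tr3 F0 F1 F2) (L * 2 ^ m) p0 p1 (l * ((L * 2 ^ m : ℕ) : ℤ) + (i : ℤ) - w - p0 - p1)‖ ≤
      (1 / 2) * (bl (fun n => ∑ p0 : ZMod (L * Q'), ∑ p1 : ZMod (L * Q'),
        |LboxL (emL (L * Q') F0) (emL (L * Q') (shR w F1)) (emL (L * Q') (shL w F2)) (L * 2 ^ m)
          p0 p1 (n - p0 - p1)|) (L * 2 ^ m) l +
      bl (fun n => ∑ p0 : ZMod (L * Q'), ∑ p1 : ZMod (L * Q'),
        |LboxL (emL (L * Q') (fun x y => (-Complex.I) • F0 x y)) (emL (L * Q') (shR w F1))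
          (emL (L * Q') (shL w F2)) (L * 2 ^ m) p0 p1 (n - p0 - p1)|) (L * 2 ^ m) l) := by
    intro m hm
    rw [Finset.mem_range] at hm
    refine GlueK.scale_transfer F0 F1 F2 (L * 2 ^ m) L1 l hl w ?_
    have h3 : L * 2 ^ m ≤ L * 2 ^ M :=
      Nat.mul_le_mul_left _ (Nat.pow_le_pow_right (by norm_num) hm.le)
    have h4 : 1 ≤ L * 2 ^ M := Nat.mul_pos hL0 h2M
    have h5 : L * 2 ^ M * (4 * L1 + 21) ≤ L * Q' := by
      rw [hQ', ← mul_assoc]
      exact Nat.mul_le_mul_left _ (by omega)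
    have h6 : 4 * L1 ≤ L * 2 ^ M * (4 * L1) := Nat.le_mul_of_pos_left _ h4
    have h7 : L * 2 ^ M * (4 * L1 + 21) = L * 2 ^ M * (4 * L1) + 21 * (L * 2 ^ M) := by ring
    omega
  refine (Finset.sum_le_sum hstep).trans ?_
  rw [← Finset.mul_sum, Finset.sum_add_distrib]
  have hA' := hA.mono (Nat.le_add_right S w.natAbs)
  have c1 := core hQS hdvd k l hk J ha2 hb2 hr hτ hA' (hB.shR w) (hC.shL w)
  have c2 := core hQS hdvd k l hk J ha2 hb2 hr hτ hA'.smulI (hB.shR w) (hC.shL w)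
  linarith

end core

end Crest.Agent.R079.PotL.GS
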