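import Crest.Agent.R079.PWin_590

/-! R079, doc 2531 / 530's fixed weight / 844's additive form: GRAM WINDOWS with look-ahead (helper590).

Scalar family `S : ι → Nd → ℂ`, additive over the two children (entries of `∑ v v*` over
`{z_b : y_a ∈ iv p}`, all pairs `(x_i, x_m)`), weights `om ≥ 0`, `Mn (S i) p = S i p / len p`,
`En om S p = ∑ om ‖M‖²`, `Df om S p q = ∑ om ‖M p - M q‖²`, exact drift `Dr`.
`gram_windows`: partition into full windows, `≤ 2 + 40 (k+1) S₀/θ` tops below every node, such that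
`M` deviates from the top value by `≤ θ` at all nodes and (unless the window is one node) the same
holds in the mean over all descendants of depth `j ≤ k` (also below the leaves of `R`). -/

set_option autoImplicit false

namespace Crest.Agent.R079.GWin

open Finset Crest.Agent.R079.Grid Crest.Agent.R079.Growth Crest.Agent.R079.QRed
  Crest.Agent.R079.Qe292 Crest.Agent.R079.Qh249 Crest.Agent.R079.TWin Crest.Agent.R079.PWin

/-! ### sums over descendants -/

/-- sum of `f` over the descendants of depth `j` (`0` if `j > level`) -/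
noncomputable def sd (f : Nd → ℝ) : ℕ → Nd → ℝ
  | 0, p => f p
  | _ + 1, (0, _) => 0
  | j + 1, (m + 1, l) => sd f j (m, 2 * l) + sd f j (m, 2 * l + 1)

/-- descendants of depth `j` -/
noncomputable def desc (j : ℕ) (p : Nd) : Finset Nd :=
  (Finset.Ico (p.2 * 2 ^ j) ((p.2 + 1) * 2 ^ j)).image (fun l' => ((p.1 - j, l') : Nd))

theorem sd_zero (f : Nd → ℝ) (p : Nd) : sd f 0 p = f p := by
  rcases p with ⟨m, l⟩
  rw [sd]

theorem sd_bot (f : Nd → ℝ) (j : ℕ) (l : ℤ) : sd f (j + 1) (0, l) = 0 := by rw [sd]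

theorem sd_succ (f : Nd → ℝ) (j m : ℕ) (l : ℤ) :
    sd f (j + 1) (m + 1, l) = sd f j (m, 2 * l) + sd f j (m, 2 * l + 1) := by rw [sd]

theorem sd_nonneg {f : Nd → ℝ} (hf : ∀ p, 0 ≤ f p) (j : ℕ) : ∀ p, 0 ≤ sd f j p := by
  induction j with
  | zero => intro p; rw [sd_zero]; exact hf p
  | succ j ih =>
    intro p
    rcases p with ⟨m, l⟩
    cases m with
    | zero => rw [sd_bot]
    | succ m => rw [sd_succ]; exact add_nonneg (ih _) (ih _)

theorem sum_desc (f : Nd → ℝ) (j : ℕ) : ∀ p : Nd, j ≤ p.1 → ∑ r ∈ desc j p, f r = sd f j p := by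
  induction j with
  | zero =>
    intro p _
    rw [sd_zero]
    unfold desc
    rw [pow_zero, mul_one, mul_one, Finset.sum_image (fun a _ b _ h => congrArg Prod.snd h)]
    have : Finset.Ico p.2 (p.2 + 1) = {p.2} := by
      ext z
      rw [Finset.mem_Ico, Finset.mem_singleton]
      omega
    rw [this, Finset.sum_singleton, Nat.sub_zero]
  | succ j ih =>
    intro p hp
    rcases p with ⟨m, l⟩
    cases m with
    | zero => simp at hp
    | succ m =>
      have hjm : j ≤ m := by simpa using hp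
      rw [sd_succ, ← ih (m, 2 * l) hjm, ← ih (m, 2 * l + 1) hjm]
      unfold desc
      simp only
      rw [Finset.sum_image (fun a _ b _ h => congrArg Prod.snd h),
        Finset.sum_image (fun a _ b _ h => congrArg Prod.snd h),
        Finset.sum_image (fun a _ b _ h => congrArg Prod.snd h)]
      have e1 : m + 1 - (j + 1) = m - j := by omega
      have e2 : l * 2 ^ (j + 1) = 2 * l * 2 ^ j := by rw [pow_succ]; ring
      have e3 : (l + 1) * 2 ^ (j + 1) = (2 * l + 1 + 1) * 2 ^ j := by rw [pow_succ]; ring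
      rw [e1, e2, e3]
      have hpos : (0 : ℤ) < 2 ^ j := by positivity
      rw [← Finset.sum_union (Finset.Ico_disjoint_Ico_consecutive _ _ _),
        Finset.Ico_union_Ico_eq_Ico (by nlinarith) (by nlinarith)]

theorem mem_desc {j : ℕ} {p r : Nd} : r ∈ desc j p ↔
    r.1 = p.1 - j ∧ p.2 * 2 ^ j ≤ r.2 ∧ r.2 < (p.2 + 1) * 2 ^ j := by
  unfold desc
  rw [Finset.mem_image]
  constructor
  · rintro ⟨l', h, rfl⟩
    rw [Finset.mem_Ico] at h
    exact ⟨rfl, h⟩
  · rintro ⟨h1, h2⟩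
    exact ⟨r.2, Finset.mem_Ico.2 h2, Prod.ext h1.symm rfl⟩

theorem mem_desc_iff {j : ℕ} {p r : Nd} (hj : j ≤ p.1) :
    r ∈ desc j p ↔ r.1 + j = p.1 ∧ iv r ⊆ iv p := by
  rw [mem_desc]
  have hpos : (0 : ℤ) < 2 ^ j := by positivity
  constructor
  · rintro ⟨h1, h2, h3⟩
    refine ⟨by omega, Qe292.iv_sub_iff.2 ⟨j, Prod.ext (by simp only; omega) ?_⟩⟩
    simp only
    symm
    apply Int.le_antisymm
    · have : r.2 / 2 ^ j < p.2 + 1 := Int.ediv_lt_of_lt_mul hpos h3
      omega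
    · exact Int.le_ediv_of_mul_le hpos h2
  · rintro ⟨h1, h2⟩
    obtain ⟨i, hi⟩ := Qe292.iv_sub_iff.1 h2
    have hi1 : p.1 = r.1 + i := by rw [hi]
    have hij : i = j := by omega
    subst hij
    have hp2 : p.2 = r.2 / 2 ^ i := by rw [hi]
    refine ⟨by omega, ?_, ?_⟩
    · rw [hp2]
      exact Int.ediv_mul_le _ hpos.ne'
    · rw [hp2]
      exact Int.lt_ediv_add_one_mul_self _ hpos

/-! ### look-ahead of a node function -/

/-- Carleson function of the sums of depth `j` -/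
noncomputable def TT (f : Nd → ℝ) (j : ℕ) : Nd → ℝ
  | (0, l) => sd f j (0, l)
  | (m + 1, l) => sd f j (m + 1, l) + (TT f j (m, 2 * l) + TT f j (m, 2 * l + 1))
termination_by p => p.1

theorem TT_bot (f : Nd → ℝ) (j : ℕ) (l : ℤ) : TT f j (0, l) = sd f j (0, l) := by rw [TT]

theorem TT_node (f : Nd → ℝ) (j m : ℕ) (l : ℤ) :
    TT f j (m + 1, l) = sd f j (m + 1, l) + (TT f j (m, 2 * l) + TT f j (m, 2 * l + 1)) := by
  rw [TT]

theorem TT_succ (f : Nd → ℝ) (j m : ℕ) : ∀ l : ℤ,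
    TT f (j + 1) (m + 1, l) = TT f j (m, 2 * l) + TT f j (m, 2 * l + 1) := by
  induction m with
  | zero =>
    intro l
    rw [TT_node, sd_succ, TT_bot, TT_bot, TT_bot, TT_bot, sd_bot, sd_bot]
    ring
  | succ m ih =>
    intro l
    rw [TT_node, sd_succ, ih, ih, TT_node f j m (2 * l), TT_node f j m (2 * l + 1)]
    ring

theorem TT_le {f : Nd → ℝ} (hf : ∀ p, 0 ≤ f p) (j : ℕ) : ∀ p, TT f j p ≤ TT f 0 p := by
  induction j with
  | zero => intro p; exact le_rfl
  | succ j ih =>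
    intro p
    rcases p with ⟨m, l⟩
    cases m with
    | zero =>
      rw [TT_bot, TT_bot, sd_bot, sd_zero]
      exact hf _
    | succ m =>
      rw [TT_succ, TT_node, sd_zero]
      have h1 := ih (m, 2 * l)
      have h2 := ih (m, 2 * l + 1)
      have h3 := hf (m + 1, l)
      linarith

/-- look-ahead of `k` generations -/
noncomputable def la (k : ℕ) (D : Nd → ℝ) (p : Nd) : ℝ :=
  (∑ j ∈ range (k + 1), sd (fun q => len q * D q) j p) / len p

theorem mass_nonneg {D : Nd → ℝ} (hD : ∀ p, 0 ≤ D p) (p : Nd) : 0 ≤ len p * D p :=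
  mul_nonneg (Growth.len_pos p).le (hD p)

theorem la_nonneg (k : ℕ) {D : Nd → ℝ} (hD : ∀ p, 0 ≤ D p) (p : Nd) : 0 ≤ la k D p :=
  div_nonneg (Finset.sum_nonneg fun _ _ => sd_nonneg (mass_nonneg hD) _ _) (Growth.len_pos p).le

theorem len_mul_la (k : ℕ) (D : Nd → ℝ) (p : Nd) :
    len p * la k D p = ∑ j ∈ range (k + 1), sd (fun q => len q * D q) j p := by
  unfold la
  have := (Growth.len_pos p).ne'
  field_simp

theorem le_la (k : ℕ) {D : Nd → ℝ} (hD : ∀ p, 0 ≤ D p) (p : Nd) : D p ≤ la k D p := by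
  refine le_of_mul_le_mul_left ?_ (Growth.len_pos p)
  rw [len_mul_la]
  have h := Finset.single_le_sum (f := fun j => sd (fun q => len q * D q) j p)
    (fun j _ => sd_nonneg (mass_nonneg hD) j p) (Finset.mem_range.2 (Nat.succ_pos k))
  simp only [sd_zero] at h
  exact h

theorem bel_la {R : Finset Nd} {J : Nd} (hR : Full R J) (k : ℕ) {D : Nd → ℝ}
    (hD : ∀ p, 0 ≤ D p) : ∀ p ∈ R, bel R (la k D) p ≤ (k + 1 : ℝ) * TT (fun q => len q * D q) 0 p := by
  have key : ∀ p ∈ R, bel R (la k D) p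
      ≤ ∑ j ∈ range (k + 1), TT (fun q => len q * D q) j p := by
    refine full_ind hR (fun p hp => ?_) fun m l hp hnl h0 h1 e0 e1 => ?_
    · rw [bel_leaf _ hp, len_mul_la]
      refine Finset.sum_le_sum fun j _ => ?_
      rcases p with ⟨m, l⟩
      cases m with
      | zero => rw [TT_bot]
      | succ m =>
        rw [TT_node]
        have hT : ∀ (m : ℕ) (l : ℤ), 0 ≤ TT (fun q => len q * D q) j (m, l) := by
          intro m
          induction m with
          | zero => intro l; rw [TT_bot]; exact sd_nonneg (mass_nonneg hD) _ _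
          | succ m ih =>
            intro l
            rw [TT_node]
            have h1 := sd_nonneg (mass_nonneg hD) j (m + 1, l)
            have h2 := ih (2 * l)
            have h3 := ih (2 * l + 1)
            linarith
        have h2 := hT m (2 * l)
        have h3 := hT m (2 * l + 1)
        linarith
    · rw [bel_node _ hp, len_mul_la]
      have e : ∑ j ∈ range (k + 1), TT (fun q => len q * D q) j (m + 1, l)
          = ∑ j ∈ range (k + 1), sd (fun q => len q * D q) j (m + 1, l)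
            + (∑ j ∈ range (k + 1), TT (fun q => len q * D q) j (m, 2 * l)
              + ∑ j ∈ range (k + 1), TT (fun q => len q * D q) j (m, 2 * l + 1)) := by
        rw [← Finset.sum_add_distrib, ← Finset.sum_add_distrib]
        exact Finset.sum_congr rfl fun j _ => TT_node _ _ _ _
      rw [e]
      linarith
  intro p hp
  refine (key p hp).trans ?_
  calc ∑ j ∈ range (k + 1), TT (fun q => len q * D q) j p
      ≤ ∑ _j ∈ range (k + 1), TT (fun q => len q * D q) 0 p :=
        Finset.sum_le_sum fun j _ => TT_le (mass_nonneg hD) j p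
    _ = _ := by rw [Finset.sum_const, Finset.card_range, nsmul_eq_mul]; push_cast; ring

/-! ### the Gram martingale -/

variable {ι : Type*} [Fintype ι]

/-- mean -/
noncomputable def Mn (S : Nd → ℂ) (p : Nd) : ℂ := S p / ((len p : ℝ) : ℂ)

/-- energy -/
noncomputable def En (om : ι → ℝ) (S : ι → Nd → ℂ) (p : Nd) : ℝ := ∑ i, om i * ‖Mn (S i) p‖ ^ 2

/-- deviation -/
noncomputable def Df (om : ι → ℝ) (S : ι → Nd → ℂ) (p q : Nd) : ℝ :=
  ∑ i, om i * ‖Mn (S i) p - Mn (S i) q‖ ^ 2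

/-- drift -/
noncomputable def Dr (om : ι → ℝ) (S : ι → Nd → ℂ) : Nd → ℝ
  | (0, _) => 0
  | (m + 1, l) => ∑ i, om i * ‖(Mn (S i) (m, 2 * l) - Mn (S i) (m, 2 * l + 1)) / 2‖ ^ 2

/-- additive over the children -/
def Add (S : ι → Nd → ℂ) : Prop :=
  ∀ i (m : ℕ) (l : ℤ), S i (m + 1, l) = S i (m, 2 * l) + S i (m, 2 * l + 1)

variable {om : ι → ℝ} {S : ι → Nd → ℂ}

omit [Fintype ι] in
theorem Mn_node (hS : Add S) (i : ι) (m : ℕ) (l : ℤ) :
    Mn (S i) (m + 1, l) = (Mn (S i) (m, 2 * l) + Mn (S i) (m, 2 * l + 1)) / 2 := by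
  unfold Mn
  have hl0 : len (m + 1, l) = 2 * len (m, 2 * l) := len_ch m l _
  have hl1 : len (m, 2 * l + 1) = len (m, 2 * l) := rfl
  have hne : ((len (m, 2 * l) : ℝ) : ℂ) ≠ 0 := by
    exact_mod_cast (Growth.len_pos (m, 2 * l)).ne'
  rw [hS i m l, hl0, hl1]
  push_cast
  field_simp

theorem par_id (a b : ℂ) : ‖(a + b) / 2‖ ^ 2 + ‖(a - b) / 2‖ ^ 2 = (‖a‖ ^ 2 + ‖b‖ ^ 2) / 2 := by
  have h := parallelogram_law_with_norm ℝ a b
  rw [norm_div, norm_div]
  have h2 : ‖(2 : ℂ)‖ = 2 := by norm_num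
  rw [h2]
  nlinarith

theorem Dr_nonneg (hom : ∀ i, 0 ≤ om i) : ∀ p, 0 ≤ Dr om S p
  | (0, _) => le_refl _
  | (m + 1, l) => Finset.sum_nonneg fun i _ => mul_nonneg (hom i) (by positivity)

theorem Df_nonneg (hom : ∀ i, 0 ≤ om i) (p q : Nd) : 0 ≤ Df om S p q :=
  Finset.sum_nonneg fun i _ => mul_nonneg (hom i) (by positivity)

theorem Df_self (p : Nd) : Df om S p p = 0 := by
  unfold Df
  refine Finset.sum_eq_zero fun i _ => ?_
  rw [sub_self, norm_zero]
  ring

theorem En_nonneg (hom : ∀ i, 0 ≤ om i) (p : Nd) : 0 ≤ En om S p :=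
  Finset.sum_nonneg fun i _ => mul_nonneg (hom i) (by positivity)

theorem En_node (hS : Add S) (m : ℕ) (l : ℤ) :
    En om S (m + 1, l) + Dr om S (m + 1, l)
      = (En om S (m, 2 * l) + En om S (m, 2 * l + 1)) / 2 := by
  show ∑ i, om i * ‖Mn (S i) (m + 1, l)‖ ^ 2
    + ∑ i, om i * ‖(Mn (S i) (m, 2 * l) - Mn (S i) (m, 2 * l + 1)) / 2‖ ^ 2
    = (∑ i, om i * ‖Mn (S i) (m, 2 * l)‖ ^ 2 + ∑ i, om i * ‖Mn (S i) (m, 2 * l + 1)‖ ^ 2) / 2
  rw [← Finset.sum_add_distrib, ← Finset.sum_add_distrib, Finset.sum_div]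
  refine Finset.sum_congr rfl fun i _ => ?_
  rw [Mn_node hS i m l]
  have h := par_id (Mn (S i) (m, 2 * l)) (Mn (S i) (m, 2 * l + 1))
  have h2 : om i * (‖(Mn (S i) (m, 2 * l) + Mn (S i) (m, 2 * l + 1)) / 2‖ ^ 2
      + ‖(Mn (S i) (m, 2 * l) - Mn (S i) (m, 2 * l + 1)) / 2‖ ^ 2)
      = om i * ((‖Mn (S i) (m, 2 * l)‖ ^ 2 + ‖Mn (S i) (m, 2 * l + 1)‖ ^ 2) / 2) := by rw [h]
  linarith

theorem Df_node (hS : Add S) (m : ℕ) (l : ℤ) (K : Nd) :
    Df om S (m + 1, l) K + Dr om S (m + 1, l)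
      = (Df om S (m, 2 * l) K + Df om S (m, 2 * l + 1) K) / 2 := by
  show ∑ i, om i * ‖Mn (S i) (m + 1, l) - Mn (S i) K‖ ^ 2
    + ∑ i, om i * ‖(Mn (S i) (m, 2 * l) - Mn (S i) (m, 2 * l + 1)) / 2‖ ^ 2
    = (∑ i, om i * ‖Mn (S i) (m, 2 * l) - Mn (S i) K‖ ^ 2
      + ∑ i, om i * ‖Mn (S i) (m, 2 * l + 1) - Mn (S i) K‖ ^ 2) / 2
  rw [← Finset.sum_add_distrib, ← Finset.sum_add_distrib, Finset.sum_div]
  refine Finset.sum_congr rfl fun i _ => ?_
  have h := par_id (Mn (S i) (m, 2 * l) - Mn (S i) K) (Mn (S i) (m, 2 * l + 1) - Mn (S i) K)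
  have e1 : (Mn (S i) (m, 2 * l) - Mn (S i) K + (Mn (S i) (m, 2 * l + 1) - Mn (S i) K)) / 2
      = Mn (S i) (m + 1, l) - Mn (S i) K := by
    rw [Mn_node hS i m l]
    ring
  have e2 : (Mn (S i) (m, 2 * l) - Mn (S i) K - (Mn (S i) (m, 2 * l + 1) - Mn (S i) K)) / 2
      = (Mn (S i) (m, 2 * l) - Mn (S i) (m, 2 * l + 1)) / 2 := by ring
  rw [e1, e2] at h
  have h2 : om i * (‖Mn (S i) (m + 1, l) - Mn (S i) K‖ ^ 2
      + ‖(Mn (S i) (m, 2 * l) - Mn (S i) (m, 2 * l + 1)) / 2‖ ^ 2)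
      = om i * ((‖Mn (S i) (m, 2 * l) - Mn (S i) K‖ ^ 2
        + ‖Mn (S i) (m, 2 * l + 1) - Mn (S i) K‖ ^ 2) / 2) := by rw [h]
  linarith

/-- total drift of the full dyadic tree below a node -/
theorem TT_Dr (hS : Add S) {S₀ : ℝ} (hB : ∀ p, En om S p ≤ S₀) :
    ∀ (m : ℕ) (l : ℤ), TT (fun q => len q * Dr om S q) 0 (m, l)
      ≤ len (m, l) * (S₀ - En om S (m, l)) := by
  intro m
  induction m with
  | zero =>
    intro l
    rw [TT_bot, sd_zero]
    show len (0, l) * 0 ≤ _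
    rw [mul_zero]
    exact mul_nonneg (Growth.len_pos _).le (by linarith [hB (0, l)])
  | succ m ih =>
    intro l
    rw [TT_node, sd_zero]
    have h0 := ih (2 * l)
    have h1 := ih (2 * l + 1)
    have h2 := En_node (om := om) hS m l
    have hl0 : len (m + 1, l) = 2 * len (m, 2 * l) := len_ch m l _
    have hl1 : len (m, 2 * l + 1) = len (m, 2 * l) := rfl
    rw [hl1] at h1
    have h3 : Dr om S (m + 1, l) = (En om S (m, 2 * l) + En om S (m, 2 * l + 1)) / 2
        - En om S (m + 1, l) := by linarith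
    rw [hl0, h3]
    nlinarith

/-- martingale orthogonality in a window -/
theorem SL_Df (hS : Add S) {W : Finset Nd} {I : Nd} (hW : Full W I) (K : Nd) :
    ∀ p ∈ W, SL W p (fun L => Df om S L K)
      = len p * Df om S p K + bel (W \ lf W) (Dr om S) p := by
  refine full_ind hW (fun p hp => ?_) fun m l hp hnl h0 h1 e0 e1 => ?_
  · rw [SL_leaf hp]
    have : bel (W \ lf W) (Dr om S) p = 0 := by
      classical
      unfold bel
      refine Finset.sum_eq_zero fun q hq => ?_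
      exfalso
      obtain ⟨h1, h2⟩ := Finset.mem_filter.1 hq
      obtain ⟨h3, h4⟩ := Finset.mem_sdiff.1 h1
      rw [(mem_lf.1 hp).2 q h3 h2] at h4
      exact h4 hp
    rw [this, add_zero]
  · rw [SL_node hW hnl h0 h1, e0, e1, bel_node _ (Finset.mem_sdiff.2 ⟨hp, hnl⟩)]
    have hl0 : len (m + 1, l) = 2 * len (m, 2 * l) := len_ch m l _
    have hl1 : len (m, 2 * l + 1) = len (m, 2 * l) := rfl
    have h2 := Df_node (om := om) hS m l K
    have h3 : Df om S (m, 2 * l + 1) K = 2 * (Df om S (m + 1, l) K + Dr om S (m + 1, l))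
        - Df om S (m, 2 * l) K := by linarith
    rw [hl1, hl0, h3]
    ring

/-- deviation of the descendants of depth `j` -/
theorem sd_Df (hS : Add S) (K : Nd) (j : ℕ) : ∀ p : Nd, j ≤ p.1 →
    sd (fun r => len r * Df om S r K) j p
      = len p * Df om S p K + ∑ i ∈ range j, sd (fun q => len q * Dr om S q) i p := by
  induction j with
  | zero =>
    intro p _
    rw [sd_zero, Finset.range_zero, Finset.sum_empty, add_zero]
  | succ j ih =>
    intro p hp
    rcases p with ⟨m, l⟩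
    cases m with
    | zero => simp at hp
    | succ m =>
      have hjm : j ≤ m := by simpa using hp
      rw [sd_succ, ih (m, 2 * l) hjm, ih (m, 2 * l + 1) hjm, Finset.sum_range_succ', sd_zero]
      have hl0 : len (m + 1, l) = 2 * len (m, 2 * l) := len_ch m l _
      have hl1 : len (m, 2 * l + 1) = len (m, 2 * l) := rfl
      have h2 := Df_node (om := om) hS m l K
      have h3 : Df om S (m, 2 * l + 1) K = 2 * (Df om S (m + 1, l) K + Dr om S (m + 1, l))
        - Df om S (m, 2 * l) K := by linarith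
      have e : ∑ i ∈ range j, sd (fun q => len q * Dr om S q) (i + 1) (m + 1, l)
          = ∑ i ∈ range j, sd (fun q => len q * Dr om S q) i (m, 2 * l)
            + ∑ i ∈ range j, sd (fun q => len q * Dr om S q) i (m, 2 * l + 1) := by
        rw [← Finset.sum_add_distrib]
        exact Finset.sum_congr rfl fun i _ => sd_succ _ _ _ _
      rw [e, hl1, hl0, h3]
      ring

/-- **GRAM WINDOWS** -/
theorem gram_windows {R : Finset Nd} {J : Nd} (hR : Full R J) (hom : ∀ i, 0 ≤ om i) (hS : Add S)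
    {S₀ θ : ℝ} (k : ℕ) (hθ : 0 < θ) (hB : ∀ p, En om S p ≤ S₀) :
    ∃ (T : Finset Nd) (W : Nd → Finset Nd), Part R T W (2 + 40 * (k + 1) * S₀ / θ) ∧
      ∀ K ∈ T, (∀ p ∈ W K, Df om S p K ≤ θ) ∧
        (W K = {K} ∨ ∀ p ∈ W K, acc (la k (Dr om S)) K p + la k (Dr om S) p ≤ θ ∧
          ∀ j ≤ k, j ≤ p.1 → ∑ r ∈ desc j p, len r * Df om S r K ≤ 2 * θ * len p) := by
  have hD0 := Dr_nonneg (om := om) (S := S) hom
  have hL0 := la_nonneg k hD0
  have hcar : ∀ p ∈ R, bel R (la k (Dr om S)) p ≤ ((k + 1 : ℝ) * S₀) * len p := by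
    intro p hp
    have h1 := bel_la hR k hD0 p hp
    have h2 := TT_Dr hS hB p.1 p.2
    have h3 : TT (fun q => len q * Dr om S q) 0 p ≤ len p * (S₀ - En om S p) := h2
    have h4 := mul_nonneg (Growth.len_pos p).le (En_nonneg hom (S := S) p)
    have h5 : TT (fun q => len q * Dr om S q) 0 p ≤ S₀ * len p := by nlinarith
    have h6 := mul_le_mul_of_nonneg_left h5 (by positivity : (0 : ℝ) ≤ (k : ℝ) + 1)
    linarith
  obtain ⟨T, W, hP, hW⟩ := pred_windows (A := 1) (dev := fun K p => Df om S p K) hR hθ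
    (by norm_num) hL0 hcar (fun I p => Df_nonneg hom p I) (fun I => Df_self I) (by
      intro I _ V hV _
      have h1 := SL_Df (om := om) hS hV I I hV.top
      rw [Df_self, mul_zero, zero_add] at h1
      rw [SL_top hV, h1]
      have h2 : bel (V \ lf V) (Dr om S) I ≤ bel (V \ lf V) (la k (Dr om S)) I :=
        Finset.sum_le_sum fun q _ =>
          mul_le_mul_of_nonneg_left (le_la k hD0 q) (Growth.len_pos q).le
      have h3 := mul_pos hθ (Growth.len_pos I)
      nlinarith)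
  refine ⟨T, W, ?_, fun K hK => ⟨(hW K hK).1, ?_⟩⟩
  · have e : 2 + 20 * (1 + 1) * ((k + 1 : ℝ) * S₀) / θ = 2 + 40 * (k + 1) * S₀ / θ := by ring
    rw [← e]
    exact hP
  · rcases (hW K hK).2 with h | h
    · exact Or.inl h
    · right
      intro p hp
      refine ⟨(h p hp).1, fun j hj hjp => ?_⟩
      rw [sum_desc _ j p hjp, sd_Df hS K j p hjp]
      have h1 := (hW K hK).1 p hp
      have h2 : la k (Dr om S) p ≤ θ := by
        have h3 := acc_nonneg hL0 K p
        linarith [(h p hp).1]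
      have h4 : ∑ i ∈ range j, sd (fun q => len q * Dr om S q) i p
          ≤ ∑ i ∈ range (k + 1), sd (fun q => len q * Dr om S q) i p :=
        Finset.sum_le_sum_of_subset_of_nonneg
          (Finset.range_subset_range.2 (by omega)) fun i _ _ => sd_nonneg (mass_nonneg hD0) i p
      rw [← len_mul_la] at h4
      have h5 := mul_le_mul_of_nonneg_left h1 (Growth.len_pos p).le
      have h6 := mul_le_mul_of_nonneg_left h2 (Growth.len_pos p).le
      linarith

end Crest.Agent.R079.GWin
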