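import Crest.Agent.R079.TWin3_903

/-! R079, REL windows, LOSS-FREE (doc 2531 Step I, system A; helper653).

Abstract penalty `Φ` with walls `K` (own-node data, glueing upwards).  `f p` = near-minimiser at the
node `p` of `av p (X - g)^2 + Φ p g` over `K p`.  Windows with number `≤ 2 + 16 card / δ` such that at
EVERY node `p` of the window `W` with top `I`: `av p (f I - gl W f)^2 ≤ 2 δ`, and the drift of the
value below every node is `≤ δ`. -/

set_option autoImplicit false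

namespace Crest.Agent.R079.RelW653

open Finset Crest.Agent.R079.Grid Crest.Agent.R079.Growth Crest.Agent.R079.QRed
  Crest.Agent.R079.Qh249 Crest.Agent.R079.QVar181 Crest.Agent.R079.TWin

/-- admissible penalty with walls -/
structure Pen (K : Nd → Fn → Prop) (Φ : Nd → Fn → ℝ) : Prop where
  nonneg : ∀ p g, 0 ≤ Φ p g
  loc : ∀ p g g', (∀ y ∈ iv p, g y = g' y) → Φ p g = Φ p g'
  mid : ∀ p g g', Φ p (fun y => (g y + g' y) / 2) ≤ (Φ p g + Φ p g') / 2
  glue : ∀ (m : ℕ) (l : ℤ) (g : Fn), Φ (m + 1, l) g ≤ (Φ (m, 2 * l) g + Φ (m, 2 * l + 1) g) / 2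
  zero : ∀ p, Φ p (fun _ => 0) = 0
  Kloc : ∀ p g g', (∀ y ∈ iv p, g y = g' y) → K p g → K p g'
  Kmid : ∀ p g g', K p g → K p g' → K p (fun y => (g y + g' y) / 2)
  Kglue : ∀ (m : ℕ) (l : ℤ) (g : Fn), K (m, 2 * l) g → K (m, 2 * l + 1) g → K (m + 1, l) g
  Kzero : ∀ p, K p (fun _ => 0)

/-- the functional -/
noncomputable def vl (Φ : Nd → Fn → ℝ) (X : Fn) (p : Nd) (g : Fn) : ℝ :=
  av p (fun y => X y - g y) ^ 2 + Φ p g

/-- near-minimisers at all nodes (`η = 0`: minimisers) -/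
structure NMP (K : Nd → Fn → Prop) (Φ : Nd → Fn → ℝ) (X : Fn) (η : ℝ) (f : Nd → Fn) : Prop where
  eta : 0 ≤ η
  mem : ∀ p, K p (f p)
  le : ∀ p g, K p g → vl Φ X p (f p) ≤ vl Φ X p g + η

/-- value at the node -/
noncomputable def Jv (Φ : Nd → Fn → ℝ) (X : Fn) (f : Nd → Fn) (p : Nd) : ℝ := vl Φ X p (f p)

/-- upward drift of the value, plus the defect -/
noncomputable def Dv (J : Nd → ℝ) (e : ℝ) : Nd → ℝ
  | (0, _) => 0
  | (m + 1, l) => (J (m, 2 * l) + J (m, 2 * l + 1)) / 2 - J (m + 1, l) + e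

/-! ### elementary -/

lemma sum_av' (p : Nd) (X : Fn) : ∑ y ∈ iv p, ‖X y‖ ^ 2 = len p * av p X ^ 2 := Growth.sum_av p X

/-- parallelogram identity -/
lemma av_par (p : Nd) (X f g : Fn) :
    av p (fun y => X y - (f y + g y) / 2) ^ 2 + (1 / 4) * av p (fun y => f y - g y) ^ 2
      = (av p (fun y => X y - f y) ^ 2 + av p (fun y => X y - g y) ^ 2) / 2 := by
  have hL := Growth.len_pos p
  have h : len p * (av p (fun y => X y - (f y + g y) / 2) ^ 2
      + (1 / 4) * av p (fun y => f y - g y) ^ 2)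
      = len p * ((av p (fun y => X y - f y) ^ 2 + av p (fun y => X y - g y) ^ 2) / 2) := by
    rw [mul_add, mul_left_comm, ← sum_av', ← sum_av', mul_div_assoc', mul_add, ← sum_av',
      ← sum_av', ← Finset.sum_add_distrib, Finset.mul_sum, ← Finset.sum_add_distrib,
      Finset.sum_div]
    refine Finset.sum_congr rfl fun y _ => ?_
    have h1 := parallelogram_law_with_norm ℝ (X y - f y) (X y - g y)
    have e1 : (X y - f y) + (X y - g y) = 2 * (X y - (f y + g y) / 2) := by ring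
    have e2 : (X y - f y) - (X y - g y) = -(f y - g y) := by ring
    rw [e1, e2, norm_neg, norm_mul] at h1
    have e3 : ‖(2 : ℂ)‖ = 2 := by simp
    rw [e3] at h1
    nlinarith [h1]
  exact mul_left_cancel₀ hL.ne' h

section facts

variable {K : Nd → Fn → Prop} {Φ : Nd → Fn → ℝ} {X : Fn} {η : ℝ} {f : Nd → Fn}

lemma vl_nonneg (hP : Pen K Φ) (p : Nd) (g : Fn) : 0 ≤ vl Φ X p g :=
  add_nonneg (sq_nonneg _) (hP.nonneg p g)

lemma vl_loc (hP : Pen K Φ) (p : Nd) {g g' : Fn} (h : ∀ y ∈ iv p, g y = g' y) :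
    vl Φ X p g = vl Φ X p g' := by
  unfold vl
  rw [hP.loc p g g' h, av_congr (p := p) (X := fun y => X y - g y) (Y := fun y => X y - g' y)
    fun y hy => by rw [h y hy]]

/-- the functional of fixed data grows under refinement -/
lemma vl_glue (hP : Pen K Φ) (m : ℕ) (l : ℤ) (g : Fn) :
    vl Φ X (m + 1, l) g ≤ (vl Φ X (m, 2 * l) g + vl Φ X (m, 2 * l + 1) g) / 2 := by
  unfold vl
  rw [av_ch]
  have := hP.glue m l g
  linarith

/-- 1-strong convexity with a near-minimiser -/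
lemma cmpP (hP : Pen K Φ) (h : NMP K Φ X η f) (p : Nd) {g : Fn} (hg : K p g) :
    Jv Φ X f p + (1 / 2) * av p (fun y => f p y - g y) ^ 2 ≤ vl Φ X p g + 2 * η := by
  have h1 := h.le p (fun y => (f p y + g y) / 2) (hP.Kmid p _ _ (h.mem p) hg)
  have h2 := av_par p X (f p) g
  have h3 := hP.mid p (f p) g
  unfold Jv
  unfold vl at h1 ⊢
  linarith

lemma Jv_nonneg (hP : Pen K Φ) (p : Nd) : 0 ≤ Jv Φ X f p := vl_nonneg hP p _

lemma Jv_le (hP : Pen K Φ) (h : NMP K Φ X η f) (p : Nd) : Jv Φ X f p ≤ av p X ^ 2 + η := by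
  have h1 := h.le p (fun _ => 0) (hP.Kzero p)
  have h2 : vl Φ X p (fun _ => 0) = av p X ^ 2 := by
    unfold vl
    rw [hP.zero p]
    simp
  rw [h2] at h1
  exact h1

/-- size of the residual -/
lemma res_leP (hP : Pen K Φ) (h : NMP K Φ X η f) (p : Nd) :
    av p (fun y => X y - f p y) ^ 2 ≤ av p X ^ 2 + η := by
  have h1 := Jv_le hP h p
  unfold Jv vl at h1
  linarith [hP.nonneg p (f p)]

/-- size of the penalty -/
lemma pen_leP (hP : Pen K Φ) (h : NMP K Φ X η f) (p : Nd) :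
    Φ p (f p) ≤ av p X ^ 2 + η := by
  have h1 := Jv_le hP h p
  unfold Jv vl at h1
  linarith [sq_nonneg (av p (fun y => X y - f p y))]

/-- size of the near-minimiser -/
lemma size_leP (hP : Pen K Φ) (h : NMP K Φ X η f) (p : Nd) :
    av p (f p) ^ 2 ≤ 2 * av p X ^ 2 + 4 * η := by
  have h1 := cmpP hP h p (hP.Kzero p)
  have h2 : vl Φ X p (fun _ => 0) = av p X ^ 2 := by
    unfold vl
    rw [hP.zero p]
    simp
  rw [h2] at h1
  have h3 := Jv_nonneg (f := f) (X := X) hP p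
  simp only [sub_zero] at h1
  linarith

/-- the glued function satisfies the walls at every node of the window -/
lemma Kgl (hP : Pen K Φ) (h : NMP K Φ X η f) {W : Finset Nd} {I : Nd} (hW : Full W I) :
    ∀ p ∈ W, K p (gl W f) := by
  refine full_ind hW (fun p hp => ?_) fun m l hp hnl h0 h1 e0 e1 => hP.Kglue m l _ e0 e1
  exact hP.Kloc p (f p) _ (fun y hy => (gl_eq hW f hp hy).symm) (h.mem p)

/-- value of the glued function -/
lemma vl_gl (hP : Pen K Φ) {W : Finset Nd} {I : Nd} (hW : Full W I) :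
    ∀ p ∈ W, len p * vl Φ X p (gl W f) ≤ SL W p (Jv Φ X f) := by
  refine full_ind hW (fun p hp => ?_) fun m l hp hnl h0 h1 e0 e1 => ?_
  · rw [SL_leaf hp, vl_loc hP p fun y hy => gl_eq hW f hp hy]
    exact le_refl _
  · rw [SL_node hW hnl h0 h1]
    have hg := vl_glue (X := X) hP m l (gl W f)
    have hl0 : len (m + 1, l) = 2 * len (m, 2 * l) := len_ch m l _
    have hl1 : len (m, 2 * l + 1) = len (m, 2 * l) := rfl
    rw [hl1] at e1
    rw [hl0]
    have hpos := Growth.len_pos (m, 2 * l)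
    have h2 := mul_le_mul_of_nonneg_left hg hpos.le
    linarith

/-- penalty of the glued function -/
lemma pen_gl (hP : Pen K Φ) {W : Finset Nd} {I : Nd} (hW : Full W I) (g : Fn) :
    ∀ p ∈ W, len p * Φ p g ≤ SL W p (fun L => Φ L g) := by
  refine full_ind hW (fun p hp => ?_) fun m l hp hnl h0 h1 e0 e1 => ?_
  · rw [SL_leaf hp]
  · rw [SL_node hW hnl h0 h1]
    have hg := hP.glue m l g
    have hl0 : len (m + 1, l) = 2 * len (m, 2 * l) := len_ch m l _
    have hl1 : len (m, 2 * l + 1) = len (m, 2 * l) := rfl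
    rw [hl1] at e1
    rw [hl0]
    have hpos := Growth.len_pos (m, 2 * l)
    have h2 := mul_le_mul_of_nonneg_left hg hpos.le
    linarith

/-- near-minimiser against the glued leaf data -/
lemma av_glP (hP : Pen K Φ) (h : NMP K Φ X η f) {W : Finset Nd} {I : Nd} (hW : Full W I) {p : Nd}
    (hp : p ∈ W) :
    len p * (Jv Φ X f p + (1 / 2) * av p (fun y => f p y - gl W f y) ^ 2)
      ≤ SL W p (Jv Φ X f) + len p * (2 * η) := by
  have h1 := cmpP hP h p (Kgl hP h hW p hp)
  have h2 := vl_gl (X := X) (f := f) hP hW p hp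
  have h3 := mul_le_mul_of_nonneg_left h1 (Growth.len_pos p).le
  linarith

/-- deviation at the leaves -/
lemma dev_leP (hP : Pen K Φ) (h : NMP K Φ X η f) {W : Finset Nd} {I : Nd} (hW : Full W I) {p : Nd}
    (hp : p ∈ W) :
    SL W p (fun L => (1 / 2) * av L (fun y => f p y - f L y) ^ 2)
      ≤ SL W p (Jv Φ X f) - len p * Jv Φ X f p + len p * (2 * η) := by
  have h1 := av_glP hP h hW hp
  have h2 : SL W p (fun L => av L (fun y => f p y - f L y) ^ 2)
      = len p * av p (fun y => f p y - gl W f y) ^ 2 := by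
    have := av_gl hW (fun L y => f p y - f L y) p hp
    rw [← this]
    rfl
  rw [SL_smul, h2]
  linarith

lemma Dv_nonneg (hP : Pen K Φ) (h : NMP K Φ X η f) : ∀ q, 0 ≤ Dv (Jv Φ X f) η q
  | (0, _) => le_refl _
  | (m + 1, l) => by
    classical
    -- glue the two children
    set g : Fn := fun y => if y ∈ iv (m, 2 * l) then f (m, 2 * l) y else f (m, 2 * l + 1) y with hg
    have hg0 : ∀ y ∈ iv (m, 2 * l), f (m, 2 * l) y = g y := fun y hy => by
      rw [hg]; simp only [if_pos hy]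
    have hg1 : ∀ y ∈ iv (m, 2 * l + 1), f (m, 2 * l + 1) y = g y := fun y hy => by
      have : y ∉ iv (m, 2 * l) := fun h' => Finset.disjoint_left.1 (disj_ch m l) h' hy
      rw [hg]; simp only [if_neg this]
    have hK : K (m + 1, l) g := hP.Kglue m l g (hP.Kloc _ _ _ hg0 (h.mem _))
      (hP.Kloc _ _ _ hg1 (h.mem _))
    have h1 := h.le (m + 1, l) g hK
    have h2 := vl_glue (X := X) hP m l g
    rw [← vl_loc (X := X) hP (m, 2 * l) hg0, ← vl_loc (X := X) hP (m, 2 * l + 1) hg1] at h2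
    show 0 ≤ (Jv Φ X f (m, 2 * l) + Jv Φ X f (m, 2 * l + 1)) / 2 - Jv Φ X f (m + 1, l) + η
    unfold Jv
    linarith

/-- admissible window of fineness `δ` -/
def GdP (Φ : Nd → Fn → ℝ) (X : Fn) (η : ℝ) (f : Nd → Fn) (δ : ℝ) (W : Finset Nd) (I : Nd) :
    Prop :=
  ∀ p ∈ W, (1 / 2) * av p (fun y => f I y - f p y) ^ 2 + acc (Dv (Jv Φ X f) η) I p ≤ δ

/-- **top minimiser against the glued leaf minimisers, at EVERY node of the window** -/
theorem av_E_P {W : Finset Nd} {I : Nd} (hP : Pen K Φ) (h : NMP K Φ X η f) (hW : Full W I)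
    {δ : ℝ} (hG : GdP Φ X η f δ W I) {p : Nd} (hp : p ∈ W) :
    av p (fun y => f I y - gl W f y) ^ 2 ≤ 2 * δ := by
  have hL := Growth.len_pos p
  have h2 : SL W p (fun L => av L (fun y => f I y - f L y) ^ 2)
      = len p * av p (fun y => f I y - gl W f y) ^ 2 := by
    have := av_gl hW (fun L y => f I y - f L y) p hp
    rw [← this]
    rfl
  have h3 : SL W p (fun L => av L (fun y => f I y - f L y) ^ 2) ≤ SL W p (fun _ => 2 * δ) := by
    refine SL_mono fun L hL' _ => ?_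
    have h4 := hG L (mem_lf.1 hL').1
    have h5 := acc_nonneg (Dv_nonneg hP h) I L
    linarith
  rw [h2, SL_const hW _ p hp] at h3
  exact le_of_mul_le_mul_left h3 hL

lemma acc_leP {W : Finset Nd} {I : Nd} (hP : Pen K Φ) (h : NMP K Φ X η f) (hW : Full W I)
    {δ : ℝ} (hG : GdP Φ X η f δ W I) {p L : Nd} (hp : p ∈ W) (hL : L ∈ W) (hLp : iv L ⊆ iv p) :
    acc (Dv (Jv Φ X f) η) p L ≤ δ := by
  have h1 := hG L hL
  have h2 := acc_trans (Dv (Jv Φ X f) η) hLp (hW.reg.1 p hp)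
  have h3 := acc_nonneg (Dv_nonneg hP h) I p
  have h4 : 0 ≤ (1 / 2 : ℝ) * av L (fun y => f I y - f L y) ^ 2 := by positivity
  linarith

/-- **drift of the value below every node of the window** -/
theorem drift_P {W : Finset Nd} {I : Nd} (hP : Pen K Φ) (h : NMP K Φ X η f) (hW : Full W I)
    {δ : ℝ} (hG : GdP Φ X η f δ W I) {p : Nd} (hp : p ∈ W) :
    SL W p (Jv Φ X f) ≤ len p * (Jv Φ X f p + δ) := by
  have h3 := le_SL_acc hW (Dv (Jv Φ X f) η) (fun q => -Jv Φ X f q) (fun m l => by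
    show _ ≤ (Jv Φ X f (m, 2 * l) + Jv Φ X f (m, 2 * l + 1)) / 2 - Jv Φ X f (m + 1, l) + η
    linarith [h.eta]) p hp
  rw [SL_add] at h3
  have h4 : SL W p (fun L => acc (Dv (Jv Φ X f) η) p L) ≤ SL W p (fun _ => δ) :=
    SL_mono fun L hL hLp => acc_leP hP h hW hG hp (mem_lf.1 hL).1 hLp
  rw [SL_const hW δ p hp] at h4
  have h5 : SL W p (fun L => -Jv Φ X f L) = -SL W p (Jv Φ X f) := by
    have := SL_smul W p (-1) (Jv Φ X f)
    simp only [neg_mul, one_mul] at this
    exact this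
  rw [h5] at h3
  linarith

/-- the glued function almost minimises at every node of the window -/
theorem vl_gl_le {W : Finset Nd} {I : Nd} (hP : Pen K Φ) (h : NMP K Φ X η f) (hW : Full W I)
    {δ : ℝ} (hG : GdP Φ X η f δ W I) {p : Nd} (hp : p ∈ W) :
    vl Φ X p (gl W f) ≤ Jv Φ X f p + δ := by
  have h1 := vl_gl (X := X) (f := f) hP hW p hp
  have h2 := drift_P hP h hW hG hp
  exact le_of_mul_le_mul_left (h1.trans h2) (Growth.len_pos p)

/-- leaf penalties, averaged over the leaves below any node of the window -/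
theorem pen_leaf_le {W : Finset Nd} {I : Nd} (hP : Pen K Φ) (h : NMP K Φ X η f) (hW : Full W I)
    {R : Finset Nd} (hWR : W ⊆ R) {ρ : ℝ} (hX : ∀ p ∈ R, av p X ≤ ρ) {p : Nd}
    (hp : p ∈ W) : SL W p (fun L => Φ L (f L)) ≤ len p * (ρ ^ 2 + η) := by
  rw [← SL_const hW _ p hp]
  refine SL_mono fun L hL _ => (pen_leP hP h L).trans ?_
  have h1 := hX L (hWR (mem_lf.1 hL).1)
  have h2 := Growth.av_nonneg L X
  have : av L X ^ 2 ≤ ρ ^ 2 := pow_le_pow_left₀ h2 h1 2
  linarith

end facts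

/-! ### existence -/

lemma lf_sum_eq' {W : Finset Nd} {I : Nd} (hW : Full W I) (F : Nd → ℝ) :
    ∑ p ∈ lf W, len p * F p = SL W I F := by
  unfold SL
  have : (lf W).filter (fun L => iv L ⊆ iv I) = lf W := by
    rw [Finset.filter_eq_self]
    exact fun L hL => hW.reg.1 L (mem_lf.1 hL).1
  rw [this]

/-- near-minimisers exist -/
theorem exists_NMP {K : Nd → Fn → Prop} {Φ : Nd → Fn → ℝ} (hP : Pen K Φ) (X : Fn) {η : ℝ}
    (hη : 0 < η) : ∃ f : Nd → Fn, NMP K Φ X η f := by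
  have hex : ∀ p : Nd, ∃ g : Fn, K p g ∧ ∀ g', K p g' → vl Φ X p g ≤ vl Φ X p g' + η := by
    intro p
    let s : Set ℝ := {r | ∃ g, K p g ∧ vl Φ X p g = r}
    have hs0 : s.Nonempty := ⟨_, fun _ => 0, hP.Kzero p, rfl⟩
    have hsb : BddBelow s := ⟨0, by
      rintro r ⟨g, _, rfl⟩
      exact vl_nonneg hP p g⟩
    obtain ⟨r, ⟨g, hg, rfl⟩, hr⟩ := Real.lt_sInf_add_pos hs0 hη
    refine ⟨g, hg, fun g' hg' => ?_⟩
    have := csInf_le hsb (⟨g', hg', rfl⟩ : vl Φ X p g' ∈ s)
    linarith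
  choose f hf using hex
  exact ⟨f, hη.le, fun p => (hf p).1, fun p g hg => (hf p).2 g hg⟩

/-- **REL windows (loss-free)** for a finite family -/
theorem exists_relwin {ι : Type*} [Fintype ι] {R : Finset Nd} {J : Nd} (hR : Full R J)
    (K : ι → Nd → Fn → Prop) (Φ : ι → Nd → Fn → ℝ) (hP : ∀ i, Pen (K i) (Φ i)) (X : ι → Fn)
    (η : ℝ) (hη0 : 0 ≤ η) (f : ι → Nd → Fn) (h : ∀ i, NMP (K i) (Φ i) (X i) η (f i))
    (hX : ∀ i, ∀ p ∈ R, av p (X i) ≤ 1) (hη1 : η ≤ 1) {δ : ℝ} (hδ : 0 < δ)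
    (hη : Fintype.card ι * (η * (2 + J.1)) ≤ δ / 4) :
    ∃ (S : Finset Nd) (W : Nd → Finset Nd), Part R S W (2 + 16 * Fintype.card ι / δ) ∧
      ∀ T ∈ S, ∀ i, GdP (Φ i) (X i) η (f i) δ (W T) T := by
  classical
  let V : ι → Nd → ℝ := fun i => Jv (Φ i) (X i) (f i)
  let D : ι → Nd → ℝ := fun i => Dv (V i) η
  let g : Nd → Nd → ℝ := fun I p =>
    ∑ i, ((1 / 2) * av p (fun y => f i I y - f i p y) ^ 2 + acc (D i) I p)
  have hterm : ∀ i I p, 0 ≤ (1 / 2) * av p (fun y => f i I y - f i p y) ^ 2 + acc (D i) I p :=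
    fun i I p => add_nonneg (by positivity) (acc_nonneg (Dv_nonneg (hP i) (h i)) I p)
  have hV0 : ∀ i p, 0 ≤ V i p := fun i p => Jv_nonneg (hP i) p
  have hV2 : ∀ i, ∀ p ∈ R, V i p ≤ 2 := by
    intro i p hp
    have h1 := Jv_le (hP i) (h i) p
    have h2 : av p (X i) ^ 2 ≤ 1 := pow_le_one₀ (Growth.av_nonneg p _) (hX i p hp)
    show Jv (Φ i) (X i) (f i) p ≤ 2
    linarith
  obtain ⟨S, W, hPt, hg⟩ := exists_part hR (g := g) (P := fun p => ∑ i, 2 * (2 - V i p))
    (P₀ := 4 * Fintype.card ι) hδ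
    (fun p hp => Finset.sum_nonneg fun i _ => by linarith [hV2 i p hp])
    (fun p _ => by
      calc ∑ i, 2 * (2 - V i p) ≤ ∑ _i : ι, (4 : ℝ) :=
            Finset.sum_le_sum fun i _ => by linarith [hV0 i p]
        _ = 4 * Fintype.card ι := by
            rw [Finset.sum_const, nsmul_eq_mul, Finset.card_univ]; ring)
    (fun I p => Finset.sum_nonneg fun i _ => hterm i I p)
    (fun I => by
      have : g I I = 0 := by
        refine Finset.sum_eq_zero fun i _ => ?_
        rw [acc_self, add_zero]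
        have : av I (fun y => f i I y - f i I y) = 0 := by
          unfold av av2
          simp
        rw [this]
        ring
      rw [this]
      exact hδ.le)
    (fun I hI W hW hWR => by
      rw [lf_sum_eq' hW]
      have hlen := Growth.len_pos I
      have e1 : SL W I (fun p => g I p + ∑ i, 2 * (2 - V i p)) =
          ∑ i, (SL W I (fun L => (1 / 2) * av L (fun y => f i I y - f i L y) ^ 2) +
            SL W I (fun L => -V i L + acc (D i) I L) + SL W I (fun L => -V i L) +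
            SL W I (fun _ => (4 : ℝ))) := by
        rw [Finset.sum_congr rfl fun i _ => by rw [← SL_add, ← SL_add, ← SL_add], ← SL_sum]
        refine SL_congr fun L _ _ => ?_
        simp only [g]
        rw [← Finset.sum_add_distrib]
        exact Finset.sum_congr rfl fun i _ => by ring
      rw [e1]
      have h1 : ∀ i, SL W I (fun L => (1 / 2) * av L (fun y => f i I y - f i L y) ^ 2) +
            SL W I (fun L => -V i L + acc (D i) I L) + SL W I (fun L => -V i L) +
            SL W I (fun _ => (4 : ℝ)) ≤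
          len I * (2 * (2 - V i I) + η * (2 + J.1)) := by
        intro i
        have a1 := dev_leP (hP i) (h i) hW hW.top
        have a2 := SL_acc_le hW (D i) (fun q => -V i q) η hη0
          (fun m l => by
            show (V i (m, 2 * l) + V i (m, 2 * l + 1)) / 2 - V i (m + 1, l) + η ≤ _
            linarith) I hW.top
        have hlev : (I.1 : ℝ) ≤ J.1 := by
          exact_mod_cast Growth.iv_level (hR.reg.1 I hI)
        have a3 : len I * (η * I.1) ≤ len I * (η * J.1) :=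
          mul_le_mul_of_nonneg_left (mul_le_mul_of_nonneg_left hlev hη0) hlen.le
        have a4 : SL W I (fun L => -V i L) = -SL W I (V i) := by
          have := SL_smul W I (-1) (V i)
          simp only [neg_mul, one_mul] at this
          exact this
        have a5 := SL_const hW (4 : ℝ) I hW.top
        rw [a4, a5]
        have a1' : SL W I (fun L => (1 / 2) * av L (fun y => f i I y - f i L y) ^ 2)
            ≤ SL W I (V i) - len I * V i I + len I * (2 * η) := a1
        nlinarith [a1', a2, a3]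
      refine (Finset.sum_le_sum fun i _ => h1 i).trans ?_
      rw [← Finset.mul_sum, Finset.sum_add_distrib, Finset.sum_const, nsmul_eq_mul,
        Finset.card_univ]
      refine mul_le_mul_of_nonneg_left ?_ hlen.le
      linarith)
  refine ⟨S, W, ?_, fun T hT i p hp => ?_⟩
  · have e : 4 * (4 * (Fintype.card ι : ℝ)) / δ = 16 * Fintype.card ι / δ := by ring
    rw [← e]
    exact hPt
  · have h1 := hg T hT p hp
    have h2 : (1 / 2) * av p (fun y => f i T y - f i p y) ^ 2 + acc (D i) T p ≤ g T p :=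
      Finset.single_le_sum (f := fun i => (1 / 2) * av p (fun y => f i T y - f i p y) ^ 2 +
        acc (D i) T p) (fun i _ => hterm i T p) (Finset.mem_univ i)
    exact h2.trans h1

/-- **refinement** of a given partition into windows -/
theorem refine_relwin {ι : Type*} [Fintype ι] {R : Finset Nd} {J : Nd} (hR : Full R J)
    {S : Finset Nd} {W : Nd → Finset Nd} {C : ℝ} (hPt : Part R S W C)
    (K : ι → Nd → Fn → Prop) (Φ : ι → Nd → Fn → ℝ) (hP : ∀ i, Pen (K i) (Φ i)) (X : ι → Fn)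
    (η : ℝ) (hη0 : 0 ≤ η) (f : ι → Nd → Fn) (h : ∀ i, NMP (K i) (Φ i) (X i) η (f i))
    (hX : ∀ i, ∀ p ∈ R, av p (X i) ≤ 1) (hη1 : η ≤ 1) {δ : ℝ} (hδ : 0 < δ)
    (hη : Fintype.card ι * (η * (2 + J.1)) ≤ δ / 4) :
    ∃ (S' : Finset Nd) (W' : Nd → Finset Nd),
      Part R S' W' ((2 + 16 * Fintype.card ι / δ) * (1 + C)) ∧
      (∀ T' ∈ S', ∃ T ∈ S, T' ∈ W T ∧ W' T' ⊆ W T) ∧
      ∀ T' ∈ S', ∀ i, GdP (Φ i) (X i) η (f i) δ (W' T') T' := by
  classical
  have hex : ∀ T : Nd, ∃ (S1 : Finset Nd) (V : Nd → Finset Nd), T ∈ S →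
      (Part (W T) S1 V (2 + 16 * Fintype.card ι / δ) ∧
        ∀ T' ∈ S1, ∀ i, GdP (Φ i) (X i) η (f i) δ (V T') T') := by
    intro T
    by_cases hT : T ∈ S
    · have hlev : (T.1 : ℝ) ≤ J.1 := by
        exact_mod_cast Growth.iv_level (hR.reg.1 T (hPt.sub hT))
      have h1 : Fintype.card ι * (η * (2 + T.1)) ≤ δ / 4 := by
        refine le_trans ?_ hη
        have : η * (2 + (T.1 : ℝ)) ≤ η * (2 + J.1) :=
          mul_le_mul_of_nonneg_left (by linarith) hη0
        exact mul_le_mul_of_nonneg_left this (Nat.cast_nonneg _)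
      obtain ⟨S1, V, h2, h3⟩ := exists_relwin (hPt.full T hT) K Φ hP X η hη0 f h
        (fun i p hp => hX i p (hPt.wsub T hT hp)) hη1 hδ h1
      exact ⟨S1, V, fun _ => ⟨h2, h3⟩⟩
    · exact ⟨∅, fun _ => ∅, fun h => absurd h hT⟩
  choose S1 V hTV using hex
  obtain ⟨S', W', h1, h2⟩ := refine_part hR (by positivity) hPt S1 V fun T hT => (hTV T hT).1
  refine ⟨S', W', h1, fun T' hT' => ?_, fun T' hT' i => ?_⟩
  · obtain ⟨T, hT, hTT, _, hs⟩ := h2 T' hT'
    exact ⟨T, hT, (hTV T hT).1.sub hTT, hs⟩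
  · obtain ⟨T, hT, hTT, he, _⟩ := h2 T' hT'
    rw [he]
    exact (hTV T hT).2 T' hTT i

/-- `exists_relwin` with near-minimisers of arbitrarily small defect, everything in one statement -/
theorem exists_rel {ι : Type*} [Fintype ι] {R : Finset Nd} {J : Nd} (hR : Full R J)
    (K : ι → Nd → Fn → Prop) (Φ : ι → Nd → Fn → ℝ) (hP : ∀ i, Pen (K i) (Φ i)) (X : ι → Fn)
    (hX : ∀ i, ∀ p ∈ R, av p (X i) ≤ 1) {δ : ℝ} (hδ : 0 < δ) {η₁ : ℝ} (hη₁ : 0 < η₁) :
    ∃ (η : ℝ) (f : ι → Nd → Fn) (S : Finset Nd) (W : Nd → Finset Nd),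
      0 < η ∧ η ≤ η₁ ∧ η ≤ 1 ∧ (∀ i, NMP (K i) (Φ i) (X i) η (f i)) ∧
      Part R S W (2 + 16 * Fintype.card ι / δ) ∧
      ∀ T ∈ S, ∀ i, GdP (Φ i) (X i) η (f i) δ (W T) T := by
  set c : ℝ := 4 * ((Fintype.card ι : ℝ) + 1) * (2 + J.1) with hc
  have hc0 : 0 < c := by positivity
  set η : ℝ := min (min η₁ 1) (δ / c) with hη
  have h0 : 0 < η := lt_min (lt_min hη₁ one_pos) (div_pos hδ hc0)
  choose f hf using fun i => exists_NMP (hP i) (X i) h0
  obtain ⟨S, W, h1, h2⟩ := exists_relwin hR K Φ hP X η h0.le f hf hX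
    ((min_le_left _ _).trans (min_le_right _ _)) hδ (by
      have h3 : η ≤ δ / c := min_le_right _ _
      rw [le_div_iff₀ hc0, hc] at h3
      have h4 : 0 ≤ η * (2 + (J.1 : ℝ)) := by positivity
      nlinarith)
  exact ⟨η, f, S, W, h0, (min_le_left _ _).trans (min_le_left _ _),
    (min_le_left _ _).trans (min_le_right _ _), hf, h1, h2⟩

end Crest.Agent.R079.RelW653
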