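import Crest.Agent.R079.PIter_110
import Crest.Agent.R079.RelW_653

/-! R079, doc 2531 Step I: ABSTRACT GENERATION (helper934).

`gen_of_split`: if on every full subregion two normalised line letters split, on windows of count `c`, as
`X = g + Ψ + e` with `av p e ≤ th` at all nodes and `g`, `Ψ` killed next to an ARBITRARY normalised
letter of the other slot (price `d0` per window), then `PIter110.Gen` holds with `d = 4 c d0`.

`split_of_pen`: such a splitting from two penalties (`RelW653.Pen`) and the words (G), (S) for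
near-minimisers. -/

set_option autoImplicit false

namespace Crest.Agent.R079.GenP934

open Finset Crest.Agent.R079.Grid Crest.Agent.R079.Growth Crest.Agent.R079.QRed
  Crest.Agent.R079.TWin Crest.Agent.R079.PIter110 Crest.Agent.R079.RelW653
  Crest.Agent.R079.Qh249

/-- size class: local `L²` norms at all nodes -/
def Sz (W : Finset Nd) (Y : Fn) (y : ℝ) : Prop := ∀ p ∈ W, av p Y ≤ y

lemma Sz.mono {W W' : Finset Nd} {Y : Fn} {y : ℝ} (h : Sz W Y y) (hW : W' ⊆ W) : Sz W' Y y :=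
  fun p hp => h p (hW hp)

lemma Sz.le {W : Finset Nd} {Y : Fn} {y y' : ℝ} (h : Sz W Y y) (hy : y ≤ y') : Sz W Y y' :=
  fun p hp => (h p hp).trans hy

/-- bilinear node form -/
structure Bil (t : Nd → Fn → Fn → ℂ) : Prop where
  add1 : ∀ p X X' Y, t p (fun y => X y + X' y) Y = t p X Y + t p X' Y
  add2 : ∀ p X Y Y', t p X (fun y => Y y + Y' y) = t p X Y + t p X Y'
  smul1 : ∀ p (a : ℂ) X Y, t p (fun y => a * X y) Y = a * t p X Y
  smul2 : ∀ p (a : ℂ) X Y, t p X (fun y => a * Y y) = a * t p X Y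
  loc1 : ∀ p X X' Y, (∀ y ∈ iv p, X y = X' y) → t p X Y = t p X' Y
  loc2 : ∀ p X Y Y', (∀ y ∈ iv p, Y y = Y' y) → t p X Y = t p X Y'

/-- `g` (slot 1) is killed on the window `W` with top `I`, price `d0` -/
def K1 (t : Nd → Fn → Fn → ℂ) (W : Finset Nd) (I : Nd) (g : Fn) (d0 : ℝ) : Prop :=
  ∀ Y, Sz W Y 1 → ‖∑ p ∈ W, t p g Y‖ ≤ d0 * len I

/-- `g` (slot 2) is killed on the window `W` with top `I`, price `d0` -/
def K2 (t : Nd → Fn → Fn → ℂ) (W : Finset Nd) (I : Nd) (g : Fn) (d0 : ℝ) : Prop :=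
  ∀ X, Sz W X 1 → ‖∑ p ∈ W, t p X g‖ ≤ d0 * len I

/-- splitting of two normalised letters on windows -/
def Split (R : Finset Nd) (t : Nd → Fn → Fn → ℂ) (c th d0 : ℝ) : Prop :=
  ∀ W I, Full W I → W ⊆ R → ∀ X1 X2 : Fn, Sz W X1 1 → Sz W X2 1 →
    ∃ (S : Finset Nd) (V : Nd → Finset Nd) (g1 P1 e1 g2 P2 e2 : Nd → Fn), Part W S V c ∧
      ∀ K ∈ S, (∀ y, X1 y = g1 K y + P1 K y + e1 K y) ∧ (∀ y, X2 y = g2 K y + P2 K y + e2 K y) ∧
        Sz (V K) (e1 K) th ∧ Sz (V K) (e2 K) th ∧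
        K1 t (V K) K (g1 K) d0 ∧ K1 t (V K) K (P1 K) d0 ∧
        K2 t (V K) K (g2 K) d0 ∧ K2 t (V K) K (P2 K) d0

lemma av_smul (p : Nd) (a : ℝ) (ha : 0 ≤ a) (X : Fn) :
    av p (fun y => (a : ℂ) * X y) = a * av p X := by
  unfold av av2
  have e : ∀ y, ‖(a : ℂ) * X y‖ ^ 2 = a ^ 2 * ‖X y‖ ^ 2 := by
    intro y
    rw [norm_mul, Complex.norm_real, Real.norm_of_nonneg ha, mul_pow]
  simp only [e]
  rw [← Finset.mul_sum, mul_left_comm, Real.sqrt_mul (sq_nonneg a), Real.sqrt_sq ha]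

lemma Sz.smul {W : Finset Nd} {Y : Fn} {y : ℝ} (h : Sz W Y y) {a : ℝ} (ha : 0 ≤ a) :
    Sz W (fun x => (a : ℂ) * Y x) (a * y) := by
  intro p hp
  rw [av_smul p a ha]
  exact mul_le_mul_of_nonneg_left (h p hp) ha

/-- the words against a letter of size `y` -/
lemma K1.scale {t : Nd → Fn → Fn → ℂ} (hB : Bil t) {W : Finset Nd} {I : Nd} {g : Fn} {d0 : ℝ}
    (h : K1 t W I g d0) {Y : Fn} {y : ℝ} (hy : 0 ≤ y) (hY : Sz W Y y) :
    ‖∑ p ∈ W, t p g Y‖ ≤ d0 * y * len I := by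
  rcases hy.eq_or_lt with rfl | hy
  · have e : ∀ p ∈ W, t p g Y = 0 := by
      intro p hp
      have h0 : ∀ z ∈ iv p, Y z = (fun _ : ℤ => (0 : ℂ)) z := by
        intro z hz
        have h1 : av p Y = 0 := le_antisymm (hY p hp) (Growth.av_nonneg p Y)
        have h2 := Growth.sum_av p Y
        rw [h1] at h2
        have h3 : ∑ y ∈ iv p, ‖Y y‖ ^ 2 = 0 := by rw [h2]; ring
        have h4 := (Finset.sum_eq_zero_iff_of_nonneg (fun y _ => sq_nonneg ‖Y y‖)).1 h3 z hz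
        have h5 : ‖Y z‖ = 0 := by
          exact pow_eq_zero_iff (two_ne_zero) |>.1 h4
        exact norm_eq_zero.1 h5
      rw [hB.loc2 p g Y _ h0]
      have := hB.smul2 p 0 g (fun _ => 0)
      simpa using this
    rw [Finset.sum_eq_zero e]
    simp
  · have h1 := h (fun x => ((y⁻¹ : ℝ) : ℂ) * Y x) (by
      have := hY.smul (inv_nonneg.2 hy.le)
      rwa [inv_mul_cancel₀ hy.ne'] at this)
    have e : ∑ p ∈ W, t p g Y = (y : ℂ) * ∑ p ∈ W, t p g (fun x => ((y⁻¹ : ℝ) : ℂ) * Y x) := by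
      rw [Finset.mul_sum]
      refine Finset.sum_congr rfl fun p _ => ?_
      rw [hB.smul2, ← mul_assoc]
      have : (y : ℂ) * ((y⁻¹ : ℝ) : ℂ) = 1 := by
        push_cast
        exact mul_inv_cancel₀ (by exact_mod_cast hy.ne')
      rw [this, one_mul]
    rw [e, norm_mul, Complex.norm_real, Real.norm_of_nonneg hy.le]
    calc y * ‖∑ p ∈ W, t p g (fun x => ((y⁻¹ : ℝ) : ℂ) * Y x)‖ ≤ y * (d0 * len I) :=
          mul_le_mul_of_nonneg_left h1 hy.le
      _ = d0 * y * len I := by ring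

lemma Bil.swap {t : Nd → Fn → Fn → ℂ} (hB : Bil t) : Bil (fun p X Y => t p Y X) where
  add1 := fun p X X' Y => hB.add2 p Y X X'
  add2 := fun p X Y Y' => hB.add1 p Y Y' X
  smul1 := fun p a X Y => hB.smul2 p a Y X
  smul2 := fun p a X Y => hB.smul1 p a Y X
  loc1 := fun p X X' Y h => hB.loc2 p Y X X' h
  loc2 := fun p X Y Y' h => hB.loc1 p Y Y' X h

lemma K2.scale {t : Nd → Fn → Fn → ℂ} (hB : Bil t) {W : Finset Nd} {I : Nd} {g : Fn} {d0 : ℝ}
    (h : K2 t W I g d0) {X : Fn} {x : ℝ} (hx : 0 ≤ x) (hX : Sz W X x) :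
    ‖∑ p ∈ W, t p X g‖ ≤ d0 * x * len I :=
  K1.scale (t := fun p X Y => t p Y X) hB.swap (g := g) (d0 := d0) h hx hX

/-- zero letters -/
lemma zero_of_Sz {W : Finset Nd} {Y : Fn} (h : Sz W Y 0) {p : Nd} (hp : p ∈ W) :
    ∀ z ∈ iv p, Y z = 0 := by
  intro z hz
  have h1 : av p Y = 0 := le_antisymm (h p hp) (Growth.av_nonneg p Y)
  have h2 := Growth.sum_av p Y
  rw [h1] at h2
  have h3 : ∑ y ∈ iv p, ‖Y y‖ ^ 2 = 0 := by rw [h2]; ring
  have h4 := (Finset.sum_eq_zero_iff_of_nonneg (fun y _ => sq_nonneg ‖Y y‖)).1 h3 z hz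
  have h5 : ‖Y z‖ = 0 := by
    exact pow_eq_zero_iff (two_ne_zero) |>.1 h4
  exact norm_eq_zero.1 h5

/-- **ABSTRACT GENERATION** -/
theorem gen_of_split {R : Finset Nd} {t : Nd → Fn → Fn → ℂ} (hB : Bil t) {c th d0 : ℝ}
    (hc : 1 ≤ c) (hth : 0 ≤ th) (hth1 : th ≤ 1) (hd : 0 ≤ d0) (h : Split R t c th d0) :
    Gen R t Sz Sz Sz Sz c th (4 * c * d0) := by
  classical
  intro W I hW hWR Y1 Y2 y1 y2 hy1 hy2 h1 h2
  -- degenerate sizes
  have hdeg : ∀ (Z1 Z2 : Fn), (∀ p ∈ W, ∀ z ∈ iv p, Z1 z = 0) ∨ (∀ p ∈ W, ∀ z ∈ iv p, Z2 z = 0) →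
      ∀ p ∈ W, t p Z1 Z2 = 0 := by
    intro Z1 Z2 hz p hp
    rcases hz with hz | hz
    · rw [hB.loc1 p Z1 (fun _ => 0) Z2 (hz p hp)]
      have := hB.smul1 p 0 (fun _ => 0) Z2
      simpa using this
    · rw [hB.loc2 p Z1 Z2 (fun _ => 0) (hz p hp)]
      have := hB.smul2 p 0 Z1 (fun _ => 0)
      simpa using this
  by_cases h0 : y1 = 0 ∨ y2 = 0
  · have hz1 : ∀ p ∈ W, t p Y1 Y2 = 0 := by
      refine hdeg Y1 Y2 ?_
      rcases h0 with rfl | rfl
      · exact Or.inl fun p hp => zero_of_Sz h1 hp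
      · exact Or.inr fun p hp => zero_of_Sz h2 hp
    have hz2 : ∀ p ∈ W, t p (fun _ => (0 : ℂ)) (fun _ => (0 : ℂ)) = 0 :=
      hdeg _ _ (Or.inl fun _ _ _ _ => rfl)
    refine ⟨{I}, fun _ => W, fun _ _ => 0, fun _ _ => 0, PIter110.Part.mono (part_one hW) hc,
      fun _ _ _ _ => ⟨rfl, rfl⟩, fun K _ => ⟨?_, ?_⟩, ?_⟩
    · intro p _
      have : av p (fun _ => (0 : ℂ)) = 0 := by unfold av av2; simp
      rw [this]
      exact mul_nonneg hth hy1
    · intro p _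
      have : av p (fun _ => (0 : ℂ)) = 0 := by unfold av av2; simp
      rw [this]
      exact mul_nonneg hth hy2
    · rw [Finset.sum_eq_zero hz1, Finset.sum_eq_zero hz2, sub_zero, norm_zero]
      have := (Growth.len_pos I).le
      positivity
  push Not at h0
  have hp1 : 0 < y1 := lt_of_le_of_ne hy1 (Ne.symm h0.1)
  have hp2 : 0 < y2 := lt_of_le_of_ne hy2 (Ne.symm h0.2)
  have hN : ∀ (Y : Fn) (y : ℝ), 0 < y → Sz W Y y → Sz W (fun x => ((y⁻¹ : ℝ) : ℂ) * Y x) 1 := by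
    intro Y y hy hY
    have := hY.smul (inv_nonneg.2 hy.le)
    rwa [inv_mul_cancel₀ hy.ne'] at this
  obtain ⟨S, V, g1, P1, e1, g2, P2, e2, hPt, hK⟩ := h W I hW hWR _ _ (hN Y1 y1 hp1 h1)
    (hN Y2 y2 hp2 h2)
  -- node-level letters: `X j p = y_j * e_j K` for `p ∈ V K`
  have hex : ∀ p : Nd, ∃ K : Nd, p ∈ W → (K ∈ S ∧ p ∈ V K) := by
    intro p
    by_cases hp : p ∈ W
    · obtain ⟨K, hK, hpK⟩ := hPt.cover p hp
      exact ⟨K, fun _ => ⟨hK, hpK⟩⟩
    · exact ⟨p, fun h => absurd h hp⟩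
  choose kt hkt using hex
  have hktK : ∀ K ∈ S, ∀ p ∈ V K, kt p = K := by
    intro K hK' p hp
    have h3 := hkt p (hPt.wsub K hK' hp)
    exact part_uniq hPt h3.1 hK' h3.2 hp
  have hy : ∀ (Y : Fn) (y : ℝ), 0 < y → ∀ x, Y x = (y : ℂ) * (((y⁻¹ : ℝ) : ℂ) * Y x) := by
    intro Y y hy x
    have : (y : ℂ) * ((y⁻¹ : ℝ) : ℂ) = 1 := by
      push_cast
      exact mul_inv_cancel₀ (by exact_mod_cast hy.ne')
    rw [← mul_assoc, this, one_mul]
  refine ⟨S, V, fun p x => (y1 : ℂ) * e1 (kt p) x, fun p x => (y2 : ℂ) * e2 (kt p) x, hPt,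
    fun K hK' p hp => ?_, fun K hK' => ⟨?_, ?_⟩, ?_⟩
  · have ha := hktK K hK' p hp
    have hb := hktK K hK' K (hPt.full K hK').top
    simp only [ha, hb]
    exact ⟨trivial, trivial⟩
  · have hb := hktK K hK' K (hPt.full K hK').top
    have h3 := (hK K hK').2.2.1.smul hy1
    simp only [hb]
    rw [mul_comm th y1]
    exact h3
  · have hb := hktK K hK' K (hPt.full K hK').top
    have h3 := (hK K hK').2.2.2.1.smul hy2
    simp only [hb]
    rw [mul_comm th y2]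
    exact h3
  · rw [← Finset.sum_sub_distrib, part_sum hPt]
    have hwin : ∀ K ∈ S, ‖∑ p ∈ V K, (t p Y1 Y2 - t p (fun x => (y1 : ℂ) * e1 (kt p) x)
        (fun x => (y2 : ℂ) * e2 (kt p) x))‖ ≤ 4 * d0 * y1 * y2 * len K := by
      intro K hK'
      obtain ⟨x1, x2, s1, s2, a1, b1, a2, b2⟩ := hK K hK'
      have hVW := hPt.wsub K hK'
      have hterm : ∀ p ∈ V K, t p Y1 Y2 - t p (fun x => (y1 : ℂ) * e1 (kt p) x)
          (fun x => (y2 : ℂ) * e2 (kt p) x) =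
          (y1 : ℂ) * t p (g1 K) Y2 + (y1 : ℂ) * t p (P1 K) Y2 +
          ((y2 : ℂ) * t p (fun x => (y1 : ℂ) * e1 K x) (g2 K) +
            (y2 : ℂ) * t p (fun x => (y1 : ℂ) * e1 K x) (P2 K)) := by
        intro p hp
        rw [hktK K hK' p hp]
        have q1 : Y1 = fun x => ((y1 : ℂ) * g1 K x + (y1 : ℂ) * P1 K x) + (y1 : ℂ) * e1 K x := by
          funext x
          rw [hy Y1 y1 hp1 x, x1 x]
          ring
        have q2 : Y2 = fun x => ((y2 : ℂ) * g2 K x + (y2 : ℂ) * P2 K x) + (y2 : ℂ) * e2 K x := by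
          funext x
          rw [hy Y2 y2 hp2 x, x2 x]
          ring
        have r1 : t p Y1 Y2 = t p (fun x => (y1 : ℂ) * g1 K x) Y2 +
            t p (fun x => (y1 : ℂ) * P1 K x) Y2 + t p (fun x => (y1 : ℂ) * e1 K x) Y2 := by
          conv_lhs => rw [q1]
          rw [hB.add1 p (fun x => (y1 : ℂ) * g1 K x + (y1 : ℂ) * P1 K x) (fun x => (y1 : ℂ) * e1 K x),
            hB.add1 p (fun x => (y1 : ℂ) * g1 K x) (fun x => (y1 : ℂ) * P1 K x)]
        have r2 : t p (fun x => (y1 : ℂ) * e1 K x) Y2 =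
            t p (fun x => (y1 : ℂ) * e1 K x) (fun x => (y2 : ℂ) * g2 K x) +
            t p (fun x => (y1 : ℂ) * e1 K x) (fun x => (y2 : ℂ) * P2 K x) +
            t p (fun x => (y1 : ℂ) * e1 K x) (fun x => (y2 : ℂ) * e2 K x) := by
          conv_lhs => rw [q2]
          rw [hB.add2 p _ (fun x => (y2 : ℂ) * g2 K x + (y2 : ℂ) * P2 K x) (fun x => (y2 : ℂ) * e2 K x),
            hB.add2 p _ (fun x => (y2 : ℂ) * g2 K x) (fun x => (y2 : ℂ) * P2 K x)]
        rw [r1, r2, hB.smul1 p (y1 : ℂ) (g1 K) Y2, hB.smul1 p (y1 : ℂ) (P1 K) Y2,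
          hB.smul2 p (y2 : ℂ) _ (g2 K), hB.smul2 p (y2 : ℂ) _ (P2 K)]
        ring
      rw [Finset.sum_congr rfl hterm, Finset.sum_add_distrib, Finset.sum_add_distrib,
        Finset.sum_add_distrib, ← Finset.mul_sum, ← Finset.mul_sum, ← Finset.mul_sum,
        ← Finset.mul_sum]
      have n1 : ‖(y1 : ℂ)‖ = y1 := by rw [Complex.norm_real, Real.norm_of_nonneg hy1]
      have n2 : ‖(y2 : ℂ)‖ = y2 := by rw [Complex.norm_real, Real.norm_of_nonneg hy2]
      have w1 := K1.scale hB a1 hy2 (h2.mono hVW)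
      have w2 := K1.scale hB b1 hy2 (h2.mono hVW)
      have hE : Sz (V K) (fun x => (y1 : ℂ) * e1 K x) y1 := by
        have := s1.smul hy1
        refine this.le ?_
        nlinarith
      have w3 := K2.scale hB a2 hy1 hE
      have w4 := K2.scale hB b2 hy1 hE
      have hl := (Growth.len_pos K).le
      refine (norm_add_le _ _).trans ?_
      have t1 : ‖(y1 : ℂ) * ∑ p ∈ V K, t p (g1 K) Y2 + (y1 : ℂ) * ∑ p ∈ V K, t p (P1 K) Y2‖ ≤
          y1 * (d0 * y2 * len K) + y1 * (d0 * y2 * len K) := by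
        refine (norm_add_le _ _).trans (add_le_add ?_ ?_)
        · rw [norm_mul, n1]; exact mul_le_mul_of_nonneg_left w1 hy1
        · rw [norm_mul, n1]; exact mul_le_mul_of_nonneg_left w2 hy1
      have t2 : ‖(y2 : ℂ) * ∑ p ∈ V K, t p (fun x => (y1 : ℂ) * e1 K x) (g2 K) +
          (y2 : ℂ) * ∑ p ∈ V K, t p (fun x => (y1 : ℂ) * e1 K x) (P2 K)‖ ≤
          y2 * (d0 * y1 * len K) + y2 * (d0 * y1 * len K) := by
        refine (norm_add_le _ _).trans (add_le_add ?_ ?_)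
        · rw [norm_mul, n2]; exact mul_le_mul_of_nonneg_left w3 hy2
        · rw [norm_mul, n2]; exact mul_le_mul_of_nonneg_left w4 hy2
      refine (add_le_add t1 t2).trans (le_of_eq ?_)
      ring
    refine (norm_sum_le _ _).trans ((Finset.sum_le_sum hwin).trans ?_)
    rw [← Finset.mul_sum]
    have hcnt := part_cnt hW hPt
    have : 0 ≤ 4 * d0 * y1 * y2 := by positivity
    calc 4 * d0 * y1 * y2 * ∑ K ∈ S, len K ≤ 4 * d0 * y1 * y2 * (c * len I) :=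
          mul_le_mul_of_nonneg_left hcnt this
      _ = 4 * c * d0 * y1 * y2 * len I := by ring

/-- the words (G) and (S) for near-minimisers of slot 1 on all windows -/
structure Words1 (R : Finset Nd) (t : Nd → Fn → Fn → ℂ) (Kw : Nd → Fn → Prop)
    (Φ : Nd → Fn → ℝ) (δ η₁ d0 : ℝ) : Prop where
  G : ∀ W I, Full W I → W ⊆ R → ∀ (X : Fn) (f : Nd → Fn) (η : ℝ), 0 < η → η ≤ η₁ → η ≤ 1 →
    NMP Kw Φ X η f → Sz W X 1 → GdP Φ X η f δ W I → K1 t W I (fun y => X y - gl W f y) d0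
  S : ∀ W I, Full W I → W ⊆ R → ∀ (X : Fn) (f : Nd → Fn) (η : ℝ), 0 < η → η ≤ η₁ → η ≤ 1 →
    NMP Kw Φ X η f → Sz W X 1 → GdP Φ X η f δ W I → K1 t W I (f I) d0

/-- **splitting from two penalties** (`t'` = transposed form) -/
theorem split_of_pen {R : Finset Nd} {t : Nd → Fn → Fn → ℂ} {Ka Kb : Nd → Fn → Prop}
    {Φa Φb : Nd → Fn → ℝ} (hPa : Pen Ka Φa) (hPb : Pen Kb Φb) {δ η₁ d0 : ℝ} (hδ : 0 < δ)
    (hη₁ : 0 < η₁) (ha : Words1 R t Ka Φa δ η₁ d0)
    (hb : Words1 R (fun p X Y => t p Y X) Kb Φb δ η₁ d0) :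
    Split R t (2 + 32 / δ) (Real.sqrt (2 * δ)) d0 := by
  classical
  intro W I hW hWR X1 X2 h1 h2
  obtain ⟨η, f, S, V, hη0, hη1, hη2, hf, hPt, hgd⟩ := exists_rel (ι := Bool) hW
    (fun b => if b then Ka else Kb) (fun b => if b then Φa else Φb)
    (fun b => by cases b <;> simpa) (fun b => if b then X1 else X2)
    (fun b => by
      cases b
      · exact h2
      · exact h1) hδ hη₁
  have fa : NMP Ka Φa X1 η (f true) := by simpa using hf true
  have fb : NMP Kb Φb X2 η (f false) := by simpa using hf false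
  have ga : ∀ T ∈ S, GdP Φa X1 η (f true) δ (V T) T := fun T hT => by
    simpa using hgd T hT true
  have gb : ∀ T ∈ S, GdP Φb X2 η (f false) δ (V T) T := fun T hT => by
    simpa using hgd T hT false
  have hcnt : 2 + 16 * (Fintype.card Bool : ℝ) / δ = 2 + 32 / δ := by
    rw [Fintype.card_bool]
    norm_num
  rw [hcnt] at hPt
  refine ⟨S, V, fun T y => X1 y - gl (V T) (f true) y, fun T => f true T,
    fun T y => gl (V T) (f true) y - f true T y, fun T y => X2 y - gl (V T) (f false) y,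
    fun T => f false T, fun T y => gl (V T) (f false) y - f false T y, hPt, fun T hT => ?_⟩
  have hV := hPt.full T hT
  have hVW := hPt.wsub T hT
  have hVR : V T ⊆ R := hVW.trans hWR
  have hrev : ∀ (p : Nd) (u v : Fn), av p (fun y => u y - v y) = av p (fun y => v y - u y) := by
    intro p u v
    unfold av av2
    congr 2
    refine Finset.sum_congr rfl fun y _ => ?_
    rw [norm_sub_rev]
  refine ⟨fun y => by ring, fun y => by ring, ?_, ?_, ?_, ?_, ?_, ?_⟩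
  · intro p hp
    have h3 := av_E_P hPa fa hV (ga T hT) hp
    rw [hrev]
    exact Real.le_sqrt_of_sq_le h3
  · intro p hp
    have h3 := av_E_P hPb fb hV (gb T hT) hp
    rw [hrev]
    exact Real.le_sqrt_of_sq_le h3
  · exact ha.G (V T) T hV hVR X1 (f true) η hη0 hη1 hη2 fa (h1.mono hVW) (ga T hT)
  · exact ha.S (V T) T hV hVR X1 (f true) η hη0 hη1 hη2 fa (h1.mono hVW) (ga T hT)
  · exact hb.G (V T) T hV hVR X2 (f false) η hη0 hη1 hη2 fb (h2.mono hVW) (gb T hT)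
  · exact hb.S (V T) T hV hVR X2 (f false) η hη0 hη1 hη2 fb (h2.mono hVW) (gb T hT)

/-- **generation from penalties**, `2 δ ≤ 1` -/
theorem gen_of_pen {R : Finset Nd} {t : Nd → Fn → Fn → ℂ} (hB : Bil t)
    {Ka Kb : Nd → Fn → Prop} {Φa Φb : Nd → Fn → ℝ} (hPa : Pen Ka Φa) (hPb : Pen Kb Φb)
    {δ η₁ d0 : ℝ} (hδ : 0 < δ) (hδ1 : 2 * δ ≤ 1) (hη₁ : 0 < η₁) (hd : 0 ≤ d0)
    (ha : Words1 R t Ka Φa δ η₁ d0) (hb : Words1 R (fun p X Y => t p Y X) Kb Φb δ η₁ d0) :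
    Gen R t Sz Sz Sz Sz (2 + 32 / δ) (Real.sqrt (2 * δ)) (4 * (2 + 32 / δ) * d0) := by
  have h0 : 0 ≤ 32 / δ := by positivity
  exact gen_of_split hB (by linarith) (Real.sqrt_nonneg _)
    (Real.sqrt_le_one.2 hδ1 |> fun h => h) hd (split_of_pen hPa hPb hδ hη₁ ha hb)

end Crest.Agent.R079.GenP934
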