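import Crest.Agent.R079.TLocB_13

/-! R079, M4 (doc 2489), piece LOCALISATION, final form (helper13): a class bound for letters with
local `L^q` norms `≤ λ` on every full sub-region gives the bound with ONE or TWO slots only in the
global (normalised) `L^r` norm `vq r z J` on the top interval, `q < r`. -/

set_option autoImplicit false

namespace Crest.Agent.R079.TLoc13

open Finset Crest.Agent.R079.Grid Crest.Agent.R079.Growth Crest.Agent.R079.QRed
open Crest.Agent.R079.Qe292 Crest.Agent.R079.L0q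

/-- constant of the localisation -/
noncomputable def lc (q r : ℝ) : ℝ := (2 * yc q r / (r - q)) ^ (1 / r)

lemma lc_nonneg {q r : ℝ} (hq : 0 < q) (hqr : q < r) : 0 ≤ lc q r :=
  Real.rpow_nonneg (div_nonneg (mul_nonneg (by norm_num) (yc_nonneg hq)) (by linarith)) _

/-- Jensen on the interval of a node -/
lemma mean_rpow {r : ℝ} (hr : 1 ≤ r) (J : Nd) (g : ℤ → ℝ) (hg : ∀ y, 0 ≤ g y) :
    ((1 / len J) * ∑ y ∈ iv J, g y) ^ r ≤ (1 / len J) * ∑ y ∈ iv J, g y ^ r := by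
  have hl := Qe292.len_pos J
  have h := Real.rpow_arith_mean_le_arith_mean_rpow (iv J) (fun _ => 1 / len J) g
    (fun _ _ => by positivity) ?_ (fun y _ => hg y) hr
  · rw [← Finset.mul_sum, ← Finset.mul_sum] at h
    exact h
  · rw [Finset.sum_const, nsmul_eq_mul, Growth.card_iv]
    field_simp

lemma vq_rpow {r : ℝ} (hr : 0 < r) (f : ℤ → ℂ) (J : Nd) :
    vq r f J ^ r = (1 / len J) * ∑ y ∈ iv J, ‖f y‖ ^ r := by
  unfold vq len iv
  exact avq_rpow hr _ _ _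

lemma lc_rpow {q r : ℝ} (hq : 0 < q) (hqr : q < r) : lc q r ^ r = 2 * yc q r / (r - q) := by
  unfold lc
  rw [← Real.rpow_mul (div_nonneg (mul_nonneg (by norm_num) (yc_nonneg hq)) (by linarith)),
    one_div_mul_cancel (by linarith), Real.rpow_one]

lemma mean_Mp_rpow {q r : ℝ} (hq : 0 < q) (hqr : q < r) (J : Nd) (f : ℤ → ℂ) :
    (1 / len J) * ∑ y ∈ iv J, Mp q J.1 f y ^ r ≤ (lc q r * vq r f J) ^ r := by
  rw [Real.mul_rpow (lc_nonneg hq hqr) (vq_nonneg _ _ _), lc_rpow hq hqr,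
    vq_rpow (hq.trans hqr)]
  have h := max_pt hq hqr J f
  have hl := Qe292.len_pos J
  calc (1 / len J) * ∑ y ∈ iv J, Mp q J.1 f y ^ r
      ≤ (1 / len J) * (2 * yc q r / (r - q) * ∑ y ∈ iv J, ‖f y‖ ^ r) :=
        mul_le_mul_of_nonneg_left h (by positivity)
    _ = _ := by ring

lemma mean_Mp {q r : ℝ} (hq : 0 < q) (hqr : q < r) (hr : 1 ≤ r) (J : Nd) (f : ℤ → ℂ) :
    (1 / len J) * ∑ y ∈ iv J, Mp q J.1 f y ≤ lc q r * vq r f J := by
  have h1 := (mean_rpow hr J (Mp q J.1 f) fun y => Mp_nonneg _ _ _ _).trans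
    (mean_Mp_rpow hq hqr J f)
  have hl := Qe292.len_pos J
  exact (Real.rpow_le_rpow_iff (mul_nonneg (by positivity)
    (Finset.sum_nonneg fun y _ => Mp_nonneg _ _ _ _))
    (mul_nonneg (lc_nonneg hq hqr) (vq_nonneg _ _ _)) (by linarith)).1 h1

lemma mean_Mp_sq {q r : ℝ} (hq : 0 < q) (hqr : q < r) (hr : 2 ≤ r) (J : Nd) (f : ℤ → ℂ) :
    (1 / len J) * ∑ y ∈ iv J, Mp q J.1 f y ^ 2 ≤ (lc q r * vq r f J) ^ 2 := by
  have hr2 : 1 ≤ r / 2 := by linarith
  have h0 : 0 ≤ lc q r * vq r f J := mul_nonneg (lc_nonneg hq hqr) (vq_nonneg _ _ _)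
  have h1 := mean_rpow hr2 J (fun y => Mp q J.1 f y ^ 2) fun y => sq_nonneg _
  have e : ∀ y, (Mp q J.1 f y ^ 2) ^ (r / 2) = Mp q J.1 f y ^ r := by
    intro y
    rw [← Real.rpow_natCast, ← Real.rpow_mul (Mp_nonneg _ _ _ _)]
    congr 1
    push_cast
    ring
  simp only [e] at h1
  have h2 := h1.trans (mean_Mp_rpow hq hqr J f)
  have e2 : (lc q r * vq r f J) ^ r = ((lc q r * vq r f J) ^ 2) ^ (r / 2) := by
    rw [← Real.rpow_natCast (lc q r * vq r f J) 2, ← Real.rpow_mul h0]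
    congr 1
    push_cast
    ring
  rw [e2] at h2
  have hl := Qe292.len_pos J
  exact (Real.rpow_le_rpow_iff (mul_nonneg (by positivity)
    (Finset.sum_nonneg fun y _ => sq_nonneg _)) (sq_nonneg _) (by linarith)).1 h2

/-- **LOCALISATION, one slot** -/
theorem loc_one {q r : ℝ} (hq : 1 ≤ q) (hqr : q < r) {R : Finset Nd} {J : Nd} (hR : Full R J)
    (z : ℤ → ℂ) (c : Nd → ℂ) (a : ℝ) (ha : 0 ≤ a)
    (hyp : ∀ (W : Finset Nd) (I : Nd), Full W I → W ⊆ R → ∀ l : ℝ, 0 ≤ l →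
      (∀ p ∈ W, vq q z p ≤ l) → ‖∑ p ∈ W, c p‖ ≤ a * l * len I) :
    ‖∑ p ∈ R, c p‖ ≤ 8 * lc q r * a * vq r z J * len J := by
  have hq0 : 0 < q := by linarith
  have hlev : ∀ p ∈ R, p.1 ≤ J.1 := fun p hp => Qe292.iv_level (hR.reg.1 p hp)
  have h := loc_global (Finset.univ : Finset Unit) hR (fun _ p => vq q z p) 2 (by norm_num)
    (fun _ _ p _ => vq_nonneg q z p) (fun _ _ p _ _ => vq_par hq z p)
    (fun _ y => Mp q J.1 z y) (fun _ _ p hp y hy => vq_le_Mp q J.1 z (hlev p hp) hy) c a ha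
    (fun W I hW hWR l hl hl' => by
      have := hyp W I hW hWR (l ()) (hl () (Finset.mem_univ _)) (hl' () (Finset.mem_univ _))
      simpa using this)
  simp only [Finset.univ_unique, Finset.card_singleton, pow_one, Finset.prod_singleton] at h
  have h2 := mean_Mp hq0 hqr (by linarith) J z
  have hl := Qe292.len_pos J
  have h3 : ∑ y ∈ iv J, Mp q J.1 z y ≤ lc q r * vq r z J * len J := by
    have h4 := mul_le_mul_of_nonneg_right h2 hl.le
    have e : 1 / len J * ∑ y ∈ iv J, Mp q J.1 z y * len J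
        = ∑ y ∈ iv J, Mp q J.1 z y := by
      rw [← Finset.sum_mul]
      field_simp
    have e' : 1 / len J * (∑ y ∈ iv J, Mp q J.1 z y) * len J
        = ∑ y ∈ iv J, Mp q J.1 z y := by field_simp
    rw [e'] at h4
    exact h4
  refine h.trans ?_
  calc 2 * (2 * 2) * a * ∑ y ∈ iv J, Mp q J.1 z y
      ≤ 2 * (2 * 2) * a * (lc q r * vq r z J * len J) :=
        mul_le_mul_of_nonneg_left h3 (by positivity)
    _ = _ := by ring

/-- **LOCALISATION, two slots** -/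
theorem loc_two {q r : ℝ} (hq : 1 ≤ q) (hqr : q < r) (hr : 2 ≤ r) {R : Finset Nd} {J : Nd}
    (hR : Full R J) (z z' : ℤ → ℂ) (c : Nd → ℂ) (a : ℝ) (ha : 0 ≤ a)
    (hyp : ∀ (W : Finset Nd) (I : Nd), Full W I → W ⊆ R → ∀ l l' : ℝ, 0 ≤ l → 0 ≤ l' →
      (∀ p ∈ W, vq q z p ≤ l) → (∀ p ∈ W, vq q z' p ≤ l') →
      ‖∑ p ∈ W, c p‖ ≤ a * (l * l') * len I) :
    ‖∑ p ∈ R, c p‖ ≤ 32 * lc q r ^ 2 * a * (vq r z J * vq r z' J) * len J := by
  have hq0 : 0 < q := by linarith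
  have hlev : ∀ p ∈ R, p.1 ≤ J.1 := fun p hp => Qe292.iv_level (hR.reg.1 p hp)
  set Z : Fin 2 → ℤ → ℂ := ![z, z'] with hZ
  have h := loc_global (Finset.univ : Finset (Fin 2)) hR (fun i p => vq q (Z i) p) 2 (by norm_num)
    (fun i _ p _ => vq_nonneg q (Z i) p) (fun i _ p _ _ => vq_par hq (Z i) p)
    (fun i y => Mp q J.1 (Z i) y) (fun i _ p hp y hy => vq_le_Mp q J.1 (Z i) (hlev p hp) hy) c a ha
    (fun W I hW hWR l hl hl' => by
      have := hyp W I hW hWR (l 0) (l 1) (hl 0 (Finset.mem_univ _)) (hl 1 (Finset.mem_univ _))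
        (hl' 0 (Finset.mem_univ _)) (hl' 1 (Finset.mem_univ _))
      simpa [Fin.prod_univ_two] using this)
  rw [Finset.card_univ, Fintype.card_fin] at h
  have hl := Qe292.len_pos J
  have h3 : ∑ y ∈ iv J, ∏ i, Mp q J.1 (Z i) y ≤
      (lc q r * vq r z J) * (lc q r * vq r z' J) * len J := by
    have e0 : ∀ y, ∏ i, Mp q J.1 (Z i) y = Mp q J.1 z y * Mp q J.1 z' y := by
      intro y
      rw [Fin.prod_univ_two]
      rfl
    simp only [e0]
    have hc := Finset.sum_mul_sq_le_sq_mul_sq (iv J) (Mp q J.1 z) (Mp q J.1 z')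
    have s1 := mean_Mp_sq hq0 hqr hr J z
    have s2 := mean_Mp_sq hq0 hqr hr J z'
    have t1 : ∑ y ∈ iv J, Mp q J.1 z y ^ 2 ≤ (lc q r * vq r z J) ^ 2 * len J := by
      have h4 := mul_le_mul_of_nonneg_right s1 hl.le
      have e' : 1 / len J * (∑ y ∈ iv J, Mp q J.1 z y ^ 2) * len J
          = ∑ y ∈ iv J, Mp q J.1 z y ^ 2 := by field_simp
      rwa [e'] at h4
    have t2 : ∑ y ∈ iv J, Mp q J.1 z' y ^ 2 ≤ (lc q r * vq r z' J) ^ 2 * len J := by
      have h4 := mul_le_mul_of_nonneg_right s2 hl.le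
      have e' : 1 / len J * (∑ y ∈ iv J, Mp q J.1 z' y ^ 2) * len J
          = ∑ y ∈ iv J, Mp q J.1 z' y ^ 2 := by field_simp
      rwa [e'] at h4
    have n1 : 0 ≤ lc q r * vq r z J := mul_nonneg (lc_nonneg hq0 hqr) (vq_nonneg _ _ _)
    have n2 : 0 ≤ lc q r * vq r z' J := mul_nonneg (lc_nonneg hq0 hqr) (vq_nonneg _ _ _)
    refine abs_le_of_sq_le_sq' ?_ (by positivity) |>.2
    calc (∑ y ∈ iv J, Mp q J.1 z y * Mp q J.1 z' y) ^ 2
        ≤ (∑ y ∈ iv J, Mp q J.1 z y ^ 2) * ∑ y ∈ iv J, Mp q J.1 z' y ^ 2 := hc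
      _ ≤ ((lc q r * vq r z J) ^ 2 * len J) * ((lc q r * vq r z' J) ^ 2 * len J) :=
        mul_le_mul t1 t2 (Finset.sum_nonneg fun _ _ => sq_nonneg _) (by positivity)
      _ = _ := by ring
  refine h.trans ?_
  calc 2 * (2 * 2) ^ 2 * a * ∑ y ∈ iv J, ∏ i, Mp q J.1 (Z i) y
      ≤ 2 * (2 * 2) ^ 2 * a * ((lc q r * vq r z J) * (lc q r * vq r z' J) * len J) :=
        mul_le_mul_of_nonneg_left h3 (by positivity)
    _ = _ := by ring

end Crest.Agent.R079.TLoc13
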