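import Crest.Agent.R079.TS0_903
import Crest.Agent.R079.TLoc_13
import Crest.Agent.R079.TSignW_815

/-! R079, global recursion, **[T2] `ConvLem`** (helper815): random signs (`TSign_815`) + localisation
(`TLoc_13`). -/

set_option autoImplicit false

namespace Crest.Agent.R079.TRec.T2

open Finset Crest.Agent.R079.Grid Crest.Agent.R079.Growth Crest.Agent.R079.QRed
  Crest.Agent.R079.TSign

lemma upd_app (Y : Fin 4 → Nd → Fn) (i : Fin 4) (E : Nd → Fn) (p : Nd) :
    (fun j => (Function.update Y i E) j p) = Function.update (fun j => Y j p) i (E p) := by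
  funext j
  by_cases h : j = i
  · subst h; simp
  · simp [Function.update_of_ne h]

/-- the node functional in one slot, as a linear map -/
noncomputable def Lp (bb : ℤ) (ε : ℕ → ℤ → ℂ) (F : Fin 4 → Fn) (i : Fin 4) (p : Nd) :
    Fn →ₗ[ℂ] ℂ where
  toFun g := TI bb ε (Function.update F i g) p
  map_add' g h := by
    have := Qb247.TI_update_sum bb ε F i 2 ![g, h] ![1, 1] p
    simp only [Fin.sum_univ_two, Matrix.cons_val_zero, Matrix.cons_val_one, one_mul] at this
    rw [← this]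
    rfl
  map_smul' c g := by
    have := Qb247.TI_update_sum bb ε F i 1 ![g] ![c] p
    simp only [Fin.sum_univ_one, Matrix.cons_val_fin_one] at this
    rw [RingHom.id_apply, smul_eq_mul, ← this]
    rfl

lemma Lp_apply (bb : ℤ) (ε : ℕ → ℤ → ℂ) (F : Fin 4 → Fn) (i : Fin 4) (p : Nd) (g : Fn) :
    Lp bb ε F i p g = TI bb ε (Function.update F i g) p := rfl

/-- the node functional only sees the values on the node interval -/
lemma TI_congr (bb : ℤ) (hbb : bb = -1 ∨ bb = -7) (ε : ℕ → ℤ → ℂ) (F : Fin 4 → Fn) (i : Fin 4)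
    (p : Nd) (g h : Fn) (hgh : ∀ y ∈ iv p, g y = h y) :
    TI bb ε (Function.update F i g) p = TI bb ε (Function.update F i h) p := by
  unfold TI
  refine Finset.sum_congr rfl fun x hx => ?_
  congr 1
  refine Qb247.Lbox_congr p.1 p.2 bb x hbb hx _ _ fun j y hy => ?_
  by_cases hj : j = i
  · subst hj; simp only [Function.update_self]; exact hgh y hy
  · simp only [Function.update_of_ne hj]

/-- one linear functional -/
lemma conv_one {ι : Type*} [Fintype ι] [DecidableEq ι] (E : ι → Fn) (L : Fn →ₗ[ℂ] ℂ) (w : ι) :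
    ∑ θ : Sg ι, sv (θ w) * L (zs E θ) = (2 : ℂ) ^ Fintype.card ι * L (E w) := by
  have hz : ∀ θ : Sg ι, zs E θ = ∑ v, sv (θ v) • E v := by
    intro θ; funext y; simp [zs, Finset.sum_apply]
  have h1 : ∀ θ : Sg ι, sv (θ w) * L (zs E θ) = ∑ v, (sv (θ w) * sv (θ v)) * L (E v) := by
    intro θ
    rw [hz θ, map_sum, Finset.mul_sum]
    refine Finset.sum_congr rfl fun v _ => ?_
    rw [map_smul, smul_eq_mul]; ring
  rw [Finset.sum_congr rfl fun θ _ => h1 θ, Finset.sum_comm]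
  have h2 : ∀ v, ∑ θ : Sg ι, (sv (θ w) * sv (θ v)) * L (E v)
      = (if w = v then (2 : ℂ) ^ Fintype.card ι else 0) * L (E v) := by
    intro v; rw [← Finset.sum_mul, sum_sv_mul]
  rw [Finset.sum_congr rfl fun v _ => h2 v]
  simp

variable {R : Finset Nd} {J : Nd} {T : Finset Nd}

open Classical in
/-- top of the window of a node -/
noncomputable def wt (T : Finset Nd) (J p : Nd) : Nd := if h : ∃ I, Wn T I p then h.choose else J

lemma wt_wn (hR : Full R J) (hT : Tops R J T) {p : Nd} (hp : p ∈ R) : Wn T (wt T J p) p := by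
  have h := hT.exists_wn hR hp
  unfold wt
  rw [dif_pos h]
  exact h.choose_spec

open Classical in
/-- signed coefficients -/
noncomputable def eg (T : Finset Nd) (J : Nd) (ε : ℕ → ℤ → ℂ) (θ : Sg {I // I ∈ T}) : ℕ → ℤ → ℂ :=
  fun m x => (if h : wt T J (m, x / 2 ^ (m + 7)) ∈ T then sv (θ ⟨_, h⟩) else 1) * ε m x

lemma eg_le (ε : ℕ → ℤ → ℂ) (hε : ∀ m x, ‖ε m x‖ ≤ 1) (θ : Sg {I // I ∈ T}) (m : ℕ) (x : ℤ) :
    ‖eg T J ε θ m x‖ ≤ 1 := by
  unfold eg
  rw [norm_mul]
  refine mul_le_one₀ ?_ (norm_nonneg _) (hε m x)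
  split_ifs with h
  · rw [norm_sv]
  · simp

lemma TI_eg (bb : ℤ) (ε : ℕ → ℤ → ℂ) (θ : Sg {I // I ∈ T}) (F : Fin 4 → Fn) (p : Nd)
    (h : wt T J p ∈ T) :
    TI bb (eg T J ε θ) F p = sv (θ ⟨wt T J p, h⟩) * TI bb ε F p := by
  unfold TI
  rw [Finset.mul_sum]
  refine Finset.sum_congr rfl fun x hx => ?_
  have hx' : x / 2 ^ (p.1 + 7) = p.2 := div_of_mem (adm_sub p.1 p.2 hx)
  unfold eg
  have e : ((p.1, x / 2 ^ (p.1 + 7)) : Nd) = p := by rw [hx']
  have h' : wt T J (p.1, x / 2 ^ (p.1 + 7)) ∈ T := by rw [e]; exact h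
  rw [dif_pos h']
  have e2 : (⟨wt T J (p.1, x / 2 ^ (p.1 + 7)), h'⟩ : {I // I ∈ T}) = ⟨wt T J p, h⟩ := by
    apply Subtype.ext; simp only [e]
  rw [e2]; ring

/-- letters cut to the window intervals -/
noncomputable def Ec (T : Finset Nd) (E : Nd → Fn) (I : {I // I ∈ T}) : Fn :=
  fun y => if y ∈ iv I.1 then E I.1 y else 0

/-- **conversion identity** -/
theorem conv_tot (hR : Full R J) (hT : Tops R J T) (bb : ℤ) (hbb : bb = -1 ∨ bb = -7)
    (ε : ℕ → ℤ → ℂ) (i : Fin 4) (Y : Fin 4 → Nd → Fn) (E : Nd → Fn) (hE : Adp R T E) :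
    TP bb ε R (Function.update Y i E) = (1 / (2 : ℂ) ^ Fintype.card {I // I ∈ T}) *
      ∑ θ : Sg {I // I ∈ T}, TP bb (eg T J ε θ) R (Function.update Y i (fun _ => zs (Ec T E) θ)) := by
  classical
  unfold TP
  rw [Finset.sum_comm, Finset.mul_sum]
  refine Finset.sum_congr rfl fun p hp => ?_
  have hw := wt_wn hR hT hp
  rw [upd_app]
  have h1 : ∀ θ : Sg {I // I ∈ T},
      TI bb (eg T J ε θ) (fun j => (Function.update Y i (fun _ => zs (Ec T E) θ)) j p) p
      = sv (θ ⟨wt T J p, hw.1⟩) * Lp bb ε (fun j => Y j p) i p (zs (Ec T E) θ) := by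
    intro θ
    rw [TI_eg bb ε θ _ p hw.1, upd_app]; rfl
  rw [Finset.sum_congr rfl fun θ _ => h1 θ, conv_one]
  have h2 : (2 : ℂ) ^ Fintype.card {I // I ∈ T} ≠ 0 := pow_ne_zero _ two_ne_zero
  rw [← mul_assoc, one_div, inv_mul_cancel₀ h2, one_mul, Lp_apply]
  refine TI_congr bb hbb ε _ i p _ _ fun y hy => ?_
  unfold Ec
  rw [if_pos (hw.2.1 hy), hE p hp _ hw]

/-- second moment of the number of windows -/
theorem count_sqT (K : ℝ) (hK : 0 ≤ K)
    (hc : ∀ I ∈ T, ∑ I' ∈ T, (if iv I' ⊆ iv I then len I' else 0) ≤ K * len I)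
    (hc' : ∑ I ∈ T, len I ≤ K * len J) :
    ∑ y ∈ iv J, (∑ I ∈ T, (if y ∈ iv I then (1 : ℝ) else 0)) ^ 2 ≤ 2 * K ^ 2 * len J := by
  classical
  have h2 : ∀ i k : Nd, ∑ y ∈ iv J, (if y ∈ iv i ∧ y ∈ iv k then (1 : ℝ) else 0)
      ≤ (if iv k ⊆ iv i then len k else 0) + (if iv i ⊆ iv k then len i else 0) := by
    intro i k
    have l0 : ∀ p : Nd, 0 ≤ len p := fun p => by unfold len; positivity
    have n1 : 0 ≤ (if iv k ⊆ iv i then len k else 0) := by split_ifs <;> simp [l0]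
    have n2 : 0 ≤ (if iv i ⊆ iv k then len i else 0) := by split_ifs <;> simp [l0]
    rw [← Finset.sum_filter, Finset.sum_const, nsmul_eq_mul, mul_one]
    by_cases hne : ∃ y, y ∈ iv i ∧ y ∈ iv k
    · obtain ⟨y, hy1, hy2⟩ := hne
      rcases iv_nest hy1 hy2 with h | h
      · have : (((iv J).filter fun y => y ∈ iv i ∧ y ∈ iv k).card : ℝ) ≤ len i := by
          rw [← Growth.card_iv]
          exact_mod_cast Finset.card_le_card (fun z hz => by
            simp only [Finset.mem_filter] at hz; exact hz.2.1)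
        rw [if_pos h]
        linarith
      · have : (((iv J).filter fun y => y ∈ iv i ∧ y ∈ iv k).card : ℝ) ≤ len k := by
          rw [← Growth.card_iv]
          exact_mod_cast Finset.card_le_card (fun z hz => by
            simp only [Finset.mem_filter] at hz; exact hz.2.2)
        rw [if_pos h]
        linarith
    · push Not at hne
      rw [Finset.filter_eq_empty_iff.2 fun y _ hy => hne y hy.1 hy.2]
      simp only [Finset.card_empty, Nat.cast_zero]
      linarith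
  calc ∑ y ∈ iv J, (∑ I ∈ T, (if y ∈ iv I then (1 : ℝ) else 0)) ^ 2
      = ∑ i ∈ T, ∑ k ∈ T, ∑ y ∈ iv J, (if y ∈ iv i ∧ y ∈ iv k then (1 : ℝ) else 0) := by
        have h1 : ∀ y, (∑ I ∈ T, (if y ∈ iv I then (1 : ℝ) else 0)) ^ 2
            = ∑ i ∈ T, ∑ k ∈ T, (if y ∈ iv i ∧ y ∈ iv k then (1 : ℝ) else 0) := by
          intro y
          rw [sq, Finset.sum_mul_sum]
          refine Finset.sum_congr rfl fun i _ => Finset.sum_congr rfl fun k _ => ?_
          by_cases h : y ∈ iv i <;> by_cases h' : y ∈ iv k <;> simp [h, h']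
        rw [Finset.sum_congr rfl fun y _ => h1 y, Finset.sum_comm]
        exact Finset.sum_congr rfl fun i _ => Finset.sum_comm
    _ ≤ ∑ i ∈ T, ∑ k ∈ T, ((if iv k ⊆ iv i then len k else 0) +
        (if iv i ⊆ iv k then len i else 0)) :=
        Finset.sum_le_sum fun i _ => Finset.sum_le_sum fun k _ => h2 i k
    _ = 2 * ∑ i ∈ T, ∑ k ∈ T, (if iv k ⊆ iv i then len k else 0) := by
        simp only [Finset.sum_add_distrib]
        rw [Finset.sum_comm (f := fun i k => if iv i ⊆ iv k then len i else 0)]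
        ring
    _ ≤ 2 * ∑ i ∈ T, K * len i := by
        refine mul_le_mul_of_nonneg_left (Finset.sum_le_sum fun i hi => hc i hi) (by norm_num)
    _ ≤ 2 * K ^ 2 * len J := by
        rw [← Finset.mul_sum]
        nlinarith [mul_le_mul_of_nonneg_left hc' hK]

lemma sum_card {ι : Type*} [Fintype ι] (P : ι → Prop) [DecidablePred P] :
    (((Finset.univ.filter P).card : ℕ) : ℝ) = ∑ w, (if P w then (1 : ℝ) else 0) := by
  rw [Finset.card_filter]; push_cast; rfl

lemma av_sq (p : Nd) (X : Fn) : len p * av p X ^ 2 = ∑ y ∈ iv p, ‖X y‖ ^ 2 := by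
  have hl := Growth.len_pos p
  unfold av av2
  rw [Real.sq_sqrt (by positivity)]
  unfold len iv at *
  field_simp

/-- **norm of the signed letters** -/
theorem norm_signs (hR : Full R J) (hT : Tops R J T) (E : Nd → Fn) (C t κ : ℝ) (hC : 1 ≤ C)
    (ht : 0 < t) (ht1 : t ≤ 1) (hκ0 : 0 ≤ κ) (hκ1 : κ ≤ 1)
    (hav : ∀ p ∈ R, av p (E p) ≤ C) (hsup : ∀ p ∈ R, ∀ y ∈ iv p, ‖E p y‖ ≤ C * t⁻¹)
    (hcnt : Cnt R T (C * t⁻¹)) (hsq : Sq R T E C) :
    ∑ θ : Sg {I // I ∈ T}, ∑ y ∈ iv J, ‖zs (Ec T E) θ y‖ ^ (2 + κ)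
      ≤ (2 : ℝ) ^ Fintype.card {I // I ∈ T} *
        ((C * t⁻¹) ^ (3 * κ) * ((2 * C ^ 2) ^ (1 - κ) * (2 * (2 * C * t⁻¹) ^ 2) ^ κ) * len J) := by
  classical
  have hlen := Growth.len_pos J
  have hti : 1 ≤ t⁻¹ := (one_le_inv₀ ht).2 ht1
  have hM1 : 1 ≤ C * t⁻¹ := by nlinarith
  have hRJ : ∀ I ∈ T, iv I ⊆ iv J := fun I hI => hR.reg.1 I (hT.sub hI)
  -- counts
  have hc : ∀ I ∈ T, ∑ I' ∈ T, (if iv I' ⊆ iv I then len I' else 0) ≤ (2 * C * t⁻¹) * len I := by
    intro I hI
    have h1 := hcnt I (hT.sub hI)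
    have h2 : ∑ I' ∈ T, (if iv I' ⊆ iv I then len I' else 0)
        ≤ ∑ I' ∈ T, ((if iv I' ⊂ iv I then len I' else 0) + (if I' = I then len I' else 0)) := by
      refine Finset.sum_le_sum fun I' _ => ?_
      have l0 := (Growth.len_pos I').le
      by_cases h : iv I' ⊆ iv I
      · rw [if_pos h]
        by_cases h' : iv I ⊆ iv I'
        · have e : I' = I := Qe292.iv_antisymm h h'
          rw [if_pos e]
          have : 0 ≤ (if iv I' ⊂ iv I then len I' else 0) := by split_ifs <;> simp [l0]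
          linarith
        · have hss : iv I' ⊂ iv I := ⟨h, h'⟩
          rw [if_pos hss]
          have : 0 ≤ (if I' = I then len I' else 0) := by split_ifs <;> simp [l0]
          linarith
      · rw [if_neg h]
        have : 0 ≤ (if iv I' ⊂ iv I then len I' else 0) := by split_ifs <;> simp [l0]
        have : 0 ≤ (if I' = I then len I' else 0) := by split_ifs <;> simp [l0]
        linarith
    rw [Finset.sum_add_distrib, Finset.sum_ite_eq' T I, if_pos hI] at h2
    have h1' : ∑ I' ∈ T, (if iv I' ⊂ iv I then len I' else 0) ≤ C * t⁻¹ * len I := by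
      rw [← Finset.sum_filter]
      convert h1
    have hl := Growth.len_pos I
    nlinarith [mul_le_mul_of_nonneg_right hM1 hl.le]
  have hc' : ∑ I ∈ T, len I ≤ (2 * C * t⁻¹) * len J := by
    have h1 := hc J hT.top
    refine le_trans (le_of_eq (Finset.sum_congr rfl fun I hI => ?_)) h1
    rw [if_pos (hRJ I hI)]
  have hN := count_sqT (T := T) (J := J) (2 * C * t⁻¹) (by positivity) hc hc'
  -- total mass
  have hA : ∑ I ∈ T, ∑ y ∈ iv I, ‖E I y‖ ^ 2 ≤ 2 * C ^ 2 * len J := by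
    have h1 := hsq J hR.top
    have h2 : ∑ I ∈ T, ∑ y ∈ iv I, ‖E I y‖ ^ 2 ≤
        ∑ I ∈ T, ((if iv I ⊂ iv J then ∑ y ∈ iv I, ‖E I y‖ ^ 2 else 0) +
          (if I = J then ∑ y ∈ iv I, ‖E I y‖ ^ 2 else 0)) := by
      refine Finset.sum_le_sum fun I hI => ?_
      have l0 : 0 ≤ ∑ y ∈ iv I, ‖E I y‖ ^ 2 := by positivity
      by_cases h' : iv J ⊆ iv I
      · have e : I = J := Qe292.iv_antisymm (hRJ I hI) h'
        rw [if_pos e]
        have : 0 ≤ (if iv I ⊂ iv J then ∑ y ∈ iv I, ‖E I y‖ ^ 2 else 0) := by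
          split_ifs <;> simp [l0]
        linarith
      · have hss : iv I ⊂ iv J := ⟨hRJ I hI, h'⟩
        rw [if_pos hss]
        have : 0 ≤ (if I = J then ∑ y ∈ iv I, ‖E I y‖ ^ 2 else 0) := by split_ifs <;> simp [l0]
        linarith
    rw [Finset.sum_add_distrib, Finset.sum_ite_eq' T J, if_pos hT.top] at h2
    have h1' : ∑ I ∈ T, (if iv I ⊂ iv J then ∑ y ∈ iv I, ‖E I y‖ ^ 2 else 0) ≤ C * len J := by
      rw [← Finset.sum_filter]
      convert h1
    have h3 : ∑ y ∈ iv J, ‖E J y‖ ^ 2 ≤ C ^ 2 * len J := by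
      rw [← av_sq]
      have h4 := hav J hR.top
      have h5 : 0 ≤ av J (E J) := by unfold av av2; positivity
      have h6 : av J (E J) ^ 2 ≤ C ^ 2 := pow_le_pow_left₀ h5 h4 2
      nlinarith
    have h7 : C * len J ≤ C ^ 2 * len J := mul_le_mul_of_nonneg_right (by nlinarith) hlen.le
    nlinarith
  have hcard : ∀ y : ℤ, (((Finset.univ.filter fun w : {I // I ∈ T} =>
      y ∈ ((iv w.1 : Finset ℤ) : Set ℤ)).card : ℕ) : ℝ) = ∑ I ∈ T, (if y ∈ iv I then (1 : ℝ) else 0) := by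
    intro y
    rw [sum_card]
    simp only [Finset.mem_coe]
    exact Finset.sum_coe_sort T (fun I => if y ∈ iv I then (1 : ℝ) else 0)
  have hEc : ∀ (w : {I // I ∈ T}) (y : ℤ), y ∉ iv w.1 → Ec T E w y = 0 := by
    intro w y hy
    unfold Ec
    rw [if_neg hy]
  have h1 := avg_rpow (iv J) (Ec T E) (fun w => ((iv w.1 : Finset ℤ) : Set ℤ)) (C * t⁻¹) κ
    (2 * C ^ 2 * len J) (2 * (2 * C * t⁻¹) ^ 2 * len J) (by positivity) hκ0 hκ1 (fun w y => by
      by_cases h : y ∈ iv w.1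
      · simp only [Finset.mem_coe, h, if_true]
        unfold Ec
        rw [if_pos h]
        exact hsup w.1 (hT.sub w.2) y h
      · simp only [Finset.mem_coe, h, if_false]; rw [hEc w y h]; simp)
    (by
      rw [Finset.sum_comm]
      have h2 : ∀ w : {I // I ∈ T}, ∑ y ∈ iv J, ‖Ec T E w y‖ ^ 2 = ∑ y ∈ iv w.1, ‖E w.1 y‖ ^ 2 := by
        intro w
        rw [← Finset.sum_subset (hRJ w.1 w.2) fun y _ hy => by rw [hEc w y hy]; simp]
        refine Finset.sum_congr rfl fun y hy => ?_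
        unfold Ec
        rw [if_pos hy]
      rw [Finset.sum_congr rfl fun w _ => h2 w,
        Finset.sum_coe_sort T (fun I => ∑ y ∈ iv I, ‖E I y‖ ^ 2)]
      exact hA)
    (by
      rw [Finset.sum_congr rfl fun y _ => by rw [hcard y]]
      exact hN)
  refine h1.trans (le_of_eq ?_)
  congr 1
  rw [Real.mul_rpow (by positivity) hlen.le, Real.mul_rpow (by positivity) hlen.le]
  have e : len J = len J ^ (1 - κ) * len J ^ κ := by rw [← Real.rpow_add hlen]; simp
  calc _ = (C * t⁻¹) ^ (3 * κ) * ((2 * C ^ 2) ^ (1 - κ) * (2 * (2 * C * t⁻¹) ^ 2) ^ κ) *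
        (len J ^ (1 - κ) * len J ^ κ) := by ring
    _ = _ := by rw [← e]

/-- constant -/
noncomputable def cT (k C : ℝ) : ℝ :=
  C ^ (3 * (2 * k)) * ((2 * C ^ 2) ^ (1 - 2 * k) * (8 * C ^ 2) ^ (2 * k))

lemma pow_bound (k C t : ℝ) (hk : 0 < k) (hC : 1 ≤ C) (ht : 0 < t) :
    (C * t⁻¹) ^ (3 * (2 * k)) * ((2 * C ^ 2) ^ (1 - 2 * k) * (2 * (2 * C * t⁻¹) ^ 2) ^ (2 * k))
      = cT k C * t ^ (-(10 * k)) := by
  unfold cT
  have hC0 : 0 ≤ C := by linarith
  have e1 : (2 * (2 * C * t⁻¹) ^ 2) = (8 * C ^ 2) * (t⁻¹) ^ 2 := by ring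
  rw [e1, Real.mul_rpow hC0 (by positivity),
    Real.mul_rpow (x := 8 * C ^ 2) (y := (t⁻¹) ^ 2) (by positivity) (by positivity)]
  have e2 : (t⁻¹) ^ (3 * (2 * k)) * ((t⁻¹) ^ 2) ^ (2 * k) = t ^ (-(10 * k)) := by
    rw [← Real.rpow_natCast (t⁻¹) 2, ← Real.rpow_mul (by positivity),
      ← Real.rpow_add (by positivity), Real.inv_rpow ht.le, ← Real.rpow_neg ht.le]
    congr 1
    push_cast
    ring
  rw [← e2]
  ring

/-- power mean over the signs -/
lemma mean_le {ι : Type*} [Fintype ι] (r : ℝ) (hr : 1 ≤ r) (N X : ℝ) (hN : N = Fintype.card ι)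
    (hN0 : 0 < N) (v : ι → ℝ) (hv : ∀ a, 0 ≤ v a) (h : ∑ a, v a ^ r ≤ N * X) :
    (1 / N) * ∑ a, v a ≤ X ^ (1 / r) := by
  have hX0 : 0 ≤ X := by
    have h0 : 0 ≤ ∑ a, v a ^ r := Finset.sum_nonneg fun a _ => Real.rpow_nonneg (hv a) _
    exact nonneg_of_mul_nonneg_right (h0.trans h) hN0
  have h1 := Real.rpow_arith_mean_le_arith_mean_rpow (Finset.univ : Finset ι) (fun _ => 1 / N) v
    (fun _ _ => by positivity) (by
      rw [Finset.sum_const, nsmul_eq_mul, Finset.card_univ, ← hN]; field_simp) (fun a _ => hv a) hr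
  rw [← Finset.mul_sum, ← Finset.mul_sum] at h1
  have h2 : ((1 / N) * ∑ a, v a) ^ r ≤ X := by
    refine h1.trans ?_
    rw [one_div, inv_mul_le_iff₀ hN0]
    exact h
  have h0 : 0 ≤ (1 / N) * ∑ a, v a :=
    mul_nonneg (by positivity) (Finset.sum_nonneg fun a _ => hv a)
  have h3 := Real.rpow_le_rpow (Real.rpow_nonneg h0 _) h2 (by positivity : 0 ≤ 1 / r)
  rw [← Real.rpow_mul h0, mul_one_div_cancel (by linarith : r ≠ 0), Real.rpow_one] at h3
  exact h3

/-- **[T2b]** localisation of one static letter -/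
theorem loc_static (k : ℝ) (hk : 0 < k) (bb : ℤ) (i : Fin 4) (A : ℝ) (hA : 0 ≤ A) (hR : Full R J)
    (Y : Fin 4 → Nd → Fn) (ε : ℕ → ℤ → ℂ) (z : Fn)
    (hyp : ∀ R' J', Full R' J' → R' ⊆ R → ∀ w : Fn, (∀ p ∈ R', aq (2 + k) p w ≤ 1) →
      ‖TP bb ε R' (Function.update Y i (fun _ => w))‖ ≤ A * len J') :
    ‖TP bb ε R (Function.update Y i (fun _ => z))‖ ≤
      8 * TLoc13.lc (2 + k) (2 + 2 * k) * A * aq (2 + 2 * k) J z * len J := by
  have hvq : ∀ q p (f : Fn), TLoc13.vq q f p = aq q p f := fun q p f => rfl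
  have h := TLoc13.loc_one (q := 2 + k) (r := 2 + 2 * k) (by linarith) (by linarith) hR z
    (fun p => TI bb ε (fun j => (Function.update Y i (fun _ => z)) j p) p) A hA
    (fun W I hW hWR l hl hlev => by
      -- homogeneity, `l > 0` first
      have key : ∀ l' : ℝ, 0 < l' → l ≤ l' →
          ‖∑ p ∈ W, TI bb ε (fun j => (Function.update Y i (fun _ => z)) j p) p‖ ≤ A * l' * len I := by
        intro l' hl' hll
        have h1 := hyp W I hW hWR (fun y => ((l'⁻¹ : ℝ) : ℂ) * z y) (fun p hp => by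
          have h2 : aq (2 + k) p (fun y => ((l'⁻¹ : ℝ) : ℂ) * z y) = l'⁻¹ * aq (2 + k) p z := by
            unfold aq Lq853.avq
            have h3 : ∀ y, ‖((l'⁻¹ : ℝ) : ℂ) * z y‖ ^ (2 + k) = (l'⁻¹) ^ (2 + k) * ‖z y‖ ^ (2 + k) := by
              intro y
              rw [norm_mul, Complex.norm_real, Real.norm_of_nonneg (by positivity),
                Real.mul_rpow (by positivity) (norm_nonneg _)]
            rw [Finset.sum_congr rfl fun y _ => h3 y, ← Finset.mul_sum, ← mul_assoc,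
              mul_comm (1 / 2 ^ (p.1 + 7) : ℝ), mul_assoc,
              Real.mul_rpow (by positivity) (by positivity),
              ← Real.rpow_mul (by positivity), mul_one_div_cancel (by linarith : 2 + k ≠ 0),
              Real.rpow_one]
          rw [h2]
          have h4 := hlev p hp
          rw [hvq] at h4
          rw [inv_mul_le_iff₀ hl']
          linarith)
        have h5 : TP bb ε W (Function.update Y i (fun _ => fun y => ((l'⁻¹ : ℝ) : ℂ) * z y))
            = ((l'⁻¹ : ℝ) : ℂ) *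
              ∑ p ∈ W, TI bb ε (fun j => (Function.update Y i (fun _ => z)) j p) p := by
          unfold TP
          rw [Finset.mul_sum]
          refine Finset.sum_congr rfl fun p _ => ?_
          rw [upd_app, upd_app]
          have := (Lp bb ε (fun j => Y j p) i p).map_smul ((l'⁻¹ : ℝ) : ℂ) z
          rw [smul_eq_mul] at this
          exact this
        rw [h5, norm_mul, Complex.norm_real, Real.norm_of_nonneg (by positivity),
          inv_mul_le_iff₀ hl'] at h1
        calc _ ≤ _ := h1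
          _ = _ := by ring
      have hI := Growth.len_pos I
      refine le_of_forall_pos_le_add fun δ hδ => ?_
      rcases eq_or_lt_of_le hA with h0 | h0
      · have := key (l + 1) (by linarith) (by linarith)
        rw [← h0] at this ⊢
        simp only [zero_mul] at this ⊢
        linarith
      · have h6 := key (l + δ / (A * len I)) (by positivity) (by
          have : 0 < δ / (A * len I) := by positivity
          linarith)
        refine h6.trans (le_of_eq ?_)
        field_simp)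
  exact h

/-- **[T2] `ConvLem`** -/
theorem convLem : ConvLem := by
  classical
  intro k hk hk4 C hC
  refine ⟨8 * TLoc13.lc (2 + k) (2 + 2 * k) * cT k C ^ (1 / (2 + 2 * k)), ?_, ?_⟩
  · have hlc := TLoc13.lc_nonneg (q := 2 + k) (r := 2 + 2 * k) (by linarith) (by linarith)
    have : 0 ≤ cT k C := by unfold cT; positivity
    positivity
  intro bb i t A ht ht1 hA R J hR Y T E hT hE hav hsup hcnt hsq hyp ε hε
  have hlc := TLoc13.lc_nonneg (q := 2 + k) (r := 2 + 2 * k) (by linarith) (by linarith)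
  have hcT : 0 ≤ cT k C := by unfold cT; positivity
  have hlen := Growth.len_pos J
  set ι := {I // I ∈ T} with hι
  set r : ℝ := 2 + 2 * k with hr
  -- each signed letter
  have h1 : ∀ θ : Sg ι, ‖TP bb (eg T J ε θ) R (Function.update Y i (fun _ => zs (Ec T E) θ))‖
      ≤ 8 * TLoc13.lc (2 + k) r * A * aq r J (zs (Ec T E) θ) * len J := by
    intro θ
    exact loc_static k hk bb i A hA hR Y _ _ fun R' J' hR' hs w hw =>
      hyp (eg T J ε θ) ⟨hε.1, eg_le ε hε.2 θ⟩ R' J' hR' hs w hw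
  have h2 := norm_signs hR hT E C t (2 * k) hC ht ht1 (by linarith) (by linarith) hav hsup hcnt hsq
  rw [pow_bound k C t hk hC ht] at h2
  -- power mean
  have hN : ((2 : ℝ) ^ Fintype.card ι) = Fintype.card (Sg ι) := by
    simp [Sg]
  have h3 := mean_le (ι := Sg ι) r (by linarith) (2 ^ Fintype.card ι) (cT k C * t ^ (-(10 * k))) hN
    (by positivity) (fun θ => aq r J (zs (Ec T E) θ))
    (fun θ => Lq853.avq_nonneg _ _ _ _) (by
      have h4 : ∀ θ : Sg ι, aq r J (zs (Ec T E) θ) ^ r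
          = (1 / len J) * ∑ y ∈ iv J, ‖zs (Ec T E) θ y‖ ^ r := fun θ =>
        TLoc13.vq_rpow (r := r) (by linarith) (zs (Ec T E) θ) J
      rw [Finset.sum_congr rfl fun θ _ => h4 θ, ← Finset.mul_sum, one_div, inv_mul_le_iff₀ hlen]
      calc _ ≤ _ := h2
        _ = _ := by ring)
  rw [conv_tot hR hT bb hε.1 ε i Y E hE, norm_mul]
  have h5 : ‖(1 / (2 : ℂ) ^ Fintype.card ι)‖ = 1 / 2 ^ Fintype.card ι := by simp
  rw [h5]
  have h6 : (cT k C * t ^ (-(10 * k))) ^ (1 / r) ≤ cT k C ^ (1 / r) * t ^ (-(5 * k)) := by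
    rw [Real.mul_rpow hcT (by positivity), ← Real.rpow_mul ht.le]
    refine mul_le_mul_of_nonneg_left ?_ (by positivity)
    refine Real.rpow_le_rpow_of_exponent_ge ht ht1 ?_
    have hr2 : 2 ≤ r := by linarith
    have : 10 * k * (1 / r) ≤ 5 * k := by
      rw [mul_one_div, div_le_iff₀ (by linarith)]
      nlinarith
    linarith
  calc 1 / 2 ^ Fintype.card ι * ‖∑ θ : Sg ι, TP bb (eg T J ε θ) R
        (Function.update Y i (fun _ => zs (Ec T E) θ))‖
      ≤ 1 / 2 ^ Fintype.card ι * ∑ θ : Sg ι,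
          (8 * TLoc13.lc (2 + k) r * A * aq r J (zs (Ec T E) θ) * len J) :=
        mul_le_mul_of_nonneg_left ((norm_sum_le _ _).trans (Finset.sum_le_sum fun θ _ => h1 θ))
          (by positivity)
    _ = (8 * TLoc13.lc (2 + k) r * A * len J) *
          (1 / 2 ^ Fintype.card ι * ∑ θ : Sg ι, aq r J (zs (Ec T E) θ)) := by
        rw [← Finset.sum_mul, ← Finset.mul_sum]; ring
    _ ≤ (8 * TLoc13.lc (2 + k) r * A * len J) * (cT k C ^ (1 / r) * t ^ (-(5 * k))) :=
        mul_le_mul_of_nonneg_left (h3.trans h6) (by positivity)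
    _ = _ := by ring

end Crest.Agent.R079.TRec.T2
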