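import Crest.Agent.R079.Qe_292
import Crest.Agent.R079.L0e_292

/-! R079, leaf (Qf) of `QDefs_248` (helper248): from arbitrary to full regions (add the siblings,
coefficients `0` there). -/

set_option autoImplicit false

namespace Crest.Agent.R079.Qf248

open Finset Crest.Agent.R079.Grid Crest.Agent.R079.Growth Crest.Agent.R079.QRed
  Crest.Agent.R079.Qe292

open Classical in
/-- sibling closure -/
noncomputable def cl (R : Finset Nd) (J : Nd) : Finset Nd :=
  R ∪ (R.filter (fun p => p ≠ J)).image sib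

lemma mem_cl {R : Finset Nd} {J p : Nd} : p ∈ cl R J ↔ p ∈ R ∨ ∃ q ∈ R, q ≠ J ∧ sib q = p := by
  classical
  unfold cl
  rw [Finset.mem_union, Finset.mem_image]
  simp only [Finset.mem_filter, and_assoc]

lemma sub_cl (R : Finset Nd) (J : Nd) : R ⊆ cl R J := fun _ hp => mem_cl.2 (Or.inl hp)

lemma par_in {R : Finset Nd} {J : Nd} (hR : IsRegion R J) {q : Nd} (hq : q ∈ R) (hne : q ≠ J) :
    par q ∈ R := hR.2 q hq (par q) (iv_par q) (par_sub (hR.1 q hq) hne)

lemma full_cl {R : Finset Nd} {J : Nd} (hR : IsRegion R J) (hJ : J ∈ R) : Full (cl R J) J := by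
  have hsub : ∀ p ∈ cl R J, iv p ⊆ iv J := by
    intro p hp
    rcases mem_cl.1 hp with h | ⟨q, hq, hne, rfl⟩
    · exact hR.1 p h
    · have h1 := iv_par (sib q)
      rw [par_sib] at h1
      exact h1.trans (par_sub (hR.1 q hq) hne)
  refine ⟨⟨hsub, ?_⟩, sub_cl R J hJ, ?_⟩
  · intro p hp q hpq hqJ
    rcases mem_cl.1 hp with h | ⟨p', hp', hne, rfl⟩
    · exact sub_cl R J (hR.2 p h q hpq hqJ)
    · by_cases he : sib p' = q
      · rw [← he]; exact hp
      · have h1 : iv (par (sib p')) ⊆ iv q := par_sub hpq he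
        rw [par_sib] at h1
        exact sub_cl R J (hR.2 p' hp' q ((iv_par p').trans h1) hqJ)
  · refine bin_of ?_
    intro c hc hpc
    rcases mem_cl.1 hc with h | ⟨c', hc', hne, rfl⟩
    · have hne : c ≠ J := by
        rintro rfl
        have := iv_level (hsub _ hpc)
        simp only [par] at this
        omega
      exact mem_cl.2 (Or.inr ⟨c, h, hne, rfl⟩)
    · rw [sib_sib]
      exact sub_cl R J hc'

lemma av_sib_le {p : Nd} {f : Fn} {a : ℝ} (ha : 0 ≤ a) (h : av (par p) f ≤ a) :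
    av (sib p) f ≤ Real.sqrt 2 * a := by
  have h1 := L0e.av2_sq_succ (p.1 + 7) (p.2 / 2) f
  have h2 : av (par p) f = av2 (p.1 + 7 + 1) (p.2 / 2) f := by
    have e : p.1 + 1 + 7 = p.1 + 7 + 1 := by omega
    show av2 (p.1 + 1 + 7) (p.2 / 2) f = _
    rw [e]
  have h3 : av (sib p) f ^ 2 ≤ 2 * av (par p) f ^ 2 := by
    rw [h2, h1]
    rcases Int.emod_two_eq_zero_or_one p.2 with h | h
    · have e : av (sib p) f = av2 (p.1 + 7) (2 * (p.2 / 2) + 1) f := by
        unfold av sib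
        simp only
        rw [show 4 * (p.2 / 2) + 1 - p.2 = 2 * (p.2 / 2) + 1 by omega]
      rw [e]
      nlinarith [sq_nonneg (av2 (p.1 + 7) (2 * (p.2 / 2)) f)]
    · have e : av (sib p) f = av2 (p.1 + 7) (2 * (p.2 / 2)) f := by
        unfold av sib
        simp only
        rw [show 4 * (p.2 / 2) + 1 - p.2 = 2 * (p.2 / 2) by omega]
      rw [e]
      nlinarith [sq_nonneg (av2 (p.1 + 7) (2 * (p.2 / 2) + 1) f)]
  have h0 : 0 ≤ av (par p) f := av2_nonneg _ _ _
  refine abs_le_of_sq_le_sq' ?_ (by positivity) |>.2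
  rw [mul_pow, Real.sq_sqrt (by norm_num : (0 : ℝ) ≤ 2)]
  nlinarith

lemma av_cl_le {R : Finset Nd} {J : Nd} (hR : IsRegion R J) {f : Fn} {a : ℝ} (ha : 0 ≤ a)
    (h : ∀ p ∈ R, av p f ≤ a) : ∀ p ∈ cl R J, av p f ≤ Real.sqrt 2 * a := by
  intro p hp
  have h2 : (1 : ℝ) ≤ Real.sqrt 2 := Real.one_le_sqrt.2 (by norm_num)
  rcases mem_cl.1 hp with hp | ⟨q, hq, hne, rfl⟩
  · exact (h p hp).trans (by nlinarith)
  · exact av_sib_le ha (h _ (par_in hR hq hne))

lemma av_smul (p : Nd) (c : ℝ) (hc : 0 ≤ c) (f : Fn) :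
    av p (fun y => (c : ℂ) * f y) = c * av p f := by
  unfold av av2
  have e : ∀ y, ‖(c : ℂ) * f y‖ ^ 2 = c ^ 2 * ‖f y‖ ^ 2 := by
    intro y
    rw [norm_mul, Complex.norm_real, Real.norm_eq_abs, abs_of_nonneg hc, mul_pow]
  simp only [e]
  rw [← Finset.mul_sum, mul_left_comm, Real.sqrt_mul (sq_nonneg c), Real.sqrt_sq hc]

lemma Lbox_smul (N : ℕ) (b x : ℤ) (F : Fin 4 → ℤ → ℂ) (c : Fin 4 → ℂ) :
    Lbox N b (fun j y => c j * F j y) x = (∏ j, c j) * Lbox N b F x := by
  unfold Lbox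
  rw [Finset.mul_sum, Finset.mul_sum, Finset.mul_sum]
  refine Finset.sum_congr rfl fun u _ => ?_
  rw [Finset.prod_mul_distrib]
  ring

lemma TI_smul (b : ℤ) (ε : ℕ → ℤ → ℂ) (F : Fin 4 → ℤ → ℂ) (c : Fin 4 → ℂ) (p : Nd) :
    TI b ε (fun j y => c j * F j y) p = (∏ j, c j) * TI b ε F p := by
  unfold TI
  rw [Finset.mul_sum]
  refine Finset.sum_congr rfl fun x _ => ?_
  rw [Lbox_smul]
  ring

/-- **(Qf)** -/
theorem qf : Qf := by
  classical
  rintro ⟨C, hC, hB⟩
  refine ⟨4 * C, by positivity, ?_⟩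
  intro b hb ε hε R J hR F A hA hF
  rcases R.eq_empty_or_nonempty with rfl | hne
  · rw [Finset.sum_empty, norm_zero]
    exact mul_nonneg (by positivity) (Finset.prod_nonneg fun j _ => hA j)
  have hJ : J ∈ R := by
    obtain ⟨p, hp⟩ := hne
    exact hR.2 p hp J (hR.1 p hp) (Finset.Subset.refl _)
  have key : ∀ δ : ℝ, 0 < δ →
      ‖∑ p ∈ R, TI b ε F p‖ ≤ 4 * C * 2 ^ (J.1 + 7) * ∏ j, (A j + δ) := by
    intro δ hδ
    have hs : (0 : ℝ) < Real.sqrt 2 := Real.sqrt_pos.2 (by norm_num)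
    have hA' : ∀ j, 0 < A j + δ := fun j => by have := hA j; linarith
    set c : Fin 4 → ℝ := fun j => 1 / (Real.sqrt 2 * (A j + δ)) with hc
    have hcpos : ∀ j, 0 < c j := fun j => by
      have := hA' j
      rw [hc]; positivity
    have hloc : loc4 (cl R J) (fun j y => (c j : ℂ) * F j y) := by
      intro j p hp
      rw [av_smul p (c j) (hcpos j).le]
      have h1 := av_cl_le hR (hA' j).le (fun q hq => (hF j q hq).trans (by linarith)) p hp
      calc c j * av p (F j) ≤ c j * (Real.sqrt 2 * (A j + δ)) :=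
            mul_le_mul_of_nonneg_left h1 (hcpos j).le
        _ = 1 := by
            rw [hc]
            have := hA' j
            field_simp
    have hb' : BBn J.1 C := hB J.1
    have h1 := hb' b (L0e.epsR ε R) ⟨hb, L0e.epsR_le ε R hε⟩ (cl R J) J (full_cl hR hJ) le_rfl _ hloc
    have e1 : TR b (L0e.epsR ε R) (cl R J) (fun j y => (c j : ℂ) * F j y) =
        (∏ j, (c j : ℂ)) * ∑ p ∈ R, TI b ε F p := by
      unfold TR
      simp only [TI_smul b (L0e.epsR ε R) F (fun j => (c j : ℂ))]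
      rw [← Finset.mul_sum]
      congr 1
      rw [← Finset.sum_subset (sub_cl R J)]
      · refine Finset.sum_congr rfl fun p hp => ?_
        rw [L0e.TI_epsR, if_pos hp]
      · intro p _ hp
        rw [L0e.TI_epsR, if_neg hp]
    rw [e1, norm_mul, norm_prod] at h1
    have e2 : ∏ j, ‖((c j : ℝ) : ℂ)‖ = ∏ j, c j := by
      refine Finset.prod_congr rfl fun j _ => ?_
      rw [Complex.norm_real, Real.norm_eq_abs, abs_of_pos (hcpos j)]
    rw [e2] at h1
    have e3 : (∏ j, c j) * (4 * ∏ j, (A j + δ)) = 1 := by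
      rw [hc]
      simp only [Finset.prod_div_distrib, Finset.prod_mul_distrib, Finset.prod_const_one,
        Finset.prod_const, Finset.card_univ, Fintype.card_fin]
      have h4 : Real.sqrt 2 ^ 4 = 4 := by
        rw [show (4 : ℕ) = 2 * 2 by norm_num, pow_mul, Real.sq_sqrt (by norm_num)]
        norm_num
      rw [h4]
      have h5 : 0 < ∏ j, (A j + δ) := Finset.prod_pos fun j _ => hA' j
      field_simp
    have h6 : 0 ≤ 4 * ∏ j, (A j + δ) :=
      mul_nonneg (by norm_num) (Finset.prod_nonneg fun j _ => (hA' j).le)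
    calc ‖∑ p ∈ R, TI b ε F p‖
        = (4 * ∏ j, (A j + δ)) * ((∏ j, c j) * ‖∑ p ∈ R, TI b ε F p‖) := by
          rw [← mul_assoc, mul_comm (4 * ∏ j, (A j + δ)), e3, one_mul]
      _ ≤ (4 * ∏ j, (A j + δ)) * (C * len J) := mul_le_mul_of_nonneg_left h1 h6
      _ = _ := by unfold len; ring
  have hcont : Filter.Tendsto (fun δ : ℝ => 4 * C * 2 ^ (J.1 + 7) * ∏ j, (A j + δ))
      (nhdsWithin 0 (Set.Ioi 0)) (nhds (4 * C * 2 ^ (J.1 + 7) * ∏ j, (A j + 0))) := by
    refine Filter.Tendsto.mono_left ?_ nhdsWithin_le_nhds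
    refine (Continuous.tendsto ?_ 0)
    fun_prop
  simp only [add_zero] at hcont
  refine ge_of_tendsto hcont ?_
  filter_upwards [self_mem_nhdsWithin] with δ hδ
  exact key δ hδ

end Crest.Agent.R079.Qf248
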