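import Crest.Agent.R079.TDef_853
import Crest.Agent.R079.Qb_247
import Crest.Agent.R079.Qf_248
import Crest.Agent.R079.Qe_292

/-! R079, [T3] part a (helper351): local `L^q` averages (`aq`: homogeneity, Minkowski, interpolation),
linear algebra of the moving total form `TP`, SCALED rule (A), scaled `BN`, scaled `An`. -/

set_option autoImplicit false

namespace Crest.Agent.R079.TRec

namespace S351

open Finset Crest.Agent.R079.Grid Crest.Agent.R079.Growth Crest.Agent.R079.QRed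

/-! ### averages -/

lemma len_eq (p : Nd) : len p = 2 ^ (p.1 + 7) := rfl

lemma lpos (p : Nd) : 0 < len p := by unfold len; positivity

lemma av_sq351 (p : Nd) (X : Fn) : av p X ^ 2 = (1 / len p) * ∑ y ∈ iv p, ‖X y‖ ^ 2 := by
  unfold av av2 len iv
  rw [Real.sq_sqrt (mul_nonneg (by positivity) (Finset.sum_nonneg fun _ _ => sq_nonneg _))]

lemma aq_eq (q : ℝ) (p : Nd) (f : Fn) : aq q p f = ((1 / len p) * ∑ y ∈ iv p, ‖f y‖ ^ q) ^ (1 / q) := rfl

lemma aq_nonneg (q : ℝ) (p : Nd) (f : Fn) : 0 ≤ aq q p f := Lq853.avq_nonneg _ _ _ _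

lemma aq_congr {q : ℝ} {p : Nd} {f g : Fn} (h : ∀ y ∈ iv p, f y = g y) : aq q p f = aq q p g := by
  rw [aq_eq, aq_eq]
  congr 2
  exact Finset.sum_congr rfl fun y hy => by rw [h y hy]

lemma aq_smul {q : ℝ} (hq : 0 < q) (p : Nd) (c : ℝ) (hc : 0 ≤ c) (f : Fn) :
    aq q p (fun y => (c : ℂ) * f y) = c * aq q p f := by
  rw [aq_eq, aq_eq]
  have e : ∀ y, ‖(c : ℂ) * f y‖ ^ q = c ^ q * ‖f y‖ ^ q := by
    intro y
    rw [norm_mul, Complex.norm_real, Real.norm_eq_abs, abs_of_nonneg hc,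
      Real.mul_rpow hc (norm_nonneg _)]
  simp only [e]
  rw [← Finset.mul_sum, mul_left_comm, Real.mul_rpow (Real.rpow_nonneg hc _)
    (mul_nonneg (by have := lpos p; positivity)
      (Finset.sum_nonneg fun y _ => Real.rpow_nonneg (norm_nonneg _) _)),
    ← Real.rpow_mul hc, mul_one_div_cancel hq.ne', Real.rpow_one]

lemma aq_add {q : ℝ} (hq : 1 ≤ q) (p : Nd) (f g : Fn) :
    aq q p (fun y => f y + g y) ≤ aq q p f + aq q p g := by
  have hl := lpos p
  have hl' : 0 ≤ 1 / len p := by positivity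
  have hs : ∀ h : Fn, 0 ≤ ∑ y ∈ iv p, ‖h y‖ ^ q := fun h =>
    Finset.sum_nonneg fun y _ => Real.rpow_nonneg (norm_nonneg _) _
  rw [aq_eq, aq_eq, aq_eq, Real.mul_rpow hl' (hs _), Real.mul_rpow hl' (hs _),
    Real.mul_rpow hl' (hs _), ← mul_add]
  refine mul_le_mul_of_nonneg_left ?_ (Real.rpow_nonneg hl' _)
  have h1 : (∑ y ∈ iv p, ‖f y + g y‖ ^ q) ^ (1 / q) ≤
      (∑ y ∈ iv p, (‖f y‖ + ‖g y‖) ^ q) ^ (1 / q) := by
    refine Real.rpow_le_rpow (hs _) (Finset.sum_le_sum fun y _ => ?_) (by positivity)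
    exact Real.rpow_le_rpow (norm_nonneg _) (norm_add_le _ _) (by linarith)
  refine h1.trans ?_
  have h2 := Real.Lp_add_le_of_nonneg (s := iv p) (f := fun y => ‖f y‖) (g := fun y => ‖g y‖)
    (p := q) hq (fun _ _ => norm_nonneg _) (fun _ _ => norm_nonneg _)
  exact h2

lemma aq_neg (q : ℝ) (p : Nd) (f : Fn) : aq q p (fun y => - f y) = aq q p f := by
  rw [aq_eq, aq_eq]
  simp only [norm_neg]

lemma aq_sub {q : ℝ} (hq : 1 ≤ q) (p : Nd) (f g : Fn) :
    aq q p (fun y => f y - g y) ≤ aq q p f + aq q p g := by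
  have h := aq_add hq p f (fun y => - g y)
  rw [aq_neg] at h
  refine le_trans (le_of_eq ?_) h
  congr 1

/-- interpolation between the sup norm and the local `L²` average -/
lemma aq_interp {q s a : ℝ} (hq : 2 ≤ q) (hs : 0 < s) (p : Nd) (f : Fn)
    (hsup : ∀ y ∈ iv p, ‖f y‖ ≤ s) (hav : av p f ≤ a) (ha : 0 ≤ a) :
    aq q p f ≤ s ^ ((q - 2) / q) * a ^ (2 / q) := by
  have hl := lpos p
  have hq0 : 0 < q := by linarith
  rw [aq_eq]
  have h1 : ∑ y ∈ iv p, ‖f y‖ ^ q ≤ s ^ (q - 2) * ∑ y ∈ iv p, ‖f y‖ ^ 2 := by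
    rw [Finset.mul_sum]
    refine Finset.sum_le_sum fun y hy => ?_
    have e : ‖f y‖ ^ q = ‖f y‖ ^ (q - 2) * ‖f y‖ ^ 2 := by
      rcases (norm_nonneg (f y)).eq_or_lt with h | h
      · rw [← h, Real.zero_rpow hq0.ne']
        simp
      · rw [← Real.rpow_natCast ‖f y‖ 2, ← Real.rpow_add h]
        congr 1
        push_cast
        ring
    rw [e]
    exact mul_le_mul_of_nonneg_right (Real.rpow_le_rpow (norm_nonneg _) (hsup y hy) (by linarith))
      (by positivity)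
  have h2 : (1 / len p) * ∑ y ∈ iv p, ‖f y‖ ^ 2 ≤ a ^ 2 := by
    rw [← av_sq351]
    exact pow_le_pow_left₀ (by unfold av av2; positivity) hav 2
  have h3 : (1 / len p) * ∑ y ∈ iv p, ‖f y‖ ^ q ≤ s ^ (q - 2) * a ^ 2 := by
    calc (1 / len p) * ∑ y ∈ iv p, ‖f y‖ ^ q
        ≤ (1 / len p) * (s ^ (q - 2) * ∑ y ∈ iv p, ‖f y‖ ^ 2) :=
          mul_le_mul_of_nonneg_left h1 (by positivity)
      _ = s ^ (q - 2) * ((1 / len p) * ∑ y ∈ iv p, ‖f y‖ ^ 2) := by ring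
      _ ≤ _ := mul_le_mul_of_nonneg_left h2 (Real.rpow_nonneg hs.le _)
  have h0 : 0 ≤ (1 / len p) * ∑ y ∈ iv p, ‖f y‖ ^ q :=
    mul_nonneg (by positivity) (Finset.sum_nonneg fun y _ => Real.rpow_nonneg (norm_nonneg _) _)
  refine (Real.rpow_le_rpow h0 h3 (by positivity)).trans (le_of_eq ?_)
  rw [Real.mul_rpow (Real.rpow_nonneg hs.le _) (by positivity), ← Real.rpow_mul hs.le,
    ← Real.rpow_natCast a 2, ← Real.rpow_mul ha]
  congr 2
  · ring
  · push_cast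
    ring

/-! ### linear algebra of `TP` -/

lemma upd_eval (Y : Fin 4 → Nd → Fn) (i : Fin 4) (X : Nd → Fn) (p : Nd) :
    (fun j => Function.update Y i X j p) = Function.update (fun j => Y j p) i (X p) := by
  funext j
  by_cases h : j = i
  · subst h
    rw [Function.update_self, Function.update_self]
  · rw [Function.update_of_ne h, Function.update_of_ne h]

lemma TP_congr {bb : ℤ} (hbb : bb = -1 ∨ bb = -7) {ε : ℕ → ℤ → ℂ} {R : Finset Nd}
    {Y Z : Fin 4 → Nd → Fn} (h : ∀ p ∈ R, ∀ j, ∀ y ∈ iv p, Y j p y = Z j p y) :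
    TP bb ε R Y = TP bb ε R Z := by
  unfold TP
  refine Finset.sum_congr rfl fun p hp => ?_
  exact Qb247.TI_congr bb hbb ε _ _ p fun j y hy => h p hp j y hy

/-- two-term linearity -/
lemma TP_lin2 (bb : ℤ) (ε : ℕ → ℤ → ℂ) (R : Finset Nd) (Y : Fin 4 → Nd → Fn) (i : Fin 4)
    (x x1 x2 : Nd → Fn) (c1 c2 : ℂ) (h : ∀ p ∈ R, ∀ y, x p y = c1 * x1 p y + c2 * x2 p y) :
    TP bb ε R (Function.update Y i x) =
      c1 * TP bb ε R (Function.update Y i x1) + c2 * TP bb ε R (Function.update Y i x2) := by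
  unfold TP
  rw [Finset.mul_sum, Finset.mul_sum, ← Finset.sum_add_distrib]
  refine Finset.sum_congr rfl fun p hp => ?_
  rw [upd_eval, upd_eval, upd_eval]
  have h1 := Qb247.TI_update_sum bb ε (fun j => Y j p) i 2 ![x1 p, x2 p] ![c1, c2] p
  rw [Fin.sum_univ_two] at h1
  simp only [Matrix.cons_val_zero, Matrix.cons_val_one] at h1
  rw [← h1]
  congr 2
  funext y
  rw [Fin.sum_univ_two]
  simp only [Matrix.cons_val_zero, Matrix.cons_val_one]
  exact h p hp y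

lemma TP_add2 (bb : ℤ) (ε : ℕ → ℤ → ℂ) (R : Finset Nd) (Y : Fin 4 → Nd → Fn) (i : Fin 4)
    (x x1 x2 : Nd → Fn) (h : ∀ p ∈ R, ∀ y, x p y = x1 p y + x2 p y) :
    TP bb ε R (Function.update Y i x) =
      TP bb ε R (Function.update Y i x1) + TP bb ε R (Function.update Y i x2) := by
  rw [TP_lin2 bb ε R Y i x x1 x2 1 1 (fun p hp y => by rw [h p hp y]; ring), one_mul, one_mul]

lemma TP_sub2 (bb : ℤ) (ε : ℕ → ℤ → ℂ) (R : Finset Nd) (Y : Fin 4 → Nd → Fn) (i : Fin 4)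
    (x x1 x2 : Nd → Fn) (h : ∀ p ∈ R, ∀ y, x p y = x1 p y - x2 p y) :
    TP bb ε R (Function.update Y i x) =
      TP bb ε R (Function.update Y i x1) - TP bb ε R (Function.update Y i x2) := by
  rw [TP_lin2 bb ε R Y i x x1 x2 1 (-1) (fun p hp y => by rw [h p hp y]; ring)]
  ring

lemma TP_add3 (bb : ℤ) (ε : ℕ → ℤ → ℂ) (R : Finset Nd) (Y : Fin 4 → Nd → Fn) (i : Fin 4)
    (x x1 x2 x3 : Nd → Fn) (h : ∀ p ∈ R, ∀ y, x p y = x1 p y + x2 p y + x3 p y) :
    TP bb ε R (Function.update Y i x) =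
      TP bb ε R (Function.update Y i x1) + TP bb ε R (Function.update Y i x2)
        + TP bb ε R (Function.update Y i x3) := by
  rw [TP_add2 bb ε R Y i x (fun p y => x1 p y + x2 p y) x3 h,
    TP_add2 bb ε R Y i (fun p y => x1 p y + x2 p y) x1 x2 (fun _ _ _ => rfl)]

/-- four letters in the slots `a, b, m` and the rest -/
def q4 (a b m : Fin 4) (xa xb xm x3 : Nd → Fn) : Fin 4 → Nd → Fn :=
  fun j => if j = a then xa else if j = b then xb else if j = m then xm else x3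

/-- the slots -/
structure Sl (a b m : Fin 4) : Prop where
  ab : a ≠ b
  am : a ≠ m
  bm : b ≠ m
  a3 : a ≠ 3
  b3 : b ≠ 3
  m3 : m ≠ 3
  all : ∀ j, j = a ∨ j = b ∨ j = m ∨ j = 3

lemma exists_sl (m : Fin 4) (hm : m ≠ 3) : ∃ a b : Fin 4, Sl a b m := by
  fin_cases m
  · exact ⟨1, 2, by decide, by decide, by decide, by decide, by decide, by decide, by decide⟩
  · exact ⟨0, 2, by decide, by decide, by decide, by decide, by decide, by decide, by decide⟩
  · exact ⟨0, 1, by decide, by decide, by decide, by decide, by decide, by decide, by decide⟩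
  · exact absurd rfl hm

section q4
variable {a b m : Fin 4} (h : Sl a b m) (xa xb xm x3 : Nd → Fn)
include h

lemma q4_a : q4 a b m xa xb xm x3 a = xa := if_pos rfl

lemma q4_b : q4 a b m xa xb xm x3 b = xb := by
  unfold q4
  rw [if_neg h.ab.symm, if_pos rfl]

lemma q4_m : q4 a b m xa xb xm x3 m = xm := by
  unfold q4
  rw [if_neg h.am.symm, if_neg h.bm.symm, if_pos rfl]

lemma q4_3 : q4 a b m xa xb xm x3 3 = x3 := by
  unfold q4
  rw [if_neg h.a3.symm, if_neg h.b3.symm, if_neg h.m3.symm]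

lemma q4_ext {Y : Fin 4 → Nd → Fn} (ha : Y a = xa) (hb : Y b = xb) (hm : Y m = xm)
    (h3 : Y 3 = x3) : q4 a b m xa xb xm x3 = Y := by
  funext j
  rcases h.all j with rfl | rfl | rfl | rfl
  · rw [q4_a h, ha]
  · rw [q4_b h, hb]
  · rw [q4_m h, hm]
  · rw [q4_3 h, h3]

lemma upd_a (z : Nd → Fn) :
    Function.update (q4 a b m xa xb xm x3) a z = q4 a b m z xb xm x3 := by
  symm
  refine q4_ext h _ _ _ _ ?_ ?_ ?_ ?_
  · rw [Function.update_self]
  · rw [Function.update_of_ne h.ab.symm, q4_b h]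
  · rw [Function.update_of_ne h.am.symm, q4_m h]
  · rw [Function.update_of_ne h.a3.symm, q4_3 h]

lemma upd_b (z : Nd → Fn) :
    Function.update (q4 a b m xa xb xm x3) b z = q4 a b m xa z xm x3 := by
  symm
  refine q4_ext h _ _ _ _ ?_ ?_ ?_ ?_
  · rw [Function.update_of_ne h.ab, q4_a h]
  · rw [Function.update_self]
  · rw [Function.update_of_ne h.bm.symm, q4_m h]
  · rw [Function.update_of_ne h.b3.symm, q4_3 h]

lemma upd_m (z : Nd → Fn) :
    Function.update (q4 a b m xa xb xm x3) m z = q4 a b m xa xb z x3 := by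
  symm
  refine q4_ext h _ _ _ _ ?_ ?_ ?_ ?_
  · rw [Function.update_of_ne h.am, q4_a h]
  · rw [Function.update_of_ne h.bm, q4_b h]
  · rw [Function.update_self]
  · rw [Function.update_of_ne h.m3.symm, q4_3 h]

lemma upd_3 (z : Nd → Fn) :
    Function.update (q4 a b m xa xb xm x3) 3 z = q4 a b m xa xb xm z := by
  symm
  refine q4_ext h _ _ _ _ ?_ ?_ ?_ ?_
  · rw [Function.update_of_ne h.a3, q4_a h]
  · rw [Function.update_of_ne h.b3, q4_b h]
  · rw [Function.update_of_ne h.m3, q4_m h]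
  · rw [Function.update_self]

end q4

/-! ### scaling -/

lemma Fz_smul {D : Dict} {j : Fin 4} {t M : ℝ} {p : Nd} {f : Fn} (c : ℝ) (hc : 0 ≤ c)
    (h : Fz D j t M p f) : Fz D j t (c * M) p (fun y => (c : ℂ) * f y) := by
  obtain ⟨n, φ, d, h1, h2, h3⟩ := h
  refine ⟨n, φ, fun i => (c : ℂ) * d i, h1, fun y hy => ?_, ?_⟩
  · simp only
    rw [h2 y hy, Finset.mul_sum]
    exact Finset.sum_congr rfl fun i _ => by ring
  · calc ∑ i, ‖(c : ℂ) * d i‖ = c * ∑ i, ‖d i‖ := by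
          rw [Finset.mul_sum]
          refine Finset.sum_congr rfl fun i _ => ?_
          rw [norm_mul, Complex.norm_real, Real.norm_eq_abs, abs_of_nonneg hc]
      _ ≤ c * M := mul_le_mul_of_nonneg_left h3 hc

lemma Fz_mass {D : Dict} {j : Fin 4} {t M M' : ℝ} {p : Nd} {f : Fn} (hM : M ≤ M')
    (h : Fz D j t M p f) : Fz D j t M' p f := by
  obtain ⟨n, φ, d, h1, h2, h3⟩ := h
  exact ⟨n, φ, d, h1, h2, h3.trans hM⟩

lemma Fz_sub {D : Dict} {j : Fin 4} {t M M' : ℝ} {p : Nd} {f g : Fn}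
    (h : Fz D j t M p f) (h' : Fz D j t M' p g) : Fz D j t (M + M') p (fun y => f y - g y) := by
  obtain ⟨n, φ, d, h1, h2, h3⟩ := h
  obtain ⟨n', φ', d', h1', h2', h3'⟩ := h'
  refine ⟨n + n', Fin.append φ φ', Fin.append d (fun i => - d' i), ?_, ?_, ?_⟩
  · intro i
    refine Fin.addCases (fun i => ?_) (fun i => ?_) i
    · rw [Fin.append_left]; exact h1 i
    · rw [Fin.append_right]; exact h1' i
  · intro y hy
    rw [Fin.sum_univ_add]
    simp only [Fin.append_left, Fin.append_right, neg_mul, Finset.sum_neg_distrib]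
    rw [h2 y hy, h2' y hy]
    ring
  · rw [Fin.sum_univ_add]
    simp only [Fin.append_left, Fin.append_right, norm_neg]
    exact add_le_add h3 h3'

/-- frozen at parameter `t` ⟹ frozen at parameter `s ≤ t` -/
lemma Fz_mono {D : Dict} {sg : ℝ} (hD : Dic D sg) {j : Fin 4} {s t M : ℝ} (hs : 0 < s)
    (hst : s ≤ t) (ht : t ≤ 1) {p : Nd} {f : Fn} (h : Fz D j t M p f) : Fz D j s M p f := by
  obtain ⟨n, φ, d, h1, h2, h3⟩ := h
  choose φ' hφ' c hc0 hc1 he using fun i => hD.mono j s t hs hst ht (φ i) (h1 i)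
  refine ⟨n, φ', fun i => d i * (c i : ℂ), hφ', fun y hy => ?_, ?_⟩
  · rw [h2 y hy]
    refine Finset.sum_congr rfl fun i _ => ?_
    rw [he i]
    ring
  · refine (Finset.sum_le_sum fun i _ => ?_).trans h3
    rw [norm_mul, Complex.norm_real, Real.norm_eq_abs, abs_of_nonneg (hc0 i)]
    exact mul_le_of_le_one_right (norm_nonneg _) (hc1 i)

lemma Lv_le {D : Dict} {j : Fin 4} {t s s' : ℝ} {p : Nd} {g : Fn} (hs : s ≤ s')
    (h : Lv D j t s p g) : Lv D j t s' p g := fun φ hφ =>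
  (h φ hφ).trans (mul_le_mul_of_nonneg_right hs (lpos p).le)

/-- level at parameter `s` ⟹ level at parameter `t ≥ s` -/
lemma Lv_mono {D : Dict} {sg : ℝ} (hD : Dic D sg) {j : Fin 4} {s t M : ℝ} (hs : 0 < s)
    (hst : s ≤ t) (ht : t ≤ 1) (hM : 0 ≤ M) {p : Nd} {g : Fn} (h : Lv D j s M p g) :
    Lv D j t M p g := by
  intro φ hφ
  obtain ⟨φ', hφ', c, hc0, hc1, he⟩ := hD.mono j s t hs hst ht φ hφ
  have e : ∑ y ∈ iv p, g y * φ y = (c : ℂ) * ∑ y ∈ iv p, g y * φ' y := by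
    rw [he, Finset.mul_sum]
    exact Finset.sum_congr rfl fun y _ => by ring
  rw [e, norm_mul, Complex.norm_real, Real.norm_eq_abs, abs_of_nonneg hc0]
  have h1 := h φ' hφ'
  have h2 : 0 ≤ M * len p := mul_nonneg hM (lpos p).le
  calc c * ‖∑ y ∈ iv p, g y * φ' y‖ ≤ 1 * (M * len p) :=
        mul_le_mul hc1 h1 (norm_nonneg _) zero_le_one
    _ = M * len p := one_mul _

lemma Lv_smul {D : Dict} {j : Fin 4} {t M : ℝ} {p : Nd} {g : Fn} (c : ℝ) (hc : 0 ≤ c)
    (h : Lv D j t M p g) : Lv D j t (c * M) p (fun y => (c : ℂ) * g y) := by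
  intro φ hφ
  have e : ∑ y ∈ iv p, (c : ℂ) * g y * φ y = (c : ℂ) * ∑ y ∈ iv p, g y * φ y := by
    rw [Finset.mul_sum]
    exact Finset.sum_congr rfl fun y _ => by ring
  rw [e, norm_mul, Complex.norm_real, Real.norm_eq_abs, abs_of_nonneg hc, mul_assoc]
  exact mul_le_mul_of_nonneg_left (h φ hφ) hc

lemma Lv_sub {D : Dict} {j : Fin 4} {t M M' : ℝ} {p : Nd} {f g : Fn}
    (h : Lv D j t M p f) (h' : Lv D j t M' p g) : Lv D j t (M + M') p (fun y => f y - g y) := by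
  intro φ hφ
  have e : ∑ y ∈ iv p, (f y - g y) * φ y = ∑ y ∈ iv p, f y * φ y - ∑ y ∈ iv p, g y * φ y := by
    rw [← Finset.sum_sub_distrib]
    exact Finset.sum_congr rfl fun y _ => by ring
  rw [e, add_mul]
  exact (norm_sub_le _ _).trans (add_le_add (h φ hφ) (h' φ hφ))

lemma qx_pos {k q3 : ℝ} (hk : 0 < k) (hq : 2 < q3) (j : Fin 4) : 0 < qx k q3 j := by
  unfold qx
  split_ifs <;> linarith

/-- **SCALED RULE (A)** -/
lemma ruleA_scaled {D : Dict} {k q3 c0 c3 e t0 K : ℝ} (hk : 0 < k) (hq : 2 < q3)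
    (hA : RuleA D k q3 c0 c3 e t0 K) {N : ℕ} {B : ℝ} (hB0 : 0 ≤ B) (hB : BN k q3 N B)
    {t : ℝ} (ht : 0 < t) (htt : t ≤ t0) {bb : ℤ} {ε : ℕ → ℤ → ℂ} (hε : Adm bb ε)
    {W : Finset Nd} {I : Nd} (hW : Full W I) (hI : I.1 ≤ N) (F : Fin 4 → Fn)
    (α : Fin 4 → ℝ) (hα : ∀ j, 0 < α j) (hn : ∀ j, ∀ p ∈ W, aq (qx k q3 j) p (F j) ≤ α j)
    {i m : Fin 4} (him : i ≠ m) (hf : Fz D i (t ^ (1 + e)) (α i) I (F i))
    (hl : ∀ p ∈ W, Lv D m t (α m) p (F m)) :
    ‖TR bb ε W F‖ ≤ K * (1 + B) * (∏ j, α j) * t ^ (if m = 3 then c3 else c0) * len I := by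
  set G : Fin 4 → Fn := fun j y => (((α j)⁻¹ : ℝ) : ℂ) * F j y with hG
  have hα' : ∀ j, 0 ≤ (α j)⁻¹ := fun j => inv_nonneg.2 (hα j).le
  have h1 := hA N B hB0 hB t ht htt bb ε hε W I hW hI G (fun j p hp => by
      rw [hG]
      simp only
      rw [aq_smul (qx_pos hk hq j) p _ (hα' j)]
      rw [inv_mul_le_iff₀ (hα j), mul_one]
      exact hn j p hp) i m him
    (by
      have := Fz_smul ((α i)⁻¹) (hα' i) hf
      rwa [inv_mul_cancel₀ (hα i).ne'] at this)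
    (fun p hp => by
      have := Lv_smul ((α m)⁻¹) (hα' m) (hl p hp)
      rwa [inv_mul_cancel₀ (hα m).ne'] at this)
  have e : TR bb ε W F = ((∏ j, α j : ℝ) : ℂ) * TR bb ε W G := by
    unfold TR
    rw [Finset.mul_sum]
    refine Finset.sum_congr rfl fun p _ => ?_
    rw [hG, Qf248.TI_smul bb ε F (fun j => (((α j)⁻¹ : ℝ) : ℂ)) p, ← mul_assoc, ← Complex.ofReal_prod,
      ← Complex.ofReal_mul, ← Finset.prod_mul_distrib]
    have : ∏ j, α j * (α j)⁻¹ = 1 := Finset.prod_eq_one fun j _ => mul_inv_cancel₀ (hα j).ne'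
    rw [this, Complex.ofReal_one, one_mul]
  have hP : 0 ≤ ∏ j, α j := Finset.prod_nonneg fun j _ => (hα j).le
  rw [e, norm_mul, Complex.norm_real, Real.norm_eq_abs, abs_of_nonneg hP]
  calc (∏ j, α j) * ‖TR bb ε W G‖
      ≤ (∏ j, α j) * (K * (1 + B) * t ^ (if m = 3 then c3 else c0) * len I) :=
        mul_le_mul_of_nonneg_left h1 hP
    _ = _ := by ring

/-- **SCALED `BN`** -/
lemma BN_scaled {k q3 : ℝ} (hk : 0 < k) (hq : 2 < q3) {N : ℕ} {B : ℝ} (hB : BN k q3 N B) {bb : ℤ}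
    {ε : ℕ → ℤ → ℂ} (hε : Adm bb ε) {W : Finset Nd} {I : Nd} (hW : Full W I) (hI : I.1 ≤ N)
    (F : Fin 4 → Fn) (α : Fin 4 → ℝ) (hα : ∀ j, 0 < α j)
    (hn : ∀ j, ∀ p ∈ W, aq (qx k q3 j) p (F j) ≤ α j) :
    ‖TR bb ε W F‖ ≤ B * (∏ j, α j) * len I := by
  set G : Fin 4 → Fn := fun j y => (((α j)⁻¹ : ℝ) : ℂ) * F j y with hG
  have hα' : ∀ j, 0 ≤ (α j)⁻¹ := fun j => inv_nonneg.2 (hα j).le
  have h1 := hB bb ε hε W I hW hI G (fun j p hp => by
      rw [hG]
      simp only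
      rw [aq_smul (qx_pos hk hq j) p _ (hα' j)]
      rw [inv_mul_le_iff₀ (hα j), mul_one]
      exact hn j p hp)
  have e : TR bb ε W F = ((∏ j, α j : ℝ) : ℂ) * TR bb ε W G := by
    unfold TR
    rw [Finset.mul_sum]
    refine Finset.sum_congr rfl fun p _ => ?_
    rw [hG, Qf248.TI_smul bb ε F (fun j => (((α j)⁻¹ : ℝ) : ℂ)) p, ← mul_assoc, ← Complex.ofReal_prod,
      ← Complex.ofReal_mul, ← Finset.prod_mul_distrib]
    have : ∏ j, α j * (α j)⁻¹ = 1 := Finset.prod_eq_one fun j _ => mul_inv_cancel₀ (hα j).ne'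
    rw [this, Complex.ofReal_one, one_mul]
  have hP : 0 ≤ ∏ j, α j := Finset.prod_nonneg fun j _ => (hα j).le
  rw [e, norm_mul, Complex.norm_real, Real.norm_eq_abs, abs_of_nonneg hP]
  calc (∏ j, α j) * ‖TR bb ε W G‖
      ≤ (∏ j, α j) * (B * len I) := mul_le_mul_of_nonneg_left h1 hP
    _ = _ := by ring

/-- `TP` of static letters -/
lemma TP_static (bb : ℤ) (ε : ℕ → ℤ → ℂ) (R : Finset Nd) (F : Fin 4 → Fn) :
    TP bb ε R (fun j _ => F j) = TR bb ε R F := rfl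

lemma TP_smul (bb : ℤ) (ε : ℕ → ℤ → ℂ) (R : Finset Nd) (Y : Fin 4 → Nd → Fn) (c : Fin 4 → ℂ) :
    TP bb ε R (fun j p y => c j * Y j p y) = (∏ j, c j) * TP bb ε R Y := by
  unfold TP
  rw [Finset.mul_sum]
  exact Finset.sum_congr rfl fun p _ => Qf248.TI_smul bb ε (fun j => Y j p) c p

/-- **SCALED `An`**: static letters of norms `≤ α j` next to one windowed residual -/
lemma An_scaled {D : Dict} {k q3 sg c1 C : ℝ} (hk : 0 < k) (hq : 2 < q3) {N : ℕ} {t A : ℝ}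
    (hA : An D k q3 sg c1 C N t A) {bb : ℤ} {ε : ℕ → ℤ → ℂ} (hε : Adm bb ε) {R : Finset Nd}
    {J : Nd} (hR : Full R J) (hJ : J.1 ≤ N) {m : Fin 4} (hm : m ≠ 3) {T : Finset Nd} {G : Fn}
    {H E X : Nd → Fn} (hX : WRd D k q3 sg c1 C m t R J T G H E X) (F : Fin 4 → Fn)
    (α : Fin 4 → ℝ) (hα : ∀ j, 0 < α j) (hαm : α m = 1)
    (hn : ∀ j, j ≠ m → ∀ p ∈ R, aq (qx k q3 j) p (F j) ≤ α j) :
    ‖TP bb ε R (Function.update (fun j _ => F j) m X)‖ ≤ A * (∏ j, α j) * len J := by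
  set G' : Fin 4 → Fn := fun j y => (((α j)⁻¹ : ℝ) : ℂ) * F j y with hG
  have hα' : ∀ j, 0 ≤ (α j)⁻¹ := fun j => inv_nonneg.2 (hα j).le
  have h1 := hA bb ε hε R J hR hJ m hm T G H E X hX G' (fun j hj p hp => by
      rw [hG]
      simp only
      rw [aq_smul (qx_pos hk hq j) p _ (hα' j)]
      rw [inv_mul_le_iff₀ (hα j), mul_one]
      exact hn j hj p hp)
  have e : TP bb ε R (Function.update (fun j _ => G' j) m X) =
      ((∏ j, (α j)⁻¹ : ℝ) : ℂ) * TP bb ε R (Function.update (fun j _ => F j) m X) := by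
    rw [Complex.ofReal_prod, ← TP_smul]
    congr 1
    funext j p y
    by_cases hj : j = m
    · subst hj
      rw [Function.update_self, Function.update_self, hαm, inv_one, Complex.ofReal_one, one_mul]
    · rw [Function.update_of_ne hj, Function.update_of_ne hj]
  have hP : 0 < ∏ j, α j := Finset.prod_pos fun j _ => hα j
  rw [e, norm_mul, Complex.norm_real, Real.norm_eq_abs, Finset.prod_inv_distrib,
    abs_of_nonneg (inv_nonneg.2 hP.le), inv_mul_le_iff₀ hP] at h1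
  refine h1.trans (le_of_eq (by ring))

/-- level of the top node -/
lemma le_of_mem {R : Finset Nd} {J : Nd} (hR : Full R J) {p : Nd} (hp : p ∈ R) : p.1 ≤ J.1 :=
  Qe292.iv_level (hR.reg.1 p hp)

end S351

end Crest.Agent.R079.TRec
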