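import Crest.Agent.R079.AsmA_844
import Crest.Agent.R079.TS3a_351
import Crest.Agent.R079.TS2_815

/-! R079, doc 2541 (673) / 2531 Step I: ONE GENERATION in the `It260.Gen` form from TOTAL word bounds
(helper934).

`v4 bb ε F a b` is bilinear in the two free letters (`a ≠ b`).  `SpT` = splitting of two normalised
letters `X = g + P + e`, `Y = g' + P' + e'` on the windows of `T` (letters depend on the window), with
the totals of the words `(g + P, Y)`, `(X, g' + P')`, `(g + P, g' + P')` given separately. -/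

set_option autoImplicit false

namespace Crest.Agent.R079.GenT934

open Finset Crest.Agent.R079.Grid Crest.Agent.R079.Growth Crest.Agent.R079.QRed
open Crest.Agent.R079.TRec Crest.Agent.R079.AsmA844

/-- bilinear node form (arguments in the order of `It260`) -/
structure Bil (v : Fn → Fn → Nd → ℂ) : Prop where
  add1 : ∀ p X X' Y, v (fun y => X y + X' y) Y p = v X Y p + v X' Y p
  add2 : ∀ p X Y Y', v X (fun y => Y y + Y' y) p = v X Y p + v X Y' p
  smul1 : ∀ p (c : ℂ) X Y, v (fun y => c * X y) Y p = c * v X Y p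
  smul2 : ∀ p (c : ℂ) X Y, v X (fun y => c * Y y) p = c * v X Y p

theorem bil_v4 (bb : ℤ) (ε : ℕ → ℤ → ℂ) (F : Fin 4 → Fn) {a b : Fin 4} (hab : a ≠ b) :
    Bil (v4 bb ε F a b) where
  add1 p X X' Y := by
    unfold v4
    rw [Function.update_comm hab, Function.update_comm hab, Function.update_comm hab]
    have := (T2.Lp bb ε (Function.update F b Y) a p).map_add X X'
    exact this
  add2 p X Y Y' := (T2.Lp bb ε (Function.update F a X) b p).map_add Y Y'
  smul1 p c X Y := by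
    unfold v4
    rw [Function.update_comm hab, Function.update_comm hab]
    exact (T2.Lp bb ε (Function.update F b Y) a p).map_smul c X
  smul2 p c X Y := (T2.Lp bb ε (Function.update F a X) b p).map_smul c Y

/-- the size class scales -/
theorem Sm_smul {k : ℝ} (hk : 0 < k) {s : ℝ} {R : Finset Nd} {X Y : Fn} (h : Sm k s R X Y) {c : ℝ}
    (hc : 0 ≤ c) : Sm k (c * s) R (fun y => (c : ℂ) * X y) (fun y => (c : ℂ) * Y y) := by
  intro p hp
  have h1 := h p hp
  have hq : (0 : ℝ) < 2 + k := by linarith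
  rw [S351.aq_smul hq p c hc, S351.aq_smul hq p c hc]
  exact ⟨mul_le_mul_of_nonneg_left h1.1 hc, mul_le_mul_of_nonneg_left h1.2 hc⟩

/-- splitting of two normalised letters with TOTAL word bounds `κ`, window count `A`, new size `r` -/
def SpT (v : Fn → Fn → Nd → ℂ) (k : ℝ) (R0 : Finset Nd) (κ A r : ℝ) : Prop :=
  ∀ R I, Full R I → R ⊆ R0 → ∀ X Y, Sm k 1 R X Y →
    ∃ (T : Finset Nd) (G E G' E' : Nd → Fn), Tops R I T ∧ ∑ w ∈ T, len w ≤ A * len I ∧
      (∀ w ∈ T, ∀ y, X y = G w y + E w y) ∧ (∀ w ∈ T, ∀ y, Y y = G' w y + E' w y) ∧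
      (∀ w ∈ T, Sm k r (win R T w) (E w) (E' w)) ∧
      ‖∑ w ∈ T, ∑ p ∈ win R T w, v (G w) Y p‖ ≤ κ * len I ∧
      ‖∑ w ∈ T, ∑ p ∈ win R T w, v X (G' w) p‖ ≤ κ * len I ∧
      ‖∑ w ∈ T, ∑ p ∈ win R T w, v (G w) (G' w) p‖ ≤ κ * len I

/-- **ONE GENERATION** from total word bounds -/
theorem gen_of_total {v : Fn → Fn → Nd → ℂ} (hB : Bil v) {k : ℝ} (hk : 0 < k) {R0 : Finset Nd}
    {κ A r : ℝ} (h : SpT v k R0 κ A r) : It260.Gen v (Sm k) R0 (3 * κ) A r := by
  intro s hs R I hR hRR X Y hXY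
  have hsc : ∀ (Z : Fn), Z = fun y => (s : ℂ) * (((s⁻¹ : ℝ) : ℂ) * Z y) := by
    intro Z
    funext y
    have : (s : ℂ) * ((s⁻¹ : ℝ) : ℂ) = 1 := by
      push_cast
      exact mul_inv_cancel₀ (by exact_mod_cast hs.ne')
    rw [← mul_assoc, this, one_mul]
  have hN := Sm_smul hk hXY (inv_nonneg.2 hs.le)
  rw [inv_mul_cancel₀ hs.ne'] at hN
  set X' : Fn := fun y => ((s⁻¹ : ℝ) : ℂ) * X y with hX'
  set Y' : Fn := fun y => ((s⁻¹ : ℝ) : ℂ) * Y y with hY'
  obtain ⟨T, G, E, G', E', hT, hc, hGE, hGE', hE, w1, w2, w3⟩ := h R I hR hRR X' Y' hN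
  refine ⟨T, fun w y => (s : ℂ) * E w y, fun w y => (s : ℂ) * E' w y, hT, hc, fun w hw => ?_, ?_⟩
  · have h1 := Sm_smul hk (hE w hw) hs.le
    rw [mul_comm s r] at h1
    exact h1
  · have hvs : ∀ (Z Z' : Fn) (p : Nd), v (fun y => (s : ℂ) * Z y) (fun y => (s : ℂ) * Z' y) p =
        (s : ℂ) ^ 2 * v Z Z' p := by
      intro Z Z' p
      rw [hB.smul1, hB.smul2]
      ring
    have hXY' : ∀ p, v X Y p = (s : ℂ) ^ 2 * v X' Y' p := by
      intro p
      have e : v X Y p = v (fun y => (s : ℂ) * X' y) (fun y => (s : ℂ) * Y' y) p := by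
        conv_lhs => rw [hsc X, hsc Y]
      rw [e, hvs]
    have hsub2 : ∀ (Z Z' W : Fn) (p : Nd), v Z (fun y => Z' y - W y) p = v Z Z' p - v Z W p := by
      intro Z Z' W p
      have e : (fun y => Z' y - W y) = fun y => Z' y + (-1 : ℂ) * W y := by
        funext y; ring
      rw [e, hB.add2, hB.smul2 p (-1) Z W]
      ring
    have hsub1 : ∀ (Z Z' W : Fn) (p : Nd), v (fun y => Z' y - W y) Z p = v Z' Z p - v W Z p := by
      intro Z Z' W p
      have e : (fun y => Z' y - W y) = fun y => Z' y + (-1 : ℂ) * W y := by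
        funext y; ring
      rw [e, hB.add1, hB.smul1 p (-1) W Z]
      ring
    have hexp : ∀ w ∈ T, ∀ p, v X' Y' p =
        v (G w) Y' p + v X' (G' w) p - v (G w) (G' w) p + v (E w) (E' w) p := by
      intro w hw p
      have e1 : E w = fun y => X' y - G w y := by
        funext y; rw [hGE w hw y]; ring
      have e2 : E' w = fun y => Y' y - G' w y := by
        funext y; rw [hGE' w hw y]; ring
      have h3 : v (E w) (E' w) p = v X' Y' p - v X' (G' w) p - (v (G w) Y' p - v (G w) (G' w) p) := by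
        rw [e2, hsub2 (E w) Y' (G' w) p]
        rw [e1, hsub1 Y' X' (G w) p, hsub1 (G' w) X' (G w) p]
        ring
      rw [h3]
      ring
    have htot : ∑ p ∈ R, v X Y p = (s : ℂ) ^ 2 * ((∑ w ∈ T, ∑ p ∈ win R T w, v (G w) Y' p) +
        (∑ w ∈ T, ∑ p ∈ win R T w, v X' (G' w) p) -
        (∑ w ∈ T, ∑ p ∈ win R T w, v (G w) (G' w) p)) +
        ∑ w ∈ T, ∑ p ∈ win R T w, v (fun y => (s : ℂ) * E w y) (fun y => (s : ℂ) * E' w y) p := by
      rw [sum_windows hR hT, ← Finset.sum_add_distrib, ← Finset.sum_sub_distrib, Finset.mul_sum,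
        ← Finset.sum_add_distrib]
      refine Finset.sum_congr rfl fun w hw => ?_
      rw [← Finset.sum_add_distrib, ← Finset.sum_sub_distrib, Finset.mul_sum,
        ← Finset.sum_add_distrib]
      refine Finset.sum_congr rfl fun p _ => ?_
      rw [hXY' p, hexp w hw p, hvs]
      ring
    rw [htot]
    refine (norm_add_le _ _).trans (add_le_add ?_ (norm_sum_le _ _))
    rw [norm_mul, norm_pow, Complex.norm_real, Real.norm_of_nonneg hs.le]
    have h4 : ‖(∑ w ∈ T, ∑ p ∈ win R T w, v (G w) Y' p) +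
        (∑ w ∈ T, ∑ p ∈ win R T w, v X' (G' w) p) -
        (∑ w ∈ T, ∑ p ∈ win R T w, v (G w) (G' w) p)‖ ≤ 3 * κ * len I := by
      refine (norm_sub_le _ _).trans ?_
      have := norm_add_le (∑ w ∈ T, ∑ p ∈ win R T w, v (G w) Y' p)
        (∑ w ∈ T, ∑ p ∈ win R T w, v X' (G' w) p)
      linarith
    have h5 := mul_le_mul_of_nonneg_left h4 (sq_nonneg s)
    calc s ^ 2 * _ ≤ s ^ 2 * (3 * κ * len I) := h5
      _ = s ^ 2 * (3 * κ) * len I := by ring

/-- sums over windows of a word that splits into two -/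
theorem sum_win_add1 {v : Fn → Fn → Nd → ℂ} (hB : Bil v) (R T : Finset Nd) (g P : Nd → Fn) (Y : Nd → Fn) :
    ∑ w ∈ T, ∑ p ∈ win R T w, v (fun y => g w y + P w y) (Y w) p =
      (∑ w ∈ T, ∑ p ∈ win R T w, v (g w) (Y w) p) + ∑ w ∈ T, ∑ p ∈ win R T w, v (P w) (Y w) p := by
  rw [← Finset.sum_add_distrib]
  refine Finset.sum_congr rfl fun w _ => ?_
  rw [← Finset.sum_add_distrib]
  exact Finset.sum_congr rfl fun p _ => hB.add1 p _ _ _

theorem sum_win_add2 {v : Fn → Fn → Nd → ℂ} (hB : Bil v) (R T : Finset Nd) (g P : Nd → Fn) (X : Nd → Fn) :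
    ∑ w ∈ T, ∑ p ∈ win R T w, v (X w) (fun y => g w y + P w y) p =
      (∑ w ∈ T, ∑ p ∈ win R T w, v (X w) (g w) p) + ∑ w ∈ T, ∑ p ∈ win R T w, v (X w) (P w) p := by
  rw [← Finset.sum_add_distrib]
  refine Finset.sum_congr rfl fun w _ => ?_
  rw [← Finset.sum_add_distrib]
  exact Finset.sum_congr rfl fun p _ => hB.add2 p _ _ _

end Crest.Agent.R079.GenT934
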