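import Mathlib

/-!
# R079, S1: Whitney squares of a strip and gluing of block operator norms (helper881)

`OpF S T B s` : the matrix `B` has (unnormalised) operator norm `≤ s` on `S × T`.
`glue4` : four blocks with norm `≤ β` give norm `≤ 2 β`.  `Til P` : dyadic squares tiled by `P`-squares,
`op_til` : if all tiles of side `2^m` have norm `≤ s 2^m`, so has every tiled square.
`MaxIn E` : maximal dyadic squares inside `E` (a strip).  `AdmW E s B` : all maximal squares have norm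
`≤ s · side`.  `admW_glue` : `E = E₀ ∪ E₁` disjoint, `B = B₀` on `E₀`, `B = B₁` on `E₁` ⟹ admissible
for `E`, with the SAME constant.  `op_any` : the restriction to `E` has norm `≤ s · side` on EVERY
dyadic square that is not strictly inside a larger inner square.
-/

open scoped BigOperators ComplexConjugate

namespace Crest.Agent.R079.Glu4881

/-- operator norm `≤ s` on `S × T` -/
def OpF (S T : Finset ℤ) (B : ℤ → ℤ → ℂ) (s : ℝ) : Prop :=
  ∀ f : ℤ → ℂ, ∑ u ∈ S, ‖∑ v ∈ T, B u v * f v‖ ^ 2 ≤ s ^ 2 * ∑ v ∈ T, ‖f v‖ ^ 2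

theorem OpF.congr {S T : Finset ℤ} {B B' : ℤ → ℤ → ℂ} {s : ℝ} (h : OpF S T B s)
    (he : ∀ u ∈ S, ∀ v ∈ T, B u v = B' u v) : OpF S T B' s := by
  intro f
  refine le_trans (le_of_eq ?_) (h f)
  refine Finset.sum_congr rfl fun u hu => ?_
  congr 2
  exact Finset.sum_congr rfl fun v hv => by rw [he u hu v hv]

theorem OpF.mono {S T : Finset ℤ} {B : ℤ → ℤ → ℂ} {s s' : ℝ} (h : OpF S T B s) (hs : 0 ≤ s)
    (hss : s ≤ s') : OpF S T B s' := by
  intro f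
  refine (h f).trans (mul_le_mul_of_nonneg_right ?_ (Finset.sum_nonneg fun _ _ => sq_nonneg _))
  exact pow_le_pow_left₀ hs hss 2

theorem OpF.zero (S T : Finset ℤ) (s : ℝ) : OpF S T (fun _ _ => 0) s := by
  intro f
  simp only [zero_mul, Finset.sum_const_zero, norm_zero]
  have : (0 : ℝ) ≤ s ^ 2 * ∑ v ∈ T, ‖f v‖ ^ 2 :=
    mul_nonneg (sq_nonneg _) (Finset.sum_nonneg fun _ _ => sq_nonneg _)
  simpa using this

theorem norm_add_sq_le (a b : ℂ) : ‖a + b‖ ^ 2 ≤ 2 * (‖a‖ ^ 2 + ‖b‖ ^ 2) := by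
  have h := norm_add_le a b
  have h0 := norm_nonneg (a + b)
  nlinarith [sq_nonneg (‖a‖ - ‖b‖), norm_nonneg a, norm_nonneg b]

/-- two column blocks -/
theorem glue2 {S T₀ T₁ : Finset ℤ} (hT : Disjoint T₀ T₁) {B : ℤ → ℤ → ℂ} {β : ℝ}
    (h0 : OpF S T₀ B β) (h1 : OpF S T₁ B β) (f : ℤ → ℂ) :
    ∑ u ∈ S, ‖∑ v ∈ T₀ ∪ T₁, B u v * f v‖ ^ 2 ≤ 2 * β ^ 2 * ∑ v ∈ T₀ ∪ T₁, ‖f v‖ ^ 2 := by
  rw [Finset.sum_union hT]
  calc ∑ u ∈ S, ‖∑ v ∈ T₀ ∪ T₁, B u v * f v‖ ^ 2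
      ≤ ∑ u ∈ S, 2 * (‖∑ v ∈ T₀, B u v * f v‖ ^ 2 + ‖∑ v ∈ T₁, B u v * f v‖ ^ 2) := by
        refine Finset.sum_le_sum fun u _ => ?_
        rw [Finset.sum_union hT]
        exact norm_add_sq_le _ _
    _ = 2 * (∑ u ∈ S, ‖∑ v ∈ T₀, B u v * f v‖ ^ 2 + ∑ u ∈ S, ‖∑ v ∈ T₁, B u v * f v‖ ^ 2) := by
        rw [← Finset.mul_sum, Finset.sum_add_distrib]
    _ ≤ 2 * (β ^ 2 * ∑ v ∈ T₀, ‖f v‖ ^ 2 + β ^ 2 * ∑ v ∈ T₁, ‖f v‖ ^ 2) := by
        have a := h0 f
        have b := h1 f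
        linarith
    _ = _ := by ring

/-- four blocks of norm `≤ β` give norm `≤ 2 β` -/
theorem glue4 {S₀ S₁ T₀ T₁ : Finset ℤ} (hS : Disjoint S₀ S₁) (hT : Disjoint T₀ T₁)
    {B : ℤ → ℤ → ℂ} {β : ℝ} (h00 : OpF S₀ T₀ B β) (h01 : OpF S₀ T₁ B β) (h10 : OpF S₁ T₀ B β)
    (h11 : OpF S₁ T₁ B β) : OpF (S₀ ∪ S₁) (T₀ ∪ T₁) B (2 * β) := by
  intro f
  rw [Finset.sum_union hS]
  have a := glue2 hT h00 h01 f
  have b := glue2 hT h10 h11 f
  calc _ ≤ 2 * β ^ 2 * ∑ v ∈ T₀ ∪ T₁, ‖f v‖ ^ 2 + 2 * β ^ 2 * ∑ v ∈ T₀ ∪ T₁, ‖f v‖ ^ 2 :=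
        add_le_add a b
    _ = _ := by ring

/-- dyadic interval -/
noncomputable def D (m : ℕ) (a : ℤ) : Finset ℤ := Finset.Ico (a * 2 ^ m) ((a + 1) * 2 ^ m)

theorem D_succ (m : ℕ) (a : ℤ) : D (m + 1) a = D m (2 * a) ∪ D m (2 * a + 1) := by
  unfold D
  have h1 : a * 2 ^ (m + 1) = 2 * a * 2 ^ m := by ring
  have h2 : (a + 1) * 2 ^ (m + 1) = (2 * a + 1 + 1) * 2 ^ m := by ring
  rw [h1, h2]
  ext x
  simp only [Finset.mem_union, Finset.mem_Ico]
  have hp : (0 : ℤ) < 2 ^ m := by positivity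
  constructor
  · rintro ⟨h3, h4⟩
    by_cases h5 : x < (2 * a + 1) * 2 ^ m
    · left; exact ⟨h3, h5⟩
    · right; exact ⟨not_lt.1 h5, h4⟩
  · rintro (⟨h3, h4⟩ | ⟨h3, h4⟩)
    · exact ⟨h3, by nlinarith⟩
    · exact ⟨by nlinarith, h4⟩

theorem D_disj (m : ℕ) (a : ℤ) : Disjoint (D m (2 * a)) (D m (2 * a + 1)) := by
  unfold D
  rw [Finset.disjoint_left]
  intro x h1 h2
  rw [Finset.mem_Ico] at h1 h2
  exact absurd h1.2 (not_lt.2 h2.1)

theorem D_zero (a : ℤ) : D 0 a = {a} := by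
  unfold D
  ext x
  simp only [pow_zero, mul_one, Finset.mem_Ico, Finset.mem_singleton]
  omega

/-- dyadic squares `(m, a, b)` tiled by `P`-squares -/
inductive Til (P : ℕ → ℤ → ℤ → Prop) : ℕ → ℤ → ℤ → Prop
  | tile {m : ℕ} {a b : ℤ} : P m a b → Til P m a b
  | node {m : ℕ} {a b : ℤ} : Til P m (2 * a) (2 * b) → Til P m (2 * a) (2 * b + 1) →
      Til P m (2 * a + 1) (2 * b) → Til P m (2 * a + 1) (2 * b + 1) → Til P (m + 1) a b

/-- tiles with norm `≤ s · side` ⟹ tiled squares with norm `≤ s · side` -/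
theorem op_til {P : ℕ → ℤ → ℤ → Prop} {B : ℤ → ℤ → ℂ} {s : ℝ}
    (hP : ∀ m a b, P m a b → OpF (D m a) (D m b) B (s * 2 ^ m)) {m : ℕ} {a b : ℤ}
    (h : Til P m a b) : OpF (D m a) (D m b) B (s * 2 ^ m) := by
  induction h with
  | tile h => exact hP _ _ _ h
  | @node m a b _ _ _ _ i1 i2 i3 i4 =>
    rw [D_succ m a, D_succ m b]
    have h := glue4 (D_disj m a) (D_disj m b) i1 i2 i3 i4
    have e : 2 * (s * 2 ^ m) = s * 2 ^ (m + 1) := by ring
    rw [e] at h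
    exact h

/-- the square lies inside `E` -/
def Ins (E : Set (ℤ × ℤ)) (m : ℕ) (a b : ℤ) : Prop := ∀ u ∈ D m a, ∀ v ∈ D m b, (u, v) ∈ E

/-- the parent square -/
def parIns (E : Set (ℤ × ℤ)) (m : ℕ) (a b : ℤ) : Prop := Ins E (m + 1) (a / 2) (b / 2)

/-- maximal squares inside `E` -/
def MaxIn (E : Set (ℤ × ℤ)) (m : ℕ) (a b : ℤ) : Prop := Ins E m a b ∧ ¬ parIns E m a b

theorem Ins.mono {E E' : Set (ℤ × ℤ)} (h : E ⊆ E') {m : ℕ} {a b : ℤ} (hi : Ins E m a b) :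
    Ins E' m a b := fun u hu v hv => h (hi u hu v hv)

theorem div_two_even (a : ℤ) : (2 * a) / 2 = a := by omega
theorem div_two_odd (a : ℤ) : (2 * a + 1) / 2 = a := by omega

theorem Ins.child {E : Set (ℤ × ℤ)} {m : ℕ} {a b : ℤ} (h : Ins E (m + 1) a b) (i j : ℤ)
    (hi : i = 2 * a ∨ i = 2 * a + 1) (hj : j = 2 * b ∨ j = 2 * b + 1) : Ins E m i j := by
  intro u hu v hv
  refine h u ?_ v ?_
  · rw [D_succ, Finset.mem_union]
    rcases hi with rfl | rfl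
    · exact Or.inl hu
    · exact Or.inr hu
  · rw [D_succ, Finset.mem_union]
    rcases hj with rfl | rfl
    · exact Or.inl hv
    · exact Or.inr hv

/-- a square inside `E = E₀ ∪ E₁` whose parent is inside neither part is tiled by the maximal squares
of the two parts -/
theorem til_of_ins {E E₀ E₁ : Set (ℤ × ℤ)} (hE : E ⊆ E₀ ∪ E₁) : ∀ (m : ℕ) (a b : ℤ),
    Ins E m a b → ¬ parIns E₀ m a b → ¬ parIns E₁ m a b →
      Til (fun m a b => MaxIn E₀ m a b ∨ MaxIn E₁ m a b) m a b := by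
  intro m
  induction m with
  | zero =>
    intro a b hi h0 h1
    have hm : (a, b) ∈ E := hi a (by rw [D_zero]; exact Finset.mem_singleton_self a) b
      (by rw [D_zero]; exact Finset.mem_singleton_self b)
    have hp : ∀ F : Set (ℤ × ℤ), (a, b) ∈ F → Ins F 0 a b := by
      intro F hF u hu v hv
      rw [D_zero, Finset.mem_singleton] at hu hv
      rw [hu, hv]; exact hF
    rcases hE hm with h | h
    · exact Til.tile (Or.inl ⟨hp _ h, h0⟩)
    · exact Til.tile (Or.inr ⟨hp _ h, h1⟩)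
  | succ m ih =>
    intro a b hi h0 h1
    by_cases c0 : Ins E₀ (m + 1) a b
    · exact Til.tile (Or.inl ⟨c0, h0⟩)
    by_cases c1 : Ins E₁ (m + 1) a b
    · exact Til.tile (Or.inr ⟨c1, h1⟩)
    have key : ∀ i j : ℤ, (i = 2 * a ∨ i = 2 * a + 1) → (j = 2 * b ∨ j = 2 * b + 1) →
        Til (fun m a b => MaxIn E₀ m a b ∨ MaxIn E₁ m a b) m i j := by
      intro i j hi' hj'
      have ei : i / 2 = a := by rcases hi' with rfl | rfl <;> omega
      have ej : j / 2 = b := by rcases hj' with rfl | rfl <;> omega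
      refine ih i j (hi.child i j hi' hj') ?_ ?_
      · unfold parIns; rw [ei, ej]; exact c0
      · unfold parIns; rw [ei, ej]; exact c1
    exact Til.node (key _ _ (Or.inl rfl) (Or.inl rfl)) (key _ _ (Or.inl rfl) (Or.inr rfl))
      (key _ _ (Or.inr rfl) (Or.inl rfl)) (key _ _ (Or.inr rfl) (Or.inr rfl))

/-- Whitney-admissible kernels of a strip `E` -/
def AdmW (E : Set (ℤ × ℤ)) (s : ℝ) (B : ℤ → ℤ → ℂ) : Prop :=
  ∀ m a b, MaxIn E m a b → OpF (D m a) (D m b) B (s * 2 ^ m)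

/-- **GLUING, constant 1**: kernels admissible for the two parts glue to an admissible kernel -/
theorem admW_glue {E E₀ E₁ : Set (ℤ × ℤ)} (hE : E ⊆ E₀ ∪ E₁) (h0E : E₀ ⊆ E) (h1E : E₁ ⊆ E)
    {s : ℝ} {B B₀ B₁ : ℤ → ℤ → ℂ} (h0 : AdmW E₀ s B₀) (h1 : AdmW E₁ s B₁)
    (e0 : ∀ u v, (u, v) ∈ E₀ → B u v = B₀ u v) (e1 : ∀ u v, (u, v) ∈ E₁ → B u v = B₁ u v) :
    AdmW E s B := by
  intro m a b hm
  have ht := til_of_ins hE m a b hm.1 (fun h => hm.2 (h.mono h0E)) (fun h => hm.2 (h.mono h1E))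
  refine op_til ?_ ht
  rintro m a b (h | h)
  · exact (h0 m a b h).congr fun u hu v hv => (e0 u v (h.1 u hu v hv)).symm
  · exact (h1 m a b h).congr fun u hu v hv => (e1 u v (h.1 u hu v hv)).symm

/-- **any dyadic square** whose parent is not inside `E`: the kernel restricted to `E` (zero outside)
has norm `≤ s · side` -/
theorem op_any {E : Set (ℤ × ℤ)} {s : ℝ} {B : ℤ → ℤ → ℂ} (h : AdmW E s B)
    (hz : ∀ u v, (u, v) ∉ E → B u v = 0) : ∀ (m : ℕ) (a b : ℤ), ¬ parIns E m a b →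
      OpF (D m a) (D m b) B (s * 2 ^ m) := by
  intro m
  induction m with
  | zero =>
    intro a b hp
    by_cases hm : (a, b) ∈ E
    · refine h 0 a b ⟨?_, hp⟩
      intro u hu v hv
      rw [D_zero, Finset.mem_singleton] at hu hv
      rw [hu, hv]; exact hm
    · refine (OpF.zero (D 0 a) (D 0 b) _).congr ?_
      intro u hu v hv
      rw [D_zero, Finset.mem_singleton] at hu hv
      rw [hu, hv, hz a b hm]
  | succ m ih =>
    intro a b hp
    by_cases c : Ins E (m + 1) a b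
    · exact h (m + 1) a b ⟨c, hp⟩
    have key : ∀ i j : ℤ, (i = 2 * a ∨ i = 2 * a + 1) → (j = 2 * b ∨ j = 2 * b + 1) →
        OpF (D m i) (D m j) B (s * 2 ^ m) := by
      intro i j hi' hj'
      have ei : i / 2 = a := by rcases hi' with rfl | rfl <;> omega
      have ej : j / 2 = b := by rcases hj' with rfl | rfl <;> omega
      refine ih i j ?_
      unfold parIns; rw [ei, ej]; exact c
    have hg := glue4 (D_disj m a) (D_disj m b) (key _ _ (Or.inl rfl) (Or.inl rfl))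
      (key _ _ (Or.inl rfl) (Or.inr rfl)) (key _ _ (Or.inr rfl) (Or.inl rfl))
      (key _ _ (Or.inr rfl) (Or.inr rfl))
    have e : 2 * (s * 2 ^ m) = s * 2 ^ (m + 1) := by ring
    rw [← D_succ, ← D_succ, e] at hg
    exact hg

end Crest.Agent.R079.Glu4881
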