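import Crest.Agent.R079.ThQ_653
import Crest.Agent.R079.GLA_110

/-! R079, doc 2541 (5) x own-node penalties (helper653): graded windows with UNIFORM exit level.

`g` of a window = minimisers glued at the uniform exit level (full subtree of the top), `Ψ` = half
gradient of the penalty of the window top at `g`, `X - g - Ψ` small at every node of the window. -/

set_option autoImplicit false

namespace Crest.Agent.R079.GradV653

open Finset Crest.Agent.R079.Grid Crest.Agent.R079.Growth Crest.Agent.R079.QRed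
  Crest.Agent.R079.Qh249 Crest.Agent.R079.QVar181 Crest.Agent.R079.TWin
open Crest.Agent.R079.RelW653 (vl NMP Jv Dv av_par sum_av' lf_sum_eq')
open Crest.Agent.R079.RelV653 Crest.Agent.R079.GLA110

/-! ### the full subtree -/

/-- all nodes below `V` -/
noncomputable def Tr (V : Nd) : Finset Nd :=
  open Classical in (Finset.range (V.1 + 1)).biUnion fun m =>
    (Finset.Ico (V.2 * 2 ^ (V.1 - m)) ((V.2 + 1) * 2 ^ (V.1 - m))).image fun l => (m, l)

lemma mem_Tr {V q : Nd} : q ∈ Tr V ↔ iv q ⊆ iv V := by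
  classical
  unfold Tr
  rw [Finset.mem_biUnion, Qe292.iv_sub_iff]
  constructor
  · rintro ⟨m, hm, hq⟩
    obtain ⟨l, hl, rfl⟩ := Finset.mem_image.1 hq
    rw [Finset.mem_Ico] at hl
    rw [Finset.mem_range] at hm
    refine ⟨V.1 - m, Prod.ext ?_ ?_⟩
    · simp only; omega
    · simp only
      have hp : (0 : ℤ) < 2 ^ (V.1 - m) := by positivity
      refine le_antisymm ?_ ?_
      · exact (Int.le_ediv_iff_mul_le hp).2 hl.1
      · have := Int.ediv_lt_of_lt_mul hp hl.2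
        omega
  · rintro ⟨j, hj⟩
    have e1 : V.1 = q.1 + j := congrArg Prod.fst hj
    have e2 : V.2 = q.2 / 2 ^ j := congrArg Prod.snd hj
    have hp : (0 : ℤ) < 2 ^ j := by positivity
    refine ⟨q.1, Finset.mem_range.2 (by omega), Finset.mem_image.2 ⟨q.2, ?_, rfl⟩⟩
    rw [show V.1 - q.1 = j by omega, Finset.mem_Ico, e2]
    exact ⟨Int.ediv_mul_le _ hp.ne', Int.lt_ediv_add_one_mul_self _ hp⟩

lemma Tr_full (V : Nd) : Full (Tr V) V := by
  refine ⟨⟨fun p hp => mem_Tr.1 hp, fun p _ q _ h2 => mem_Tr.2 h2⟩, mem_Tr.2 subset_rfl,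
    fun m l h => ?_⟩
  have h1 := mem_Tr.1 h
  exact ⟨fun _ => mem_Tr.2 ((sub_ch1 m l).trans h1), fun _ => mem_Tr.2 ((sub_ch0 m l).trans h1)⟩

/-- the cylinder of the top `P` with uniform exit level `d` -/
noncomputable def Cy (V P : Nd) (d : ℕ) : Finset Nd := Wf (Tr V) P d

lemma Cy_full {V P : Nd} (hP : iv P ⊆ iv V) {d : ℕ} (hd : d ≤ P.1) : Full (Cy V P d) P :=
  Wf_full (Tr_full V) (mem_Tr.2 hP) hd

lemma mem_Cy {V P p : Nd} {d : ℕ} : p ∈ Cy V P d ↔ iv p ⊆ iv V ∧ iv p ⊆ iv P ∧ d ≤ p.1 := by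
  unfold Cy
  rw [mem_Wf, mem_Tr]

lemma Cy_inner {V P q : Nd} (hP : iv P ⊆ iv V) {d : ℕ} (hd : d ≤ P.1)
    (hq : q ∈ Cy V P d \ lf (Cy V P d)) : iv q ⊆ iv P ∧ d < q.1 := by
  rw [Finset.mem_sdiff] at hq
  obtain ⟨m, l, rfl, h0, -⟩ := children_mem (Cy_full hP hd) hq.1 hq.2
  have h1 := (mem_Cy.1 h0).2.2
  exact ⟨(mem_Cy.1 hq.1).2.1, by simp only at h1 ⊢; omega⟩

/-- the look-ahead drift dominates the increments over the cylinder -/
lemma SN_le_la {V P : Nd} (hP : iv P ⊆ iv V) {d : ℕ} (hd : d ≤ P.1) {F D : Nd → ℝ}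
    (hFD : ∀ q, F q ≤ D q) (hD : ∀ q, 0 ≤ D q) : SN (Cy V P d) P F ≤ la (Tr V) D P d := by
  classical
  rw [SN_top (Cy_full hP hd)]
  unfold la
  refine le_trans (Finset.sum_le_sum fun q _ =>
    mul_le_mul_of_nonneg_left (hFD q) (Growth.len_pos q).le) ?_
  refine Finset.sum_le_sum_of_subset_of_nonneg (fun q hq => ?_)
    fun q _ _ => mul_nonneg (Growth.len_pos q).le (hD q)
  have h := Cy_inner hP hd hq
  rw [Finset.mem_filter]
  exact ⟨mem_Tr.2 (h.1.trans hP), h⟩

section one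

variable {c : ℝ} {K : Nd → Fn → Prop} {Φ : Nd → Fn → ℝ} {X : Fn} {η : ℝ} {f : Nd → Fn}

/-- value of the glued function against the node value -/
lemma val_cy (hP : PenC c K Φ) {V P : Nd} (hPV : iv P ⊆ iv V) {d : ℕ}
    (hd : d ≤ P.1) {p : Nd} (hp : p ∈ Cy V P d) :
    len p * (vl Φ X p (gl (Cy V P d) f) - Jv Φ X f p + η)
      ≤ SN (Cy V P d) p (Inc (Jv Φ X f)) + len p * η := by
  have h1 := vl_gl (X := X) (f := f) hP (Cy_full hPV hd) p hp
  rw [SN_Inc (Cy_full hPV hd) _ p hp]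
  nlinarith [h1]

/-- value of the glued function, crude -/
lemma val_cy' (hP : PenC c K Φ) (h : NMP K Φ X η f) {V P : Nd} (hPV : iv P ⊆ iv V) {d : ℕ}
    (hd : d ≤ P.1) {p : Nd} (hp : p ∈ Cy V P d) :
    vl Φ X p (gl (Cy V P d) f) ≤ av p X ^ 2 + c + η := by
  have h1 := vl_gl (X := X) (f := f) hP (Cy_full hPV hd) p hp
  have h2 : SL (Cy V P d) p (Jv Φ X f) ≤ SL (Cy V P d) p (fun L => av L X ^ 2 + (c + η)) :=
    SL_mono fun L _ _ => by
      have := Jv_le hP h L
      linarith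
  rw [SL_add, SL_av (Cy_full hPV hd) X p hp, SL_const (Cy_full hPV hd) _ p hp] at h2
  have h3 : len p * vl Φ X p (gl (Cy V P d) f) ≤ len p * (av p X ^ 2 + c + η) := by linarith
  exact le_of_mul_le_mul_left h3 (Growth.len_pos p)

/-- total drift over the full subtree -/
lemma la_total (hP : PenC c K Φ) (h : NMP K Φ X η f) (V : Nd) (hX : av V X ≤ 1) :
    la (Tr V) (Dv (Jv Φ X f) η) V 0 ≤ len V * (1 + c + η * (1 + V.1)) := by
  classical
  have hTr := Tr_full V
  have e1 : la (Tr V) (Dv (Jv Φ X f) η) V 0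
      ≤ ∑ q ∈ Tr V \ lf (Tr V), len q * Dv (Jv Φ X f) η q := by
    unfold la
    refine Finset.sum_le_sum_of_subset_of_nonneg (fun q hq => ?_)
      fun q _ _ => mul_nonneg (Growth.len_pos q).le (Dv_nonneg hP h q)
    rw [Finset.mem_filter] at hq
    rw [Finset.mem_sdiff]
    refine ⟨hq.1, fun hl => ?_⟩
    obtain ⟨m, hm⟩ : ∃ m, q.1 = m + 1 := ⟨q.1 - 1, by omega⟩
    have hqe : q = (m + 1, q.2) := Prod.ext hm rfl
    have hc : iv (m, 2 * q.2) ⊆ iv q := by
      have := sub_ch0 m q.2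
      rwa [← hqe] at this
    have := (mem_lf.1 hl).2 (m, 2 * q.2) (mem_Tr.2 (hc.trans (mem_Tr.1 hq.1))) hc
    have h1 := congrArg Prod.fst this
    simp only at h1
    omega
  have h5 : ∑ q ∈ Tr V \ lf (Tr V), len q * Dv (Jv Φ X f) η q
      ≤ ∑ q ∈ Tr V \ lf (Tr V), (len q * Inc (Jv Φ X f) q + η * len q) := by
    refine Finset.sum_le_sum fun q _ => ?_
    have := mul_le_mul_of_nonneg_left (Dv_le_Inc (Jv Φ X f) η h.eta q) (Growth.len_pos q).le
    linarith
  rw [Finset.sum_add_distrib, ← Finset.mul_sum, ← SN_top hTr (Inc (Jv Φ X f)),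
    SN_Inc hTr _ V hTr.top] at h5
  have h4 := mul_le_mul_of_nonneg_left (len_lv hTr) h.eta
  have h6 : SL (Tr V) V (Jv Φ X f) ≤ SL (Tr V) V (fun L => av L X ^ 2 + (c + η)) :=
    SL_mono fun L _ _ => by
      have := Jv_le hP h L
      linarith
  rw [SL_add, SL_av hTr X V hTr.top, SL_const hTr _ V hTr.top] at h6
  have h7 : 0 ≤ len V * Jv Φ X f V := mul_nonneg (Growth.len_pos V).le (Jv_nonneg hP V)
  have h8 : av V X ^ 2 ≤ 1 := pow_le_one₀ (Growth.av_nonneg V _) hX
  have h9 := mul_le_mul_of_nonneg_left h8 (Growth.len_pos V).le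
  linarith


/-- energy of the error letter at a node, by the local drift -/
lemma err_drift (hP : PenC c K Φ) (h : NMP K Φ X η f) (hK : ∀ p g, K p g) {V P : Nd}
    (hPV : iv P ⊆ iv V) {d : ℕ} (hd : d ≤ P.1) {M : ℝ} (hM : 0 ≤ M) {Ψ : Nd → Fn → Fn}
    (hF : ∀ p g h, FV Φ p g (Ψ p g) M h) :
    len P * av P (fun y => X y - gl (Cy V P d) f y - Ψ P (gl (Cy V P d) f) y) ^ 2
      ≤ (1 + M) * (SN (Cy V P d) P (Inc (Jv Φ X f)) + len P * η) := by
  have h1 := el_node h P hM (hF P (gl (Cy V P d) f) _) (hK P _)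
  have h2 := val_cy (X := X) (f := f) (η := η) hP hPV hd (Cy_full hPV hd).top
  have h3 := mul_le_mul_of_nonneg_left h1 (Growth.len_pos P).le
  have h4 := mul_le_mul_of_nonneg_left h2 (by linarith : (0 : ℝ) ≤ 1 + M)
  linarith

/-- energy of the error letter at a node of the region, crude; the exit letters may come from a
larger cylinder -/
lemma err_crude (hP : PenC c K Φ) (h : NMP K Φ X η f) (hK : ∀ p g, K p g) {V P : Nd}
    (hPV : iv P ⊆ iv V) {d : ℕ} (hd : d ≤ P.1) {M : ℝ} (hM : 0 ≤ M) {Ψ : Nd → Fn → Fn}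
    (hF : ∀ p g h, FV Φ p g (Ψ p g) M h) {p : Nd} (hp : p ∈ Cy V P d) (hX : av p X ≤ 1) :
    av p (fun y => X y - gl (Cy V P d) f y - Ψ p (gl (Cy V P d) f) y) ^ 2
      ≤ (1 + M) * (1 + c + 2 * η) := by
  have h1 := el_node h p hM (hF p (gl (Cy V P d) f) _) (hK p _)
  have h2 := val_cy' hP h hPV hd hp
  have h3 := Jv_nonneg (X := X) (f := f) hP p
  have h4 : av p X ^ 2 ≤ 1 := pow_le_one₀ (Growth.av_nonneg p _) hX
  refine h1.trans (mul_le_mul_of_nonneg_left ?_ (by linarith))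
  linarith

end one

/-- restriction of a window to a region -/
lemma full_inter {R W : Finset Nd} {J T : Nd} (hR : Full R J) (hW : Full W T) (hT : T ∈ R) :
    Full (W ∩ R) T := by
  refine ⟨⟨fun p hp => hW.reg.1 p (Finset.mem_inter.1 hp).1, fun p hp q h1 h2 => ?_⟩,
    Finset.mem_inter.2 ⟨hW.top, hT⟩, fun m l hq => ?_⟩
  · have h := Finset.mem_inter.1 hp
    exact Finset.mem_inter.2 ⟨hW.reg.2 p h.1 q h1 h2, hR.reg.2 p h.2 q h1
      (h2.trans (hR.reg.1 T hT))⟩
  · have h := Finset.mem_inter.1 hq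
    have b1 := hW.bin m l h.1
    have b2 := hR.bin m l h.2
    constructor
    · intro hc
      have h' := Finset.mem_inter.1 hc
      exact Finset.mem_inter.2 ⟨b1.1 h'.1, b2.1 h'.2⟩
    · intro hc
      have h' := Finset.mem_inter.1 hc
      exact Finset.mem_inter.2 ⟨b1.2 h'.1, b2.2 h'.2⟩

lemma part_self {W : Finset Nd} {T : Nd} (hW : Full W T) : Part W {T} (fun _ => W) 1 := by
  classical
  refine ⟨Finset.singleton_subset_iff.2 hW.top, fun K hK => by rwa [Finset.mem_singleton.1 hK],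
    fun K _ => subset_rfl, fun K hK K' hK' hne => absurd
      ((Finset.mem_singleton.1 hK).trans (Finset.mem_singleton.1 hK').symm) hne,
    fun p hp => ⟨T, Finset.mem_singleton_self T, hp⟩, fun p hp => ?_⟩
  by_cases h : iv T ⊆ iv p
  · have : p = T := by
      have h2 := hW.reg.1 p hp
      have h3 : p.1 = T.1 := le_antisymm (Growth.iv_level h2) (Growth.iv_level h)
      exact eq_of_sub_level h2 h3
    rw [Finset.filter_singleton, if_pos h, Finset.sum_singleton, this, one_mul]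
  · rw [Finset.filter_singleton, if_neg h, Finset.sum_empty, one_mul]
    exact (Growth.len_pos p).le

/-- fiberwise counting of a refined family of tops -/
lemma sum_fib {S S' : Finset Nd} (T : Nd → Finset Nd) (par : Nd → Nd)
    (hpar : ∀ K' ∈ S', par K' ∈ S) (hT : ∀ K' ∈ S', K' ∈ T (par K')) (F : Nd → ℝ)
    (hF : ∀ K ∈ S, 0 ≤ F K) {B : ℝ} (hB : ∀ K ∈ S, ∑ K' ∈ T K, len K' ≤ B * len K) :
    ∑ K' ∈ S', len K' * F (par K') ≤ B * ∑ K ∈ S, len K * F K := by
  classical
  rw [← Finset.sum_fiberwise_of_maps_to (g := par) (t := S) hpar, Finset.mul_sum]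
  refine Finset.sum_le_sum fun K hK => ?_
  have e : ∑ K' ∈ S'.filter (fun K' => par K' = K), len K' * F (par K')
      = (∑ K' ∈ S'.filter (fun K' => par K' = K), len K') * F K := by
    rw [Finset.sum_mul]
    refine Finset.sum_congr rfl fun K' hK' => ?_
    rw [(Finset.mem_filter.1 hK').2]
  have h1 : ∑ K' ∈ S'.filter (fun K' => par K' = K), len K' ≤ ∑ K' ∈ T K, len K' := by
    refine Finset.sum_le_sum_of_subset_of_nonneg (fun K' hK' => ?_)
      fun q _ _ => (Growth.len_pos q).le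
    rw [Finset.mem_filter] at hK'
    have := hT K' hK'.1
    rwa [hK'.2] at this
  rw [e]
  have h2 := mul_le_mul_of_nonneg_right (h1.trans (hB K hK)) (hF K hK)
  linarith

section main

variable {c : ℝ} {ι : Type*} [Fintype ι] {K : ι → Nd → Fn → Prop} {Φ : ι → Nd → Fn → ℝ}
  {X : ι → Fn} {η : ℝ} {f : ι → Nd → Fn}

/-- the error letter of the window with top `P` (gradient), exit level `d` of the cylinder of
`P'` -/
noncomputable def Er (V : Nd) (X : ι → Fn) (f : ι → Nd → Fn) (Ψ : ι → Nd → Fn → Fn) (P' : Nd)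
    (d : ℕ) (P : Nd) (i : ι) : Fn :=
  fun y => X i y - gl (Cy V P' d) (f i) y - Ψ i P (gl (Cy V P' d) (f i)) y

/-- own drift of the whole family -/
noncomputable def DD (Φ : ι → Nd → Fn → ℝ) (X : ι → Fn) (η : ℝ) (f : ι → Nd → Fn) (q : Nd) : ℝ :=
  ∑ i, Dv (Jv (Φ i) (X i) (f i)) η q + η

lemma DD_nonneg (hP : ∀ i, PenC c (K i) (Φ i)) (hη : 0 ≤ η)
    (h : ∀ i, NMP (K i) (Φ i) (X i) η (f i)) (q : Nd) : 0 ≤ DD Φ X η f q :=
  add_nonneg (Finset.sum_nonneg fun i _ => Dv_nonneg (hP i) (h i) q) hη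

/-- energy of the error letters at the top of a cylinder -/
lemma er_top (hP : ∀ i, PenC c (K i) (Φ i)) (hK : ∀ i p g, K i p g) (hη : 0 ≤ η)
    (h : ∀ i, NMP (K i) (Φ i) (X i) η (f i)) {V P : Nd} (hPV : iv P ⊆ iv V) {d : ℕ}
    (hd : d < P.1) {M : ℝ} (hM : 0 ≤ M) {Ψ : ι → Nd → Fn → Fn}
    (hF : ∀ i p g h, FV (Φ i) p g (Ψ i p g) M h) :
    ∑ i, len P * av P (Er V X f Ψ P d P i) ^ 2
      ≤ (1 + M) * (1 + Fintype.card ι) * la (Tr V) (DD Φ X η f) P d := by
  classical
  have hDD := DD_nonneg hP hη h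
  have h1 : ∀ i, len P * av P (Er V X f Ψ P d P i) ^ 2
      ≤ (1 + M) * (SN (Cy V P d) P (Inc (Jv (Φ i) (X i) (f i))) + len P * η) := fun i =>
    err_drift (hP i) (h i) (hK i) hPV hd.le hM (hF i)
  have h2 : ∑ i, SN (Cy V P d) P (Inc (Jv (Φ i) (X i) (f i))) ≤ la (Tr V) (DD Φ X η f) P d := by
    have e : ∑ i, SN (Cy V P d) P (Inc (Jv (Φ i) (X i) (f i)))
        = SN (Cy V P d) P (fun q => ∑ i, Inc (Jv (Φ i) (X i) (f i)) q) := by
      unfold SN
      rw [Finset.sum_comm]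
      exact Finset.sum_congr rfl fun q _ => by rw [Finset.mul_sum]
    rw [e]
    refine SN_le_la hPV hd.le (fun q => ?_) hDD
    unfold DD
    have : ∑ i, Inc (Jv (Φ i) (X i) (f i)) q ≤ ∑ i, Dv (Jv (Φ i) (X i) (f i)) η q :=
      Finset.sum_le_sum fun i _ => Inc_le_Dv _ _ hη q
    linarith
  have h3 : len P * η ≤ la (Tr V) (DD Φ X η f) P d := by
    unfold la
    have hmem : P ∈ (Tr V).filter (fun q => iv q ⊆ iv P ∧ d < q.1) :=
      Finset.mem_filter.2 ⟨mem_Tr.2 hPV, subset_rfl, hd⟩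
    refine le_trans ?_ (Finset.single_le_sum (f := fun q => len q * DD Φ X η f q)
      (fun q _ => mul_nonneg (Growth.len_pos q).le (hDD q)) hmem)
    refine mul_le_mul_of_nonneg_left ?_ (Growth.len_pos P).le
    unfold DD
    have : 0 ≤ ∑ i, Dv (Jv (Φ i) (X i) (f i)) η P :=
      Finset.sum_nonneg fun i _ => Dv_nonneg (hP i) (h i) P
    linarith
  refine (Finset.sum_le_sum fun i _ => h1 i).trans ?_
  rw [← Finset.mul_sum, Finset.sum_add_distrib, Finset.sum_const, nsmul_eq_mul,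
    Finset.card_univ, mul_assoc]
  refine mul_le_mul_of_nonneg_left ?_ (by linarith)
  have h4 := mul_le_mul_of_nonneg_left h3 (Nat.cast_nonneg (α := ℝ) (Fintype.card ι))
  linarith

/-- total drift of the family -/
lemma DD_total (hP : ∀ i, PenC c (K i) (Φ i)) (hη : 0 ≤ η)
    (h : ∀ i, NMP (K i) (Φ i) (X i) η (f i)) (V : Nd) (hX : ∀ i, av V (X i) ≤ 1)
    (hsm : (Fintype.card ι + 1) * (η * (1 + V.1)) ≤ 1) :
    la (Tr V) (DD Φ X η f) V 0 ≤ len V * (Fintype.card ι * (1 + c) + 1) := by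
  classical
  have e : la (Tr V) (DD Φ X η f) V 0
      = ∑ i, la (Tr V) (Dv (Jv (Φ i) (X i) (f i)) η) V 0 + la (Tr V) (fun _ => η) V 0 := by
    unfold la DD
    rw [Finset.sum_comm, ← Finset.sum_add_distrib]
    refine Finset.sum_congr rfl fun q _ => ?_
    rw [← Finset.mul_sum]
    ring
  have h1 : ∑ i, la (Tr V) (Dv (Jv (Φ i) (X i) (f i)) η) V 0
      ≤ ∑ _i : ι, len V * (1 + c + η * (1 + V.1)) :=
    Finset.sum_le_sum fun i _ => la_total (hP i) (h i) V (hX i)
  rw [Finset.sum_const, nsmul_eq_mul, Finset.card_univ] at h1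
  have h2 : la (Tr V) (fun _ => η) V 0 ≤ len V * (η * V.1) := by
    have h3 : la (Tr V) (fun _ => η) V 0 ≤ ∑ q ∈ Tr V \ lf (Tr V), len q * η := by
      unfold la
      refine Finset.sum_le_sum_of_subset_of_nonneg (fun q hq => ?_)
        fun q _ _ => mul_nonneg (Growth.len_pos q).le hη
      rw [Finset.mem_filter] at hq
      rw [Finset.mem_sdiff]
      refine ⟨hq.1, fun hl => ?_⟩
      obtain ⟨m, hm⟩ : ∃ m, q.1 = m + 1 := ⟨q.1 - 1, by omega⟩
      have hqe : q = (m + 1, q.2) := Prod.ext hm rfl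
      have hc : iv (m, 2 * q.2) ⊆ iv q := by
        have := sub_ch0 m q.2
        rwa [← hqe] at this
      have := (mem_lf.1 hl).2 (m, 2 * q.2) (mem_Tr.2 (hc.trans (mem_Tr.1 hq.1))) hc
      have h1 := congrArg Prod.fst this
      simp only at h1
      omega
    rw [← Finset.sum_mul] at h3
    have h4 := mul_le_mul_of_nonneg_right (len_lv (Tr_full V)) hη
    linarith
  rw [e]
  have hL := Growth.len_pos V
  have h5 := mul_le_mul_of_nonneg_left hsm hL.le
  have h6 : (0 : ℝ) ≤ len V * η := mul_nonneg hL.le hη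
  nlinarith [h1, h2, h5, h6]


lemma part_mono {R S : Finset Nd} {W : Nd → Finset Nd} {C C' : ℝ} (h : Part R S W C)
    (hC : C ≤ C') : Part R S W C' :=
  ⟨h.sub, h.full, h.wsub, h.disj, h.cover, fun p hp => (h.cnt p hp).trans
    (mul_le_mul_of_nonneg_right hC (Growth.len_pos p).le)⟩

lemma one_le_len (p : Nd) : (1 : ℝ) ≤ len p := by
  unfold len
  exact_mod_cast Nat.one_le_two_pow

/-- restriction of a partition of the full subtree to a region -/
lemma part_inter {R : Finset Nd} {V : Nd} (hR : Full R V) {S : Finset Nd} {W : Nd → Finset Nd}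
    {C : ℝ} (h : Part (Tr V) S W C) :
    Part R (S ∩ R) (fun K => W K ∩ R) (∑ K ∈ S, len K) := by
  classical
  refine ⟨Finset.inter_subset_right, fun K hK => full_inter hR
    (h.full K (Finset.mem_inter.1 hK).1) (Finset.mem_inter.1 hK).2, fun K _ =>
    Finset.inter_subset_right, fun K hK K' hK' hne => (h.disj K (Finset.mem_inter.1 hK).1 K'
    (Finset.mem_inter.1 hK').1 hne).mono Finset.inter_subset_left Finset.inter_subset_left,
    fun p hp => ?_, fun p _ => ?_⟩
  · obtain ⟨K, hK, hpK⟩ := h.cover p (mem_Tr.2 (hR.reg.1 p hp))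
    have h1 := (h.full K hK).reg.1 p hpK
    have h2 := mem_Tr.1 (h.sub hK)
    exact ⟨K, Finset.mem_inter.2 ⟨hK, hR.reg.2 p hp K h1 h2⟩, Finset.mem_inter.2 ⟨hpK, hp⟩⟩
  · have h1 : ∑ K ∈ (S ∩ R).filter (fun K => iv K ⊆ iv p), len K ≤ ∑ K ∈ S, len K :=
      Finset.sum_le_sum_of_subset_of_nonneg
        ((Finset.filter_subset _ _).trans Finset.inter_subset_left)
        fun K _ _ => (Growth.len_pos K).le
    have h3 : 0 ≤ ∑ K ∈ S, len K := Finset.sum_nonneg fun K _ => (Growth.len_pos K).le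
    nlinarith [one_le_len p]

/-- **GRADED WINDOWS WITH UNIFORM EXIT LEVEL for a family of own-node penalties.**
For a top `K'`: `par K'` = top of the cylinder whose exit minimisers are glued, `dp (par K')` = its
uniform exit level, `lv` = grade. -/
theorem graded_windows {R : Finset Nd} {V : Nd} (hR : Full R V) (hc : 0 ≤ c)
    (hP : ∀ i, PenC c (K i) (Φ i)) (hK : ∀ i p g, K i p g) (hX : ∀ i, ∀ p ∈ R, av p (X i) ≤ 1)
    {M : ℝ} (hM : 0 ≤ M) (Ψ : ι → Nd → Fn → Fn) (hF : ∀ i p g h, FV (Φ i) p g (Ψ i p g) M h)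
    {θ lam : ℝ} (hθ : 0 < θ) (h1lam : 1 < lam) (hlam : (1 + M) * (1 + Fintype.card ι) ≤ lam)
    (n : ℕ) (hη : 0 < η) (hsm : (Fintype.card ι + 1) * (η * (1 + V.1)) ≤ 1)
    (hηθ : (1 + M) * (1 + Fintype.card ι) * η ≤ θ) (h : ∀ i, NMP (K i) (Φ i) (X i) η (f i)) :
    ∃ (S : Finset Nd) (W : Nd → Finset Nd) (par : Nd → Nd) (lv dp : Nd → ℕ) (C : ℝ),
      Part R S W C ∧
      (∀ K' ∈ S, par K' ∈ R ∧ K' ∈ Cy V (par K') (dp (par K')) ∧
        W K' ⊆ Cy V (par K') (dp (par K')) ∧ dp (par K') ≤ (par K').1 ∧ lv (par K') ≤ n ∧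
        la (Tr V) (DD Φ X η f) (par K') (dp (par K'))
          ≤ lam ^ (lv (par K')) * θ * len (par K') ∧
        (lv (par K') < n → par K' = K' ∧ ∀ p ∈ W K', ∀ i,
          av p (Er V X f Ψ K' (dp K') K' i) ^ 2 ≤ lam ^ (lv K' + 1) * θ) ∧
        (lv (par K') = n → ∀ p ∈ W K', ∀ i,
          av p (Er V X f Ψ (par K') (dp (par K')) K' i) ^ 2
            ≤ 4 * (Fintype.card ι + 1) * ((1 + M) * (1 + c + 2 * η)))) ∧
      ∑ K' ∈ S, len K' * (lam ^ (lv (par K')) * θ)
        ≤ 2 * (As (2 * ((1 + M) * (1 + Fintype.card ι)) + 1) n *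
          (θ * len V + len V * (Fintype.card ι * (1 + c) + 1))) := by
  classical
  have hD := DD_nonneg (X := X) (f := f) hP hη.le h
  have hlam0 : 0 < lam := by linarith
  set Cd : ℝ := (1 + M) * (1 + Fintype.card ι) with hCd
  have hCd0 : 0 ≤ Cd := by positivity
  let dev : Nd → ℕ → Nd → ℝ := fun P d p =>
    if p ∈ R ∧ d < P.1 then min (∑ i, av p (Er V X f Ψ P d P i) ^ 2) (lam ^ (n + 1) * θ) else 0
  have hsq : ∀ P d p, 0 ≤ ∑ i, av p (Er V X f Ψ P d P i) ^ 2 := fun P d p =>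
    Finset.sum_nonneg fun i _ => sq_nonneg _
  have hTop : (0 : ℝ) ≤ lam ^ (n + 1) * θ := by positivity
  have h0 : ∀ P d p, 0 ≤ dev P d p := by
    intro P d p
    show 0 ≤ if p ∈ R ∧ d < P.1 then _ else _
    split_ifs
    · exact le_min (hsq P d p) hTop
    · exact le_rfl
  have h1 : ∀ P ∈ Tr V, ∀ d ≤ P.1, ∀ A ⊆ Wf (Tr V) P d,
      (∀ c ∈ A, ∀ c' ∈ A, c ≠ c' → Disjoint (iv c) (iv c')) →
      ∑ p ∈ A, len p * dev P d p ≤ Cd * la (Tr V) (DD Φ X η f) P d := by
    intro P hPV d hd A hA hdis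
    rcases hd.lt_or_eq with hlt | heq
    · have e1 := er_top hP hK hη.le h (mem_Tr.1 hPV) hlt hM hF
      refine le_trans ?_ e1
      have e2 : ∑ p ∈ A, len p * dev P d p
          ≤ ∑ p ∈ A, ∑ i, len p * av p (Er V X f Ψ P d P i) ^ 2 := by
        refine Finset.sum_le_sum fun p _ => ?_
        rw [← Finset.mul_sum]
        refine mul_le_mul_of_nonneg_left ?_ (Growth.len_pos p).le
        show (if p ∈ R ∧ d < P.1 then _ else _) ≤ _
        split_ifs
        · exact min_le_left _ _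
        · exact hsq P d p
      refine e2.trans ?_
      rw [Finset.sum_comm]
      refine Finset.sum_le_sum fun i _ => ?_
      have e3 : ∑ p ∈ A, len p * av p (Er V X f Ψ P d P i) ^ 2
          = ∑ y ∈ A.biUnion iv, ‖Er V X f Ψ P d P i y‖ ^ 2 := by
        rw [Finset.sum_biUnion (fun c hc c' hc' hne => hdis c (by exact_mod_cast hc) c'
          (by exact_mod_cast hc') hne)]
        exact Finset.sum_congr rfl fun p _ => (sum_av' p _).symm
      rw [e3, ← sum_av']
      refine Finset.sum_le_sum_of_subset_of_nonneg ?_ fun y _ _ => sq_nonneg _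
      exact Finset.biUnion_subset.2 fun p hp => (mem_Wf.1 (hA hp)).2.1
    · have e2 : ∑ p ∈ A, len p * dev P d p = 0 := by
        refine Finset.sum_eq_zero fun p _ => ?_
        have : dev P d p = 0 := by
          show (if p ∈ R ∧ d < P.1 then _ else _) = _
          rw [if_neg (fun hh => absurd hh.2 (by omega))]
        rw [this, mul_zero]
      rw [e2]
      exact mul_nonneg hCd0 (la_nonneg hD P d)
  have h2 : ∀ P ∈ Tr V, ∀ d ≤ P.1, ∀ p ∈ Wf (Tr V) P d, dev P d p ≤ lam ^ (n + 1) * θ := by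
    intro P _ d _ p _
    show (if p ∈ R ∧ d < P.1 then _ else _) ≤ _
    split_ifs
    · exact min_le_right _ _
    · exact hTop
  obtain ⟨S0, V0, lv, dp, hPt0, hprop, hsum, -⟩ := graded (Tr_full V) hD hCd0 hθ h1lam.le hlam h0 h1
    n h2
  have hPt1 := part_inter hR hPt0
  -- second step at the top grade
  set ε : ℝ := (1 + M) * (1 + c + 2 * η) with hε
  have hε0 : 0 < ε := by positivity
  have hcrude : ∀ T ∈ S0, ∀ i, ∀ p ∈ V0 T ∩ R, av p (Er V X f Ψ T (dp T) p i) ^ 2 ≤ ε := by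
    intro T hT i p hp
    have hp' := Finset.mem_inter.1 hp
    exact err_crude (hP i) (h i) (hK i) (mem_Tr.1 (hPt0.sub hT)) (hprop T hT).1 hM (hF i)
      ((hprop T hT).2.1 hp'.1) (hX i p hp'.2)
  have hex : ∀ T : Nd, ∃ (S1 : Finset Nd) (V1 : Nd → Finset Nd), T ∈ S0 ∩ R →
      (Part (V0 T ∩ R) S1 V1 2 ∧ (lv T < n → S1 = {T} ∧ V1 T = V0 T ∩ R) ∧
        (lv T = n → ∀ T' ∈ S1, ∀ p ∈ V1 T', ∀ i, av p (Er V X f Ψ T (dp T) T' i) ^ 2
          ≤ 4 * (Fintype.card ι + 1) * ε)) := by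
    intro T
    by_cases hT : T ∈ S0 ∩ R
    · by_cases hl : lv T = n
      · obtain ⟨S1, V1, h6, h7⟩ := exists_elwin (hPt1.full T hT)
          (fun i p => Er V X f Ψ T (dp T) p i) hε0 (hcrude T (Finset.mem_inter.1 hT).1)
        exact ⟨S1, V1, fun _ => ⟨h6, fun hh => absurd hl hh.ne, fun _ => h7⟩⟩
      · exact ⟨{T}, fun _ => V0 T ∩ R, fun _ => ⟨part_mono (part_self (hPt1.full T hT))
          (by norm_num), fun _ => ⟨rfl, rfl⟩, fun hh => absurd hh hl⟩⟩
    · exact ⟨∅, fun _ => ∅, fun hh => absurd hh hT⟩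
  choose S1 V1 hSV using hex
  obtain ⟨S', W', h6, h7⟩ := refine_part hR (by norm_num) hPt1 S1 V1 fun T hT => (hSV T hT).1
  choose! par hpar1 hpar2 hpar3 hpar4 using h7
  refine ⟨S', W', par, lv, dp, _, h6, fun K' hK' => ?_, ?_⟩
  · have hp1 := Finset.mem_inter.1 (hpar1 K' hK')
    have hpr := hprop (par K') hp1.1
    have hKm : K' ∈ V0 (par K') ∩ R := (hSV _ (hpar1 K' hK')).1.sub (hpar2 K' hK')
    refine ⟨hp1.2, hpr.2.1 (Finset.mem_inter.1 hKm).1, fun q hq =>
      hpr.2.1 (Finset.mem_inter.1 (hpar4 K' hK' hq)).1, hpr.1, hpr.2.2.2.2, hpr.2.2.1,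
      fun hl => ?_, fun hl p hp i => ?_⟩
    · have hs := (hSV _ (hpar1 K' hK')).2.1 hl
      have e : par K' = K' := by
        have := hpar2 K' hK'
        rw [hs.1, Finset.mem_singleton] at this
        exact this.symm
      refine ⟨e, fun p hp i => ?_⟩
      have hp' := hpar4 K' hK' hp
      rw [e] at hp' hpr hl hp1
      have hpR := (Finset.mem_inter.1 hp').2
      have hpV := (Finset.mem_inter.1 hp').1
      have hle : av p (Er V X f Ψ K' (dp K') K' i) ^ 2
          ≤ ∑ i, av p (Er V X f Ψ K' (dp K') K' i) ^ 2 :=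
        Finset.single_le_sum (f := fun i => av p (Er V X f Ψ K' (dp K') K' i) ^ 2)
          (fun i _ => sq_nonneg _) (Finset.mem_univ i)
      rcases hpr.1.lt_or_eq with hlt | heq
      · have hd := hpr.2.2.2.1 p hpV
        have e2 : dev K' (dp K') p
            = min (∑ i, av p (Er V X f Ψ K' (dp K') K' i) ^ 2) (lam ^ (n + 1) * θ) := by
          show (if p ∈ R ∧ dp K' < K'.1 then _ else _) = _
          rw [if_pos ⟨hpR, hlt⟩]
        rw [e2] at hd
        have hlt2 : lam ^ (lv K' + 1) * θ < lam ^ (n + 1) * θ :=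
          mul_lt_mul_of_pos_right (pow_lt_pow_right₀ h1lam (by omega)) hθ
        rcases min_le_iff.1 hd with h8 | h8
        · exact hle.trans h8
        · exact absurd h8 (not_le.2 hlt2)
      · -- trivial cylinder
        have hpW := hpr.2.1 hpV
        have hpe : p = K' := by
          have h8 := mem_Wf.1 hpW
          have h9 := Growth.iv_level h8.2.1
          exact eq_of_sub_level h8.2.1 (by omega)
        have hKV : iv K' ⊆ iv V := mem_Tr.1 (hPt0.sub hp1.1)
        have h8 := err_drift (hP i) (h i) (hK i) hKV heq.le hM (hF i)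
        have hleaf : K' ∈ lf (Cy V K' (dp K')) := by
          refine mem_lf.2 ⟨(Cy_full hKV heq.le).top, fun q hq hqs => ?_⟩
          have h10 := mem_Cy.1 hq
          have h11 := Growth.iv_level hqs
          exact eq_of_sub_level hqs (by omega)
        rw [SN_leaf hleaf, zero_add] at h8
        have h9 : av K' (Er V X f Ψ K' (dp K') K' i) ^ 2 ≤ (1 + M) * η := by
          have hL := Growth.len_pos K'
          have h10 : len K' * av K' (Er V X f Ψ K' (dp K') K' i) ^ 2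
              ≤ len K' * ((1 + M) * η) := by
            have : len K' * av K' (Er V X f Ψ K' (dp K') K' i) ^ 2
              ≤ (1 + M) * (len K' * η) := h8
            linarith
          exact le_of_mul_le_mul_left h10 hL
        rw [hpe]
        refine h9.trans ?_
        have h12 : (1 + M) * η ≤ Cd * η := by
          refine mul_le_mul_of_nonneg_right ?_ hη.le
          rw [hCd]
          have : (0 : ℝ) ≤ Fintype.card ι := Nat.cast_nonneg _
          nlinarith
        have h13 : (1 : ℝ) ≤ lam ^ (lv K' + 1) := one_le_pow₀ h1lam.le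
        have h14 : θ ≤ lam ^ (lv K' + 1) * θ := by nlinarith
        linarith
    · rw [hpar3 K' hK'] at hp
      exact (hSV _ (hpar1 K' hK')).2.2 hl K' (hpar2 K' hK') p hp i
  · have hfib := sum_fib S1 par hpar1 hpar2 (fun K => lam ^ (lv K) * θ)
      (fun K _ => by positivity) (B := 2)
      (fun K hK => cnt_top (hPt1.full K hK) (hSV K hK).1)
    refine hfib.trans (mul_le_mul_of_nonneg_left ?_ (by norm_num))
    have h8 : ∑ K ∈ S0 ∩ R, len K * (lam ^ (lv K) * θ) ≤ ∑ K ∈ S0, len K * (lam ^ (lv K) * θ) :=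
      Finset.sum_le_sum_of_subset_of_nonneg Finset.inter_subset_left
        fun K _ _ => mul_nonneg (Growth.len_pos K).le (by positivity)
    refine h8.trans (hsum.trans ?_)
    refine mul_le_mul_of_nonneg_left ?_ (As_nonneg (by positivity) n)
    have h9 := DD_total (f := f) hP hη.le h V (fun i => hX i V hR.top) hsm
    linarith

end main

end Crest.Agent.R079.GradV653
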