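import Mathlib

/-!
# R079 (helper923): GROTHENDIECK'S INEQUALITY (finite, complex, absolute constant 98)

`groth`: if `|∑ A i j a_i b_j| ≤ t` for all `|a|, |b| ≤ 1` (cut / `∞ → 1` level), then
`|∑ A i j ⟨x_i, y_j⟩| ≤ 98 t` for all families of vectors with `∑_l |x i l|² ≤ 1`, `∑_l |y j l|² ≤ 1`
(any finite label set).  Proof: random signs, truncation at height `7`, absorption.
-/

set_option autoImplicit false
set_option linter.unusedSectionVars false

namespace Crest.Agent.R079.Gro923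

open Finset

/-- a sign -/
def sg (b : Bool) : ℂ := if b then 1 else -1

lemma sg_not (b : Bool) : sg (!b) = -sg b := by cases b <;> simp [sg]

lemma sg_cases (b : Bool) : sg b = 1 ∨ sg b = -1 := by cases b <;> simp [sg]

section moments

variable {L : Type} [Fintype L] [DecidableEq L]

/-- flip of the coordinate `l` -/
def fl (l : L) (σ : L → Bool) : L → Bool := Function.update σ l (!(σ l))

lemma fl_fl (l : L) (σ : L → Bool) : fl l (fl l σ) = σ := by
  unfold fl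
  ext k
  by_cases h : k = l
  · subst h; simp
  · simp [Function.update_of_ne h]

lemma fl_same (l : L) (σ : L → Bool) : fl l σ l = !(σ l) := by simp [fl]

lemma fl_ne {l k : L} (h : k ≠ l) (σ : L → Bool) : fl l σ k = σ k := by
  simp [fl, Function.update_of_ne h]

/-- flip as an equivalence -/
def flE (l : L) : (L → Bool) ≃ (L → Bool) := ⟨fl l, fl l, fl_fl l, fl_fl l⟩

/-- partial sum of a random sign series -/
noncomputable def rs (s : Finset L) (x : L → ℂ) (σ : L → Bool) : ℂ := ∑ l ∈ s, sg (σ l) * x l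

lemma rs_flip {s : Finset L} {l : L} (h : l ∉ s) (x : L → ℂ) (σ : L → Bool) :
    rs s x (fl l σ) = rs s x σ := by
  unfold rs
  refine Finset.sum_congr rfl fun k hk => ?_
  rw [fl_ne (fun e => h (by rw [← e]; exact hk))]

lemma rs_insert {s : Finset L} {l : L} (h : l ∉ s) (x : L → ℂ) (σ : L → Bool) :
    rs (insert l s) x σ = sg (σ l) * x l + rs s x σ := by
  unfold rs
  rw [Finset.sum_insert h]

/-- averaging over a flip -/
lemma sum_flip {M : Type} [AddCommMonoid M] (l : L) (F : (L → Bool) → M) :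
    ∑ σ, F (fl l σ) = ∑ σ, F σ := Equiv.sum_comp (flE l) F

/-- second (mixed) moment -/
theorem moment2 (x y : L → ℂ) (s : Finset L) :
    ∑ σ : L → Bool, rs s x σ * rs s y σ = (Fintype.card (L → Bool) : ℂ) * ∑ l ∈ s, x l * y l := by
  induction s using Finset.induction_on with
  | empty => simp [rs]
  | insert l s h ih =>
    have h2 : ∑ σ : L → Bool, rs (insert l s) x σ * rs (insert l s) y σ =
        ∑ σ : L → Bool, (x l * y l + rs s x σ * rs s y σ) := by
      have e : (2 : ℂ) * ∑ σ : L → Bool, rs (insert l s) x σ * rs (insert l s) y σ =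
          2 * ∑ σ : L → Bool, (x l * y l + rs s x σ * rs s y σ) := by
        rw [two_mul]
        nth_rewrite 2 [← sum_flip l]
        rw [← Finset.sum_add_distrib, Finset.mul_sum]
        refine Finset.sum_congr rfl fun σ _ => ?_
        simp only [rs_insert h, rs_flip h, fl_same, sg_not]
        rcases sg_cases (σ l) with e | e <;> rw [e] <;> ring
      exact mul_left_cancel₀ two_ne_zero e
    rw [h2, Finset.sum_add_distrib, ih, Finset.sum_insert h, Finset.sum_const, Finset.card_univ,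
      nsmul_eq_mul]
    ring

lemma quartic (z w : ℂ) : ‖w + z‖ ^ 4 + ‖-w + z‖ ^ 4 ≤
    2 * (‖z‖ ^ 4 + 6 * ‖z‖ ^ 2 * ‖w‖ ^ 2 + ‖w‖ ^ 4) := by
  have h1 : ‖w + z‖ ^ 2 = ‖w‖ ^ 2 + ‖z‖ ^ 2 + 2 * (w * (starRingEnd ℂ) z).re := by
    rw [← Complex.normSq_eq_norm_sq, ← Complex.normSq_eq_norm_sq, ← Complex.normSq_eq_norm_sq,
      Complex.normSq_add]
  have h2 : ‖-w + z‖ ^ 2 = ‖w‖ ^ 2 + ‖z‖ ^ 2 - 2 * (w * (starRingEnd ℂ) z).re := by
    rw [← Complex.normSq_eq_norm_sq, ← Complex.normSq_eq_norm_sq, ← Complex.normSq_eq_norm_sq,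
      Complex.normSq_add, Complex.normSq_neg, neg_mul, Complex.neg_re]
    ring
  have h3 : (w * (starRingEnd ℂ) z).re ^ 2 ≤ ‖w‖ ^ 2 * ‖z‖ ^ 2 := by
    have h4 : |(w * (starRingEnd ℂ) z).re| ≤ ‖w‖ * ‖z‖ := by
      refine (Complex.abs_re_le_norm _).trans (le_of_eq ?_)
      rw [norm_mul, RCLike.norm_conj]
    calc (w * (starRingEnd ℂ) z).re ^ 2 = |(w * (starRingEnd ℂ) z).re| ^ 2 := (sq_abs _).symm
      _ ≤ (‖w‖ * ‖z‖) ^ 2 := pow_le_pow_left₀ (abs_nonneg _) h4 2
      _ = _ := by ring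
  have e1 : ‖w + z‖ ^ 4 = (‖w + z‖ ^ 2) ^ 2 := by ring
  have e2 : ‖-w + z‖ ^ 4 = (‖-w + z‖ ^ 2) ^ 2 := by ring
  rw [e1, e2, h1, h2]
  nlinarith [h3]

theorem moment2' (x : L → ℂ) (s : Finset L) :
    ∑ σ : L → Bool, ‖rs s x σ‖ ^ 2 = (Fintype.card (L → Bool) : ℝ) * ∑ l ∈ s, ‖x l‖ ^ 2 := by
  have h := moment2 x (fun l => (starRingEnd ℂ) (x l)) s
  have e : ∀ σ : L → Bool, rs s x σ * rs s (fun l => (starRingEnd ℂ) (x l)) σ =
      ((‖rs s x σ‖ ^ 2 : ℝ) : ℂ) := by
    intro σ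
    have : rs s (fun l => (starRingEnd ℂ) (x l)) σ = (starRingEnd ℂ) (rs s x σ) := by
      unfold rs
      rw [map_sum]
      refine Finset.sum_congr rfl fun l _ => ?_
      rw [map_mul]
      rcases sg_cases (σ l) with e | e <;> rw [e] <;> simp
    rw [this, Complex.mul_conj, Complex.normSq_eq_norm_sq]
  have e' : ∀ l, x l * (starRingEnd ℂ) (x l) = ((‖x l‖ ^ 2 : ℝ) : ℂ) := fun l => by
    rw [Complex.mul_conj, Complex.normSq_eq_norm_sq]
  simp only [e, e'] at h
  exact_mod_cast h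

/-- fourth moment -/
theorem moment4 (x : L → ℂ) (s : Finset L) :
    ∑ σ : L → Bool, ‖rs s x σ‖ ^ 4 ≤
      (Fintype.card (L → Bool) : ℝ) * (3 * (∑ l ∈ s, ‖x l‖ ^ 2) ^ 2) := by
  induction s using Finset.induction_on with
  | empty => simp [rs]
  | insert l s h ih =>
    have h2 : ∑ σ : L → Bool, ‖rs (insert l s) x σ‖ ^ 4 ≤
        ∑ σ : L → Bool, (‖rs s x σ‖ ^ 4 + 6 * ‖rs s x σ‖ ^ 2 * ‖x l‖ ^ 2 + ‖x l‖ ^ 4) := by
      have e : (2 : ℝ) * ∑ σ : L → Bool, ‖rs (insert l s) x σ‖ ^ 4 ≤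
          2 * ∑ σ : L → Bool, (‖rs s x σ‖ ^ 4 + 6 * ‖rs s x σ‖ ^ 2 * ‖x l‖ ^ 2 + ‖x l‖ ^ 4) := by
        rw [two_mul]
        nth_rewrite 2 [← sum_flip l]
        rw [← Finset.sum_add_distrib, Finset.mul_sum]
        refine Finset.sum_le_sum fun σ _ => ?_
        simp only [rs_insert h, rs_flip h, fl_same, sg_not]
        have q := quartic (rs s x σ) (x l)
        rcases sg_cases (σ l) with e | e
        · rw [e]; simpa using q
        · rw [e]
          have q' := q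
          simp only [neg_neg, one_mul, neg_mul]
          linarith
      linarith
    refine h2.trans ?_
    rw [Finset.sum_add_distrib, Finset.sum_add_distrib, Finset.sum_const, Finset.card_univ,
      nsmul_eq_mul, Finset.sum_insert h]
    have e3 : ∑ σ : L → Bool, 6 * ‖rs s x σ‖ ^ 2 * ‖x l‖ ^ 2 =
        6 * ((Fintype.card (L → Bool) : ℝ) * ∑ l ∈ s, ‖x l‖ ^ 2) * ‖x l‖ ^ 2 := by
      rw [← moment2', Finset.mul_sum, Finset.sum_mul]
    rw [e3]
    have hc : (0 : ℝ) ≤ (Fintype.card (L → Bool) : ℝ) := Nat.cast_nonneg _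
    have hx : 0 ≤ ‖x l‖ ^ 4 := by positivity
    nlinarith [mul_nonneg hc hx]

end moments

/-! ### truncation -/

open Classical in
/-- truncation at height `7` -/
noncomputable def tr (z : ℂ) : ℂ := if ‖z‖ ≤ 7 then z else 0

lemma norm_tr_le (z : ℂ) : ‖tr z‖ ≤ 7 := by
  unfold tr
  split_ifs with h
  · exact h
  · simp

lemma norm_tr_le' (z : ℂ) : ‖tr z‖ ≤ ‖z‖ := by
  unfold tr
  split_ifs with h
  · exact le_rfl
  · simp

lemma norm_sub_tr (z : ℂ) : 49 * ‖z - tr z‖ ^ 2 ≤ ‖z‖ ^ 4 := by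
  unfold tr
  split_ifs with h
  · simp
  · rw [sub_zero]
    have h7 : 7 < ‖z‖ := not_le.1 h
    have h2 : 49 ≤ ‖z‖ ^ 2 := by nlinarith
    nlinarith [sq_nonneg ‖z‖]

/-! ### the inequality -/

variable {ι κ : Type*} [Fintype ι] [Fintype κ]

/-- vector test -/
noncomputable def vt (A : ι → κ → ℂ) {L : Type} [Fintype L] (x : ι → L → ℂ) (y : κ → L → ℂ) : ℂ :=
  ∑ i, ∑ j, A i j * ∑ l, x i l * y j l

/-- all vector tests are `≤ c` -/
def VB (A : ι → κ → ℂ) (c : ℝ) : Prop :=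
  ∀ (L : Type) [Fintype L] (x : ι → L → ℂ) (y : κ → L → ℂ), (∀ i, ∑ l, ‖x i l‖ ^ 2 ≤ 1) →
    (∀ j, ∑ l, ‖y j l‖ ^ 2 ≤ 1) → ‖vt A x y‖ ≤ c

/-- cut level `≤ t` -/
def Cut (A : ι → κ → ℂ) (t : ℝ) : Prop :=
  ∀ (a : ι → ℂ) (b : κ → ℂ), (∀ i, ‖a i‖ ≤ 1) → (∀ j, ‖b j‖ ≤ 1) →
    ‖∑ i, ∑ j, A i j * (a i * b j)‖ ≤ t

theorem cs2 {L : Type} [Fintype L] (x y : L → ℂ) :
    ‖∑ l, x l * y l‖ ^ 2 ≤ (∑ l, ‖x l‖ ^ 2) * ∑ l, ‖y l‖ ^ 2 := by
  calc ‖∑ l, x l * y l‖ ^ 2 ≤ (∑ l, ‖x l‖ * ‖y l‖) ^ 2 := by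
        refine pow_le_pow_left₀ (norm_nonneg _) ?_ 2
        refine (norm_sum_le _ _).trans (le_of_eq ?_)
        exact Finset.sum_congr rfl fun l _ => norm_mul _ _
    _ ≤ _ := Finset.sum_mul_sq_le_sq_mul_sq _ _ _

theorem VB_triv (A : ι → κ → ℂ) : VB A (∑ i, ∑ j, ‖A i j‖) := by
  intro L _ x y hx hy
  unfold vt
  refine (norm_sum_le _ _).trans (Finset.sum_le_sum fun i _ => ?_)
  refine (norm_sum_le _ _).trans (Finset.sum_le_sum fun j _ => ?_)
  rw [norm_mul]
  have h : ‖∑ l, x i l * y j l‖ ≤ 1 := by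
    have h1 := cs2 (x i) (y j)
    have h2 : ‖∑ l, x i l * y j l‖ ^ 2 ≤ 1 := by
      refine h1.trans ?_
      calc (∑ l, ‖x i l‖ ^ 2) * ∑ l, ‖y j l‖ ^ 2 ≤ 1 * 1 :=
            mul_le_mul (hx i) (hy j) (Finset.sum_nonneg fun _ _ => by positivity) zero_le_one
        _ = 1 := one_mul 1
    nlinarith [norm_nonneg (∑ l, x i l * y j l)]
  calc ‖A i j‖ * ‖∑ l, x i l * y j l‖ ≤ ‖A i j‖ * 1 := mul_le_mul_of_nonneg_left h (norm_nonneg _)
    _ = ‖A i j‖ := mul_one _

theorem VB_step {A : ι → κ → ℂ} {t : ℝ} (hA : Cut A t) {c : ℝ} (hc : VB A c) :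
    VB A (49 * t + c / 2) := by
  classical
  intro L _ x y hx hy
  have hc0 : 0 ≤ c := (norm_nonneg _).trans (hc L (fun _ _ => 0) (fun _ _ => 0)
    (fun i => by simp) (fun j => by simp))
  set S : Type := L → Bool with hS
  set N : ℝ := (Fintype.card (L → Bool) : ℝ) with hN
  have hN0 : 0 < N := by rw [hN]; exact_mod_cast Fintype.card_pos
  set f : ι → (L → Bool) → ℂ := fun i σ => rs univ (x i) σ with hf
  set g : κ → (L → Bool) → ℂ := fun j σ => rs univ (y j) σ with hg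
  -- expansion of the vector test
  have hexp : ∀ i j, (N : ℂ) * ∑ l, x i l * y j l = ∑ σ, f i σ * g j σ := by
    intro i j
    rw [hf, hg]
    simp only
    rw [moment2 (x i) (y j) univ, hN]
    norm_cast
  have hf2 : ∀ i, ∑ σ, ‖f i σ‖ ^ 2 ≤ N := by
    intro i
    rw [hf]
    simp only
    rw [moment2']
    calc (Fintype.card (L → Bool) : ℝ) * ∑ l ∈ univ, ‖x i l‖ ^ 2 ≤ N * 1 :=
          mul_le_mul_of_nonneg_left (hx i) hN0.le
      _ = N := mul_one N
  have hg2 : ∀ j, ∑ σ, ‖g j σ‖ ^ 2 ≤ N := by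
    intro j
    rw [hg]
    simp only
    rw [moment2']
    calc (Fintype.card (L → Bool) : ℝ) * ∑ l ∈ univ, ‖y j l‖ ^ 2 ≤ N * 1 :=
          mul_le_mul_of_nonneg_left (hy j) hN0.le
      _ = N := mul_one N
  have h4 : ∀ (z : L → ℂ), ∑ l, ‖z l‖ ^ 2 ≤ 1 → ∑ σ : L → Bool, ‖rs univ z σ‖ ^ 4 ≤ 3 * N := by
    intro z hz
    refine (moment4 z univ).trans ?_
    have h0 : 0 ≤ ∑ l, ‖z l‖ ^ 2 := Finset.sum_nonneg fun _ _ => by positivity
    have h1 : (∑ l, ‖z l‖ ^ 2) ^ 2 ≤ 1 := by nlinarith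
    rw [← hN]
    nlinarith
  have hft : ∀ i, ∑ σ, ‖f i σ - tr (f i σ)‖ ^ 2 ≤ N / 16 := by
    intro i
    have h5 := h4 (x i) (hx i)
    have h6 : 49 * ∑ σ, ‖f i σ - tr (f i σ)‖ ^ 2 ≤ ∑ σ, ‖f i σ‖ ^ 4 := by
      rw [Finset.mul_sum]
      exact Finset.sum_le_sum fun σ _ => norm_sub_tr _
    have h7 : ∑ σ, ‖f i σ‖ ^ 4 ≤ 3 * N := h5
    linarith
  have hgt : ∀ j, ∑ σ, ‖g j σ - tr (g j σ)‖ ^ 2 ≤ N / 16 := by
    intro j
    have h5 := h4 (y j) (hy j)
    have h6 : 49 * ∑ σ, ‖g j σ - tr (g j σ)‖ ^ 2 ≤ ∑ σ, ‖g j σ‖ ^ 4 := by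
      rw [Finset.mul_sum]
      exact Finset.sum_le_sum fun σ _ => norm_sub_tr _
    have h7 : ∑ σ, ‖g j σ‖ ^ 4 ≤ 3 * N := h5
    linarith
  -- the three pieces
  set T1 : ℂ := ∑ i, ∑ j, A i j * ∑ σ, tr (f i σ) * tr (g j σ) with hT1
  set T2 : ℂ := ∑ i, ∑ j, A i j * ∑ σ, (f i σ - tr (f i σ)) * tr (g j σ) with hT2
  set T3 : ℂ := ∑ i, ∑ j, A i j * ∑ σ, f i σ * (g j σ - tr (g j σ)) with hT3
  have hsum : (N : ℂ) * vt A x y = T1 + T2 + T3 := by
    unfold vt
    rw [hT1, hT2, hT3, ← Finset.sum_add_distrib, ← Finset.sum_add_distrib, Finset.mul_sum]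
    refine Finset.sum_congr rfl fun i _ => ?_
    rw [← Finset.sum_add_distrib, ← Finset.sum_add_distrib, Finset.mul_sum]
    refine Finset.sum_congr rfl fun j _ => ?_
    have e : (N : ℂ) * (A i j * ∑ l, x i l * y j l) = A i j * ∑ σ, f i σ * g j σ := by
      rw [← hexp i j]; ring
    rw [e, ← mul_add, ← mul_add, ← Finset.sum_add_distrib, ← Finset.sum_add_distrib]
    congr 1
    refine Finset.sum_congr rfl fun σ _ => ?_
    ring
  have b1 : ‖T1‖ ≤ N * (49 * t) := by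
    have e : T1 = ∑ σ : L → Bool, ∑ i, ∑ j, A i j * (tr (f i σ) * tr (g j σ)) := by
      rw [hT1]
      simp only [Finset.mul_sum]
      rw [Finset.sum_comm]
      refine (Finset.sum_congr rfl fun j _ => Finset.sum_comm).trans ?_
      rw [Finset.sum_comm]
      exact Finset.sum_congr rfl fun σ _ => Finset.sum_comm
    rw [e]
    refine (norm_sum_le _ _).trans ?_
    calc ∑ σ : L → Bool, ‖∑ i, ∑ j, A i j * (tr (f i σ) * tr (g j σ))‖
        ≤ ∑ σ : L → Bool, 49 * t := by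
          refine Finset.sum_le_sum fun σ _ => ?_
          have h := hA (fun i => tr (f i σ) / 7) (fun j => tr (g j σ) / 7)
            (fun i => by
              rw [norm_div]
              have := norm_tr_le (f i σ)
              have e7 : ‖(7 : ℂ)‖ = 7 := by norm_num
              rw [e7, div_le_one (by norm_num)]
              exact this)
            (fun j => by
              rw [norm_div]
              have := norm_tr_le (g j σ)
              have e7 : ‖(7 : ℂ)‖ = 7 := by norm_num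
              rw [e7, div_le_one (by norm_num)]
              exact this)
          have e2 : ∑ i, ∑ j, A i j * (tr (f i σ) * tr (g j σ)) =
              49 * ∑ i, ∑ j, A i j * (tr (f i σ) / 7 * (tr (g j σ) / 7)) := by
            rw [Finset.mul_sum]
            refine Finset.sum_congr rfl fun i _ => ?_
            rw [Finset.mul_sum]
            refine Finset.sum_congr rfl fun j _ => ?_
            ring
          rw [e2, norm_mul]
          have e49 : ‖(49 : ℂ)‖ = 49 := by norm_num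
          rw [e49]
          exact mul_le_mul_of_nonneg_left h (by norm_num)
      _ = N * (49 * t) := by
          rw [Finset.sum_const, Finset.card_univ, nsmul_eq_mul]
  -- vector systems
  set r : ℝ := Real.sqrt N with hr
  have hr0 : 0 < r := Real.sqrt_pos.2 hN0
  have hr2 : r ^ 2 = N := Real.sq_sqrt hN0.le
  have key : ∀ (u : ι → (L → Bool) → ℂ) (v : κ → (L → Bool) → ℂ) (α β : ℝ), 0 < α → 0 < β →
      (∀ i, ∑ σ, ‖u i σ‖ ^ 2 ≤ α ^ 2 * N) → (∀ j, ∑ σ, ‖v j σ‖ ^ 2 ≤ β ^ 2 * N) →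
      ‖∑ i, ∑ j, A i j * ∑ σ, u i σ * v j σ‖ ≤ N * (α * β * c) := by
    intro u v α β hα hβ hu hv
    have hαr : (α * r) ≠ 0 := (mul_pos hα hr0).ne'
    have hβr : (β * r) ≠ 0 := (mul_pos hβ hr0).ne'
    have h := hc (L → Bool) (fun i σ => u i σ / ((α * r : ℝ) : ℂ))
      (fun j σ => v j σ / ((β * r : ℝ) : ℂ))
      (fun i => by
        have e : ∀ σ : L → Bool, ‖u i σ / ((α * r : ℝ) : ℂ)‖ ^ 2 = ‖u i σ‖ ^ 2 / (α ^ 2 * N) := by
          intro σ
          rw [norm_div, Complex.norm_real, Real.norm_eq_abs, abs_of_pos (mul_pos hα hr0), div_pow,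
            mul_pow, hr2]
        simp only [e]
        rw [← Finset.sum_div, div_le_one (by positivity)]
        exact hu i)
      (fun j => by
        have e : ∀ σ : L → Bool, ‖v j σ / ((β * r : ℝ) : ℂ)‖ ^ 2 = ‖v j σ‖ ^ 2 / (β ^ 2 * N) := by
          intro σ
          rw [norm_div, Complex.norm_real, Real.norm_eq_abs, abs_of_pos (mul_pos hβ hr0), div_pow,
            mul_pow, hr2]
        simp only [e]
        rw [← Finset.sum_div, div_le_one (by positivity)]
        exact hv j)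
    have e2 : ∑ i, ∑ j, A i j * ∑ σ, u i σ * v j σ =
        ((α * β * N : ℝ) : ℂ) * vt A (fun i σ => u i σ / ((α * r : ℝ) : ℂ))
          (fun j σ => v j σ / ((β * r : ℝ) : ℂ)) := by
      unfold vt
      rw [Finset.mul_sum]
      refine Finset.sum_congr rfl fun i _ => ?_
      rw [Finset.mul_sum]
      refine Finset.sum_congr rfl fun j _ => ?_
      rw [Finset.mul_sum, Finset.mul_sum, Finset.mul_sum]
      refine Finset.sum_congr rfl fun σ _ => ?_
      have e3 : ((α * β * N : ℝ) : ℂ) = ((α * r : ℝ) : ℂ) * ((β * r : ℝ) : ℂ) := by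
        rw [← Complex.ofReal_mul]
        congr 1
        rw [← hr2]; ring
      have n1 : ((α * r : ℝ) : ℂ) ≠ 0 := by exact_mod_cast hαr
      have n2 : ((β * r : ℝ) : ℂ) ≠ 0 := by exact_mod_cast hβr
      rw [e3]
      generalize ((α * r : ℝ) : ℂ) = P at n1
      generalize ((β * r : ℝ) : ℂ) = R at n2
      field_simp
    rw [e2, norm_mul, Complex.norm_real, Real.norm_eq_abs, abs_of_pos (by positivity)]
    calc α * β * N * _ ≤ α * β * N * c := mul_le_mul_of_nonneg_left h (by positivity)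
      _ = N * (α * β * c) := by ring
  have b2 : ‖T2‖ ≤ N * (c / 4) := by
    have h := key (fun i σ => f i σ - tr (f i σ)) (fun j σ => tr (g j σ)) (1 / 4) 1 (by norm_num)
      one_pos (fun i => by
        have := hft i
        calc _ ≤ N / 16 := this
          _ = (1 / 4) ^ 2 * N := by ring)
      (fun j => by
        have h1 : ∑ σ, ‖tr (g j σ)‖ ^ 2 ≤ ∑ σ, ‖g j σ‖ ^ 2 :=
          Finset.sum_le_sum fun σ _ => pow_le_pow_left₀ (norm_nonneg _) (norm_tr_le' _) 2
        have := h1.trans (hg2 j)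
        simpa using this)
    refine h.trans (le_of_eq (by ring))
  have b3 : ‖T3‖ ≤ N * (c / 4) := by
    have h := key (fun i σ => f i σ) (fun j σ => g j σ - tr (g j σ)) 1 (1 / 4) one_pos
      (by norm_num) (fun i => by simpa using hf2 i)
      (fun j => by
        have := hgt j
        calc _ ≤ N / 16 := this
          _ = (1 / 4) ^ 2 * N := by ring)
    refine h.trans (le_of_eq (by ring))
  have hfin : N * ‖vt A x y‖ ≤ N * (49 * t + c / 2) := by
    have e : ‖(N : ℂ) * vt A x y‖ = N * ‖vt A x y‖ := by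
      rw [norm_mul, Complex.norm_real, Real.norm_eq_abs, abs_of_pos hN0]
    rw [← e, hsum]
    calc ‖T1 + T2 + T3‖ ≤ ‖T1‖ + ‖T2‖ + ‖T3‖ := norm_add₃_le
      _ ≤ N * (49 * t) + N * (c / 4) + N * (c / 4) := add_le_add (add_le_add b1 b2) b3
      _ = N * (49 * t + c / 2) := by ring
  exact le_of_mul_le_mul_left hfin hN0

/-- **GROTHENDIECK** -/
theorem groth {A : ι → κ → ℂ} {t : ℝ} (hA : Cut A t) : VB A (98 * t) := by
  have ht : 0 ≤ t := (norm_nonneg _).trans (hA (fun _ => 0) (fun _ => 0) (fun _ => by simp)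
    (fun _ => by simp))
  have h : ∀ n : ℕ, VB A (98 * t + (1 / 2) ^ n * ∑ i, ∑ j, ‖A i j‖) := by
    intro n
    induction n with
    | zero =>
      intro L _ x y hx hy
      have := VB_triv A L x y hx hy
      simp only [pow_zero, one_mul]
      linarith
    | succ n ih =>
      have := VB_step hA ih
      intro L _ x y hx hy
      refine (this L x y hx hy).trans (le_of_eq ?_)
      rw [pow_succ]; ring
  intro L _ x y hx hy
  refine le_of_forall_pos_le_add fun δ hδ => ?_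
  set s := ∑ i, ∑ j, ‖A i j‖ with hs
  have hs0 : 0 ≤ s := Finset.sum_nonneg fun _ _ => Finset.sum_nonneg fun _ _ => norm_nonneg _
  obtain ⟨n, hn⟩ := exists_pow_lt_of_lt_one (show 0 < δ / (s + 1) by positivity)
    (show (1 / 2 : ℝ) < 1 by norm_num)
  refine (h n L x y hx hy).trans ?_
  have h1 : (1 / 2 : ℝ) ^ n * s ≤ δ := by
    have h2 : (1 / 2 : ℝ) ^ n * (s + 1) ≤ δ := by
      rw [lt_div_iff₀ (by positivity)] at hn
      exact hn.le
    have h3 : 0 ≤ (1 / 2 : ℝ) ^ n := by positivity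
    nlinarith
  linarith

end Crest.Agent.R079.Gro923
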