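import Mathlib

/-! R079 (helper285): one-variable Haar-Bessel inequality over ALL positions (`ZMod Q`), functions with
values in a semi-inner-product: only a nonneg quadratic form satisfying the parallelogram law is used;
functions depending on the scale, only the changes are paid. -/

set_option autoImplicit false

namespace Crest.Agent.R079.HB285

open Finset

variable {Q : ℕ} [NeZero Q] {E : Type*} [AddCommGroup E] [Module ℝ E]

/-- box average of length `2^m` at the position `p` -/
noncomputable def bav (m : ℕ) (f : ZMod Q → E) (p : ZMod Q) : E :=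
  ((1 / 2 : ℝ) ^ m) • ∑ i ∈ range (2 ^ m), f (p + (i : ZMod Q))

/-- Haar average of length `2^(m+1)` -/
noncomputable def hav (m : ℕ) (f : ZMod Q → E) (p : ZMod Q) : E :=
  (1 / 2 : ℝ) • (bav m f p - bav m f (p + ((2 ^ m : ℕ) : ZMod Q)))

lemma bav_succ (m : ℕ) (f : ZMod Q → E) (p : ZMod Q) :
    bav (m + 1) f p = (1 / 2 : ℝ) • (bav m f p + bav m f (p + ((2 ^ m : ℕ) : ZMod Q))) := by
  unfold bav
  rw [pow_succ 2 m, mul_two, Finset.sum_range_add, ← smul_add, smul_smul, pow_succ,
    mul_comm ((1 / 2 : ℝ) ^ m)]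
  congr 1
  congr 1
  refine Finset.sum_congr rfl fun i _ => ?_
  congr 1
  push_cast
  ring

/-- parallelogram law -/
def Par (q : E → ℝ) : Prop :=
  ∀ x y, q ((1 / 2 : ℝ) • (x + y)) + q ((1 / 2 : ℝ) • (x - y)) = (q x + q y) / 2

/-- one scale -/
theorem one_scale (q : E → ℝ) (hq : Par q) (m : ℕ) (f : ZMod Q → E) :
    ∑ p, q (hav m f p) = ∑ p, q (bav m f p) - ∑ p, q (bav (m + 1) f p) := by
  have h : ∀ p, q (hav m f p) = (q (bav m f p) + q (bav m f (p + ((2 ^ m : ℕ) : ZMod Q)))) / 2 -
      q (bav (m + 1) f p) := by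
    intro p
    have := hq (bav m f p) (bav m f (p + ((2 ^ m : ℕ) : ZMod Q)))
    rw [bav_succ]
    unfold hav
    linarith
  rw [Finset.sum_congr rfl fun p _ => h p, Finset.sum_sub_distrib]
  congr 1
  rw [← Finset.sum_div, Finset.sum_add_distrib]
  have e : ∑ p, q (bav m f (p + ((2 ^ m : ℕ) : ZMod Q))) = ∑ p, q (bav m f p) :=
    Equiv.sum_comp (Equiv.addRight (((2 ^ m : ℕ) : ZMod Q))) (fun p => q (bav m f p))
  rw [e]
  ring

/-- **Haar-Bessel over all positions**, static function -/
theorem bessel (q : E → ℝ) (hq : Par q) (h0 : ∀ x, 0 ≤ q x) (M : ℕ) (f : ZMod Q → E) :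
    ∑ m ∈ range M, ∑ p, q (hav m f p) ≤ ∑ p, q (f p) := by
  have h1 : ∀ M, ∑ m ∈ range M, ∑ p, q (hav m f p) =
      ∑ p, q (bav 0 f p) - ∑ p, q (bav M f p) := by
    intro M
    induction M with
    | zero => simp
    | succ n ih =>
      rw [Finset.sum_range_succ, ih, one_scale q hq]
      ring
  rw [h1]
  have h2 : ∀ p, bav 0 f p = f p := by intro p; simp [bav]
  simp only [h2]
  have : 0 ≤ ∑ p, q (bav M f p) := Finset.sum_nonneg fun p _ => h0 _
  linarith

/-- **Haar-Bessel**, functions depending on the scale (`f (m+1)` at the scale `2^(m+1)`), `f 0 = 0`: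
only the changes are paid. -/
theorem bessel_moving (q : E → ℝ) (hq : Par q) (h0 : ∀ x, 0 ≤ q x) (hz : q 0 = 0) (M : ℕ)
    (f : ℕ → ZMod Q → E) (hf : f 0 = 0) :
    ∑ m ∈ range M, ∑ p, q (hav m (f (m + 1)) p) ≤
      ∑ m ∈ range M, ∑ p, (q (bav m (f (m + 1)) p) - q (bav m (f m) p)) := by
  have h1 : ∀ M, ∑ m ∈ range M, ∑ p, q (hav m (f (m + 1)) p) =
      ∑ m ∈ range M, ∑ p, (q (bav m (f (m + 1)) p) - q (bav m (f m) p)) -
        ∑ p, q (bav M (f M) p) := by
    intro M
    induction M with
    | zero =>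
      simp only [Finset.range_zero, Finset.sum_empty, zero_sub]
      have : ∀ p, q (bav 0 (f 0) p) = 0 := by
        intro p
        simp [bav, hf, hz]
      simp [this]
    | succ n ih =>
      rw [Finset.sum_range_succ, ih, one_scale q hq, Finset.sum_range_succ]
      simp only [Finset.sum_sub_distrib]
      ring
  rw [h1]
  have : 0 ≤ ∑ p, q (bav M (f M) p) := Finset.sum_nonneg fun p _ => h0 _
  linarith

open Classical in
/-- exit form: where the box does not see the change of `f`, nothing is paid. -/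
theorem bessel_exit (q : E → ℝ) (hq : Par q) (h0 : ∀ x, 0 ≤ q x) (hz : q 0 = 0) (M : ℕ)
    (f : ℕ → ZMod Q → E) (hf : f 0 = 0) :
    ∑ m ∈ range M, ∑ p, q (hav m (f (m + 1)) p) ≤
      ∑ m ∈ range M, ∑ p : ZMod Q,
        if (∃ i ∈ range (2 ^ m), f (m + 1) (p + (i : ZMod Q)) ≠ f m (p + (i : ZMod Q))) then
          q (bav m (f (m + 1)) p) else 0 := by
  refine (bessel_moving q hq h0 hz M f hf).trans ?_
  refine Finset.sum_le_sum fun m _ => Finset.sum_le_sum fun p _ => ?_
  split_ifs with h
  · have := h0 (bav m (f m) p)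
    linarith
  · push Not at h
    have : bav m (f (m + 1)) p = bav m (f m) p := by
      unfold bav
      congr 1
      exact Finset.sum_congr rfl fun i hi => h i hi
    rw [this]
    linarith

/-- a (real) bilinear form gives `Par` -/
theorem par_of_bilin (B : LinearMap.BilinForm ℝ E) : Par (fun x => B x x) := by
  intro x y
  simp only [map_smul, map_add, map_sub, LinearMap.smul_apply, LinearMap.add_apply,
    LinearMap.sub_apply, smul_eq_mul]
  ring

end Crest.Agent.R079.HB285
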