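import Crest.Agent.R072.Lattice

/-! R079, Step II of doc 2531 (787, simplified by 130 / 945: FIXED metric), LINE model, abstract part:
Haar-Bessel inequality for Hilbert-valued functions on `ZMod Q`, boxes of ALL positions, functions
which change with the scale (masks), leaf scale `2^m0`; Cauchy-Schwarz for the pair
`(p, n - p)` with averaged offsets.  helper945. -/

set_option autoImplicit false
set_option linter.unusedVariables false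
set_option linter.unusedSectionVars false

namespace Crest.Agent.R079.HB945

open Finset

variable {𝕜 : Type*} [RCLike 𝕜] {H : Type*} [NormedAddCommGroup H] [InnerProductSpace 𝕜 H]
  {Q : ℕ} [NeZero Q]

/-- average over `[p, p + N)` -/
noncomputable def av (𝕜 : Type*) [RCLike 𝕜] {H : Type*} [NormedAddCommGroup H]
    [InnerProductSpace 𝕜 H] {Q : ℕ} (f : ZMod Q → H) (N : ℕ) (p : ZMod Q) : H :=
  (1 / (N : 𝕜)) • ∑ i ∈ range N, f (p + (i : ZMod Q))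

/-- Haar coefficient of `[p, p + 2N)` -/
noncomputable def dh (𝕜 : Type*) [RCLike 𝕜] {H : Type*} [NormedAddCommGroup H]
    [InnerProductSpace 𝕜 H] {Q : ℕ} (f : ZMod Q → H) (N : ℕ) (p : ZMod Q) : H :=
  (1 / 2 : 𝕜) • (av 𝕜 f N p - av 𝕜 f N (p + (N : ZMod Q)))

/-- energy at scale `N` -/
noncomputable def en (𝕜 : Type*) [RCLike 𝕜] {H : Type*} [NormedAddCommGroup H]
    [InnerProductSpace 𝕜 H] {Q : ℕ} [NeZero Q] (f : ZMod Q → H) (N : ℕ) : ℝ :=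
  ∑ p : ZMod Q, ‖av 𝕜 f N p‖ ^ 2

theorem en_nonneg (f : ZMod Q → H) (N : ℕ) : 0 ≤ en 𝕜 f N :=
  Finset.sum_nonneg fun _ _ => sq_nonneg _

theorem av_double (f : ZMod Q → H) {N : ℕ} (hN : 0 < N) (p : ZMod Q) :
    av 𝕜 f (N + N) p = (1 / 2 : 𝕜) • (av 𝕜 f N p + av 𝕜 f N (p + (N : ZMod Q))) := by
  have hN' : (N : 𝕜) ≠ 0 := by exact_mod_cast hN.ne'
  unfold av
  rw [Finset.sum_range_add, ← smul_add, smul_smul]
  have e : (1 / (((N + N : ℕ)) : 𝕜)) = 1 / 2 * (1 / (N : 𝕜)) := by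
    push_cast
    field_simp
    norm_num
  rw [e]
  simp only [Nat.cast_add, ← add_assoc]

theorem sum_add_right (f : ZMod Q → ℝ) (c : ZMod Q) : ∑ p, f (p + c) = ∑ p, f p :=
  Equiv.sum_comp (Equiv.addRight c) f

/-- exact one scale identity -/
theorem sum_dh (f : ZMod Q → H) {N : ℕ} (hN : 0 < N) :
    ∑ p : ZMod Q, ‖dh 𝕜 f N p‖ ^ 2 = en 𝕜 f N - en 𝕜 f (N + N) := by
  have key : ∀ p : ZMod Q, ‖dh 𝕜 f N p‖ ^ 2 + ‖av 𝕜 f (N + N) p‖ ^ 2 =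
      (1 / 2) * ‖av 𝕜 f N p‖ ^ 2 + (1 / 2) * ‖av 𝕜 f N (p + (N : ZMod Q))‖ ^ 2 := by
    intro p
    rw [av_double f hN]
    unfold dh
    rw [norm_smul, norm_smul, mul_pow, mul_pow]
    have h := parallelogram_law_with_norm 𝕜 (av 𝕜 f N p) (av 𝕜 f N (p + (N : ZMod Q)))
    have e : ‖(1 / 2 : 𝕜)‖ ^ 2 = 1 / 4 := by
      rw [norm_div, norm_one, RCLike.norm_ofNat]
      norm_num
    rw [e]
    nlinarith [h]
  have h1 : ∑ p : ZMod Q, ‖dh 𝕜 f N p‖ ^ 2 + en 𝕜 f (N + N) = en 𝕜 f N := by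
    unfold en
    rw [← Finset.sum_add_distrib, Finset.sum_congr rfl fun p _ => key p, Finset.sum_add_distrib,
      ← Finset.mul_sum, ← Finset.mul_sum,
      sum_add_right (fun p => ‖av 𝕜 f N p‖ ^ 2) (N : ZMod Q)]
    ring
  linarith

/-- right hand side of Haar-Bessel with masks: leaf energy and the changes -/
noncomputable def HS (𝕜 : Type*) [RCLike 𝕜] {H : Type*} [NormedAddCommGroup H]
    [InnerProductSpace 𝕜 H] {Q : ℕ} [NeZero Q] (f : ℕ → ZMod Q → H) (m0 M : ℕ) : ℝ :=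
  en 𝕜 (f 0) (2 ^ m0) + ∑ m ∈ range M, (en 𝕜 (f (m + 1)) (2 ^ (m0 + m)) - en 𝕜 (f m) (2 ^ (m0 + m)))

/-- **Haar-Bessel**, all positions, functions may change with the scale (`f (m+1)` is used at the
scale `2^(m0+m)`), constant `1`. -/
theorem haar_bessel (f : ℕ → ZMod Q → H) (m0 M : ℕ) :
    ∑ m ∈ range M, ∑ p : ZMod Q, ‖dh 𝕜 (f (m + 1)) (2 ^ (m0 + m)) p‖ ^ 2 ≤ HS 𝕜 f m0 M := by
  have h1 : ∀ m : ℕ, ∑ p : ZMod Q, ‖dh 𝕜 (f (m + 1)) (2 ^ (m0 + m)) p‖ ^ 2 =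
      en 𝕜 (f (m + 1)) (2 ^ (m0 + m)) - en 𝕜 (f (m + 1)) (2 ^ (m0 + (m + 1))) := by
    intro m
    rw [sum_dh _ (by positivity)]
    congr 2
    rw [← add_assoc, pow_succ]
    ring
  have h2 : ∀ K : ℕ, ∑ m ∈ range K, ∑ p : ZMod Q, ‖dh 𝕜 (f (m + 1)) (2 ^ (m0 + m)) p‖ ^ 2 +
      en 𝕜 (f K) (2 ^ (m0 + K)) = HS 𝕜 f m0 K := by
    intro K
    induction K with
    | zero => simp [HS]
    | succ K ih =>
      rw [Finset.sum_range_succ, h1 K]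
      unfold HS at ih ⊢
      rw [Finset.sum_range_succ]
      linarith
  have := h2 M
  have h3 := en_nonneg (𝕜 := 𝕜) (f M) (2 ^ (m0 + M))
  linarith

/-- static function: only the leaf -/
theorem HS_static (f : ZMod Q → H) (m0 M : ℕ) : HS 𝕜 (fun _ => f) m0 M = en 𝕜 f (2 ^ m0) := by
  simp [HS]

/-- the box `[p, p + N)` sees a change -/
def See (f g : ZMod Q → H) (N : ℕ) (p : ZMod Q) : Prop :=
  ∃ i : ℕ, i < N ∧ f (p + (i : ZMod Q)) ≠ g (p + (i : ZMod Q))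

open Classical in
/-- only the boxes which see a change are paid -/
theorem HS_le (f : ℕ → ZMod Q → H) (m0 M : ℕ) :
    HS 𝕜 f m0 M ≤ en 𝕜 (f 0) (2 ^ m0) + ∑ m ∈ range M,
      ∑ p : ZMod Q, if See (f (m + 1)) (f m) (2 ^ (m0 + m)) p then
        ‖av 𝕜 (f (m + 1)) (2 ^ (m0 + m)) p‖ ^ 2 else 0 := by
  unfold HS
  refine add_le_add le_rfl (Finset.sum_le_sum fun m _ => ?_)
  unfold en
  rw [← Finset.sum_sub_distrib]
  refine Finset.sum_le_sum fun p _ => ?_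
  split_ifs with h
  · have := sq_nonneg ‖av 𝕜 (f m) (2 ^ (m0 + m)) p‖
    linarith
  · have e : av 𝕜 (f (m + 1)) (2 ^ (m0 + m)) p = av 𝕜 (f m) (2 ^ (m0 + m)) p := by
      unfold av
      congr 1
      refine Finset.sum_congr rfl fun i hi => ?_
      by_contra hne
      exact h ⟨i, Finset.mem_range.1 hi, hne⟩
    rw [e, sub_self]

/-- one scale: pairs `(p, n - p)`, any finite average of offsets `n` -/
theorem pair_scale {ι : Type*} (I : Finset ι) (w : ι → ℝ) (hw : ∀ i ∈ I, 0 ≤ w i)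
    (hw1 : ∑ i ∈ I, w i ≤ 1) (n : ι → ZMod Q) (b a : ZMod Q → H) (N : ℕ) :
    ∑ i ∈ I, w i * ∑ p : ZMod Q, ‖inner 𝕜 (dh 𝕜 b N p) (dh 𝕜 a N (n i - p))‖ ≤
      Real.sqrt (∑ p : ZMod Q, ‖dh 𝕜 b N p‖ ^ 2) * Real.sqrt (∑ p : ZMod Q, ‖dh 𝕜 a N p‖ ^ 2) := by
  set S := Real.sqrt (∑ p : ZMod Q, ‖dh 𝕜 b N p‖ ^ 2) *
    Real.sqrt (∑ p : ZMod Q, ‖dh 𝕜 a N p‖ ^ 2) with hS
  have hS0 : 0 ≤ S := mul_nonneg (Real.sqrt_nonneg _) (Real.sqrt_nonneg _)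
  have h1 : ∀ i, ∑ p : ZMod Q, ‖inner 𝕜 (dh 𝕜 b N p) (dh 𝕜 a N (n i - p))‖ ≤ S := by
    intro i
    have h2 : ∑ p : ZMod Q, ‖inner 𝕜 (dh 𝕜 b N p) (dh 𝕜 a N (n i - p))‖ ≤
        ∑ p : ZMod Q, ‖dh 𝕜 b N p‖ * ‖dh 𝕜 a N (n i - p)‖ :=
      Finset.sum_le_sum fun p _ => norm_inner_le_norm _ _
    refine h2.trans ((Real.sum_mul_le_sqrt_mul_sqrt _ _ _).trans (le_of_eq ?_))
    rw [hS]
    congr 2
    exact Equiv.sum_comp (Equiv.subLeft (n i)) (fun p => ‖dh 𝕜 a N p‖ ^ 2)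
  calc ∑ i ∈ I, w i * ∑ p : ZMod Q, ‖inner 𝕜 (dh 𝕜 b N p) (dh 𝕜 a N (n i - p))‖
      ≤ ∑ i ∈ I, w i * S := Finset.sum_le_sum fun i hi => mul_le_mul_of_nonneg_left (h1 i) (hw i hi)
    _ = (∑ i ∈ I, w i) * S := by rw [Finset.sum_mul]
    _ ≤ 1 * S := mul_le_mul_of_nonneg_right hw1 hS0
    _ = S := one_mul S

/-- **the pair inequality**, all scales -/
theorem pair_sum {ι : Type*} (I : ℕ → Finset ι) (w : ℕ → ι → ℝ) (hw : ∀ m, ∀ i ∈ I m, 0 ≤ w m i)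
    (hw1 : ∀ m, ∑ i ∈ I m, w m i ≤ 1) (n : ℕ → ι → ZMod Q) (b a : ℕ → ZMod Q → H) (m0 M : ℕ) :
    ∑ m ∈ range M, ∑ i ∈ I m, w m i * ∑ p : ZMod Q,
      ‖inner 𝕜 (dh 𝕜 (b (m + 1)) (2 ^ (m0 + m)) p)
        (dh 𝕜 (a (m + 1)) (2 ^ (m0 + m)) (n m i - p))‖ ≤
      Real.sqrt (HS 𝕜 b m0 M) * Real.sqrt (HS 𝕜 a m0 M) := by
  have h1 : ∀ m ∈ range M, ∑ i ∈ I m, w m i * ∑ p : ZMod Q,
      ‖inner 𝕜 (dh 𝕜 (b (m + 1)) (2 ^ (m0 + m)) p)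
        (dh 𝕜 (a (m + 1)) (2 ^ (m0 + m)) (n m i - p))‖ ≤
      Real.sqrt (∑ p : ZMod Q, ‖dh 𝕜 (b (m + 1)) (2 ^ (m0 + m)) p‖ ^ 2) *
        Real.sqrt (∑ p : ZMod Q, ‖dh 𝕜 (a (m + 1)) (2 ^ (m0 + m)) p‖ ^ 2) := fun m _ =>
    pair_scale (I m) (w m) (hw m) (hw1 m) (n m) _ _ _
  refine (Finset.sum_le_sum h1).trans ?_
  refine (Real.sum_sqrt_mul_sqrt_le _ (fun m => Finset.sum_nonneg fun _ _ => sq_nonneg _)
    (fun m => Finset.sum_nonneg fun _ _ => sq_nonneg _)).trans ?_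
  exact mul_le_mul (Real.sqrt_le_sqrt (haar_bessel b m0 M)) (Real.sqrt_le_sqrt (haar_bessel a m0 M))
    (Real.sqrt_nonneg _) (Real.sqrt_nonneg _)

end Crest.Agent.R079.HB945
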