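import Crest.Agent.R079.HB_945

/-! R079, Step II of doc 2531, abstract part with a METRIC: Haar-Bessel and pair Cauchy-Schwarz for
PSD quadratic forms `q` on a module (label vectors), boxes of all positions, masks, finite average
over labels `c = (x0, x3)`.  helper945. -/

set_option autoImplicit false
set_option linter.unusedVariables false
set_option linter.unusedSectionVars false

namespace Crest.Agent.R079.HB945

open Finset

section Quad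

variable {𝕜 : Type*} [RCLike 𝕜] {H : Type*} [AddCommGroup H] [Module 𝕜 H] {Q : ℕ} [NeZero Q]

/-- PSD quadratic form (only the parallelogram law with halves is used) -/
structure PSq (𝕜 : Type*) [RCLike 𝕜] {H : Type*} [AddCommGroup H] [Module 𝕜 H] (q : H → ℝ) :
    Prop where
  nonneg : ∀ x, 0 ≤ q x
  par : ∀ x y, q ((1 / 2 : 𝕜) • (x - y)) + q ((1 / 2 : 𝕜) • (x + y)) =
    (1 / 2) * q x + (1 / 2) * q y

/-- average over `[p, p + N)` (module version of `av`) -/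
noncomputable def mv (𝕜 : Type*) [RCLike 𝕜] {H : Type*} [AddCommGroup H] [Module 𝕜 H] {Q : ℕ}
    (f : ZMod Q → H) (N : ℕ) (p : ZMod Q) : H :=
  (1 / (N : 𝕜)) • ∑ i ∈ range N, f (p + (i : ZMod Q))

/-- Haar coefficient of `[p, p + 2N)` (module version of `dh`) -/
noncomputable def md (𝕜 : Type*) [RCLike 𝕜] {H : Type*} [AddCommGroup H] [Module 𝕜 H] {Q : ℕ}
    (f : ZMod Q → H) (N : ℕ) (p : ZMod Q) : H :=
  (1 / 2 : 𝕜) • (mv 𝕜 f N p - mv 𝕜 f N (p + (N : ZMod Q)))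

/-- energy at scale `N` in the metric `q` -/
noncomputable def me (𝕜 : Type*) [RCLike 𝕜] {H : Type*} [AddCommGroup H] [Module 𝕜 H] {Q : ℕ}
    [NeZero Q] (q : H → ℝ) (f : ZMod Q → H) (N : ℕ) : ℝ :=
  ∑ p : ZMod Q, q (mv 𝕜 f N p)

theorem me_nonneg {q : H → ℝ} (hq : PSq 𝕜 q) (f : ZMod Q → H) (N : ℕ) : 0 ≤ me 𝕜 q f N :=
  Finset.sum_nonneg fun _ _ => hq.nonneg _

theorem mv_double (f : ZMod Q → H) {N : ℕ} (hN : 0 < N) (p : ZMod Q) :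
    mv 𝕜 f (N + N) p = (1 / 2 : 𝕜) • (mv 𝕜 f N p + mv 𝕜 f N (p + (N : ZMod Q))) := by
  have hN' : (N : 𝕜) ≠ 0 := by exact_mod_cast hN.ne'
  unfold mv
  rw [Finset.sum_range_add, ← smul_add, smul_smul]
  have e : (1 / (((N + N : ℕ)) : 𝕜)) = 1 / 2 * (1 / (N : 𝕜)) := by
    push_cast
    field_simp
    norm_num
  rw [e]
  simp only [Nat.cast_add, ← add_assoc]

/-- exact one scale identity -/
theorem sum_md {q : H → ℝ} (hq : PSq 𝕜 q) (f : ZMod Q → H) {N : ℕ} (hN : 0 < N) :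
    ∑ p : ZMod Q, q (md 𝕜 f N p) = me 𝕜 q f N - me 𝕜 q f (N + N) := by
  have key : ∀ p : ZMod Q, q (md 𝕜 f N p) + q (mv 𝕜 f (N + N) p) =
      (1 / 2) * q (mv 𝕜 f N p) + (1 / 2) * q (mv 𝕜 f N (p + (N : ZMod Q))) := by
    intro p
    rw [mv_double f hN]
    exact hq.par _ _
  have h1 : ∑ p : ZMod Q, q (md 𝕜 f N p) + me 𝕜 q f (N + N) = me 𝕜 q f N := by
    unfold me
    rw [← Finset.sum_add_distrib, Finset.sum_congr rfl fun p _ => key p, Finset.sum_add_distrib,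
      ← Finset.mul_sum, ← Finset.mul_sum,
      sum_add_right (fun p => q (mv 𝕜 f N p)) (N : ZMod Q)]
    ring
  linarith

/-- right hand side of Haar-Bessel: leaf energy and the changes, metric `q` -/
noncomputable def HSq (𝕜 : Type*) [RCLike 𝕜] {H : Type*} [AddCommGroup H] [Module 𝕜 H] {Q : ℕ}
    [NeZero Q] (q : H → ℝ) (f : ℕ → ZMod Q → H) (m0 M : ℕ) : ℝ :=
  me 𝕜 q (f 0) (2 ^ m0) +
    ∑ m ∈ range M, (me 𝕜 q (f (m + 1)) (2 ^ (m0 + m)) - me 𝕜 q (f m) (2 ^ (m0 + m)))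

/-- **Haar-Bessel in the metric `q`**, all positions, masks, constant `1`. -/
theorem haar_besselq {q : H → ℝ} (hq : PSq 𝕜 q) (f : ℕ → ZMod Q → H) (m0 M : ℕ) :
    ∑ m ∈ range M, ∑ p : ZMod Q, q (md 𝕜 (f (m + 1)) (2 ^ (m0 + m)) p) ≤ HSq 𝕜 q f m0 M := by
  have h1 : ∀ m : ℕ, ∑ p : ZMod Q, q (md 𝕜 (f (m + 1)) (2 ^ (m0 + m)) p) =
      me 𝕜 q (f (m + 1)) (2 ^ (m0 + m)) - me 𝕜 q (f (m + 1)) (2 ^ (m0 + (m + 1))) := by
    intro m
    rw [sum_md hq _ (by positivity)]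
    congr 2
    rw [← add_assoc, pow_succ]
    ring
  have h2 : ∀ K : ℕ, ∑ m ∈ range K, ∑ p : ZMod Q, q (md 𝕜 (f (m + 1)) (2 ^ (m0 + m)) p) +
      me 𝕜 q (f K) (2 ^ (m0 + K)) = HSq 𝕜 q f m0 K := by
    intro K
    induction K with
    | zero => simp [HSq]
    | succ K ih =>
      rw [Finset.sum_range_succ, h1 K]
      unfold HSq at ih ⊢
      rw [Finset.sum_range_succ]
      linarith
  have := h2 M
  have h3 := me_nonneg hq (f M) (2 ^ (m0 + M))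
  linarith

theorem HSq_nonneg {q : H → ℝ} (hq : PSq 𝕜 q) (f : ℕ → ZMod Q → H) (m0 M : ℕ) :
    0 ≤ HSq 𝕜 q f m0 M :=
  le_trans (Finset.sum_nonneg fun _ _ => Finset.sum_nonneg fun _ _ => hq.nonneg _)
    (haar_besselq hq f m0 M)

/-- static function: only the leaf -/
theorem HSq_static (q : H → ℝ) (f : ZMod Q → H) (m0 M : ℕ) :
    HSq 𝕜 q (fun _ => f) m0 M = me 𝕜 q f (2 ^ m0) := by
  simp [HSq]

/-- the box `[p, p + N)` sees a change (module version) -/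
def Sees {H : Type*} {Q : ℕ} (f g : ZMod Q → H) (N : ℕ) (p : ZMod Q) : Prop :=
  ∃ i : ℕ, i < N ∧ f (p + (i : ZMod Q)) ≠ g (p + (i : ZMod Q))

theorem mv_congr {f g : ZMod Q → H} {N : ℕ} {p : ZMod Q} (h : ¬ Sees f g N p) :
    mv 𝕜 f N p = mv 𝕜 g N p := by
  unfold mv
  congr 1
  refine Finset.sum_congr rfl fun i hi => ?_
  by_contra hne
  exact h ⟨i, Finset.mem_range.1 hi, hne⟩

open Classical in
/-- only the boxes which see a change are paid -/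
theorem HSq_le {q : H → ℝ} (hq : PSq 𝕜 q) (f : ℕ → ZMod Q → H) (m0 M : ℕ) :
    HSq 𝕜 q f m0 M ≤ me 𝕜 q (f 0) (2 ^ m0) + ∑ m ∈ range M,
      ∑ p : ZMod Q, if Sees (f (m + 1)) (f m) (2 ^ (m0 + m)) p then
        q (mv 𝕜 (f (m + 1)) (2 ^ (m0 + m)) p) else 0 := by
  unfold HSq
  refine add_le_add le_rfl (Finset.sum_le_sum fun m _ => ?_)
  unfold me
  rw [← Finset.sum_sub_distrib]
  refine Finset.sum_le_sum fun p _ => ?_
  split_ifs with h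
  · have := hq.nonneg (mv 𝕜 (f m) (2 ^ (m0 + m)) p)
    linarith
  · rw [mv_congr (𝕜 := 𝕜) h, sub_self]

/-- one scale: pairs `(p, n - p)`, any finite average of offsets `n`; the pairing `B` is dominated
by the two metrics -/
theorem pair_scaleq {q₁ q₂ : H → ℝ} (h₁ : PSq 𝕜 q₁) (h₂ : PSq 𝕜 q₂) (B : H → H → ℝ)
    (hB : ∀ x y, B x y ≤ Real.sqrt (q₁ x) * Real.sqrt (q₂ y))
    {ι : Type*} (I : Finset ι) (w : ι → ℝ) (hw : ∀ i ∈ I, 0 ≤ w i)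
    (hw1 : ∑ i ∈ I, w i ≤ 1) (n : ι → ZMod Q) (b a : ZMod Q → H) (N : ℕ) :
    ∑ i ∈ I, w i * ∑ p : ZMod Q, B (md 𝕜 b N p) (md 𝕜 a N (n i - p)) ≤
      Real.sqrt (∑ p : ZMod Q, q₁ (md 𝕜 b N p)) * Real.sqrt (∑ p : ZMod Q, q₂ (md 𝕜 a N p)) := by
  set S := Real.sqrt (∑ p : ZMod Q, q₁ (md 𝕜 b N p)) *
    Real.sqrt (∑ p : ZMod Q, q₂ (md 𝕜 a N p)) with hS
  have hS0 : 0 ≤ S := mul_nonneg (Real.sqrt_nonneg _) (Real.sqrt_nonneg _)
  have h1 : ∀ i, ∑ p : ZMod Q, B (md 𝕜 b N p) (md 𝕜 a N (n i - p)) ≤ S := by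
    intro i
    have h2 : ∑ p : ZMod Q, B (md 𝕜 b N p) (md 𝕜 a N (n i - p)) ≤
        ∑ p : ZMod Q, Real.sqrt (q₁ (md 𝕜 b N p)) * Real.sqrt (q₂ (md 𝕜 a N (n i - p))) :=
      Finset.sum_le_sum fun p _ => hB _ _
    refine h2.trans ((Real.sum_sqrt_mul_sqrt_le _ (fun p => h₁.nonneg _)
      (fun p => h₂.nonneg _)).trans (le_of_eq ?_))
    rw [hS]
    congr 2
    exact Equiv.sum_comp (Equiv.subLeft (n i)) (fun p => q₂ (md 𝕜 a N p))
  calc ∑ i ∈ I, w i * ∑ p : ZMod Q, B (md 𝕜 b N p) (md 𝕜 a N (n i - p))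
      ≤ ∑ i ∈ I, w i * S := Finset.sum_le_sum fun i hi => mul_le_mul_of_nonneg_left (h1 i) (hw i hi)
    _ = (∑ i ∈ I, w i) * S := by rw [Finset.sum_mul]
    _ ≤ 1 * S := mul_le_mul_of_nonneg_right hw1 hS0
    _ = S := one_mul S

/-- **the pair inequality**, all scales, two metrics -/
theorem pair_sumq {q₁ q₂ : H → ℝ} (h₁ : PSq 𝕜 q₁) (h₂ : PSq 𝕜 q₂) (B : H → H → ℝ)
    (hB : ∀ x y, B x y ≤ Real.sqrt (q₁ x) * Real.sqrt (q₂ y))
    {ι : Type*} (I : ℕ → Finset ι) (w : ℕ → ι → ℝ) (hw : ∀ m, ∀ i ∈ I m, 0 ≤ w m i)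
    (hw1 : ∀ m, ∑ i ∈ I m, w m i ≤ 1) (n : ℕ → ι → ZMod Q) (b a : ℕ → ZMod Q → H) (m0 M : ℕ) :
    ∑ m ∈ range M, ∑ i ∈ I m, w m i * ∑ p : ZMod Q,
      B (md 𝕜 (b (m + 1)) (2 ^ (m0 + m)) p) (md 𝕜 (a (m + 1)) (2 ^ (m0 + m)) (n m i - p)) ≤
      Real.sqrt (HSq 𝕜 q₁ b m0 M) * Real.sqrt (HSq 𝕜 q₂ a m0 M) := by
  have hs1 : ∀ m ∈ range M, ∑ i ∈ I m, w m i * ∑ p : ZMod Q,
      B (md 𝕜 (b (m + 1)) (2 ^ (m0 + m)) p) (md 𝕜 (a (m + 1)) (2 ^ (m0 + m)) (n m i - p)) ≤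
      Real.sqrt (∑ p : ZMod Q, q₁ (md 𝕜 (b (m + 1)) (2 ^ (m0 + m)) p)) *
        Real.sqrt (∑ p : ZMod Q, q₂ (md 𝕜 (a (m + 1)) (2 ^ (m0 + m)) p)) := fun m _ =>
    pair_scaleq h₁ h₂ B hB (I m) (w m) (hw m) (hw1 m) (n m) _ _ _
  refine (Finset.sum_le_sum hs1).trans ?_
  refine (Real.sum_sqrt_mul_sqrt_le _ (fun m => Finset.sum_nonneg fun _ _ => h₁.nonneg _)
    (fun m => Finset.sum_nonneg fun _ _ => h₂.nonneg _)).trans ?_
  exact mul_le_mul (Real.sqrt_le_sqrt (haar_besselq h₁ b m0 M))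
    (Real.sqrt_le_sqrt (haar_besselq h₂ a m0 M)) (Real.sqrt_nonneg _) (Real.sqrt_nonneg _)

/-- **integrated form**: finite family of labels `c` (the frozen pair `(x0, x3)`), every label with
its own two metrics, letters and offsets, weights `μ c ≥ 0`. -/
theorem pair_intq {C : Type*} (S : Finset C) (μ : C → ℝ) (hμ : ∀ c ∈ S, 0 ≤ μ c)
    (q₁ q₂ : C → H → ℝ) (h₁ : ∀ c ∈ S, PSq 𝕜 (q₁ c)) (h₂ : ∀ c ∈ S, PSq 𝕜 (q₂ c))
    (B : H → H → ℝ) (hB : ∀ c ∈ S, ∀ x y, B x y ≤ Real.sqrt (q₁ c x) * Real.sqrt (q₂ c y))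
    {ι : Type*} (I : ℕ → Finset ι) (w : ℕ → ι → ℝ) (hw : ∀ m, ∀ i ∈ I m, 0 ≤ w m i)
    (hw1 : ∀ m, ∑ i ∈ I m, w m i ≤ 1) (n : C → ℕ → ι → ZMod Q) (b a : C → ℕ → ZMod Q → H)
    (m0 M : ℕ) :
    ∑ c ∈ S, μ c * ∑ m ∈ range M, ∑ i ∈ I m, w m i * ∑ p : ZMod Q,
      B (md 𝕜 (b c (m + 1)) (2 ^ (m0 + m)) p) (md 𝕜 (a c (m + 1)) (2 ^ (m0 + m)) (n c m i - p)) ≤
      Real.sqrt (∑ c ∈ S, μ c * HSq 𝕜 (q₁ c) (b c) m0 M) *
        Real.sqrt (∑ c ∈ S, μ c * HSq 𝕜 (q₂ c) (a c) m0 M) := by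
  have hs1 : ∀ c ∈ S, μ c * ∑ m ∈ range M, ∑ i ∈ I m, w m i * ∑ p : ZMod Q,
      B (md 𝕜 (b c (m + 1)) (2 ^ (m0 + m)) p) (md 𝕜 (a c (m + 1)) (2 ^ (m0 + m)) (n c m i - p)) ≤
      Real.sqrt (μ c * HSq 𝕜 (q₁ c) (b c) m0 M) * Real.sqrt (μ c * HSq 𝕜 (q₂ c) (a c) m0 M) := by
    intro c hc
    rw [Real.sqrt_mul (hμ c hc), Real.sqrt_mul (hμ c hc)]
    have h := pair_sumq (h₁ c hc) (h₂ c hc) B (hB c hc) I w hw hw1 (n c) (b c) (a c) m0 M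
    calc _ ≤ μ c * (Real.sqrt (HSq 𝕜 (q₁ c) (b c) m0 M) * Real.sqrt (HSq 𝕜 (q₂ c) (a c) m0 M)) :=
          mul_le_mul_of_nonneg_left h (hμ c hc)
      _ = (Real.sqrt (μ c) * Real.sqrt (μ c)) *
          (Real.sqrt (HSq 𝕜 (q₁ c) (b c) m0 M) * Real.sqrt (HSq 𝕜 (q₂ c) (a c) m0 M)) := by
          rw [Real.mul_self_sqrt (hμ c hc)]
      _ = _ := by ring
  refine (Finset.sum_le_sum hs1).trans ?_
  refine (Real.sum_mul_le_sqrt_mul_sqrt _ _ _).trans (le_of_eq ?_)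
  congr 2
  · exact Finset.sum_congr rfl fun c hc => Real.sq_sqrt (mul_nonneg (hμ c hc)
      (HSq_nonneg (h₁ c hc) _ _ _))
  · exact Finset.sum_congr rfl fun c hc => Real.sq_sqrt (mul_nonneg (hμ c hc)
      (HSq_nonneg (h₂ c hc) _ _ _))

end Quad

section Inst

variable {ι : Type*} [Fintype ι] [DecidableEq ι]

/-- quadratic form of a matrix -/
noncomputable def qf (G : Matrix ι ι ℂ) (x : ι → ℂ) : ℝ := (star x ⬝ᵥ G.mulVec x).re

/-- the form of any matrix satisfies the parallelogram law; only nonnegativity is asked -/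
theorem qf_PSq {G : Matrix ι ι ℂ} (hG : ∀ x, 0 ≤ qf G x) : PSq ℂ (qf G) where
  nonneg := hG
  par x y := by
    unfold qf
    have e2 : ∀ z : ℂ, ((1 / 2 : ℂ) * z).re = (1 / 2) * z.re := by
      intro z
      have : (1 / 2 : ℂ) * z = ((1 / 2 : ℝ) : ℂ) * z := by
        push_cast; ring
      rw [this, Complex.re_ofReal_mul]
    have e : (star (1 / 2 : ℂ)) = 1 / 2 := by
      simp
    simp only [star_smul, Matrix.mulVec_smul, smul_dotProduct, dotProduct_smul, smul_eq_mul,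
      star_add, star_sub, Matrix.mulVec_add, Matrix.mulVec_sub, add_dotProduct, dotProduct_add,
      sub_dotProduct, dotProduct_sub, e, e2, Complex.add_re, Complex.sub_re]
    ring

/-- sum of squares (identity metric) -/
theorem sq_PSq : PSq ℂ (fun x : ι → ℂ => ∑ i, ‖x i‖ ^ 2) where
  nonneg x := Finset.sum_nonneg fun _ _ => sq_nonneg _
  par x y := by
    rw [Finset.mul_sum, Finset.mul_sum, ← Finset.sum_add_distrib, ← Finset.sum_add_distrib]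
    refine Finset.sum_congr rfl fun i _ => ?_
    have h := parallelogram_law_with_norm ℝ (x i) (y i)
    simp only [Pi.smul_apply, Pi.sub_apply, Pi.add_apply, smul_eq_mul, norm_mul, mul_pow]
    have e : ‖(1 / 2 : ℂ)‖ ^ 2 = 1 / 4 := by
      rw [norm_div, norm_one, RCLike.norm_ofNat]
      norm_num
    rw [e]
    nlinarith [h]

end Inst

end Crest.Agent.R079.HB945
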