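import Mathlib

/-!
# R079, S1 `(G)` test: the spectral high part as a factorised one-gauge letter (helper881)

`A : m → n → ℂ` a finite complex matrix.  `exists_svd` : an orthonormal basis `X k` (labels `k : n`)
and singular values `s k ≥ 0` with `⟨A X k, A X l⟩ = δ s_k²`.
For `th > 0` the HIGH PART is `Z = ∑_{s k > th} (A X_k) X_k^*`, and `Z = lam • U V` with
`Gram U = Gram V = diag ζ`, `∑ ζ² = 1` (`lam = |Z|_HS`), rows
`lam th ∑_k |U x k|² ≤ ∑_y |A x y|²`, `lam th ∑_k |V k y|² ≤ ∑_x |A x y|²`,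
`⟨A, Z⟩ = lam²`.  Unnormalised (`hiFactor`) and normalised (`hiFactorE`) forms.
-/

open scoped BigOperators ComplexConjugate ComplexOrder

namespace Crest.Agent.R079.HiF881

variable {m n : Type*} [Fintype m] [Fintype n] [DecidableEq n]

/-- Singular value decomposition (right singular vectors). -/
theorem exists_svd (A : m → n → ℂ) :
    ∃ (X : n → n → ℂ) (s : n → ℝ), (∀ k, 0 ≤ s k) ∧
      (∀ k l, ∑ y, conj (X k y) * X l y = if k = l then 1 else 0) ∧
      (∀ y y', ∑ k, X k y * conj (X k y') = if y = y' then 1 else 0) ∧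
      (∀ k l, ∑ x, conj (∑ y, A x y * X k y) * (∑ y, A x y * X l y)
        = if k = l then ((s k : ℂ)) ^ 2 else 0) := by
  classical
  set M : Matrix m n ℂ := Matrix.of A with hM
  have hps : (M.conjTranspose * M).PosSemidef := Matrix.posSemidef_conjTranspose_mul_self M
  have hH : (M.conjTranspose * M).IsHermitian := hps.1
  set U : Matrix n n ℂ := (hH.eigenvectorUnitary : Matrix n n ℂ) with hU
  have hU1 : U.conjTranspose * U = 1 := by
    have := Unitary.coe_star_mul_self hH.eigenvectorUnitary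
    simpa [hU, Matrix.star_eq_conjTranspose] using this
  have hU2 : U * U.conjTranspose = 1 := by
    have := Unitary.coe_mul_star_self hH.eigenvectorUnitary
    simpa [hU, Matrix.star_eq_conjTranspose] using this
  have hnn : ∀ k, 0 ≤ hH.eigenvalues k := fun k => hps.eigenvalues_nonneg k
  have heig : (M.conjTranspose * M) * U
      = U * Matrix.diagonal (fun k => ((hH.eigenvalues k : ℝ) : ℂ)) := by
    ext y l
    have h := hH.mulVec_eigenvectorBasis l
    have h2 := congrFun h y
    rw [Matrix.mul_diagonal]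
    have h3 : ∀ y, U y l = (hH.eigenvectorBasis l) y := fun y => by
      rw [hU]; exact hH.eigenvectorUnitary_apply y l
    rw [Matrix.mul_apply]
    simp only [h3]
    have h4 : ((M.conjTranspose * M).mulVec (⇑(hH.eigenvectorBasis l))) y
        = ∑ j, (M.conjTranspose * M) y j * (hH.eigenvectorBasis l) j := rfl
    rw [← h4, h2]
    simp [Pi.smul_apply, mul_comm]
  refine ⟨fun k y => U y k, fun k => Real.sqrt (hH.eigenvalues k),
    fun k => Real.sqrt_nonneg _, ?_, ?_, ?_⟩
  · intro k l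
    have := congrFun (congrFun hU1 k) l
    rw [Matrix.mul_apply, Matrix.one_apply] at this
    simpa [Matrix.conjTranspose_apply] using this
  · intro y y'
    have := congrFun (congrFun hU2 y) y'
    rw [Matrix.mul_apply, Matrix.one_apply] at this
    simpa [Matrix.conjTranspose_apply] using this
  · intro k l
    have h1 : (M * U).conjTranspose * (M * U)
        = Matrix.diagonal (fun k => ((hH.eigenvalues k : ℝ) : ℂ)) := by
      rw [Matrix.conjTranspose_mul, Matrix.mul_assoc, ← Matrix.mul_assoc M.conjTranspose, heig,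
        ← Matrix.mul_assoc, hU1, Matrix.one_mul]
    have h2 := congrFun (congrFun h1 k) l
    rw [Matrix.mul_apply, Matrix.diagonal_apply] at h2
    simp only [Matrix.conjTranspose_apply, Matrix.mul_apply, hM, Matrix.of_apply] at h2
    have h3 : ((Real.sqrt (hH.eigenvalues k) : ℝ) : ℂ) ^ 2 = ((hH.eigenvalues k : ℝ) : ℂ) := by
      rw [← Complex.ofReal_pow, Real.sq_sqrt (hnn k)]
    rw [h3]
    simpa using h2

/-! ## the high part and its factors -/

/-- the data of a (right) singular value decomposition of `A` -/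
structure SVD (A : m → n → ℂ) (X : n → n → ℂ) (s : n → ℝ) : Prop where
  nn : ∀ k, 0 ≤ s k
  orth : ∀ k l, ∑ y, conj (X k y) * X l y = if k = l then 1 else 0
  comp : ∀ y y', ∑ k, X k y * conj (X k y') = if y = y' then 1 else 0
  gram : ∀ k l, ∑ x, conj (∑ y, A x y * X k y) * (∑ y, A x y * X l y)
        = if k = l then ((s k : ℂ)) ^ 2 else 0

theorem exists_SVD (A : m → n → ℂ) : ∃ X s, SVD A X s := by
  obtain ⟨X, s, h1, h2, h3, h4⟩ := exists_svd A
  exact ⟨X, s, h1, h2, h3, h4⟩

/-- `A X_k` -/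
noncomputable def AX (A : m → n → ℂ) (X : n → n → ℂ) (k : n) (x : m) : ℂ := ∑ y, A x y * X k y

/-- high singular values -/
noncomputable def hi (s : n → ℝ) (th : ℝ) (k : n) : ℝ := if th < s k then s k else 0

/-- HS norm of the high part -/
noncomputable def lam (s : n → ℝ) (th : ℝ) : ℝ := Real.sqrt (∑ k, hi s th k ^ 2)

/-- normalised labels -/
noncomputable def zet (s : n → ℝ) (th : ℝ) (k : n) : ℝ := hi s th k / lam s th

/-- high part `Z = ∑_{s k > th} (A X_k) X_k^*` -/
noncomputable def Zh (A : m → n → ℂ) (X : n → n → ℂ) (s : n → ℝ) (th : ℝ) (x : m) (y : n) : ℂ :=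
  ∑ k, if th < s k then AX A X k x * conj (X k y) else 0

/-- left factor -/
noncomputable def Uf (A : m → n → ℂ) (X : n → n → ℂ) (s : n → ℝ) (th : ℝ) (x : m) (k : n) : ℂ :=
  if th < s k then (Real.sqrt (zet s th k) : ℂ) * ((s k : ℂ)⁻¹ * AX A X k x) else 0

/-- right factor -/
noncomputable def Vf (X : n → n → ℂ) (s : n → ℝ) (th : ℝ) (k : n) (y : n) : ℂ :=
  (Real.sqrt (zet s th k) : ℂ) * conj (X k y)

omit [DecidableEq n] in
theorem lam_nonneg (s : n → ℝ) (th : ℝ) : 0 ≤ lam s th := Real.sqrt_nonneg _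

omit [DecidableEq n] in
theorem lam_sq (s : n → ℝ) (th : ℝ) : lam s th ^ 2 = ∑ k, hi s th k ^ 2 :=
  Real.sq_sqrt (Finset.sum_nonneg fun _ _ => sq_nonneg _)

omit [Fintype n] [DecidableEq n] in
theorem hi_nonneg {s : n → ℝ} (hs : ∀ k, 0 ≤ s k) (th : ℝ) (k : n) : 0 ≤ hi s th k := by
  unfold hi; split_ifs
  · exact hs k
  · exact le_rfl

omit [DecidableEq n] in
theorem hi_le_lam {s : n → ℝ} (_hs : ∀ k, 0 ≤ s k) (th : ℝ) (k : n) : hi s th k ≤ lam s th := by
  apply Real.le_sqrt_of_sq_le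
  exact Finset.single_le_sum (f := fun k => hi s th k ^ 2) (fun _ _ => sq_nonneg _)
    (Finset.mem_univ k)

omit [DecidableEq n] in
theorem lam_pos {s : n → ℝ} (hs : ∀ k, 0 ≤ s k) {th : ℝ} (hth : 0 < th) {k : n}
    (hk : th < s k) : 0 < lam s th := by
  have h := hi_le_lam hs th k
  have : hi s th k = s k := by simp [hi, hk]
  rw [this] at h
  linarith

omit [DecidableEq n] in
theorem zet_nonneg {s : n → ℝ} (hs : ∀ k, 0 ≤ s k) (th : ℝ) (k : n) : 0 ≤ zet s th k :=
  div_nonneg (hi_nonneg hs th k) (lam_nonneg s th)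

omit [DecidableEq n] in
theorem zet_le_one {s : n → ℝ} (hs : ∀ k, 0 ≤ s k) (th : ℝ) (k : n) : zet s th k ≤ 1 :=
  div_le_one_of_le₀ (hi_le_lam hs th k) (lam_nonneg s th)

omit [DecidableEq n] in
theorem zet_zero {s : n → ℝ} {th : ℝ} {k : n} (hk : ¬ th < s k) : zet s th k = 0 := by
  simp [zet, hi, hk]

omit [DecidableEq n] in
theorem sum_zet_sq_mul (s : n → ℝ) (th : ℝ) :
    lam s th ^ 2 * ∑ k, zet s th k ^ 2 = lam s th ^ 2 := by
  by_cases h : lam s th = 0
  · simp [h]
  · have : ∑ k, zet s th k ^ 2 = (∑ k, hi s th k ^ 2) / lam s th ^ 2 := by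
      rw [Finset.sum_div]
      exact Finset.sum_congr rfl fun k _ => by rw [zet, div_pow]
    rw [this, ← lam_sq, div_self (pow_ne_zero 2 h), mul_one]

omit [DecidableEq n] in
theorem sum_zet_sq_eq {s : n → ℝ} {th : ℝ} (h : lam s th ≠ 0) : ∑ k, zet s th k ^ 2 = 1 := by
  have h2 : lam s th ^ 2 ≠ 0 := pow_ne_zero 2 h
  have := sum_zet_sq_mul s th
  field_simp at this
  exact this

omit [DecidableEq n] in
theorem sum_zet_sq_le (s : n → ℝ) (th : ℝ) : ∑ k, zet s th k ^ 2 ≤ 1 := by
  by_cases h : lam s th = 0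
  · have : ∀ k, zet s th k = 0 := fun k => by rw [zet, h, div_zero]
    simp [this]
  · exact (sum_zet_sq_eq h).le

omit [DecidableEq n] in
theorem sqrt_zet_sq {s : n → ℝ} (hs : ∀ k, 0 ≤ s k) (th : ℝ) (k : n) :
    (Real.sqrt (zet s th k) : ℂ) * (Real.sqrt (zet s th k) : ℂ) = (zet s th k : ℂ) := by
  rw [← Complex.ofReal_mul, Real.mul_self_sqrt (zet_nonneg hs th k)]

/-- `lam • U V = Z` -/
theorem lam_UV {A : m → n → ℂ} {X : n → n → ℂ} {s : n → ℝ} (h : SVD A X s) {th : ℝ}
    (hth : 0 < th) (x : m) (y : n) :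
    (lam s th : ℂ) * ∑ k, Uf A X s th x k * Vf X s th k y = Zh A X s th x y := by
  rw [Zh, Finset.mul_sum]
  refine Finset.sum_congr rfl fun k _ => ?_
  by_cases hk : th < s k
  · have hl : (lam s th : ℂ) ≠ 0 := by exact_mod_cast (lam_pos h.nn hth hk).ne'
    have hsk : (s k : ℂ) ≠ 0 := by exact_mod_cast (hth.trans hk).ne'
    have hz := sqrt_zet_sq h.nn th k
    have hz2 : (zet s th k : ℂ) = (s k : ℂ) / (lam s th : ℂ) := by
      simp [zet, hi, hk]
    simp only [Uf, Vf, hk, if_true]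
    calc (lam s th : ℂ) * ((Real.sqrt (zet s th k) : ℂ) * ((s k : ℂ)⁻¹ * AX A X k x)
            * ((Real.sqrt (zet s th k) : ℂ) * conj (X k y)))
        = (lam s th : ℂ) * ((Real.sqrt (zet s th k) : ℂ) * (Real.sqrt (zet s th k) : ℂ))
            * (s k : ℂ)⁻¹ * (AX A X k x * conj (X k y)) := by ring
      _ = AX A X k x * conj (X k y) := by
          rw [hz, hz2]; field_simp
  · simp [Uf, hk]

/-- Gram matrix of the left factor -/
theorem gramU {A : m → n → ℂ} {X : n → n → ℂ} {s : n → ℝ} (h : SVD A X s) {th : ℝ}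
    (hth : 0 < th) (k l : n) :
    ∑ x, conj (Uf A X s th x k) * Uf A X s th x l = if k = l then (zet s th k : ℂ) else 0 := by
  by_cases hk : th < s k
  · by_cases hl : th < s l
    · have hsk : (s k : ℂ) ≠ 0 := by exact_mod_cast (hth.trans hk).ne'
      simp only [Uf, hk, hl, if_true]
      have : ∀ x, conj ((Real.sqrt (zet s th k) : ℂ) * ((s k : ℂ)⁻¹ * AX A X k x))
            * ((Real.sqrt (zet s th l) : ℂ) * ((s l : ℂ)⁻¹ * AX A X l x))
          = ((Real.sqrt (zet s th k) : ℂ) * (Real.sqrt (zet s th l) : ℂ)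
              * ((s k : ℂ)⁻¹ * (s l : ℂ)⁻¹))
            * (conj (∑ y, A x y * X k y) * (∑ y, A x y * X l y)) := by
        intro x
        simp only [map_mul, map_inv₀, Complex.conj_ofReal, AX]
        ring
      rw [Finset.sum_congr rfl fun x _ => this x, ← Finset.mul_sum, h.gram]
      by_cases hkl : k = l
      · subst hkl
        simp only [if_true]
        rw [sqrt_zet_sq h.nn]
        field_simp
      · simp [hkl]
    · have : ∀ x, Uf A X s th x l = 0 := fun x => by simp [Uf, hl]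
      simp only [this, mul_zero, Finset.sum_const_zero]
      by_cases hkl : k = l
      · subst hkl; exact absurd hk hl
      · simp [hkl]
  · have : ∀ x, Uf A X s th x k = 0 := fun x => by simp [Uf, hk]
    simp only [this, map_zero, zero_mul, Finset.sum_const_zero]
    simp [zet_zero hk]

/-- Gram matrix of the right factor -/
theorem gramV {A : m → n → ℂ} {X : n → n → ℂ} {s : n → ℝ} (h : SVD A X s) (th : ℝ) (k l : n) :
    ∑ y, conj (Vf X s th k y) * Vf X s th l y = if k = l then (zet s th k : ℂ) else 0 := by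
  have : ∀ y, conj (Vf X s th k y) * Vf X s th l y
      = ((Real.sqrt (zet s th k) : ℂ) * (Real.sqrt (zet s th l) : ℂ))
        * (conj (X l y) * X k y) := by
    intro y
    simp only [Vf, map_mul, Complex.conj_ofReal, Complex.conj_conj]
    ring
  rw [Finset.sum_congr rfl fun y _ => this y, ← Finset.mul_sum, h.orth]
  by_cases hkl : k = l
  · subst hkl
    simp only [if_true, mul_one]
    exact sqrt_zet_sq h.nn th k
  · simp [hkl, Ne.symm hkl]

/-- Parseval in the basis `X` for the row of `A` -/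
theorem row_parseval {A : m → n → ℂ} {X : n → n → ℂ} {s : n → ℝ} (h : SVD A X s) (x : m) :
    ∑ k, ‖AX A X k x‖ ^ 2 = ∑ y, ‖A x y‖ ^ 2 := by
  have key : ∑ k, AX A X k x * conj (AX A X k x) = ∑ y, A x y * conj (A x y) := by
    simp only [AX, map_sum, map_mul, Finset.sum_mul_sum]
    rw [Finset.sum_comm]
    refine Finset.sum_congr rfl fun y _ => ?_
    rw [Finset.sum_comm]
    have : ∀ y', ∑ k, A x y * X k y * (conj (A x y') * conj (X k y'))
        = A x y * conj (A x y') * (if y = y' then 1 else 0) := by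
      intro y'
      rw [← h.comp y y', Finset.mul_sum]
      exact Finset.sum_congr rfl fun k _ => by ring
    rw [Finset.sum_congr rfl fun y' _ => this y']
    simp
  have h1 : ∀ z : ℂ, z * conj z = ((‖z‖ ^ 2 : ℝ) : ℂ) := fun z => by
    rw [Complex.mul_conj, Complex.normSq_eq_norm_sq]
  simp only [h1] at key
  exact_mod_cast key

/-- expansion of `A` in the basis `X` -/
theorem expand {A : m → n → ℂ} {X : n → n → ℂ} {s : n → ℝ} (h : SVD A X s) (x : m) (y : n) :
    A x y = ∑ k, AX A X k x * conj (X k y) := by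
  simp only [AX, Finset.sum_mul]
  rw [Finset.sum_comm]
  have : ∀ y', ∑ k, A x y' * X k y' * conj (X k y) = A x y' * (if y' = y then 1 else 0) := by
    intro y'
    rw [← h.comp y' y, Finset.mul_sum]
    exact Finset.sum_congr rfl fun k _ => by ring
  rw [Finset.sum_congr rfl fun y' _ => this y']
  simp

/-- norms of the columns of a sum `∑ c_k (A X_k) conj (X_k y)` -/
theorem col_parseval_gen {A : m → n → ℂ} {X : n → n → ℂ} {s : n → ℝ} (h : SVD A X s)
    (c : n → ℝ) (y : n) :
    ∑ x, ‖∑ k, (c k : ℂ) * (AX A X k x * conj (X k y))‖ ^ 2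
      = ∑ k, c k ^ 2 * s k ^ 2 * ‖X k y‖ ^ 2 := by
  have h1 : ∀ z : ℂ, conj z * z = ((‖z‖ ^ 2 : ℝ) : ℂ) := fun z => by
    rw [mul_comm, Complex.mul_conj, Complex.normSq_eq_norm_sq]
  have key : ∑ x, conj (∑ k, (c k : ℂ) * (AX A X k x * conj (X k y)))
        * (∑ k, (c k : ℂ) * (AX A X k x * conj (X k y)))
      = ∑ k, (c k : ℂ) ^ 2 * (s k : ℂ) ^ 2 * (conj (X k y) * X k y) := by
    simp only [map_sum, Finset.sum_mul_sum]
    rw [Finset.sum_comm]
    refine Finset.sum_congr rfl fun k _ => ?_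
    rw [Finset.sum_comm]
    have : ∀ l, ∑ x, conj ((c k : ℂ) * (AX A X k x * conj (X k y)))
          * ((c l : ℂ) * (AX A X l x * conj (X l y)))
        = ((c k : ℂ) * (c l : ℂ) * (X k y * conj (X l y)))
            * (if k = l then ((s k : ℂ)) ^ 2 else 0) := by
      intro l
      rw [← h.gram k l, Finset.mul_sum]
      refine Finset.sum_congr rfl fun x _ => ?_
      simp only [AX, map_mul, Complex.conj_ofReal, Complex.conj_conj]
      ring
    rw [Finset.sum_congr rfl fun l _ => this l]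
    simp only [mul_ite, mul_zero, Finset.sum_ite_eq, Finset.mem_univ, if_true]
    ring
  simp only [h1] at key
  exact_mod_cast key

/-- norms of the columns of `A` -/
theorem col_parseval {A : m → n → ℂ} {X : n → n → ℂ} {s : n → ℝ} (h : SVD A X s) (y : n) :
    ∑ k, s k ^ 2 * ‖X k y‖ ^ 2 = ∑ x, ‖A x y‖ ^ 2 := by
  have := col_parseval_gen h (fun _ => 1) y
  simp only [Complex.ofReal_one, one_mul, one_pow] at this
  rw [← this]
  exact Finset.sum_congr rfl fun x _ => by rw [← expand h x y]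

/-- rows of the left factor -/
theorem rowU {A : m → n → ℂ} {X : n → n → ℂ} {s : n → ℝ} (h : SVD A X s) {th : ℝ}
    (hth : 0 < th) (x : m) :
    lam s th * th * ∑ k, ‖Uf A X s th x k‖ ^ 2 ≤ ∑ y, ‖A x y‖ ^ 2 := by
  rw [← row_parseval h x, Finset.mul_sum]
  refine Finset.sum_le_sum fun k _ => ?_
  by_cases hk : th < s k
  · have hl : 0 < lam s th := lam_pos h.nn hth hk
    have hsk : 0 < s k := hth.trans hk
    have hz2 : zet s th k = s k / lam s th := by simp [zet, hi, hk]
    have : ‖Uf A X s th x k‖ ^ 2 = zet s th k * ((s k)⁻¹ ^ 2 * ‖AX A X k x‖ ^ 2) := by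
      simp only [Uf, hk, if_true, norm_mul, Complex.norm_real, norm_inv, mul_pow,
        Real.norm_of_nonneg (Real.sqrt_nonneg _), Real.norm_of_nonneg hsk.le,
        Real.sq_sqrt (zet_nonneg h.nn th k)]
    rw [this, hz2]
    have h2 : lam s th * th * (s k / lam s th * ((s k)⁻¹ ^ 2 * ‖AX A X k x‖ ^ 2))
        = (th / s k) * ‖AX A X k x‖ ^ 2 := by field_simp
    rw [h2]
    have h3 : th / s k ≤ 1 := (div_le_one hsk).2 hk.le
    nlinarith [sq_nonneg ‖AX A X k x‖]
  · simp only [Uf, hk, if_false]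
    simp

/-- rows of the right factor -/
theorem rowV {A : m → n → ℂ} {X : n → n → ℂ} {s : n → ℝ} (h : SVD A X s) {th : ℝ}
    (hth : 0 < th) (y : n) :
    lam s th * th * ∑ k, ‖Vf X s th k y‖ ^ 2 ≤ ∑ x, ‖A x y‖ ^ 2 := by
  rw [← col_parseval h y, Finset.mul_sum]
  refine Finset.sum_le_sum fun k _ => ?_
  have hV : ‖Vf X s th k y‖ ^ 2 = zet s th k * ‖X k y‖ ^ 2 := by
    simp only [Vf, norm_mul, Complex.norm_real, mul_pow, RCLike.norm_conj,
      Real.norm_of_nonneg (Real.sqrt_nonneg _), Real.sq_sqrt (zet_nonneg h.nn th k)]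
  rw [hV]
  by_cases hk : th < s k
  · have hl : 0 < lam s th := lam_pos h.nn hth hk
    have hsk : 0 < s k := hth.trans hk
    have hz2 : zet s th k = s k / lam s th := by simp [zet, hi, hk]
    rw [hz2]
    have h2 : lam s th * th * (s k / lam s th * ‖X k y‖ ^ 2) = (th * s k) * ‖X k y‖ ^ 2 := by
      field_simp
    rw [h2]
    have h3 : th * s k ≤ s k ^ 2 := by nlinarith
    exact mul_le_mul_of_nonneg_right h3 (sq_nonneg _)
  · rw [zet_zero hk]
    have := h.nn k
    have h4 : 0 ≤ s k ^ 2 * ‖X k y‖ ^ 2 := by positivity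
    simpa using h4

/-- `⟨A, Z⟩ = lam²` -/
theorem inner_AZ {A : m → n → ℂ} {X : n → n → ℂ} {s : n → ℝ} (h : SVD A X s) {th : ℝ} :
    ∑ x, ∑ y, A x y * conj (Zh A X s th x y) = ((lam s th ^ 2 : ℝ) : ℂ) := by
  have h1 : ∀ x, ∑ y, A x y * conj (Zh A X s th x y)
      = ∑ k, if th < s k then conj (AX A X k x) * AX A X k x else 0 := by
    intro x
    have h2 : ∀ y, A x y * conj (Zh A X s th x y)
        = ∑ k, if th < s k then conj (AX A X k x) * (A x y * X k y) else 0 := by
      intro y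
      rw [Zh, map_sum, Finset.mul_sum]
      refine Finset.sum_congr rfl fun k _ => ?_
      split_ifs with hk
      · rw [map_mul, Complex.conj_conj]; ring
      · simp
    rw [Finset.sum_congr rfl fun y _ => h2 y, Finset.sum_comm]
    refine Finset.sum_congr rfl fun k _ => ?_
    split_ifs with hk
    · rw [← Finset.mul_sum, ← AX]
    · simp
  rw [Finset.sum_congr rfl fun x _ => h1 x, Finset.sum_comm, lam_sq]
  push_cast
  refine Finset.sum_congr rfl fun k _ => ?_
  by_cases hk : th < s k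
  · simp only [hk, if_true, hi, AX]
    rw [h.gram k k]; simp
  · simp [hk, hi]

/-- `∑ |Z|² = lam²` -/
theorem sum_Z_sq {A : m → n → ℂ} {X : n → n → ℂ} {s : n → ℝ} (h : SVD A X s) {th : ℝ} :
    ∑ x, ∑ y, ‖Zh A X s th x y‖ ^ 2 = lam s th ^ 2 := by
  rw [Finset.sum_comm]
  have h1 : ∀ y, ∑ x, ‖Zh A X s th x y‖ ^ 2
      = ∑ k, (hi s th k) ^ 2 * ‖X k y‖ ^ 2 := by
    intro y
    have := col_parseval_gen h (fun k => if th < s k then 1 else 0) y
    have h2 : ∀ x, Zh A X s th x y
        = ∑ k, (((if th < s k then (1 : ℝ) else 0) : ℝ) : ℂ) * (AX A X k x * conj (X k y)) := by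
      intro x
      rw [Zh]
      refine Finset.sum_congr rfl fun k _ => ?_
      split_ifs <;> simp
    simp only [h2]
    rw [this]
    refine Finset.sum_congr rfl fun k _ => ?_
    unfold hi
    split_ifs <;> simp
  rw [Finset.sum_congr rfl fun y _ => h1 y, Finset.sum_comm, lam_sq]
  refine Finset.sum_congr rfl fun k _ => ?_
  rw [← Finset.mul_sum]
  have h3 : ∑ y, ‖X k y‖ ^ 2 = 1 := by
    have h4 := h.orth k k
    have h5 : ∀ z : ℂ, conj z * z = ((‖z‖ ^ 2 : ℝ) : ℂ) := fun z => by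
      rw [mul_comm, Complex.mul_conj, Complex.normSq_eq_norm_sq]
    simp only [h5, if_true] at h4
    exact_mod_cast h4
  rw [h3, mul_one]

/-- the test: `⟨A, U V⟩ = lam` -/
theorem inner_A_UV {A : m → n → ℂ} {X : n → n → ℂ} {s : n → ℝ} (h : SVD A X s) {th : ℝ}
    (hth : 0 < th) :
    ∑ x, ∑ y, A x y * conj (∑ k, Uf A X s th x k * Vf X s th k y) = ((lam s th : ℝ) : ℂ) := by
  have h1 := inner_AZ h (th := th)
  simp only [← lam_UV h hth, map_mul, Complex.conj_ofReal] at h1
  by_cases hl : lam s th = 0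
  · have hk : ∀ k, ¬ th < s k := fun k hk => (lam_pos h.nn hth hk).ne' hl
    rw [hl]
    simp [Uf, hk]
  · have hl' : (lam s th : ℂ) ≠ 0 := by exact_mod_cast hl
    apply mul_left_cancel₀ hl'
    have h2 : (lam s th : ℂ) * ∑ x, ∑ y, A x y * conj (∑ k, Uf A X s th x k * Vf X s th k y)
        = ∑ x, ∑ y, A x y * ((lam s th : ℂ) * conj (∑ k, Uf A X s th x k * Vf X s th k y)) := by
      rw [Finset.mul_sum]
      refine Finset.sum_congr rfl fun x _ => ?_
      rw [Finset.mul_sum]
      exact Finset.sum_congr rfl fun y _ => by ring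
    rw [h2, h1]
    push_cast
    ring

end Crest.Agent.R079.HiF881
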