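import Mathlib

/-! R079, [S1.G_test_factor], complement half (helper39): for a finite complex matrix `A` and a set `K` of
singular indices (e.g. `σ_k > th`) the part `Z = A P` on `K`: rows, columns, operator bound of `A - Z`. -/

set_option autoImplicit false
set_option linter.unusedSectionVars false

open Matrix Finset

namespace Crest.Agent.R079.HiG39

variable {m n : Type*} [Fintype m] [Fintype n] [DecidableEq n]

/-- `A = B Uᴴ`, `U` unitary, `B` with orthogonal columns of squared lengths `ev` -/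
structure Sv (A : Matrix m n ℂ) (U : Matrix n n ℂ) (B : Matrix m n ℂ) (ev : n → ℝ) : Prop where
  u1 : U * Uᴴ = 1
  u2 : Uᴴ * U = 1
  nn : ∀ k, 0 ≤ ev k
  bb : Bᴴ * B = diagonal (fun k => (ev k : ℂ))
  ab : A = B * Uᴴ

theorem ct_mul_self_apply (Y : Matrix m n ℂ) (j : n) :
    (Yᴴ * Y) j j = ((∑ i, ‖Y i j‖ ^ 2 : ℝ) : ℂ) := by
  rw [Matrix.mul_apply]
  push_cast
  refine Finset.sum_congr rfl fun i _ => ?_
  rw [conjTranspose_apply, RCLike.star_def, RCLike.conj_mul]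
  norm_cast

theorem mul_ct_self_apply (Y : Matrix m n ℂ) (i : m) :
    (Y * Yᴴ) i i = ((∑ j, ‖Y i j‖ ^ 2 : ℝ) : ℂ) := by
  rw [Matrix.mul_apply]
  push_cast
  refine Finset.sum_congr rfl fun j _ => ?_
  rw [conjTranspose_apply, RCLike.star_def, RCLike.mul_conj]
  norm_cast

theorem exists_sv (A : Matrix m n ℂ) : ∃ U B ev, Sv A U B ev := by
  have hH : (Aᴴ * A).IsHermitian := isHermitian_conjTranspose_mul_self A
  have h1 : (hH.eigenvectorUnitary : Matrix n n ℂ) * (hH.eigenvectorUnitary : Matrix n n ℂ)ᴴ = 1 :=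
    Unitary.coe_mul_star_self _
  have h2 : (hH.eigenvectorUnitary : Matrix n n ℂ)ᴴ * (hH.eigenvectorUnitary : Matrix n n ℂ) = 1 :=
    Unitary.coe_star_mul_self _
  have hbb : (A * (hH.eigenvectorUnitary : Matrix n n ℂ))ᴴ * (A * (hH.eigenvectorUnitary : Matrix n n ℂ))
      = diagonal (fun k => ((hH.eigenvalues k : ℝ) : ℂ)) := by
    have h3 := hH.conjStarAlgAut_star_eigenvectorUnitary
    rw [Unitary.conjStarAlgAut_star_apply] at h3
    rw [conjTranspose_mul]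
    calc (hH.eigenvectorUnitary : Matrix n n ℂ)ᴴ * Aᴴ * (A * (hH.eigenvectorUnitary : Matrix n n ℂ))
        = (hH.eigenvectorUnitary : Matrix n n ℂ)ᴴ * (Aᴴ * A) * (hH.eigenvectorUnitary : Matrix n n ℂ) := by
          simp only [Matrix.mul_assoc]
      _ = _ := by
          rw [← star_eq_conjTranspose (hH.eigenvectorUnitary : Matrix n n ℂ)]
          rw [h3]
          rfl
  refine ⟨hH.eigenvectorUnitary, A * (hH.eigenvectorUnitary : Matrix n n ℂ), hH.eigenvalues, h1, h2, ?_, hbb, ?_⟩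
  · intro k
    have h4 := congrFun (congrFun hbb k) k
    rw [ct_mul_self_apply, diagonal_apply_eq] at h4
    have h5 : (∑ i, ‖(A * (hH.eigenvectorUnitary : Matrix n n ℂ)) i k‖ ^ 2 : ℝ) = hH.eigenvalues k := by
      exact_mod_cast h4
    rw [← h5]; positivity
  · rw [Matrix.mul_assoc, h1, Matrix.mul_one]

/-- restriction of `B` to the columns in `K` -/
noncomputable def cut (B : Matrix m n ℂ) (K : n → Prop) [DecidablePred K] : Matrix m n ℂ :=
  fun i k => if K k then B i k else 0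

variable {A : Matrix m n ℂ} {U : Matrix n n ℂ} {B : Matrix m n ℂ} {ev : n → ℝ}

theorem Sv.row (h : Sv A U B ev) (X : Matrix m n ℂ) (i : m) :
    ∑ j, ‖(X * Uᴴ) i j‖ ^ 2 = ∑ k, ‖X i k‖ ^ 2 := by
  have h1 : (X * Uᴴ) * (X * Uᴴ)ᴴ = X * Xᴴ := by
    rw [conjTranspose_mul, conjTranspose_conjTranspose, Matrix.mul_assoc, ← Matrix.mul_assoc Uᴴ, h.u2,
      Matrix.one_mul]
  have h2 := congrFun (congrFun h1 i) i
  rw [mul_ct_self_apply, mul_ct_self_apply] at h2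
  exact_mod_cast h2

theorem Sv.colB (h : Sv A U B ev) (k : n) : ∑ i, ‖B i k‖ ^ 2 = ev k := by
  have h4 := congrFun (congrFun h.bb k) k
  rw [ct_mul_self_apply, diagonal_apply_eq] at h4
  exact_mod_cast h4

/-- rows: exact splitting -/
theorem Sv.row_split (h : Sv A U B ev) (K : n → Prop) [DecidablePred K] (i : m) :
    (∑ j, ‖(cut B K * Uᴴ) i j‖ ^ 2) + ∑ j, ‖(A - cut B K * Uᴴ) i j‖ ^ 2 = ∑ j, ‖A i j‖ ^ 2 := by
  have h1 : A - cut B K * Uᴴ = (B - cut B K) * Uᴴ := by rw [Matrix.sub_mul, ← h.ab]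
  rw [h1, h.row, h.row]
  have h2 : ∑ j, ‖A i j‖ ^ 2 = ∑ k, ‖B i k‖ ^ 2 := by
    conv_lhs => rw [h.ab]
    exact h.row B i
  rw [h2, ← Finset.sum_add_distrib]
  refine Finset.sum_congr rfl fun k _ => ?_
  simp only [cut, Matrix.sub_apply]
  split_ifs <;> simp

theorem Sv.row_le (h : Sv A U B ev) (K : n → Prop) [DecidablePred K] (i : m) :
    ∑ j, ‖(cut B K * Uᴴ) i j‖ ^ 2 ≤ ∑ j, ‖A i j‖ ^ 2 := by
  rw [← h.row_split K i]
  exact le_add_of_nonneg_right (by positivity)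

theorem Sv.row_le' (h : Sv A U B ev) (K : n → Prop) [DecidablePred K] (i : m) :
    ∑ j, ‖(A - cut B K * Uᴴ) i j‖ ^ 2 ≤ ∑ j, ‖A i j‖ ^ 2 := by
  rw [← h.row_split K i]
  exact le_add_of_nonneg_left (by positivity)

/-- vectors: `|X D y|² = Σ ev_k |y_k|²` for `X` = cut of `B` -/
theorem Sv.vec (h : Sv A U B ev) (X : Matrix m n ℂ) (K : n → Prop) [DecidablePred K]
    (hX : X = cut B K) (y : n → ℂ) :
    ∑ i, ‖(X *ᵥ y) i‖ ^ 2 = ∑ k, (if K k then ev k * ‖y k‖ ^ 2 else 0) := by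
  have h1 : X *ᵥ y = B *ᵥ (fun k => if K k then y k else 0) := by
    subst hX
    funext i
    simp only [mulVec, dotProduct, cut]
    refine Finset.sum_congr rfl fun k _ => ?_
    split_ifs <;> simp
  rw [h1]
  set z : n → ℂ := fun k => if K k then y k else 0 with hz
  have h2 : star (B *ᵥ z) ⬝ᵥ (B *ᵥ z) = star z ⬝ᵥ ((Bᴴ * B) *ᵥ z) := by
    rw [star_mulVec, ← dotProduct_mulVec, ← mulVec_mulVec]
  rw [h.bb] at h2
  have h3 : star (B *ᵥ z) ⬝ᵥ (B *ᵥ z) = ((∑ i, ‖(B *ᵥ z) i‖ ^ 2 : ℝ) : ℂ) := by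
    simp only [dotProduct, Pi.star_apply, RCLike.star_def]
    push_cast
    refine Finset.sum_congr rfl fun i _ => ?_
    rw [RCLike.conj_mul]; norm_cast
  have h4 : star z ⬝ᵥ (diagonal (fun k => (ev k : ℂ)) *ᵥ z)
      = ((∑ k, ev k * ‖z k‖ ^ 2 : ℝ) : ℂ) := by
    simp only [dotProduct, Pi.star_apply, RCLike.star_def, mulVec_diagonal]
    push_cast
    refine Finset.sum_congr rfl fun k _ => ?_
    rw [mul_left_comm, Complex.conj_mul']
  rw [h3, h4] at h2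
  have h5 : (∑ i, ‖(B *ᵥ z) i‖ ^ 2 : ℝ) = ∑ k, ev k * ‖z k‖ ^ 2 := by exact_mod_cast h2
  rw [h5]
  refine Finset.sum_congr rfl fun k _ => ?_
  simp only [hz]
  split_ifs <;> simp

theorem Sv.unit (h : Sv A U B ev) (x : n → ℂ) : ∑ k, ‖(Uᴴ *ᵥ x) k‖ ^ 2 = ∑ j, ‖x j‖ ^ 2 := by
  have h2 : star (Uᴴ *ᵥ x) ⬝ᵥ (Uᴴ *ᵥ x) = star x ⬝ᵥ ((U * Uᴴ) *ᵥ x) := by
    rw [star_mulVec, ← dotProduct_mulVec, conjTranspose_conjTranspose, ← mulVec_mulVec]
  rw [h.u1, one_mulVec] at h2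
  have h3 : ∀ v : n → ℂ, star v ⬝ᵥ v = ((∑ i, ‖v i‖ ^ 2 : ℝ) : ℂ) := by
    intro v
    simp only [dotProduct, Pi.star_apply, RCLike.star_def]
    push_cast
    refine Finset.sum_congr rfl fun i _ => ?_
    rw [RCLike.conj_mul]; norm_cast
  rw [h3, h3] at h2
  exact_mod_cast h2

theorem sub_cut (B : Matrix m n ℂ) (K : n → Prop) [DecidablePred K] :
    B - cut B K = cut B fun k => ¬ K k := by
  ext i k
  simp only [cut, Matrix.sub_apply]
  split_ifs <;> simp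

/-- **operator bound** of the complement: if `ev k ≤ th²` off `K` then `|(A - Z) x|² ≤ th² |x|²` -/
theorem Sv.op_le (h : Sv A U B ev) (K : n → Prop) [DecidablePred K] {c : ℝ} (hc : 0 ≤ c)
    (hK : ∀ k, ¬ K k → ev k ≤ c) (x : n → ℂ) :
    ∑ i, ‖((A - cut B K * Uᴴ) *ᵥ x) i‖ ^ 2 ≤ c * ∑ j, ‖x j‖ ^ 2 := by
  have h1 : A - cut B K * Uᴴ = (B - cut B K) * Uᴴ := by rw [Matrix.sub_mul, ← h.ab]
  rw [h1, ← mulVec_mulVec, h.vec (B - cut B K) (fun k => ¬ K k) (sub_cut B K), ← h.unit x,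
    Finset.mul_sum]
  refine Finset.sum_le_sum fun k _ => ?_
  split_ifs with hk
  · positivity
  · exact mul_le_mul_of_nonneg_right (hK k hk) (by positivity)

/-- columns of a cut -/
theorem Sv.col_le (h : Sv A U B ev) (K : n → Prop) [DecidablePred K] (j : n) :
    ∑ i, ‖(cut B K * Uᴴ) i j‖ ^ 2 ≤ ∑ i, ‖A i j‖ ^ 2 := by
  have key : ∀ (K' : n → Prop) [DecidablePred K'], ∑ i, ‖(cut B K' * Uᴴ) i j‖ ^ 2
      = ∑ k, (if K' k then ev k * ‖U j k‖ ^ 2 else 0) := by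
    intro K' _
    have h1 : ∀ i, (cut B K' * Uᴴ) i j = (cut B K' *ᵥ fun k => (Uᴴ) k j) i := by
      intro i; rfl
    simp only [h1]
    rw [h.vec (cut B K') K' rfl]
    refine Finset.sum_congr rfl fun k _ => ?_
    rw [conjTranspose_apply, norm_star]
  have h2 : ∑ i, ‖A i j‖ ^ 2 = ∑ k, ev k * ‖U j k‖ ^ 2 := by
    have h3 : A = cut B (fun _ => True) * Uᴴ := by
      have h4 : cut B (fun _ => True) = B := by
        ext i k; simp [cut]
      rw [h4]; exact h.ab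
    rw [h3, key]
    simp
  rw [key, h2]
  refine Finset.sum_le_sum fun k _ => ?_
  split_ifs
  · exact le_rfl
  · exact mul_nonneg (h.nn k) (by positivity)

/-- total: `|A|² = Σ ev`, `|Z|² = Σ_K ev` -/
theorem Sv.hs (h : Sv A U B ev) (K : n → Prop) [DecidablePred K] :
    ∑ i, ∑ j, ‖(cut B K * Uᴴ) i j‖ ^ 2 = ∑ k, (if K k then ev k else 0) := by
  simp only [h.row]
  rw [Finset.sum_comm]
  refine Finset.sum_congr rfl fun k _ => ?_
  simp only [cut]
  split_ifs with hk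
  · exact h.colB k
  · simp

/-- `<A, Z> = |Z|²` -/
theorem Sv.inner (h : Sv A U B ev) (K : n → Prop) [DecidablePred K] :
    ∑ i, ∑ j, A i j * (starRingEnd ℂ) ((cut B K * Uᴴ) i j) = ((∑ k, (if K k then ev k else 0) : ℝ) : ℂ) := by
  have h0 : ∀ i, ∑ j, A i j * (starRingEnd ℂ) ((cut B K * Uᴴ) i j) = (A * (cut B K * Uᴴ)ᴴ) i i := by
    intro i; rw [Matrix.mul_apply]; rfl
  simp only [h0]
  have h1 : A * (cut B K * Uᴴ)ᴴ = B * (cut B K)ᴴ := by
    conv_lhs => rw [h.ab]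
    rw [conjTranspose_mul, conjTranspose_conjTranspose, Matrix.mul_assoc, ← Matrix.mul_assoc Uᴴ, h.u2,
      Matrix.one_mul]
  rw [h1]
  simp only [Matrix.mul_apply, conjTranspose_apply]
  rw [Finset.sum_comm]
  push_cast
  refine Finset.sum_congr rfl fun k _ => ?_
  simp only [cut]
  split_ifs with hk
  · rw [← h.colB k]
    push_cast
    refine Finset.sum_congr rfl fun i _ => ?_
    rw [RCLike.star_def, RCLike.mul_conj]; norm_cast
  · simp

end Crest.Agent.R079.HiG39
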