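import Crest.Agent.R079.HiF_881

/-!
# R079, S1: the leaf test of doc 2538 (3) for a general spectral profile (helper881)

`A : m → n → ℂ`, `SVD A X s` (file `HiF_881`), profile `ψ : n → ℝ`, `ψ ≥ 0`, `ψ k = 0` if `s k = 0`.
`Pf = ∑ √ψ_k u_k`, `Qf = √ψ_k X_k^*`, `Z = Pf Qf`, left kernel `Pf Pf^*`, right kernel `Qf^* Qf`:
Gram = diag ψ, traces `∑ ψ`, HS² `∑ ψ²`, `⟨A, Z⟩ = ∑ ψ s`, diagonals `≤ C` rows of `A` if
`ψ ≤ C s²`.  `Mul c` = spectral multiplier: rows, columns, HS, op, `S_4`.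
`leafTest` : the normalised statement with `ψ = (s - θ)_+ / (2 μ)`, `A = A1 + A2`.
-/

open scoped BigOperators ComplexConjugate

namespace Crest.Agent.R079.HiF881

variable {m n : Type*} [Fintype m] [Fintype n] [DecidableEq n]

theorem conj_mul_self (z : ℂ) : conj z * z = ((‖z‖ ^ 2 : ℝ) : ℂ) := by
  rw [mul_comm, Complex.mul_conj, Complex.normSq_eq_norm_sq]

theorem mul_conj_self (z : ℂ) : z * conj z = ((‖z‖ ^ 2 : ℝ) : ℂ) := by
  rw [Complex.mul_conj, Complex.normSq_eq_norm_sq]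

omit [DecidableEq n] in
/-- the Hilbert-Schmidt norms of `P P^*` and `P^* P` agree -/
theorem hs_swap (P : m → n → ℂ) :
    ∑ x, ∑ x', ‖∑ k, P x k * conj (P x' k)‖ ^ 2
      = ∑ k, ∑ l, ‖∑ x, conj (P x k) * P x l‖ ^ 2 := by
  have key : ∑ x, ∑ x', conj (∑ k, P x k * conj (P x' k)) * (∑ k, P x k * conj (P x' k))
      = ∑ k, ∑ l, conj (∑ x, conj (P x k) * P x l) * (∑ x, conj (P x k) * P x l) := by
    have hL : ∀ x x', conj (∑ k, P x k * conj (P x' k)) * (∑ k, P x k * conj (P x' k))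
        = ∑ k, ∑ l, (conj (P x k) * P x l) * (P x' k * conj (P x' l)) := by
      intro x x'
      rw [map_sum, Finset.sum_mul_sum]
      refine Finset.sum_congr rfl fun k _ => Finset.sum_congr rfl fun l _ => ?_
      rw [map_mul, Complex.conj_conj]; ring
    have hR : ∀ k l, conj (∑ x, conj (P x k) * P x l) * (∑ x, conj (P x k) * P x l)
        = ∑ x, ∑ x', (conj (P x k) * P x l) * (P x' k * conj (P x' l)) := by
      intro k l
      rw [mul_comm, map_sum, Finset.sum_mul_sum]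
      refine Finset.sum_congr rfl fun k _ => Finset.sum_congr rfl fun l _ => ?_
      rw [map_mul, Complex.conj_conj]
    simp only [hL, hR]
    calc ∑ x, ∑ x', ∑ k, ∑ l, (conj (P x k) * P x l) * (P x' k * conj (P x' l))
        = ∑ x, ∑ k, ∑ x', ∑ l, (conj (P x k) * P x l) * (P x' k * conj (P x' l)) :=
          Finset.sum_congr rfl fun x _ => Finset.sum_comm
      _ = ∑ k, ∑ x, ∑ x', ∑ l, (conj (P x k) * P x l) * (P x' k * conj (P x' l)) :=
          Finset.sum_comm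
      _ = ∑ k, ∑ x, ∑ l, ∑ x', (conj (P x k) * P x l) * (P x' k * conj (P x' l)) :=
          Finset.sum_congr rfl fun k _ => Finset.sum_congr rfl fun x _ => Finset.sum_comm
      _ = ∑ k, ∑ l, ∑ x, ∑ x', (conj (P x k) * P x l) * (P x' k * conj (P x' l)) :=
          Finset.sum_congr rfl fun k _ => Finset.sum_comm
  simp only [conj_mul_self] at key
  exact_mod_cast key

/-! ## spectral multipliers -/

/-- spectral multiplier of `A` with real coefficients `c` -/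
noncomputable def Mul (A : m → n → ℂ) (X : n → n → ℂ) (c : n → ℝ) (x : m) (y : n) : ℂ :=
  ∑ k, (c k : ℂ) * (AX A X k x * conj (X k y))

section
variable {A : m → n → ℂ} {X : n → n → ℂ} {s : n → ℝ}

theorem Mul_one (h : SVD A X s) (x : m) (y : n) : Mul A X (fun _ => 1) x y = A x y := by
  rw [expand h x y, Mul]
  exact Finset.sum_congr rfl fun k _ => by simp

omit [Fintype m] [DecidableEq n] in
theorem Mul_add (c d : n → ℝ) (x : m) (y : n) :
    Mul A X c x y + Mul A X d x y = Mul A X (fun k => c k + d k) x y := by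
  rw [Mul, Mul, Mul, ← Finset.sum_add_distrib]
  exact Finset.sum_congr rfl fun k _ => by push_cast; ring

/-- columns of a multiplier -/
theorem Mul_col (h : SVD A X s) (c : n → ℝ) (y : n) :
    ∑ x, ‖Mul A X c x y‖ ^ 2 = ∑ k, c k ^ 2 * s k ^ 2 * ‖X k y‖ ^ 2 :=
  col_parseval_gen h c y

/-- rows of a multiplier -/
theorem Mul_row (h : SVD A X s) (c : n → ℝ) (x : m) :
    ∑ y, ‖Mul A X c x y‖ ^ 2 = ∑ k, c k ^ 2 * ‖AX A X k x‖ ^ 2 := by
  have key : ∑ y, conj (Mul A X c x y) * Mul A X c x y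
      = ∑ k, (c k : ℂ) ^ 2 * (conj (AX A X k x) * AX A X k x) := by
    simp only [Mul, map_sum, Finset.sum_mul_sum]
    rw [Finset.sum_comm]
    refine Finset.sum_congr rfl fun k _ => ?_
    rw [Finset.sum_comm]
    have : ∀ l, ∑ y, conj ((c k : ℂ) * (AX A X k x * conj (X k y)))
          * ((c l : ℂ) * (AX A X l x * conj (X l y)))
        = ((c k : ℂ) * (c l : ℂ) * (conj (AX A X k x) * AX A X l x))
            * (if l = k then 1 else 0) := by
      intro l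
      rw [← h.orth l k, Finset.mul_sum]
      refine Finset.sum_congr rfl fun y _ => ?_
      simp only [map_mul, Complex.conj_ofReal, Complex.conj_conj]
      ring
    rw [Finset.sum_congr rfl fun l _ => this l]
    simp only [mul_ite, mul_zero, Finset.sum_ite_eq', Finset.mem_univ, if_true]
    ring
  simp only [conj_mul_self] at key
  exact_mod_cast key

theorem Mul_col_le (h : SVD A X s) {c : n → ℝ} (hc : ∀ k, c k ^ 2 ≤ 1) (y : n) :
    ∑ x, ‖Mul A X c x y‖ ^ 2 ≤ ∑ x, ‖A x y‖ ^ 2 := by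
  rw [Mul_col h, ← col_parseval h]
  refine Finset.sum_le_sum fun k _ => ?_
  have h1 : 0 ≤ s k ^ 2 * ‖X k y‖ ^ 2 := by positivity
  calc c k ^ 2 * s k ^ 2 * ‖X k y‖ ^ 2 = c k ^ 2 * (s k ^ 2 * ‖X k y‖ ^ 2) := by ring
    _ ≤ 1 * (s k ^ 2 * ‖X k y‖ ^ 2) := mul_le_mul_of_nonneg_right (hc k) h1
    _ = _ := one_mul _

theorem Mul_row_le (h : SVD A X s) {c : n → ℝ} (hc : ∀ k, c k ^ 2 ≤ 1) (x : m) :
    ∑ y, ‖Mul A X c x y‖ ^ 2 ≤ ∑ y, ‖A x y‖ ^ 2 := by
  rw [Mul_row h, ← row_parseval h]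
  refine Finset.sum_le_sum fun k _ => ?_
  calc c k ^ 2 * ‖AX A X k x‖ ^ 2 ≤ 1 * ‖AX A X k x‖ ^ 2 :=
        mul_le_mul_of_nonneg_right (hc k) (sq_nonneg _)
    _ = _ := one_mul _

theorem sum_X_sq (h : SVD A X s) (k : n) : ∑ y, ‖X k y‖ ^ 2 = 1 := by
  have h4 := h.orth k k
  simp only [conj_mul_self, if_true] at h4
  exact_mod_cast h4

theorem sum_AX_sq (h : SVD A X s) (k : n) : ∑ x, ‖AX A X k x‖ ^ 2 = s k ^ 2 := by
  have h4 := h.gram k k
  simp only [conj_mul_self, if_true] at h4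
  have : ∑ x, ‖∑ y, A x y * X k y‖ ^ 2 = s k ^ 2 := by exact_mod_cast h4
  simpa [AX] using this

/-- Hilbert-Schmidt norm of a multiplier -/
theorem Mul_hs (h : SVD A X s) (c : n → ℝ) :
    ∑ x, ∑ y, ‖Mul A X c x y‖ ^ 2 = ∑ k, c k ^ 2 * s k ^ 2 := by
  simp only [Mul_row h]
  rw [Finset.sum_comm]
  refine Finset.sum_congr rfl fun k _ => ?_
  rw [← Finset.mul_sum, sum_AX_sq h]

theorem hs_A (h : SVD A X s) : ∑ x, ∑ y, ‖A x y‖ ^ 2 = ∑ k, s k ^ 2 := by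
  have := Mul_hs h (fun _ => 1)
  simp only [Mul_one h, one_pow, one_mul] at this
  exact this

/-- operator norm of a multiplier -/
theorem Mul_op (h : SVD A X s) {c : n → ℝ} {M : ℝ} (hc : ∀ k, c k ^ 2 * s k ^ 2 ≤ M ^ 2)
    (f : n → ℂ) :
    ∑ x, ‖∑ y, Mul A X c x y * f y‖ ^ 2 ≤ M ^ 2 * ∑ y, ‖f y‖ ^ 2 := by
  set d : n → ℂ := fun k => ∑ y, conj (X k y) * f y with hd
  have h1 : ∀ x, ∑ y, Mul A X c x y * f y = ∑ k, (c k : ℂ) * (AX A X k x * d k) := by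
    intro x
    simp only [Mul, Finset.sum_mul]
    rw [Finset.sum_comm]
    refine Finset.sum_congr rfl fun k _ => ?_
    rw [hd]
    simp only [Finset.mul_sum]
    exact Finset.sum_congr rfl fun y _ => by ring
  have key : ∑ x, conj (∑ k, (c k : ℂ) * (AX A X k x * d k)) * (∑ k, (c k : ℂ) * (AX A X k x * d k))
      = ∑ k, (c k : ℂ) ^ 2 * (s k : ℂ) ^ 2 * (conj (d k) * d k) := by
    simp only [map_sum, Finset.sum_mul_sum]
    rw [Finset.sum_comm]
    refine Finset.sum_congr rfl fun k _ => ?_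
    rw [Finset.sum_comm]
    have : ∀ l, ∑ x, conj ((c k : ℂ) * (AX A X k x * d k)) * ((c l : ℂ) * (AX A X l x * d l))
        = ((c k : ℂ) * (c l : ℂ) * (conj (d k) * d l))
            * (if k = l then ((s k : ℂ)) ^ 2 else 0) := by
      intro l
      rw [← h.gram k l, Finset.mul_sum]
      refine Finset.sum_congr rfl fun x _ => ?_
      simp only [AX, map_mul, Complex.conj_ofReal]
      ring
    rw [Finset.sum_congr rfl fun l _ => this l]
    simp only [mul_ite, mul_zero, Finset.sum_ite_eq, Finset.mem_univ, if_true]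
    ring
  have key2 : ∑ x, ‖∑ k, (c k : ℂ) * (AX A X k x * d k)‖ ^ 2
      = ∑ k, c k ^ 2 * s k ^ 2 * ‖d k‖ ^ 2 := by
    simp only [conj_mul_self] at key
    exact_mod_cast key
  -- Parseval for f
  have hpar : ∑ k, ‖d k‖ ^ 2 = ∑ y, ‖f y‖ ^ 2 := by
    have : ∑ k, conj (d k) * d k = ∑ y, conj (f y) * f y := by
      simp only [hd, map_sum, Finset.sum_mul_sum]
      rw [Finset.sum_comm]
      refine Finset.sum_congr rfl fun y _ => ?_
      rw [Finset.sum_comm]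
      have h2 : ∀ y', ∑ k, conj (conj (X k y) * f y) * (conj (X k y') * f y')
          = conj (f y) * f y' * (if y = y' then 1 else 0) := by
        intro y'
        rw [← h.comp y y', Finset.mul_sum]
        refine Finset.sum_congr rfl fun k _ => ?_
        simp only [map_mul, Complex.conj_conj]
        ring
      rw [Finset.sum_congr rfl fun y' _ => h2 y']
      simp
    simp only [conj_mul_self] at this
    exact_mod_cast this
  simp only [h1]
  rw [key2, ← hpar, Finset.mul_sum]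
  exact Finset.sum_le_sum fun k _ => mul_le_mul_of_nonneg_right (hc k) (sq_nonneg _)

/-- `S_4` norm of a multiplier -/
theorem Mul_S4 (h : SVD A X s) (c : n → ℝ) :
    ∑ x, ∑ x', ‖∑ y, Mul A X c x y * conj (Mul A X c x' y)‖ ^ 2
      = ∑ k, (c k ^ 2 * s k ^ 2) ^ 2 := by
  have h1 : ∀ x x', ∑ y, Mul A X c x y * conj (Mul A X c x' y)
      = ∑ k, ((c k : ℂ) * AX A X k x) * conj ((c k : ℂ) * AX A X k x') := by
    intro x x'
    simp only [Mul, map_sum, Finset.sum_mul_sum]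
    rw [Finset.sum_comm]
    refine Finset.sum_congr rfl fun k _ => ?_
    rw [Finset.sum_comm]
    have : ∀ l, ∑ y, (c k : ℂ) * (AX A X k x * conj (X k y))
          * conj ((c l : ℂ) * (AX A X l x' * conj (X l y)))
        = ((c k : ℂ) * (c l : ℂ) * (AX A X k x * conj (AX A X l x')))
            * (if k = l then 1 else 0) := by
      intro l
      rw [← h.orth k l, Finset.mul_sum]
      refine Finset.sum_congr rfl fun y _ => ?_
      simp only [map_mul, Complex.conj_ofReal, Complex.conj_conj]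
      ring
    rw [Finset.sum_congr rfl fun l _ => this l]
    simp only [mul_ite, mul_zero, Finset.sum_ite_eq, Finset.mem_univ, if_true, map_mul,
      Complex.conj_ofReal]
    ring
  simp only [h1]
  rw [hs_swap (fun x k => (c k : ℂ) * AX A X k x)]
  have h2 : ∀ k l, ∑ x, conj ((c k : ℂ) * AX A X k x) * ((c l : ℂ) * AX A X l x)
      = if k = l then (((c k) ^ 2 * s k ^ 2 : ℝ) : ℂ) else 0 := by
    intro k l
    have : ∀ x, conj ((c k : ℂ) * AX A X k x) * ((c l : ℂ) * AX A X l x)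
        = ((c k : ℂ) * (c l : ℂ)) * (conj (∑ y, A x y * X k y) * (∑ y, A x y * X l y)) := by
      intro x
      simp only [AX, map_mul, Complex.conj_ofReal]
      ring
    rw [Finset.sum_congr rfl fun x _ => this x, ← Finset.mul_sum, h.gram]
    by_cases hkl : k = l
    · subst hkl; simp only [if_true]; push_cast; ring
    · simp [hkl]
  simp only [h2]
  refine Finset.sum_congr rfl fun k _ => ?_
  have h3 : ∀ l, ‖(if k = l then (((c k) ^ 2 * s k ^ 2 : ℝ) : ℂ) else 0)‖ ^ 2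
      = if k = l then ((c k) ^ 2 * s k ^ 2) ^ 2 else 0 := by
    intro l
    split_ifs
    · rw [Complex.norm_real, Real.norm_eq_abs, sq_abs]
    · simp
  rw [Finset.sum_congr rfl fun l _ => h3 l]
  simp

/-- `S_4^4 ≤ M² · HS²` -/
theorem Mul_S4_le (h : SVD A X s) {c : n → ℝ} {M : ℝ} (hc : ∀ k, c k ^ 2 * s k ^ 2 ≤ M ^ 2) :
    ∑ x, ∑ x', ‖∑ y, Mul A X c x y * conj (Mul A X c x' y)‖ ^ 2
      ≤ M ^ 2 * ∑ x, ∑ y, ‖Mul A X c x y‖ ^ 2 := by
  rw [Mul_S4 h, Mul_hs h, Finset.mul_sum]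
  refine Finset.sum_le_sum fun k _ => ?_
  have h1 : 0 ≤ c k ^ 2 * s k ^ 2 := by positivity
  nlinarith [hc k]

end

/-! ## factorised test letters -/

/-- left factor of the profile -/
noncomputable def Pf (A : m → n → ℂ) (X : n → n → ℂ) (s ψ : n → ℝ) (x : m) (k : n) : ℂ :=
  (Real.sqrt (ψ k) : ℂ) * ((s k : ℂ)⁻¹ * AX A X k x)

/-- right factor of the profile -/
noncomputable def Qf (X : n → n → ℂ) (ψ : n → ℝ) (k : n) (y : n) : ℂ :=
  (Real.sqrt (ψ k) : ℂ) * conj (X k y)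

section
variable {A : m → n → ℂ} {X : n → n → ℂ} {s ψ : n → ℝ}

omit [Fintype n] [DecidableEq n] in
theorem sqrt_sqC (hψ : ∀ k, 0 ≤ ψ k) (k : n) :
    (Real.sqrt (ψ k) : ℂ) * (Real.sqrt (ψ k) : ℂ) = (ψ k : ℂ) := by
  rw [← Complex.ofReal_mul, Real.mul_self_sqrt (hψ k)]

theorem gramP (h : SVD A X s) (hψ : ∀ k, 0 ≤ ψ k) (h0 : ∀ k, s k = 0 → ψ k = 0) (k l : n) :
    ∑ x, conj (Pf A X s ψ x k) * Pf A X s ψ x l = if k = l then (ψ k : ℂ) else 0 := by
  have : ∀ x, conj (Pf A X s ψ x k) * Pf A X s ψ x l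
      = ((Real.sqrt (ψ k) : ℂ) * (Real.sqrt (ψ l) : ℂ) * ((s k : ℂ)⁻¹ * (s l : ℂ)⁻¹))
        * (conj (∑ y, A x y * X k y) * (∑ y, A x y * X l y)) := by
    intro x
    simp only [Pf, map_mul, map_inv₀, Complex.conj_ofReal, AX]
    ring
  rw [Finset.sum_congr rfl fun x _ => this x, ← Finset.mul_sum, h.gram]
  by_cases hkl : k = l
  · subst hkl
    simp only [if_true]
    rw [sqrt_sqC hψ]
    by_cases hs : s k = 0
    · simp [hs, h0 k hs]
    · have hsk : (s k : ℂ) ≠ 0 := by exact_mod_cast hs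
      field_simp
  · simp [hkl]

theorem gramQ (h : SVD A X s) (hψ : ∀ k, 0 ≤ ψ k) (k l : n) :
    ∑ y, Qf X ψ k y * conj (Qf X ψ l y) = if k = l then (ψ k : ℂ) else 0 := by
  have : ∀ y, Qf X ψ k y * conj (Qf X ψ l y)
      = ((Real.sqrt (ψ k) : ℂ) * (Real.sqrt (ψ l) : ℂ)) * (conj (X k y) * X l y) := by
    intro y
    simp only [Qf, map_mul, Complex.conj_ofReal, Complex.conj_conj]
    ring
  rw [Finset.sum_congr rfl fun y _ => this y, ← Finset.mul_sum, h.orth]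
  by_cases hkl : k = l
  · subst hkl
    simp only [if_true, mul_one]
    exact sqrt_sqC hψ k
  · simp [hkl]

theorem trP (h : SVD A X s) (hψ : ∀ k, 0 ≤ ψ k) (h0 : ∀ k, s k = 0 → ψ k = 0) :
    ∑ x, ∑ k, ‖Pf A X s ψ x k‖ ^ 2 = ∑ k, ψ k := by
  rw [Finset.sum_comm]
  refine Finset.sum_congr rfl fun k _ => ?_
  have := gramP h hψ h0 k k
  simp only [conj_mul_self, if_true] at this
  exact_mod_cast this

theorem trQ (h : SVD A X s) (hψ : ∀ k, 0 ≤ ψ k) :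
    ∑ y, ∑ k, ‖Qf X ψ k y‖ ^ 2 = ∑ k, ψ k := by
  rw [Finset.sum_comm]
  refine Finset.sum_congr rfl fun k _ => ?_
  have := gramQ h hψ k k
  simp only [mul_conj_self, if_true] at this
  exact_mod_cast this

theorem hsP (h : SVD A X s) (hψ : ∀ k, 0 ≤ ψ k) (h0 : ∀ k, s k = 0 → ψ k = 0) :
    ∑ x, ∑ x', ‖∑ k, Pf A X s ψ x k * conj (Pf A X s ψ x' k)‖ ^ 2 = ∑ k, ψ k ^ 2 := by
  rw [hs_swap]
  simp only [gramP h hψ h0]
  refine Finset.sum_congr rfl fun k _ => ?_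
  have h3 : ∀ l, ‖(if k = l then (ψ k : ℂ) else 0)‖ ^ 2 = if k = l then ψ k ^ 2 else 0 := by
    intro l
    split_ifs
    · rw [Complex.norm_real, Real.norm_eq_abs, sq_abs]
    · simp
  rw [Finset.sum_congr rfl fun l _ => h3 l]
  simp

theorem hsQ (h : SVD A X s) (hψ : ∀ k, 0 ≤ ψ k) :
    ∑ y, ∑ y', ‖∑ k, conj (Qf X ψ k y) * Qf X ψ k y'‖ ^ 2 = ∑ k, ψ k ^ 2 := by
  have h1 := hs_swap (fun y k => conj (Qf X ψ k y))
  simp only [Complex.conj_conj] at h1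
  rw [h1]
  have h2 : ∀ k l, ∑ y, Qf X ψ k y * conj (Qf X ψ l y) = if k = l then (ψ k : ℂ) else 0 :=
    gramQ h hψ
  simp only [h2]
  refine Finset.sum_congr rfl fun k _ => ?_
  have h3 : ∀ l, ‖(if k = l then (ψ k : ℂ) else 0)‖ ^ 2 = if k = l then ψ k ^ 2 else 0 := by
    intro l
    split_ifs
    · rw [Complex.norm_real, Real.norm_eq_abs, sq_abs]
    · simp
  rw [Finset.sum_congr rfl fun l _ => h3 l]
  simp

/-- rows of the left factor -/
theorem rowP (h : SVD A X s) (hψ : ∀ k, 0 ≤ ψ k) {C : ℝ} (hC : 0 ≤ C)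
    (hC2 : ∀ k, ψ k ≤ C * s k ^ 2) (x : m) :
    ∑ k, ‖Pf A X s ψ x k‖ ^ 2 ≤ C * ∑ y, ‖A x y‖ ^ 2 := by
  rw [← row_parseval h x, Finset.mul_sum]
  refine Finset.sum_le_sum fun k _ => ?_
  have h1 : ‖Pf A X s ψ x k‖ ^ 2 = ψ k * ((s k)⁻¹ ^ 2 * ‖AX A X k x‖ ^ 2) := by
    simp only [Pf, norm_mul, Complex.norm_real, norm_inv, mul_pow,
      Real.norm_of_nonneg (Real.sqrt_nonneg _), Real.norm_of_nonneg (h.nn k),
      Real.sq_sqrt (hψ k)]
  rw [h1]
  by_cases hs : s k = 0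
  · simp only [hs, inv_zero]
    have : 0 ≤ C * ‖AX A X k x‖ ^ 2 := by positivity
    simpa using this
  · have hsk : 0 < s k := lt_of_le_of_ne (h.nn k) (Ne.symm hs)
    have h2 : ψ k * ((s k)⁻¹ ^ 2 * ‖AX A X k x‖ ^ 2)
        ≤ (C * s k ^ 2) * ((s k)⁻¹ ^ 2 * ‖AX A X k x‖ ^ 2) :=
      mul_le_mul_of_nonneg_right (hC2 k) (by positivity)
    have h3 : (C * s k ^ 2) * ((s k)⁻¹ ^ 2 * ‖AX A X k x‖ ^ 2) = C * ‖AX A X k x‖ ^ 2 := by
      field_simp
    linarith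

/-- rows of the right factor -/
theorem rowQ (h : SVD A X s) (hψ : ∀ k, 0 ≤ ψ k) {C : ℝ}
    (hC2 : ∀ k, ψ k ≤ C * s k ^ 2) (y : n) :
    ∑ k, ‖Qf X ψ k y‖ ^ 2 ≤ C * ∑ x, ‖A x y‖ ^ 2 := by
  rw [← col_parseval h y, Finset.mul_sum]
  refine Finset.sum_le_sum fun k _ => ?_
  have h1 : ‖Qf X ψ k y‖ ^ 2 = ψ k * ‖X k y‖ ^ 2 := by
    simp only [Qf, norm_mul, Complex.norm_real, mul_pow, RCLike.norm_conj,
      Real.norm_of_nonneg (Real.sqrt_nonneg _), Real.sq_sqrt (hψ k)]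
  rw [h1]
  calc ψ k * ‖X k y‖ ^ 2 ≤ (C * s k ^ 2) * ‖X k y‖ ^ 2 :=
        mul_le_mul_of_nonneg_right (hC2 k) (sq_nonneg _)
    _ = _ := by ring

omit [Fintype m] [DecidableEq n] in
/-- `Z = Pf Qf` as a multiplier -/
theorem PQ_eq (hψ : ∀ k, 0 ≤ ψ k) (x : m) (y : n) :
    ∑ k, Pf A X s ψ x k * Qf X ψ k y = Mul A X (fun k => ψ k * (s k)⁻¹) x y := by
  rw [Mul]
  refine Finset.sum_congr rfl fun k _ => ?_
  have := sqrt_sqC hψ k
  simp only [Pf, Qf]
  push_cast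
  rw [← this]
  ring

/-- `⟨A, Pf Qf⟩ = ∑ ψ s` -/
theorem inner_A_PQ (h : SVD A X s) (hψ : ∀ k, 0 ≤ ψ k) (h0 : ∀ k, s k = 0 → ψ k = 0) :
    ∑ x, ∑ y, A x y * conj (∑ k, Pf A X s ψ x k * Qf X ψ k y) = ((∑ k, ψ k * s k : ℝ) : ℂ) := by
  have h1 : ∀ x, ∑ y, A x y * conj (∑ k, Pf A X s ψ x k * Qf X ψ k y)
      = ∑ k, ((ψ k * (s k)⁻¹ : ℝ) : ℂ) * (conj (AX A X k x) * AX A X k x) := by
    intro x
    have h2 : ∀ y, A x y * conj (∑ k, Pf A X s ψ x k * Qf X ψ k y)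
        = ∑ k, ((ψ k * (s k)⁻¹ : ℝ) : ℂ) * conj (AX A X k x) * (A x y * X k y) := by
      intro y
      rw [PQ_eq hψ, Mul, map_sum, Finset.mul_sum]
      refine Finset.sum_congr rfl fun k _ => ?_
      rw [map_mul, map_mul, Complex.conj_ofReal, Complex.conj_conj]
      ring
    rw [Finset.sum_congr rfl fun y _ => h2 y, Finset.sum_comm]
    refine Finset.sum_congr rfl fun k _ => ?_
    rw [← Finset.mul_sum, ← AX]
    ring
  rw [Finset.sum_congr rfl fun x _ => h1 x, Finset.sum_comm]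
  push_cast
  refine Finset.sum_congr rfl fun k _ => ?_
  rw [← Finset.mul_sum]
  have h3 : ∑ x, conj (AX A X k x) * AX A X k x = (s k : ℂ) ^ 2 := by
    have := h.gram k k
    simpa [AX] using this
  rw [h3]
  by_cases hs : s k = 0
  · simp [hs, h0 k hs]
  · have hsk : (s k : ℂ) ≠ 0 := by exact_mod_cast hs
    field_simp

end

/-! ## the normalised leaf statement (families over the leaf variable `x₀`) -/

/-- Leaf split of the family `A i` (`i = x₀`) at height `th` in normalised averages, with the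
factorised one-gauge test letter `∑_k P i x k * Q i k y` (labels `k : n`), leaf costs `≤ 1`. -/
structure LeafHi {ι : Type*} [Fintype ι] (A : ι → m → n → ℂ) (th : ℝ) (A1 A2 : ι → m → n → ℂ)
    (Λ : ℝ) (P : ι → m → n → ℂ) (Q : ι → n → n → ℂ) : Prop where
  nn : 0 ≤ Λ
  split : ∀ i x y, A1 i x y + A2 i x y = A i x y
  lamPQ : ∀ i x y, (Λ : ℂ) * ∑ k, P i x k * Q i k y = A2 i x y
  hsA2 : (Fintype.card ι : ℝ)⁻¹ * ∑ i, ((Fintype.card m : ℝ)⁻¹ * (Fintype.card n : ℝ)⁻¹) *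
    ∑ x, ∑ y, ‖A2 i x y‖ ^ 2 = Λ ^ 2
  rowA1 : ∀ i x, ∑ y, ‖A1 i x y‖ ^ 2 ≤ ∑ y, ‖A i x y‖ ^ 2
  rowA2 : ∀ i x, ∑ y, ‖A2 i x y‖ ^ 2 ≤ ∑ y, ‖A i x y‖ ^ 2
  colA1 : ∀ i y, ∑ x, ‖A1 i x y‖ ^ 2 ≤ ∑ x, ‖A i x y‖ ^ 2
  colA2 : ∀ i y, ∑ x, ‖A2 i x y‖ ^ 2 ≤ ∑ x, ‖A i x y‖ ^ 2
  opA1 : ∀ i (f : n → ℂ), (Fintype.card m : ℝ)⁻¹ *
      ∑ x, ‖((Fintype.card n : ℝ)⁻¹ : ℂ) * ∑ y, A1 i x y * f y‖ ^ 2
    ≤ th ^ 2 * ((Fintype.card n : ℝ)⁻¹ * ∑ y, ‖f y‖ ^ 2)
  s4A1 : ∀ i, ((Fintype.card m : ℝ)⁻¹) ^ 2 *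
      ∑ x, ∑ x', ‖((Fintype.card n : ℝ)⁻¹ : ℂ) * ∑ y, A1 i x y * conj (A1 i x' y)‖ ^ 2
    ≤ th ^ 2 * (((Fintype.card m : ℝ)⁻¹ * (Fintype.card n : ℝ)⁻¹) * ∑ x, ∑ y, ‖A i x y‖ ^ 2)
  costP : (Fintype.card ι : ℝ)⁻¹ * ∑ i, ((Fintype.card m : ℝ)⁻¹) ^ 2 *
      ∑ x, ∑ x', ‖∑ k, P i x k * conj (P i x' k)‖ ^ 2 ≤ 1
  costQ : (Fintype.card ι : ℝ)⁻¹ * ∑ i, ((Fintype.card n : ℝ)⁻¹) ^ 2 *
      ∑ y, ∑ y', ‖∑ k, conj (Q i k y) * Q i k y'‖ ^ 2 ≤ 1
  rowP : ∀ i x, Λ * th * ∑ k, ‖P i x k‖ ^ 2 ≤ (Fintype.card n : ℝ)⁻¹ * ∑ y, ‖A i x y‖ ^ 2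
  rowQ : ∀ i y, Λ * th * ∑ k, ‖Q i k y‖ ^ 2 ≤ (Fintype.card m : ℝ)⁻¹ * ∑ x, ‖A i x y‖ ^ 2
  test : ((Fintype.card ι : ℝ)⁻¹ : ℂ) * ∑ i, (((Fintype.card m : ℝ)⁻¹ : ℂ)
      * ((Fintype.card n : ℝ)⁻¹ : ℂ)) *
    ∑ x, ∑ y, A i x y * conj (∑ k, P i x k * Q i k y) = (Λ : ℂ)

theorem leafHi {ι : Type*} [Fintype ι] [Nonempty ι] [Nonempty m] [Nonempty n]
    (A : ι → m → n → ℂ) {th : ℝ} (hth : 0 < th) :
    ∃ (A1 A2 : ι → m → n → ℂ) (Λ : ℝ) (P : ι → m → n → ℂ) (Q : ι → n → n → ℂ),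
      LeafHi A th A1 A2 Λ P Q := by
  classical
  set M : ℝ := (Fintype.card m : ℝ) with hM
  set N : ℝ := (Fintype.card n : ℝ) with hN
  set I : ℝ := (Fintype.card ι : ℝ) with hI
  have hM0 : 0 < M := by rw [hM]; exact_mod_cast Fintype.card_pos
  have hN0 : 0 < N := by rw [hN]; exact_mod_cast Fintype.card_pos
  have hI0 : 0 < I := by rw [hI]; exact_mod_cast Fintype.card_pos
  set rM : ℝ := Real.sqrt M with hrM
  set rN : ℝ := Real.sqrt N with hrN
  have hrM0 : 0 < rM := Real.sqrt_pos.2 hM0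
  have hrN0 : 0 < rN := Real.sqrt_pos.2 hN0
  have hrM2 : rM ^ 2 = M := Real.sq_sqrt hM0.le
  have hrN2 : rN ^ 2 = N := Real.sq_sqrt hN0.le
  set B : ι → m → n → ℂ := fun i x y => (((rM * rN)⁻¹ : ℝ) : ℂ) * A i x y with hB
  have hBA : ∀ i x y, A i x y = ((rM * rN : ℝ) : ℂ) * B i x y := by
    intro i x y
    have : ((rM * rN : ℝ) : ℂ) ≠ 0 := by exact_mod_cast (mul_pos hrM0 hrN0).ne'
    simp only [hB]
    rw [Complex.ofReal_inv, ← mul_assoc, mul_inv_cancel₀ this, one_mul]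
  choose X s hS using fun i => exists_SVD (B i)
  set Λ : ℝ := Real.sqrt (I⁻¹ * ∑ i, ∑ k, hi (s i) th k ^ 2) with hΛ
  have hΛ0 : 0 ≤ Λ := Real.sqrt_nonneg _
  have hΛ2 : Λ ^ 2 = I⁻¹ * ∑ i, ∑ k, hi (s i) th k ^ 2 :=
    Real.sq_sqrt (mul_nonneg (inv_nonneg.2 hI0.le)
      (Finset.sum_nonneg fun _ _ => Finset.sum_nonneg fun _ _ => sq_nonneg _))
  set ψ : ι → n → ℝ := fun i k => hi (s i) th k / Λ with hψd
  have hψ : ∀ i k, 0 ≤ ψ i k := fun i k => div_nonneg (hi_nonneg (hS i).nn th k) hΛ0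
  have hΛψ : ∀ i k, Λ * ψ i k = hi (s i) th k := by
    intro i k
    by_cases h : Λ = 0
    · have h1 : ∑ i, ∑ k, hi (s i) th k ^ 2 = 0 := by
        have : I⁻¹ * ∑ i, ∑ k, hi (s i) th k ^ 2 = 0 := by rw [← hΛ2, h]; ring
        rcases mul_eq_zero.1 this with h3 | h3
        · exact absurd h3 (inv_pos.2 hI0).ne'
        · exact h3
      have h2 := (Finset.sum_eq_zero_iff_of_nonneg
        (fun _ _ => Finset.sum_nonneg fun _ _ => sq_nonneg _)).1 h1 i (Finset.mem_univ _)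
      have h3 := (Finset.sum_eq_zero_iff_of_nonneg (fun _ _ => sq_nonneg _)).1 h2 k
        (Finset.mem_univ _)
      have h4 : hi (s i) th k = 0 := by simpa using h3
      rw [h, h4, zero_mul]
    · simp only [hψd]; field_simp
  have hψ0 : ∀ i k, s i k = 0 → ψ i k = 0 := by
    intro i k h
    have : hi (s i) th k = 0 := by
      unfold hi; rw [if_neg (by rw [h]; exact not_lt.2 hth.le)]
    simp [hψd, this]
  set c : ι → n → ℝ := fun i k => if th < s i k then 1 else 0 with hc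
  have hc01 : ∀ i k, c i k ^ 2 ≤ 1 := by intro i k; simp only [hc]; split_ifs <;> norm_num
  have hc01' : ∀ i k, (1 - c i k) ^ 2 ≤ 1 := by
    intro i k; simp only [hc]; split_ifs <;> norm_num
  have hcs : ∀ i k, c i k ^ 2 * s i k ^ 2 = hi (s i) th k ^ 2 := by
    intro i k; simp only [hc, hi]; split_ifs <;> simp
  have hc's : ∀ i k, (1 - c i k) ^ 2 * s i k ^ 2 ≤ th ^ 2 := by
    intro i k
    have h1 := (hS i).nn k
    simp only [hc]
    split_ifs with h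
    · simpa using sq_nonneg th
    · have h2 : s i k ≤ th := not_lt.1 h
      have : s i k ^ 2 ≤ th ^ 2 := by nlinarith
      simpa using this
  have hr : ‖((rM * rN : ℝ) : ℂ)‖ ^ 2 = M * N := by
    rw [Complex.norm_real, Real.norm_eq_abs, sq_abs, mul_pow, hrM2, hrN2]
  have hAB : ∀ i x y, ‖A i x y‖ ^ 2 = M * N * ‖B i x y‖ ^ 2 := by
    intro i x y
    rw [hBA i x y, norm_mul, mul_pow, hr]
  refine ⟨fun i x y => ((rM * rN : ℝ) : ℂ) * Mul (B i) (X i) (fun k => 1 - c i k) x y,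
    fun i x y => ((rM * rN : ℝ) : ℂ) * Mul (B i) (X i) (c i) x y, Λ,
    fun i x k => (rM : ℂ) * Pf (B i) (X i) (s i) (ψ i) x k,
    fun i k y => (rN : ℂ) * Qf (X i) (ψ i) k y, ?_⟩
  have hPQ : ∀ i x y, ∑ k, ((rM : ℂ) * Pf (B i) (X i) (s i) (ψ i) x k)
        * ((rN : ℂ) * Qf (X i) (ψ i) k y)
      = ((rM * rN : ℝ) : ℂ) * ∑ k, Pf (B i) (X i) (s i) (ψ i) x k * Qf (X i) (ψ i) k y := by
    intro i x y
    rw [Finset.mul_sum]
    refine Finset.sum_congr rfl fun k _ => ?_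
    push_cast; ring
  constructor
  all_goals try simp only [← hM, ← hN, ← hI]
  · exact hΛ0
  · intro i x y
    rw [← mul_add, Mul_add]
    have : (fun k => 1 - c i k + c i k) = fun _ => (1 : ℝ) := by funext k; ring
    rw [this, Mul_one (hS i), ← hBA]
  · intro i x y
    rw [hPQ, PQ_eq (hψ i), ← mul_assoc, mul_comm (Λ : ℂ), mul_assoc]
    congr 1
    rw [Mul, Mul, Finset.mul_sum]
    refine Finset.sum_congr rfl fun k _ => ?_
    have h1 : Λ * (ψ i k * (s i k)⁻¹) = c i k := by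
      rw [← mul_assoc, hΛψ]
      simp only [hi, hc]
      split_ifs with h
      · exact mul_inv_cancel₀ (hth.trans h).ne'
      · simp
    have h2 : (Λ : ℂ) * ((ψ i k * (s i k)⁻¹ : ℝ) : ℂ) = ((c i k : ℝ) : ℂ) := by
      rw [← Complex.ofReal_mul, h1]
    rw [← mul_assoc, h2]
  · have h1 : ∀ i, (M⁻¹ * N⁻¹) * ∑ x, ∑ y,
        ‖((rM * rN : ℝ) : ℂ) * Mul (B i) (X i) (c i) x y‖ ^ 2 = ∑ k, hi (s i) th k ^ 2 := by
      intro i
      simp only [norm_mul, mul_pow, ← Finset.mul_sum]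
      rw [hr, Mul_hs (hS i), Finset.sum_congr rfl fun k _ => hcs i k]
      field_simp
    rw [Finset.sum_congr rfl fun i _ => h1 i, ← hΛ2]
  · intro i x
    simp only [norm_mul, mul_pow, ← Finset.mul_sum, hAB]
    rw [hr]
    exact mul_le_mul_of_nonneg_left (Mul_row_le (hS i) (hc01' i) x) (by positivity)
  · intro i x
    simp only [norm_mul, mul_pow, ← Finset.mul_sum, hAB]
    rw [hr]
    exact mul_le_mul_of_nonneg_left (Mul_row_le (hS i) (hc01 i) x) (by positivity)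
  · intro i y
    simp only [norm_mul, mul_pow, ← Finset.mul_sum, hAB]
    rw [hr]
    exact mul_le_mul_of_nonneg_left (Mul_col_le (hS i) (hc01' i) y) (by positivity)
  · intro i y
    simp only [norm_mul, mul_pow, ← Finset.mul_sum, hAB]
    rw [hr]
    exact mul_le_mul_of_nonneg_left (Mul_col_le (hS i) (hc01 i) y) (by positivity)
  · intro i f
    have h1 : ∀ x, ‖((N : ℂ))⁻¹ * ∑ y, ((rM * rN : ℝ) : ℂ)
          * Mul (B i) (X i) (fun k => 1 - c i k) x y * f y‖ ^ 2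
        = M * N⁻¹ * ‖∑ y, Mul (B i) (X i) (fun k => 1 - c i k) x y * f y‖ ^ 2 := by
      intro x
      have h2 : ((N : ℂ))⁻¹ * ∑ y, ((rM * rN : ℝ) : ℂ)
            * Mul (B i) (X i) (fun k => 1 - c i k) x y * f y
          = ((N : ℂ))⁻¹ * (((rM * rN : ℝ) : ℂ)
            * ∑ y, Mul (B i) (X i) (fun k => 1 - c i k) x y * f y) := by
        congr 1
        rw [Finset.mul_sum]
        exact Finset.sum_congr rfl fun y _ => by rw [mul_assoc]
      rw [h2, norm_mul, norm_mul, mul_pow, mul_pow, hr, norm_inv, Complex.norm_real,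
        Real.norm_eq_abs, abs_of_pos hN0]
      field_simp
    have h3 := Mul_op (hS i) (hc's i) f
    simp only [h1]
    rw [← Finset.mul_sum]
    have h4 : M⁻¹ * (M * N⁻¹ * ∑ x, ‖∑ y, Mul (B i) (X i) (fun k => 1 - c i k) x y * f y‖ ^ 2)
        = N⁻¹ * ∑ x, ‖∑ y, Mul (B i) (X i) (fun k => 1 - c i k) x y * f y‖ ^ 2 := by
      field_simp
    rw [h4]
    calc N⁻¹ * ∑ x, ‖∑ y, Mul (B i) (X i) (fun k => 1 - c i k) x y * f y‖ ^ 2
        ≤ N⁻¹ * (th ^ 2 * ∑ y, ‖f y‖ ^ 2) :=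
          mul_le_mul_of_nonneg_left h3 (inv_nonneg.2 hN0.le)
      _ = _ := by ring
  · intro i
    have h1 : ∀ x x', ‖((N : ℂ))⁻¹ * ∑ y, ((rM * rN : ℝ) : ℂ)
          * Mul (B i) (X i) (fun k => 1 - c i k) x y
          * conj (((rM * rN : ℝ) : ℂ) * Mul (B i) (X i) (fun k => 1 - c i k) x' y)‖ ^ 2
        = M ^ 2 * ‖∑ y, Mul (B i) (X i) (fun k => 1 - c i k) x y
            * conj (Mul (B i) (X i) (fun k => 1 - c i k) x' y)‖ ^ 2 := by
      intro x x'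
      have h2 : ((N : ℂ))⁻¹ * ∑ y, ((rM * rN : ℝ) : ℂ)
            * Mul (B i) (X i) (fun k => 1 - c i k) x y
            * conj (((rM * rN : ℝ) : ℂ) * Mul (B i) (X i) (fun k => 1 - c i k) x' y)
          = ((N : ℂ))⁻¹ * (((rM * rN : ℝ) : ℂ) * (((rM * rN : ℝ) : ℂ)
            * ∑ y, Mul (B i) (X i) (fun k => 1 - c i k) x y
              * conj (Mul (B i) (X i) (fun k => 1 - c i k) x' y))) := by
        congr 1
        rw [Finset.mul_sum, Finset.mul_sum]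
        refine Finset.sum_congr rfl fun y _ => ?_
        rw [map_mul, Complex.conj_ofReal]
        ring
      rw [h2, norm_mul, norm_mul, norm_mul, mul_pow, mul_pow, mul_pow, hr, norm_inv,
        Complex.norm_real, Real.norm_eq_abs, abs_of_pos hN0]
      field_simp
    have h3 := Mul_S4_le (hS i) (hc's i)
    simp only [h1, ← Finset.mul_sum]
    have h5 : ∑ x, ∑ y, ‖Mul (B i) (X i) (fun k => 1 - c i k) x y‖ ^ 2
        ≤ ∑ x, ∑ y, ‖B i x y‖ ^ 2 :=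
      Finset.sum_le_sum fun x _ => Mul_row_le (hS i) (hc01' i) x
    have h6 : (M⁻¹ * N⁻¹) * ∑ x, ∑ y, ‖A i x y‖ ^ 2 = ∑ x, ∑ y, ‖B i x y‖ ^ 2 := by
      simp only [hAB, ← Finset.mul_sum]
      field_simp
    rw [h6]
    have h7 : M⁻¹ ^ 2 * (M ^ 2 * ∑ x, ∑ x', ‖∑ y, Mul (B i) (X i) (fun k => 1 - c i k) x y
            * conj (Mul (B i) (X i) (fun k => 1 - c i k) x' y)‖ ^ 2)
        = ∑ x, ∑ x', ‖∑ y, Mul (B i) (X i) (fun k => 1 - c i k) x y
            * conj (Mul (B i) (X i) (fun k => 1 - c i k) x' y)‖ ^ 2 := by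
      field_simp
    rw [h7]
    exact h3.trans (mul_le_mul_of_nonneg_left h5 (sq_nonneg _))
  · have h1 : ∀ i, M⁻¹ ^ 2 * ∑ x, ∑ x', ‖∑ k, ((rM : ℂ) * Pf (B i) (X i) (s i) (ψ i) x k)
          * conj ((rM : ℂ) * Pf (B i) (X i) (s i) (ψ i) x' k)‖ ^ 2 = ∑ k, ψ i k ^ 2 := by
      intro i
      rw [← hsP (hS i) (hψ i) (hψ0 i)]
      have h2 : ∀ x x', ‖∑ k, ((rM : ℂ) * Pf (B i) (X i) (s i) (ψ i) x k)
            * conj ((rM : ℂ) * Pf (B i) (X i) (s i) (ψ i) x' k)‖ ^ 2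
          = M ^ 2 * ‖∑ k, Pf (B i) (X i) (s i) (ψ i) x k
            * conj (Pf (B i) (X i) (s i) (ψ i) x' k)‖ ^ 2 := by
        intro x x'
        have h3 : ∑ k, ((rM : ℂ) * Pf (B i) (X i) (s i) (ψ i) x k)
              * conj ((rM : ℂ) * Pf (B i) (X i) (s i) (ψ i) x' k)
            = (rM : ℂ) * ((rM : ℂ) * ∑ k, Pf (B i) (X i) (s i) (ψ i) x k
              * conj (Pf (B i) (X i) (s i) (ψ i) x' k)) := by
          rw [Finset.mul_sum, Finset.mul_sum]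
          refine Finset.sum_congr rfl fun k _ => ?_
          rw [map_mul, Complex.conj_ofReal]
          ring
        rw [h3, norm_mul, norm_mul, mul_pow, mul_pow, Complex.norm_real, Real.norm_eq_abs,
          sq_abs, hrM2]
        ring
      simp only [h2, ← Finset.mul_sum]
      field_simp
    rw [Finset.sum_congr rfl fun i _ => h1 i]
    by_cases h : Λ = 0
    · have : ∀ i k, ψ i k = 0 := fun i k => by simp [hψd, h]
      simp [this]
    · have h2 : Λ ^ 2 * (I⁻¹ * ∑ i, ∑ k, ψ i k ^ 2) = Λ ^ 2 := by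
        have h3 : Λ ^ 2 * (I⁻¹ * ∑ i, ∑ k, ψ i k ^ 2) = I⁻¹ * ∑ i, ∑ k, (Λ * ψ i k) ^ 2 := by
          simp only [mul_pow, ← Finset.mul_sum]
          ring
        rw [h3]
        simp only [hΛψ]
        rw [← hΛ2]
      have h4 : Λ ^ 2 ≠ 0 := pow_ne_zero 2 h
      have h5 : I⁻¹ * ∑ i, ∑ k, ψ i k ^ 2 = 1 := by
        have := mul_left_cancel₀ h4 (h2.trans (mul_one _).symm)
        exact this
      exact h5.le
  · have h1 : ∀ i, N⁻¹ ^ 2 * ∑ y, ∑ y', ‖∑ k, conj ((rN : ℂ) * Qf (X i) (ψ i) k y)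
          * ((rN : ℂ) * Qf (X i) (ψ i) k y')‖ ^ 2 = ∑ k, ψ i k ^ 2 := by
      intro i
      rw [← hsQ (hS i) (hψ i)]
      have h2 : ∀ y y', ‖∑ k, conj ((rN : ℂ) * Qf (X i) (ψ i) k y)
            * ((rN : ℂ) * Qf (X i) (ψ i) k y')‖ ^ 2
          = N ^ 2 * ‖∑ k, conj (Qf (X i) (ψ i) k y) * Qf (X i) (ψ i) k y'‖ ^ 2 := by
        intro y y'
        have h3 : ∑ k, conj ((rN : ℂ) * Qf (X i) (ψ i) k y) * ((rN : ℂ) * Qf (X i) (ψ i) k y')
            = (rN : ℂ) * ((rN : ℂ) * ∑ k, conj (Qf (X i) (ψ i) k y) * Qf (X i) (ψ i) k y') := by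
          rw [Finset.mul_sum, Finset.mul_sum]
          refine Finset.sum_congr rfl fun k _ => ?_
          rw [map_mul, Complex.conj_ofReal]
          ring
        rw [h3, norm_mul, norm_mul, mul_pow, mul_pow, Complex.norm_real, Real.norm_eq_abs,
          sq_abs, hrN2]
        ring
      simp only [h2, ← Finset.mul_sum]
      field_simp
    rw [Finset.sum_congr rfl fun i _ => h1 i]
    by_cases h : Λ = 0
    · have : ∀ i k, ψ i k = 0 := fun i k => by simp [hψd, h]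
      simp [this]
    · have h2 : Λ ^ 2 * (I⁻¹ * ∑ i, ∑ k, ψ i k ^ 2) = Λ ^ 2 := by
        have h3 : Λ ^ 2 * (I⁻¹ * ∑ i, ∑ k, ψ i k ^ 2) = I⁻¹ * ∑ i, ∑ k, (Λ * ψ i k) ^ 2 := by
          simp only [mul_pow, ← Finset.mul_sum]
          ring
        rw [h3]
        simp only [hΛψ]
        rw [← hΛ2]
      have h4 : Λ ^ 2 ≠ 0 := pow_ne_zero 2 h
      have h5 : I⁻¹ * ∑ i, ∑ k, ψ i k ^ 2 = 1 := by
        have := mul_left_cancel₀ h4 (h2.trans (mul_one _).symm)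
        exact this
      exact h5.le
  · intro i x
    by_cases h : Λ = 0
    · rw [h, zero_mul, zero_mul]; positivity
    · have hΛp : 0 < Λ := lt_of_le_of_ne hΛ0 (Ne.symm h)
      have hC : ∀ k, ψ i k ≤ (Λ * th)⁻¹ * s i k ^ 2 := by
        intro k
        have h1 : th * hi (s i) th k ≤ s i k ^ 2 := by
          have := (hS i).nn k
          unfold hi
          split_ifs with hk
          · nlinarith
          · simpa using sq_nonneg (s i k)
        have h2 : ψ i k = (Λ * th)⁻¹ * (th * hi (s i) th k) := by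
          simp only [hψd]; field_simp
        rw [h2]
        exact mul_le_mul_of_nonneg_left h1 (by positivity)
      have h3 := rowP (hS i) (hψ i) (by positivity : 0 ≤ (Λ * th)⁻¹) hC x
      have h4 : ∑ k, ‖(rM : ℂ) * Pf (B i) (X i) (s i) (ψ i) x k‖ ^ 2
          = M * ∑ k, ‖Pf (B i) (X i) (s i) (ψ i) x k‖ ^ 2 := by
        rw [Finset.mul_sum]
        refine Finset.sum_congr rfl fun k _ => ?_
        rw [norm_mul, mul_pow, Complex.norm_real, Real.norm_eq_abs, sq_abs, hrM2]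
      have h5 : ∑ y, ‖A i x y‖ ^ 2 = M * N * ∑ y, ‖B i x y‖ ^ 2 := by
        rw [Finset.mul_sum]; exact Finset.sum_congr rfl fun y _ => hAB i x y
      rw [h4, h5]
      have h6 : Λ * th * (M * ∑ k, ‖Pf (B i) (X i) (s i) (ψ i) x k‖ ^ 2)
          ≤ Λ * th * (M * ((Λ * th)⁻¹ * ∑ y, ‖B i x y‖ ^ 2)) :=
        mul_le_mul_of_nonneg_left (mul_le_mul_of_nonneg_left h3 hM0.le) (by positivity)
      refine h6.trans (le_of_eq ?_)
      field_simp
  · intro i y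
    by_cases h : Λ = 0
    · rw [h, zero_mul, zero_mul]; positivity
    · have hΛp : 0 < Λ := lt_of_le_of_ne hΛ0 (Ne.symm h)
      have hC : ∀ k, ψ i k ≤ (Λ * th)⁻¹ * s i k ^ 2 := by
        intro k
        have h1 : th * hi (s i) th k ≤ s i k ^ 2 := by
          have := (hS i).nn k
          unfold hi
          split_ifs with hk
          · nlinarith
          · simpa using sq_nonneg (s i k)
        have h2 : ψ i k = (Λ * th)⁻¹ * (th * hi (s i) th k) := by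
          simp only [hψd]; field_simp
        rw [h2]
        exact mul_le_mul_of_nonneg_left h1 (by positivity)
      have h3 := rowQ (hS i) (hψ i) hC y
      have h4 : ∑ k, ‖(rN : ℂ) * Qf (X i) (ψ i) k y‖ ^ 2
          = N * ∑ k, ‖Qf (X i) (ψ i) k y‖ ^ 2 := by
        rw [Finset.mul_sum]
        refine Finset.sum_congr rfl fun k _ => ?_
        rw [norm_mul, mul_pow, Complex.norm_real, Real.norm_eq_abs, sq_abs, hrN2]
      have h5 : ∑ x, ‖A i x y‖ ^ 2 = M * N * ∑ x, ‖B i x y‖ ^ 2 := by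
        rw [Finset.mul_sum]; exact Finset.sum_congr rfl fun x _ => hAB i x y
      rw [h4, h5]
      have h6 : Λ * th * (N * ∑ k, ‖Qf (X i) (ψ i) k y‖ ^ 2)
          ≤ Λ * th * (N * ((Λ * th)⁻¹ * ∑ x, ‖B i x y‖ ^ 2)) :=
        mul_le_mul_of_nonneg_left (mul_le_mul_of_nonneg_left h3 hN0.le) (by positivity)
      refine h6.trans (le_of_eq ?_)
      field_simp
  · have h1 : ∀ i, ((M : ℂ)⁻¹ * (N : ℂ)⁻¹) * ∑ x, ∑ y, A i x y
          * conj (∑ k, ((rM : ℂ) * Pf (B i) (X i) (s i) (ψ i) x k)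
            * ((rN : ℂ) * Qf (X i) (ψ i) k y)) = ((∑ k, ψ i k * s i k : ℝ) : ℂ) := by
      intro i
      rw [← inner_A_PQ (hS i) (hψ i) (hψ0 i), Finset.mul_sum]
      refine Finset.sum_congr rfl fun x _ => ?_
      rw [Finset.mul_sum]
      refine Finset.sum_congr rfl fun y _ => ?_
      rw [hPQ, hBA i x y, map_mul, Complex.conj_ofReal]
      have hMN : ((rM * rN : ℝ) : ℂ) * ((rM * rN : ℝ) : ℂ) = (M : ℂ) * (N : ℂ) := by
        rw [← Complex.ofReal_mul, ← Complex.ofReal_mul]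
        congr 1
        rw [← hrM2, ← hrN2]; ring
      have hMc : (M : ℂ) ≠ 0 := by exact_mod_cast hM0.ne'
      have hNc : (N : ℂ) ≠ 0 := by exact_mod_cast hN0.ne'
      calc (M : ℂ)⁻¹ * (N : ℂ)⁻¹ * (((rM * rN : ℝ) : ℂ) * B i x y
            * (((rM * rN : ℝ) : ℂ)
              * conj (∑ k, Pf (B i) (X i) (s i) (ψ i) x k * Qf (X i) (ψ i) k y)))
          = (M : ℂ)⁻¹ * (N : ℂ)⁻¹ * (((rM * rN : ℝ) : ℂ) * ((rM * rN : ℝ) : ℂ)) * (B i x y
              * conj (∑ k, Pf (B i) (X i) (s i) (ψ i) x k * Qf (X i) (ψ i) k y)) := by ring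
        _ = _ := by rw [hMN]; field_simp
    rw [Finset.sum_congr rfl fun i _ => h1 i]
    have h2 : ∀ i k, ψ i k * s i k = hi (s i) th k ^ 2 / Λ := by
      intro i k
      simp only [hψd, hi]
      split_ifs
      · ring
      · simp
    simp only [h2]
    have h3 : I⁻¹ * ∑ i, ∑ k, hi (s i) th k ^ 2 / Λ = Λ := by
      simp only [← Finset.sum_div]
      rw [← mul_div_assoc, ← hΛ2]
      by_cases h : Λ = 0
      · simp [h]
      · field_simp
    have h4 : ((I : ℂ))⁻¹ * ∑ i, ((∑ k, hi (s i) th k ^ 2 / Λ : ℝ) : ℂ)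
        = ((I⁻¹ * ∑ i, ∑ k, hi (s i) th k ^ 2 / Λ : ℝ) : ℂ) := by
      rw [Complex.ofReal_mul, Complex.ofReal_inv, Complex.ofReal_sum]
    rw [h4, h3]

end Crest.Agent.R079.HiF881
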