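import Crest.Agent.R079.TDef_853
import Crest.Agent.R079.Qf_248
import Crest.Agent.R079.QVar_181

/-! R079, TDef_853, [S1] (helper653): scaling of `RuleA` and `BN`, algebra of the local `L^q` averages
`aq`, interpolation between `av` and the sup norm for the pieces of a windowed residual. -/

set_option autoImplicit false
set_option linter.unusedVariables false

namespace Crest.Agent.R079.TRec

open Finset Crest.Agent.R079.Grid Crest.Agent.R079.Growth Crest.Agent.R079.QRed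
  Crest.Agent.R079.QVar181

/-! ### `aq` -/

lemma aq_eq (q : ℝ) (p : Nd) (f : Fn) :
    aq q p f = ((1 / len p) * ∑ y ∈ iv p, ‖f y‖ ^ q) ^ (1 / q) := rfl

lemma aq_nonneg (q : ℝ) (p : Nd) (f : Fn) : 0 ≤ aq q p f := Lq853.avq_nonneg _ _ _ _

lemma aq_arg_nonneg (q : ℝ) (p : Nd) (f : Fn) : 0 ≤ (1 / len p) * ∑ y ∈ iv p, ‖f y‖ ^ q :=
  mul_nonneg (one_div_nonneg.2 (len_pos' p).le)
    (Finset.sum_nonneg fun y _ => Real.rpow_nonneg (norm_nonneg _) _)

/-- local -/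
lemma aq_congr (q : ℝ) (p : Nd) {f g : Fn} (h : ∀ y ∈ iv p, f y = g y) : aq q p f = aq q p g := by
  rw [aq_eq, aq_eq, Finset.sum_congr rfl fun y hy => by rw [h y hy]]

lemma aq_mono {q : ℝ} (hq : 0 < q) (p : Nd) {f g : Fn} (h : ∀ y ∈ iv p, ‖f y‖ ≤ ‖g y‖) :
    aq q p f ≤ aq q p g := by
  rw [aq_eq, aq_eq]
  refine Real.rpow_le_rpow (aq_arg_nonneg q p f) ?_ (by positivity)
  refine mul_le_mul_of_nonneg_left ?_ (one_div_nonneg.2 (len_pos' p).le)
  exact Finset.sum_le_sum fun y hy => Real.rpow_le_rpow (norm_nonneg _) (h y hy) hq.le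

lemma aq_smul {q : ℝ} (hq : 0 < q) (p : Nd) (c : ℂ) (f : Fn) :
    aq q p (fun y => c * f y) = ‖c‖ * aq q p f := by
  rw [aq_eq, aq_eq]
  have e : ∀ y, ‖c * f y‖ ^ q = ‖c‖ ^ q * ‖f y‖ ^ q := fun y => by
    rw [norm_mul, Real.mul_rpow (norm_nonneg _) (norm_nonneg _)]
  simp only [e]
  rw [← Finset.mul_sum, mul_left_comm, Real.mul_rpow (Real.rpow_nonneg (norm_nonneg _) _)
    (aq_arg_nonneg q p f), ← Real.rpow_mul (norm_nonneg _), mul_one_div_cancel hq.ne',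
    Real.rpow_one]

/-- triangle inequality -/
lemma aq_add_le {q : ℝ} (hq : 1 ≤ q) (p : Nd) (f g : Fn) :
    aq q p (fun y => f y + g y) ≤ aq q p f + aq q p g := by
  have hq0 : 0 < q := by linarith
  have hL := len_pos' p
  have hs : ∀ h : Fn, aq q p h = (1 / len p) ^ (1 / q) * (∑ y ∈ iv p, ‖h y‖ ^ q) ^ (1 / q) := by
    intro h
    rw [aq_eq, Real.mul_rpow (by positivity)
      (Finset.sum_nonneg fun y _ => Real.rpow_nonneg (norm_nonneg _) _)]
  rw [hs, hs, hs, ← mul_add]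
  refine mul_le_mul_of_nonneg_left ?_ (Real.rpow_nonneg (by positivity) _)
  refine le_trans ?_ (Real.Lp_add_le_of_nonneg (iv p) hq (f := fun y => ‖f y‖)
    (g := fun y => ‖g y‖) (fun y _ => norm_nonneg _) (fun y _ => norm_nonneg _))
  refine Real.rpow_le_rpow (Finset.sum_nonneg fun y _ => Real.rpow_nonneg (norm_nonneg _) _) ?_
    (by positivity)
  exact Finset.sum_le_sum fun y _ => Real.rpow_le_rpow (norm_nonneg _) (norm_add_le _ _) hq0.le

lemma aq_neg (q : ℝ) (p : Nd) (f : Fn) : aq q p (fun y => -f y) = aq q p f := by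
  rw [aq_eq, aq_eq]
  simp only [norm_neg]

lemma aq_sub_le {q : ℝ} (hq : 1 ≤ q) (p : Nd) (f g : Fn) :
    aq q p (fun y => f y - g y) ≤ aq q p f + aq q p g := by
  have h := aq_add_le hq p f (fun y => -g y)
  rw [aq_neg] at h
  simpa only [sub_eq_add_neg] using h

/-- **interpolation** between `av` (`L²`) and the sup norm -/
theorem aq_le_interp {q : ℝ} (hq : 2 ≤ q) (p : Nd) {f : Fn} {a s : ℝ} (ha : 0 ≤ a) (hs : 0 ≤ s)
    (h2 : av p f ≤ a) (hsup : ∀ y ∈ iv p, ‖f y‖ ≤ s) :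
    aq q p f ≤ (a ^ 2 * s ^ (q - 2)) ^ (1 / q) := by
  rw [aq_eq]
  refine Real.rpow_le_rpow (aq_arg_nonneg q p f) ?_ (by positivity)
  have hL := len_pos' p
  have h1 : ∑ y ∈ iv p, ‖f y‖ ^ q ≤ ∑ y ∈ iv p, ‖f y‖ ^ 2 * s ^ (q - 2) := by
    refine Finset.sum_le_sum fun y hy => ?_
    have e : ‖f y‖ ^ q = ‖f y‖ ^ (2 : ℝ) * ‖f y‖ ^ (q - 2) := by
      rcases (norm_nonneg (f y)).eq_or_lt with h0 | h0
      · rw [← h0, Real.zero_rpow (by linarith), Real.zero_rpow (by norm_num), zero_mul]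
      · rw [← Real.rpow_add h0]; congr 1; ring
    rw [e, Real.rpow_two]
    exact mul_le_mul_of_nonneg_left
      (Real.rpow_le_rpow (norm_nonneg _) (hsup y hy) (by linarith)) (by positivity)
  have h3 : av p f ^ 2 ≤ a ^ 2 := by
    have h0 : 0 ≤ av p f := Real.sqrt_nonneg _
    gcongr
  rw [av_sq] at h3
  have hsq : 0 ≤ s ^ (q - 2) := Real.rpow_nonneg hs _
  calc (1 / len p) * ∑ y ∈ iv p, ‖f y‖ ^ q
      ≤ (1 / len p) * ∑ y ∈ iv p, ‖f y‖ ^ 2 * s ^ (q - 2) := by gcongr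
    _ = ((1 / len p) * ∑ y ∈ iv p, ‖f y‖ ^ 2) * s ^ (q - 2) := by
        rw [← Finset.sum_mul, mul_assoc]
    _ ≤ a ^ 2 * s ^ (q - 2) := by gcongr

lemma two_lt_qx {k q3 : ℝ} (hk : 0 < k) (hq3 : 2 < q3) (j : Fin 4) : 2 < qx k q3 j := by
  unfold qx; split_ifs <;> linarith

/-- exponent form: `av ≤ C t^b`, `sup ≤ C t^(-x)` give `aq q ≤ C t^((2 b - x (q-2))/q)` -/
theorem aq_le_pow {q : ℝ} (hq : 2 ≤ q) (p : Nd) {f : Fn} {C t b x : ℝ} (hC : 0 ≤ C) (ht : 0 < t)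
    (h2 : av p f ≤ C * t ^ b) (hsup : ∀ y ∈ iv p, ‖f y‖ ≤ C * t ^ (-x)) :
    aq q p f ≤ C * t ^ ((2 * b - x * (q - 2)) / q) := by
  have hq0 : 0 < q := by linarith
  have htb : 0 ≤ t ^ b := (Real.rpow_pos_of_pos ht b).le
  have htx : 0 ≤ t ^ (-x) := (Real.rpow_pos_of_pos ht _).le
  refine (aq_le_interp hq p (mul_nonneg hC htb) (mul_nonneg hC htx) h2 hsup).trans (le_of_eq ?_)
  have e1 : (C * t ^ b) ^ 2 * (C * t ^ (-x)) ^ (q - 2)
      = C ^ q * t ^ (2 * b - x * (q - 2)) := by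
    rw [Real.mul_rpow hC htx, mul_pow, ← Real.rpow_mul ht.le]
    have e2 : (t ^ b) ^ 2 = t ^ (2 * b) := by
      rw [← Real.rpow_natCast, ← Real.rpow_mul ht.le]; congr 1; push_cast; ring
    have e3 : C ^ 2 * C ^ (q - 2) = C ^ q := by
      rcases hC.eq_or_lt with h0 | h0
      · rw [← h0]
        rw [Real.zero_rpow hq0.ne']; ring
      · rw [← Real.rpow_two, ← Real.rpow_add h0]; congr 1; ring
    have e4 : t ^ (2 * b) * t ^ (-x * (q - 2)) = t ^ (2 * b - x * (q - 2)) := by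
      rw [← Real.rpow_add ht]; congr 1; ring
    rw [e2, ← e3, ← e4]; ring
  rw [e1, Real.mul_rpow (Real.rpow_nonneg hC _) (Real.rpow_pos_of_pos ht _).le,
    ← Real.rpow_mul hC, ← Real.rpow_mul ht.le, mul_one_div_cancel hq0.ne', Real.rpow_one,
    mul_one_div]

/-! ### the pieces of a windowed residual -/

section WRd

variable {D : Dict} {k q3 sg c1 C : ℝ} {j : Fin 4} {t : ℝ} {R : Finset Nd} {J : Nd}
  {T : Finset Nd} {G : Fn} {H E X : Nd → Fn}

/-- gain of the small letter -/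
theorem WRd.aqE (h : WRd D k q3 sg c1 C j t R J T G H E X) (hk : 0 < k) (hq3 : 2 < q3)
    (hC : 0 ≤ C) (ht : 0 < t) {p : Nd} (hp : p ∈ R) :
    aq (qx k q3 j) p (E p) ≤ C * t ^ ((c1 - sx sg j * (qx k q3 j - 2)) / qx k q3 j) := by
  have := aq_le_pow (two_lt_qx hk hq3 j).le p hC ht (h.eav p hp) (h.esup p hp)
  convert this using 4
  ring

theorem WRd.aqH (h : WRd D k q3 sg c1 C j t R J T G H E X) (hk : 0 < k) (hq3 : 2 < q3)
    (hC : 0 ≤ C) (ht : 0 < t) {p : Nd} (hp : p ∈ R) :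
    aq (qx k q3 j) p (H p) ≤ C * t ^ (-(sx sg j * (qx k q3 j - 2) / qx k q3 j)) := by
  have h0 : av p (H p) ≤ C * t ^ (0 : ℝ) := by rw [Real.rpow_zero, mul_one]; exact h.hav p hp
  have := aq_le_pow (two_lt_qx hk hq3 j).le p hC ht h0 (h.hsup p hp)
  convert this using 3
  ring

/-- the loss exponent of `H`, `E`, `X` -/
theorem WRd.aqE' (h : WRd D k q3 sg c1 C j t R J T G H E X) (hk : 0 < k) (hq3 : 2 < q3)
    (hc1 : 0 ≤ c1) (hC : 0 ≤ C) (ht : 0 < t) (ht1 : t ≤ 1) {p : Nd} (hp : p ∈ R) :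
    aq (qx k q3 j) p (E p) ≤ C * t ^ (-(sx sg j * (qx k q3 j - 2) / qx k q3 j)) := by
  refine (h.aqE hk hq3 hC ht hp).trans ?_
  have hq := two_lt_qx hk hq3 j
  refine mul_le_mul_of_nonneg_left (Real.rpow_le_rpow_of_exponent_ge ht ht1 ?_) hC
  rw [← neg_div]
  apply div_le_div_of_nonneg_right _ (by linarith)
  linarith

theorem WRd.aqX (h : WRd D k q3 sg c1 C j t R J T G H E X) (hk : 0 < k) (hq3 : 2 < q3)
    (hsg : 0 ≤ sg) (hc1 : 0 ≤ c1) (hC : 1 ≤ C) (ht : 0 < t) (ht1 : t ≤ 1) {p : Nd} (hp : p ∈ R) :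
    aq (qx k q3 j) p (X p) ≤ 3 * C * t ^ (-(sx sg j * (qx k q3 j - 2) / qx k q3 j)) := by
  have hq := two_lt_qx hk hq3 j
  have hx : 0 ≤ sx sg j := by unfold sx; split_ifs <;> linarith
  have e : X p = fun y => (G y - H p y) - E p y := by funext y; exact h.eq p hp y
  have h1 := aq_sub_le (q := qx k q3 j) (by linarith) p (fun y => G y - H p y) (E p)
  have h2 := aq_sub_le (q := qx k q3 j) (by linarith) p G (H p)
  have h3 := h.aqH hk hq3 (by linarith) ht hp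
  have h4 := h.aqE' hk hq3 hc1 (by linarith) ht ht1 hp
  have h5 := h.nrm p hp
  have h6 : 1 ≤ t ^ (-(sx sg j * (qx k q3 j - 2) / qx k q3 j)) := by
    apply Real.one_le_rpow_of_pos_of_le_one_of_nonpos ht ht1
    have : 0 ≤ sx sg j * (qx k q3 j - 2) / qx k q3 j := by
      apply div_nonneg (mul_nonneg hx (by linarith)) (by linarith)
    linarith
  rw [e]
  have h7 : aq (qx k q3 j) p (fun y => (G y - H p y) - E p y)
      ≤ 1 + C * t ^ (-(sx sg j * (qx k q3 j - 2) / qx k q3 j))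
        + C * t ^ (-(sx sg j * (qx k q3 j - 2) / qx k q3 j)) := by linarith
  nlinarith

/-- slots `0,1,2`: plain numbers (`L^(2+k)`, sup `t⁻¹`) -/
theorem WRd.aqE2 (h : WRd D k q3 sg c1 C j t R J T G H E X) (hj : j ≠ 3) (hk : 0 < k)
    (hq3 : 2 < q3) (hC : 0 ≤ C) (ht : 0 < t) (ht1 : t ≤ 1) (hc1 : c1 ≤ 2) {p : Nd} (hp : p ∈ R) :
    aq (2 + k) p (E p) ≤ C * t ^ (c1 / 2 - k) := by
  have h1 := h.aqE hk hq3 hC ht hp
  have e1 : qx k q3 j = 2 + k := by simp [qx, hj]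
  have e2 : sx sg j = 1 := by simp [sx, hj]
  rw [e1, e2] at h1
  refine h1.trans (mul_le_mul_of_nonneg_left (Real.rpow_le_rpow_of_exponent_ge ht ht1 ?_) hC)
  rw [le_div_iff₀ (by linarith)]
  nlinarith [mul_nonneg hk.le (by linarith : (0:ℝ) ≤ 1 - c1 / 2), mul_nonneg hk.le hk.le]

end WRd

/-! ### scaling -/

lemma TR_smul (bb : ℤ) (ε : ℕ → ℤ → ℂ) (R : Finset Nd) (F : Fin 4 → Fn) (c : Fin 4 → ℂ) :
    TR bb ε R (fun j y => c j * F j y) = (∏ j, c j) * TR bb ε R F := by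
  unfold TR
  rw [Finset.mul_sum]
  exact Finset.sum_congr rfl fun p _ => Qf248.TI_smul bb ε F c p

lemma TR_scale (bb : ℤ) (ε : ℕ → ℤ → ℂ) (R : Finset Nd) (F : Fin 4 → Fn) (b : Fin 4 → ℝ)
    (hb : ∀ j, 0 < b j) :
    ‖TR bb ε R F‖ = (∏ j, b j) * ‖TR bb ε R (fun j y => ((b j)⁻¹ : ℂ) * F j y)‖ := by
  rw [TR_smul, norm_mul]
  have h1 : ‖∏ j, ((b j : ℂ))⁻¹‖ = (∏ j, b j)⁻¹ := by
    rw [norm_prod, ← Finset.prod_inv_distrib]
    refine Finset.prod_congr rfl fun j _ => ?_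
    rw [norm_inv, Complex.norm_real, Real.norm_of_nonneg (hb j).le]
  rw [h1, ← mul_assoc, mul_inv_cancel₀ (Finset.prod_pos fun j _ => hb j).ne', one_mul]

/-- `BN` for arbitrary positive norms -/
theorem BN_scaled_pos {k q3 : ℝ} (hk : 0 < k) (hq3 : 2 < q3) {N : ℕ} {B : ℝ} (h : BN k q3 N B)
    {bb : ℤ} {ε : ℕ → ℤ → ℂ} (hA : Adm bb ε) {R : Finset Nd} {J : Nd} (hR : Full R J)
    (hJ : J.1 ≤ N) {F : Fin 4 → Fn} {a : Fin 4 → ℝ} (ha : ∀ j, 0 < a j)
    (hF : ∀ j, ∀ p ∈ R, aq (qx k q3 j) p (F j) ≤ a j) :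
    ‖TR bb ε R F‖ ≤ B * (∏ j, a j) * len J := by
  rw [TR_scale bb ε R F a ha]
  have h1 := h bb ε hA R J hR hJ (fun j y => ((a j)⁻¹ : ℂ) * F j y) (by
    intro j p hp
    rw [aq_smul (by linarith [two_lt_qx hk hq3 j]), norm_inv, Complex.norm_real,
      Real.norm_of_nonneg (ha j).le, inv_mul_le_iff₀ (ha j), mul_one]
    exact hF j p hp)
  have h2 : 0 ≤ ∏ j, a j := Finset.prod_nonneg fun j _ => (ha j).le
  calc (∏ j, a j) * ‖TR bb ε R (fun j y => ((a j)⁻¹ : ℂ) * F j y)‖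
      ≤ (∏ j, a j) * (B * len J) := by gcongr
    _ = _ := by ring

/-- **`BN` for arbitrary norms `a j ≥ 0`** (three small letters) -/
theorem BN_scaled {k q3 : ℝ} (hk : 0 < k) (hq3 : 2 < q3) {N : ℕ} {B : ℝ} (h : BN k q3 N B)
    {bb : ℤ} {ε : ℕ → ℤ → ℂ} (hA : Adm bb ε) {R : Finset Nd} {J : Nd} (hR : Full R J)
    (hJ : J.1 ≤ N) {F : Fin 4 → Fn} {a : Fin 4 → ℝ} (ha : ∀ j, 0 ≤ a j)
    (hF : ∀ j, ∀ p ∈ R, aq (qx k q3 j) p (F j) ≤ a j) :
    ‖TR bb ε R F‖ ≤ B * (∏ j, a j) * len J := by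
  have hlim : Filter.Tendsto (fun x : ℝ => B * (∏ j, (a j + x)) * len J)
      (nhdsWithin 0 (Set.Ioi 0)) (nhds (B * (∏ j, (a j + 0)) * len J)) := by
    have hc : Continuous fun x : ℝ => B * (∏ j, (a j + x)) * len J := by fun_prop
    exact (hc.tendsto 0).mono_left nhdsWithin_le_nhds
  simp only [add_zero] at hlim
  refine ge_of_tendsto hlim ?_
  filter_upwards [self_mem_nhdsWithin] with x hx
  have hx0 : 0 < x := hx
  exact BN_scaled_pos hk hq3 h hA hR hJ (fun j => by linarith [ha j])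
    (fun j p hp => (hF j p hp).trans (by linarith))

lemma Lv_smul {D : Dict} {j : Fin 4} {t s : ℝ} {p : Nd} {g : Fn} (h : Lv D j t s p g) (c : ℂ) :
    Lv D j t (‖c‖ * s) p (fun y => c * g y) := by
  intro φ hφ
  have h1 := h φ hφ
  have e : ∑ y ∈ iv p, c * g y * φ y = c * ∑ y ∈ iv p, g y * φ y := by
    rw [Finset.mul_sum]
    exact Finset.sum_congr rfl fun y _ => by ring
  rw [e, norm_mul, mul_assoc]
  exact mul_le_mul_of_nonneg_left h1 (norm_nonneg _)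

lemma Lv_mono {D : Dict} {j : Fin 4} {t s s' : ℝ} {p : Nd} {g : Fn} (h : Lv D j t s p g)
    (hs : s ≤ s') : Lv D j t s' p g := fun φ hφ =>
  (h φ hφ).trans (mul_le_mul_of_nonneg_right hs (len_pos' p).le)

lemma Fz_smul {D : Dict} {j : Fin 4} {t M : ℝ} {p : Nd} {f : Fn} (h : Fz D j t M p f) (c : ℂ) :
    Fz D j t (‖c‖ * M) p (fun y => c * f y) := by
  obtain ⟨n, φ, d, hφ, hf, hM⟩ := h
  refine ⟨n, φ, fun i => c * d i, hφ, fun y hy => ?_, ?_⟩
  · dsimp only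
    rw [hf y hy, Finset.mul_sum]
    exact Finset.sum_congr rfl fun i _ => by ring
  · simp only [norm_mul]
    rw [← Finset.mul_sum]
    exact mul_le_mul_of_nonneg_left hM (norm_nonneg _)

lemma Fz_mono {D : Dict} {j : Fin 4} {t M M' : ℝ} {p : Nd} {f : Fn} (h : Fz D j t M p f)
    (hM : M ≤ M') : Fz D j t M' p f := by
  obtain ⟨n, φ, d, hφ, hf, hm⟩ := h
  exact ⟨n, φ, d, hφ, hf, hm.trans hM⟩

theorem RuleA_gen_pos {D : Dict} {k q3 c0 c3 e t0 K : ℝ} (hk : 0 < k) (hq3 : 2 < q3)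
    (h : RuleA D k q3 c0 c3 e t0 K) {N : ℕ} {B : ℝ} (hB : 0 ≤ B) (hBN : BN k q3 N B) {t : ℝ}
    (ht : 0 < t) (htt : t ≤ t0) {bb : ℤ} {ε : ℕ → ℤ → ℂ} (hA : Adm bb ε) {W : Finset Nd} {I : Nd}
    (hW : Full W I) (hI : I.1 ≤ N) {F : Fin 4 → Fn} {b : Fin 4 → ℝ} (hb0 : ∀ j, 0 < b j)
    (hF : ∀ j, ∀ p ∈ W, aq (qx k q3 j) p (F j) ≤ b j) {i m : Fin 4} (him : i ≠ m) {M s : ℝ}
    (hfz : Fz D i (t ^ (1 + e)) M I (F i)) (hM : M ≤ b i)
    (hlv : ∀ p ∈ W, Lv D m t s p (F m)) (hs : s ≤ b m) :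
    ‖TR bb ε W F‖ ≤ K * (1 + B) * (∏ j, b j) * t ^ (if m = 3 then c3 else c0) * len I := by
  rw [TR_scale bb ε W F b hb0]
  have hinv : ∀ j, ‖((b j : ℂ))⁻¹‖ = (b j)⁻¹ := fun j => by
    rw [norm_inv, Complex.norm_real, Real.norm_of_nonneg (hb0 j).le]
  have h1 := h N B hB hBN t ht htt bb ε hA W I hW hI (fun j y => ((b j)⁻¹ : ℂ) * F j y) (by
    intro j p hp
    rw [aq_smul (by linarith [two_lt_qx hk hq3 j]), hinv, inv_mul_le_iff₀ (hb0 j), mul_one]
    exact hF j p hp) i m him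
    (Fz_mono (Fz_smul hfz _) (by
      rw [hinv, inv_mul_le_iff₀ (hb0 i), mul_one]; exact hM))
    (fun p hp => Lv_mono (Lv_smul (hlv p hp) _) (by
      rw [hinv, inv_mul_le_iff₀ (hb0 m), mul_one]; exact hs))
  have h2 : 0 ≤ ∏ j, b j := Finset.prod_nonneg fun j _ => (hb0 j).le
  refine (mul_le_mul_of_nonneg_left h1 h2).trans (le_of_eq ?_)
  ring

/-- **scaled rule (A), general form**: any `b j ≥ 0` above the norms, `b i` above the mass, `b m`
above the level -/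
theorem RuleA_gen {D : Dict} {k q3 c0 c3 e t0 K : ℝ} (hk : 0 < k) (hq3 : 2 < q3)
    (h : RuleA D k q3 c0 c3 e t0 K) {N : ℕ} {B : ℝ} (hB : 0 ≤ B) (hBN : BN k q3 N B) {t : ℝ}
    (ht : 0 < t) (htt : t ≤ t0) {bb : ℤ} {ε : ℕ → ℤ → ℂ} (hA : Adm bb ε) {W : Finset Nd} {I : Nd}
    (hW : Full W I) (hI : I.1 ≤ N) {F : Fin 4 → Fn} {b : Fin 4 → ℝ} (hb0 : ∀ j, 0 ≤ b j)
    (hF : ∀ j, ∀ p ∈ W, aq (qx k q3 j) p (F j) ≤ b j) {i m : Fin 4} (him : i ≠ m) {M s : ℝ}
    (hfz : Fz D i (t ^ (1 + e)) M I (F i)) (hM : M ≤ b i)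
    (hlv : ∀ p ∈ W, Lv D m t s p (F m)) (hs : s ≤ b m) :
    ‖TR bb ε W F‖ ≤ K * (1 + B) * (∏ j, b j) * t ^ (if m = 3 then c3 else c0) * len I := by
  have hlim : Filter.Tendsto
      (fun x : ℝ => K * (1 + B) * (∏ j, (b j + x)) * t ^ (if m = 3 then c3 else c0) * len I)
      (nhdsWithin 0 (Set.Ioi 0))
      (nhds (K * (1 + B) * (∏ j, (b j + 0)) * t ^ (if m = 3 then c3 else c0) * len I)) := by
    have hc : Continuous fun x : ℝ =>
        K * (1 + B) * (∏ j, (b j + x)) * t ^ (if m = 3 then c3 else c0) * len I := by fun_prop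
    exact (hc.tendsto 0).mono_left nhdsWithin_le_nhds
  simp only [add_zero] at hlim
  refine ge_of_tendsto hlim ?_
  filter_upwards [self_mem_nhdsWithin] with x hx
  have hx0 : 0 < x := hx
  exact RuleA_gen_pos hk hq3 h hB hBN ht htt hA hW hI (fun j => by linarith [hb0 j])
    (fun j p hp => (hF j p hp).trans (by linarith)) him hfz (by linarith) hlv (by linarith)

/-- **scaled rule (A), `max` form** (351) -/
theorem RuleA_max {D : Dict} {k q3 c0 c3 e t0 K : ℝ} (hk : 0 < k) (hq3 : 2 < q3)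
    (h : RuleA D k q3 c0 c3 e t0 K) {N : ℕ} {B : ℝ} (hB : 0 ≤ B) (hBN : BN k q3 N B) {t : ℝ}
    (ht : 0 < t) (htt : t ≤ t0) {bb : ℤ} {ε : ℕ → ℤ → ℂ} (hA : Adm bb ε) {W : Finset Nd} {I : Nd}
    (hW : Full W I) (hI : I.1 ≤ N) {F : Fin 4 → Fn} {a : Fin 4 → ℝ} (ha : ∀ j, 0 ≤ a j)
    (hF : ∀ j, ∀ p ∈ W, aq (qx k q3 j) p (F j) ≤ a j) {i m : Fin 4} (him : i ≠ m) {M s : ℝ}
    (hfz : Fz D i (t ^ (1 + e)) M I (F i)) (hlv : ∀ p ∈ W, Lv D m t s p (F m)) :
    ‖TR bb ε W F‖ ≤ K * (1 + B) * (max (a i) M * max (a m) s *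
      ∏ j ∈ (Finset.univ.erase i).erase m, a j) * t ^ (if m = 3 then c3 else c0) * len I := by
  classical
  have hmi : m ∈ (Finset.univ : Finset (Fin 4)).erase i :=
    Finset.mem_erase.2 ⟨him.symm, Finset.mem_univ _⟩
  have h1 := RuleA_gen hk hq3 h hB hBN ht htt hA hW hI (F := F)
    (b := fun j => if j = i then max (a i) M else if j = m then max (a m) s else a j)
    (fun j => by
      split_ifs
      · exact (ha i).trans (le_max_left _ _)
      · exact (ha m).trans (le_max_left _ _)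
      · exact ha j)
    (fun j p hp => by
      split_ifs with h1 h2
      · subst h1; exact (hF _ p hp).trans (le_max_left _ _)
      · subst h2; exact (hF _ p hp).trans (le_max_left _ _)
      · exact hF j p hp) him hfz (by simp) hlv (by simp [him.symm])
  have hprod : (∏ j, (if j = i then max (a i) M else if j = m then max (a m) s else a j))
      = max (a i) M * max (a m) s * ∏ j ∈ (Finset.univ.erase i).erase m, a j := by
    rw [← Finset.mul_prod_erase _ _ (Finset.mem_univ i), ← Finset.mul_prod_erase _ _ hmi]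
    rw [if_pos rfl, if_neg him.symm, if_pos rfl, mul_assoc]
    congr 2
    refine Finset.prod_congr rfl fun j hj => ?_
    rw [Finset.mem_erase, Finset.mem_erase] at hj
    rw [if_neg hj.2.1, if_neg hj.1]
  rw [hprod] at h1
  exact h1

/-- **scaled rule (A)**: norms `a j ≥ 1`, level `C`, mass `C` -/
theorem RuleA_scaled {D : Dict} {k q3 c0 c3 e t0 K : ℝ} (hk : 0 < k) (hq3 : 2 < q3) (hK : 0 ≤ K)
    (h : RuleA D k q3 c0 c3 e t0 K) {N : ℕ} {B : ℝ} (hB : 0 ≤ B) (hBN : BN k q3 N B) {t : ℝ}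
    (ht : 0 < t) (htt : t ≤ t0) {bb : ℤ}
    {ε : ℕ → ℤ → ℂ} (hA : Adm bb ε) {W : Finset Nd} {I : Nd} (hW : Full W I) (hI : I.1 ≤ N)
    {F : Fin 4 → Fn} {a : Fin 4 → ℝ} {C : ℝ} (hC : 1 ≤ C) (ha : ∀ j, 1 ≤ a j)
    (hF : ∀ j, ∀ p ∈ W, aq (qx k q3 j) p (F j) ≤ a j) {i m : Fin 4} (him : i ≠ m)
    (hfz : Fz D i (t ^ (1 + e)) C I (F i)) (hlv : ∀ p ∈ W, Lv D m t C p (F m)) :
    ‖TR bb ε W F‖ ≤ K * (1 + B) * C ^ 2 * (∏ j, a j) * t ^ (if m = 3 then c3 else c0) * len I := by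
  classical
  have ha0 : ∀ j, 0 < a j := fun j => by linarith [ha j]
  have hC0 : 0 < C := by linarith
  have h1 := RuleA_gen hk hq3 h hB hBN ht htt hA hW hI (F := F)
    (b := fun j => if j = i ∨ j = m then C * a j else a j)
    (fun j => by
      have := ha0 j
      split_ifs <;> positivity)
    (fun j p hp => by
      refine (hF j p hp).trans ?_
      have := ha0 j
      split_ifs
      · nlinarith
      · exact le_refl _) him hfz (by
        have := ha i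
        simp only [true_or, if_true]
        nlinarith) hlv (by
        have := ha m
        simp only [or_true, if_true]
        nlinarith)
  have hprod : (∏ j, (if j = i ∨ j = m then C * a j else a j)) = C ^ 2 * ∏ j, a j := by
    have e1 : ∀ j, (if j = i ∨ j = m then C * a j else a j)
        = (if j = i ∨ j = m then C else 1) * a j := by
      intro j
      split_ifs <;> ring
    rw [Finset.prod_congr rfl fun j _ => e1 j, Finset.prod_mul_distrib]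
    congr 1
    rw [Finset.prod_ite, Finset.prod_const_one, mul_one, Finset.prod_const]
    congr 1
    have : (Finset.univ.filter fun j : Fin 4 => j = i ∨ j = m) = {i, m} := by
      ext j; simp
    rw [this, Finset.card_pair him]
  rw [hprod] at h1
  refine h1.trans (le_of_eq ?_)
  ring

/-- scaled `FrzBd` -/
theorem FrzBd_scaled {D : Dict} {k q3 : ℝ} (hk : 0 < k) (hq3 : 2 < q3) (h : FrzBd D k q3) {t : ℝ}
    (ht : 0 < t) (ht1 : t ≤ 1) : ∃ K : ℝ, 0 ≤ K ∧ ∀ bb ε, Adm bb ε → ∀ W I, Full W I →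
      ∀ (F : Fin 4 → Fn) (a : Fin 4 → ℝ) (C : ℝ), 1 ≤ C → (∀ j, 1 ≤ a j) →
      (∀ j, ∀ p ∈ W, aq (qx k q3 j) p (F j) ≤ a j) → ∀ i : Fin 4, i ≠ 3 → Fz D i t C I (F i) →
        ‖TR bb ε W F‖ ≤ K * C * (∏ j, a j) * len I := by
  classical
  obtain ⟨K, hK, hb⟩ := h t ht ht1
  refine ⟨K, hK, fun bb ε hA W I hW F a C hC ha hF i hi hfz => ?_⟩
  set b : Fin 4 → ℝ := fun j => if j = i then C * a j else a j with hbd
  have ha0 : ∀ j, 0 < a j := fun j => by linarith [ha j]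
  have hC0 : 0 < C := by linarith
  have hb0 : ∀ j, 0 < b j := by
    intro j
    simp only [hbd]
    have := ha0 j
    split_ifs <;> positivity
  have hab : ∀ j, a j ≤ b j := by
    intro j
    simp only [hbd]
    have := ha0 j
    split_ifs
    · nlinarith
    · exact le_refl _
  have hinv : ∀ j, ‖((b j : ℂ))⁻¹‖ = (b j)⁻¹ := fun j => by
    rw [norm_inv, Complex.norm_real, Real.norm_of_nonneg (hb0 j).le]
  have hbi : C ≤ b i := by
    simp only [hbd, if_true]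
    have := ha i
    nlinarith
  rw [TR_scale bb ε W F b hb0]
  have h1 := hb bb ε hA W I hW (fun j y => ((b j)⁻¹ : ℂ) * F j y) (by
    intro j p hp
    rw [aq_smul (by linarith [two_lt_qx hk hq3 j]), hinv, inv_mul_le_iff₀ (hb0 j), mul_one]
    exact (hF j p hp).trans (hab j)) i hi
    (Fz_mono (Fz_smul hfz _) (by
      rw [hinv, inv_mul_le_iff₀ (hb0 i), mul_one]; exact hbi))
  have hprod : ∏ j, b j = C * ∏ j, a j := by
    have e1 : ∀ j, b j = (if j = i then C else 1) * a j := by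
      intro j
      simp only [hbd]
      split_ifs <;> ring
    rw [Finset.prod_congr rfl fun j _ => e1 j, Finset.prod_mul_distrib]
    congr 1
    rw [Finset.prod_ite_eq']
    simp
  rw [hprod]
  have h2 : 0 ≤ C * ∏ j, a j :=
    mul_nonneg hC0.le (Finset.prod_nonneg fun j _ => (ha0 j).le)
  refine (mul_le_mul_of_nonneg_left h1 h2).trans (le_of_eq ?_)
  ring

end Crest.Agent.R079.TRec
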