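import Crest.Agent.R079.TDfb_853
import Crest.Agent.R079.TS1_653
import Crest.Agent.R079.TWL_649

/-! R079, doc 2531 (787) with 914's additive drift: ITERATION over `TR` and the numbers of `RuleA2`
(helper260).

`BaseA` (Step II, quantitative form) + `GenA` (one generation, Step I) ⟹ `RuleA2`. -/

set_option autoImplicit false

namespace Crest.Agent.R079.It260

open Finset Crest.Agent.R079.Grid Crest.Agent.R079.Growth Crest.Agent.R079.QRed
open Crest.Agent.R079.TRec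

/-- size `≤ s` of the letters outside the slots `i`, `m` -/
def Sz (k s : ℝ) (i m : Fin 4) (R : Finset Nd) (F : Fin 4 → Fn) : Prop :=
  ∀ j, j ≠ i → j ≠ m → ∀ p ∈ R, aq (2 + k) p (F j) ≤ s

/-- **(BASE)** = Step II for the static pair `(P, R)` in the slots `i`, `m`: additive drift `d` -/
def BaseA (D : Dict) (k q3 cS CS e t0 K : ℝ) : Prop :=
  ∀ (N : ℕ) (B : ℝ), 0 ≤ B → BN k q3 N B → ∀ t, 0 < t → t ≤ t0 → ∀ bb W I, Full W I → I.1 ≤ N →
    ∀ i m : Fin 4, i ≠ m → i ≠ 3 → m ≠ 3 → ∀ P R : Fn,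
    (∀ p ∈ W, aq (2 + k) p P ≤ 1) → (∀ p ∈ W, aq (2 + k) p R ≤ 1) →
    Fz D i (t ^ (1 + e)) 1 I P → (∀ p ∈ W, Lv D m t 1 p R) →
    ∃ d : Nd → ℝ, (∀ p, 0 ≤ d p) ∧ ∑ p ∈ W, d p ≤ K * t ^ (-CS) * len I ∧
      ∀ W' J, Full W' J → W' ⊆ W → ∀ F : Fin 4 → Fn, F i = P → F m = R → Sz k 1 i m W' F →
        ∀ ε, Adm bb ε →
        ‖TR bb ε W' F‖ ≤ K * (1 + B) * (t ^ cS * len J + t ^ (-CS) * ∑ p ∈ W', d p)

/-- **(GEN)** = one generation of Step I -/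
def GenA (D : Dict) (k q3 c1 cG δ e t0 K : ℝ) : Prop :=
  ∀ (N : ℕ) (B : ℝ), 0 ≤ B → BN k q3 N B → ∀ t, 0 < t → t ≤ t0 → ∀ bb ε, Adm bb ε → ∀ W I,
    Full W I → I.1 ≤ N → ∀ i m : Fin 4, i ≠ m → i ≠ 3 → m ≠ 3 → ∀ F : Fin 4 → Fn,
    (∀ p ∈ W, aq (2 + k) p (F i) ≤ 1) → (∀ p ∈ W, aq (2 + k) p (F m) ≤ 1) → Sz k 1 i m W F →
    Fz D i (t ^ (1 + e)) 1 I (F i) → (∀ p ∈ W, Lv D m t 1 p (F m)) →
    ∃ (T : Finset Nd) (F' : Nd → Fin 4 → Fn), Tops W I T ∧ ∑ w ∈ T, len w ≤ K * t ^ (-c1) * len I ∧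
      (∀ w ∈ T, F' w i = F i ∧ F' w m = F m ∧
        Sz k (K * t ^ (c1 / 2 - δ)) i m (win W T w) (F' w)) ∧
      ‖TR bb ε W F‖ ≤ K * (1 + B) * t ^ cG * len I + ∑ w ∈ T, ‖TR bb ε (win W T w) (F' w)‖

theorem aq_le_aq {q q' : ℝ} (hq : 0 < q) (hqq : q ≤ q') (p : Nd) (f : Fn) :
    aq q p f ≤ aq q' p f := by
  have hL := QVar181.len_pos' p
  have hq' : 0 < q' := hq.trans_le hqq
  have h := Real.rpow_arith_mean_le_arith_mean_rpow (iv p) (fun _ => 1 / len p)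
    (fun y => ‖f y‖ ^ q) (fun _ _ => by positivity) (by
      rw [Finset.sum_const, nsmul_eq_mul, QVar181.card_iv', mul_one_div_cancel hL.ne'])
    (fun _ _ => Real.rpow_nonneg (norm_nonneg _) _) (p := q' / q) ((one_le_div hq).2 hqq)
  have e1 : ∀ y, (‖f y‖ ^ q) ^ (q' / q) = ‖f y‖ ^ q' := fun y => by
    rw [← Real.rpow_mul (norm_nonneg _)]
    congr 1
    field_simp
  simp only [e1] at h
  rw [← Finset.mul_sum, ← Finset.mul_sum] at h
  rw [aq_eq, aq_eq]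
  have h0 := aq_arg_nonneg q p f
  have h1 : ((1 / len p) * ∑ y ∈ iv p, ‖f y‖ ^ q) ^ (1 / q) =
      (((1 / len p) * ∑ y ∈ iv p, ‖f y‖ ^ q) ^ (q' / q)) ^ (1 / q') := by
    rw [← Real.rpow_mul h0]
    congr 1
    field_simp
  rw [h1]
  exact Real.rpow_le_rpow (Real.rpow_nonneg h0 _) h (by positivity)

/-- restriction of a frozen letter -/
theorem fz_sub {D : Dict} {j : Fin 4} {t M : ℝ} {p q : Nd} {f : Fn} (h : Fz D j t M p f)
    (hq : iv q ⊆ iv p) : Fz D j t M q f := by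
  obtain ⟨n, φ, c, h1, h2, h3⟩ := h
  exact ⟨n, φ, c, h1, fun y hy => h2 y (hq hy), h3⟩

/-- scaling weights of the letters outside `i`, `m` -/
noncomputable def wt (i m : Fin 4) (s : ℝ) (j : Fin 4) : ℝ := if j = i ∨ j = m then 1 else s

theorem wt_pos {i m : Fin 4} {s : ℝ} (hs : 0 < s) (j : Fin 4) : 0 < wt i m s j := by
  unfold wt; split_ifs
  · exact one_pos
  · exact hs

theorem prod_wt {i m : Fin 4} (him : i ≠ m) (s : ℝ) : ∏ j, wt i m s j = s ^ 2 := by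
  unfold wt
  rw [Fin.prod_univ_four]
  revert him
  fin_cases i <;> fin_cases m <;> intro him <;> simp_all <;> ring

/-- scaling of the letters outside `i`, `m` -/
theorem TR_free_scale (bb : ℤ) (ε : ℕ → ℤ → ℂ) (R : Finset Nd) (F : Fin 4 → Fn) {i m : Fin 4}
    (him : i ≠ m) {s : ℝ} (hs : 0 < s) :
    ‖TR bb ε R F‖ = s ^ 2 * ‖TR bb ε R (fun j y => ((wt i m s j : ℝ)⁻¹ : ℂ) * F j y)‖ := by
  rw [TR_scale bb ε R F (wt i m s) (wt_pos hs), prod_wt him]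

theorem wt_i (i m : Fin 4) (s : ℝ) : wt i m s i = 1 := by simp [wt]
theorem wt_m (i m : Fin 4) (s : ℝ) : wt i m s m = 1 := by simp [wt]
theorem wt_j {i m j : Fin 4} (h1 : j ≠ i) (h2 : j ≠ m) (s : ℝ) : wt i m s j = s := by
  simp [wt, h1, h2]

/-! ### the iteration with an additive drift -/

/-- claim of size `s` -/
def ClD (bb : ℤ) (ε : ℕ → ℤ → ℂ) (Sm : ℝ → Finset Nd → (Fin 4 → Fn) → Prop) (R0 : Finset Nd)
    (d : Nd → ℝ) (s α β : ℝ) : Prop :=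
  ∀ R I, Full R I → R ⊆ R0 → ∀ F, Sm s R F →
    ‖TR bb ε R F‖ ≤ s ^ 2 * (α * len I + β * ∑ p ∈ R, d p)

/-- one generation -/
def GenD (bb : ℤ) (ε : ℕ → ℤ → ℂ) (Sm : ℝ → Finset Nd → (Fin 4 → Fn) → Prop) (R0 : Finset Nd)
    (κ A r : ℝ) : Prop :=
  ∀ s, 0 < s → ∀ R I, Full R I → R ⊆ R0 → ∀ F, Sm s R F →
    ∃ (T : Finset Nd) (F' : Nd → Fin 4 → Fn), Tops R I T ∧ ∑ w ∈ T, len w ≤ A * len I ∧
      (∀ w ∈ T, Sm (r * s) (win R T w) (F' w)) ∧
      ‖TR bb ε R F‖ ≤ s ^ 2 * κ * len I + ∑ w ∈ T, ‖TR bb ε (win R T w) (F' w)‖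

variable {bb : ℤ} {ε : ℕ → ℤ → ℂ} {Sm : ℝ → Finset Nd → (Fin 4 → Fn) → Prop} {R0 : Finset Nd}
  {d : Nd → ℝ}

theorem stepD {κ A r : ℝ} (hG : GenD bb ε Sm R0 κ A r) {s α β : ℝ} (hs : 0 < s) (hα : 0 ≤ α)
    (h : ClD bb ε Sm R0 d (r * s) α β) :
    ClD bb ε Sm R0 d s (κ + A * r ^ 2 * α) (r ^ 2 * β) := by
  intro R I hR hRR F hF
  obtain ⟨T, F', hT, hc, hS, hV⟩ := hG s hs R I hR hRR F hF
  refine hV.trans ?_
  have h1 : ∑ w ∈ T, ‖TR bb ε (win R T w) (F' w)‖ ≤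
      ∑ w ∈ T, (r * s) ^ 2 * (α * len w + β * ∑ p ∈ win R T w, d p) :=
    Finset.sum_le_sum fun w hw =>
      h _ w (win_full hR hT hw) (win_sub.trans hRR) _ (hS w hw)
  have h2 : ∑ w ∈ T, (r * s) ^ 2 * (α * len w + β * ∑ p ∈ win R T w, d p) =
      (r * s) ^ 2 * (α * ∑ w ∈ T, len w + β * ∑ p ∈ R, d p) := by
    rw [← Finset.mul_sum, Finset.sum_add_distrib, ← Finset.mul_sum, ← Finset.mul_sum,
      ← sum_windows hR hT d]
  have h3 : (r * s) ^ 2 * (α * ∑ w ∈ T, len w + β * ∑ p ∈ R, d p) ≤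
      (r * s) ^ 2 * (α * (A * len I) + β * ∑ p ∈ R, d p) :=
    mul_le_mul_of_nonneg_left (add_le_add (mul_le_mul_of_nonneg_left hc hα) le_rfl) (sq_nonneg _)
  calc s ^ 2 * κ * len I + ∑ w ∈ T, ‖TR bb ε (win R T w) (F' w)‖
      ≤ s ^ 2 * κ * len I + (r * s) ^ 2 * (α * (A * len I) + β * ∑ p ∈ R, d p) :=
        add_le_add le_rfl (h1.trans (h2.le.trans h3))
    _ = s ^ 2 * ((κ + A * r ^ 2 * α) * len I + r ^ 2 * β * ∑ p ∈ R, d p) := by ring

theorem iterD {P P' : ℝ} (hd : ∀ p, 0 ≤ d p) (hP : ∀ s, 0 < s → ClD bb ε Sm R0 d s P P')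
    {κ A r L : ℝ} (hP0 : 0 ≤ P) (hP1 : 0 ≤ P') (hκ : 0 ≤ κ) (hr : 0 < r) (hL : 1 ≤ L)
    (hA : A * r ^ 2 ≤ L) (hG : GenD bb ε Sm R0 κ A r) (n : ℕ) :
    ∀ s, 0 < s → ClD bb ε Sm R0 d s (L ^ n * (P + n * κ)) (r ^ (2 * n) * P') := by
  induction n with
  | zero =>
    intro s hs
    simpa using hP s hs
  | succ n ih =>
    intro s hs R I hR hRR F hF
    have hL0 : 0 ≤ L := zero_le_one.trans hL
    have hα : 0 ≤ L ^ n * (P + n * κ) := by positivity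
    have h1 := stepD hG hs hα (ih (r * s) (mul_pos hr hs)) R I hR hRR F hF
    refine h1.trans (mul_le_mul_of_nonneg_left (add_le_add ?_ ?_) (sq_nonneg _))
    · refine mul_le_mul_of_nonneg_right ?_ (Growth.len_pos I).le
      have hLn : 1 ≤ L ^ (n + 1) := one_le_pow₀ hL
      calc κ + A * r ^ 2 * (L ^ n * (P + n * κ)) ≤ κ + L * (L ^ n * (P + n * κ)) :=
            add_le_add le_rfl (mul_le_mul_of_nonneg_right hA hα)
        _ ≤ L ^ (n + 1) * κ + L * (L ^ n * (P + n * κ)) :=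
            add_le_add (le_mul_of_one_le_left hκ hLn) le_rfl
        _ = L ^ (n + 1) * (P + ((n + 1 : ℕ) : ℝ) * κ) := by push_cast; ring
    · refine mul_le_mul_of_nonneg_right (le_of_eq ?_) (Finset.sum_nonneg fun p _ => hd p)
      ring

/-! ### `RuleA2` -/

/-- **`BaseA` + `GenA` ⟹ `RuleA2`** (`n` generations) -/
theorem ruleA2_of {D : Dict} {k q3 cS CS c1 cG δ c0 e t0 K : ℝ} {n : ℕ} (hk : 0 < k)
    (hkq : 2 + k ≤ q3) (ht01 : t0 ≤ 1) (hK : 1 ≤ K) (hδ : 0 ≤ δ)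
    (h1 : c0 + 2 * δ * n ≤ cS) (h2 : c0 + 2 * δ * n ≤ cG)
    (h3 : c0 + 2 * CS ≤ n * (c1 - 2 * δ))
    (hb : BaseA D k q3 cS CS e t0 K) (hg : GenA D k q3 c1 cG δ e t0 K) :
    RuleA2 D k q3 c0 e t0 ((K ^ 3) ^ n * (1 + n) * K + K ^ (2 * n) * K * K) := by
  intro N B hB hBN t ht htt bb ε hA W I hW hI F hF i m him hi3 hm3 hfz hlv
  have ht1 : t ≤ 1 := htt.trans ht01
  have hF2 : ∀ j, ∀ p ∈ W, aq (2 + k) p (F j) ≤ 1 := by
    intro j p hp
    refine (aq_le_aq (by linarith) ?_ p (F j)).trans (hF j p hp)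
    unfold qx
    split_ifs
    · exact hkq
    · exact le_rfl
  obtain ⟨d, hd0, hdW, hbase⟩ := hb N B hB hBN t ht htt bb W I hW hI i m him hi3 hm3 (F i) (F m)
    (hF2 i) (hF2 m) hfz hlv
  set Sm : ℝ → Finset Nd → (Fin 4 → Fn) → Prop :=
    fun s R G => G i = F i ∧ G m = F m ∧ Sz k s i m R G with hSm
  have hK0 : (0 : ℝ) < K := one_pos.trans_le hK
  have hB1 : (0 : ℝ) < 1 + B := by linarith
  -- scaled tuple
  have hscale : ∀ s, 0 < s → ∀ R G, Sm s R G →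
      Sm 1 R (fun j y => ((wt i m s j : ℝ)⁻¹ : ℂ) * G j y) := by
    intro s hs R G hG
    refine ⟨?_, ?_, ?_⟩
    · funext y
      simp only [wt_i]
      rw [← hG.1]; simp
    · funext y
      simp only [wt_m]
      rw [← hG.2.1]; simp
    · intro j hj1 hj2 p hp
      rw [aq_smul (by linarith), wt_j hj1 hj2, norm_inv, Complex.norm_real,
        Real.norm_of_nonneg hs.le, inv_mul_le_iff₀ hs, mul_one]
      exact hG.2.2 j hj1 hj2 p hp
  -- base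
  have hcl : ∀ s, 0 < s → ClD bb ε Sm W d s (K * (1 + B) * t ^ cS) (K * (1 + B) * t ^ (-CS)) := by
    intro s hs R J hR hRW G hG
    rw [TR_free_scale bb ε R G him hs]
    refine mul_le_mul_of_nonneg_left ?_ (sq_nonneg _)
    have hG' := hscale s hs R G hG
    refine (hbase R J hR hRW _ hG'.1 hG'.2.1 hG'.2.2 ε hA).trans (le_of_eq (by ring))
  -- generation
  have hgen : GenD bb ε Sm W (K * (1 + B) * t ^ cG) (K * t ^ (-c1)) (K * t ^ (c1 / 2 - δ)) := by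
    intro s hs R J hR hRW G hG
    have hG' := hscale s hs R G hG
    set G' : Fin 4 → Fn := fun j y => ((wt i m s j : ℝ)⁻¹ : ℂ) * G j y with hGd
    have hJI : iv J ⊆ iv I := hW.reg.1 J (hRW hR.top)
    have hJ1 : J.1 ≤ N := (Qe292.iv_level hJI).trans hI
    obtain ⟨T, F', hT, hc, hS, hV⟩ := hg N B hB hBN t ht htt bb ε hA R J hR hJ1 i m him hi3 hm3 G'
      (fun p hp => by rw [hG'.1]; exact hF2 i p (hRW hp))
      (fun p hp => by rw [hG'.2.1]; exact hF2 m p (hRW hp)) hG'.2.2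
      (by rw [hG'.1]; exact fz_sub hfz hJI)
      (fun p hp => by rw [hG'.2.1]; exact hlv p (hRW hp))
    refine ⟨T, fun w j y => ((wt i m s j : ℝ) : ℂ) * F' w j y, hT, hc, fun w hw => ⟨?_, ?_, ?_⟩, ?_⟩
    · funext y
      simp only [wt_i]
      rw [(hS w hw).1, hG'.1]; simp
    · funext y
      simp only [wt_m]
      rw [(hS w hw).2.1, hG'.2.1]; simp
    · intro j hj1 hj2 p hp
      rw [aq_smul (by linarith), wt_j hj1 hj2, Complex.norm_real, Real.norm_of_nonneg hs.le,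
        mul_comm (K * t ^ (c1 / 2 - δ)) s]
      exact mul_le_mul_of_nonneg_left ((hS w hw).2.2 j hj1 hj2 p hp) hs.le
    · rw [TR_free_scale bb ε R G him hs]
      have e : ∀ w, ‖TR bb ε (win R T w) (fun j y => ((wt i m s j : ℝ) : ℂ) * F' w j y)‖ =
          s ^ 2 * ‖TR bb ε (win R T w) (F' w)‖ := by
        intro w
        rw [TR_smul, norm_mul, norm_prod]
        congr 1
        rw [← prod_wt him s]
        refine Finset.prod_congr rfl fun j _ => ?_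
        rw [Complex.norm_real, Real.norm_of_nonneg (wt_pos hs j).le]
      simp only [e]
      rw [← Finset.mul_sum, mul_assoc, ← mul_add]
      refine mul_le_mul_of_nonneg_left (hV.trans (le_of_eq (by ring))) (sq_nonneg _)
  have hr0 : 0 < K * t ^ (c1 / 2 - δ) := by positivity
  have htδ : 1 ≤ t ^ (-(2 * δ)) := Real.one_le_rpow_of_pos_of_le_one_of_nonpos ht ht1 (by linarith)
  have hL1 : 1 ≤ K ^ 3 * t ^ (-(2 * δ)) := by
    have : (1 : ℝ) ≤ K ^ 3 := one_le_pow₀ hK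
    nlinarith
  have hAr : K * t ^ (-c1) * (K * t ^ (c1 / 2 - δ)) ^ 2 ≤ K ^ 3 * t ^ (-(2 * δ)) := by
    have e : (t ^ (c1 / 2 - δ)) ^ 2 = t ^ (c1 - 2 * δ) := by
      rw [← Real.rpow_natCast, ← Real.rpow_mul ht.le]; congr 1; push_cast; ring
    have e2 : t ^ (-c1) * t ^ (c1 - 2 * δ) = t ^ (-(2 * δ)) := by
      rw [← Real.rpow_add ht]; congr 1; ring
    rw [mul_pow, e]
    refine le_of_eq ?_
    calc K * t ^ (-c1) * (K ^ 2 * t ^ (c1 - 2 * δ)) = K ^ 3 * (t ^ (-c1) * t ^ (c1 - 2 * δ)) := by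
          ring
      _ = _ := by rw [e2]
  have hfin := iterD hd0 hcl (by positivity) (by positivity) (by positivity) hr0 hL1 hAr hgen n 1
    one_pos W I hW subset_rfl F ⟨rfl, rfl, fun j _ _ p hp => hF2 j p hp⟩
  refine hfin.trans ?_
  -- numbers
  have hn0 : (0 : ℝ) ≤ n := Nat.cast_nonneg _
  have hle : ∀ {x y : ℝ}, y ≤ x → t ^ x ≤ t ^ y := fun h =>
    Real.rpow_le_rpow_of_exponent_ge ht ht1 h
  have eL : (K ^ 3 * t ^ (-(2 * δ))) ^ n = (K ^ 3) ^ n * t ^ (-(2 * δ * n)) := by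
    rw [mul_pow]; congr 1
    rw [← Real.rpow_natCast (t ^ (-(2 * δ))) n, ← Real.rpow_mul ht.le]; congr 1; ring
  have er : (K * t ^ (c1 / 2 - δ)) ^ (2 * n) = K ^ (2 * n) * t ^ (n * (c1 - 2 * δ)) := by
    rw [mul_pow]; congr 1
    rw [← Real.rpow_natCast (t ^ (c1 / 2 - δ)) (2 * n), ← Real.rpow_mul ht.le]
    congr 1; push_cast; ring
  have hA1 : (K ^ 3 * t ^ (-(2 * δ))) ^ n * (K * (1 + B) * t ^ cS + n * (K * (1 + B) * t ^ cG)) ≤
      (K ^ 3) ^ n * (1 + n) * K * (1 + B) * t ^ c0 := by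
    rw [eL]
    have h5 : t ^ (-(2 * δ * n)) * t ^ cS ≤ t ^ c0 := by
      rw [← Real.rpow_add ht]; exact hle (by linarith)
    have h6 : t ^ (-(2 * δ * n)) * t ^ cG ≤ t ^ c0 := by
      rw [← Real.rpow_add ht]; exact hle (by linarith)
    calc (K ^ 3) ^ n * t ^ (-(2 * δ * n)) *
          (K * (1 + B) * t ^ cS + n * (K * (1 + B) * t ^ cG))
        = (K ^ 3) ^ n * K * (1 + B) * (t ^ (-(2 * δ * n)) * t ^ cS) +
          (K ^ 3) ^ n * K * (1 + B) * n * (t ^ (-(2 * δ * n)) * t ^ cG) := by ring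
      _ ≤ (K ^ 3) ^ n * K * (1 + B) * t ^ c0 + (K ^ 3) ^ n * K * (1 + B) * n * t ^ c0 :=
          add_le_add (mul_le_mul_of_nonneg_left h5 (by positivity))
            (mul_le_mul_of_nonneg_left h6 (by positivity))
      _ = _ := by ring
  have hA2 : (K * t ^ (c1 / 2 - δ)) ^ (2 * n) * (K * (1 + B) * t ^ (-CS)) * ∑ p ∈ W, d p ≤
      K ^ (2 * n) * K * K * (1 + B) * t ^ c0 * len I := by
    rw [er]
    have h5 : t ^ (n * (c1 - 2 * δ)) * t ^ (-CS) * t ^ (-CS) ≤ t ^ c0 := by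
      rw [← Real.rpow_add ht, ← Real.rpow_add ht]; exact hle (by linarith)
    calc K ^ (2 * n) * t ^ (n * (c1 - 2 * δ)) * (K * (1 + B) * t ^ (-CS)) * ∑ p ∈ W, d p
        ≤ K ^ (2 * n) * t ^ (n * (c1 - 2 * δ)) * (K * (1 + B) * t ^ (-CS)) *
            (K * t ^ (-CS) * len I) := mul_le_mul_of_nonneg_left hdW (by positivity)
      _ = K ^ (2 * n) * K * K * (1 + B) * len I *
            (t ^ (n * (c1 - 2 * δ)) * t ^ (-CS) * t ^ (-CS)) := by ring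
      _ ≤ K ^ (2 * n) * K * K * (1 + B) * len I * t ^ c0 := by
          have := (Growth.len_pos I).le
          exact mul_le_mul_of_nonneg_left h5 (by positivity)
      _ = _ := by ring
  have hlI := (Growth.len_pos I).le
  have hA1' := mul_le_mul_of_nonneg_right hA1 hlI
  calc (1 : ℝ) ^ 2 * ((K ^ 3 * t ^ (-(2 * δ))) ^ n *
        (K * (1 + B) * t ^ cS + n * (K * (1 + B) * t ^ cG)) * len I +
        (K * t ^ (c1 / 2 - δ)) ^ (2 * n) * (K * (1 + B) * t ^ (-CS)) * ∑ p ∈ W, d p)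
      ≤ (K ^ 3) ^ n * (1 + n) * K * (1 + B) * t ^ c0 * len I +
        K ^ (2 * n) * K * K * (1 + B) * t ^ c0 * len I := by
        rw [one_pow, one_mul]; exact add_le_add hA1' hA2
    _ = _ := by ring

end Crest.Agent.R079.It260
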