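import Crest.Agent.R079.TWin4_903
import Crest.Agent.R079.Growth_181

/-! R079, doc 2531 (787), (O1) + (O2): ITERATION LEMMA (helper435).

`costB SB W I` = length of the top `I` + lengths of the static tops (`SB`) strictly inside `W`: it is
additive over the pieces of any other partition, so the counts of the static windows and of the
generations ADD.  `N j W X` = class of letters of generation `j` (local norm `≤ 1`, height `H_j` ...). -/

set_option autoImplicit false

namespace Crest.Agent.R079.It435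

open Finset Crest.Agent.R079.Grid Crest.Agent.R079.Growth Crest.Agent.R079.QRed
  Crest.Agent.R079.TWin

open Classical in
/-- cost of a piece: its top and the static tops strictly inside -/
noncomputable def costB (SB W : Finset Nd) (I : Nd) : ℝ :=
  len I + ∑ K ∈ (SB ∩ W).erase I, len K

lemma costB_ge (SB W : Finset Nd) (I : Nd) : len I ≤ costB SB W I := by
  unfold costB
  have : 0 ≤ ∑ K ∈ (SB ∩ W).erase I, len K := Finset.sum_nonneg fun K _ => (Growth.len_pos K).le
  linarith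

lemma costB_pos (SB W : Finset Nd) (I : Nd) : 0 < costB SB W I :=
  (Growth.len_pos I).trans_le (costB_ge SB W I)

/-- the top of a full region which contains the big top is the big top -/
lemma top_unique {W : Finset Nd} {I : Nd} (hW : Full W I) {V : Finset Nd} {K : Nd} (hV : Full V K)
    (hVW : V ⊆ W) (hI : I ∈ V) : K = I := by
  have h1 : iv I ⊆ iv K := hV.reg.1 I hI
  have h2 : iv K ⊆ iv I := hW.reg.1 K (hVW hV.top)
  exact Growth181.iv_inj h2 (Growth.iv_level h1)

/-- additivity of the cost -/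
lemma sum_costB {W : Finset Nd} {I : Nd} (hW : Full W I) {S : Finset Nd} {V : Nd → Finset Nd}
    {C : ℝ} (hP : Part W S V C) (SB : Finset Nd) :
    ∑ K ∈ S, costB SB (V K) K ≤ C * len I + costB SB W I := by
  classical
  unfold costB
  rw [Finset.sum_add_distrib]
  have h1 : ∑ K ∈ S, len K ≤ C * len I := by
    have h := hP.cnt I hW.top
    have e : S.filter (fun K => iv K ⊆ iv I) = S := by
      rw [Finset.filter_eq_self]
      exact fun K hK => hW.reg.1 K (hP.sub hK)
    rwa [e] at h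
  have h2 : ∑ K ∈ S, ∑ K' ∈ (SB ∩ V K).erase K, len K' ≤ ∑ K' ∈ (SB ∩ W).erase I, len K' := by
    rw [← Finset.sum_biUnion]
    · refine Finset.sum_le_sum_of_subset_of_nonneg ?_ fun K _ _ => (Growth.len_pos K).le
      intro K' hK'
      obtain ⟨K, hK, h⟩ := Finset.mem_biUnion.1 hK'
      rw [Finset.mem_erase, Finset.mem_inter] at h
      rw [Finset.mem_erase, Finset.mem_inter]
      refine ⟨fun he => ?_, h.2.1, hP.wsub K hK h.2.2⟩
      subst he
      exact h.1 (top_unique hW (hP.full K hK) (hP.wsub K hK) h.2.2).symm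
    · intro K hK K' hK' hne
      refine Finset.disjoint_left.2 fun x hx hx' => ?_
      have hx := (Finset.mem_inter.1 (Finset.mem_of_mem_erase hx)).2
      have hx' := (Finset.mem_inter.1 (Finset.mem_of_mem_erase hx')).2
      exact Finset.disjoint_left.1 (hP.disj K hK K' hK' hne) hx hx'
  have h3 := Growth.len_pos I
  linarith

/-- `‖T‖ ≤ α |I| + β cost` for all pairs of letters of the class `N` -/
def Bd (R SB : Finset Nd) (T : Finset Nd → Fn → Fn → ℂ) (N : Finset Nd → Fn → Prop)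
    (α β : ℝ) : Prop :=
  ∀ W I, Full W I → W ⊆ R → ∀ X Y, N W X → N W Y →
    ‖T W X Y‖ ≤ α * len I + β * costB SB W I

/-- **one generation**: `N` is split into kills (`κ`) and small letters `√η N'` on `C/η` windows -/
def Gen (R : Finset Nd) (T : Finset Nd → Fn → Fn → ℂ) (N N' : Finset Nd → Fn → Prop)
    (κ C η : ℝ) : Prop :=
  ∀ W I, Full W I → W ⊆ R → ∀ X Y, N W X → N W Y →
    ∃ (S : Finset Nd) (V : Nd → Finset Nd) (e e' : Nd → Fn), Part W S V (C / η) ∧
      (∀ K ∈ S, N' (V K) (e K)) ∧ (∀ K ∈ S, N' (V K) (e' K)) ∧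
      ‖T W X Y‖ ≤ κ * len I + η * ∑ K ∈ S, ‖T (V K) (e K) (e' K)‖

/-- one step of the iteration -/
theorem bd_step {R SB : Finset Nd} {T : Finset Nd → Fn → Fn → ℂ} {N N' : Finset Nd → Fn → Prop}
    {κ C η α β : ℝ} (hη : 0 < η) (hα : 0 ≤ α) (hβ : 0 ≤ β) (hG : Gen R T N N' κ C η)
    (hB : Bd R SB T N' α β) : Bd R SB T N (κ + C * α + C * β) (η * β) := by
  intro W I hW hWR X Y hX hY
  obtain ⟨S, V, e, e', hP, he, he', hT⟩ := hG W I hW hWR X Y hX hY
  have hI := Growth.len_pos I
  have h1 : ∑ K ∈ S, ‖T (V K) (e K) (e' K)‖ ≤ ∑ K ∈ S, (α * len K + β * costB SB (V K) K) :=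
    Finset.sum_le_sum fun K hK =>
      hB (V K) K (hP.full K hK) ((hP.wsub K hK).trans hWR) _ _ (he K hK) (he' K hK)
  rw [Finset.sum_add_distrib, ← Finset.mul_sum, ← Finset.mul_sum] at h1
  have h2 : ∑ K ∈ S, len K ≤ C / η * len I := by
    have h := hP.cnt I hW.top
    have e : S.filter (fun K => iv K ⊆ iv I) = S := by
      rw [Finset.filter_eq_self]
      exact fun K hK => hW.reg.1 K (hP.sub hK)
    rwa [e] at h
  have h3 := sum_costB hW hP SB
  have h4 : α * ∑ K ∈ S, len K ≤ α * (C / η * len I) := mul_le_mul_of_nonneg_left h2 hα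
  have h5 : β * ∑ K ∈ S, costB SB (V K) K ≤ β * (C / η * len I + costB SB W I) :=
    mul_le_mul_of_nonneg_left h3 hβ
  have h6 : η * ∑ K ∈ S, ‖T (V K) (e K) (e' K)‖ ≤
      η * (α * (C / η * len I) + β * (C / η * len I + costB SB W I)) :=
    mul_le_mul_of_nonneg_left (h1.trans (add_le_add h4 h5)) hη.le
  have h7 : η * (α * (C / η * len I) + β * (C / η * len I + costB SB W I)) =
      (C * α + C * β) * len I + η * β * costB SB W I := by
    field_simp
    ring
  calc ‖T W X Y‖ ≤ κ * len I + η * ∑ K ∈ S, ‖T (V K) (e K) (e' K)‖ := hT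
    _ ≤ κ * len I + ((C * α + C * β) * len I + η * β * costB SB W I) := by linarith
    _ = (κ + C * α + C * β) * len I + η * β * costB SB W I := by ring

/-- **ITERATION**: `n` generations (classes `N 0, …, N n`) over a base bound -/
theorem bd_iter {R SB : Finset Nd} {T : Finset Nd → Fn → Fn → ℂ} (N : ℕ → Finset Nd → Fn → Prop)
    {κ C η β : ℝ} (hη : 0 < η) (hη1 : η ≤ 1) (hκ : 0 ≤ κ) (hC : 1 ≤ C) (hβ : 0 ≤ β) (n : ℕ)
    (hG : ∀ j, j < n → Gen R T (N j) (N (j + 1)) κ C η) (hB : Bd R SB T (N n) 0 β) :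
    ∀ j, j ≤ n → Bd R SB T (N j) ((2 * C) ^ (n - j) * (κ + β)) (η ^ (n - j) * β) := by
  have key : ∀ i, i ≤ n →
      Bd R SB T (N (n - i)) (((2 * C) ^ i - 1) * (κ + β)) (η ^ i * β) := by
    intro i
    induction i with
    | zero =>
      intro _
      simpa using hB
    | succ i ih =>
      intro hi
      have h := ih (by omega)
      have hpow : (1 : ℝ) ≤ (2 * C) ^ i := one_le_pow₀ (by linarith)
      have hg := hG (n - (i + 1)) (by omega)
      have e : n - (i + 1) + 1 = n - i := by omega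
      rw [e] at hg
      have hηi : 0 ≤ η ^ i := (pow_pos hη i).le
      have hηi1 : η ^ i ≤ 1 := pow_le_one₀ hη.le hη1
      have h2 := bd_step hη (mul_nonneg (by linarith) (by linarith)) (mul_nonneg hηi hβ) hg h
      intro W I hW hWR X Y hX hY
      refine (h2 W I hW hWR X Y hX hY).trans ?_
      have hI := Growth.len_pos I
      have e2 : η * (η ^ i * β) = η ^ (i + 1) * β := by rw [pow_succ]; ring
      rw [e2]
      have h3 : κ + C * (((2 * C) ^ i - 1) * (κ + β)) + C * (η ^ i * β) ≤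
          ((2 * C) ^ (i + 1) - 1) * (κ + β) := by
        have a1 : C * (η ^ i * β) ≤ C * (1 * β) :=
          mul_le_mul_of_nonneg_left (mul_le_mul_of_nonneg_right hηi1 hβ) (by linarith)
        have a2 : κ + C * (((2 * C) ^ i - 1) * (κ + β)) + C * (1 * β) ≤
            ((2 * C) ^ (i + 1) - 1) * (κ + β) := by
          rw [pow_succ]
          have b1 : 0 ≤ (C * (2 * C) ^ i - 1) * (κ + β) := by
            refine mul_nonneg ?_ (by linarith)
            nlinarith
          nlinarith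
        linarith
      exact add_le_add (mul_le_mul_of_nonneg_right h3 hI.le) le_rfl
  intro j hj W I hW hWR X Y hX hY
  have h := key (n - j) (by omega)
  have e : n - (n - j) = j := by omega
  rw [e] at h
  refine (h W I hW hWR X Y hX hY).trans ?_
  have hI := Growth.len_pos I
  have : ((2 * C) ^ (n - j) - 1) * (κ + β) ≤ (2 * C) ^ (n - j) * (κ + β) :=
    mul_le_mul_of_nonneg_right (by linarith) (by linarith)
  exact add_le_add (mul_le_mul_of_nonneg_right this hI.le) le_rfl

/-- **(O1) + (O2)**: if the static tops cost at most `A |J|`, `n` generations give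
`(2C)^n (κ + β) + η^n β A` -/
theorem iter_final {R SB : Finset Nd} {J : Nd} (hR : Full R J) {T : Finset Nd → Fn → Fn → ℂ}
    (N : ℕ → Finset Nd → Fn → Prop) {κ C η β A : ℝ} (hη : 0 < η) (hη1 : η ≤ 1) (hκ : 0 ≤ κ)
    (hC : 1 ≤ C) (hβ : 0 ≤ β) (n : ℕ) (hG : ∀ j, j < n → Gen R T (N j) (N (j + 1)) κ C η)
    (hB : Bd R SB T (N n) 0 β) (hA : costB SB R J ≤ A * len J) {X Y : Fn} (hX : N 0 R X)
    (hY : N 0 R Y) :
    ‖T R X Y‖ ≤ ((2 * C) ^ n * (κ + β) + η ^ n * β * A) * len J := by
  have h := bd_iter N hη hη1 hκ hC hβ n hG hB 0 (Nat.zero_le n) R J hR (Finset.Subset.refl R)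
    X Y hX hY
  simp only [Nat.sub_zero] at h
  have h2 : η ^ n * β * costB SB R J ≤ η ^ n * β * (A * len J) :=
    mul_le_mul_of_nonneg_left hA (mul_nonneg (pow_pos hη n).le hβ)
  nlinarith

/-- the part of a full region inside another full region is full -/
lemma full_inter {W V : Finset Nd} {I K p : Nd} (hW : Full W I) (hV : Full V K) (hp : p ∈ W)
    (hp' : p ∈ V) : (I ∈ V ∧ Full (W ∩ V) I) ∨ (K ∈ W ∧ Full (W ∩ V) K) := by
  have h1 : iv p ⊆ iv I := hW.reg.1 p hp
  have h2 : iv p ⊆ iv K := hV.reg.1 p hp'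
  obtain ⟨y, hy⟩ := Growth181.iv_nonempty p
  rcases iv_nest (h1 hy) (h2 hy) with h | h
  · left
    have hI : I ∈ V := hV.reg.2 p hp' I h1 h
    refine ⟨hI, ⟨fun q hq => hW.reg.1 q (Finset.mem_inter.1 hq).1, fun q hq r h3 h4 => ?_⟩,
      Finset.mem_inter.2 ⟨hW.top, hI⟩, fun m l hml => ?_⟩
    · rw [Finset.mem_inter] at hq ⊢
      exact ⟨hW.reg.2 q hq.1 r h3 h4, hV.reg.2 q hq.2 r h3 (h4.trans h)⟩
    · rw [Finset.mem_inter] at hml
      rw [Finset.mem_inter, Finset.mem_inter, hW.bin m l hml.1, hV.bin m l hml.2]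
  · right
    have hK : K ∈ W := hW.reg.2 p hp K h2 h
    refine ⟨hK, ⟨fun q hq => hV.reg.1 q (Finset.mem_inter.1 hq).2, fun q hq r h3 h4 => ?_⟩,
      Finset.mem_inter.2 ⟨hK, hV.top⟩, fun m l hml => ?_⟩
    · rw [Finset.mem_inter] at hq ⊢
      exact ⟨hW.reg.2 q hq.1 r h3 (h4.trans h), hV.reg.2 q hq.2 r h3 h4⟩
    · rw [Finset.mem_inter] at hml
      rw [Finset.mem_inter, Finset.mem_inter, hW.bin m l hml.1, hV.bin m l hml.2]

/-- **superposition**: the base bound `β cost` from a bound `β |top|` on the pieces which lie in ONE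
static window -/
theorem base_of_static {R SB : Finset Nd} {VB : Nd → Finset Nd} {CB : ℝ}
    (hPB : Part R SB VB CB) {T : Finset Nd → Fn → Fn → ℂ} {N : Finset Nd → Fn → Prop} {β : ℝ}
    (hβ : 0 ≤ β) (hmono : ∀ W W' X, W' ⊆ W → N W X → N W' X)
    (hT : ∀ W X Y, T W X Y = ∑ p ∈ W, T {p} X Y)
    (hS : ∀ K ∈ SB, ∀ W I, Full W I → W ⊆ VB K → ∀ X Y, N W X → N W Y →
      ‖T W X Y‖ ≤ β * len I) : Bd R SB T N 0 β := by
  classical
  intro W I hW hWR X Y hX hY
  obtain ⟨K0, hK0, hIK0⟩ := hPB.cover I (hWR hW.top)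
  have hbi : SB.biUnion (fun K => W ∩ VB K) = W := by
    ext p
    simp only [Finset.mem_biUnion, Finset.mem_inter]
    constructor
    · rintro ⟨K, _, h, _⟩
      exact h
    · intro hp
      obtain ⟨K, hK, h⟩ := hPB.cover p (hWR hp)
      exact ⟨K, hK, hp, h⟩
  have hdec : T W X Y = ∑ K ∈ SB, T (W ∩ VB K) X Y := by
    rw [hT W]
    conv_lhs => rw [← hbi]
    rw [Finset.sum_biUnion]
    · exact Finset.sum_congr rfl fun K _ => (hT _ X Y).symm
    · intro K hK K' hK' hne
      refine Finset.disjoint_left.2 fun x hx hx' => ?_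
      exact Finset.disjoint_left.1 (hPB.disj K hK K' hK' hne) (Finset.mem_inter.1 hx).2
        (Finset.mem_inter.1 hx').2
  have hterm : ∀ K ∈ SB, K ≠ K0 → ‖T (W ∩ VB K) X Y‖ ≠ 0 →
      (K ∈ W ∧ K ≠ I ∧ ‖T (W ∩ VB K) X Y‖ ≤ β * len K) := by
    intro K hK hne hn
    have hne' : (W ∩ VB K).Nonempty := by
      rw [Finset.nonempty_iff_ne_empty]
      intro he
      apply hn
      rw [he, hT]
      simp
    obtain ⟨p, hp⟩ := hne'
    rw [Finset.mem_inter] at hp
    rcases full_inter hW (hPB.full K hK) hp.1 hp.2 with ⟨h, _⟩ | ⟨h, hF⟩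
    · exact absurd h (Finset.disjoint_left.1 (hPB.disj K0 hK0 K hK (Ne.symm hne)) hIK0)
    · refine ⟨h, ?_, hS K hK _ K hF Finset.inter_subset_right X Y
        (hmono _ _ X Finset.inter_subset_left hX) (hmono _ _ Y Finset.inter_subset_left hY)⟩
      rintro rfl
      exact Finset.disjoint_left.1 (hPB.disj K0 hK0 K hK (Ne.symm hne)) hIK0 (hPB.full K hK).top
  have h0 : ‖T (W ∩ VB K0) X Y‖ ≤ β * len I := by
    rcases full_inter hW (hPB.full K0 hK0) hW.top hIK0 with ⟨_, hF⟩ | ⟨h, hF⟩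
    · exact hS K0 hK0 _ I hF Finset.inter_subset_right X Y
        (hmono _ _ X Finset.inter_subset_left hX) (hmono _ _ Y Finset.inter_subset_left hY)
    · have e : K0 = I := top_unique hW hF Finset.inter_subset_left
        (Finset.mem_inter.2 ⟨hW.top, hIK0⟩)
      rw [← e]
      exact hS K0 hK0 _ K0 hF Finset.inter_subset_right X Y
        (hmono _ _ X Finset.inter_subset_left hX) (hmono _ _ Y Finset.inter_subset_left hY)
  have h1 : ∑ K ∈ SB.erase K0, ‖T (W ∩ VB K) X Y‖ ≤ ∑ K ∈ (SB ∩ W).erase I, β * len K := by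
    rw [← Finset.sum_filter_ne_zero]
    refine (Finset.sum_le_sum (g := fun K => β * len K) fun K hK => ?_).trans
      (Finset.sum_le_sum_of_subset_of_nonneg (fun K hK => ?_) fun K _ _ =>
        mul_nonneg hβ (Growth.len_pos K).le)
    · rw [Finset.mem_filter, Finset.mem_erase] at hK
      exact (hterm K hK.1.2 hK.1.1 hK.2).2.2
    · rw [Finset.mem_filter, Finset.mem_erase] at hK
      have h := hterm K hK.1.2 hK.1.1 hK.2
      rw [Finset.mem_erase, Finset.mem_inter]
      exact ⟨h.2.1, hK.1.2, h.1⟩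
  calc ‖T W X Y‖ ≤ ∑ K ∈ SB, ‖T (W ∩ VB K) X Y‖ := by
        rw [hdec]
        exact norm_sum_le _ _
    _ = ‖T (W ∩ VB K0) X Y‖ + ∑ K ∈ SB.erase K0, ‖T (W ∩ VB K) X Y‖ := by
        exact (Finset.add_sum_erase SB (fun K => ‖T (W ∩ VB K) X Y‖) hK0).symm
    _ ≤ β * len I + ∑ K ∈ (SB ∩ W).erase I, β * len K := add_le_add h0 h1
    _ = 0 * len I + β * costB SB W I := by
        unfold costB
        rw [← Finset.mul_sum]
        ring

/-- cost of the whole region -/
lemma costB_le {R SB : Finset Nd} {J : Nd} (hR : Full R J) {VB : Nd → Finset Nd} {CB : ℝ}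
    (hPB : Part R SB VB CB) : costB SB R J ≤ (1 + CB) * len J := by
  classical
  unfold costB
  have h := hPB.cnt J hR.top
  have h1 : ∑ K ∈ (SB ∩ R).erase J, len K ≤ ∑ K ∈ SB.filter (fun K => iv K ⊆ iv J), len K := by
    refine Finset.sum_le_sum_of_subset_of_nonneg (fun K hK => ?_) fun K _ _ =>
      (Growth.len_pos K).le
    rw [Finset.mem_erase, Finset.mem_inter] at hK
    rw [Finset.mem_filter]
    exact ⟨hK.2.1, hR.reg.1 K hK.2.2⟩
  nlinarith

end Crest.Agent.R079.It435
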