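import Crest.Agent.R079.MaxQ_398
import Crest.Agent.R079.Main_796

/-! R079, L5 item 0 (helper398), part 2: `BBq κ → GridBound` for every real `2 ≤ κ < 3`: local `L^κ`
averages in slots `0,1,2`, sup norm in slot `3` (copy of 292's `L0e`). -/

set_option autoImplicit false

namespace Crest.Agent.R079.L0q

open Finset Grid L0e

/-- class bound: local `L^κ` in slots `0,1,2`, sup norm in slot `3` -/
def BBq (κ : ℝ) : Prop :=
  ∃ C : ℝ, 0 ≤ C ∧ ∀ b : ℤ, b = -1 ∨ b = -7 → ∀ ε : ℕ → ℤ → ℂ, (∀ m x, ‖ε m x‖ ≤ 1) →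
    ∀ (R : Finset (ℕ × ℤ)) (J : ℕ × ℤ), IsRegion R J →
    ∀ (F : Fin 4 → ℤ → ℂ) (A : Fin 4 → ℝ), (∀ j, 0 ≤ A j) →
      (∀ j, j ≠ 3 → ∀ p ∈ R, avq κ (p.1 + 7) p.2 (F j) ≤ A j) →
      (∀ x, ‖F 3 x‖ ≤ 1) →
      ‖∑ p ∈ R, TI b ε F p‖ ≤ C * 2 ^ (J.1 + 7) * (A 0 * A 1 * A 2)

/-- product of the three running maxima at a node -/
noncomputable def Gq (κ : ℝ) (T : ℕ) (F : Fin 4 → ℤ → ℂ) (p : ℕ × ℤ) : ℝ :=
  Mq κ T (F 0) (T - p.1) p.2 * Mq κ T (F 1) (T - p.1) p.2 * Mq κ T (F 2) (T - p.1) p.2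

lemma Mq_anc (κ : ℝ) (T : ℕ) (f : ℤ → ℂ) (p : ℕ × ℤ) (k : ℕ) (h : p.1 + k ≤ T) :
    Mq κ T f (T - (anc p k).1) (anc p k).2 ≤ Mq κ T f (T - p.1) p.2 := by
  have e : T - p.1 = (T - (anc p k).1) + k := by
    simp only [anc]
    omega
  rw [e]
  exact Mq_mono κ T f _ k p.2

lemma Gq_nonneg (κ : ℝ) (T : ℕ) (F : Fin 4 → ℤ → ℂ) (p : ℕ × ℤ) : 0 ≤ Gq κ T F p :=
  mul_nonneg (mul_nonneg (Mq_nonneg κ _ _ _ _) (Mq_nonneg κ _ _ _ _)) (Mq_nonneg κ _ _ _ _)

lemma Gq_anc (κ : ℝ) (T : ℕ) (F : Fin 4 → ℤ → ℂ) (p : ℕ × ℤ) (k : ℕ) (h : p.1 + k ≤ T) :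
    Gq κ T F (anc p k) ≤ Gq κ T F p := by
  unfold Gq
  exact mul_le_mul (mul_le_mul (Mq_anc κ _ _ _ _ h) (Mq_anc κ _ _ _ _ h) (Mq_nonneg κ _ _ _ _)
    (Mq_nonneg κ _ _ _ _)) (Mq_anc κ _ _ _ _ h) (Mq_nonneg κ _ _ _ _)
    (mul_nonneg (Mq_nonneg κ _ _ _ _) (Mq_nonneg κ _ _ _ _))

/-- class -/
noncomputable def Nq (κ : ℝ) (T : ℕ) (F : Fin 4 → ℤ → ℂ) (p : ℕ × ℤ) : ℤ := Int.log 2 (Gq κ T F p)

lemma Nq_le (κ : ℝ) (T : ℕ) (F : Fin 4 → ℤ → ℂ) (p : ℕ × ℤ) (h : 0 < Gq κ T F p) :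
    (2 : ℝ) ^ (Nq κ T F p) ≤ Gq κ T F p := by
  have := Int.zpow_log_le_self (b := 2) (r := Gq κ T F p) (by norm_num) h
  exact_mod_cast this

lemma lt_Nq (κ : ℝ) (T : ℕ) (F : Fin 4 → ℤ → ℂ) (p : ℕ × ℤ) :
    Gq κ T F p < 2 * (2 : ℝ) ^ (Nq κ T F p) := by
  have := Int.lt_zpow_succ_log_self (b := 2) (by norm_num) (Gq κ T F p)
  rw [zpow_add_one₀ (by norm_num)] at this
  push_cast at this
  unfold Nq
  linarith

/-- same class as the `k`-th ancestor -/
def Pq (κ : ℝ) (T : ℕ) (F : Fin 4 → ℤ → ℂ) (p : ℕ × ℤ) (k : ℕ) : Prop :=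
  0 < Gq κ T F (anc p k) ∧ Nq κ T F (anc p k) = Nq κ T F p

lemma Nq_anc (κ : ℝ) (T : ℕ) (F : Fin 4 → ℤ → ℂ) (p : ℕ × ℤ) (k : ℕ) (h : p.1 + k ≤ T)
    (hG : 0 < Gq κ T F (anc p k)) : Nq κ T F (anc p k) ≤ Nq κ T F p :=
  Int.log_mono_right hG (Gq_anc κ T F p k h)

open Classical in
/-- distance to the top of the class -/
noncomputable def kq (κ : ℝ) (T : ℕ) (F : Fin 4 → ℤ → ℂ) (p : ℕ × ℤ) : ℕ :=
  Nat.findGreatest (Pq κ T F p) (T - p.1)

noncomputable def topq (κ : ℝ) (T : ℕ) (F : Fin 4 → ℤ → ℂ) (p : ℕ × ℤ) : ℕ × ℤ := anc p (kq κ T F p)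

lemma kq_le (κ : ℝ) (T : ℕ) (F : Fin 4 → ℤ → ℂ) (p : ℕ × ℤ) : kq κ T F p ≤ T - p.1 := by
  classical
  exact Nat.findGreatest_le _

lemma Pq_kq (κ : ℝ) (T : ℕ) (F : Fin 4 → ℤ → ℂ) (p : ℕ × ℤ) (h : 0 < Gq κ T F p) :
    Pq κ T F p (kq κ T F p) := by
  classical
  unfold kq
  refine Nat.findGreatest_spec (P := Pq κ T F p) (m := 0) (Nat.zero_le _) ?_
  unfold Pq
  rw [anc_zero]
  exact ⟨h, rfl⟩

lemma le_kq (κ : ℝ) (T : ℕ) (F : Fin 4 → ℤ → ℂ) (p : ℕ × ℤ) (k : ℕ) (hk : p.1 + k ≤ T)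
    (h : Pq κ T F p k) : k ≤ kq κ T F p := by
  classical
  exact Nat.le_findGreatest (by omega) h

open Classical in
/-- nodes of positive class -/
noncomputable def Uq (κ : ℝ) (T : ℕ) (F : Fin 4 → ℤ → ℂ) (A B : ℤ) : Finset (ℕ × ℤ) :=
  (U T A B).filter fun p => 0 < Gq κ T F p

open Classical in
/-- topsq κ of the classes -/
noncomputable def topsq (κ : ℝ) (T : ℕ) (F : Fin 4 → ℤ → ℂ) (A B : ℤ) : Finset (ℕ × ℤ) :=
  (Uq κ T F A B).filter fun p => p.1 + 1 ≤ T → ¬ Pq κ T F p 1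

lemma topq_mem (κ : ℝ) {T : ℕ} {F : Fin 4 → ℤ → ℂ} {A B : ℤ} {p : ℕ × ℤ} (h : p ∈ Uq κ T F A B) :
    topq κ T F p ∈ topsq κ T F A B := by
  classical
  unfold Uq at h
  rw [Finset.mem_filter] at h
  obtain ⟨h1, h2⟩ := h
  have h3 := mem_U.mp h1
  have hP := Pq_kq κ T F p h2
  have hk := kq_le κ T F p
  have hkT : p.1 + kq κ T F p ≤ T := by omega
  unfold topsq Uq
  rw [Finset.mem_filter, Finset.mem_filter]
  refine ⟨⟨anc_mem_U h1 _ hkT, hP.1⟩, ?_⟩
  intro h4 h5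
  have h6 : (topq κ T F p).1 = p.1 + kq κ T F p := rfl
  rw [h6] at h4
  have h7 : Pq κ T F p (kq κ T F p + 1) := by
    unfold Pq topq at h5
    rw [anc_anc] at h5
    exact ⟨h5.1, h5.2.trans hP.2⟩
  have := le_kq κ T F p _ (by omega) h7
  omega

open Classical in
/-- region of a top -/
noncomputable def RQ (κ : ℝ) (T : ℕ) (F : Fin 4 → ℤ → ℂ) (A B : ℤ) (J : ℕ × ℤ) : Finset (ℕ × ℤ) :=
  (Uq κ T F A B).filter fun p => topq κ T F p = J

lemma RQ_region (κ : ℝ) (T : ℕ) (F : Fin 4 → ℤ → ℂ) (A B : ℤ) (J : ℕ × ℤ) :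
    IsRegion (RQ κ T F A B J) J := by
  classical
  constructor
  · intro p hp
    unfold RQ at hp
    rw [Finset.mem_filter] at hp
    rw [← hp.2]
    have := dI_sub (p.1 + 7) (kq κ T F p) p.2
    have e : (topq κ T F p).1 + 7 = p.1 + 7 + kq κ T F p := by
      simp only [topq, anc]; omega
    rw [e]
    exact this
  · intro p hp q h1 h2
    unfold RQ at hp ⊢
    rw [Finset.mem_filter] at hp ⊢
    obtain ⟨hp, htp⟩ := hp
    unfold Uq at hp ⊢
    rw [Finset.mem_filter] at hp ⊢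
    obtain ⟨hpU, hpG⟩ := hp
    have hpT := (mem_U.mp hpU).1
    obtain ⟨i, hi1, hi2⟩ := dI_sub_imp h1
    obtain ⟨j, hj1, hj2⟩ := dI_sub_imp h2
    have hq : q = anc p i := by
      apply Prod.ext
      · simp only [anc]; omega
      · exact hi2
    have hJ : J = anc q j := by
      apply Prod.ext
      · simp only [anc]; omega
      · exact hj2
    have hk : kq κ T F p = i + j := by
      have h3 : J.1 = p.1 + kq κ T F p := by rw [← htp]; rfl
      have h4 : J.1 = p.1 + i + j := by rw [hJ, hq]; rfl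
      omega
    have hkT := kq_le κ T F p
    have hP := Pq_kq κ T F p hpG
    rw [hk] at hP hkT
    have hJ2 : J = anc p (i + j) := by rw [hJ, hq, anc_anc]
    have hqT : p.1 + i ≤ T := by omega
    have hqj : q.1 + j ≤ T := by rw [hq]; simp only [anc]; omega
    have hGJ : 0 < Gq κ T F (anc q j) := by rw [← hJ, hJ2]; exact hP.1
    have hGq : 0 < Gq κ T F q := hGJ.trans_le (Gq_anc κ T F q j hqj)
    have hN1 : Nq κ T F (anc q j) ≤ Nq κ T F q := Nq_anc κ T F q j hqj hGJ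
    have hN2 : Nq κ T F q ≤ Nq κ T F p := by
      rw [hq]
      exact Nq_anc κ T F p i hqT (by rw [← hq]; exact hGq)
    have hN3 : Nq κ T F (anc q j) = Nq κ T F p := by rw [← hJ, hJ2]; exact hP.2
    have hNq : Nq κ T F q = Nq κ T F p := le_antisymm hN2 (by rw [← hN3]; exact hN1)
    refine ⟨⟨?_, hGq⟩, ?_⟩
    · rw [hq]; exact anc_mem_U hpU i hqT
    · have hPq : Pq κ T F q j := ⟨hGJ, hN3.trans hNq.symm⟩
      have hle := le_kq κ T F q j hqj hPq
      have hge : kq κ T F q ≤ j := by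
        have hkq := kq_le κ T F q
        have hPq2 := Pq_kq κ T F q hGq
        have h5 : Pq κ T F p (i + kq κ T F q) := by
          unfold Pq at hPq2 ⊢
          rw [hq] at hPq2
          rw [anc_anc] at hPq2
          rw [← hq] at hPq2
          exact ⟨hPq2.1, hPq2.2.trans hNq⟩
        have hq1 : q.1 = p.1 + i := by rw [hq]; rfl
        have := le_kq κ T F p _ (by omega) h5
        omega
      unfold topq
      rw [le_antisymm hge hle, ← hJ]

/-- local averages on the region of `J`. -/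
lemma RQ_av (κ : ℝ) (T : ℕ) (F : Fin 4 → ℤ → ℂ) (A B : ℤ) (J p : ℕ × ℤ) (hp : p ∈ RQ κ T F A B J)
    (j : Fin 4) (hj3 : j ≠ 3) :
    avq κ (p.1 + 7) p.2 (F j) ≤ (![2 * Mq κ T (F 0) (T - J.1) J.2, 2 * Mq κ T (F 1) (T - J.1) J.2,
      2 * Mq κ T (F 2) (T - J.1) J.2, 1] : Fin 4 → ℝ) j := by
  classical
  unfold RQ at hp
  rw [Finset.mem_filter] at hp
  obtain ⟨hp, htp⟩ := hp
  unfold Uq at hp
  rw [Finset.mem_filter] at hp
  obtain ⟨hpU, hpG⟩ := hp
  have hpT := (mem_U.mp hpU).1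
  have hkT := kq_le κ T F p
  have hP := Pq_kq κ T F p hpG
  have hJ : J = anc p (kq κ T F p) := htp.symm
  have hk : p.1 + kq κ T F p ≤ T := by omega
  have hGJ : 0 < Gq κ T F J := by rw [hJ]; exact hP.1
  have hN : Nq κ T F J = Nq κ T F p := by rw [hJ]; exact hP.2
  have h2 : Gq κ T F p ≤ 2 * Gq κ T F J := by
    have a1 := lt_Nq κ T F p
    have a2 := Nq_le κ T F J hGJ
    rw [hN] at a2
    linarith
  have m0 := Mq_anc κ T (F 0) p _ hk
  have m1 := Mq_anc κ T (F 1) p _ hk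
  have m2 := Mq_anc κ T (F 2) p _ hk
  rw [← hJ] at m0 m1 m2
  have hav : ∀ f : ℤ → ℂ, avq κ (p.1 + 7) p.2 f ≤ Mq κ T f (T - p.1) p.2 := by
    intro f
    have := avq_le_Mq κ T f (T - p.1) p.2
    rwa [show T - (T - p.1) + 7 = p.1 + 7 by omega] at this
  have n0 := Mq_nonneg κ T (F 0) (T - J.1) J.2
  have n1 := Mq_nonneg κ T (F 1) (T - J.1) J.2
  have n2 := Mq_nonneg κ T (F 2) (T - J.1) J.2
  have v0 := hav (F 0)
  have v1 := hav (F 1)
  have v2 := hav (F 2)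
  unfold Gq at h2 hGJ
  generalize Mq κ T (F 0) (T - J.1) J.2 = a at *
  generalize Mq κ T (F 1) (T - J.1) J.2 = b at *
  generalize Mq κ T (F 2) (T - J.1) J.2 = c at *
  generalize Mq κ T (F 0) (T - p.1) p.2 = a' at *
  generalize Mq κ T (F 1) (T - p.1) p.2 = b' at *
  generalize Mq κ T (F 2) (T - p.1) p.2 = c' at *
  have ha : 0 < a := by
    rcases n0.lt_or_eq with h | h
    · exact h
    · rw [← h] at hGJ; simp at hGJ
  have hb : 0 < b := by
    rcases n1.lt_or_eq with h | h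
    · exact h
    · rw [← h] at hGJ; simp at hGJ
  have hc : 0 < c := by
    rcases n2.lt_or_eq with h | h
    · exact h
    · rw [← h] at hGJ; simp at hGJ
  fin_cases j
  · exact v0.trans (three_le ha hb hc m0 m1 m2 h2)
  · refine v1.trans (three_le hb ha hc m1 m0 m2 ?_)
    have e1 : b' * a' * c' = a' * b' * c' := by ring
    have e2 : b * a * c = a * b * c := by ring
    rw [e1, e2]
    exact h2
  · refine v2.trans (three_le hc ha hb m2 m0 m1 ?_)
    have e1 : c' * a' * b' = a' * b' * c' := by ring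
    have e2 : c * a * b = a * b * c := by ring
    rw [e1, e2]
    exact h2
  · exact absurd rfl hj3

/-- chainq κ estimate -/
lemma chainq (κ : ℝ) (T : ℕ) (F : Fin 4 → ℤ → ℂ) (A B l : ℤ) :
    ∀ d i : ℕ, i + d = T + 1 →
      (∑ k ∈ (Finset.Ico i (T + 1)).filter (fun k => anc (0, l) k ∈ topsq κ T F A B),
        (2 : ℝ) ^ (Nq κ T F (anc (0, l) k))) ≤
      if i ≤ T ∧ 0 < Gq κ T F (anc (0, l) i) then 2 * (2 : ℝ) ^ (Nq κ T F (anc (0, l) i)) else 0 := by
  classical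
  intro d
  induction d with
  | zero =>
    intro i hi
    rw [show i = T + 1 by omega]
    simp
  | succ d ih =>
    intro i hi
    have hiT : i ≤ T := by omega
    have h1 := ih (i + 1) (by omega)
    have e : Finset.Ico i (T + 1) = insert i (Finset.Ico (i + 1) (T + 1)) := by
      ext k
      simp only [Finset.mem_Ico, Finset.mem_insert]
      omega
    rw [e, Finset.filter_insert]
    have hni : i ∉ (Finset.Ico (i + 1) (T + 1)).filter
        (fun k => anc (0, l) k ∈ topsq κ T F A B) := by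
      simp
    have hstep : anc (anc (0, l) i) 1 = anc (0, l) (i + 1) := anc_anc _ _ _
    have hfst : (anc (0, l) i).1 = i := by simp [anc]
    have hmono : i + 1 ≤ T → 0 < Gq κ T F (anc (0, l) (i + 1)) →
        Nq κ T F (anc (0, l) (i + 1)) ≤ Nq κ T F (anc (0, l) i) := by
      intro h3 h4
      have := Nq_anc κ T F (anc (0, l) i) 1 (by rw [hfst]; exact h3) (by rw [hstep]; exact h4)
      rwa [hstep] at this
    by_cases htop : anc (0, l) i ∈ topsq κ T F A B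
    · rw [if_pos htop, Finset.sum_insert hni]
      have htop' := htop
      unfold topsq Uq at htop'
      rw [Finset.mem_filter, Finset.mem_filter, hfst] at htop'
      obtain ⟨⟨_, hG⟩, h5⟩ := htop'
      rw [if_pos ⟨hiT, hG⟩]
      have h2 : (∑ k ∈ (Finset.Ico (i + 1) (T + 1)).filter
          (fun k => anc (0, l) k ∈ topsq κ T F A B), (2 : ℝ) ^ (Nq κ T F (anc (0, l) k))) ≤
          (2 : ℝ) ^ (Nq κ T F (anc (0, l) i)) := by
        refine h1.trans ?_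
        by_cases h3 : i + 1 ≤ T ∧ 0 < Gq κ T F (anc (0, l) (i + 1))
        · rw [if_pos h3]
          obtain ⟨h3, h4⟩ := h3
          have h6 := hmono h3 h4
          have h5 := h5 h3
          unfold Pq at h5
          rw [hstep] at h5
          have h7 : Nq κ T F (anc (0, l) (i + 1)) + 1 ≤ Nq κ T F (anc (0, l) i) := by
            rcases h6.lt_or_eq with h | h
            · omega
            · exact absurd ⟨h4, h⟩ h5
          calc 2 * (2 : ℝ) ^ (Nq κ T F (anc (0, l) (i + 1)))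
              = (2 : ℝ) ^ (Nq κ T F (anc (0, l) (i + 1)) + 1) := by
                rw [zpow_add_one₀ (by norm_num)]; ring
            _ ≤ _ := zpow_le_zpow_right₀ (by norm_num) h7
        · rw [if_neg h3]
          positivity
      linarith
    · rw [if_neg htop]
      refine h1.trans ?_
      by_cases h3 : i + 1 ≤ T ∧ 0 < Gq κ T F (anc (0, l) (i + 1))
      · rw [if_pos h3]
        obtain ⟨h3, h4⟩ := h3
        have h6 := hmono h3 h4
        have hG : 0 < Gq κ T F (anc (0, l) i) := by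
          have := Gq_anc κ T F (anc (0, l) i) 1 (by rw [hfst]; exact h3)
          rw [hstep] at this
          exact h4.trans_le this
        rw [if_pos ⟨hiT, hG⟩]
        exact mul_le_mul_of_nonneg_left (zpow_le_zpow_right₀ (by norm_num) h6) (by norm_num)
      · rw [if_neg h3]
        split_ifs
        · positivity
        · exact le_refl _


lemma chainq_G (κ : ℝ) (T : ℕ) (F : Fin 4 → ℤ → ℂ) (A B l : ℤ) :
    (∑ J ∈ (topsq κ T F A B).filter (fun J => l ∈ dI J.1 J.2), Gq κ T F J) ≤ 4 * Gq κ T F (0, l) := by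
  classical
  have h := chainq κ T F A B l (T + 1) 0 (by omega)
  have e : (topsq κ T F A B).filter (fun J => l ∈ dI J.1 J.2) =
      ((Finset.Ico 0 (T + 1)).filter (fun k => anc (0, l) k ∈ topsq κ T F A B)).image
        (anc (0, l)) := by
    ext J
    simp only [Finset.mem_filter, Finset.mem_image, Finset.mem_Ico]
    constructor
    · rintro ⟨h1, h2⟩
      rw [mem_dI] at h2
      have hJ : anc (0, l) J.1 = J := by
        apply Prod.ext
        · simp [anc]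
        · exact h2
      have hT : J.1 ≤ T := by
        have h3 := h1
        unfold topsq Uq at h3
        rw [Finset.mem_filter, Finset.mem_filter] at h3
        exact (mem_U.mp h3.1.1).1
      exact ⟨J.1, ⟨by omega, by rw [hJ]; exact h1⟩, hJ⟩
    · rintro ⟨k, ⟨_, h2⟩, rfl⟩
      refine ⟨h2, ?_⟩
      rw [mem_dI]
      simp [anc]
  rw [e, Finset.sum_image]
  · calc (∑ k ∈ (Finset.Ico 0 (T + 1)).filter (fun k => anc (0, l) k ∈ topsq κ T F A B),
          Gq κ T F (anc (0, l) k)) ≤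
        ∑ k ∈ (Finset.Ico 0 (T + 1)).filter (fun k => anc (0, l) k ∈ topsq κ T F A B),
          2 * (2 : ℝ) ^ (Nq κ T F (anc (0, l) k)) :=
          Finset.sum_le_sum fun k _ => (lt_Nq κ T F _).le
      _ = 2 * ∑ k ∈ (Finset.Ico 0 (T + 1)).filter (fun k => anc (0, l) k ∈ topsq κ T F A B),
          (2 : ℝ) ^ (Nq κ T F (anc (0, l) k)) := by rw [Finset.mul_sum]
      _ ≤ 4 * Gq κ T F (0, l) := by
        have e0 : anc (0, l) 0 = (0, l) := anc_zero _
        rw [e0] at h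
        by_cases hG : 0 < Gq κ T F (0, l)
        · rw [if_pos ⟨Nat.zero_le _, hG⟩] at h
          have := Nq_le κ T F (0, l) hG
          linarith
        · rw [if_neg (fun h => hG h.2)] at h
          have := Gq_nonneg κ T F (0, l)
          linarith
  · intro k _ k' _ hkk
    have := congrArg Prod.fst hkk
    simpa [anc] using this

/-- sum over the topsq κ -/
lemma sum_topsq (κ : ℝ) (T : ℕ) (F : Fin 4 → ℤ → ℂ) (A B : ℤ) :
    ∑ J ∈ topsq κ T F A B, (2 : ℝ) ^ (J.1 + 7) * Gq κ T F J ≤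
      4 * ∑ l ∈ Finset.Ico (A * 2 ^ T) (B * 2 ^ T), 2 ^ 7 * Gq κ T F (0, l) := by
  classical
  have h1 : ∀ J ∈ topsq κ T F A B, (2 : ℝ) ^ (J.1 + 7) * Gq κ T F J =
      ∑ l ∈ Finset.Ico (A * 2 ^ T) (B * 2 ^ T), if l ∈ dI J.1 J.2 then 2 ^ 7 * Gq κ T F J else 0 := by
    intro J hJ
    rw [← Finset.sum_filter]
    have hsub : (Finset.Ico (A * 2 ^ T) (B * 2 ^ T)).filter (fun l => l ∈ dI J.1 J.2) =
        dI J.1 J.2 := by
      ext l
      rw [Finset.mem_filter, Finset.mem_Ico]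
      constructor
      · exact fun h => h.2
      · intro hl
        refine ⟨?_, hl⟩
        unfold topsq Uq at hJ
        rw [Finset.mem_filter, Finset.mem_filter, mem_U] at hJ
        obtain ⟨hT, hA, hB⟩ := hJ.1.1
        unfold dI at hl
        rw [Finset.mem_Ico] at hl
        have h0 : (0 : ℤ) < 2 ^ J.1 := by positivity
        have e : (2 : ℤ) ^ T = 2 ^ (T - J.1) * 2 ^ J.1 := by
          rw [← pow_add]; congr 1; omega
        rw [e]
        constructor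
        · calc A * (2 ^ (T - J.1) * 2 ^ J.1) = (A * 2 ^ (T - J.1)) * 2 ^ J.1 := by ring
            _ ≤ J.2 * 2 ^ J.1 := mul_le_mul_of_nonneg_right hA h0.le
            _ ≤ l := hl.1
        · calc l < (J.2 + 1) * 2 ^ J.1 := hl.2
            _ ≤ (B * 2 ^ (T - J.1)) * 2 ^ J.1 :=
              mul_le_mul_of_nonneg_right (by omega) h0.le
            _ = B * (2 ^ (T - J.1) * 2 ^ J.1) := by ring
    rw [hsub, Finset.sum_const, nsmul_eq_mul, dI_card, pow_add]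
    ring
  rw [Finset.sum_congr rfl h1, Finset.sum_comm, Finset.mul_sum]
  refine Finset.sum_le_sum fun l _ => ?_
  rw [← Finset.sum_filter, ← Finset.mul_sum]
  have := chainq_G κ T F A B l
  nlinarith

lemma leaf_totalq {κ : ℝ} (h2 : 2 ≤ κ) (h3 : κ < 3) (T : ℕ) (F : Fin 4 → ℤ → ℂ) (A B : ℤ)
    (hF : ∀ j, (Function.support (F j)).Finite) :
    ∑ l ∈ Finset.Ico (A * 2 ^ T) (B * 2 ^ T), 2 ^ 7 * Gq κ T F (0, l) ≤
      (48 / (3 - κ)) ^ 3 * (l3 (F 0) * l3 (F 1) * l3 (F 2)) := by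
  have hs : 0 < 3 - κ := by linarith
  have hK : 1 ≤ 48 / (3 - κ) := by
    rw [le_div_iff₀ hs]
    linarith
  have hM : ∀ j, ∑ l ∈ Finset.Ico (A * 2 ^ T) (B * 2 ^ T), 2 ^ 7 * Mq κ T (F j) T l ^ 3 ≤
      (48 / (3 - κ) * l3 (F j)) ^ 3 := by
    intro j
    refine (max_thm h2 h3 T (F j) A B).trans ?_
    have h4 := sum_leaf_le (F j) (hF j) (Finset.Ico (A * 2 ^ T) (B * 2 ^ T))
    rw [mul_pow]
    have h5 : 0 ≤ l3 (F j) ^ 3 := pow_nonneg (L0e.l3_nonneg _) 3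
    have h6 : 48 / (3 - κ) ≤ (48 / (3 - κ)) ^ 3 := le_self_pow₀ hK (by norm_num)
    calc 48 / (3 - κ) * ∑ l ∈ Finset.Ico (A * 2 ^ T) (B * 2 ^ T), ∑ y ∈ dI 7 l, ‖F j y‖ ^ 3
        ≤ 48 / (3 - κ) * l3 (F j) ^ 3 := mul_le_mul_of_nonneg_left h4 (by linarith)
      _ ≤ (48 / (3 - κ)) ^ 3 * l3 (F j) ^ 3 := mul_le_mul_of_nonneg_right h6 h5
  have hK0 : 0 ≤ 48 / (3 - κ) := by linarith
  have h := holder3 (Finset.Ico (A * 2 ^ T) (B * 2 ^ T)) (fun _ => 2 ^ 7)
    (Mq κ T (F 0) T) (Mq κ T (F 1) T) (Mq κ T (F 2) T) (fun _ _ => by positivity)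
    (fun _ _ => Mq_nonneg κ _ _ _ _) (fun _ _ => Mq_nonneg κ _ _ _ _)
    (fun _ _ => Mq_nonneg κ _ _ _ _)
    (48 / (3 - κ) * l3 (F 0)) (48 / (3 - κ) * l3 (F 1)) (48 / (3 - κ) * l3 (F 2))
    (mul_nonneg hK0 (L0e.l3_nonneg _)) (mul_nonneg hK0 (L0e.l3_nonneg _)) (mul_nonneg hK0 (L0e.l3_nonneg _))
    (hM 0) (hM 1) (hM 2)
  have e : ∀ l : ℤ, Gq κ T F (0, l) =
      Mq κ T (F 0) T l * Mq κ T (F 1) T l * Mq κ T (F 2) T l := by
    intro l
    unfold Gq
    simp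
  simp only [e]
  refine h.trans (le_of_eq ?_)
  ring

/-- **`BBq κ → GridBound`**, `2 ≤ κ < 3` -/
theorem gridBound_of_BBq {κ : ℝ} (h2 : 2 ≤ κ) (h3 : κ < 3) : BBq κ → GridBound := by
  classical
  rintro ⟨C, hC, hBB⟩
  have hs : 0 < 3 - κ := by linarith
  refine ⟨8 * C * (4 * (48 / (3 - κ)) ^ 3), by positivity, ?_⟩
  intro b hb ε hε R F hF hF3
  -- universe
  obtain ⟨T, hT⟩ : ∃ T : ℕ, ∀ p ∈ R, p.1 ≤ T :=
    ⟨R.sup Prod.fst, fun p hp => Finset.le_sup (f := Prod.fst) hp⟩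
  obtain ⟨L, hL⟩ : ∃ L : ℤ, ∀ p ∈ R, |p.2| < L := by
    refine ⟨1 + ∑ p ∈ R, |p.2|, fun p hp => ?_⟩
    have := Finset.single_le_sum (f := fun p : ℕ × ℤ => |p.2|) (fun q _ => abs_nonneg q.2) hp
    omega
  have hRU : R ⊆ U T (-L) L := by
    intro p hp
    rw [mem_U]
    have h1 := hL p hp
    have h2 : (1 : ℤ) ≤ 2 ^ (T - p.1) := one_le_pow₀ (by norm_num)
    have h3 : L ≤ L * 2 ^ (T - p.1) := by
      have : 0 ≤ L := (abs_nonneg p.2).trans h1.le
      nlinarith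
    rw [abs_lt] at h1
    refine ⟨hT p hp, ?_, ?_⟩ <;> linarith [h1.1, h1.2]
  set ε' := epsR ε R with hε'
  have hε1 : ∀ m x, ‖ε' m x‖ ≤ 1 := epsR_le ε R hε
  have s1 : ∑ p ∈ R, TI b ε F p = ∑ p ∈ U T (-L) L, TI b ε' F p := by
    rw [← Finset.sum_subset hRU]
    · refine Finset.sum_congr rfl fun p hp => ?_
      rw [hε', TI_epsR, if_pos hp]
    · intro p _ hp
      rw [hε', TI_epsR, if_neg hp]
  have s2 : ∑ p ∈ U T (-L) L, TI b ε' F p = ∑ p ∈ Uq κ T F (-L) L, TI b ε' F p := by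
    unfold Uq
    rw [Finset.sum_filter]
    refine Finset.sum_congr rfl fun p hp => ?_
    split_ifs with h
    · rfl
    · have hG : Gq κ T F p = 0 := le_antisymm (not_lt.mp h) (Gq_nonneg κ T F p)
      have hpT := (mem_U.mp hp).1
      have hav : ∀ f : ℤ → ℂ, avq κ (p.1 + 7) p.2 f ≤ Mq κ T f (T - p.1) p.2 := by
        intro f
        have := avq_le_Mq κ T f (T - p.1) p.2
        rwa [show T - (T - p.1) + 7 = p.1 + 7 by omega] at this
      have hz : ∃ j, avq κ (p.1 + 7) p.2 (F j) = 0 := by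
        unfold Gq at hG
        rcases mul_eq_zero.mp hG with h1 | h1
        · rcases mul_eq_zero.mp h1 with h2 | h2
          · exact ⟨0, le_antisymm (by rw [← h2]; exact hav _) (avq_nonneg _ _ _ _)⟩
          · exact ⟨1, le_antisymm (by rw [← h2]; exact hav _) (avq_nonneg _ _ _ _)⟩
        · exact ⟨2, le_antisymm (by rw [← h1]; exact hav _) (avq_nonneg _ _ _ _)⟩
      obtain ⟨j, hj⟩ := hz
      replace hj := av2_eq_zero (q := κ) (by linarith) _ _ _ hj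
      have h4 := norm_TI_le b hb ε' hε1 F p
      rw [Finset.prod_eq_zero (Finset.mem_univ j) hj, mul_zero] at h4
      exact norm_le_zero_iff.mp h4
  have s3 : ∑ p ∈ Uq κ T F (-L) L, TI b ε' F p =
      ∑ J ∈ topsq κ T F (-L) L, ∑ p ∈ RQ κ T F (-L) L J, TI b ε' F p := by
    unfold RQ
    rw [Finset.sum_fiberwise_of_maps_to]
    exact fun p hp => topq_mem κ hp
  rw [s1, s2, s3]
  have hJ : ∀ J ∈ topsq κ T F (-L) L, ‖∑ p ∈ RQ κ T F (-L) L J, TI b ε' F p‖ ≤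
      8 * C * (2 ^ (J.1 + 7) * Gq κ T F J) := by
    intro J _
    have h := hBB b hb ε' hε1 (RQ κ T F (-L) L J) J (RQ_region κ T F (-L) L J) F
      ![2 * Mq κ T (F 0) (T - J.1) J.2, 2 * Mq κ T (F 1) (T - J.1) J.2,
        2 * Mq κ T (F 2) (T - J.1) J.2, 1] (by
          intro j
          have n0 := Mq_nonneg κ T (F 0) (T - J.1) J.2
          have n1 := Mq_nonneg κ T (F 1) (T - J.1) J.2
          have n2 := Mq_nonneg κ T (F 2) (T - J.1) J.2
          fin_cases j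
          · exact mul_nonneg (by norm_num) n0
          · exact mul_nonneg (by norm_num) n1
          · exact mul_nonneg (by norm_num) n2
          · exact zero_le_one)
      (fun j hj3 p hp => RQ_av κ T F (-L) L J p hp j hj3) hF3
    refine h.trans (le_of_eq ?_)
    unfold Gq
    simp only [Matrix.cons_val_zero, Matrix.cons_val_one, Matrix.cons_val]
    ring
  calc ‖∑ J ∈ topsq κ T F (-L) L, ∑ p ∈ RQ κ T F (-L) L J, TI b ε' F p‖
      ≤ ∑ J ∈ topsq κ T F (-L) L, 8 * C * (2 ^ (J.1 + 7) * Gq κ T F J) :=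
        (norm_sum_le _ _).trans (Finset.sum_le_sum hJ)
    _ = 8 * C * ∑ J ∈ topsq κ T F (-L) L, 2 ^ (J.1 + 7) * Gq κ T F J := by rw [Finset.mul_sum]
    _ ≤ 8 * C * (4 * ((48 / (3 - κ)) ^ 3 * (l3 (F 0) * l3 (F 1) * l3 (F 2)))) := by
        refine mul_le_mul_of_nonneg_left ?_ (by positivity)
        refine (sum_topsq κ T F (-L) L).trans ?_
        exact mul_le_mul_of_nonneg_left (leaf_totalq h2 h3 T F (-L) L hF) (by norm_num)
    _ = _ := by ring

/-- literal `S0106` (as `L0.Target`) from `BBq κ`, `2 ≤ κ < 3`. -/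
theorem target_of_BBq {κ : ℝ} (h2 : 2 ≤ κ) (h3 : κ < 3) (h : BBq κ) : L0.Target :=
  Main.target_of_GridBound' (gridBound_of_BBq h2 h3 h)

end Crest.Agent.R079.L0q
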