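import Crest.Agent.R079.GlueK_914

/-! R079, Step II, SPLIT BEFORE REDUCING (helper990): the glue (4D -> 3D) for kernels `Φ w z0 z1 z2`
which depend on the frozen variable `w` of slot `j`.

`LK` = right side of the glue identity (additive in `Φ`), `Per` = periodised kernel (function of the
shadow `y_j` and of the sum `s` of the four coordinates), `Lgen` = 4D box form with a general kernel
`G y_j s` in slot `j`. -/

set_option autoImplicit false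
set_option linter.unusedVariables false

namespace Crest.Agent.R079.LK990

open Finset Crest.Agent.R079.Grid Crest.Agent.R079.Pot Crest.Agent.R079.Glue Crest.Agent.R079.GlueK

open Classical in
/-- kernel (depending on `w`) times the three line functions at `(z0, z1, z2)` -/
noncomputable def pW (j : Fin 4) (T : Fin 3 → Finset ℤ) (Φ : ℤ → ℤ → ℤ → ℤ → ℂ)
    (F : Fin 4 → ℤ → ℂ) (w z0 z1 z2 : ℤ) : ℂ :=
  if z0 ∈ T 0 ∧ z1 ∈ T 1 ∧ z2 ∈ T 2 then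
    Φ w z0 z1 z2 * (lA j F w z0 z1 * lB j F w z1 z2 * lC j F w z2 z0) else 0

/-- right side of the glue identity for a `w`-dependent kernel -/
noncomputable def LK (j : Fin 4) (N : ℕ) (bb : ℤ) (T : Fin 3 → Finset ℤ)
    (Φ : ℤ → ℤ → ℤ → ℤ → ℂ) (F : Fin 4 → ℤ → ℂ) (P : Finset (ℤ × ℤ × ℤ)) (x : ℤ) : ℂ :=
  ∑ p ∈ P,
    if cf j 0 * p.1 + cf j 1 * p.2.1 + cf j 2 * p.2.2 = x - sl j * (bb * N) then
      (1 / ((N : ℂ) + N)) * ∑ v : Fin (N + N), (hsg N v : ℂ) *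
        L3 (pW j T Φ F (((v : ℕ) : ℤ) + bb * N - p.1 - p.2.1 - p.2.2)) N p.1 p.2.1 p.2.2
    else 0

/-- periodised kernel: `y` = shadow of slot `j`, `s` = sum of the four coordinates -/
noncomputable def Per (j : Fin 4) (T : Fin 3 → Finset ℤ) (Φ : ℤ → ℤ → ℤ → ℤ → ℂ) (y s : ℤ) : ℂ :=
  ∑ z0 ∈ T 0, ∑ z1 ∈ T 1, ∑ z2 ∈ T 2,
    if cf j 0 * z0 + cf j 1 * z1 + cf j 2 * z2 = y then Φ (s - z0 - z1 - z2) z0 z1 z2 else 0

/-- 4D box form with the general kernel `G y_j s` in slot `j` -/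
noncomputable def Lgen (j : Fin 4) (N : ℕ) (bb : ℤ) (G : ℤ → ℤ → ℂ) (F : Fin 4 → ℤ → ℂ) (x : ℤ) : ℂ :=
  (1 / ((N : ℂ) + N) ^ 4) * ∑ u : Fin 4 → Fin (N + N), ((∏ i, hsg N (u i) : ℝ) : ℂ) *
    (G (yv N bb x u j) (bb * N + ∑ i, ((u i : ℕ) : ℤ)) *
      ∏ k : Fin 3, F (j.succAbove k) (yv N bb x u (j.succAbove k)))

/-- `Lbox` is the case `G y s = F j y` -/
theorem Lbox_eq_Lgen (j : Fin 4) (N : ℕ) (bb : ℤ) (F : Fin 4 → ℤ → ℂ) (x : ℤ) :
    Lbox N bb F x = Lgen j N bb (fun y _ => F j y) F x := by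
  unfold Lbox Lgen
  congr 1
  refine Finset.sum_congr rfl fun u _ => ?_
  rw [Fin.prod_univ_succAbove (fun k => F k (yv N bb x u k)) j]

lemma pW_add (j : Fin 4) (T : Fin 3 → Finset ℤ) (Φ Φ' : ℤ → ℤ → ℤ → ℤ → ℂ)
    (F : Fin 4 → ℤ → ℂ) (w z0 z1 z2 : ℤ) :
    pW j T (fun w z0 z1 z2 => Φ w z0 z1 z2 + Φ' w z0 z1 z2) F w z0 z1 z2 =
      pW j T Φ F w z0 z1 z2 + pW j T Φ' F w z0 z1 z2 := by
  unfold pW
  split_ifs
  · ring
  · simp

lemma L3_add (G G' : ℤ → ℤ → ℤ → ℂ) (N : ℕ) (p0 p1 p2 : ℤ) :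
    L3 (fun z0 z1 z2 => G z0 z1 z2 + G' z0 z1 z2) N p0 p1 p2 =
      L3 G N p0 p1 p2 + L3 G' N p0 p1 p2 := by
  unfold L3
  rw [← mul_add]
  congr 1
  simp only [mul_add, Finset.sum_add_distrib]

/-- **(A)** additivity -/
theorem LK_add (j : Fin 4) (N : ℕ) (bb : ℤ) (T : Fin 3 → Finset ℤ)
    (Φ Φ' : ℤ → ℤ → ℤ → ℤ → ℂ) (F : Fin 4 → ℤ → ℂ) (P : Finset (ℤ × ℤ × ℤ)) (x : ℤ) :
    LK j N bb T (fun w z0 z1 z2 => Φ w z0 z1 z2 + Φ' w z0 z1 z2) F P x =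
      LK j N bb T Φ F P x + LK j N bb T Φ' F P x := by
  unfold LK
  rw [← Finset.sum_add_distrib]
  refine Finset.sum_congr rfl fun p _ => ?_
  split_ifs
  · have e : ∀ w, pW j T (fun w z0 z1 z2 => Φ w z0 z1 z2 + Φ' w z0 z1 z2) F w =
        fun z0 z1 z2 => pW j T Φ F w z0 z1 z2 + pW j T Φ' F w z0 z1 z2 := by
      intro w
      funext z0 z1 z2
      exact pW_add j T Φ Φ' F w z0 z1 z2
    simp only [e, L3_add, mul_add, Finset.sum_add_distrib]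
  · simp

/-- **(B)** sum over the base points -/
theorem sum_norm_LK_le (j : Fin 4) (N : ℕ) (bb : ℤ) (T : Fin 3 → Finset ℤ)
    (Φ : ℤ → ℤ → ℤ → ℤ → ℂ) (F : Fin 4 → ℤ → ℂ) (P : Finset (ℤ × ℤ × ℤ)) (S : Finset ℤ) :
    ∑ x ∈ S, ‖LK j N bb T Φ F P x‖ ≤ ∑ p ∈ P, (1 / ((N : ℝ) + N)) * ∑ v : Fin (N + N),
      ‖L3 (pW j T Φ F (((v : ℕ) : ℤ) + bb * N - p.1 - p.2.1 - p.2.2)) N p.1 p.2.1 p.2.2‖ := by
  classical
  set G : ℤ × ℤ × ℤ → ℝ := fun p => (1 / ((N : ℝ) + N)) * ∑ v : Fin (N + N),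
      ‖L3 (pW j T Φ F (((v : ℕ) : ℤ) + bb * N - p.1 - p.2.1 - p.2.2)) N p.1 p.2.1 p.2.2‖ with hG
  have hG0 : ∀ p, 0 ≤ G p := fun p => by
    simp only [hG]
    positivity
  have h1 : ∀ x ∈ S, ‖LK j N bb T Φ F P x‖ ≤ ∑ p ∈ P,
      if cf j 0 * p.1 + cf j 1 * p.2.1 + cf j 2 * p.2.2 = x - sl j * (bb * N) then G p else 0 := by
    intro x _
    unfold LK
    refine (norm_sum_le _ _).trans (Finset.sum_le_sum fun p _ => ?_)
    split_ifs
    · simp only [hG]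
      rw [norm_mul]
      have e : ‖(1 / ((N : ℂ) + N))‖ = 1 / ((N : ℝ) + N) := by
        have : ((N : ℂ) + N) = (((N : ℝ) + N : ℝ) : ℂ) := by push_cast; rfl
        rw [this, norm_div, norm_one, Complex.norm_real, Real.norm_of_nonneg (by positivity)]
      rw [e]
      refine mul_le_mul_of_nonneg_left ?_ (by positivity)
      refine (norm_sum_le _ _).trans (Finset.sum_le_sum fun v _ => ?_)
      rw [norm_mul, Complex.norm_real]
      have : ‖hsg N v‖ = 1 := by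
        unfold hsg
        split_ifs <;> simp
      rw [this, one_mul]
    · simp
  refine (Finset.sum_le_sum h1).trans ?_
  rw [Finset.sum_comm]
  refine Finset.sum_le_sum fun p _ => ?_
  have h2 : ∑ x ∈ S, (if cf j 0 * p.1 + cf j 1 * p.2.1 + cf j 2 * p.2.2 = x - sl j * (bb * N)
      then G p else 0) = ∑ x ∈ S.filter (fun x => cf j 0 * p.1 + cf j 1 * p.2.1 +
        cf j 2 * p.2.2 = x - sl j * (bb * N)), G p := by
    rw [Finset.sum_filter]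
  rw [h2, Finset.sum_const, nsmul_eq_mul]
  have hcard : (S.filter (fun x => cf j 0 * p.1 + cf j 1 * p.2.1 +
        cf j 2 * p.2.2 = x - sl j * (bb * N))).card ≤ 1 := by
    rw [Finset.card_le_one]
    intro x hx y hy
    have a1 := (Finset.mem_filter.mp hx).2
    have a2 := (Finset.mem_filter.mp hy).2
    linarith
  have hc : ((S.filter (fun x => cf j 0 * p.1 + cf j 1 * p.2.1 +
        cf j 2 * p.2.2 = x - sl j * (bb * N))).card : ℝ) ≤ 1 := by exact_mod_cast hcard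
  calc _ ≤ 1 * G p := mul_le_mul_of_nonneg_right hc (hG0 p)
    _ = G p := one_mul _

/-- **(C)** the glue identity for `w`-dependent kernels -/
theorem LK_eq_Lgen (j : Fin 4) (N : ℕ) (bb : ℤ) (T : Fin 3 → Finset ℤ)
    (Φ : ℤ → ℤ → ℤ → ℤ → ℂ) (F : Fin 4 → ℤ → ℂ) (x : ℤ) (P : Finset (ℤ × ℤ × ℤ))
    (hP : ∀ t0 t1 t2 : Fin (N + N), ∀ z0 ∈ T 0, ∀ z1 ∈ T 1, ∀ z2 ∈ T 2,
      (z0 - ((t0 : ℕ) : ℤ), z1 - ((t1 : ℕ) : ℤ), z2 - ((t2 : ℕ) : ℤ)) ∈ P) :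
    Lgen j N bb (Per j T Φ) F x = LK j N bb T Φ F P x := by
  classical
  have hL : Lgen j N bb (Per j T Φ) F x = (1 / ((N : ℂ) + N) ^ 4) * ∑ v : Fin (N + N),
      ∑ i0 : Fin (N + N), ∑ i1 : Fin (N + N), ∑ i2 : Fin (N + N), ∑ p ∈ P,
        if cf j 0 * p.1 + cf j 1 * p.2.1 + cf j 2 * p.2.2 = x - sl j * (bb * N) then
        ((hsg N v * (hsg N i0 * hsg N i1 * hsg N i2) : ℝ) : ℂ) *
        pW j T Φ F (((v : ℕ) : ℤ) + bb * N - p.1 - p.2.1 - p.2.2)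
            (p.1 + ((i0 : ℕ) : ℤ)) (p.2.1 + ((i1 : ℕ) : ℤ)) (p.2.2 + ((i2 : ℕ) : ℤ)) else 0 := by
    unfold Lgen
    rw [sum_box j]
    congr 1
    refine Finset.sum_congr rfl fun v _ => Finset.sum_congr rfl fun i0 _ =>
      Finset.sum_congr rfl fun i1 _ => Finset.sum_congr rfl fun i2 _ => ?_
    rw [Fin.prod_univ_succAbove _ j, Fin.prod_univ_three, Fin.prod_univ_three,
      Fin.sum_univ_succAbove _ j, Fin.sum_univ_three]
    simp only [Fin.insertNth_apply_same, Fin.insertNth_apply_succAbove]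
    simp only [Matrix.cons_val_zero, Matrix.cons_val_one, Matrix.cons_val]
    unfold Per
    rw [sum_shift3 T P ((i0 : ℕ) : ℤ) ((i1 : ℕ) : ℤ) ((i2 : ℕ) : ℤ)
      (fun z0 h0 z1 h1 z2 h2 => hP i0 i1 i2 z0 h0 z1 h1 z2 h2)]
    rw [Finset.sum_mul, Finset.mul_sum]
    refine Finset.sum_congr rfl fun p _ => ?_
    obtain ⟨p0, p1, p2⟩ := p
    simp only
    have hy : ∀ k : Fin 4, yv N bb x (j.insertNth (α := fun _ => Fin (N + N)) v ![i0, i1, i2]) k =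
      x + ((sl j - sl k) * ((v : ℕ) : ℤ) + (sl (j.succAbove 0) - sl k) * ((i0 : ℕ) : ℤ) +
        (sl (j.succAbove 1) - sl k) * ((i1 : ℕ) : ℤ) +
        (sl (j.succAbove 2) - sl k) * ((i2 : ℕ) : ℤ)) - sl k * (bb * N) :=
      fun k => yv_insert j k N bb x v i0 i1 i2
    have hc : cf j 0 * (p0 + ((i0 : ℕ) : ℤ)) + cf j 1 * (p1 + ((i1 : ℕ) : ℤ)) +
        cf j 2 * (p2 + ((i2 : ℕ) : ℤ)) =
        yv N bb x (j.insertNth (α := fun _ => Fin (N + N)) v ![i0, i1, i2]) j ↔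
        cf j 0 * p0 + cf j 1 * p1 + cf j 2 * p2 = x - sl j * (bb * N) := by
      rw [hy j]
      unfold cf
      constructor
      · intro h; linear_combination h
      · intro h; linear_combination h
    rw [if_congr hc rfl rfl]
    by_cases hcond : cf j 0 * p0 + cf j 1 * p1 + cf j 2 * p2 = x - sl j * (bb * N)
    · rw [if_pos hcond, if_pos hcond]
      have hx : x = cf j 0 * p0 + cf j 1 * p1 + cf j 2 * p2 + sl j * (bb * N) := by
        rw [hcond]; ring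
      unfold pW lA lB lC lin
      by_cases h : p0 + ((i0 : ℕ) : ℤ) ∈ T 0 ∧ p1 + ((i1 : ℕ) : ℤ) ∈ T 1 ∧
          p2 + ((i2 : ℕ) : ℤ) ∈ T 2
      · rw [if_pos h, if_pos h]
        have e0 : yv N bb x (j.insertNth (α := fun _ => Fin (N + N)) v ![i0, i1, i2])
            (j.succAbove 0) = (sl j - sl (j.succAbove 0)) *
            (((v : ℕ) : ℤ) + bb * N - p0 - p1 - p2) +
            (sl (j.succAbove 1) - sl (j.succAbove 0)) * (p1 + ((i1 : ℕ) : ℤ)) +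
            (sl (j.succAbove 2) - sl (j.succAbove 0)) * (p2 + ((i2 : ℕ) : ℤ)) := by
          rw [hy, hx]; unfold cf; ring
        have e1 : yv N bb x (j.insertNth (α := fun _ => Fin (N + N)) v ![i0, i1, i2])
            (j.succAbove 1) = (sl j - sl (j.succAbove 1)) *
            (((v : ℕ) : ℤ) + bb * N - p0 - p1 - p2) +
            (sl (j.succAbove 2) - sl (j.succAbove 1)) * (p2 + ((i2 : ℕ) : ℤ)) +
            (sl (j.succAbove 0) - sl (j.succAbove 1)) * (p0 + ((i0 : ℕ) : ℤ)) := by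
          rw [hy, hx]; unfold cf; ring
        have e2 : yv N bb x (j.insertNth (α := fun _ => Fin (N + N)) v ![i0, i1, i2])
            (j.succAbove 2) = (sl j - sl (j.succAbove 2)) *
            (((v : ℕ) : ℤ) + bb * N - p0 - p1 - p2) +
            (sl (j.succAbove 0) - sl (j.succAbove 2)) * (p0 + ((i0 : ℕ) : ℤ)) +
            (sl (j.succAbove 1) - sl (j.succAbove 2)) * (p1 + ((i1 : ℕ) : ℤ)) := by
          rw [hy, hx]; unfold cf; ring
        have e3 : bb * (N : ℤ) + (((v : ℕ) : ℤ) + (((i0 : ℕ) : ℤ) + ((i1 : ℕ) : ℤ) +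
            ((i2 : ℕ) : ℤ))) - (p0 + ((i0 : ℕ) : ℤ)) - (p1 + ((i1 : ℕ) : ℤ)) -
            (p2 + ((i2 : ℕ) : ℤ)) = ((v : ℕ) : ℤ) + bb * N - p0 - p1 - p2 := by ring
        rw [e0, e1, e2, e3]
        push_cast
        ring
      · rw [if_neg h, if_neg h]
        ring
    · rw [if_neg hcond, if_neg hcond]
      simp
  rw [hL]
  unfold LK
  have hR : ∀ p ∈ P, (if cf j 0 * p.1 + cf j 1 * p.2.1 + cf j 2 * p.2.2 = x - sl j * (bb * N) then
        (1 / ((N : ℂ) + N)) * ∑ v : Fin (N + N), (hsg N v : ℂ) *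
          L3 (pW j T Φ F (((v : ℕ) : ℤ) + bb * N - p.1 - p.2.1 - p.2.2)) N p.1 p.2.1 p.2.2
      else 0) = (1 / ((N : ℂ) + N) ^ 4) * ∑ v : Fin (N + N), ∑ i0 : Fin (N + N),
      ∑ i1 : Fin (N + N), ∑ i2 : Fin (N + N),
        if cf j 0 * p.1 + cf j 1 * p.2.1 + cf j 2 * p.2.2 = x - sl j * (bb * N) then
        ((hsg N v * (hsg N i0 * hsg N i1 * hsg N i2) : ℝ) : ℂ) *
        pW j T Φ F (((v : ℕ) : ℤ) + bb * N - p.1 - p.2.1 - p.2.2)
            (p.1 + ((i0 : ℕ) : ℤ)) (p.2.1 + ((i1 : ℕ) : ℤ)) (p.2.2 + ((i2 : ℕ) : ℤ)) else 0 := by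
    intro p _
    split_ifs with hcond
    · unfold L3
      rw [show (1 / ((N : ℂ) + N) ^ 4) = (1 / ((N : ℂ) + N)) * (1 / ((N : ℂ) + N) ^ 3) by
        rw [pow_succ]; rw [one_div_mul_one_div_rev]]
      rw [mul_assoc]
      congr 1
      rw [Finset.mul_sum]
      refine Finset.sum_congr rfl fun v _ => ?_
      rw [← mul_assoc, mul_comm (hsg N v : ℂ) (1 / ((N : ℂ) + N) ^ 3), mul_assoc]
      congr 1
      rw [Finset.mul_sum]
      refine Finset.sum_congr rfl fun i0 _ => ?_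
      rw [Finset.mul_sum]
      refine Finset.sum_congr rfl fun i1 _ => ?_
      rw [Finset.mul_sum]
      refine Finset.sum_congr rfl fun i2 _ => ?_
      push_cast
      ring
    · simp
  rw [Finset.sum_congr rfl hR]
  rw [← Finset.mul_sum]
  congr 1
  conv_rhs => rw [Finset.sum_comm]
  refine Finset.sum_congr rfl fun v _ => ?_
  conv_rhs => rw [Finset.sum_comm]
  refine Finset.sum_congr rfl fun i0 _ => ?_
  conv_rhs => rw [Finset.sum_comm]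
  refine Finset.sum_congr rfl fun i1 _ => ?_
  conv_rhs => rw [Finset.sum_comm]

/-- **(D)** the starting point: a `kerF` letter in slot `j` -/
theorem Lbox_eq_LK (j : Fin 4) (N : ℕ) (bb : ℤ) (T : Fin 3 → Finset ℤ)
    (Φ : ℤ → ℤ → ℤ → ℂ) (F : Fin 4 → ℤ → ℂ) (hF : F j = kerF j 1 T Φ) (x : ℤ)
    (P : Finset (ℤ × ℤ × ℤ))
    (hP : ∀ t0 t1 t2 : Fin (N + N), ∀ z0 ∈ T 0, ∀ z1 ∈ T 1, ∀ z2 ∈ T 2,
      (z0 - ((t0 : ℕ) : ℤ), z1 - ((t1 : ℕ) : ℤ), z2 - ((t2 : ℕ) : ℤ)) ∈ P) :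
    Lbox N bb F x = LK j N bb T (fun _ => Φ) F P x := by
  rw [Lbox_kerF j N bb 1 T Φ F hF x P hP, Complex.ofReal_one, one_mul]
  rfl

end Crest.Agent.R079.LK990
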