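import Crest.Agent.R079.St2M_834
import Crest.Agent.R079.QDefs_248

/-! R079, doc 2539 (4) (helper71): EXIT VALUES of the fixed weight telescope in the line model.

Setting: `v : ℤ → ι → ℂ` on the `y`-line (label vectors), `M` a fixed PSD matrix with
`(1/len p) ∑_{y ∈ iv p} |⟨x, v y⟩|² ≤ ⟨x, M x⟩ + δ |x|²` (upper, `GrU`) resp. `≥` (lower, `GrL`)
for the nodes `p ∈ T`.  `al_exit`: a masked box average of `β v` has
`⟨·,(M+τ)⁻¹ ·⟩ ≤ 2^8 (1 + δ/τ) avg |β|²`; `be_exit`: the other letter. -/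

set_option autoImplicit false
set_option linter.unusedSectionVars false

namespace Crest.Agent.R079.LeafV71

open Matrix Finset Crest.Agent.R079.Grid Crest.Agent.R079.St2
open scoped ComplexOrder MatrixOrder

variable {ι : Type*} [Fintype ι] [DecidableEq ι]

/-- length of the node `p` -/
noncomputable def ln (p : ℕ × ℤ) : ℝ := (2 : ℝ) ^ (p.1 + 7)

lemma ln_pos (p : ℕ × ℤ) : 0 < ln p := by unfold ln; positivity

/-- Gram form of the node `p` in the direction `x` -/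
noncomputable def gf (v : ℤ → ι → ℂ) (p : ℕ × ℤ) (x : ι → ℂ) : ℝ :=
  (1 / ln p) * ∑ y ∈ dI (p.1 + 7) p.2, ‖star x ⬝ᵥ v y‖ ^ 2

/-- upper comparison of the node Grams with `M` -/
def GrU (T : Finset (ℕ × ℤ)) (v : ℤ → ι → ℂ) (M : Matrix ι ι ℂ) (δ : ℝ) : Prop :=
  ∀ p ∈ T, ∀ x : ι → ℂ, gf v p x ≤ qf M x + δ * n2 x

/-- lower comparison of the node Grams with `M` -/
def GrL (T : Finset (ℕ × ℤ)) (v : ℤ → ι → ℂ) (M : Matrix ι ι ℂ) (δ : ℝ) : Prop :=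
  ∀ p ∈ T, ∀ x : ι → ℂ, qf M x ≤ gf v p x + δ * n2 x

/-- Hilbert-Schmidt closeness gives both comparisons -/
lemma gr_of_hs {T : Finset (ℕ × ℤ)} {v : ℤ → ι → ℂ} {M : Matrix ι ι ℂ} {δ : ℝ} (hδ : 0 ≤ δ)
    (h : ∀ p ∈ T, ∑ i, ∑ j, ‖(gr (dI (p.1 + 7) p.2) (1 / ln p) v - M) i j‖ ^ 2 ≤ δ ^ 2) :
    GrU T v M δ ∧ GrL T v M δ := by
  have key : ∀ p ∈ T, ∀ x : ι → ℂ, |gf v p x - qf M x| ≤ δ * n2 x := by
    intro p hp x
    have h1 := hs_form _ hδ (h p hp) x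
    rw [qf_sub_mat, qf_gr] at h1
    exact h1
  constructor
  · intro p hp x
    have := (abs_le.1 (key p hp x)).2
    linarith
  · intro p hp x
    have := (abs_le.1 (key p hp x)).1
    linarith

lemma n2_wv_le {κ : Type*} (s : Finset κ) (a : ℝ) (β : κ → ℂ) (w : κ → ι → ℂ) :
    n2 (wv s (fun k => (a : ℂ) * β k) w) ≤ (a * s.card) * (a * ∑ k ∈ s, ‖β k‖ ^ 2 * n2 (w k)) := by
  unfold n2 wv
  have h1 : ∀ i, ‖∑ k ∈ s, (a : ℂ) * β k * w k i‖ ^ 2 ≤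
      a ^ 2 * (s.card * ∑ k ∈ s, ‖β k‖ ^ 2 * ‖w k i‖ ^ 2) := by
    intro i
    have e : ∑ k ∈ s, (a : ℂ) * β k * w k i = (a : ℂ) * ∑ k ∈ s, β k * w k i := by
      rw [Finset.mul_sum]; exact Finset.sum_congr rfl fun k _ => by ring
    rw [e, norm_mul, mul_pow, Complex.norm_real, Real.norm_eq_abs, sq_abs]
    refine mul_le_mul_of_nonneg_left ?_ (by positivity)
    calc ‖∑ k ∈ s, β k * w k i‖ ^ 2 ≤ (∑ k ∈ s, ‖β k * w k i‖) ^ 2 :=
          pow_le_pow_left₀ (norm_nonneg _) (norm_sum_le _ _) 2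
      _ ≤ s.card * ∑ k ∈ s, ‖β k * w k i‖ ^ 2 := sq_sum_le_card_mul_sum_sq
      _ = _ := by
          congr 1
          exact Finset.sum_congr rfl fun k _ => by rw [norm_mul, mul_pow]
  refine (Finset.sum_le_sum fun i _ => h1 i).trans (le_of_eq ?_)
  rw [← Finset.mul_sum, ← Finset.mul_sum, Finset.sum_comm]
  have : ∑ k ∈ s, ∑ i, ‖β k‖ ^ 2 * ‖w k i‖ ^ 2 = ∑ k ∈ s, ‖β k‖ ^ 2 * ∑ i, ‖w k i‖ ^ 2 :=
    Finset.sum_congr rfl fun k _ => by rw [Finset.mul_sum]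
  rw [this]
  ring

lemma sum_cover {α γ : Type*} [DecidableEq α] (A : Finset α) (P : Finset γ) (D : γ → Finset α)
    (f : α → ℝ) (hf : ∀ a, 0 ≤ f a) (hc : ∀ a ∈ A, ∃ p ∈ P, a ∈ D p) :
    ∑ a ∈ A, f a ≤ ∑ p ∈ P, ∑ a ∈ D p, f a := by
  classical
  calc ∑ a ∈ A, f a ≤ ∑ a ∈ A, ∑ p ∈ P, if a ∈ D p then f a else 0 := by
        refine Finset.sum_le_sum fun a ha => ?_
        obtain ⟨p, hp, hap⟩ := hc a ha
        calc f a = if a ∈ D p then f a else 0 := by rw [if_pos hap]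
          _ ≤ _ := Finset.single_le_sum (f := fun p => if a ∈ D p then f a else 0)
              (fun p _ => by split_ifs <;> simp [hf]) hp
    _ = ∑ p ∈ P, ∑ a ∈ A, if a ∈ D p then f a else 0 := Finset.sum_comm
    _ ≤ _ := by
        refine Finset.sum_le_sum fun p _ => ?_
        rw [← Finset.sum_filter]
        refine Finset.sum_le_sum_of_subset_of_nonneg ?_ fun a _ _ => hf a
        intro a ha
        exact (Finset.mem_filter.1 ha).2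

/-- **EXIT VALUE, A SIDE** (abstract cover): the points of `s` with `β ≠ 0` lie in at most two
nodes of `T` of level `m`. -/
theorem al_exit {κ : Type*} [DecidableEq κ] {T : Finset (ℕ × ℤ)} {v : ℤ → ι → ℂ}
    {M : Matrix ι ι ℂ} {δ τ : ℝ} (hM : M.PosSemidef) (hτ : 0 < τ) (hδ : 0 ≤ δ)
    (hG : GrU T v M δ) (m : ℕ) (s : Finset κ) (y : κ → ℤ) (hy : Set.InjOn y s)
    (β : κ → ℂ) (l : ℤ)
    (hc : ∀ k ∈ s, β k ≠ 0 → ∃ p ∈ T, (p = (m, l) ∨ p = (m, l + 1)) ∧ y k ∈ dI (p.1 + 7) p.2) :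
    qf (met M τ)⁻¹ (wv s (fun k => ((1 / 2 ^ m : ℝ) : ℂ) * β k) (fun k => v (y k))) ≤
      2 ^ 8 * (1 + δ / τ) * ((1 / 2 ^ m) * ∑ k ∈ s, ‖β k‖ ^ 2) := by
  classical
  set s' := s.filter (fun k => β k ≠ 0) with hs'
  set a : ℝ := (1 / 2 ^ m) / 2 ^ 8 with ha
  have ha0 : 0 ≤ a := by positivity
  have e1 : wv s (fun k => ((1 / 2 ^ m : ℝ) : ℂ) * β k) (fun k => v (y k)) =
      wv s' (fun k => (a : ℂ) * ((2 ^ 8 : ℂ) * β k)) (fun k => v (y k)) := by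
    funext i
    unfold wv
    rw [hs', Finset.sum_filter]
    refine Finset.sum_congr rfl fun k _ => ?_
    by_cases hk : β k ≠ 0
    · rw [if_pos hk, ha]
      push_cast
      ring
    · rw [if_neg hk]
      push Not at hk
      simp [hk]
  have h1 := captured s' hM hτ hδ ha0 (fun k => (2 ^ 8 : ℂ) * β k) (fun k => v (y k)) (by
    intro z
    -- the nodes
    have hsub : ∑ k ∈ s', ‖star z ⬝ᵥ v (y k)‖ ^ 2 ≤
        ∑ p ∈ T.filter (fun p => p = (m, l) ∨ p = (m, l + 1)),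
          ∑ y' ∈ dI (p.1 + 7) p.2, ‖star z ⬝ᵥ v y'‖ ^ 2 := by
      have himg : ∑ k ∈ s', ‖star z ⬝ᵥ v (y k)‖ ^ 2 =
          ∑ y' ∈ s'.image y, ‖star z ⬝ᵥ v y'‖ ^ 2 := by
        rw [Finset.sum_image]
        intro a1 h1 a2 h2 h12
        exact hy (Finset.mem_filter.1 h1).1 (Finset.mem_filter.1 h2).1 h12
      rw [himg]
      refine sum_cover _ _ _ _ (fun _ => by positivity) ?_
      intro y' hy'
      obtain ⟨k, hk, rfl⟩ := Finset.mem_image.1 hy'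
      obtain ⟨hk1, hk2⟩ := Finset.mem_filter.1 hk
      obtain ⟨p, hp, hpl, hpy⟩ := hc k hk1 hk2
      exact ⟨p, Finset.mem_filter.2 ⟨hp, hpl⟩, hpy⟩
    have hcard : (T.filter (fun p => p = (m, l) ∨ p = (m, l + 1))).card ≤ 2 := by
      refine (Finset.card_le_card (t := {(m, l), (m, l + 1)}) ?_).trans Finset.card_le_two
      intro p hp
      have := (Finset.mem_filter.1 hp).2
      simpa using this
    have hX : 0 ≤ qf M z + δ * n2 z := add_nonneg (qf_nonneg hM z) (mul_nonneg hδ (n2_nonneg z))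
    have hnode : ∀ p ∈ T.filter (fun p => p = (m, l) ∨ p = (m, l + 1)),
        ∑ y' ∈ dI (p.1 + 7) p.2, ‖star z ⬝ᵥ v y'‖ ^ 2 ≤ 2 ^ (m + 7) * (qf M z + δ * n2 z) := by
      intro p hp
      obtain ⟨hp1, hp2⟩ := Finset.mem_filter.1 hp
      have hpm : p.1 = m := by rcases hp2 with rfl | rfl <;> rfl
      have h := hG p hp1 z
      unfold gf ln at h
      rw [hpm] at h ⊢
      have hpos : (0 : ℝ) < 2 ^ (m + 7) := by positivity
      rw [one_div, inv_mul_le_iff₀ hpos] at h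
      exact h
    calc a * ∑ k ∈ s', ‖star z ⬝ᵥ v (y k)‖ ^ 2
        ≤ a * ∑ p ∈ T.filter (fun p => p = (m, l) ∨ p = (m, l + 1)),
            2 ^ (m + 7) * (qf M z + δ * n2 z) :=
          mul_le_mul_of_nonneg_left (hsub.trans (Finset.sum_le_sum hnode)) ha0
      _ ≤ a * (2 * (2 ^ (m + 7) * (qf M z + δ * n2 z))) := by
          refine mul_le_mul_of_nonneg_left ?_ ha0
          rw [Finset.sum_const, nsmul_eq_mul]
          refine mul_le_mul_of_nonneg_right ?_ (by positivity)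
          exact_mod_cast hcard
      _ = qf M z + δ * n2 z := by
          rw [ha]
          field_simp
          ring)
  rw [e1]
  refine h1.trans ?_
  have e2 : a * ∑ k ∈ s', ‖(2 ^ 8 : ℂ) * β k‖ ^ 2 =
      2 ^ 8 * ((1 / 2 ^ m) * ∑ k ∈ s', ‖β k‖ ^ 2) := by
    have : ∀ k, ‖(2 ^ 8 : ℂ) * β k‖ ^ 2 = 2 ^ 16 * ‖β k‖ ^ 2 := by
      intro k
      rw [norm_mul, mul_pow]
      norm_num
    simp only [this]
    rw [← Finset.mul_sum, ha]
    ring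
  rw [e2]
  have h3 : ∑ k ∈ s', ‖β k‖ ^ 2 ≤ ∑ k ∈ s, ‖β k‖ ^ 2 :=
    Finset.sum_le_sum_of_subset_of_nonneg (Finset.filter_subset _ _) fun _ _ _ => by positivity
  have h4 : 0 ≤ 1 + δ / τ := by positivity
  calc (1 + δ / τ) * (2 ^ 8 * ((1 / 2 ^ m) * ∑ k ∈ s', ‖β k‖ ^ 2))
      ≤ (1 + δ / τ) * (2 ^ 8 * ((1 / 2 ^ m) * ∑ k ∈ s, ‖β k‖ ^ 2)) := by gcongr
    _ = _ := by ring

/-- masked box average in position `q` of scale `m`, vectors `w z` -/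
noncomputable def bav (m : ℕ) (q : ℤ) (β : ℤ → ℂ) (w : ℤ → ι → ℂ) : ι → ℂ :=
  wv (range (2 ^ m)) (fun u => ((1 / 2 ^ m : ℝ) : ℂ) * β (q + (u : ℤ))) (fun u => w (q + (u : ℤ)))

lemma mem_dI_div {z : ℤ} (k : ℕ) : z ∈ dI k (z / 2 ^ k) := by
  unfold dI
  rw [Finset.mem_Ico]
  have hp : (0 : ℤ) < 2 ^ k := by positivity
  constructor
  · have := Int.ediv_mul_le z hp.ne'
    linarith
  · have := Int.lt_ediv_add_one_mul_self z hp
    linarith

lemma div_range {k : ℕ} {z z0 : ℤ} (h0 : z0 ≤ z) (h1 : z < z0 + 2 ^ k) :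
    z / 2 ^ k = z0 / 2 ^ k ∨ z / 2 ^ k = z0 / 2 ^ k + 1 := by
  have hp : (0 : ℤ) < 2 ^ k := by positivity
  have a1 : z0 / 2 ^ k ≤ z / 2 ^ k := Int.ediv_le_ediv hp h0
  have a2 : z / 2 ^ k ≤ (z0 + 2 ^ k) / 2 ^ k := Int.ediv_le_ediv hp h1.le
  have a3 : (z0 + 2 ^ k) / 2 ^ k = z0 / 2 ^ k + 1 := by
    have := Int.add_mul_ediv_right z0 1 hp.ne'
    rw [one_mul] at this
    exact this
  omega

/-- **EXIT VALUE, A SIDE, LINE MODEL**: vectors `v (c + d z)`, masks arbitrary, every point with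
`β ≠ 0` alive at level `m` -/
theorem al_line {T : Finset (ℕ × ℤ)} {v : ℤ → ι → ℂ} {M : Matrix ι ι ℂ} {δ τ : ℝ}
    (hM : M.PosSemidef) (hτ : 0 < τ) (hδ : 0 ≤ δ) (hG : GrU T v M δ) (m : ℕ) (q c d : ℤ)
    (hd : d ≠ 0) (hd' : |d| ≤ 128) (β : ℤ → ℂ)
    (hc : ∀ u : ℕ, u < 2 ^ m → β (q + (u : ℤ)) ≠ 0 →
      (m, (c + d * (q + (u : ℤ))) / 2 ^ (m + 7)) ∈ T) :
    qf (met M τ)⁻¹ (bav m q β (fun z => v (c + d * z))) ≤
      2 ^ 8 * (1 + δ / τ) * ((1 / 2 ^ m) * ∑ u ∈ range (2 ^ m), ‖β (q + (u : ℤ))‖ ^ 2) := by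
  classical
  have h27 : ∀ u : ℕ, u < 2 ^ m → |d * (u : ℤ)| < 2 ^ (m + 7) := by
    intro u hu
    have hu' : (u : ℤ) < 2 ^ m := by exact_mod_cast hu
    have hp : (0 : ℤ) < 2 ^ m := by positivity
    rw [abs_mul, Nat.abs_cast, pow_add]
    have hu0 : (0 : ℤ) ≤ u := by positivity
    rcases eq_or_lt_of_le hu0 with h0 | h0
    · rw [← h0, mul_zero]; positivity
    · nlinarith [abs_nonneg d]
  -- leftmost point
  have key : ∃ l : ℤ, ∀ u : ℕ, u < 2 ^ m →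
      (c + d * (q + (u : ℤ))) / 2 ^ (m + 7) = l ∨ (c + d * (q + (u : ℤ))) / 2 ^ (m + 7) = l + 1 := by
    rcases lt_or_gt_of_ne hd with hneg | hpos
    · refine ⟨(c + d * q + 1 - 2 ^ (m + 7)) / 2 ^ (m + 7), fun u hu => ?_⟩
      have h := h27 u hu
      rw [abs_of_nonpos (mul_nonpos_of_nonpos_of_nonneg hneg.le (by positivity))] at h
      have h0 : d * (u : ℤ) ≤ 0 := mul_nonpos_of_nonpos_of_nonneg hneg.le (by positivity)
      refine div_range ?_ ?_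
      · rw [mul_add]; linarith
      · rw [mul_add]; linarith
    · refine ⟨(c + d * q) / 2 ^ (m + 7), fun u hu => ?_⟩
      have h := h27 u hu
      rw [abs_of_nonneg (mul_nonneg hpos.le (by positivity))] at h
      have h0 : 0 ≤ d * (u : ℤ) := mul_nonneg hpos.le (by positivity)
      refine div_range ?_ ?_
      · rw [mul_add]; linarith
      · rw [mul_add]; linarith
  obtain ⟨l, hl⟩ := key
  refine al_exit hM hτ hδ hG m (range (2 ^ m)) (fun u : ℕ => c + d * (q + (u : ℤ))) ?_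
    (fun u : ℕ => β (q + (u : ℤ))) l ?_
  · intro a _ b _ hab
    have : d * (q + (a : ℤ)) = d * (q + (b : ℤ)) := by
      have := hab; simp only at this; linarith
    have := mul_left_cancel₀ hd this
    have : (a : ℤ) = b := by linarith
    exact_mod_cast this
  · intro u hu hb
    have hu' := Finset.mem_range.1 hu
    refine ⟨_, hc u hu' hb, ?_, mem_dI_div _⟩
    rcases hl u hu' with h | h
    · left; rw [h]
    · right; rw [h]

/-- **EXIT VALUE, B SIDE** (Gram of one alive node) -/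
theorem be_exit {T : Finset (ℕ × ℤ)} {v : ℤ → ι → ℂ} {M : Matrix ι ι ℂ} {δ τ : ℝ}
    (hG : GrL T v M δ) (p : ℕ × ℤ) (hp : p ∈ T) (x : ι → ℂ) :
    qf (met M τ) x ≤ gf v p x + (δ + τ) * n2 x := by
  rw [qf_met]
  have := hG p hp x
  linarith

lemma star_wv_dot {κ : Type*} (s : Finset κ) (a : ℝ) (β : κ → ℂ) (w : κ → ι → ℂ) (z : ι → ℂ) :
    star (wv s (fun k => (a : ℂ) * β k) w) ⬝ᵥ z =
      (a : ℂ) * ∑ k ∈ s, star (β k) * (star (w k) ⬝ᵥ z) := by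
  unfold wv dotProduct
  simp only [Finset.mul_sum, Pi.star_apply, star_sum, star_mul', Finset.sum_mul, RCLike.star_def,
    Complex.conj_ofReal]
  rw [Finset.sum_comm]
  exact Finset.sum_congr rfl fun k _ => Finset.sum_congr rfl fun i _ => by ring

/-- **EXIT VALUE, B SIDE, LINE MODEL**: `K z z' = ⟨w z, v (c + d z')⟩ + Er z z'` for the points of the
node `p`, `v = 0` off the progression `c + d ℤ`. -/
theorem be_line {T : Finset (ℕ × ℤ)} {v : ℤ → ι → ℂ} {M : Matrix ι ι ℂ} {δ τ H : ℝ}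
    (hδτ : 0 ≤ δ + τ) (hG : GrL T v M δ) (p : ℕ × ℤ) (hp : p ∈ T) (m : ℕ) (q c d : ℤ) (hd : d ≠ 0)
    (β : ℤ → ℂ) (w : ℤ → ι → ℂ) (K Er : ℤ → ℤ → ℂ) (X : Finset ℤ)
    (hX : ∀ y ∈ dI (p.1 + 7) p.2, v y ≠ 0 → ∃ z ∈ X, y = c + d * z)
    (hK : ∀ u : ℕ, u < 2 ^ m → β (q + (u : ℤ)) ≠ 0 → ∀ z ∈ X,
      star (w (q + (u : ℤ))) ⬝ᵥ v (c + d * z) = K (q + (u : ℤ)) z - Er (q + (u : ℤ)) z)
    (hw : ∀ u : ℕ, u < 2 ^ m → β (q + (u : ℤ)) ≠ 0 → n2 (w (q + (u : ℤ))) ≤ H) :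
    qf (met M τ) (bav m q β w) ≤
      2 * ((1 / ln p) * ∑ z ∈ X, ‖(1 / 2 ^ m : ℂ) * ∑ u ∈ range (2 ^ m),
          star (β (q + (u : ℤ))) * K (q + (u : ℤ)) z‖ ^ 2) +
      2 * ((1 / ln p) * ∑ z ∈ X, ‖(1 / 2 ^ m : ℂ) * ∑ u ∈ range (2 ^ m),
          star (β (q + (u : ℤ))) * Er (q + (u : ℤ)) z‖ ^ 2) +
      (δ + τ) * (H * ((1 / 2 ^ m) * ∑ u ∈ range (2 ^ m), ‖β (q + (u : ℤ))‖ ^ 2)) := by
  classical
  have h1 := be_exit (τ := τ) hG p hp (bav m q β w)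
  have hn : n2 (bav m q β w) ≤
      H * ((1 / 2 ^ m) * ∑ u ∈ range (2 ^ m), ‖β (q + (u : ℤ))‖ ^ 2) := by
    refine (n2_wv_le (range (2 ^ m)) (1 / 2 ^ m) (fun u : ℕ => β (q + (u : ℤ)))
      (fun u : ℕ => w (q + (u : ℤ)))).trans ?_
    rw [Finset.card_range]
    have e : (1 / 2 ^ m : ℝ) * ((2 ^ m : ℕ) : ℝ) = 1 := by push_cast; field_simp
    rw [e, one_mul, Finset.mul_sum, Finset.mul_sum, Finset.mul_sum]
    refine Finset.sum_le_sum fun u hu => ?_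
    have hb : ‖β (q + (u : ℤ))‖ ^ 2 * n2 (w (q + (u : ℤ))) ≤ H * ‖β (q + (u : ℤ))‖ ^ 2 := by
      by_cases hz : β (q + (u : ℤ)) = 0
      · rw [hz]; simp
      · rw [mul_comm H]
        exact mul_le_mul_of_nonneg_left (hw u (Finset.mem_range.1 hu) hz) (by positivity)
    calc (1 / 2 ^ m : ℝ) * (‖β (q + (u : ℤ))‖ ^ 2 * n2 (w (q + (u : ℤ))))
        ≤ (1 / 2 ^ m : ℝ) * (H * ‖β (q + (u : ℤ))‖ ^ 2) := mul_le_mul_of_nonneg_left hb (by positivity)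
      _ = _ := by ring
  have hgf : gf v p (bav m q β w) ≤ (1 / ln p) * ∑ z ∈ X,
      ‖star (bav m q β w) ⬝ᵥ v (c + d * z)‖ ^ 2 := by
    unfold gf
    refine mul_le_mul_of_nonneg_left ?_ (by have := ln_pos p; positivity)
    have hinj : Set.InjOn (fun z : ℤ => c + d * z) (X : Set ℤ) := by
      intro a _ b _ hab
      have : d * a = d * b := by simp only at hab; linarith
      exact mul_left_cancel₀ hd this
    have e3 : ∑ z ∈ X, ‖star (bav m q β w) ⬝ᵥ v (c + d * z)‖ ^ 2 =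
        ∑ y ∈ X.image (fun z : ℤ => c + d * z), ‖star (bav m q β w) ⬝ᵥ v y‖ ^ 2 := by
      rw [Finset.sum_image hinj]
    rw [e3]
    rw [← Finset.sum_filter_add_sum_filter_not (dI (p.1 + 7) p.2) (fun y => v y ≠ 0)]
    have h0 : ∑ y ∈ (dI (p.1 + 7) p.2).filter (fun y => ¬ v y ≠ 0),
        ‖star (bav m q β w) ⬝ᵥ v y‖ ^ 2 = 0 := by
      refine Finset.sum_eq_zero fun y hy => ?_
      have := (Finset.mem_filter.1 hy).2
      push Not at this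
      rw [this]; simp
    rw [h0, add_zero]
    refine Finset.sum_le_sum_of_subset_of_nonneg ?_ fun _ _ _ => by positivity
    intro y hy
    obtain ⟨hy1, hy2⟩ := Finset.mem_filter.1 hy
    obtain ⟨z, hz, rfl⟩ := hX y hy1 hy2
    exact Finset.mem_image.2 ⟨z, hz, rfl⟩
  have hdot : ∀ z ∈ X, ‖star (bav m q β w) ⬝ᵥ v (c + d * z)‖ ^ 2 ≤
      2 * ‖(1 / 2 ^ m : ℂ) * ∑ u ∈ range (2 ^ m),
          star (β (q + (u : ℤ))) * K (q + (u : ℤ)) z‖ ^ 2 +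
      2 * ‖(1 / 2 ^ m : ℂ) * ∑ u ∈ range (2 ^ m),
          star (β (q + (u : ℤ))) * Er (q + (u : ℤ)) z‖ ^ 2 := by
    intro z hz
    have e : star (bav m q β w) ⬝ᵥ v (c + d * z) =
        (1 / 2 ^ m : ℂ) * ∑ u ∈ range (2 ^ m), star (β (q + (u : ℤ))) * K (q + (u : ℤ)) z -
        (1 / 2 ^ m : ℂ) * ∑ u ∈ range (2 ^ m), star (β (q + (u : ℤ))) * Er (q + (u : ℤ)) z := by
      unfold bav
      rw [star_wv_dot, ← mul_sub, ← Finset.sum_sub_distrib]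
      congr 1
      · push_cast; rfl
      · refine Finset.sum_congr rfl fun u hu => ?_
        by_cases hb : β (q + (u : ℤ)) = 0
        · rw [hb]; simp
        · rw [hK u (Finset.mem_range.1 hu) hb z hz]; ring
    rw [e]
    generalize (1 / 2 ^ m : ℂ) * ∑ u ∈ range (2 ^ m), star (β (q + (u : ℤ))) * K (q + (u : ℤ)) z = a
    generalize (1 / 2 ^ m : ℂ) * ∑ u ∈ range (2 ^ m), star (β (q + (u : ℤ))) * Er (q + (u : ℤ)) z = b
    have := norm_sub_le a b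
    nlinarith [norm_nonneg a, norm_nonneg b, norm_nonneg (a - b), sq_nonneg (‖a‖ - ‖b‖)]
  have h2 : (1 / ln p) * ∑ z ∈ X, ‖star (bav m q β w) ⬝ᵥ v (c + d * z)‖ ^ 2 ≤
      2 * ((1 / ln p) * ∑ z ∈ X, ‖(1 / 2 ^ m : ℂ) * ∑ u ∈ range (2 ^ m),
          star (β (q + (u : ℤ))) * K (q + (u : ℤ)) z‖ ^ 2) +
      2 * ((1 / ln p) * ∑ z ∈ X, ‖(1 / 2 ^ m : ℂ) * ∑ u ∈ range (2 ^ m),
          star (β (q + (u : ℤ))) * Er (q + (u : ℤ)) z‖ ^ 2) := by
    have h3 := mul_le_mul_of_nonneg_left (Finset.sum_le_sum hdot)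
      (by have := ln_pos p; positivity : (0 : ℝ) ≤ 1 / ln p)
    refine h3.trans (le_of_eq ?_)
    rw [Finset.sum_add_distrib, ← Finset.mul_sum, ← Finset.mul_sum]
    ring
  have h4 := mul_le_mul_of_nonneg_left hn hδτ
  linarith

end Crest.Agent.R079.LeafV71
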