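import Crest.Agent.R079.Tr_230

/-! R079, STEP II of doc 2531 in the LINE model (helper230), part 2: a finite combination of line atoms
is an exact mixture with ONE finite label type; pointwise price on every edge. -/

set_option autoImplicit false

namespace Crest.Agent.R079.Tr230

open Finset Crest.Agent.R079.Grid Crest.Agent.R079.Glue

/-- data of a line atom -/
structure AtD where
  /-- weight -/
  κ : ℝ
  /-- supports -/
  T : Fin 3 → Finset ℤ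
  /-- edges -/
  a : ℤ → ℤ → ℂ
  b : ℤ → ℤ → ℂ
  c : ℤ → ℤ → ℂ
  hκ : 0 ≤ κ

/-- the line atom -/
noncomputable def AtD.at (A : AtD) (j : Fin 4) : ℤ → ℂ := atom j A.κ A.T A.a A.b A.c

/-- `κ Σ |a|^r` -/
noncomputable def AtD.p01 (A : AtD) (r : ℕ) : ℝ := A.κ * ∑ x ∈ A.T 0, ∑ x' ∈ A.T 1, ‖A.a x x'‖ ^ r
noncomputable def AtD.p12 (A : AtD) (r : ℕ) : ℝ := A.κ * ∑ x ∈ A.T 1, ∑ x' ∈ A.T 2, ‖A.b x x'‖ ^ r
noncomputable def AtD.p20 (A : AtD) (r : ℕ) : ℝ := A.κ * ∑ x ∈ A.T 2, ∑ x' ∈ A.T 0, ‖A.c x x'‖ ^ r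

/-- unit phase -/
noncomputable def ph (c : ℂ) : ℂ := if c = 0 then 1 else c / (‖c‖ : ℂ)

lemma norm_ph (c : ℂ) : ‖ph c‖ = 1 := by
  unfold ph
  split_ifs with h
  · simp
  · rw [norm_div, Complex.norm_real, norm_norm, div_self (norm_ne_zero_iff.2 h)]

lemma ph_mul (c : ℂ) : (‖c‖ : ℂ) * ph c = c := by
  unfold ph
  split_ifs with h
  · simp [h]
  · have : (‖c‖ : ℂ) ≠ 0 := by exact_mod_cast norm_ne_zero_iff.2 h
    field_simp

/-- **ONE LABEL TYPE for a finite combination of line atoms**: exact on every finite set `Z` of points,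
labels = (atom, translate); `lam ≥ 0`, edges = translated edges (times a unimodular constant on the
edge `01`), pointwise prices. -/
theorem mixture (j : Fin 4) (n : ℕ) (A : Fin n → AtD) (c : Fin n → ℂ) (Z : Finset (ℤ × ℤ × ℤ)) :
    ∃ (ι : Type) (_ : Fintype ι) (lam : ι → ℝ) (al be ga : ι → ℤ → ℤ → ℂ) (at' : ι → Fin n)
      (sh : ι → ℤ × ℤ × ℤ), (∀ l, lam l = ‖c (at' l)‖ * (A (at' l)).κ) ∧ (∀ l, 0 ≤ lam l) ∧
      (∀ l, cfz j (sh l) = 0) ∧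
      (∀ l x y, al l x y = ph (c (at' l)) *
        kT ((A (at' l)).T 0) ((A (at' l)).T 1) (A (at' l)).a (x + (sh l).1) (y + (sh l).2.1)) ∧
      (∀ l x y, be l x y =
        kT ((A (at' l)).T 1) ((A (at' l)).T 2) (A (at' l)).b (x + (sh l).2.1) (y + (sh l).2.2)) ∧
      (∀ l x y, ga l x y =
        kT ((A (at' l)).T 2) ((A (at' l)).T 0) (A (at' l)).c (x + (sh l).2.2) (y + (sh l).1)) ∧
      (∀ z ∈ Z, ∑ i, c i * (A i).at j (cfz j z) =
        ∑ l, (lam l : ℂ) * (al l z.1 z.2.1 * be l z.2.1 z.2.2 * ga l z.2.2 z.1)) ∧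
      (∀ r : ℕ, r ≠ 0 → ∀ x y, ∑ l, lam l * ‖al l x y‖ ^ r ≤ ∑ i, ‖c i‖ * (A i).p01 r) ∧
      (∀ r : ℕ, r ≠ 0 → ∀ x y, ∑ l, lam l * ‖be l x y‖ ^ r ≤ ∑ i, ‖c i‖ * (A i).p12 r) ∧
      (∀ r : ℕ, r ≠ 0 → ∀ x y, ∑ l, lam l * ‖ga l x y‖ ^ r ≤ ∑ i, ‖c i‖ * (A i).p20 r) := by
  classical
  refine ⟨Σ i : Fin n, {s // s ∈ Sh j (A i).T Z}, inferInstance,
    fun l => ‖c l.1‖ * (A l.1).κ,
    fun l x y => ph (c l.1) * kT ((A l.1).T 0) ((A l.1).T 1) (A l.1).a (x + l.2.1.1) (y + l.2.1.2.1),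
    fun l x y => kT ((A l.1).T 1) ((A l.1).T 2) (A l.1).b (x + l.2.1.2.1) (y + l.2.1.2.2),
    fun l x y => kT ((A l.1).T 2) ((A l.1).T 0) (A l.1).c (x + l.2.1.2.2) (y + l.2.1.1),
    fun l => l.1, fun l => l.2.1, fun l => rfl,
    fun l => mul_nonneg (norm_nonneg _) (A l.1).hκ, fun l => Sh_plane l.2.2,
    fun _ _ _ => rfl, fun _ _ _ => rfl, fun _ _ _ => rfl, ?_, ?_, ?_, ?_⟩
  · intro z hz
    rw [Fintype.sum_sigma]
    refine Finset.sum_congr rfl fun i _ => ?_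
    rw [show (A i).at j (cfz j z) = atom j (A i).κ (A i).T (A i).a (A i).b (A i).c (cfz j z) from rfl,
      atom_translates j (A i).κ (A i).T (A i).a (A i).b (A i).c Z (Sh j (A i).T Z) (Finset.Subset.refl _)
        (fun s hs => Sh_plane hs) hz, Finset.mul_sum, Finset.mul_sum, ← Finset.sum_coe_sort]
    refine Finset.sum_congr rfl fun s _ => ?_
    have h := ph_mul (c i)
    simp only
    push_cast
    calc _ = ((‖c i‖ : ℂ) * ph (c i)) * (((A i).κ : ℂ) * (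
          kT ((A i).T 0) ((A i).T 1) (A i).a (z.1 + s.1.1) (z.2.1 + s.1.2.1) *
          kT ((A i).T 1) ((A i).T 2) (A i).b (z.2.1 + s.1.2.1) (z.2.2 + s.1.2.2) *
          kT ((A i).T 2) ((A i).T 0) (A i).c (z.2.2 + s.1.2.2) (z.1 + s.1.1))) := by rw [h]
      _ = _ := by ring
  · intro r hr x y
    rw [Fintype.sum_sigma]
    refine Finset.sum_le_sum fun i _ => ?_
    have h := price01 (j := j) (S := Sh j (A i).T Z) (fun s hs => Sh_plane hs) ((A i).T 0) ((A i).T 1)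
      (A i).a r hr x y
    rw [← Finset.sum_coe_sort] at h
    simp only [norm_mul, norm_ph, one_mul, mul_assoc]
    rw [← Finset.mul_sum, ← Finset.mul_sum]
    unfold AtD.p01
    exact mul_le_mul_of_nonneg_left (mul_le_mul_of_nonneg_left h (A i).hκ) (norm_nonneg _)
  · intro r hr x y
    rw [Fintype.sum_sigma]
    refine Finset.sum_le_sum fun i _ => ?_
    have h := price12 (j := j) (S := Sh j (A i).T Z) (fun s hs => Sh_plane hs) ((A i).T 1) ((A i).T 2)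
      (A i).b r hr x y
    rw [← Finset.sum_coe_sort] at h
    simp only [mul_assoc]
    rw [← Finset.mul_sum, ← Finset.mul_sum]
    unfold AtD.p12
    exact mul_le_mul_of_nonneg_left (mul_le_mul_of_nonneg_left h (A i).hκ) (norm_nonneg _)
  · intro r hr x y
    rw [Fintype.sum_sigma]
    refine Finset.sum_le_sum fun i _ => ?_
    have h := price20 (j := j) (S := Sh j (A i).T Z) (fun s hs => Sh_plane hs) ((A i).T 2) ((A i).T 0)
      (A i).c r hr x y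
    rw [← Finset.sum_coe_sort] at h
    simp only [mul_assoc]
    rw [← Finset.mul_sum, ← Finset.mul_sum]
    unfold AtD.p20
    exact mul_le_mul_of_nonneg_left (mul_le_mul_of_nonneg_left h (A i).hκ) (norm_nonneg _)

/-- bounded edges: the pointwise price is at most `κ #T #T'` -/
lemma AtD.p01_le {A : AtD} {L : ℝ} (h : ∀ x ∈ A.T 0, ∀ y ∈ A.T 1, ‖A.a x y‖ ≤ 1)
    (h0 : ((A.T 0).card : ℝ) ≤ L) (h1 : ((A.T 1).card : ℝ) ≤ L) (r : ℕ) :
    A.p01 r ≤ A.κ * L ^ 2 := by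
  unfold AtD.p01
  refine mul_le_mul_of_nonneg_left ?_ A.hκ
  calc ∑ x ∈ A.T 0, ∑ x' ∈ A.T 1, ‖A.a x x'‖ ^ r ≤ ∑ _x ∈ A.T 0, ∑ _x' ∈ A.T 1, (1 : ℝ) :=
        Finset.sum_le_sum fun x hx => Finset.sum_le_sum fun y hy =>
          pow_le_one₀ (norm_nonneg _) (h x hx y hy)
    _ = ((A.T 0).card : ℝ) * (A.T 1).card := by simp
    _ ≤ L * L := mul_le_mul h0 h1 (Nat.cast_nonneg _) (le_trans (Nat.cast_nonneg _) h0)
    _ = L ^ 2 := by ring

lemma AtD.p12_le {A : AtD} {L : ℝ} (h : ∀ x ∈ A.T 1, ∀ y ∈ A.T 2, ‖A.b x y‖ ≤ 1)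
    (h0 : ((A.T 1).card : ℝ) ≤ L) (h1 : ((A.T 2).card : ℝ) ≤ L) (r : ℕ) :
    A.p12 r ≤ A.κ * L ^ 2 := by
  unfold AtD.p12
  refine mul_le_mul_of_nonneg_left ?_ A.hκ
  calc ∑ x ∈ A.T 1, ∑ x' ∈ A.T 2, ‖A.b x x'‖ ^ r ≤ ∑ _x ∈ A.T 1, ∑ _x' ∈ A.T 2, (1 : ℝ) :=
        Finset.sum_le_sum fun x hx => Finset.sum_le_sum fun y hy =>
          pow_le_one₀ (norm_nonneg _) (h x hx y hy)
    _ = ((A.T 1).card : ℝ) * (A.T 2).card := by simp
    _ ≤ L * L := mul_le_mul h0 h1 (Nat.cast_nonneg _) (le_trans (Nat.cast_nonneg _) h0)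
    _ = L ^ 2 := by ring

lemma AtD.p20_le {A : AtD} {L : ℝ} (h : ∀ x ∈ A.T 2, ∀ y ∈ A.T 0, ‖A.c x y‖ ≤ 1)
    (h0 : ((A.T 2).card : ℝ) ≤ L) (h1 : ((A.T 0).card : ℝ) ≤ L) (r : ℕ) :
    A.p20 r ≤ A.κ * L ^ 2 := by
  unfold AtD.p20
  refine mul_le_mul_of_nonneg_left ?_ A.hκ
  calc ∑ x ∈ A.T 2, ∑ x' ∈ A.T 0, ‖A.c x x'‖ ^ r ≤ ∑ _x ∈ A.T 2, ∑ _x' ∈ A.T 0, (1 : ℝ) :=
        Finset.sum_le_sum fun x hx => Finset.sum_le_sum fun y hy =>
          pow_le_one₀ (norm_nonneg _) (h x hx y hy)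
    _ = ((A.T 2).card : ℝ) * (A.T 0).card := by simp
    _ ≤ L * L := mul_le_mul h0 h1 (Nat.cast_nonneg _) (le_trans (Nat.cast_nonneg _) h0)
    _ = L ^ 2 := by ring

end Crest.Agent.R079.Tr230
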