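import Crest.Agent.R079.PerT_530
import Crest.Agent.R079.Tr2_230
import Crest.Agent.R079.LeafV_71

/-! R079 Step II: label vectors `w`, `V` of `Wr_408.wr_total` from the labels of `PerT_530`. helper530. -/

set_option autoImplicit false

namespace Crest.Agent.R079.Lab530

open Finset Matrix Crest.Agent.R079.Grid Crest.Agent.R079.Tr230 Crest.Agent.R079.PerT530
  Crest.Agent.R079.St2

variable (T : Fin 3 → Finset ℤ) (g : Fin 3 → ℤ → ℤ → ℂ) {n : ℕ} (u v : Fin n → ℤ → ℤ → ℂ)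
  (d : Fin n → ℂ) (S : Finset (ℤ × ℤ × ℤ)) (r : ℤ)

/-- label vector on the `z` side -/
noncomputable def wl (z : ℤ) (q : {s // s ∈ S} × Fin n) : ℂ :=
  star ((Real.sqrt ‖d q.2‖ : ℂ) * al T g (u q.2) r q.1.1 z)

/-- label vector on the `z'` side -/
noncomputable def vl (z' : ℤ) (q : {s // s ∈ S} × Fin n) : ℂ :=
  ph (d q.2) * (Real.sqrt ‖d q.2‖ : ℂ) * be T g (v q.2) r q.1.1 z'

theorem lab_dot (z z' : ℤ) : star (wl T g u d S r z) ⬝ᵥ vl T g v d S r z' =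
    ∑ s ∈ S, ∑ l, d l * (al T g (u l) r s z * be T g (v l) r s z') := by
  unfold dotProduct
  rw [Fintype.sum_prod_type, ← Finset.sum_coe_sort S]
  refine Finset.sum_congr rfl fun s _ => Finset.sum_congr rfl fun l _ => ?_
  simp only [Pi.star_apply, wl, vl, star_star]
  have h1 : (Real.sqrt ‖d l‖ : ℂ) * (Real.sqrt ‖d l‖ : ℂ) = (‖d l‖ : ℂ) := by
    rw [← Complex.ofReal_mul, Real.mul_self_sqrt (norm_nonneg _)]
  have h2 := ph_mul (d l)
  calc _ = ((Real.sqrt ‖d l‖ : ℂ) * (Real.sqrt ‖d l‖ : ℂ)) * ph (d l) *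
        (al T g (u l) r s.1 z * be T g (v l) r s.1 z') := by ring
    _ = _ := by rw [h1, h2]

theorem n2_wl {j : Fin 4} (hS0 : ∀ s ∈ S, cfz j s = 0) (hu : ∀ l w z, ‖u l w z‖ ≤ 1) (z : ℤ) :
    n2 (wl T g u d S r z) ≤ (∑ l, ‖d l‖) * ∑ x ∈ T 2, ∑ x' ∈ T 0, ‖g 2 x x'‖ ^ 2 := by
  unfold n2
  rw [Fintype.sum_prod_type_right, Finset.sum_mul]
  refine Finset.sum_le_sum fun l _ => ?_
  have e : ∑ s : {s // s ∈ S}, ‖wl T g u d S r z (s, l)‖ ^ 2 =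
      ‖d l‖ * ∑ s ∈ S, ‖al T g (u l) r s z‖ ^ 2 := by
    rw [Finset.mul_sum, ← Finset.sum_coe_sort S]
    refine Finset.sum_congr rfl fun s _ => ?_
    simp only [wl]
    rw [norm_star, norm_mul, mul_pow, Complex.norm_real, Real.norm_of_nonneg (Real.sqrt_nonneg _),
      Real.sq_sqrt (norm_nonneg _)]
  rw [e]
  exact mul_le_mul_of_nonneg_left (sum_al_le T g (u l) (hu l) r hS0 z) (norm_nonneg _)

theorem n2_vl {j : Fin 4} (hS0 : ∀ s ∈ S, cfz j s = 0) (hv : ∀ l w z, ‖v l w z‖ ≤ 1) (z' : ℤ) :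
    n2 (vl T g v d S r z') ≤ (∑ l, ‖d l‖) * ∑ x ∈ T 1, ∑ x' ∈ T 2, ‖g 1 x x'‖ ^ 2 := by
  unfold n2
  rw [Fintype.sum_prod_type_right, Finset.sum_mul]
  refine Finset.sum_le_sum fun l _ => ?_
  have e : ∑ s : {s // s ∈ S}, ‖vl T g v d S r z' (s, l)‖ ^ 2 =
      ‖d l‖ * ∑ s ∈ S, ‖be T g (v l) r s z'‖ ^ 2 := by
    rw [Finset.mul_sum, ← Finset.sum_coe_sort S]
    refine Finset.sum_congr rfl fun s _ => ?_
    simp only [vl]
    rw [norm_mul, norm_mul, norm_ph, one_mul, mul_pow, Complex.norm_real,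
      Real.norm_of_nonneg (Real.sqrt_nonneg _), Real.sq_sqrt (norm_nonneg _)]
  rw [e]
  exact mul_le_mul_of_nonneg_left (sum_be_le T g (v l) (hv l) r hS0 z') (norm_nonneg _)

end Crest.Agent.R079.Lab530
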