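import Crest.Agent.R079.Proj_440

/-! R079 Step I, leaf (e), tree-free (59's 28031 (3)): ladder of nested projections, Euler-Lagrange
identity and the swap of the frames from the top calculus of the own letter to the exit letter.
helper440. -/

set_option autoImplicit false

namespace Crest.Agent.R079.Lad440

open Finset Crest.Agent.R079.Proj440

local notation "⟪" x ", " y "⟫" => inner ℝ x y

section lad

variable {E : Type*} [NormedAddCommGroup E] [InnerProductSpace ℝ E]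
  {K : ℕ → Set E} {P : ℕ → E → E}

/-- the part between the thresholds -/
def chi (P : E → E) (C : E) : E := C - P C

omit [InnerProductSpace ℝ E] in
/-- ladder telescoping: `A - P_j A = Σ_{l ≥ j} chi_l (P_{l+1} A)` -/
theorem ladder_eq {n : ℕ} {A : E} (hcomp : ∀ l < n, P l (P (l + 1) A) = P l A)
    (htop : P n A = A) {j : ℕ} (hj : j ≤ n) :
    A - P j A = ∑ l ∈ Finset.Ico j n, chi (P l) (P (l + 1) A) := by
  have h1 : ∀ l ∈ Finset.Ico j n, chi (P l) (P (l + 1) A) = P (l + 1) A - P l A := by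
    intro l hl
    unfold chi
    rw [hcomp l (Finset.mem_Ico.1 hl).2]
  rw [Finset.sum_congr rfl h1, Finset.sum_Ico_sub (fun l => P l A) hj, htop]

/-- swap: replace the intermediate truncations by arbitrary `C_{l+1}` -/
theorem ladder_swap (hP : ∀ l, IsPj (K l) (P l)) {n : ℕ} {A : E}
    (hcomp : ∀ l < n, P l (P (l + 1) A) = P l A) (htop : P n A = A) {j : ℕ} (hj : j ≤ n)
    (C : ℕ → E) :
    ‖(A - P j A) - ∑ l ∈ Finset.Ico j n, chi (P l) (C (l + 1))‖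
      ≤ ∑ l ∈ Finset.Ico j n, ‖P (l + 1) A - C (l + 1)‖ := by
  rw [ladder_eq hcomp htop hj, ← Finset.sum_sub_distrib]
  refine (norm_sum_le _ _).trans (Finset.sum_le_sum fun l _ => ?_)
  exact lip_res (hP l) (P (l + 1) A) (C (l + 1))

/-- the total of the residuals against the swapped ladder, squared -/
theorem ladder_sq (hP : ∀ l, IsPj (K l) (P l)) {n : ℕ} {A : E}
    (hcomp : ∀ l < n, P l (P (l + 1) A) = P l A) (htop : P n A = A) (C : ℕ → E) :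
    ∑ j ∈ Finset.range (n + 1),
        ‖(A - P j A) - ∑ l ∈ Finset.Ico j n, chi (P l) (C (l + 1))‖ ^ 2
      ≤ ((n : ℝ) + 1) * (n * ∑ l ∈ Finset.range n, ‖P (l + 1) A - C (l + 1)‖ ^ 2) := by
  have h1 : ∀ j ∈ Finset.range (n + 1),
      ‖(A - P j A) - ∑ l ∈ Finset.Ico j n, chi (P l) (C (l + 1))‖ ^ 2
        ≤ n * ∑ l ∈ Finset.range n, ‖P (l + 1) A - C (l + 1)‖ ^ 2 := by
    intro j hj
    have hj' : j ≤ n := Nat.lt_succ_iff.1 (Finset.mem_range.1 hj)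
    have h2 := ladder_swap hP hcomp htop hj' C
    have h3 : ∑ l ∈ Finset.Ico j n, ‖P (l + 1) A - C (l + 1)‖
        ≤ ∑ l ∈ Finset.range n, ‖P (l + 1) A - C (l + 1)‖ := by
      refine Finset.sum_le_sum_of_subset_of_nonneg (fun l hl => ?_) fun _ _ _ => norm_nonneg _
      exact Finset.mem_range.2 (Finset.mem_Ico.1 hl).2
    have h4 : (∑ l ∈ Finset.range n, ‖P (l + 1) A - C (l + 1)‖) ^ 2
        ≤ (Finset.range n).card * ∑ l ∈ Finset.range n, ‖P (l + 1) A - C (l + 1)‖ ^ 2 :=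
      sq_sum_le_card_mul_sum_sq
    rw [Finset.card_range] at h4
    exact (pow_le_pow_left₀ (norm_nonneg _) (h2.trans h3) 2).trans h4
  refine (Finset.sum_le_sum h1).trans (le_of_eq ?_)
  rw [Finset.sum_const, Finset.card_range, nsmul_eq_mul]
  push_cast
  ring

end lad

section el

variable {G : Type*} [NormedAddCommGroup G] [InnerProductSpace ℝ G]
  {ι : Type*} {E : ι → Type*} [∀ i, NormedAddCommGroup (E i)] [∀ i, InnerProductSpace ℝ (E i)]
  {s : Finset ι} {c : ι → ℝ} {T : ∀ i, G →ₗ[ℝ] E i} {P : ∀ i, E i → E i}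
  {K : ∀ i, Set (E i)} {X g₀ : G}

/-- **Euler-Lagrange identity** at the free minimiser -/
theorem el_eq (hc : ∀ i ∈ s, 0 ≤ c i) (hP : ∀ i ∈ s, IsPj (K i) (P i))
    (hmin : ∀ g, Fv s c T P X g₀ ≤ Fv s c T P X g) (h : G) :
    ⟪X - g₀, h⟫ = ∑ i ∈ s, c i * ⟪T i g₀ - P i (T i g₀), T i h⟫ := by
  have h1 := el_le (W := Set.univ) hc hP convex_univ (Set.mem_univ g₀) (fun g _ => hmin g)
    (Set.mem_univ (g₀ + h))
  have h2 := el_le (W := Set.univ) hc hP convex_univ (Set.mem_univ g₀) (fun g _ => hmin g)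
    (Set.mem_univ (g₀ - h))
  rw [add_sub_cancel_left] at h1
  have e : g₀ - h - g₀ = -h := by abel
  rw [e] at h2
  simp only [map_neg, inner_neg_right, mul_neg, Finset.sum_neg_distrib] at h2
  linarith

/-- replacement of the residuals by arbitrary kernels `Z` and of the minimiser by `g₁` -/
theorem el_replace (hc : ∀ i ∈ s, 0 ≤ c i) (hP : ∀ i ∈ s, IsPj (K i) (P i))
    (hmin : ∀ g, Fv s c T P X g₀ ≤ Fv s c T P X g) {B : ℝ} (hB0 : 0 ≤ B)
    (hB : ∀ g, ∑ i ∈ s, c i * ‖T i g‖ ^ 2 ≤ B * ‖g‖ ^ 2) (g₁ : G) (Z : ∀ i, E i) (h : G) :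
    |⟪X - g₁, h⟫ - ∑ i ∈ s, c i * ⟪Z i, T i h⟫|
      ≤ (‖g₁ - g₀‖ + Real.sqrt (B * ∑ i ∈ s, c i * ‖(T i g₀ - P i (T i g₀)) - Z i‖ ^ 2)) * ‖h‖ := by
  set R := ∑ i ∈ s, c i * ‖(T i g₀ - P i (T i g₀)) - Z i‖ ^ 2 with hR
  have hR0 : 0 ≤ R := Finset.sum_nonneg fun i hi => mul_nonneg (hc i hi) (sq_nonneg _)
  have e1 : ⟪X - g₁, h⟫ - ∑ i ∈ s, c i * ⟪Z i, T i h⟫
      = -⟪g₁ - g₀, h⟫ + ∑ i ∈ s, c i * ⟪(T i g₀ - P i (T i g₀)) - Z i, T i h⟫ := by
    have h1 := el_eq hc hP hmin h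
    have h2 : ⟪X - g₁, h⟫ = ⟪X - g₀, h⟫ - ⟪g₁ - g₀, h⟫ := by
      rw [← inner_sub_left]
      congr 1
      abel
    rw [h2, h1]
    have h3 : ∑ i ∈ s, c i * ⟪(T i g₀ - P i (T i g₀)) - Z i, T i h⟫
        = ∑ i ∈ s, c i * ⟪T i g₀ - P i (T i g₀), T i h⟫ - ∑ i ∈ s, c i * ⟪Z i, T i h⟫ := by
      rw [← Finset.sum_sub_distrib]
      refine Finset.sum_congr rfl fun i _ => ?_
      rw [inner_sub_left]
      ring
    rw [h3]
    ring
  have h2 : |∑ i ∈ s, c i * ⟪(T i g₀ - P i (T i g₀)) - Z i, T i h⟫|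
      ≤ Real.sqrt (B * R) * ‖h‖ := by
    have h3 : |∑ i ∈ s, c i * ⟪(T i g₀ - P i (T i g₀)) - Z i, T i h⟫|
        ≤ ∑ i ∈ s, Real.sqrt (c i) * ‖(T i g₀ - P i (T i g₀)) - Z i‖
            * (Real.sqrt (c i) * ‖T i h‖) := by
      refine (Finset.abs_sum_le_sum_abs _ _).trans (Finset.sum_le_sum fun i hi => ?_)
      rw [abs_mul, abs_of_nonneg (hc i hi)]
      have h4 := abs_real_inner_le_norm ((T i g₀ - P i (T i g₀)) - Z i) (T i h)
      have h5 := mul_le_mul_of_nonneg_left h4 (hc i hi)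
      have h6 := Real.mul_self_sqrt (hc i hi)
      calc c i * |⟪(T i g₀ - P i (T i g₀)) - Z i, T i h⟫|
          ≤ c i * (‖(T i g₀ - P i (T i g₀)) - Z i‖ * ‖T i h‖) := h5
        _ = (Real.sqrt (c i) * Real.sqrt (c i)) * (‖(T i g₀ - P i (T i g₀)) - Z i‖ * ‖T i h‖) := by
            rw [h6]
        _ = _ := by ring
    have h4 := Finset.sum_mul_sq_le_sq_mul_sq s
      (fun i => Real.sqrt (c i) * ‖(T i g₀ - P i (T i g₀)) - Z i‖)
      (fun i => Real.sqrt (c i) * ‖T i h‖)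
    have e2 : ∑ i ∈ s, (Real.sqrt (c i) * ‖(T i g₀ - P i (T i g₀)) - Z i‖) ^ 2 = R := by
      rw [hR]
      refine Finset.sum_congr rfl fun i hi => ?_
      rw [mul_pow, Real.sq_sqrt (hc i hi)]
    have e3 : ∑ i ∈ s, (Real.sqrt (c i) * ‖T i h‖) ^ 2 = ∑ i ∈ s, c i * ‖T i h‖ ^ 2 := by
      refine Finset.sum_congr rfl fun i hi => ?_
      rw [mul_pow, Real.sq_sqrt (hc i hi)]
    rw [e2, e3] at h4
    have h5 : R * ∑ i ∈ s, c i * ‖T i h‖ ^ 2 ≤ R * (B * ‖h‖ ^ 2) :=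
      mul_le_mul_of_nonneg_left (hB h) hR0
    have h6 : (Real.sqrt (B * R) * ‖h‖) ^ 2 = R * (B * ‖h‖ ^ 2) := by
      rw [mul_pow, Real.sq_sqrt (mul_nonneg hB0 hR0)]
      ring
    refine h3.trans (abs_le_of_sq_le_sq' ?_ (by positivity)).2
    rw [h6]
    exact h4.trans h5
  rw [e1, add_mul]
  refine (abs_add_le _ _).trans (add_le_add ?_ h2)
  rw [abs_neg]
  exact abs_real_inner_le_norm _ _

end el

/-! ### the family: gauges times thresholds -/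

section fam

variable {G : Type*} [NormedAddCommGroup G] [InnerProductSpace ℝ G]
  {γ : Type*} {E : γ → Type*} [∀ w, NormedAddCommGroup (E w)] [∀ w, InnerProductSpace ℝ (E w)]

/-- index set -/
def ix (s : Finset γ) (n : ℕ) : Finset (γ × ℕ) := s ×ˢ Finset.range (n + 1)

variable {s : Finset γ} {n : ℕ} {c : γ → ℝ} {T : ∀ w, G →ₗ[ℝ] E w}
  {P P' : ∀ w, ℕ → E w → E w} {K K' : ∀ w, ℕ → Set (E w)} {X g₀ g₁ : G}

/-- the functional with all thresholds -/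
noncomputable def FvL (s : Finset γ) (n : ℕ) (c : γ → ℝ) (T : ∀ w, G →ₗ[ℝ] E w)
    (P : ∀ w, ℕ → E w → E w) (X g : G) : ℝ :=
  Fv (E := fun i : γ × ℕ => E i.1) (ix s n) (fun i => c i.1) (fun i => T i.1)
    (fun i => P i.1 i.2) X g

/-- the swapped kernel of the gauge `w`: `Σ_j Σ_{l ≥ j} chi_l (C_{l+1})` is the sum over `j` of -/
noncomputable def Zl (P : ∀ w, ℕ → E w → E w) (n : ℕ) (C : ∀ w, ℕ → E w) (w : γ) (j : ℕ) : E w :=
  ∑ l ∈ Finset.Ico j n, chi (P w l) (C w (l + 1))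

/-- **LEAF (e)**: top minimiser `g₀` (calculus `P`), exit minimiser `g₁` (calculus `P'`, nested
sets), ladder `0..n`, drift `d`.  `X = g₁ + Ψ' + e`, `|e| ≤ (1 + (n+1) √(2B(1+B))) √d` (weakly). -/
theorem el_ladder (hc : ∀ w ∈ s, 0 ≤ c w) (hP : ∀ w l, IsPj (K w l) (P w l))
    (hP' : ∀ w l, IsPj (K' w l) (P' w l)) (hs : ∀ w l, K' w l ⊆ K w l)
    (hcomp : ∀ w ∈ s, ∀ l < n, P w l (P w (l + 1) (T w g₀)) = P w l (T w g₀))
    (htop : ∀ w ∈ s, P w n (T w g₀) = T w g₀)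
    (hmin : ∀ g, FvL s n c T P X g₀ ≤ FvL s n c T P X g)
    {B : ℝ} (hB0 : 0 ≤ B) (hB : ∀ g, ((n : ℝ) + 1) * ∑ w ∈ s, c w * ‖T w g‖ ^ 2 ≤ B * ‖g‖ ^ 2)
    {d : ℝ} (hd : FvL s n c T P' X g₁ - FvL s n c T P X g₀ ≤ d) (h : G) :
    |⟪X - g₁, h⟫ - ∑ w ∈ s, c w * ∑ j ∈ Finset.range (n + 1),
        ⟪Zl P n (fun w l => P' w l (T w g₁)) w j, T w h⟫|
      ≤ (1 + ((n : ℝ) + 1) * Real.sqrt (2 * B * (1 + B))) * Real.sqrt d * ‖h‖ := by
  classical
  have hc' : ∀ i ∈ ix s n, 0 ≤ c i.1 := fun i hi => hc _ (Finset.mem_product.1 hi).1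
  have hPi : ∀ i ∈ ix s n, IsPj (K i.1 i.2) (P i.1 i.2) := fun i _ => hP _ _
  have hPi' : ∀ i ∈ ix s n, IsPj (K' i.1 i.2) (P' i.1 i.2) := fun i _ => hP' _ _
  have hB' : ∀ g, ∑ i ∈ ix s n, c i.1 * ‖T i.1 g‖ ^ 2 ≤ B * ‖g‖ ^ 2 := by
    intro g
    refine le_trans (le_of_eq ?_) (hB g)
    unfold ix
    rw [Finset.sum_product, Finset.mul_sum]
    refine Finset.sum_congr rfl fun w _ => ?_
    have e0 : ∑ y ∈ Finset.range (n + 1), c (w, y).1 * ‖T (w, y).1 g‖ ^ 2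
        = ∑ _y ∈ Finset.range (n + 1), c w * ‖T w g‖ ^ 2 :=
      Finset.sum_congr rfl fun _ _ => rfl
    refine e0.trans ?_
    rw [Finset.sum_const, Finset.card_range, nsmul_eq_mul]
    push_cast
    ring
  -- strong form
  have hst := strong_nested (E := fun i : γ × ℕ => E i.1) (s := ix s n) (c := fun i => c i.1)
    (T := fun i => T i.1) (P := fun i => P i.1 i.2) (P' := fun i => P' i.1 i.2)
    (K := fun i => K i.1 i.2) (K' := fun i => K' i.1 i.2) (W := Set.univ) (W' := Set.univ)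
    (X := X) (g₀ := g₀) (g₁ := g₁) hc' hPi hPi' (fun i _ => hs _ _) convex_univ
    (Set.subset_univ _) (Set.mem_univ _) (fun g _ => hmin g) (Set.mem_univ _)
  have hps := proj_step (E := fun i : γ × ℕ => E i.1) (s := ix s n) (c := fun i => c i.1)
    (T := fun i => T i.1) (P := fun i => P i.1 i.2) (P' := fun i => P' i.1 i.2)
    (K := fun i => K i.1 i.2) (K' := fun i => K' i.1 i.2) (W := Set.univ) (W' := Set.univ)
    (X := X) (g₀ := g₀) (g₁ := g₁) hc' hPi hPi' (fun i _ => hs _ _) convex_univ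
    (Set.subset_univ _) (Set.mem_univ _) (fun g _ => hmin g) (Set.mem_univ _) hB0 hB'
  have hr0 : 0 ≤ ∑ i ∈ ix s n, c i.1 * ‖(T i.1 g₁ - P i.1 i.2 (T i.1 g₁))
      - (T i.1 g₀ - P i.1 i.2 (T i.1 g₀))‖ ^ 2 :=
    Finset.sum_nonneg fun i hi => mul_nonneg (hc' i hi) (sq_nonneg _)
  have hq0 : 0 ≤ ∑ i ∈ ix s n, c i.1 * ‖P' i.1 i.2 (T i.1 g₁) - P i.1 i.2 (T i.1 g₁)‖ ^ 2 :=
    Finset.sum_nonneg fun i hi => mul_nonneg (hc' i hi) (sq_nonneg _)
  have hd' : Fv (E := fun i : γ × ℕ => E i.1) (ix s n) (fun i => c i.1) (fun i => T i.1)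
      (fun i => P' i.1 i.2) X g₁ - Fv (E := fun i : γ × ℕ => E i.1) (ix s n) (fun i => c i.1)
      (fun i => T i.1) (fun i => P i.1 i.2) X g₀ ≤ d := hd
  have hd0 : 0 ≤ d := by
    have := sq_nonneg ‖g₁ - g₀‖
    linarith
  have hg : ‖g₁ - g₀‖ ≤ Real.sqrt d := by
    refine Real.le_sqrt_of_sq_le ?_
    linarith
  -- the ladder, gauge by gauge
  set Cc : ∀ w, ℕ → E w := fun w l => P' w l (T w g₁) with hCc
  have hlad : ∑ i ∈ ix s n, c i.1 * ‖(T i.1 g₀ - P i.1 i.2 (T i.1 g₀)) - Zl P n Cc i.1 i.2‖ ^ 2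
      ≤ ((n : ℝ) + 1) * (n * (2 * (1 + B) * d)) := by
    have h1 : ∑ i ∈ ix s n, c i.1 * ‖(T i.1 g₀ - P i.1 i.2 (T i.1 g₀)) - Zl P n Cc i.1 i.2‖ ^ 2
        ≤ ∑ w ∈ s, c w * (((n : ℝ) + 1) * (n * ∑ l ∈ Finset.range n,
          ‖P w (l + 1) (T w g₀) - Cc w (l + 1)‖ ^ 2)) := by
      unfold ix
      rw [Finset.sum_product]
      refine Finset.sum_le_sum fun w hw => ?_
      dsimp only
      rw [← Finset.mul_sum]
      exact mul_le_mul_of_nonneg_left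
        (ladder_sq (fun l => hP w l) (hcomp w hw) (htop w hw) (Cc w)) (hc w hw)
    have h2 : ∑ w ∈ s, c w * ∑ l ∈ Finset.range n, ‖P w (l + 1) (T w g₀) - Cc w (l + 1)‖ ^ 2
        ≤ ∑ i ∈ ix s n, c i.1 * ‖P' i.1 i.2 (T i.1 g₁) - P i.1 i.2 (T i.1 g₀)‖ ^ 2 := by
      unfold ix
      rw [Finset.sum_product]
      refine Finset.sum_le_sum fun w hw => ?_
      dsimp only
      rw [← Finset.mul_sum]
      refine mul_le_mul_of_nonneg_left ?_ (hc w hw)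
      rw [Finset.sum_range_succ']
      have h3 : 0 ≤ ‖P' w 0 (T w g₁) - P w 0 (T w g₀)‖ ^ 2 := sq_nonneg _
      refine le_trans (le_of_eq ?_) (le_add_of_nonneg_right h3)
      refine Finset.sum_congr rfl fun l _ => ?_
      rw [norm_sub_rev]
    have h3 : 2 * (1 + B) * (Fv (E := fun i : γ × ℕ => E i.1) (ix s n) (fun i => c i.1)
        (fun i => T i.1) (fun i => P' i.1 i.2) X g₁ - Fv (E := fun i : γ × ℕ => E i.1) (ix s n)
        (fun i => c i.1) (fun i => T i.1) (fun i => P i.1 i.2) X g₀) ≤ 2 * (1 + B) * d :=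
      mul_le_mul_of_nonneg_left hd' (by positivity)
    have h4 := h2.trans (hps.trans h3)
    refine h1.trans ?_
    have e : ∑ w ∈ s, c w * (((n : ℝ) + 1) * (n * ∑ l ∈ Finset.range n,
          ‖P w (l + 1) (T w g₀) - Cc w (l + 1)‖ ^ 2))
        = ((n : ℝ) + 1) * (n * ∑ w ∈ s, c w * ∑ l ∈ Finset.range n,
          ‖P w (l + 1) (T w g₀) - Cc w (l + 1)‖ ^ 2) := by
      rw [Finset.mul_sum, Finset.mul_sum]
      refine Finset.sum_congr rfl fun w _ => ?_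
      ring
    rw [e]
    have h5 : (0 : ℝ) ≤ n := Nat.cast_nonneg n
    exact mul_le_mul_of_nonneg_left (mul_le_mul_of_nonneg_left h4 h5) (by positivity)
  -- Euler-Lagrange with replacement
  have hel := el_replace (E := fun i : γ × ℕ => E i.1) (s := ix s n) (c := fun i => c i.1)
    (T := fun i => T i.1) (P := fun i => P i.1 i.2) (K := fun i => K i.1 i.2) (X := X) (g₀ := g₀)
    hc' hPi hmin hB0 hB' g₁ (fun i => Zl P n Cc i.1 i.2) h
  have e2 : ∑ i ∈ ix s n, c i.1 * ⟪Zl P n Cc i.1 i.2, T i.1 h⟫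
      = ∑ w ∈ s, c w * ∑ j ∈ Finset.range (n + 1), ⟪Zl P n Cc w j, T w h⟫ := by
    unfold ix
    rw [Finset.sum_product]
    refine Finset.sum_congr rfl fun w _ => ?_
    dsimp only
    rw [← Finset.mul_sum]
  rw [e2] at hel
  refine hel.trans (mul_le_mul_of_nonneg_right ?_ (norm_nonneg h))
  rw [add_mul, one_mul]
  refine add_le_add hg ?_
  have h6 : B * ∑ i ∈ ix s n, c i.1 * ‖(T i.1 g₀ - P i.1 i.2 (T i.1 g₀)) - Zl P n Cc i.1 i.2‖ ^ 2
      ≤ (((n : ℝ) + 1) ^ 2) * (2 * B * (1 + B) * d) := by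
    have h7 := mul_le_mul_of_nonneg_left hlad hB0
    have h8 : (n : ℝ) ≤ (n : ℝ) + 1 := by linarith
    have h9 : 0 ≤ 2 * B * (1 + B) * d := by positivity
    have h10 : B * (((n : ℝ) + 1) * (n * (2 * (1 + B) * d)))
        = (((n : ℝ) + 1) * n) * (2 * B * (1 + B) * d) := by ring
    rw [h10] at h7
    refine h7.trans (mul_le_mul_of_nonneg_right ?_ h9)
    have h11 : (0 : ℝ) ≤ n := Nat.cast_nonneg n
    nlinarith
  refine (Real.sqrt_le_sqrt h6).trans (le_of_eq ?_)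
  rw [Real.sqrt_mul (by positivity), Real.sqrt_sq (by positivity),
    Real.sqrt_mul (by positivity)]
  ring

end fam

end Crest.Agent.R079.Lad440
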