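import Crest.Agent.R079.TWinD_649
import Crest.Agent.R079.TWin1_903

/-! R079, INTERNAL LASSO WITH NODE-DEPENDENT COSTS (helper525; text: 540's 28030 (1), 402 / 331, 92's 27868).

A cost `c p f` of the node `p` which is SUPER-AVERAGING (the average of the costs at the children is at
most the cost at the parent): local `L^2(q)`-normalised tall atoms (Jensen), `L * av_p |f|` (equality),
every node-independent dictionary (restriction).  Near-minimisers of `av p (F - f)^2 + 2 c p f` at all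
nodes, window systems with: deviation `<= δ` AND frozen cost bounded at every node of a window, count
`3 + O(1/δ)`, energies, and the level of the glued residual against EVERY test function `φ`:
`(c p φ + small) len p`. -/

set_option autoImplicit false
set_option linter.unusedSectionVars false

namespace Crest.Agent.R079.LasN525

open Finset Crest.Agent.R079.Grid Crest.Agent.R079.Glue Crest.Agent.R079.Growth
  Crest.Agent.R079.QRed Crest.Agent.R079.Qe292 Crest.Agent.R079.TWin649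

/-- node-dependent cost -/
structure Cst (c : Nd → Fn → ℝ) : Prop where
  nonneg : ∀ p f, 0 ≤ c p f
  loc : ∀ p f g, (∀ y ∈ iv p, f y = g y) → c p f = c p g
  zero : ∀ p, c p (fun _ => 0) = 0
  add : ∀ p f g, c p (fun y => f y + g y) ≤ c p f + c p g
  smul : ∀ p (z : ℂ) f, c p (fun y => z * f y) ≤ ‖z‖ * c p f
  sup : ∀ (m : ℕ) (l : ℤ) f, c (m, 2 * l) f + c (m, 2 * l + 1) f ≤ 2 * c (m + 1, l) f

/-- penalised functional -/
noncomputable def Ph (c : Nd → Fn → ℝ) (p : Nd) (F f : Fn) : ℝ :=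
  av p (fun y => F y - f y) ^ 2 + 2 * c p f

theorem Ph_nonneg {c : Nd → Fn → ℝ} (hc : Cst c) (p : Nd) (F f : Fn) : 0 ≤ Ph c p F f := by
  unfold Ph
  have := hc.nonneg p f
  positivity

theorem exists_near {c : Nd → Fn → ℝ} (hc : Cst c) (η : ℝ) (hη : 0 < η) (F : Fn) (p : Nd) :
    ∃ f : Fn, ∀ g : Fn, Ph c p F f ≤ Ph c p F g + η := by
  let S : Set ℝ := Set.range (fun g => Ph c p F g)
  have hne : S.Nonempty := ⟨_, (fun _ => 0), rfl⟩
  have hbd : BddBelow S := ⟨0, by
    rintro x ⟨g, rfl⟩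
    exact Ph_nonneg hc p F g⟩
  obtain ⟨x, ⟨f, rfl⟩, hx⟩ := Real.lt_sInf_add_pos hne hη
  refine ⟨f, fun g => ?_⟩
  have : sInf S ≤ Ph c p F g := csInf_le hbd ⟨g, rfl⟩
  simp only at hx
  linarith

theorem near_convex {c : Nd → Fn → ℝ} (hc : Cst c) {η : ℝ} {F : Fn} {p : Nd} {f : Fn}
    (hmin : ∀ g : Fn, Ph c p F f ≤ Ph c p F g + η) (g : Fn) :
    Ph c p F f + (1 / 2) * av p (fun y => g y - f y) ^ 2 ≤ Ph c p F g + 2 * η := by
  have hmid : c p (fun y => (1 / 2 : ℂ) * (f y + g y)) ≤ (c p f + c p g) / 2 := by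
    have h1 := hc.smul p (1 / 2 : ℂ) (fun y => f y + g y)
    have h2 := hc.add p f g
    have hn : ‖(1 / 2 : ℂ)‖ = 1 / 2 := by simp
    rw [hn] at h1
    linarith
  have h := hmin (fun y => (1 / 2 : ℂ) * (f y + g y))
  have key : av p (fun y => F y - (1 / 2 : ℂ) * (f y + g y)) ^ 2 =
      av p (fun y => F y - f y) ^ 2 / 2 + av p (fun y => F y - g y) ^ 2 / 2 -
        av p (fun y => g y - f y) ^ 2 / 4 := by
    rw [QVar181.av_sq, QVar181.av_sq, QVar181.av_sq, QVar181.av_sq]
    have : ∀ y, ‖F y - (1 / 2 : ℂ) * (f y + g y)‖ ^ 2 =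
        ‖F y - f y‖ ^ 2 / 2 + ‖F y - g y‖ ^ 2 / 2 - ‖g y - f y‖ ^ 2 / 4 := by
      intro y
      have e1 : F y - (1 / 2 : ℂ) * (f y + g y) = ((F y - f y) + (F y - g y)) / 2 := by ring
      have e2 : (F y - f y) - (F y - g y) = g y - f y := by ring
      rw [e1, QVar181.norm_mid, e2]
    rw [Finset.sum_congr rfl fun y _ => this y, Finset.sum_sub_distrib, Finset.sum_add_distrib,
      ← Finset.sum_div, ← Finset.sum_div, ← Finset.sum_div]
    ring
  unfold Ph at h ⊢
  rw [key] at h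
  linarith

/-- level of the residual against ANY test function -/
theorem near_level {c : Nd → Fn → ℝ} (hc : Cst c) {r : ℝ} (hr0 : 0 < r) {F : Fn} {p : Nd}
    {f : Fn} (hmin : ∀ g : Fn, Ph c p F f ≤ Ph c p F g + r ^ 2) (φ : Fn) :
    ‖∑ y ∈ iv p, (F y - f y) * (starRingEnd ℂ) (φ y)‖
      ≤ (c p φ + r * (1 + av p φ ^ 2) / 2) * len p := by
  set S : ℂ := ∑ y ∈ iv p, (F y - f y) * (starRingEnd ℂ) (φ y) with hS
  have hL := QVar181.len_pos' p
  have hcφ := hc.nonneg p φ
  by_cases hS0 : S = 0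
  · rw [hS0, norm_zero]
    positivity
  have hSn : 0 < ‖S‖ := norm_pos_iff.mpr hS0
  let z : ℂ := (r / ‖S‖ : ℝ) * S
  have hz : ‖z‖ = r := by
    simp only [z, norm_mul, Complex.norm_real, Real.norm_eq_abs]
    rw [abs_of_nonneg (by positivity)]
    field_simp
  have hzS : ((starRingEnd ℂ) z * S).re = r * ‖S‖ := by
    have e : (starRingEnd ℂ) z * S = ((r * ‖S‖ : ℝ) : ℂ) := by
      simp only [z, map_mul, Complex.conj_ofReal]
      have : (starRingEnd ℂ) S * S = ((‖S‖ ^ 2 : ℝ) : ℂ) := by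
        rw [mul_comm, Complex.mul_conj, Complex.normSq_eq_norm_sq]
      rw [mul_assoc, this]
      rw [← Complex.ofReal_mul]
      congr 1
      field_simp
    rw [e, Complex.ofReal_re]
  have hrep : c p (fun y => f y + z * φ y) ≤ c p f + r * c p φ := by
    have h1 := hc.add p f (fun y => z * φ y)
    have h2 := hc.smul p z φ
    rw [hz] at h2
    linarith
  have h := hmin (fun y => f y + z * φ y)
  have key : av p (fun y => F y - (f y + z * φ y)) ^ 2 =
      av p (fun y => F y - f y) ^ 2 - 2 * (r * ‖S‖) / len p + r ^ 2 * av p φ ^ 2 := by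
    rw [QVar181.av_sq, QVar181.av_sq, QVar181.av_sq]
    have : ∀ y, ‖F y - (f y + z * φ y)‖ ^ 2 =
        ‖F y - f y‖ ^ 2 - 2 * ((starRingEnd ℂ) z * ((F y - f y) * (starRingEnd ℂ) (φ y))).re
          + r ^ 2 * ‖φ y‖ ^ 2 := by
      intro y
      have e1 : F y - (f y + z * φ y) = (F y - f y) - z * (starRingEnd ℂ) ((starRingEnd ℂ) (φ y)) := by
        rw [Complex.conj_conj]; ring
      rw [e1, QVar181.norm_sub_mul, hz, RCLike.norm_conj]
    rw [Finset.sum_congr rfl fun y _ => this y, Finset.sum_add_distrib, Finset.sum_sub_distrib,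
      ← Finset.mul_sum, ← Finset.mul_sum]
    have e2 : ∑ y ∈ iv p, ((starRingEnd ℂ) z * ((F y - f y) * (starRingEnd ℂ) (φ y))).re
        = r * ‖S‖ := by
      rw [← hzS, hS, Finset.mul_sum, Complex.re_sum]
    rw [e2]
    ring
  unfold Ph at h
  rw [key] at h
  have h2 : 2 * (r * ‖S‖) / len p ≤ r ^ 2 * av p φ ^ 2 + 2 * (r * c p φ) + r ^ 2 := by
    linarith
  rw [div_le_iff₀ hL] at h2
  have h3 : 2 * r * ‖S‖ ≤ 2 * r * ((c p φ + r * (1 + av p φ ^ 2) / 2) * len p) := by
    nlinarith [h2]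
  exact le_of_mul_le_mul_left h3 (by positivity)

/-- the costs of a fixed function at the leaves below `p` -/
theorem cost_lb {c : Nd → Fn → ℝ} (hc : Cst c) {W : Finset Nd} {I : Nd} (hW : Full W I) (f : Fn) :
    ∀ p ∈ W, ∑ L ∈ lb W p, len L * c L f ≤ len p * c p f := by
  have e : ∀ p, ∑ L ∈ lb W p, len L * c L f = TWin.SL W p (fun L => c L f) := by
    intro p
    unfold TWin.SL lb
    congr
  have key : ∀ p ∈ W, TWin.SL W p (fun L => c L f) ≤ len p * c p f := by
    refine TWin.full_ind hW (fun p hp => ?_) fun m l hp hnl h0 h1 e0 e1 => ?_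
    · rw [TWin.SL_leaf hp]
    · rw [TWin.SL_node hW hnl h0 h1]
      have hg := hc.sup m l f
      have hl0 : len (m + 1, l) = 2 * len (m, 2 * l) := TWin.len_ch m l _
      have hl1 : len (m, 2 * l + 1) = len (m, 2 * l) := rfl
      rw [hl1] at e1
      rw [hl0]
      have hpos := Growth.len_pos (m, 2 * l)
      have h2 := mul_le_mul_of_nonneg_left hg hpos.le
      linarith
  intro p hp
  rw [e p]
  exact key p hp

theorem Ph_lb {c : Nd → Fn → ℝ} (hc : Cst c) {W : Finset Nd} {I : Nd} (hW : Full W I) (F f : Fn)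
    {p : Nd} (hp : p ∈ W) : ∑ L ∈ lb W p, len L * Ph c L F f ≤ len p * Ph c p F f := by
  unfold Ph
  have h1 := cost_lb hc hW f p hp
  have h2 : ∑ L ∈ lb W p, len L * av L (fun y => F y - f y) ^ 2
      = len p * av p (fun y => F y - f y) ^ 2 := by
    rw [← sum_av, sum_lb hW hp]
    exact Finset.sum_congr rfl fun L _ => (sum_av L _).symm
  have h3 : ∀ L, len L * (av L (fun y => F y - f y) ^ 2 + 2 * c L f)
      = len L * av L (fun y => F y - f y) ^ 2 + 2 * (len L * c L f) := fun L => by ring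
  rw [Finset.sum_congr rfl fun L _ => h3 L, Finset.sum_add_distrib, ← Finset.mul_sum, h2]
  linarith

section letters

variable {ι : Type*} [Fintype ι] {c : ι → Nd → Fn → ℝ} {r : ℝ} {G : ι → Fn} {f : ι → Nd → Fn}

/-- near-minimisers of all letters at all nodes -/
structure Near (c : ι → Nd → Fn → ℝ) (r : ℝ) (G : ι → Fn) (f : ι → Nd → Fn) : Prop where
  cst : ∀ i, Cst (c i)
  min : ∀ i p g, Ph (c i) p (G i) (f i p) ≤ Ph (c i) p (G i) g + r ^ 2

theorem exists_Near (hc : ∀ i, Cst (c i)) (hr : 0 < r) (G : ι → Fn) : ∃ f, Near c r G f := by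
  choose f hf using fun i p => exists_near (hc i) (r ^ 2) (by positivity) (G i) p
  exact ⟨f, ⟨hc, hf⟩⟩

theorem Near.cvx (h : Near c r G f) (i : ι) (p : Nd) (g : Fn) :
    Ph (c i) p (G i) (f i p) + (1 / 2) * av p (fun y => g y - f i p y) ^ 2
      ≤ Ph (c i) p (G i) g + 2 * r ^ 2 := near_convex (h.cst i) (h.min i p) g

/-- level at one node -/
theorem Near.lev (h : Near c r G f) (hr : 0 < r) (i : ι) (p : Nd) (φ : Fn) :
    ‖∑ y ∈ iv p, (G i y - f i p y) * (starRingEnd ℂ) (φ y)‖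
      ≤ (c i p φ + r * (1 + av p φ ^ 2) / 2) * len p := near_level (h.cst i) hr (h.min i p) φ

/-- **level of the glued residual at every node of a full region** -/
theorem Near.lev_gl (h : Near c r G f) (hr : 0 < r) {W : Finset Nd} {I : Nd} (hW : Full W I)
    (i : ι) {p : Nd} (hp : p ∈ W) (φ : Fn) :
    ‖∑ y ∈ iv p, (G i y - gl W (f i) y) * (starRingEnd ℂ) (φ y)‖
      ≤ (c i p φ + r * (1 + av p φ ^ 2) / 2) * len p := by
  rw [sum_lb hW hp]
  have h1 : ‖∑ L ∈ lb W p, ∑ y ∈ iv L, (G i y - gl W (f i) y) * (starRingEnd ℂ) (φ y)‖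
      ≤ ∑ L ∈ lb W p, (c i L φ + r * (1 + av L φ ^ 2) / 2) * len L := by
    refine norm_sum_le_of_le _ fun L hL => ?_
    have : ∑ y ∈ iv L, (G i y - gl W (f i) y) * (starRingEnd ℂ) (φ y)
        = ∑ y ∈ iv L, (G i y - f i L y) * (starRingEnd ℂ) (φ y) :=
      Finset.sum_congr rfl fun y hy => by rw [gl_eq (f i) (mem_lb.1 hL).1 hy]
    rw [this]
    exact h.lev hr i L φ
  refine h1.trans ?_
  have h2 := cost_lb (h.cst i) hW φ p hp
  have h3 : ∑ L ∈ lb W p, len L * av L φ ^ 2 = len p * av p φ ^ 2 := by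
    rw [← sum_av, sum_lb hW hp]
    exact Finset.sum_congr rfl fun L _ => (sum_av L _).symm
  have h4 : ∀ L, (c i L φ + r * (1 + av L φ ^ 2) / 2) * len L
      = len L * c i L φ + (r / 2) * len L + (r / 2) * (len L * av L φ ^ 2) := fun L => by ring
  rw [Finset.sum_congr rfl fun L _ => h4 L, Finset.sum_add_distrib, Finset.sum_add_distrib,
    ← Finset.mul_sum, ← Finset.mul_sum, h3, sum_len_lb hW hp]
  linarith

/-- total potential -/
noncomputable def Pt (c : ι → Nd → Fn → ℝ) (G : ι → Fn) (f : ι → Nd → Fn) (p : Nd) : ℝ :=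
  2 * ∑ i, Ph (c i) p (G i) (f i p)

/-- total cost at `p` of the data frozen at `I` -/
noncomputable def cs (c : ι → Nd → Fn → ℝ) (f : ι → Nd → Fn) (I p : Nd) : ℝ := ∑ i, c i p (f i I)

open Classical in
/-- stopping function: deviation + cost (off the top) -/
noncomputable def gg (c : ι → Nd → Fn → ℝ) (f : ι → Nd → Fn) (κ : ℝ) (I p : Nd) : ℝ :=
  if p = I then 0 else dv f I p + κ * cs c f I p

theorem Pt_nonneg (h : Near c r G f) (p : Nd) : 0 ≤ Pt c G f p := by
  unfold Pt
  have : 0 ≤ ∑ i, Ph (c i) p (G i) (f i p) :=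
    Finset.sum_nonneg fun i _ => Ph_nonneg (h.cst i) p (G i) _
  linarith

theorem Ph_top (h : Near c r G f) (i : ι) (p : Nd) :
    Ph (c i) p (G i) (f i p) ≤ av p (G i) ^ 2 + r ^ 2 := by
  have h1 := h.min i p (fun _ => 0)
  have h2 : Ph (c i) p (G i) (fun _ => 0) = av p (G i) ^ 2 := by
    unfold Ph
    rw [(h.cst i).zero p]
    simp
  rw [h2] at h1
  exact h1

theorem Pt_le (h : Near c r G f) (p : Nd) (hG : ∀ i, av p (G i) ≤ 1) :
    Pt c G f p ≤ 2 * Fintype.card ι * (1 + r ^ 2) := by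
  unfold Pt
  have : ∑ i, Ph (c i) p (G i) (f i p) ≤ ∑ _i : ι, (1 + r ^ 2) := by
    refine Finset.sum_le_sum fun i _ => ?_
    have h1 := Ph_top h i p
    have h2 : av p (G i) ^ 2 ≤ 1 := pow_le_one₀ (Real.sqrt_nonneg _) (hG i)
    linarith
  rw [Finset.sum_const, nsmul_eq_mul, Finset.card_univ] at this
  nlinarith [this]

theorem cs_nonneg (h : Near c r G f) (I p : Nd) : 0 ≤ cs c f I p :=
  Finset.sum_nonneg fun i _ => (h.cst i).nonneg p _

theorem cs_top (h : Near c r G f) (p : Nd) (hG : ∀ i, av p (G i) ≤ 1) :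
    cs c f p p ≤ Fintype.card ι * (1 + r ^ 2) / 2 := by
  unfold cs
  have : ∑ i, c i p (f i p) ≤ ∑ _i : ι, (1 + r ^ 2) / 2 := by
    refine Finset.sum_le_sum fun i _ => ?_
    have h1 := Ph_top h i p
    have h2 : av p (G i) ^ 2 ≤ 1 := pow_le_one₀ (Real.sqrt_nonneg _) (hG i)
    unfold Ph at h1
    have h3 := sq_nonneg (av p (fun y => G i y - f i p y))
    linarith
  rw [Finset.sum_const, nsmul_eq_mul, Finset.card_univ] at this
  linarith

/-- node inequality: the data frozen at `K` are competitors at every node -/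
theorem dv_add_Pt (h : Near c r G f) (K p : Nd) :
    dv f K p + Pt c G f p
      ≤ 2 * ∑ i, Ph (c i) p (G i) (f i K) + 4 * Fintype.card ι * r ^ 2 := by
  have key : ∀ i, av p (fun y => f i K y - f i p y) ^ 2 + 2 * Ph (c i) p (G i) (f i p)
      ≤ 2 * Ph (c i) p (G i) (f i K) + 4 * r ^ 2 := by
    intro i
    have := h.cvx i p (f i K)
    linarith
  have hs := Finset.sum_le_sum fun i (_ : i ∈ (Finset.univ : Finset ι)) => key i
  rw [Finset.sum_add_distrib, Finset.sum_add_distrib, Finset.sum_const, nsmul_eq_mul,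
    Finset.card_univ, ← Finset.mul_sum, ← Finset.mul_sum] at hs
  unfold dv Pt
  linarith

/-- hypothesis of the stopping lemma -/
theorem stop_hyp (h : Near c r G f) {W : Finset Nd} {I : Nd} (hW : Full W I) {p : Nd}
    (hp : p ∈ W) :
    ∑ L ∈ lb W p, len L * (dv f p L + Pt c G f L)
      ≤ len p * (Pt c G f p + 4 * Fintype.card ι * r ^ 2) := by
  calc ∑ L ∈ lb W p, len L * (dv f p L + Pt c G f L)
      ≤ ∑ L ∈ lb W p, len L *
          (2 * ∑ i, Ph (c i) L (G i) (f i p) + 4 * Fintype.card ι * r ^ 2) := by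
        refine Finset.sum_le_sum fun L hL => ?_
        exact mul_le_mul_of_nonneg_left (dv_add_Pt h p L) (Growth.len_pos L).le
    _ ≤ _ := by
        simp only [mul_add, Finset.sum_add_distrib]
        rw [← Finset.sum_mul, sum_len_lb hW hp]
        refine add_le_add_left ?_ _
        have e : ∀ L, len L * (2 * ∑ i, Ph (c i) L (G i) (f i p))
            = 2 * ∑ i, len L * Ph (c i) L (G i) (f i p) := by
          intro L
          rw [Finset.mul_sum, Finset.mul_sum, Finset.mul_sum]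
          exact Finset.sum_congr rfl fun i _ => by ring
        rw [Finset.sum_congr rfl fun L _ => e L, ← Finset.mul_sum, Finset.sum_comm]
        unfold Pt
        have : ∑ i, ∑ L ∈ lb W p, len L * Ph (c i) L (G i) (f i p)
            ≤ ∑ i, len p * Ph (c i) p (G i) (f i p) :=
          Finset.sum_le_sum fun i _ => Ph_lb (h.cst i) hW (G i) (f i p) hp
        rw [← Finset.mul_sum] at this
        linarith

theorem cs_lb (h : Near c r G f) {W : Finset Nd} {I : Nd} (hW : Full W I) (K : Nd) {p : Nd}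
    (hp : p ∈ W) : ∑ L ∈ lb W p, len L * cs c f K L ≤ len p * cs c f K p := by
  unfold cs
  simp only [Finset.mul_sum]
  rw [Finset.sum_comm]
  exact Finset.sum_le_sum fun i _ => cost_lb (h.cst i) hW (f i K) p hp

theorem gg_self (κ : ℝ) (I : Nd) : gg c f κ I I = 0 := by
  unfold gg
  rw [if_pos rfl]

theorem gg_nonneg (h : Near c r G f) {κ : ℝ} (hκ : 0 ≤ κ) (I p : Nd) : 0 ≤ gg c f κ I p := by
  unfold gg
  split_ifs
  · exact le_rfl
  · exact add_nonneg (dv_nonneg f I p) (mul_nonneg hκ (cs_nonneg h I p))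

theorem gg_le (h : Near c r G f) {κ : ℝ} (hκ : 0 ≤ κ) (I p : Nd) :
    gg c f κ I p ≤ dv f I p + κ * cs c f I p := by
  unfold gg
  split_ifs
  · exact add_nonneg (dv_nonneg f I p) (mul_nonneg hκ (cs_nonneg h I p))
  · exact le_rfl

/-- energy inequality of one window (any stopping function) -/
theorem en_step (h : Near c r G f) {R : Finset Nd} {J : Nd} (hR : Full R J) {g : Nd → Nd → ℝ}
    {δ : ℝ} {K : Nd} (hK : K ∈ R) :
    en f (Wd R g δ K) K + ∑ d ∈ Tp R g δ K, len d * Pt c G f d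
      ≤ len K * (Pt c G f K + 8 * Fintype.card ι * r ^ 2) := by
  classical
  have hW := Wd_full (g := g) (δ := δ) hR hK
  have hW' := W'_full (g := g) (δ := δ) hR hK
  -- next tops against leaves
  have h1 : ∑ d ∈ Tp R g δ K, len d * Pt c G f d
      ≤ ∑ L ∈ lf (Wd R g δ K), len L * (Pt c G f L + 4 * Fintype.card ι * r ^ 2) := by
    rw [← Finset.sum_fiberwise_of_maps_to (fun d hd => par_lf hR hK hd)]
    refine Finset.sum_le_sum fun L hL => ?_
    have hLW' : L ∈ Wd R g δ K ∪ Tp R g δ K := Finset.mem_union_left _ (lf_sub hL)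
    have h2 := stop_hyp h hW' hLW'
    refine le_trans ?_ h2
    have hsub : (Tp R g δ K).filter (fun d => par d = L) ⊆
        lb (Wd R g δ K ∪ Tp R g δ K) L := by
      intro d hd
      rw [Finset.mem_filter] at hd
      refine mem_lb.2 ⟨Tp_sub_lf hR hK hd.1, ?_⟩
      rw [← hd.2]
      exact iv_par d
    refine le_trans (Finset.sum_le_sum fun d _ => ?_)
      (Finset.sum_le_sum_of_subset_of_nonneg hsub fun d _ _ =>
        mul_nonneg (Growth.len_pos d).le (add_nonneg (dv_nonneg f L d) (Pt_nonneg h d)))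
    exact mul_le_mul_of_nonneg_left (by linarith [dv_nonneg f L d]) (Growth.len_pos d).le
  have h4 : ∑ L ∈ lf (Wd R g δ K), len L * (Pt c G f L + 4 * Fintype.card ι * r ^ 2)
      = ∑ L ∈ lf (Wd R g δ K), len L * Pt c G f L + len K * (4 * Fintype.card ι * r ^ 2) := by
    simp only [mul_add, Finset.sum_add_distrib]
    rw [← Finset.sum_mul, ← lb_top hW, sum_len_lb hW hW.top]
  have h5 := stop_hyp h hW hW.top
  have h6 : ∑ L ∈ lb (Wd R g δ K) K, len L * (dv f K L + Pt c G f L)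
      = en f (Wd R g δ K) K + ∑ L ∈ lf (Wd R g δ K), len L * Pt c G f L := by
    rw [en_eq hW, ← lb_top hW, ← Finset.sum_add_distrib]
    exact Finset.sum_congr rfl fun L _ => by ring
  rw [h6] at h5
  rw [h4] at h1
  have h8 : len K * (Pt c G f K + 8 * Fintype.card ι * r ^ 2)
      = len K * (Pt c G f K + 4 * Fintype.card ι * r ^ 2) + len K * (4 * Fintype.card ι * r ^ 2) := by
    ring
  rw [h8]
  linarith

open Classical in
/-- **WINDOWS WITH NODE-DEPENDENT COSTS.**  Near-minimisers of error `r^2` (exist by `exists_Near`),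
local norms `≤ 1` on `R`.  At every node `p` of a window with top `K`: the frozen data deviate by
`≤ δ` from the own data and have total cost `≤ 8 (card + 1)`; count `3 + 16 card/δ` and drift
energy `12 card + 2 δ` below every node.  Level of the glued residual: `Near.lev_gl`. -/
theorem windows (h : Near c r G f) {R : Finset Nd} {J : Nd} (hR : Full R J)
    (hG : ∀ i, ∀ p ∈ R, av p (G i) ≤ 1) {δ : ℝ} (hδ : 0 < δ) (hr1 : r ^ 2 ≤ 1)
    (hr : 32 * Fintype.card ι * r ^ 2 ≤ δ) :
    ∃ (S : Finset Nd) (W : Nd → Finset Nd), Sysw R S W (3 + 16 * Fintype.card ι / δ) ∧ J ∈ S ∧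
      (∀ K ∈ S, ∀ p ∈ W K, dv f K p ≤ δ ∧ cs c f K p ≤ 8 * (Fintype.card ι + 1)) ∧
      ∀ q ∈ R, ∑ K ∈ S.filter (fun K => iv K ⊆ iv q), en f (W K) K
        ≤ len q * (12 * Fintype.card ι + 2 * δ) := by
  have hc0 : (0 : ℝ) ≤ Fintype.card ι := Nat.cast_nonneg _
  set κ : ℝ := δ / (8 * (Fintype.card ι + 1)) with hκdef
  have hκ0 : 0 < κ := by positivity
  have hκc : κ * Fintype.card ι ≤ δ / 8 := by
    rw [hκdef, div_mul_eq_mul_div, div_le_div_iff₀ (by positivity) (by norm_num)]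
    nlinarith
  set g : Nd → Nd → ℝ := gg c f κ with hg
  obtain ⟨S, hJS, hSR, hSJ, hSd, hSc, hSX⟩ := tops2 (g := g) (δ := δ) hR (J.1 + 1) J
    hR.top (Nat.lt_succ_self _)
  have hr2 : 0 ≤ r ^ 2 := sq_nonneg r
  have hyp : ∀ I ∈ R, ∀ W : Finset Nd, Full W I → W ⊆ R →
      ∑ p ∈ lf W, len p * (g I p + Pt c G f p) ≤ len I * (Pt c G f I + δ / 4) := by
    intro I hI W hW _
    have h1 := stop_hyp h hW hW.top
    have h2 := cs_lb h hW I hW.top
    rw [lb_top hW] at h1 h2
    have h3 := cs_top h I fun i => hG i I hI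
    have h4 : κ * cs c f I I ≤ δ / 8 := by
      have h5 : cs c f I I ≤ Fintype.card ι := by nlinarith
      exact (mul_le_mul_of_nonneg_left h5 hκ0.le).trans hκc
    have h6 : ∑ p ∈ lf W, len p * (g I p + Pt c G f p)
        ≤ ∑ p ∈ lf W, (len p * (dv f I p + Pt c G f p) + κ * (len p * cs c f I p)) := by
      refine Finset.sum_le_sum fun p _ => ?_
      have h7 := mul_le_mul_of_nonneg_left (gg_le h hκ0.le I p) (Growth.len_pos p).le
      rw [← hg] at h7
      nlinarith [h7]
    rw [Finset.sum_add_distrib, ← Finset.mul_sum] at h6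
    have h8 := mul_le_mul_of_nonneg_left h2 hκ0.le
    have h9 := mul_le_mul_of_nonneg_left h4 (Growth.len_pos I).le
    have h10 : 4 * Fintype.card ι * r ^ 2 ≤ δ / 8 := by linarith
    have h11 := mul_le_mul_of_nonneg_left h10 (Growth.len_pos I).le
    nlinarith [h1, h6, h8, h9, h11]
  have hstep : ∀ K ∈ R, len K + ∑ d ∈ Tp R g δ K, len d * (2 + 4 * Pt c G f d / δ)
      ≤ len K * (2 + 4 * Pt c G f K / δ) := fun K hK =>
    step hR hδ (fun p _ => Pt_nonneg h p) (gg_nonneg h hκ0.le) hyp hK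
  have hP : ∀ K ∈ R, Pt c G f K ≤ 4 * Fintype.card ι := by
    intro K hK
    refine (Pt_le h K fun i => hG i K hK).trans ?_
    nlinarith
  have hP' : ∀ K ∈ R, 2 + 4 * Pt c G f K / δ ≤ 3 + 16 * Fintype.card ι / δ := by
    intro K hK
    have h1 : 4 * Pt c G f K / δ ≤ 16 * Fintype.card ι / δ := by
      refine div_le_div_of_nonneg_right ?_ hδ.le
      linarith [hP K hK]
    linarith
  have hA0 : (0 : ℝ) ≤ 3 + 16 * Fintype.card ι / δ := by positivity
  refine ⟨S, Wd R g δ, ⟨hSR, fun K hK => Wd_full hR (hSR hK), fun K _ => Wd_sub, hSd,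
    fun p hp => hSc p hp (hR.reg.1 p hp), ?_⟩, hJS, ?_, ?_⟩
  · intro q hq
    have := (hSX len (fun K => 2 + 4 * Pt c G f K / δ) _ (fun K => (Growth.len_pos K).le) hP' hA0
      hstep).2 q hq (hR.reg.1 q hq)
    linarith
  · intro K hK p hp
    have h1 : g K p ≤ δ := Wd_good (fun I => by rw [hg, gg_self]; exact hδ.le) hp
    by_cases hpK : p = K
    · subst hpK
      refine ⟨by rw [dv_self]; exact hδ.le, ?_⟩
      have h3 := cs_top h p fun i => hG i p (hSR hK)
      nlinarith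
    · rw [hg] at h1
      unfold gg at h1
      rw [if_neg hpK] at h1
      have h2 := mul_nonneg hκ0.le (cs_nonneg h K p)
      have h3 := dv_nonneg f K p
      refine ⟨by linarith, ?_⟩
      have h4 : κ * cs c f K p ≤ δ := by linarith
      have h5 : κ * (8 * (Fintype.card ι + 1)) = δ := by
        rw [hκdef]
        field_simp
      rw [← h5] at h4
      exact le_of_mul_le_mul_left h4 hκ0
  · intro q hq
    set k : ℝ := 8 * Fintype.card ι * r ^ 2 with hk
    have hk0 : 0 ≤ k := by positivity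
    have hkδ : k ≤ δ / 2 := by rw [hk]; linarith
    have hkey : ∀ K ∈ R, en f (Wd R g δ K) K + ∑ d ∈ Tp R g δ K, len d *
        (Pt c G f d + k * (2 + 4 * Pt c G f d / δ))
        ≤ len K * (Pt c G f K + k * (2 + 4 * Pt c G f K / δ)) := by
      intro K hK
      have h1 := en_step h hR (g := g) (δ := δ) hK
      have h2 := mul_le_mul_of_nonneg_left (hstep K hK) hk0
      have e1 : ∑ d ∈ Tp R g δ K, len d * (Pt c G f d + k * (2 + 4 * Pt c G f d / δ))
          = ∑ d ∈ Tp R g δ K, len d * Pt c G f d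
            + k * ∑ d ∈ Tp R g δ K, len d * (2 + 4 * Pt c G f d / δ) := by
        rw [Finset.mul_sum, ← Finset.sum_add_distrib]
        exact Finset.sum_congr rfl fun d _ => by ring
      rw [e1]
      have e2 : len K * (Pt c G f K + 8 * Fintype.card ι * r ^ 2)
          = len K * Pt c G f K + k * len K := by
        rw [hk]; ring
      rw [e2] at h1
      have e3 : k * (len K * (2 + 4 * Pt c G f K / δ))
          = len K * (k * (2 + 4 * Pt c G f K / δ)) := by ring
      rw [e3] at h2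
      rw [mul_add k] at h2
      rw [mul_add (len K)]
      linarith
    have hY : ∀ K ∈ R, Pt c G f K + k * (2 + 4 * Pt c G f K / δ)
        ≤ 12 * Fintype.card ι + 2 * δ := by
      intro K hK
      have h1 := hP K hK
      have h2 := hP' K hK
      have h3 : k * (2 + 4 * Pt c G f K / δ) ≤ δ / 2 * (3 + 16 * Fintype.card ι / δ) := by
        refine mul_le_mul hkδ h2 ?_ (by positivity)
        have := Pt_nonneg h K
        positivity
      have h4 : δ / 2 * (3 + 16 * Fintype.card ι / δ) = 3 * δ / 2 + 8 * Fintype.card ι := by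
        field_simp
        ring
      linarith
    exact (hSX (fun K => en f (Wd R g δ K) K) _ _ (fun K => en_nonneg f _ K) hY
      (by positivity) hkey).2 q hq (hR.reg.1 q hq)

end letters

/-! ### examples of costs -/

/-- `L * av_p |f|` : the residual is bounded by `L` pointwise -/
theorem cst_L1 {L : ℝ} (hL : 0 ≤ L) :
    Cst (fun p f => L * ((1 / len p) * ∑ y ∈ iv p, ‖f y‖)) where
  nonneg p f := by
    have := QVar181.len_pos' p
    positivity
  loc p f g h := by
    rw [Finset.sum_congr rfl fun y hy => by rw [h y hy]]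
  zero p := by simp
  add p f g := by
    have h0 := QVar181.len_pos' p
    have : ∑ y ∈ iv p, ‖f y + g y‖ ≤ ∑ y ∈ iv p, ‖f y‖ + ∑ y ∈ iv p, ‖g y‖ := by
      rw [← Finset.sum_add_distrib]
      exact Finset.sum_le_sum fun y _ => norm_add_le _ _
    have h1 := mul_le_mul_of_nonneg_left this (by positivity : 0 ≤ L * (1 / len p))
    nlinarith [h1]
  smul p z f := by
    simp only [norm_mul, ← Finset.mul_sum]
    exact le_of_eq (by ring)
  sup m l f := by
    have hl0 : len (m + 1, l) = 2 * len (m, 2 * l) := TWin.len_ch m l _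
    have hl1 : len (m, 2 * l + 1) = len (m, 2 * l) := rfl
    have h0 := QVar181.len_pos' (m, 2 * l)
    have e : ∑ y ∈ iv (m + 1, l), ‖f y‖ =
        ∑ y ∈ iv (m, 2 * l), ‖f y‖ + ∑ y ∈ iv (m, 2 * l + 1), ‖f y‖ := TWin.sum_ch m l _
    rw [hl0, hl1, e]
    refine le_of_eq ?_
    field_simp

/-- restriction-monotone, node-independent costs are super-averaging -/
theorem sup_of_mono {c : Nd → Fn → ℝ} (h : ∀ p q f, iv q ⊆ iv p → c q f ≤ c p f) (m : ℕ) (l : ℤ)
    (f : Fn) : c (m, 2 * l) f + c (m, 2 * l + 1) f ≤ 2 * c (m + 1, l) f := by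
  have h0 := h (m + 1, l) (m, 2 * l) f (by
    rw [iv_sub_iff]
    exact ⟨1, Prod.ext rfl (by simp)⟩)
  have h1 := h (m + 1, l) (m, 2 * l + 1) f (by
    rw [iv_sub_iff]
    exact ⟨1, Prod.ext rfl (by simp only [pow_one]; omega)⟩)
  linarith

/-- sums of costs on product letters: the infimal convolution is obtained by splitting the letter;
maximum rule: the sum of two costs is a cost -/
theorem Cst.sum {c d : Nd → Fn → ℝ} (hc : Cst c) (hd : Cst d) : Cst (fun p f => c p f + d p f) where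
  nonneg p f := add_nonneg (hc.nonneg p f) (hd.nonneg p f)
  loc p f g h := by rw [hc.loc p f g h, hd.loc p f g h]
  zero p := by rw [hc.zero p, hd.zero p, add_zero]
  add p f g := by linarith [hc.add p f g, hd.add p f g]
  smul p z f := by linarith [hc.smul p z f, hd.smul p z f]
  sup m l f := by linarith [hc.sup m l f, hd.sup m l f]

/-- residual bounded pointwise when the cost is at most `L av_p |f|` -/
theorem ptw_of_lev {c : Nd → Fn → ℝ} {L r : ℝ} {X : Fn} {p : Nd}
    (hcL : ∀ f, c p f ≤ L * ((1 / len p) * ∑ y ∈ iv p, ‖f y‖))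
    (hX : ∀ φ : Fn, ‖∑ y ∈ iv p, X y * (starRingEnd ℂ) (φ y)‖
      ≤ (c p φ + r * (1 + av p φ ^ 2) / 2) * len p) {y : ℤ} (hy : y ∈ iv p) :
    ‖X y‖ ≤ L + r * (len p + 1) / 2 := by
  classical
  have hlen := QVar181.len_pos' p
  have h := hX (fun x => if x = y then 1 else 0)
  have e1 : ∑ x ∈ iv p, X x * (starRingEnd ℂ) (if x = y then (1 : ℂ) else 0) = X y := by
    rw [Finset.sum_eq_single y]
    · simp
    · intro b _ hb
      simp [hb]
    · intro h'
      exact absurd hy h'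
  have e2 : ∑ x ∈ iv p, ‖(if x = y then (1 : ℂ) else 0)‖ = 1 := by
    rw [Finset.sum_eq_single y]
    · simp
    · intro b _ hb
      simp [hb]
    · intro h'
      exact absurd hy h'
  have e3 : av p (fun x => if x = y then (1 : ℂ) else 0) ^ 2 = 1 / len p := by
    have e4 : ∑ x ∈ iv p, ‖(if x = y then (1 : ℂ) else 0)‖ ^ 2 = 1 := by
      rw [Finset.sum_eq_single y]
      · simp
      · intro b _ hb
        simp [hb]
      · intro h'
        exact absurd hy h'
    rw [QVar181.av_sq, e4, mul_one]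
  have h2 := hcL (fun x => if x = y then 1 else 0)
  rw [e1, e3] at h
  rw [e2] at h2
  have h3 : (c p (fun x => if x = y then 1 else 0) + r * (1 + 1 / len p) / 2) * len p
      ≤ (L * (1 / len p * 1) + r * (1 + 1 / len p) / 2) * len p :=
    mul_le_mul_of_nonneg_right (by linarith) hlen.le
  have h4 : (L * (1 / len p * 1) + r * (1 + 1 / len p) / 2) * len p
      = L + r * (len p + 1) / 2 := by
    field_simp
  linarith

/-! ### gauge of a node-dependent dictionary, completed by an `L1` cost -/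

/-- node-dependent dictionary of (atom)/(price): restrictions to the two children are multiples
`λ0, λ1` of dictionary elements with `λ0 + λ1 ≤ 2` -/
structure DicN (D : Nd → Set Fn) : Prop where
  res : ∀ (m : ℕ) (l : ℤ), ∀ φ ∈ D (m + 1, l), ∃ (φ0 φ1 : Fn) (a0 a1 : ℝ), φ0 ∈ D (m, 2 * l) ∧
    φ1 ∈ D (m, 2 * l + 1) ∧ 0 ≤ a0 ∧ 0 ≤ a1 ∧ a0 + a1 ≤ 2 ∧
    (∀ y ∈ iv (m, 2 * l), φ y = a0 * φ0 y) ∧ ∀ y ∈ iv (m, 2 * l + 1), φ y = a1 * φ1 y
  loc : ∀ p, ∀ φ ∈ D p, ∀ ψ : Fn, (∀ y ∈ iv p, φ y = ψ y) → ψ ∈ D p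

/-- cost of one representation -/
noncomputable def rc (L : ℝ) (p : Nd) (f : Fn) {n : ℕ} (φ : Fin n → Fn) (a : Fin n → ℂ) : ℝ :=
  ∑ i, ‖a i‖ + L * ((1 / len p) * ∑ y ∈ iv p, ‖f y - ∑ i, a i * φ i y‖)

/-- the cost: dictionary gauge with an `L1` remainder -/
noncomputable def gc (D : Nd → Set Fn) (L : ℝ) (p : Nd) (f : Fn) : ℝ :=
  sInf {x | ∃ (n : ℕ) (φ : Fin n → Fn) (a : Fin n → ℂ), (∀ i, φ i ∈ D p) ∧ x = rc L p f φ a}

section gauge

variable {D : Nd → Set Fn} {L : ℝ}

theorem rc_nonneg (hL : 0 ≤ L) (p : Nd) (f : Fn) {n : ℕ} (φ : Fin n → Fn) (a : Fin n → ℂ) :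
    0 ≤ rc L p f φ a := by
  unfold rc
  have := QVar181.len_pos' p
  have h1 : 0 ≤ ∑ i, ‖a i‖ := Finset.sum_nonneg fun i _ => norm_nonneg _
  positivity

theorem gc_bdd (hL : 0 ≤ L) (p : Nd) (f : Fn) : BddBelow {x | ∃ (n : ℕ) (φ : Fin n → Fn)
    (a : Fin n → ℂ), (∀ i, φ i ∈ D p) ∧ x = rc L p f φ a} :=
  ⟨0, by rintro x ⟨n, φ, a, _, rfl⟩; exact rc_nonneg hL p f φ a⟩

theorem gc_ne (p : Nd) (f : Fn) : {x | ∃ (n : ℕ) (φ : Fin n → Fn)
    (a : Fin n → ℂ), (∀ i, φ i ∈ D p) ∧ x = rc L p f φ a}.Nonempty :=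
  ⟨_, 0, Fin.elim0, Fin.elim0, fun i => i.elim0, rfl⟩

theorem gc_le (hL : 0 ≤ L) (p : Nd) (f : Fn) {n : ℕ} {φ : Fin n → Fn} {a : Fin n → ℂ}
    (h : ∀ i, φ i ∈ D p) : gc D L p f ≤ rc L p f φ a :=
  csInf_le (gc_bdd hL p f) ⟨n, φ, a, h, rfl⟩

/-- **a near-optimal representation** `f = sum + T`, `sum |a| + L av|T| <= gc + ε` -/
theorem gc_rep (p : Nd) (f : Fn) {ε : ℝ} (hε : 0 < ε) :
    ∃ (n : ℕ) (φ : Fin n → Fn) (a : Fin n → ℂ), (∀ i, φ i ∈ D p) ∧
      rc L p f φ a ≤ gc D L p f + ε := by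
  obtain ⟨x, ⟨n, φ, a, h, rfl⟩, hx⟩ := Real.lt_sInf_add_pos (gc_ne (D := D) (L := L) p f) hε
  exact ⟨n, φ, a, h, hx.le⟩

theorem gc_L1 (hL : 0 ≤ L) (p : Nd) (f : Fn) :
    gc D L p f ≤ L * ((1 / len p) * ∑ y ∈ iv p, ‖f y‖) := by
  refine (gc_le hL p f (n := 0) (φ := Fin.elim0) (a := Fin.elim0) (fun i => i.elim0)).trans
    (le_of_eq ?_)
  unfold rc
  simp

/-- the level against a dictionary element: `<= 1` -/
theorem gc_atom (hL : 0 ≤ L) (p : Nd) {φ : Fn} (h : φ ∈ D p) : gc D L p φ ≤ 1 := by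
  refine (gc_le hL p φ (n := 1) (φ := fun _ => φ) (a := fun _ => 1) (fun _ => h)).trans
    (le_of_eq ?_)
  unfold rc
  simp

theorem cst_gc (hD : DicN D) (hL : 0 ≤ L) : Cst (gc D L) where
  nonneg p f := Real.sInf_nonneg (by rintro x ⟨n, φ, a, _, rfl⟩; exact rc_nonneg hL p f φ a)
  loc p f g h := by
    unfold gc
    congr 1
    ext x
    constructor
    · rintro ⟨n, φ, a, h1, rfl⟩
      refine ⟨n, φ, a, h1, ?_⟩
      unfold rc
      have : ∑ y ∈ iv p, ‖f y - ∑ i, a i * φ i y‖ = ∑ y ∈ iv p, ‖g y - ∑ i, a i * φ i y‖ :=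
        Finset.sum_congr rfl fun y hy => by rw [h y hy]
      rw [this]
    · rintro ⟨n, φ, a, h1, rfl⟩
      refine ⟨n, φ, a, h1, ?_⟩
      unfold rc
      have : ∑ y ∈ iv p, ‖f y - ∑ i, a i * φ i y‖ = ∑ y ∈ iv p, ‖g y - ∑ i, a i * φ i y‖ :=
        Finset.sum_congr rfl fun y hy => by rw [h y hy]
      rw [this]
  zero p := by
    refine le_antisymm ?_ (Real.sInf_nonneg (by
      rintro x ⟨n, φ, a, _, rfl⟩; exact rc_nonneg hL p _ φ a))
    have := gc_L1 (D := D) hL p (fun _ => 0)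
    simpa using this
  add p f g := by
    have hlen := QVar181.len_pos' p
    refine le_of_forall_pos_le_add fun ε hε => ?_
    obtain ⟨n, φ, a, h1, h2⟩ := gc_rep (D := D) (L := L) p f (half_pos hε)
    obtain ⟨m, ψ, b, h3, h4⟩ := gc_rep (D := D) (L := L) p g (half_pos hε)
    have h5 := gc_le hL p (fun y => f y + g y) (n := n + m) (φ := Fin.append φ ψ)
      (a := Fin.append a b) (D := D) (by
        intro i
        refine Fin.addCases (fun i => ?_) (fun i => ?_) i
        · rw [Fin.append_left]; exact h1 i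
        · rw [Fin.append_right]; exact h3 i)
    have h6 : rc L p (fun y => f y + g y) (Fin.append φ ψ) (Fin.append a b)
        ≤ rc L p f φ a + rc L p g ψ b := by
      unfold rc
      rw [Fin.sum_univ_add]
      simp only [Fin.append_left, Fin.append_right]
      have h7 : ∑ y ∈ iv p, ‖f y + g y - ∑ i, Fin.append a b i * Fin.append φ ψ i y‖
          ≤ ∑ y ∈ iv p, ‖f y - ∑ i, a i * φ i y‖ + ∑ y ∈ iv p, ‖g y - ∑ i, b i * ψ i y‖ := by
        rw [← Finset.sum_add_distrib]
        refine Finset.sum_le_sum fun y _ => ?_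
        rw [Fin.sum_univ_add]
        simp only [Fin.append_left, Fin.append_right]
        have e : f y + g y - (∑ i, a i * φ i y + ∑ i, b i * ψ i y)
            = (f y - ∑ i, a i * φ i y) + (g y - ∑ i, b i * ψ i y) := by ring
        rw [e]
        exact norm_add_le _ _
      have h8 := mul_le_mul_of_nonneg_left h7 (by positivity : 0 ≤ L * (1 / len p))
      nlinarith [h8]
    linarith
  smul p z f := by
    have hlen := QVar181.len_pos' p
    refine le_of_forall_pos_le_add fun ε hε => ?_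
    obtain ⟨n, φ, a, h1, h2⟩ := gc_rep (D := D) (L := L) p f
      (show 0 < ε / (‖z‖ + 1) by positivity)
    have h5 := gc_le hL p (fun y => z * f y) (n := n) (φ := φ) (a := fun i => z * a i) h1
    have h6 : rc L p (fun y => z * f y) φ (fun i => z * a i) = ‖z‖ * rc L p f φ a := by
      unfold rc
      have e : ∀ y, ‖z * f y - ∑ i, z * a i * φ i y‖ = ‖z‖ * ‖f y - ∑ i, a i * φ i y‖ := by
        intro y
        have e' : z * f y - ∑ i, z * a i * φ i y = z * (f y - ∑ i, a i * φ i y) := by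
          rw [mul_sub, Finset.mul_sum]
          simp only [mul_assoc]
        rw [e', norm_mul]
      simp only [norm_mul, e, ← Finset.mul_sum]
      ring
    rw [h6] at h5
    have h7 := mul_le_mul_of_nonneg_left h2 (norm_nonneg z)
    have h8 : ‖z‖ * (ε / (‖z‖ + 1)) ≤ ε := by
      rw [mul_div_assoc', div_le_iff₀ (by positivity)]
      nlinarith [norm_nonneg z]
    nlinarith [h5, h7, h8]
  sup m l f := by
    have hl0 : len (m + 1, l) = 2 * len (m, 2 * l) := TWin.len_ch m l _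
    have hl1 : len (m, 2 * l + 1) = len (m, 2 * l) := rfl
    have h0 := QVar181.len_pos' (m, 2 * l)
    refine le_of_forall_pos_le_add fun ε hε => ?_
    obtain ⟨n, φ, a, h1, h2⟩ := gc_rep (D := D) (L := L) (m + 1, l) f (half_pos hε)
    choose φ0 φ1 a0 a1 k0 k1 p0 p1 hs e0 e1 using fun i => hD.res m l (φ i) (h1 i)
    have g0 := gc_le hL (m, 2 * l) f (n := n) (φ := φ0) (a := fun i => a i * a0 i) k0
    have g1 := gc_le hL (m, 2 * l + 1) f (n := n) (φ := φ1) (a := fun i => a i * a1 i) k1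
    have e : ∑ y ∈ iv (m + 1, l), ‖f y - ∑ i, a i * φ i y‖ =
        ∑ y ∈ iv (m, 2 * l), ‖f y - ∑ i, a i * a0 i * φ0 i y‖ +
          ∑ y ∈ iv (m, 2 * l + 1), ‖f y - ∑ i, a i * a1 i * φ1 i y‖ := by
      rw [TWin.sum_ch m l (fun y => ‖f y - ∑ i, a i * φ i y‖)]
      congr 1
      · refine Finset.sum_congr rfl fun y hy => ?_
        congr 2
        exact Finset.sum_congr rfl fun i _ => by rw [e0 i y hy]; ring
      · refine Finset.sum_congr rfl fun y hy => ?_
        congr 2
        exact Finset.sum_congr rfl fun i _ => by rw [e1 i y hy]; ring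
    have hn : ∑ i, ‖a i * (a0 i : ℂ)‖ + ∑ i, ‖a i * (a1 i : ℂ)‖ ≤ 2 * ∑ i, ‖a i‖ := by
      rw [← Finset.sum_add_distrib, Finset.mul_sum]
      refine Finset.sum_le_sum fun i _ => ?_
      rw [norm_mul, norm_mul, Complex.norm_real, Complex.norm_real, Real.norm_eq_abs,
        Real.norm_eq_abs, abs_of_nonneg (p0 i), abs_of_nonneg (p1 i)]
      nlinarith [norm_nonneg (a i), hs i]
    have key : rc L (m, 2 * l) f φ0 (fun i => a i * a0 i) +
        rc L (m, 2 * l + 1) f φ1 (fun i => a i * a1 i) ≤ 2 * rc L (m + 1, l) f φ a := by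
      unfold rc
      rw [hl0, hl1, e]
      have : ∀ A B : ℝ, L * (1 / len (m, 2 * l) * A) + L * (1 / len (m, 2 * l) * B)
          = 2 * (L * (1 / (2 * len (m, 2 * l)) * (A + B))) := by
        intro A B
        field_simp
      nlinarith [this (∑ y ∈ iv (m, 2 * l), ‖f y - ∑ i, a i * a0 i * φ0 i y‖)
        (∑ y ∈ iv (m, 2 * l + 1), ‖f y - ∑ i, a i * a1 i * φ1 i y‖), hn]
    linarith

end gauge

end Crest.Agent.R079.LasN525
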