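import Mathlib

/-! R079, Step II of doc 2531: LEAF TERM DIRECTLY FROM THE PLAIN LEVEL (helper451).

Abstract, unnormalised sums over finsets.  `R a b s` = leveled letter (slot `r`, fixed `z_r`),
`B a s` and `S a b` = the two other letters, one of them an `L²` line letter (cut at height `H`),
the other one bounded by `h`.  The outer index function `α = conj (∑_a R B S)` is POINTWISE bounded,
so that only the `L²` letter has to be cut.  No `S₄`, no octahedral norm, no interpolation.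
-/

set_option autoImplicit false

namespace Crest.Agent.R079.Leaf451

open Finset

variable {α β σ : Type*}

/-- Cauchy-Schwarz for a triple product, one factor bounded -/
theorem tri_le (A : Finset α) (R B S : α → ℂ) {r b h : ℝ} (hh : 0 ≤ h)
    (hR : ∑ a ∈ A, ‖R a‖ ^ 2 ≤ r) (hB : ∑ a ∈ A, ‖B a‖ ^ 2 ≤ b) (hS : ∀ a ∈ A, ‖S a‖ ≤ h) :
    ‖∑ a ∈ A, R a * B a * S a‖ ≤ h * Real.sqrt (r * b) := by
  have h1 : ‖∑ a ∈ A, R a * B a * S a‖ ≤ h * ∑ a ∈ A, ‖R a‖ * ‖B a‖ := by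
    rw [Finset.mul_sum]
    refine (norm_sum_le _ _).trans (Finset.sum_le_sum fun a ha => ?_)
    rw [norm_mul, norm_mul, mul_comm h]
    exact mul_le_mul_of_nonneg_left (hS a ha) (by positivity)
  refine h1.trans (mul_le_mul_of_nonneg_left ?_ hh)
  refine Real.le_sqrt_of_sq_le ?_
  have hr0 : 0 ≤ ∑ a ∈ A, ‖R a‖ ^ 2 := Finset.sum_nonneg fun _ _ => by positivity
  calc (∑ a ∈ A, ‖R a‖ * ‖B a‖) ^ 2 ≤ (∑ a ∈ A, ‖R a‖ ^ 2) * ∑ a ∈ A, ‖B a‖ ^ 2 :=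
        Finset.sum_mul_sq_le_sq_mul_sq _ _ _
    _ ≤ r * b := mul_le_mul hR hB (Finset.sum_nonneg fun _ _ => by positivity) (hr0.trans hR)

/-- **LEAF**: `L²` letter `B a s`, bounded letter `S a b`. -/
theorem leaf (A : Finset α) (Bs : Finset β) (Ss : Finset σ) (R : α → β → σ → ℂ)
    (B : α → σ → ℂ) (S : α → β → ℂ) {h r1 b1 r2 b2 δ H : ℝ} (hh : 0 ≤ h) (hH : 0 < H)
    (hR1 : ∀ b ∈ Bs, ∀ s ∈ Ss, ∑ a ∈ A, ‖R a b s‖ ^ 2 ≤ r1)
    (hB1 : ∀ s ∈ Ss, ∑ a ∈ A, ‖B a s‖ ^ 2 ≤ b1)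
    (hS : ∀ a ∈ A, ∀ b ∈ Bs, ‖S a b‖ ≤ h)
    (hr2 : 0 ≤ r2) (hR2 : ∀ a ∈ A, ∀ s ∈ Ss, ∑ b ∈ Bs, ‖R a b s‖ ≤ r2)
    (hB2 : ∑ a ∈ A, ∑ s ∈ Ss, ‖B a s‖ ^ 2 ≤ b2)
    (hlev : ∀ (a' : β → σ → ℂ) (b' : α → σ → ℂ) (c' : α → β → ℂ),
      (∀ b s, ‖a' b s‖ ≤ 1) → (∀ a s, ‖b' a s‖ ≤ 1) → (∀ a b, ‖c' a b‖ ≤ 1) →
      ‖∑ a ∈ A, ∑ b ∈ Bs, ∑ s ∈ Ss, R a b s * (a' b s * b' a s * c' a b)‖ ≤ δ) :
    ∑ b ∈ Bs, ∑ s ∈ Ss, ‖∑ a ∈ A, R a b s * B a s * S a b‖ ^ 2 ≤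
      h * Real.sqrt (r1 * b1) * (h * (H * δ + r2 * b2 / H)) := by
  classical
  set M : ℝ := h * Real.sqrt (r1 * b1) with hM
  have hM0 : 0 ≤ M := mul_nonneg hh (Real.sqrt_nonneg _)
  have hδ : 0 ≤ δ := by
    have := hlev (fun _ _ => 0) (fun _ _ => 0) (fun _ _ => 0) (by simp) (by simp) (by simp)
    exact (norm_nonneg _).trans this
  -- pointwise bound of the inner sum
  have hpt : ∀ b ∈ Bs, ∀ s ∈ Ss, ‖∑ a ∈ A, R a b s * B a s * S a b‖ ≤ M := fun b hb s hs =>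
    tri_le A (fun a => R a b s) (fun a => B a s) (fun a => S a b) hh (hR1 b hb s hs)
      (hB1 s hs) (fun a ha => hS a ha b hb)
  -- the case `M = 0` or `h = 0`
  rcases hh.eq_or_lt with h0 | hpos
  · have hM' : M = 0 := by rw [hM, ← h0, zero_mul]
    have : ∀ b ∈ Bs, ∀ s ∈ Ss, ‖∑ a ∈ A, R a b s * B a s * S a b‖ ^ 2 ≤ 0 := by
      intro b hb s hs
      have := hpt b hb s hs
      rw [hM'] at this
      have h2 : ‖∑ a ∈ A, R a b s * B a s * S a b‖ = 0 := le_antisymm this (norm_nonneg _)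
      rw [h2]; norm_num
    calc ∑ b ∈ Bs, ∑ s ∈ Ss, ‖∑ a ∈ A, R a b s * B a s * S a b‖ ^ 2 ≤ ∑ b ∈ Bs, ∑ s ∈ Ss, (0 : ℝ) :=
          Finset.sum_le_sum fun b hb => Finset.sum_le_sum fun s hs => this b hb s hs
      _ = 0 := by simp
      _ ≤ _ := by rw [hM', zero_mul]
  rcases hM0.eq_or_lt with hM' | hMpos
  · have : ∀ b ∈ Bs, ∀ s ∈ Ss, ‖∑ a ∈ A, R a b s * B a s * S a b‖ ^ 2 ≤ 0 := by
      intro b hb s hs
      have := hpt b hb s hs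
      rw [← hM'] at this
      have h2 : ‖∑ a ∈ A, R a b s * B a s * S a b‖ = 0 := le_antisymm this (norm_nonneg _)
      rw [h2]; norm_num
    calc ∑ b ∈ Bs, ∑ s ∈ Ss, ‖∑ a ∈ A, R a b s * B a s * S a b‖ ^ 2 ≤ ∑ b ∈ Bs, ∑ s ∈ Ss, (0 : ℝ) :=
          Finset.sum_le_sum fun b hb => Finset.sum_le_sum fun s hs => this b hb s hs
      _ = 0 := by simp
      _ ≤ _ := by rw [← hM', zero_mul]
  -- gauges
  set al : β → σ → ℂ := fun b s => if b ∈ Bs ∧ s ∈ Ss then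
    (starRingEnd ℂ) (∑ a ∈ A, R a b s * B a s * S a b) else 0 with hal
  set Bl : α → σ → ℂ := fun a s => if ‖B a s‖ ≤ H then B a s else 0 with hBl
  set Bh : α → σ → ℂ := fun a s => if ‖B a s‖ ≤ H then 0 else B a s with hBh
  set S' : α → β → ℂ := fun a b => if a ∈ A ∧ b ∈ Bs then S a b else 0 with hS'
  have hBsplit : ∀ a s, B a s = Bl a s + Bh a s := by
    intro a s
    simp only [hBl, hBh]
    split_ifs <;> simp
  have hall : ∀ b s, ‖al b s‖ ≤ M := by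
    intro b s
    simp only [hal]
    split_ifs with hc
    · rw [RCLike.norm_conj]; exact hpt b hc.1 s hc.2
    · simpa using hM0
  have hSl : ∀ a b, ‖S' a b‖ ≤ h := by
    intro a b
    simp only [hS']
    split_ifs with hc
    · exact hS a hc.1 b hc.2
    · simpa using hh
  have hBll : ∀ a s, ‖Bl a s‖ ≤ H := by
    intro a s
    simp only [hBl]
    split_ifs with hc
    · exact hc
    · simpa using hH.le
  have hBhh : ∀ a s, ‖Bh a s‖ ≤ ‖B a s‖ ^ 2 / H := by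
    intro a s
    simp only [hBh]
    split_ifs with hc
    · simp; positivity
    · rw [le_div_iff₀ hH, sq]
      exact mul_le_mul_of_nonneg_left (not_le.mp hc).le (norm_nonneg _)
  -- the quadratic form as a trilinear form
  have hQ : ((∑ b ∈ Bs, ∑ s ∈ Ss, ‖∑ a ∈ A, R a b s * B a s * S a b‖ ^ 2 : ℝ) : ℂ) =
      ∑ a ∈ A, ∑ b ∈ Bs, ∑ s ∈ Ss, R a b s * (al b s * B a s * S' a b) := by
    push_cast
    have e1 : ∀ b ∈ Bs, ∀ s ∈ Ss, ((‖∑ a ∈ A, R a b s * B a s * S a b‖ : ℝ) : ℂ) ^ 2 =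
        ∑ a ∈ A, R a b s * (al b s * B a s * S' a b) := by
      intro b hb s hs
      have e2 : ∑ a ∈ A, R a b s * (al b s * B a s * S' a b) =
          (∑ a ∈ A, R a b s * B a s * S a b) * al b s := by
        rw [Finset.sum_mul]
        refine Finset.sum_congr rfl fun a ha => ?_
        simp only [hS', ha, hb, and_self, if_true]
        ring
      rw [e2]
      simp only [hal, hb, hs, and_self, if_true]
      exact (RCLike.mul_conj _).symm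
    rw [Finset.sum_congr rfl fun b hb => Finset.sum_congr rfl fun s hs => e1 b hb s hs]
    rw [Finset.sum_congr rfl fun b _ => Finset.sum_comm, Finset.sum_comm]
  have hsplit : ∑ a ∈ A, ∑ b ∈ Bs, ∑ s ∈ Ss, R a b s * (al b s * B a s * S' a b) =
      (∑ a ∈ A, ∑ b ∈ Bs, ∑ s ∈ Ss, R a b s * (al b s * Bl a s * S' a b)) +
      ∑ a ∈ A, ∑ b ∈ Bs, ∑ s ∈ Ss, R a b s * (al b s * Bh a s * S' a b) := by
    simp only [← Finset.sum_add_distrib]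
    refine Finset.sum_congr rfl fun a _ => Finset.sum_congr rfl fun b _ =>
      Finset.sum_congr rfl fun s _ => ?_
    rw [hBsplit a s]; ring
  -- low part
  have hlow : ‖∑ a ∈ A, ∑ b ∈ Bs, ∑ s ∈ Ss, R a b s * (al b s * Bl a s * S' a b)‖ ≤
      M * (h * (H * δ)) := by
    have h1 := hlev (fun b s => ((M : ℂ))⁻¹ * al b s) (fun a s => ((H : ℂ))⁻¹ * Bl a s)
      (fun a b => ((h : ℂ))⁻¹ * S' a b)
      (fun b s => by
        rw [norm_mul, norm_inv, Complex.norm_real, Real.norm_of_nonneg hM0,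
          inv_mul_le_iff₀ hMpos, mul_one]
        exact hall b s)
      (fun a s => by
        rw [norm_mul, norm_inv, Complex.norm_real, Real.norm_of_nonneg hH.le,
          inv_mul_le_iff₀ hH, mul_one]
        exact hBll a s)
      (fun a b => by
        rw [norm_mul, norm_inv, Complex.norm_real, Real.norm_of_nonneg hh,
          inv_mul_le_iff₀ hpos, mul_one]
        exact hSl a b)
    have e : ∑ a ∈ A, ∑ b ∈ Bs, ∑ s ∈ Ss, R a b s * (al b s * Bl a s * S' a b) =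
        ((M * h * H : ℝ) : ℂ) * ∑ a ∈ A, ∑ b ∈ Bs, ∑ s ∈ Ss, R a b s *
          (((M : ℂ))⁻¹ * al b s * (((H : ℂ))⁻¹ * Bl a s) * (((h : ℂ))⁻¹ * S' a b)) := by
      have c1 : (M : ℂ) ≠ 0 := by exact_mod_cast hMpos.ne'
      have c2 : (H : ℂ) ≠ 0 := by exact_mod_cast hH.ne'
      have c3 : (h : ℂ) ≠ 0 := by exact_mod_cast hpos.ne'
      simp only [Finset.mul_sum]
      refine Finset.sum_congr rfl fun a _ => Finset.sum_congr rfl fun b _ =>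
        Finset.sum_congr rfl fun s _ => ?_
      push_cast
      field_simp
    rw [e, norm_mul, Complex.norm_real, Real.norm_of_nonneg (by positivity)]
    calc M * h * H * _ ≤ M * h * H * δ := mul_le_mul_of_nonneg_left h1 (by positivity)
      _ = M * (h * (H * δ)) := by ring
  -- high part
  have hhigh : ‖∑ a ∈ A, ∑ b ∈ Bs, ∑ s ∈ Ss, R a b s * (al b s * Bh a s * S' a b)‖ ≤
      M * (h * (r2 * b2 / H)) := by
    calc ‖∑ a ∈ A, ∑ b ∈ Bs, ∑ s ∈ Ss, R a b s * (al b s * Bh a s * S' a b)‖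
        ≤ ∑ a ∈ A, ∑ b ∈ Bs, ∑ s ∈ Ss, ‖R a b s‖ * (M * (‖B a s‖ ^ 2 / H) * h) := by
          refine (norm_sum_le _ _).trans (Finset.sum_le_sum fun a _ => ?_)
          refine (norm_sum_le _ _).trans (Finset.sum_le_sum fun b _ => ?_)
          refine (norm_sum_le _ _).trans (Finset.sum_le_sum fun s _ => ?_)
          rw [norm_mul, norm_mul, norm_mul]
          refine mul_le_mul_of_nonneg_left ?_ (norm_nonneg _)
          exact mul_le_mul (mul_le_mul (hall b s) (hBhh a s) (norm_nonneg _) hM0) (hSl a b)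
            (norm_nonneg _) (by positivity)
      _ = ∑ a ∈ A, ∑ s ∈ Ss, (M * (‖B a s‖ ^ 2 / H) * h) * ∑ b ∈ Bs, ‖R a b s‖ := by
          refine Finset.sum_congr rfl fun a _ => ?_
          rw [Finset.sum_comm]
          refine Finset.sum_congr rfl fun s _ => ?_
          rw [Finset.mul_sum]
          exact Finset.sum_congr rfl fun b _ => mul_comm _ _
      _ ≤ ∑ a ∈ A, ∑ s ∈ Ss, (M * (‖B a s‖ ^ 2 / H) * h) * r2 :=
          Finset.sum_le_sum fun a ha => Finset.sum_le_sum fun s hs =>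
            mul_le_mul_of_nonneg_left (hR2 a ha s hs) (by positivity)
      _ = M * (h * (r2 / H)) * ∑ a ∈ A, ∑ s ∈ Ss, ‖B a s‖ ^ 2 := by
          simp only [Finset.mul_sum]
          refine Finset.sum_congr rfl fun a _ => Finset.sum_congr rfl fun s _ => ?_
          ring
      _ ≤ M * (h * (r2 / H)) * b2 := mul_le_mul_of_nonneg_left hB2 (by positivity)
      _ = M * (h * (r2 * b2 / H)) := by ring
  have hfin : (∑ b ∈ Bs, ∑ s ∈ Ss, ‖∑ a ∈ A, R a b s * B a s * S a b‖ ^ 2 : ℝ) =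
      ‖((∑ b ∈ Bs, ∑ s ∈ Ss, ‖∑ a ∈ A, R a b s * B a s * S a b‖ ^ 2 : ℝ) : ℂ)‖ := by
    rw [Complex.norm_real, Real.norm_of_nonneg]
    exact Finset.sum_nonneg fun _ _ => Finset.sum_nonneg fun _ _ => by positivity
  rw [hfin, hQ, hsplit]
  refine (norm_add_le _ _).trans ((add_le_add hlow hhigh).trans (le_of_eq ?_))
  ring

/-- the same with the optimal cut, in the form `Q ≤ 2 h M √(δ r2 b2)` -/
theorem leaf_opt (A : Finset α) (Bs : Finset β) (Ss : Finset σ) (R : α → β → σ → ℂ)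
    (B : α → σ → ℂ) (S : α → β → ℂ) {h r1 b1 r2 b2 δ : ℝ} (hh : 0 ≤ h)
    (hR1 : ∀ b ∈ Bs, ∀ s ∈ Ss, ∑ a ∈ A, ‖R a b s‖ ^ 2 ≤ r1)
    (hB1 : ∀ s ∈ Ss, ∑ a ∈ A, ‖B a s‖ ^ 2 ≤ b1)
    (hS : ∀ a ∈ A, ∀ b ∈ Bs, ‖S a b‖ ≤ h)
    (hr2 : 0 < r2) (hR2 : ∀ a ∈ A, ∀ s ∈ Ss, ∑ b ∈ Bs, ‖R a b s‖ ≤ r2)
    (hb2 : 0 < b2) (hδ : 0 < δ)
    (hB2 : ∑ a ∈ A, ∑ s ∈ Ss, ‖B a s‖ ^ 2 ≤ b2)
    (hlev : ∀ (a' : β → σ → ℂ) (b' : α → σ → ℂ) (c' : α → β → ℂ),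
      (∀ b s, ‖a' b s‖ ≤ 1) → (∀ a s, ‖b' a s‖ ≤ 1) → (∀ a b, ‖c' a b‖ ≤ 1) →
      ‖∑ a ∈ A, ∑ b ∈ Bs, ∑ s ∈ Ss, R a b s * (a' b s * b' a s * c' a b)‖ ≤ δ) :
    ∑ b ∈ Bs, ∑ s ∈ Ss, ‖∑ a ∈ A, R a b s * B a s * S a b‖ ^ 2 ≤
      2 * h ^ 2 * Real.sqrt (r1 * b1) * Real.sqrt (δ * (r2 * b2)) := by
  set q : ℝ := r2 * b2 with hq
  have hq0 : 0 < q := mul_pos hr2 hb2
  set u : ℝ := Real.sqrt (q / δ) with hu
  have hu0 : 0 < u := Real.sqrt_pos.mpr (div_pos hq0 hδ)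
  have h1 := leaf A Bs Ss R B S hh hu0 hR1 hB1 hS hr2.le hR2 hB2 hlev
  have e : u * δ + q / u = 2 * Real.sqrt (δ * q) := by
    have hs1 : u * δ = Real.sqrt (δ * q) := by
      rw [hu, ← Real.sqrt_sq hδ.le, ← Real.sqrt_mul (by positivity), Real.sqrt_sq hδ.le]
      congr 1; field_simp
    have hs2 : q / u = Real.sqrt (δ * q) := by
      rw [div_eq_iff hu0.ne', hu, ← Real.sqrt_mul (by positivity)]
      rw [show δ * q * (q / δ) = q ^ 2 by field_simp, Real.sqrt_sq hq0.le]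
    rw [hs1, hs2]; ring
  refine h1.trans (le_of_eq ?_)
  rw [e]; ring

/-- **TAIL**: trivial fibre bound `Q ≤ (sup_{b,s} ∑_a ‖R‖²) (sup_a ∑_s ‖B‖²) ∑_a ∑_b ‖S‖²` -/
theorem tail (A : Finset α) (Bs : Finset β) (Ss : Finset σ) (R : α → β → σ → ℂ)
    (B : α → σ → ℂ) (S : α → β → ℂ) {r1 b3 s2 : ℝ} (hr1 : 0 ≤ r1) (hb3 : 0 ≤ b3)
    (hR1 : ∀ b ∈ Bs, ∀ s ∈ Ss, ∑ a ∈ A, ‖R a b s‖ ^ 2 ≤ r1)
    (hB3 : ∀ a ∈ A, ∑ s ∈ Ss, ‖B a s‖ ^ 2 ≤ b3)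
    (hS2 : ∑ a ∈ A, ∑ b ∈ Bs, ‖S a b‖ ^ 2 ≤ s2) :
    ∑ b ∈ Bs, ∑ s ∈ Ss, ‖∑ a ∈ A, R a b s * B a s * S a b‖ ^ 2 ≤ r1 * (b3 * s2) := by
  have h1 : ∀ b ∈ Bs, ∀ s ∈ Ss, ‖∑ a ∈ A, R a b s * B a s * S a b‖ ^ 2 ≤
      r1 * ∑ a ∈ A, ‖B a s‖ ^ 2 * ‖S a b‖ ^ 2 := by
    intro b hb s hs
    have h2 : ‖∑ a ∈ A, R a b s * B a s * S a b‖ ≤ ∑ a ∈ A, ‖R a b s‖ * (‖B a s‖ * ‖S a b‖) := by
      refine (norm_sum_le _ _).trans (le_of_eq (Finset.sum_congr rfl fun a _ => ?_))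
      rw [norm_mul, norm_mul, mul_assoc]
    calc ‖∑ a ∈ A, R a b s * B a s * S a b‖ ^ 2
        ≤ (∑ a ∈ A, ‖R a b s‖ * (‖B a s‖ * ‖S a b‖)) ^ 2 :=
          pow_le_pow_left₀ (norm_nonneg _) h2 2
      _ ≤ (∑ a ∈ A, ‖R a b s‖ ^ 2) * ∑ a ∈ A, (‖B a s‖ * ‖S a b‖) ^ 2 :=
          Finset.sum_mul_sq_le_sq_mul_sq _ _ _
      _ ≤ r1 * ∑ a ∈ A, ‖B a s‖ ^ 2 * ‖S a b‖ ^ 2 := by
          have e : ∑ a ∈ A, (‖B a s‖ * ‖S a b‖) ^ 2 = ∑ a ∈ A, ‖B a s‖ ^ 2 * ‖S a b‖ ^ 2 :=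
            Finset.sum_congr rfl fun a _ => mul_pow _ _ _
          rw [e]
          exact mul_le_mul_of_nonneg_right (hR1 b hb s hs)
            (Finset.sum_nonneg fun _ _ => by positivity)
  calc ∑ b ∈ Bs, ∑ s ∈ Ss, ‖∑ a ∈ A, R a b s * B a s * S a b‖ ^ 2
      ≤ ∑ b ∈ Bs, ∑ s ∈ Ss, r1 * ∑ a ∈ A, ‖B a s‖ ^ 2 * ‖S a b‖ ^ 2 :=
        Finset.sum_le_sum fun b hb => Finset.sum_le_sum fun s hs => h1 b hb s hs
    _ = r1 * ∑ a ∈ A, (∑ s ∈ Ss, ‖B a s‖ ^ 2) * ∑ b ∈ Bs, ‖S a b‖ ^ 2 := by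
        simp only [← Finset.mul_sum]
        congr 1
        rw [Finset.sum_congr rfl fun b _ => Finset.sum_comm, Finset.sum_comm]
        refine Finset.sum_congr rfl fun a _ => ?_
        rw [Finset.sum_comm, Finset.sum_mul]
        refine Finset.sum_congr rfl fun s _ => ?_
        rw [Finset.mul_sum]
    _ ≤ r1 * ∑ a ∈ A, b3 * ∑ b ∈ Bs, ‖S a b‖ ^ 2 :=
        mul_le_mul_of_nonneg_left (Finset.sum_le_sum fun a ha =>
          mul_le_mul_of_nonneg_right (hB3 a ha) (Finset.sum_nonneg fun _ _ => by positivity)) hr1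
    _ = r1 * (b3 * ∑ a ∈ A, ∑ b ∈ Bs, ‖S a b‖ ^ 2) := by rw [Finset.mul_sum A _ b3]
    _ ≤ r1 * (b3 * s2) :=
        mul_le_mul_of_nonneg_left (mul_le_mul_of_nonneg_left hS2 hb3) hr1

end Crest.Agent.R079.Leaf451
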