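import Crest.Agent.R079.TWin4_903

/-! R079, doc 2531 (II.1) in the LINE model (helper429): static windows of a VECTOR-valued letter
`C : ℤ → ℕ → ℂ` (coordinates `k < 2 ^ r`) by the scalar LASSO windows of `TWin4_903` on the finer line
`Y = y * 2 ^ r + k`. -/

set_option autoImplicit false

namespace Crest.Agent.R079.LiftW

open Finset Crest.Agent.R079.Grid Crest.Agent.R079.Growth Crest.Agent.R079.QRed
  Crest.Agent.R079.TWin

/-- the node on the finer line -/
def up (r : ℕ) (p : Nd) : Nd := (p.1 + r, p.2)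

/-- the scalar function on the finer line -/
noncomputable def sc (r : ℕ) (C : ℤ → ℕ → ℂ) : Fn := fun Y => C (Y / 2 ^ r) (Y % 2 ^ r).toNat

/-- coordinates of a scalar function on the finer line -/
def un (r : ℕ) (F : Fn) : ℤ → ℕ → ℂ := fun y k => F (y * 2 ^ r + k)

lemma mem_iv {p : Nd} {y : ℤ} : y ∈ iv p ↔ p.2 * 2 ^ (p.1 + 7) ≤ y ∧ y < (p.2 + 1) * 2 ^ (p.1 + 7) := by
  unfold iv dI
  exact Finset.mem_Ico

lemma mem_iv_up {r : ℕ} {p : Nd} {Y : ℤ} : Y ∈ iv (up r p) ↔ Y / 2 ^ r ∈ iv p := by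
  have h2 : (0 : ℤ) < 2 ^ r := by positivity
  rw [mem_iv, mem_iv, Int.le_ediv_iff_mul_le h2, Int.ediv_lt_iff_lt_mul h2]
  have e : (2 : ℤ) ^ (p.1 + r + 7) = 2 ^ (p.1 + 7) * 2 ^ r := by rw [← pow_add]; congr 1; omega
  simp only [up]
  rw [e, mul_assoc, mul_assoc]

lemma div_add (r : ℕ) (y : ℤ) {k : ℕ} (hk : k < 2 ^ r) : (y * 2 ^ r + k) / 2 ^ r = y := by
  have h2 : (0 : ℤ) < 2 ^ r := by positivity
  have hk' : ((k : ℕ) : ℤ) < 2 ^ r := by exact_mod_cast hk
  rw [add_comm, Int.add_mul_ediv_right _ _ h2.ne', Int.ediv_eq_zero_of_lt (by positivity) hk', zero_add]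

lemma mod_add (r : ℕ) (y : ℤ) {k : ℕ} (hk : k < 2 ^ r) : (y * 2 ^ r + k) % 2 ^ r = k := by
  have h2 : (0 : ℤ) < 2 ^ r := by positivity
  have hk' : ((k : ℕ) : ℤ) < 2 ^ r := by exact_mod_cast hk
  rw [add_comm, Int.add_mul_emod_self_right, Int.emod_eq_of_lt (by positivity) hk']

lemma sc_add (r : ℕ) (C : ℤ → ℕ → ℂ) (y : ℤ) {k : ℕ} (hk : k < 2 ^ r) :
    sc r C (y * 2 ^ r + k) = C y k := by
  unfold sc
  rw [div_add r y hk, mod_add r y hk, Int.toNat_natCast]

lemma mem_up_of {r : ℕ} {p : Nd} {y : ℤ} (hy : y ∈ iv p) {k : ℕ} (hk : k < 2 ^ r) :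
    y * 2 ^ r + (k : ℤ) ∈ iv (up r p) := by
  rw [mem_iv_up, div_add r y hk]; exact hy

/-- sums over the finer line -/
lemma sum_up {M : Type*} [AddCommMonoid M] (r : ℕ) (p : Nd) (F : ℤ → M) :
    ∑ Y ∈ iv (up r p), F Y = ∑ y ∈ iv p, ∑ k ∈ range (2 ^ r), F (y * 2 ^ r + (k : ℤ)) := by
  rw [← Finset.sum_product']
  symm
  refine Finset.sum_nbij' (fun x => x.1 * 2 ^ r + (x.2 : ℤ))
    (fun Y => (Y / 2 ^ r, (Y % 2 ^ r).toNat)) ?_ ?_ ?_ ?_ ?_
  · intro x hx
    rw [Finset.mem_product, Finset.mem_range] at hx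
    exact mem_up_of hx.1 hx.2
  · intro Y hY
    have h2 : (0 : ℤ) < 2 ^ r := by positivity
    rw [Finset.mem_product, Finset.mem_range]
    refine ⟨mem_iv_up.1 hY, ?_⟩
    have h3 := Int.emod_lt_of_pos Y h2
    have h4 := Int.emod_nonneg Y h2.ne'
    simp only
    zify
    rw [Int.toNat_of_nonneg h4]
    exact_mod_cast h3
  · intro x hx
    rw [Finset.mem_product, Finset.mem_range] at hx
    refine Prod.ext ?_ ?_
    · exact div_add r x.1 hx.2
    · simp only
      rw [mod_add r x.1 hx.2, Int.toNat_natCast]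
  · intro Y hY
    have h2 : (0 : ℤ) < 2 ^ r := by positivity
    have h4 := Int.emod_nonneg Y h2.ne'
    simp only
    rw [Int.toNat_of_nonneg h4]
    exact Int.ediv_mul_add_emod Y (2 ^ r)
  · intro x _
    rfl

lemma len_up (r : ℕ) (p : Nd) : len (up r p) = 2 ^ r * len p := by
  unfold len up
  rw [← pow_add]
  congr 1
  simp only
  omega

lemma up_inj {r : ℕ} {p q : Nd} (h : up r p = up r q) : p = q := by
  have h1 := congrArg Prod.fst h
  have h2 := congrArg Prod.snd h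
  simp only [up] at h1 h2
  exact Prod.ext (by omega) h2

lemma iv_up_sub {r : ℕ} {p q : Nd} : iv (up r p) ⊆ iv (up r q) ↔ iv p ⊆ iv q := by
  constructor
  · intro h y hy
    have h1 := h (mem_up_of (r := r) (k := 0) hy (by positivity))
    rw [mem_iv_up, div_add r y (by positivity)] at h1
    exact h1
  · intro h Y hY
    rw [mem_iv_up] at hY ⊢
    exact h hY

lemma dI_iv (p : Nd) : dI (p.1 + 7) p.2 = iv p := rfl

open Classical in
/-- the region on the finer line -/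
noncomputable def upR (r : ℕ) (R : Finset Nd) : Finset Nd := R.image (up r)

lemma mem_upR {r : ℕ} {R : Finset Nd} {p : Nd} : up r p ∈ upR r R ↔ p ∈ R := by
  classical
  unfold upR
  rw [Finset.mem_image]
  constructor
  · rintro ⟨q, hq, e⟩
    rw [← up_inj e]; exact hq
  · intro h
    exact ⟨p, h, rfl⟩

lemma exists_of_mem {r : ℕ} {R : Finset Nd} {q : Nd} (h : q ∈ upR r R) : ∃ p ∈ R, up r p = q := by
  classical
  unfold upR at h
  rw [Finset.mem_image] at h
  exact h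

theorem full_up (r : ℕ) {R : Finset Nd} {J : Nd} (hR : Full R J) : Full (upR r R) (up r J) := by
  refine ⟨⟨fun q hq => ?_, fun q hq q' h1 h2 => ?_⟩, mem_upR.2 hR.top, fun m l hq => ?_⟩
  · obtain ⟨p, hp, rfl⟩ := exists_of_mem hq
    exact iv_up_sub.2 (hR.reg.1 p hp)
  · obtain ⟨p, hp, rfl⟩ := exists_of_mem hq
    -- `q'` is above `up r p`
    have h1' : iv (up r p) ⊆ iv q' := h1
    obtain ⟨j, hj⟩ := Qe292.iv_sub_iff.1 h1'
    have e : q' = up r (p.1 + j, p.2 / 2 ^ j) := by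
      rw [hj]
      refine Prod.ext ?_ ?_
      · simp only [up]; omega
      · simp only [up]
    rw [e] at h2 ⊢
    rw [mem_upR]
    refine hR.reg.2 p hp _ ?_ ?_
    · rw [dI_iv, dI_iv]
      rw [e] at h1'
      exact iv_up_sub.1 h1'
    · exact iv_up_sub.1 h2
  · obtain ⟨p, hp, e⟩ := exists_of_mem hq
    have e1 := congrArg Prod.fst e
    have e2 := congrArg Prod.snd e
    simp only [up] at e1 e2
    rcases Nat.eq_zero_or_pos p.1 with h0 | h0
    · -- level `0`: no children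
      have hm : m + 1 = r := by omega
      constructor
      · intro h
        obtain ⟨p', _, e'⟩ := exists_of_mem h
        have := congrArg Prod.fst e'
        simp only [up] at this
        omega
      · intro h
        obtain ⟨p', _, e'⟩ := exists_of_mem h
        have := congrArg Prod.fst e'
        simp only [up] at this
        omega
    · obtain ⟨m', hm'⟩ : ∃ m', p.1 = m' + 1 := ⟨p.1 - 1, by omega⟩
      have hp' : (m' + 1, l) ∈ R := by
        have : p = (m' + 1, l) := Prod.ext hm' e2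
        rw [← this]; exact hp
      have hm : m = m' + r := by omega
      subst hm
      have e3 : ((m' + r, 2 * l) : Nd) = up r (m', 2 * l) := rfl
      have e4 : ((m' + r, 2 * l + 1) : Nd) = up r (m', 2 * l + 1) := rfl
      rw [e3, e4, mem_upR, mem_upR]
      exact hR.bin m' l hp'

open Classical in
/-- back to the coarse line -/
noncomputable def dn (r : ℕ) (R V : Finset Nd) : Finset Nd := R.filter (fun p => up r p ∈ V)

lemma mem_dn {r : ℕ} {R V : Finset Nd} (hV : V ⊆ upR r R) {p : Nd} :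
    p ∈ dn r R V ↔ up r p ∈ V := by
  classical
  unfold dn
  rw [Finset.mem_filter]
  exact ⟨fun h => h.2, fun h => ⟨mem_upR.1 (hV h), h⟩⟩

theorem full_dn {r : ℕ} {R V : Finset Nd} {K : Nd} (hV : V ⊆ upR r R) (h : Full V (up r K)) :
    Full (dn r R V) K := by
  refine ⟨⟨fun p hp => ?_, fun p hp q h1 h2 => ?_⟩, (mem_dn hV).2 h.top, fun m l hp => ?_⟩
  · exact iv_up_sub.1 (h.reg.1 _ ((mem_dn hV).1 hp))
  · rw [mem_dn hV] at hp ⊢
    refine h.reg.2 _ hp _ ?_ ?_
    · exact iv_up_sub.2 h1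
    · exact iv_up_sub.2 h2
  · rw [mem_dn hV] at hp ⊢
    rw [mem_dn hV]
    have e0 : up r (m + 1, l) = (m + r + 1, l) := Prod.ext (by simp only [up]; omega) rfl
    rw [e0] at hp
    exact h.bin (m + r) l hp

theorem part_dn {r : ℕ} {R : Finset Nd} {S : Finset Nd} {W : Nd → Finset Nd} {c : ℝ}
    (h : Part (upR r R) S W c) :
    Part R (dn r R S) (fun K => dn r R (W (up r K))) c := by
  classical
  have hw : ∀ K ∈ dn r R S, W (up r K) ⊆ upR r R := fun K hK =>
    h.wsub _ ((mem_dn h.sub).1 hK)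
  refine ⟨fun p hp => mem_upR.1 (h.sub ((mem_dn h.sub).1 hp)), fun K hK => ?_, fun K hK p hp => ?_,
    fun K hK K' hK' hne => ?_, fun p hp => ?_, fun p hp => ?_⟩
  · exact full_dn (hw K hK) (h.full _ ((mem_dn h.sub).1 hK))
  · exact mem_upR.1 (hw K hK ((mem_dn (hw K hK)).1 hp))
  · rw [Finset.disjoint_left]
    intro p hp hp'
    rw [mem_dn (hw K hK)] at hp
    rw [mem_dn (hw K' hK')] at hp'
    exact Finset.disjoint_left.1 (h.disj _ ((mem_dn h.sub).1 hK) _ ((mem_dn h.sub).1 hK')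
      (fun e => hne (up_inj e))) hp hp'
  · obtain ⟨K', hK', hpK⟩ := h.cover _ (mem_upR.2 hp)
    obtain ⟨K, hK, rfl⟩ := exists_of_mem (h.sub hK')
    exact ⟨K, (mem_dn h.sub).2 hK', (mem_dn (h.wsub _ hK')).2 hpK⟩
  · have h1 := h.cnt _ (mem_upR.2 hp)
    have h2 : (0 : ℝ) < 2 ^ r := by positivity
    have e : ∑ K ∈ S.filter (fun K => iv K ⊆ iv (up r p)), len K
        = 2 ^ r * ∑ K ∈ (dn r R S).filter (fun K => iv K ⊆ iv p), len K := by
      rw [Finset.mul_sum]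
      symm
      refine Finset.sum_bij (fun K _ => up r K) ?_ ?_ ?_ ?_
      · intro K hK
        rw [Finset.mem_filter, mem_dn h.sub] at hK
        rw [Finset.mem_filter]
        exact ⟨hK.1, iv_up_sub.2 hK.2⟩
      · intro K _ K' _ e
        exact up_inj e
      · intro K' hK'
        rw [Finset.mem_filter] at hK'
        obtain ⟨K, hK, rfl⟩ := exists_of_mem (h.sub hK'.1)
        refine ⟨K, ?_, rfl⟩
        rw [Finset.mem_filter, mem_dn h.sub]
        exact ⟨hK'.1, iv_up_sub.1 hK'.2⟩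
      · intro K _
        rw [len_up]
    rw [e, len_up] at h1
    have h3 : 2 ^ r * ∑ K ∈ (dn r R S).filter (fun K => iv K ⊆ iv p), len K
        ≤ 2 ^ r * (c * len p) := by
      calc _ ≤ c * (2 ^ r * len p) := h1
        _ = 2 ^ r * (c * len p) := by ring
    exact le_of_mul_le_mul_left h3 h2

lemma sc_conj (r : ℕ) (ψ : ℤ → ℕ → ℂ) :
    (fun Y => (starRingEnd ℂ) (sc r ψ Y)) = sc r (fun y k => (starRingEnd ℂ) (ψ y k)) := rfl

/-- **STATIC WINDOWS OF A VECTOR-VALUED LETTER** (LASSO with an arbitrary bounded dictionary `A`) -/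
theorem lift_windows {R : Finset Nd} {J : Nd} (hR : Full R J) (r : ℕ) (C : ℤ → ℕ → ℂ)
    (hC : ∀ p ∈ R, ∑ y ∈ iv p, ∑ k ∈ range (2 ^ r), ‖C y k‖ ^ 2 ≤ 2 ^ r * len p)
    (A : (ℤ → ℕ → ℂ) → Prop) (hconj : ∀ ψ, A ψ → A (fun y k => (starRingEnd ℂ) (ψ y k)))
    (hbd : ∀ ψ, A ψ → ∀ y k, k < 2 ^ r → ‖ψ y k‖ ≤ 1)
    {σ δ : ℝ} (hσ : 0 < σ) (hδ : 0 < δ) :
    ∃ (S : Finset Nd) (W : Nd → Finset Nd), Part R S W (2 + 16 / δ) ∧
      ∀ K ∈ S, ∃ (n : ℕ) (ψ : Fin n → ℤ → ℕ → ℂ) (c : Fin n → ℂ) (E X : ℤ → ℕ → ℂ),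
        (∀ j, A (ψ j)) ∧ ∑ j, ‖c j‖ ≤ 1 / σ ∧
        (∀ y ∈ iv K, ∀ k, k < 2 ^ r → C y k = ∑ j, c j * ψ j y k + E y k + X y k) ∧
        (∀ p ∈ W K, ∑ y ∈ iv p, ∑ k ∈ range (2 ^ r), ‖E y k‖ ^ 2 ≤ 9 * δ * (2 ^ r * len p)) ∧
        (∀ p ∈ W K, ∀ φ, A φ →
          ‖∑ y ∈ iv p, ∑ k ∈ range (2 ^ r), X y k * φ y k‖ ≤ 2 * σ * (2 ^ r * len p)) ∧
        (∀ y ∈ iv K, ∀ k, k < 2 ^ r → ‖E y k‖ ≤ 2 / σ) := by
  classical
  have h2r : (0 : ℝ) < 2 ^ r := by positivity
  -- the dictionary on the finer line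
  let At : Nd → Fn → Prop := fun _ φ => ∃ ψ, A ψ ∧ φ = sc r ψ
  have hkk : ∀ Y : ℤ, (Y % 2 ^ r).toNat < 2 ^ r := by
    intro Y
    have h2 : (0 : ℤ) < 2 ^ r := by positivity
    have h3 := Int.emod_lt_of_pos Y h2
    have h4 := Int.emod_nonneg Y h2.ne'
    zify
    rw [Int.toNat_of_nonneg h4]
    exact_mod_cast h3
  have hA : Dic At := by
    refine ⟨?_, ?_, ?_⟩
    · rintro p φ ⟨ψ, hψ, rfl⟩
      exact ⟨_, hconj ψ hψ, sc_conj r ψ⟩
    · rintro p φ ⟨ψ, hψ, rfl⟩ Y _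
      exact hbd ψ hψ _ _ (hkk Y)
    · rintro p q φ _ h
      exact h
  have hR' := full_up r hR
  -- normalisation
  have hG : ∀ q ∈ upR r R, av q (sc r C) ≤ 1 := by
    intro q hq
    obtain ⟨p, hp, rfl⟩ := exists_of_mem hq
    have h1 := Growth.sum_av (up r p) (sc r C)
    rw [sum_up, len_up] at h1
    have h3 : ∑ y ∈ iv p, ∑ k ∈ range (2 ^ r), ‖sc r C (y * 2 ^ r + (k : ℤ))‖ ^ 2
        = ∑ y ∈ iv p, ∑ k ∈ range (2 ^ r), ‖C y k‖ ^ 2 := by
      refine Finset.sum_congr rfl fun y _ => Finset.sum_congr rfl fun k hk => ?_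
      rw [sc_add r C y (Finset.mem_range.1 hk)]
    rw [h3] at h1
    have h4 := hC p hp
    have h5 : 0 < 2 ^ r * len p := mul_pos h2r (Growth.len_pos p)
    have h6 : av (up r p) (sc r C) ^ 2 ≤ 1 := by
      by_contra h
      push Not at h
      have : 2 ^ r * len p * 1 < 2 ^ r * len p * av (up r p) (sc r C) ^ 2 :=
        mul_lt_mul_of_pos_left h h5
      linarith
    exact abs_le_of_sq_le_sq' (by simpa using h6) zero_le_one |>.2
  -- parameters
  set η : ℝ := min (min (1 / 2) (σ ^ 2)) (δ / (16 * (2 * (1 + (up r J).1)))) with hη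
  have hJ0 : (0 : ℝ) < 1 + (up r J).1 := by positivity
  have hη0 : 0 < η := by
    rw [hη]
    refine lt_min (lt_min (by norm_num) (by positivity)) (by positivity)
  have hη1 : η ≤ 1 / 2 := (min_le_left _ _).trans (min_le_left _ _)
  have hη2 : η ≤ σ ^ 2 := (min_le_left _ _).trans (min_le_right _ _)
  have hη3 : η ≤ δ / (16 * (2 * (1 + (up r J).1))) := min_le_right _ _
  have hη4 : 16 * η * (2 * (1 + (up r J).1)) ≤ δ := by
    rw [le_div_iff₀ (by positivity)] at hη3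
    linarith
  have hη5 : 16 * η ≤ δ := by
    have : 16 * η * 1 ≤ 16 * η * (2 * (1 + (up r J).1)) := by
      refine mul_le_mul_of_nonneg_left ?_ (by positivity)
      have : (0 : ℝ) ≤ (up r J).1 := by positivity
      linarith
    linarith
  obtain ⟨f, t, hNM⟩ := exists_NM hA hσ hη0 (sc r C)
  obtain ⟨S, W, hP, hGd⟩ := exists_windows (ι := Fin 1) hR' (fun _ => At) (fun _ => hA)
    (fun _ => σ) η (fun _ => sc r C) (fun _ => f) (fun _ => t) (fun _ => hNM) (fun _ => hG) hη1 hδ (by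
      simp only [Fintype.card_fin, Nat.cast_one, one_mul]
      linarith)
  have hP' : Part (upR r R) S W (2 + 16 / δ) := by
    simpa using hP
  refine ⟨dn r R S, fun K => dn r R (W (up r K)), part_dn hP', fun K hK => ?_⟩
  have hKS : up r K ∈ S := (mem_dn hP'.sub).1 hK
  have hWs := hP'.wsub _ hKS
  have hWf := hP'.full _ hKS
  have hG' : ∀ p ∈ W (up r K), av p (sc r C) ≤ 1 := fun p hp => hG p (hWs hp)
  obtain ⟨n, φ, c, hφ, hf, hc⟩ := hNM.rep (up r K)
  choose ψ hψ hφψ using hφ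
  refine ⟨n, ψ, c, un r (fun Y => gl (W (up r K)) f Y - f (up r K) Y),
    un r (fun Y => sc r C Y - gl (W (up r K)) f Y), hψ, ?_, ?_, ?_, ?_, ?_⟩
  · exact hc.trans (mass_le' hNM hη1 (hG' _ hWf.top))
  · intro y hy k hk
    have h1 := hf (y * 2 ^ r + (k : ℤ)) (mem_up_of hy hk)
    have h3 : ∀ j, φ j (y * 2 ^ r + (k : ℤ)) = ψ j y k := by
      intro j
      rw [hφψ j, sc_add r (ψ j) y hk]
    simp only [h3] at h1
    simp only [un]
    rw [← h1, sc_add r C y hk]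
    ring
  · intro p hp
    have hp' := (mem_dn hWs).1 hp
    have h1 := av_E_le hA hNM hWf hδ hη5 (hGd _ hKS 0) hp'
    have h3 := Growth.sum_av (up r p) (fun Y => gl (W (up r K)) f Y - f (up r K) Y)
    rw [sum_up, len_up] at h3
    simp only [un]
    rw [h3]
    have h4 : av (up r p) (fun Y => gl (W (up r K)) f Y - f (up r K) Y) ^ 2 ≤ 9 * δ := by
      have h5 := pow_le_pow_left₀ (Growth.av_nonneg _ _) h1 2
      rw [mul_pow, Real.sq_sqrt hδ.le] at h5
      linarith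
    calc _ ≤ 2 ^ r * len p * (9 * δ) :=
          mul_le_mul_of_nonneg_left h4 (mul_pos h2r (Growth.len_pos p)).le
      _ = _ := by ring
  · intro p hp χ hχ
    have hp' := (mem_dn hWs).1 hp
    have h1 := lev_res hA hNM hWf _ hp' (sc r χ) ⟨χ, hχ, rfl⟩
    rw [sum_up, len_up] at h1
    have h3 : Real.sqrt η ≤ σ := by
      rw [← Real.sqrt_sq hσ.le]
      exact Real.sqrt_le_sqrt hη2
    have h4 : ∑ y ∈ iv p, ∑ k ∈ range (2 ^ r), (sc r C (y * 2 ^ r + (k : ℤ))
          - gl (W (up r K)) f (y * 2 ^ r + (k : ℤ))) * sc r χ (y * 2 ^ r + (k : ℤ))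
        = ∑ y ∈ iv p, ∑ k ∈ range (2 ^ r),
          un r (fun Y => sc r C Y - gl (W (up r K)) f Y) y k * χ y k := by
      refine Finset.sum_congr rfl fun y _ => Finset.sum_congr rfl fun k hk => ?_
      rw [sc_add r χ y (Finset.mem_range.1 hk)]
      rfl
    rw [h4] at h1
    refine h1.trans ?_
    refine mul_le_mul_of_nonneg_right (by linarith) (mul_pos h2r (Growth.len_pos p)).le
  · intro y hy k hk
    have hY := mem_up_of (r := r) hy hk
    have h1 := norm_gl_le hNM hA hη1 hWf hG' hY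
    have h3 : ‖f (up r K) (y * 2 ^ r + (k : ℤ))‖ ≤ 1 / σ :=
      (repD_bd hA (hNM.rep _) hY).trans (mass_le' hNM hη1 (hG' _ hWf.top))
    simp only [un]
    refine (norm_sub_le _ _).trans ?_
    calc _ ≤ 1 / σ + 1 / σ := add_le_add h1 h3
      _ = 2 / σ := by ring

end Crest.Agent.R079.LiftW
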