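import Crest.Agent.R079.GlueK_914
import Crest.Agent.R079.Frozen_569

/-! R079, doc 2531 Step II in the LINE model (helper949): the LIFT.  Slot `j` carries a kernel `Φ`
(mixture of atoms), slot `j.succAbove 2` (= slot `3` if `j ≠ 3`) is static and UNMASKED, the two
arbitrary letters (slots `j.succAbove 0, 1`) are masked by the region.  The region sum is bounded by a
sum over the two frozen variables `(w, z) = (x_j, x_3)` of two dimensional box forms over ALL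
positions. -/

set_option autoImplicit false

namespace Crest.Agent.R079.Lift949

open Finset Crest.Agent.R079.Grid Crest.Agent.R079.Pot Crest.Agent.R079.Glue Crest.Agent.R079.GlueK

/-- masked system at level `m`, only the two arbitrary letters are masked -/
noncomputable def F2 (R : Finset (ℕ × ℤ)) (j : Fin 4) (F : Fin 4 → ℤ → ℂ) (m : ℕ) : Fin 4 → ℤ → ℂ :=
  fun k => if k = j.succAbove 0 ∨ k = j.succAbove 1 then msk (Rm R m) (F k) else F k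

lemma F2_self (R : Finset (ℕ × ℤ)) (j : Fin 4) (F : Fin 4 → ℤ → ℂ) (m : ℕ) : F2 R j F m j = F j := by
  unfold F2
  rw [if_neg]
  rintro (h | h)
  · exact Fin.succAbove_ne j 0 h.symm
  · exact Fin.succAbove_ne j 1 h.symm

lemma Lbox_F2 (R : Finset (ℕ × ℤ)) (j : Fin 4) (F : Fin 4 → ℤ → ℂ) (m : ℕ) (l : ℤ)
    (hp : (m, l) ∈ R) (bb : ℤ) (hbb : bb = -1 ∨ bb = -7) (x : ℤ) (hx : x ∈ adm m l) :
    Lbox (2 ^ m) bb F x = Lbox (2 ^ m) bb (F2 R j F m) x := by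
  unfold Lbox
  congr 1
  refine Finset.sum_congr rfl fun u _ => ?_
  congr 1
  refine Finset.prod_congr rfl fun k _ => ?_
  unfold F2
  split_ifs with hk
  · unfold msk
    have h1 := yv_mem m l bb x hbb hx u k
    rw [mem_dI_iff] at h1
    have h2 : yv (2 ^ m) bb x u k ∈ Rm R m := by
      rw [mem_Rm, h1]; exact hp
    rw [if_pos h2]
  · rfl

lemma region_sum2 (R : Finset (ℕ × ℤ)) (J : ℕ × ℤ) (hR : IsRegion R J) (j : Fin 4)
    (F : Fin 4 → ℤ → ℂ) (bb : ℤ) (hbb : bb = -1 ∨ bb = -7) :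
    ∑ p ∈ R, ∑ x ∈ adm p.1 p.2, ‖Lbox (2 ^ p.1) bb F x‖ =
      ∑ m ∈ range (J.1 + 1), ∑ x ∈ (R.filter (fun p => p.1 = m)).biUnion (fun p => adm p.1 p.2),
        ‖Lbox (2 ^ m) bb (F2 R j F m) x‖ := by
  classical
  rw [← Finset.sum_fiberwise_of_maps_to (s := R) (t := range (J.1 + 1)) (g := fun p => p.1)
    (fun p hp => Finset.mem_range.mpr (Nat.lt_succ_of_le (level_le R J hR p hp)))]
  refine Finset.sum_congr rfl fun m _ => ?_
  rw [Finset.sum_biUnion]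
  · refine Finset.sum_congr rfl fun p hp => ?_
    rw [Finset.mem_filter] at hp
    obtain ⟨hp, hpm⟩ := hp
    obtain ⟨m', l⟩ := p
    simp only at hpm
    subst hpm
    refine Finset.sum_congr rfl fun x hx => ?_
    rw [Lbox_F2 R j F m' l hp bb hbb x hx]
  · intro p hp q hq hpq
    rw [Function.onFun, Finset.disjoint_left]
    intro x hx hx'
    rw [Finset.mem_coe, Finset.mem_filter] at hp hq
    have h1 := adm_subset _ _ hx
    have h2 := adm_subset _ _ hx'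
    rw [mem_dI_iff] at h1 h2
    apply hpq
    obtain ⟨p1, p2⟩ := p
    obtain ⟨q1, q2⟩ := q
    simp only at hp hq h1 h2
    obtain ⟨_, rfl⟩ := hp
    obtain ⟨_, hq2⟩ := hq
    subst hq2
    rw [h1] at h2
    rw [h2]

/-- two dimensional box form, `z` frozen -/
noncomputable def D2 (G : ℤ → ℤ → ℤ → ℂ) (N : ℕ) (p0 p1 z : ℤ) : ℂ :=
  (1 / ((N : ℂ) + N) ^ 2) * ∑ i0 : Fin (N + N), ∑ i1 : Fin (N + N),
    ((hsg N i0 * hsg N i1 : ℝ) : ℂ) * G (p0 + ((i0 : ℕ) : ℤ)) (p1 + ((i1 : ℕ) : ℤ)) z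

lemma L3_eq_D2 (G : ℤ → ℤ → ℤ → ℂ) (N : ℕ) (p0 p1 p2 : ℤ) :
    L3 G N p0 p1 p2 = (1 / ((N : ℂ) + N)) * ∑ i2 : Fin (N + N),
      (hsg N i2 : ℂ) * D2 G N p0 p1 (p2 + ((i2 : ℕ) : ℤ)) := by
  unfold L3 D2
  have e : (1 / ((N : ℂ) + N) ^ 3) = (1 / ((N : ℂ) + N)) * (1 / ((N : ℂ) + N) ^ 2) := by
    rw [pow_succ, ← one_div_mul_one_div_rev]
  rw [e, mul_assoc]
  congr 1
  have h : ∀ i2 : Fin (N + N), (hsg N i2 : ℂ) * ((1 / ((N : ℂ) + N) ^ 2) *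
      ∑ i0 : Fin (N + N), ∑ i1 : Fin (N + N), ((hsg N i0 * hsg N i1 : ℝ) : ℂ) *
        G (p0 + ((i0 : ℕ) : ℤ)) (p1 + ((i1 : ℕ) : ℤ)) (p2 + ((i2 : ℕ) : ℤ))) =
      (1 / ((N : ℂ) + N) ^ 2) * ∑ i0 : Fin (N + N), ∑ i1 : Fin (N + N),
        ((hsg N i0 * hsg N i1 * hsg N i2 : ℝ) : ℂ) *
        G (p0 + ((i0 : ℕ) : ℤ)) (p1 + ((i1 : ℕ) : ℤ)) (p2 + ((i2 : ℕ) : ℤ)) := by
    intro i2
    rw [mul_left_comm]
    congr 1
    rw [Finset.mul_sum]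
    refine Finset.sum_congr rfl fun i0 _ => ?_
    rw [Finset.mul_sum]
    refine Finset.sum_congr rfl fun i1 _ => ?_
    push_cast
    ring
  rw [Finset.sum_congr rfl fun i2 _ => h i2, ← Finset.mul_sum]
  congr 1
  rw [Finset.sum_comm]
  conv_rhs => rw [Finset.sum_comm]
  rw [Finset.sum_comm]
  refine Finset.sum_congr rfl fun i0 _ => ?_
  rw [Finset.sum_comm]

lemma norm_L3_le (G : ℤ → ℤ → ℤ → ℂ) (N : ℕ) (p0 p1 p2 : ℤ) :
    ‖L3 G N p0 p1 p2‖ ≤ (1 / ((N : ℝ) + N)) * ∑ i2 ∈ range (N + N),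
      ‖D2 G N p0 p1 (p2 + (i2 : ℤ))‖ := by
  rw [L3_eq_D2, norm_mul]
  have e : ‖(1 / ((N : ℂ) + N))‖ = 1 / ((N : ℝ) + N) := by
    rw [norm_div, norm_one]
    congr 1
    rw [show (N : ℂ) + N = ((N + N : ℕ) : ℂ) by push_cast; ring, Complex.norm_natCast]
    push_cast
    ring
  rw [e, ← Fin.sum_univ_eq_sum_range (fun i => ‖D2 G N p0 p1 (p2 + (i : ℤ))‖)]
  refine mul_le_mul_of_nonneg_left ?_ (by positivity)
  refine (norm_sum_le _ _).trans (Finset.sum_le_sum fun i _ => ?_)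
  rw [norm_mul]
  have e2 : ‖(hsg N i : ℂ)‖ = 1 := by
    rw [Complex.norm_real]
    unfold hsg
    split_ifs <;> simp
  rw [e2, one_mul]


/-- the block sum of level `m` (side `N = 2^m`), offset `n`: all positions, `(w, z)` frozen -/
noncomputable def Sm (j : Fin 4) (T : Fin 3 → Finset ℤ) (Φ : ℤ → ℤ → ℤ → ℂ) (F : Fin 4 → ℤ → ℂ)
    (N : ℕ) (Wf Pf : Finset ℤ) (n : ℤ) : ℝ :=
  ∑ w ∈ Wf, ∑ z ∈ T 2, ∑ p0 ∈ Pf, ‖D2 (pK j T Φ F w) N p0 (n - w - z - p0) z‖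

lemma D2_off (j : Fin 4) (T : Fin 3 → Finset ℤ) (Φ : ℤ → ℤ → ℤ → ℂ) (F : Fin 4 → ℤ → ℂ)
    (N : ℕ) (w p0 p1 z : ℤ) (hz : z ∉ T 2) : D2 (pK j T Φ F w) N p0 p1 z = 0 := by
  unfold D2
  have h : ∀ i0 i1 : Fin (N + N), pK j T Φ F w (p0 + ((i0 : ℕ) : ℤ)) (p1 + ((i1 : ℕ) : ℤ)) z = 0 := by
    intro i0 i1
    unfold pK
    rw [if_neg (fun hh => hz hh.2.2)]
  simp [h]

/-- one level -/
lemma level_le2 (j : Fin 4) (N : ℕ) (hN : 0 < N) (bb : ℤ) (hbb : |bb| ≤ 7) (κ : ℝ) (hκ : 0 ≤ κ)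
    (T : Fin 3 → Finset ℤ) (Φ : ℤ → ℤ → ℤ → ℂ) (F : Fin 4 → ℤ → ℂ) (hF : F j = kerF j κ T Φ)
    (S : Finset ℤ) (L1 : ℕ)
    (hL : ∀ i, ∀ z ∈ T i, |z| + 2 * N ≤ L1) (Wf Pf : Finset ℤ)
    (hW : Icc (-((3 * L1 + 9 * N : ℕ) : ℤ)) ((3 * L1 + 9 * N : ℕ) : ℤ) ⊆ Wf)
    (hPf : Icc (-(L1 : ℤ)) L1 ⊆ Pf) :
    ∃ n : ℤ, |n| ≤ 11 * N ∧ ∑ x ∈ S, ‖Lbox N bb F x‖ ≤ κ * Sm j T Φ F N Wf Pf n := by
  classical
  set P : Finset (ℤ × ℤ × ℤ) := Icc (-(L1 : ℤ)) L1 ×ˢ (Icc (-(L1 : ℤ)) L1 ×ˢ Icc (-(L1 : ℤ)) L1)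
    with hP
  have hPm : ∀ t0 t1 t2 : Fin (N + N), ∀ z0 ∈ T 0, ∀ z1 ∈ T 1, ∀ z2 ∈ T 2,
      (z0 - ((t0 : ℕ) : ℤ), z1 - ((t1 : ℕ) : ℤ), z2 - ((t2 : ℕ) : ℤ)) ∈ P := by
    intro t0 t1 t2 z0 h0 z1 h1 z2 h2
    have c0 := hL 0 z0 h0
    have c1 := hL 1 z1 h1
    have c2 := hL 2 z2 h2
    have a0 := abs_le.mp (le_refl |z0|)
    have a1 := abs_le.mp (le_refl |z1|)
    have a2 := abs_le.mp (le_refl |z2|)
    have d0 := t0.isLt
    have d1 := t1.isLt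
    have d2 := t2.isLt
    rw [hP, Finset.mem_product, Finset.mem_product, Finset.mem_Icc, Finset.mem_Icc,
      Finset.mem_Icc]
    refine ⟨?_, ?_, ?_⟩ <;> constructor <;> simp only <;> omega
  have g := sum_norm_Lbox_kerF_le j N bb κ hκ T Φ F hF S P hPm
  set A : ℕ → ℕ → ℝ := fun v i => ∑ p ∈ P,
    ‖D2 (pK j T Φ F ((v : ℤ) + bb * N - p.1 - p.2.1 - p.2.2)) N p.1 p.2.1 (p.2.2 + (i : ℤ))‖ with hA
  have hN2 : (0 : ℝ) < (N : ℝ) + N := by positivity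
  have g2 : ∑ p ∈ P, (1 / ((N : ℝ) + N)) * ∑ v : Fin (N + N),
      ‖L3 (pK j T Φ F (((v : ℕ) : ℤ) + bb * N - p.1 - p.2.1 - p.2.2)) N p.1 p.2.1 p.2.2‖ ≤
      (1 / ((N : ℝ) + N)) * ∑ v ∈ range (N + N), (1 / ((N : ℝ) + N)) * ∑ i ∈ range (N + N), A v i := by
    rw [← Finset.mul_sum]
    refine mul_le_mul_of_nonneg_left ?_ (by positivity)
    rw [Finset.sum_comm, ← Fin.sum_univ_eq_sum_range (fun v => (1 / ((N : ℝ) + N)) *
      ∑ i ∈ range (N + N), A v i)]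
    refine Finset.sum_le_sum fun v _ => ?_
    refine (Finset.sum_le_sum fun p _ => norm_L3_le _ N p.1 p.2.1 p.2.2).trans ?_
    rw [← Finset.mul_sum, Finset.sum_comm]
  -- one pair of offsets
  have hone : ∀ v ∈ range (N + N), ∀ i ∈ range (N + N),
      A v i ≤ Sm j T Φ F N Wf Pf ((v : ℤ) + bb * N + i) := by
    intro v hv i hi
    rw [Finset.mem_range] at hv hi
    set G : ℤ × ℤ × ℤ → ℝ := fun q =>
      ‖D2 (pK j T Φ F q.1) N q.2.2 ((v : ℤ) + bb * N + i - q.1 - q.2.1 - q.2.2) q.2.1‖ with hG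
    have hG0 : ∀ q, 0 ≤ G q := fun q => norm_nonneg _
    have e1 : Sm j T Φ F N Wf Pf ((v : ℤ) + bb * N + i) = ∑ q ∈ Wf ×ˢ (T 2 ×ˢ Pf), G q := by
      unfold Sm
      rw [Finset.sum_product]
      refine Finset.sum_congr rfl fun w _ => ?_
      rw [Finset.sum_product]
    set φ : ℤ × ℤ × ℤ → ℤ × ℤ × ℤ := fun p =>
      ((v : ℤ) + bb * N - p.1 - p.2.1 - p.2.2, p.2.2 + (i : ℤ), p.1) with hφ
    have hφi : Function.Injective φ := by
      rintro ⟨x, y, z⟩ ⟨x', y', z'⟩ h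
      simp only [hφ, Prod.mk.injEq] at h
      obtain ⟨h1, h2, h3⟩ := h
      subst h3
      have hz : z = z' := by linarith
      subst hz
      have hy : y = y' := by linarith
      rw [hy]
    have e2 : A v i = ∑ p ∈ P, G (φ p) := by
      refine Finset.sum_congr rfl fun p _ => ?_
      simp only [hG, hφ]
      congr 3
      ring
    rw [e1, e2, ← Finset.sum_image (f := G) (g := φ) (s := P) (fun x _ y _ h => hφi h)]
    -- drop the terms with `z ∉ T 2`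
    have e3 : ∑ q ∈ P.image φ, G q = ∑ q ∈ (P.image φ).filter (fun q => q.2.1 ∈ T 2), G q := by
      rw [Finset.sum_filter]
      refine Finset.sum_congr rfl fun q _ => ?_
      split_ifs with hq
      · rfl
      · simp only [hG]
        rw [D2_off j T Φ F N _ _ _ _ hq, norm_zero]
    rw [e3]
    refine Finset.sum_le_sum_of_subset_of_nonneg ?_ fun q _ _ => hG0 q
    intro q hq
    rw [Finset.mem_filter, Finset.mem_image] at hq
    obtain ⟨⟨p, hp, rfl⟩, hz⟩ := hq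
    rw [hP, Finset.mem_product, Finset.mem_product, Finset.mem_Icc, Finset.mem_Icc,
      Finset.mem_Icc] at hp
    rw [Finset.mem_product, Finset.mem_product]
    refine ⟨hW ?_, hz, hPf ?_⟩
    · have hbN : |bb * (N : ℤ)| ≤ 7 * N := by
        rw [abs_mul, abs_of_nonneg (by positivity : (0 : ℤ) ≤ N)]
        exact mul_le_mul_of_nonneg_right hbb (by positivity)
      have hb := abs_le.mp hbN
      simp only [hφ]
      rw [Finset.mem_Icc]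
      push_cast
      have hv' : (v : ℤ) < N + N := by exact_mod_cast hv
      have hv0 : (0 : ℤ) ≤ v := by positivity
      constructor <;> linarith [hp.1.1, hp.1.2, hp.2.1.1, hp.2.1.2, hp.2.2.1, hp.2.2.2, hb.1, hb.2]
    · simp only [hφ]
      rw [Finset.mem_Icc]
      exact hp.1
  -- the maximal pair of offsets
  have hne : (range (N + N) ×ˢ range (N + N)).Nonempty :=
    ⟨(0, 0), by rw [Finset.mem_product]; simp [hN]⟩
  obtain ⟨⟨v0, i0⟩, hvi, hmax⟩ := Finset.exists_max_image (range (N + N) ×ˢ range (N + N))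
    (fun q => Sm j T Φ F N Wf Pf ((q.1 : ℤ) + bb * N + q.2)) hne
  rw [Finset.mem_product, Finset.mem_range, Finset.mem_range] at hvi
  refine ⟨(v0 : ℤ) + bb * N + i0, ?_, ?_⟩
  · have hbN : |bb * (N : ℤ)| ≤ 7 * N := by
      rw [abs_mul, abs_of_nonneg (by positivity : (0 : ℤ) ≤ N)]
      exact mul_le_mul_of_nonneg_right hbb (by positivity)
    have hb := abs_le.mp hbN
    have h1 : (v0 : ℤ) < N + N := by exact_mod_cast hvi.1
    have h2 : (i0 : ℤ) < N + N := by exact_mod_cast hvi.2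
    have h3 : (0 : ℤ) ≤ v0 := by positivity
    have h4 : (0 : ℤ) ≤ i0 := by positivity
    rw [abs_le]
    constructor <;> linarith [hb.1, hb.2]
  · refine g.trans (mul_le_mul_of_nonneg_left (g2.trans ?_) hκ)
    set M := Sm j T Φ F N Wf Pf ((v0 : ℤ) + bb * N + i0) with hM
    have h1 : ∀ v ∈ range (N + N), (1 / ((N : ℝ) + N)) * ∑ i ∈ range (N + N), A v i ≤ M := by
      intro v hv
      have h2 : ∑ i ∈ range (N + N), A v i ≤ ∑ i ∈ range (N + N), M :=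
        Finset.sum_le_sum fun i hi => (hone v hv i hi).trans
          (hmax (v, i) (by rw [Finset.mem_product]; exact ⟨hv, hi⟩))
      rw [Finset.sum_const, Finset.card_range, nsmul_eq_mul] at h2
      refine (mul_le_mul_of_nonneg_left h2 (by positivity)).trans (le_of_eq ?_)
      push_cast
      field_simp
    have h3 := Finset.sum_le_sum h1
    rw [Finset.sum_const, Finset.card_range, nsmul_eq_mul] at h3
    refine (mul_le_mul_of_nonneg_left h3 (by positivity)).trans (le_of_eq ?_)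
    push_cast
    field_simp

/-- **(L1) LIFT** -/
theorem lift1 (Kb : ℝ) (bb : ℤ) (hbb : bb = -1 ∨ bb = -7)
    (R : Finset (ℕ × ℤ)) (J : ℕ × ℤ) (hR : IsRegion R J) (j : Fin 4)
    (T : Fin 3 → Finset ℤ) (Φ : ℤ → ℤ → ℤ → ℂ) (F : Fin 4 → ℤ → ℂ)
    (κ : ℝ) (hκ : 0 ≤ κ) (hFj : F j = kerF j κ T Φ)
    (hblock : ∀ n : ℕ → ℤ, (∀ m, |n m| ≤ 11 * 2 ^ m) → ∀ Wf Pf : Finset ℤ,
      ∑ m ∈ range (J.1 + 1), ∑ w ∈ Wf, ∑ z ∈ T 2, ∑ p0 ∈ Pf,
        ‖D2 (pK j T Φ (F2 R j F m) w) (2 ^ m) p0 (n m - w - z - p0) z‖ ≤ Kb) :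
    ∑ p ∈ R, ∑ x ∈ adm p.1 p.2, ‖Lbox (2 ^ p.1) bb F x‖ ≤ κ * Kb := by
  classical
  obtain ⟨Lt, hLt⟩ := exists_bound T
  set L1 : ℕ := Lt + 2 * 2 ^ (J.1 + 1) with hL1
  set W0 : ℕ := 3 * L1 + 9 * 2 ^ (J.1 + 1) with hW0
  rw [region_sum2 R J hR j F bb hbb]
  have hbb7 : |bb| ≤ 7 := by rcases hbb with rfl | rfl <;> norm_num
  have hlev : ∀ m : ℕ, ∃ n : ℤ, |n| ≤ 11 * 2 ^ m ∧ (m < J.1 + 1 →
      ∑ x ∈ (R.filter (fun p => p.1 = m)).biUnion (fun p => adm p.1 p.2),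
        ‖Lbox (2 ^ m) bb (F2 R j F m) x‖ ≤
      κ * Sm j T Φ (F2 R j F m) (2 ^ m) (Icc (-(W0 : ℤ)) W0) (Icc (-(L1 : ℤ)) L1) n) := by
    intro m
    by_cases hm : m < J.1 + 1
    · have hpow : 2 ^ m ≤ 2 ^ (J.1 + 1) := Nat.pow_le_pow_right (by norm_num) (by omega)
      obtain ⟨n, hn, h⟩ := level_le2 j (2 ^ m) (by positivity) bb hbb7 κ hκ T Φ (F2 R j F m)
        (by rw [F2_self, hFj])
        ((R.filter (fun p => p.1 = m)).biUnion (fun p => adm p.1 p.2)) L1 (by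
          intro i z hz
          have := hLt i z hz
          have h2 : (2 ^ m : ℕ) ≤ 2 ^ (J.1 + 1) := hpow
          have h3 : ((2 ^ m : ℕ) : ℤ) ≤ ((2 ^ (J.1 + 1) : ℕ) : ℤ) := by exact_mod_cast h2
          rw [hL1]
          push_cast at h3 ⊢
          linarith)
        (Icc (-(W0 : ℤ)) W0) (Icc (-(L1 : ℤ)) L1) (by
          intro z hz
          rw [Finset.mem_Icc] at hz ⊢
          have h3 : ((3 * L1 + 9 * 2 ^ m : ℕ) : ℤ) ≤ (W0 : ℤ) := by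
            have : 3 * L1 + 9 * 2 ^ m ≤ W0 := by rw [hW0]; omega
            exact_mod_cast this
          constructor <;> linarith [hz.1, hz.2]) (Finset.Subset.refl _)
      exact ⟨n, by push_cast at hn; exact hn, fun _ => h⟩
    · exact ⟨0, by rw [abs_zero]; positivity, fun h => absurd h hm⟩
  choose n hn hle using hlev
  have h1 := hblock n hn (Icc (-(W0 : ℤ)) W0) (Icc (-(L1 : ℤ)) L1)
  refine (Finset.sum_le_sum fun m hm => hle m (Finset.mem_range.mp hm)).trans ?_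
  rw [← Finset.mul_sum]
  exact mul_le_mul_of_nonneg_left h1 hκ

/-- **(L2) LIFT + Cauchy-Schwarz** -/
theorem lift2 (bb : ℤ) (hbb : bb = -1 ∨ bb = -7)
    (R : Finset (ℕ × ℤ)) (J : ℕ × ℤ) (hR : IsRegion R J) (j : Fin 4)
    (T : Fin 3 → Finset ℤ) (Φ : ℤ → ℤ → ℤ → ℂ) (F : Fin 4 → ℤ → ℂ)
    (κ : ℝ) (hκ : 0 ≤ κ) (hFj : F j = kerF j κ T Φ)
    (b a : ℕ → ℤ → ℤ → ℤ → ℝ) (hb : ∀ m w z p, 0 ≤ b m w z p) (ha : ∀ m w z p, 0 ≤ a m w z p)
    (hba : ∀ m w z p0 p1, m ∈ range (J.1 + 1) → z ∈ T 2 →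
      ‖D2 (pK j T Φ (F2 R j F m) w) (2 ^ m) p0 p1 z‖ ≤ b m w z p0 * a m w z p1)
    (X Y : ℝ)
    (hX : ∀ Wf Pf : Finset ℤ, ∑ m ∈ range (J.1 + 1), ∑ w ∈ Wf, ∑ z ∈ T 2, ∑ p ∈ Pf,
      b m w z p ^ 2 ≤ X)
    (hY : ∀ Wf Pf : Finset ℤ, ∑ m ∈ range (J.1 + 1), ∑ w ∈ Wf, ∑ z ∈ T 2, ∑ p ∈ Pf,
      a m w z p ^ 2 ≤ Y) :
    ∑ p ∈ R, ∑ x ∈ adm p.1 p.2, ‖Lbox (2 ^ p.1) bb F x‖ ≤ κ * Real.sqrt (X * Y) := by
  classical
  refine lift1 _ bb hbb R J hR j T Φ F κ hκ hFj ?_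
  intro n hn Wf Pf
  set I : Finset (ℕ × ℤ × ℤ × ℤ) := range (J.1 + 1) ×ˢ (Wf ×ˢ (T 2 ×ˢ Pf)) with hI
  have hflat : ∀ f : ℕ → ℤ → ℤ → ℤ → ℝ, ∑ m ∈ range (J.1 + 1), ∑ w ∈ Wf, ∑ z ∈ T 2, ∑ p ∈ Pf,
      f m w z p = ∑ q ∈ I, f q.1 q.2.1 q.2.2.1 q.2.2.2 := by
    intro f
    rw [hI, Finset.sum_product]
    refine Finset.sum_congr rfl fun m _ => ?_
    rw [Finset.sum_product]
    refine Finset.sum_congr rfl fun w _ => ?_
    rw [Finset.sum_product]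
  rw [hflat (fun m w z p => ‖D2 (pK j T Φ (F2 R j F m) w) (2 ^ m) p (n m - w - z - p) z‖)]
  have h1 : ∑ q ∈ I, ‖D2 (pK j T Φ (F2 R j F q.1) q.2.1) (2 ^ q.1) q.2.2.2
        (n q.1 - q.2.1 - q.2.2.1 - q.2.2.2) q.2.2.1‖ ≤
      ∑ q ∈ I, b q.1 q.2.1 q.2.2.1 q.2.2.2 *
        a q.1 q.2.1 q.2.2.1 (n q.1 - q.2.1 - q.2.2.1 - q.2.2.2) := by
    refine Finset.sum_le_sum fun q hq => ?_
    rw [hI, Finset.mem_product, Finset.mem_product, Finset.mem_product] at hq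
    exact hba _ _ _ _ _ hq.1 hq.2.2.1
  refine h1.trans ?_
  refine (Real.sum_mul_le_sqrt_mul_sqrt I _ _).trans ?_
  have hY0 : 0 ≤ Y := by
    have := hY ∅ ∅
    simpa using this
  rw [Real.sqrt_mul' X hY0]
  refine mul_le_mul (Real.sqrt_le_sqrt ?_) (Real.sqrt_le_sqrt ?_) (Real.sqrt_nonneg _)
    (Real.sqrt_nonneg _)
  · rw [← hflat (fun m w z p => b m w z p ^ 2)]
    exact hX Wf Pf
  · -- reindex the positions `p ↦ n m - w - z - p`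
    rw [← hflat (fun m w z p => a m w z (n m - w - z - p) ^ 2)]
    set Pf' : Finset ℤ := (range (J.1 + 1) ×ˢ (Wf ×ˢ (T 2 ×ˢ Pf))).image
      (fun q => n q.1 - q.2.1 - q.2.2.1 - q.2.2.2) with hPf'
    refine le_trans ?_ (hY Wf Pf')
    refine Finset.sum_le_sum fun m hm => Finset.sum_le_sum fun w hw => Finset.sum_le_sum fun z hz => ?_
    have e : ∑ p ∈ Pf, a m w z (n m - w - z - p) ^ 2 =
        ∑ p ∈ Pf.image (fun p => n m - w - z - p), a m w z p ^ 2 := by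
      rw [Finset.sum_image (fun x _ y _ h => by linarith [h])]
    rw [e]
    refine Finset.sum_le_sum_of_subset_of_nonneg ?_ fun q _ _ => by positivity
    intro q hq
    rw [Finset.mem_image] at hq
    obtain ⟨p, hp, rfl⟩ := hq
    rw [hPf', Finset.mem_image]
    exact ⟨(m, w, z, p), by
      rw [Finset.mem_product, Finset.mem_product, Finset.mem_product]
      exact ⟨hm, hw, hz, hp⟩, rfl⟩

end Crest.Agent.R079.Lift949
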