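import Crest.Agent.R079.L0e_292

/-! R079, L5 item 0 (helper853), part 1: the maximal theorem `∑ M^s ≤ C_s ∑ |g|^s`, `s > 2` real, for
the running maximum `Mr` of the local `L²` averages (potential `s/(s-2) M^(s-2) a² - M^s`), and the
power chain estimate for the tops of the classes. -/

set_option autoImplicit false

namespace Crest.Agent.R079.Lq853

open Finset Grid L0e

/-- Young's inequality in the form used below. -/
lemma young_s (s M a : ℝ) (hs : 2 < s) (hM : 0 ≤ M) (ha : 0 ≤ a) :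
    s / (s - 2) * (M ^ (s - 2) * a ^ 2) ≤ M ^ s + 2 / (s - 2) * a ^ s := by
  have hs0 : 0 < s := by linarith
  have hs2 : 0 < s - 2 := by linarith
  have h := Real.geom_mean_le_arith_mean2_weighted (w₁ := (s - 2) / s) (w₂ := 2 / s)
    (p₁ := M ^ s) (p₂ := a ^ s) (by positivity) (by positivity) (Real.rpow_nonneg hM _)
    (Real.rpow_nonneg ha _) (by field_simp; ring)
  rw [← Real.rpow_mul hM, ← Real.rpow_mul ha] at h
  have e1 : s * ((s - 2) / s) = s - 2 := by field_simp
  have e2 : s * (2 / s) = (2 : ℕ) := by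
    push_cast
    field_simp
  rw [e1, e2, Real.rpow_natCast] at h
  have h2 := mul_le_mul_of_nonneg_left h (by positivity : 0 ≤ s / (s - 2))
  refine h2.trans (le_of_eq ?_)
  field_simp

/-- scaled version -/
lemma young_s2 (s M t : ℝ) (hs : 2 < s) (hM : 0 ≤ M) (ht : 0 ≤ t) :
    s / (s - 2) * (M ^ (s - 2) * t ^ 2) ≤ M ^ s / 2 + 2 / (s - 2) * 2 ^ s * t ^ s := by
  have hs0 : 0 < s := by linarith
  have hs2 : 0 < s - 2 := by linarith
  -- apply to `M / 2^(1/s)` and `2^((s-2)/(2 s)) t`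
  set u : ℝ := (2 : ℝ) ^ (-(1 / s)) with hu
  set v : ℝ := (2 : ℝ) ^ ((s - 2) / (2 * s)) with hv
  have hu0 : 0 < u := Real.rpow_pos_of_pos (by norm_num) _
  have hv0 : 0 < v := Real.rpow_pos_of_pos (by norm_num) _
  have h := young_s s (u * M) (v * t) hs (by positivity) (by positivity)
  rw [Real.mul_rpow hu0.le hM, Real.mul_rpow hu0.le hM, Real.mul_rpow hv0.le ht, mul_pow] at h
  have e1 : u ^ (s - 2) * v ^ 2 = 1 := by
    rw [hu, hv, ← Real.rpow_mul (by norm_num), ← Real.rpow_natCast, ← Real.rpow_mul (by norm_num),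
      ← Real.rpow_add (by norm_num)]
    have : -(1 / s) * (s - 2) + (s - 2) / (2 * s) * ((2 : ℕ) : ℝ) = 0 := by
      push_cast
      field_simp
      ring
    rw [this, Real.rpow_zero]
  have e2 : u ^ s = 1 / 2 := by
    rw [hu, ← Real.rpow_mul (by norm_num)]
    have : -(1 / s) * s = -1 := by field_simp
    rw [this, Real.rpow_neg_one]
    norm_num
  have e3 : v ^ s ≤ 2 ^ s := by
    refine Real.rpow_le_rpow hv0.le ?_ hs0.le
    rw [hv]
    calc (2 : ℝ) ^ ((s - 2) / (2 * s)) ≤ (2 : ℝ) ^ (1 : ℝ) := by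
          refine Real.rpow_le_rpow_of_exponent_le (by norm_num) ?_
          rw [div_le_one (by positivity)]
          linarith
      _ = 2 := Real.rpow_one _
  have e4 : s / (s - 2) * (M ^ (s - 2) * t ^ 2) =
      s / (s - 2) * (u ^ (s - 2) * M ^ (s - 2) * (v ^ 2 * t ^ 2)) := by
    have : u ^ (s - 2) * M ^ (s - 2) * (v ^ 2 * t ^ 2) =
        (u ^ (s - 2) * v ^ 2) * (M ^ (s - 2) * t ^ 2) := by ring
    rw [this, e1, one_mul]
  rw [e4]
  refine h.trans ?_
  rw [e2]
  have ht' : 0 ≤ t ^ s := Real.rpow_nonneg ht _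
  have h5 : v ^ s * t ^ s ≤ 2 ^ s * t ^ s := mul_le_mul_of_nonneg_right e3 ht'
  have h6 : 2 / (s - 2) * (v ^ s * t ^ s) ≤ 2 / (s - 2) * (2 ^ s * t ^ s) :=
    mul_le_mul_of_nonneg_left h5 (by positivity)
  calc 1 / 2 * M ^ s + 2 / (s - 2) * (v ^ s * t ^ s)
      ≤ 1 / 2 * M ^ s + 2 / (s - 2) * (2 ^ s * t ^ s) := by linarith
    _ = _ := by ring

/-- potential density -/
noncomputable def ph (s M a : ℝ) : ℝ := s / (s - 2) * (M ^ (s - 2) * a ^ 2) - M ^ s

lemma ph_child (s M a : ℝ) (hs : 2 < s) (hM : 0 ≤ M) (ha : 0 ≤ a) :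
    ph s M a ≤ ph s (max M a) a := by
  rcases le_total M a with h | h
  · rw [max_eq_right h]
    have h1 := young_s s M a hs hM ha
    have hs2 : 0 < s - 2 := by linarith
    have e : ph s a a = 2 / (s - 2) * a ^ s := by
      unfold ph
      have : a ^ (s - 2) * a ^ 2 = a ^ s := by
        rw [← Real.rpow_natCast, ← Real.rpow_add_of_nonneg ha (by linarith) (by norm_num)]
        congr 1
        push_cast
        ring
      rw [this]
      field_simp
      ring
    rw [e]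
    unfold ph
    linarith
  · rw [max_eq_left h]

lemma ph_self_nonneg (s a : ℝ) (hs : 2 < s) (ha : 0 ≤ a) : 0 ≤ ph s a a := by
  have hs2 : 0 < s - 2 := by linarith
  have e : ph s a a = 2 / (s - 2) * a ^ s := by
    unfold ph
    have : a ^ (s - 2) * a ^ 2 = a ^ s := by
      rw [← Real.rpow_natCast, ← Real.rpow_add_of_nonneg ha (by linarith) (by norm_num)]
      congr 1
      push_cast
      ring
    rw [this]
    field_simp
    ring
  rw [e]
  have := Real.rpow_nonneg ha s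
  positivity

/-- the potential -/
noncomputable def Ws (s : ℝ) (T : ℕ) (f : ℤ → ℂ) (A B : ℤ) (d : ℕ) : ℝ :=
  ∑ l ∈ Finset.Ico (A * 2 ^ d) (B * 2 ^ d),
    2 ^ (T - d + 7) * ph s (Mr T f d l) (av2 (T - d + 7) l f)

lemma Ws_zero (s : ℝ) (hs : 2 < s) (T : ℕ) (f : ℤ → ℂ) (A B : ℤ) : 0 ≤ Ws s T f A B 0 := by
  unfold Ws
  refine Finset.sum_nonneg fun l _ => ?_
  have h : (0 : ℝ) ≤ av2 (T + 7) l f := av2_nonneg _ _ _
  have e : ph s (Mr T f 0 l) (av2 (T - 0 + 7) l f) = ph s (av2 (T + 7) l f) (av2 (T + 7) l f) := by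
    simp only [Mr, Nat.sub_zero]
  rw [e]
  exact mul_nonneg (by positivity) (ph_self_nonneg s _ hs h)

lemma Ws_succ (s : ℝ) (hs : 2 < s) (T : ℕ) (f : ℤ → ℂ) (A B : ℤ) (d : ℕ) (hd : d + 1 ≤ T) :
    Ws s T f A B d ≤ Ws s T f A B (d + 1) := by
  unfold Ws
  have e1 : A * (2 : ℤ) ^ (d + 1) = 2 * (A * 2 ^ d) := by ring
  have e2 : B * (2 : ℤ) ^ (d + 1) = 2 * (B * 2 ^ d) := by ring
  rw [e1, e2, sum_two]
  refine Finset.sum_le_sum fun l _ => ?_
  obtain ⟨k, hk⟩ : ∃ k, T = d + 1 + k := Nat.exists_eq_add_of_le hd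
  have k1 : T - d + 7 = (T - (d + 1) + 7) + 1 := by omega
  rw [k1]
  set n := T - (d + 1) + 7 with hn
  have hav := av2_sq_succ n l f
  have m0 : Mr T f (d + 1) (2 * l) = max (Mr T f d l) (av2 n (2 * l) f) := by
    simp only [Mr]
    rw [show 2 * l / 2 = l by omega]
  have m1 : Mr T f (d + 1) (2 * l + 1) = max (Mr T f d l) (av2 n (2 * l + 1) f) := by
    simp only [Mr]
    rw [show (2 * l + 1) / 2 = l by omega]
  rw [m0, m1]
  have c0 := ph_child s (Mr T f d l) (av2 n (2 * l) f) hs (Mr_nonneg _ _ _ _) (av2_nonneg _ _ _)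
  have c1 := ph_child s (Mr T f d l) (av2 n (2 * l + 1) f) hs (Mr_nonneg _ _ _ _)
    (av2_nonneg _ _ _)
  have hp : (0 : ℝ) < 2 ^ n := by positivity
  rw [pow_succ, mul_assoc, ← mul_add]
  refine mul_le_mul_of_nonneg_left ?_ hp.le
  calc 2 * ph s (Mr T f d l) (av2 (n + 1) l f)
      = ph s (Mr T f d l) (av2 n (2 * l) f) + ph s (Mr T f d l) (av2 n (2 * l + 1) f) := by
        unfold ph
        linear_combination (s / (s - 2) * Mr T f d l ^ (s - 2)) * hav
    _ ≤ _ := add_le_add c0 c1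

lemma Ws_nonneg (s : ℝ) (hs : 2 < s) (T : ℕ) (f : ℤ → ℂ) (A B : ℤ) :
    ∀ d, d ≤ T → 0 ≤ Ws s T f A B d
  | 0, _ => Ws_zero s hs T f A B
  | (d + 1), h => (Ws_nonneg s hs T f A B d (by omega)).trans (Ws_succ s hs T f A B d h)

/-- **maximal theorem**, exponent `s > 2`, one window of tops. -/
theorem max_thm_s (s : ℝ) (hs : 2 < s) (T : ℕ) (f : ℤ → ℂ) (A B : ℤ) :
    ∑ l ∈ Finset.Ico (A * 2 ^ T) (B * 2 ^ T), 2 ^ 7 * Mr T f T l ^ s ≤
      4 / (s - 2) * 2 ^ s *
        ∑ l ∈ Finset.Ico (A * 2 ^ T) (B * 2 ^ T), ∑ y ∈ dI 7 l, ‖f y‖ ^ s := by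
  have h := Ws_nonneg s hs T f A B T le_rfl
  unfold Ws at h
  rw [Nat.sub_self, zero_add] at h
  have h2 : ∀ l : ℤ, (2 : ℝ) ^ 7 * ph s (Mr T f T l) (av2 7 l f) ≤
      2 / (s - 2) * 2 ^ s * ∑ y ∈ dI 7 l, ‖f y‖ ^ s - (1 / 2) * (2 ^ 7 * Mr T f T l ^ s) := by
    intro l
    have hs' := sum_sq_eq 7 l f
    have hcard := dI_card 7 l
    have h3 : ∑ y ∈ dI 7 l, (s / (s - 2) * (Mr T f T l ^ (s - 2) * ‖f y‖ ^ 2)) ≤
        ∑ y ∈ dI 7 l, (Mr T f T l ^ s / 2 + 2 / (s - 2) * 2 ^ s * ‖f y‖ ^ s) :=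
      Finset.sum_le_sum fun y _ => young_s2 s _ _ hs (Mr_nonneg _ _ _ _) (norm_nonneg _)
    rw [← Finset.mul_sum, ← Finset.mul_sum, hs', Finset.sum_add_distrib, Finset.sum_const,
      nsmul_eq_mul, hcard, ← Finset.mul_sum] at h3
    unfold ph
    linarith
  have h4 := h.trans (Finset.sum_le_sum fun l (_ : l ∈ Finset.Ico (A * 2 ^ T) (B * 2 ^ T)) => h2 l)
  rw [Finset.sum_sub_distrib, ← Finset.mul_sum, ← Finset.mul_sum] at h4
  generalize (∑ i ∈ Finset.Ico (A * 2 ^ T) (B * 2 ^ T), ∑ y ∈ dI 7 i, ‖f y‖ ^ s) = X at h4 ⊢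
  generalize (∑ i ∈ Finset.Ico (A * 2 ^ T) (B * 2 ^ T), 2 ^ 7 * Mr T f T i ^ s) = Y at h4 ⊢
  have e : 4 / (s - 2) * (2 : ℝ) ^ s * X = 2 * (2 / (s - 2) * 2 ^ s * X) := by ring
  rw [e]
  linarith

/-- power chain estimate -/
lemma chain_th (th : ℝ) (h0 : 1 / 2 ≤ th) (T : ℕ) (F : Fin 4 → ℤ → ℂ) (A B l : ℤ) :
    ∀ d i : ℕ, i + d = T + 1 →
      (∑ k ∈ (Finset.Ico i (T + 1)).filter (fun k => anc (0, l) k ∈ tops T F A B),
        ((2 : ℝ) ^ (Nc T F (anc (0, l) k))) ^ th) ≤
      if i ≤ T ∧ 0 < G T F (anc (0, l) i) then 4 * ((2 : ℝ) ^ (Nc T F (anc (0, l) i))) ^ th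
        else 0 := by
  classical
  have hth : 0 < th := by linarith
  intro d
  induction d with
  | zero =>
    intro i hi
    rw [show i = T + 1 by omega]
    simp
  | succ d ih =>
    intro i hi
    have hiT : i ≤ T := by omega
    have h1 := ih (i + 1) (by omega)
    have e : Finset.Ico i (T + 1) = insert i (Finset.Ico (i + 1) (T + 1)) := by
      ext k
      simp only [Finset.mem_Ico, Finset.mem_insert]
      omega
    rw [e, Finset.filter_insert]
    have hni : i ∉ (Finset.Ico (i + 1) (T + 1)).filter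
        (fun k => anc (0, l) k ∈ tops T F A B) := by
      simp
    have hstep : anc (anc (0, l) i) 1 = anc (0, l) (i + 1) := anc_anc _ _ _
    have hfst : (anc (0, l) i).1 = i := by simp [anc]
    have hmono : i + 1 ≤ T → 0 < G T F (anc (0, l) (i + 1)) →
        Nc T F (anc (0, l) (i + 1)) ≤ Nc T F (anc (0, l) i) := by
      intro h3 h4
      have := Nc_anc T F (anc (0, l) i) 1 (by rw [hfst]; exact h3) (by rw [hstep]; exact h4)
      rwa [hstep] at this
    by_cases htop : anc (0, l) i ∈ tops T F A B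
    · rw [if_pos htop, Finset.sum_insert hni]
      have htop' := htop
      unfold tops U' at htop'
      rw [Finset.mem_filter, Finset.mem_filter, hfst] at htop'
      obtain ⟨⟨_, hG⟩, h5⟩ := htop'
      rw [if_pos ⟨hiT, hG⟩]
      have hpos : (0 : ℝ) ≤ ((2 : ℝ) ^ (Nc T F (anc (0, l) i))) ^ th := by positivity
      have h2 : (∑ k ∈ (Finset.Ico (i + 1) (T + 1)).filter
          (fun k => anc (0, l) k ∈ tops T F A B), ((2 : ℝ) ^ (Nc T F (anc (0, l) k))) ^ th) ≤
          3 * ((2 : ℝ) ^ (Nc T F (anc (0, l) i))) ^ th := by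
        refine h1.trans ?_
        by_cases h3 : i + 1 ≤ T ∧ 0 < G T F (anc (0, l) (i + 1))
        · rw [if_pos h3]
          obtain ⟨h3, h4⟩ := h3
          have h6 := hmono h3 h4
          have h5 := h5 h3
          unfold Pc at h5
          rw [hstep] at h5
          have h7 : Nc T F (anc (0, l) (i + 1)) + 1 ≤ Nc T F (anc (0, l) i) := by
            rcases h6.lt_or_eq with h | h
            · omega
            · exact absurd ⟨h4, h⟩ h5
          have h8 : 2 * (2 : ℝ) ^ (Nc T F (anc (0, l) (i + 1))) ≤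
              (2 : ℝ) ^ (Nc T F (anc (0, l) i)) := by
            calc 2 * (2 : ℝ) ^ (Nc T F (anc (0, l) (i + 1)))
                = (2 : ℝ) ^ (Nc T F (anc (0, l) (i + 1)) + 1) := by
                  rw [zpow_add_one₀ (by norm_num)]; ring
              _ ≤ _ := zpow_le_zpow_right₀ (by norm_num) h7
          have h9 : (2 * (2 : ℝ) ^ (Nc T F (anc (0, l) (i + 1)))) ^ th ≤
              ((2 : ℝ) ^ (Nc T F (anc (0, l) i))) ^ th :=
            Real.rpow_le_rpow (by positivity) h8 hth.le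
          rw [Real.mul_rpow (by norm_num) (by positivity)] at h9
          have h10 : (4 / 3 : ℝ) ≤ (2 : ℝ) ^ th := by
            have h11 : (2 : ℝ) ^ (1 / 2 : ℝ) ≤ (2 : ℝ) ^ th :=
              Real.rpow_le_rpow_of_exponent_le (by norm_num) h0
            refine le_trans ?_ h11
            rw [← Real.sqrt_eq_rpow]
            refine Real.le_sqrt_of_sq_le ?_
            norm_num
          have h12 : (0 : ℝ) ≤ ((2 : ℝ) ^ (Nc T F (anc (0, l) (i + 1)))) ^ th := by positivity
          nlinarith [mul_le_mul_of_nonneg_right h10 h12]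
        · rw [if_neg h3]
          positivity
      linarith
    · rw [if_neg htop]
      refine h1.trans ?_
      by_cases h3 : i + 1 ≤ T ∧ 0 < G T F (anc (0, l) (i + 1))
      · rw [if_pos h3]
        obtain ⟨h3, h4⟩ := h3
        have h6 := hmono h3 h4
        have hG : 0 < G T F (anc (0, l) i) := by
          have := G_anc T F (anc (0, l) i) 1 (by rw [hfst]; exact h3)
          rw [hstep] at this
          exact h4.trans_le this
        rw [if_pos ⟨hiT, hG⟩]
        refine mul_le_mul_of_nonneg_left ?_ (by norm_num)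
        exact Real.rpow_le_rpow (by positivity) (zpow_le_zpow_right₀ (by norm_num) h6) hth.le
      · rw [if_neg h3]
        split_ifs
        · positivity
        · exact le_refl _

lemma chain_G_th (th : ℝ) (h0 : 1 / 2 ≤ th) (h1 : th ≤ 2) (T : ℕ) (F : Fin 4 → ℤ → ℂ)
    (A B l : ℤ) :
    (∑ J ∈ (tops T F A B).filter (fun J => l ∈ dI J.1 J.2), G T F J ^ th) ≤
      16 * G T F (0, l) ^ th := by
  classical
  have hth : 0 < th := by linarith
  have h := chain_th th h0 T F A B l (T + 1) 0 (by omega)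
  have e : (tops T F A B).filter (fun J => l ∈ dI J.1 J.2) =
      ((Finset.Ico 0 (T + 1)).filter (fun k => anc (0, l) k ∈ tops T F A B)).image
        (anc (0, l)) := by
    ext J
    simp only [Finset.mem_filter, Finset.mem_image, Finset.mem_Ico]
    constructor
    · rintro ⟨h1, h2⟩
      rw [mem_dI] at h2
      have hJ : anc (0, l) J.1 = J := by
        apply Prod.ext
        · simp [anc]
        · exact h2
      have hT : J.1 ≤ T := by
        have h3 := h1
        unfold tops U' at h3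
        rw [Finset.mem_filter, Finset.mem_filter] at h3
        exact (mem_U.mp h3.1.1).1
      exact ⟨J.1, ⟨by omega, by rw [hJ]; exact h1⟩, hJ⟩
    · rintro ⟨k, ⟨_, h2⟩, rfl⟩
      refine ⟨h2, ?_⟩
      rw [mem_dI]
      simp [anc]
  have h4 : (2 : ℝ) ^ th ≤ 4 := by
    calc (2 : ℝ) ^ th ≤ (2 : ℝ) ^ (2 : ℝ) :=
          Real.rpow_le_rpow_of_exponent_le (by norm_num) h1
      _ = 4 := by norm_num
  rw [e, Finset.sum_image]
  · calc (∑ k ∈ (Finset.Ico 0 (T + 1)).filter (fun k => anc (0, l) k ∈ tops T F A B),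
          G T F (anc (0, l) k) ^ th) ≤
        ∑ k ∈ (Finset.Ico 0 (T + 1)).filter (fun k => anc (0, l) k ∈ tops T F A B),
          4 * ((2 : ℝ) ^ (Nc T F (anc (0, l) k))) ^ th := by
          refine Finset.sum_le_sum fun k _ => ?_
          have h5 := Real.rpow_le_rpow (G_nonneg T F _) (lt_Nc T F (anc (0, l) k)).le hth.le
          rw [Real.mul_rpow (by norm_num) (by positivity)] at h5
          exact h5.trans (mul_le_mul_of_nonneg_right h4 (by positivity))
      _ = 4 * ∑ k ∈ (Finset.Ico 0 (T + 1)).filter (fun k => anc (0, l) k ∈ tops T F A B),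
          ((2 : ℝ) ^ (Nc T F (anc (0, l) k))) ^ th := by rw [Finset.mul_sum]
      _ ≤ 16 * G T F (0, l) ^ th := by
        have e0 : anc (0, l) 0 = (0, l) := anc_zero _
        rw [e0] at h
        by_cases hG : 0 < G T F (0, l)
        · rw [if_pos ⟨Nat.zero_le _, hG⟩] at h
          have := Real.rpow_le_rpow (by positivity) (Nc_le T F (0, l) hG) hth.le
          linarith
        · rw [if_neg (fun h => hG h.2)] at h
          have := Real.rpow_nonneg (G_nonneg T F (0, l)) th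
          linarith
  · intro k _ k' _ hkk
    have := congrArg Prod.fst hkk
    simpa [anc] using this

/-- sum over the tops, power `th` -/
lemma sum_tops_th (th : ℝ) (h0 : 1 / 2 ≤ th) (h1 : th ≤ 2) (T : ℕ) (F : Fin 4 → ℤ → ℂ)
    (A B : ℤ) :
    ∑ J ∈ tops T F A B, (2 : ℝ) ^ (J.1 + 7) * G T F J ^ th ≤
      16 * ∑ l ∈ Finset.Ico (A * 2 ^ T) (B * 2 ^ T), 2 ^ 7 * G T F (0, l) ^ th := by
  classical
  have h2 : ∀ J ∈ tops T F A B, (2 : ℝ) ^ (J.1 + 7) * G T F J ^ th =
      ∑ l ∈ Finset.Ico (A * 2 ^ T) (B * 2 ^ T),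
        if l ∈ dI J.1 J.2 then 2 ^ 7 * G T F J ^ th else 0 := by
    intro J hJ
    rw [← Finset.sum_filter]
    have hsub : (Finset.Ico (A * 2 ^ T) (B * 2 ^ T)).filter (fun l => l ∈ dI J.1 J.2) =
        dI J.1 J.2 := by
      ext l
      rw [Finset.mem_filter, Finset.mem_Ico]
      constructor
      · exact fun h => h.2
      · intro hl
        refine ⟨?_, hl⟩
        unfold tops U' at hJ
        rw [Finset.mem_filter, Finset.mem_filter, mem_U] at hJ
        obtain ⟨hT, hA, hB⟩ := hJ.1.1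
        unfold dI at hl
        rw [Finset.mem_Ico] at hl
        have h0 : (0 : ℤ) < 2 ^ J.1 := by positivity
        have e : (2 : ℤ) ^ T = 2 ^ (T - J.1) * 2 ^ J.1 := by
          rw [← pow_add]; congr 1; omega
        rw [e]
        constructor
        · calc A * (2 ^ (T - J.1) * 2 ^ J.1) = (A * 2 ^ (T - J.1)) * 2 ^ J.1 := by ring
            _ ≤ J.2 * 2 ^ J.1 := mul_le_mul_of_nonneg_right hA h0.le
            _ ≤ l := hl.1
        · calc l < (J.2 + 1) * 2 ^ J.1 := hl.2
            _ ≤ (B * 2 ^ (T - J.1)) * 2 ^ J.1 :=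
              mul_le_mul_of_nonneg_right (by omega) h0.le
            _ = B * (2 ^ (T - J.1) * 2 ^ J.1) := by ring
    rw [hsub, Finset.sum_const, nsmul_eq_mul, dI_card, pow_add]
    ring
  rw [Finset.sum_congr rfl h2, Finset.sum_comm, Finset.mul_sum]
  refine Finset.sum_le_sum fun l _ => ?_
  rw [← Finset.sum_filter, ← Finset.mul_sum]
  have := chain_G_th th h0 h1 T F A B l
  nlinarith

end Crest.Agent.R079.Lq853
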