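import Crest.Agent.R079.Lq1_853

/-! R079, L5 item 0 (helper853), part 2: **class bound ⟹ GridBound**.

`BBq q` = bound of the tree regions by local `L^q` averages in the slots `0,1,2` and the sup norm in
slot `3`; `gridBound_of_BBq : 1 ≤ q → q < 3 → BBq q → GridBound`. -/

set_option autoImplicit false

namespace Crest.Agent.R079.Lq853

open Finset Grid L0e

/-- normalised local `L^q` norm on `dI k l` -/
noncomputable def avq (q : ℝ) (k : ℕ) (l : ℤ) (f : ℤ → ℂ) : ℝ :=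
  ((1 / 2 ^ k) * ∑ y ∈ dI k l, ‖f y‖ ^ q) ^ (1 / q)

/-- class bound: local `L^q` in the slots `0,1,2`, sup norm in slot `3`. -/
def BBq (q : ℝ) : Prop :=
  ∃ C : ℝ, 0 ≤ C ∧ ∀ b : ℤ, b = -1 ∨ b = -7 → ∀ ε : ℕ → ℤ → ℂ, (∀ m x, ‖ε m x‖ ≤ 1) →
    ∀ (R : Finset (ℕ × ℤ)) (J : ℕ × ℤ), IsRegion R J →
    ∀ (F : Fin 4 → ℤ → ℂ) (A : Fin 4 → ℝ), (∀ j, 0 ≤ A j) →
      (∀ j, j ≠ 3 → ∀ p ∈ R, avq q (p.1 + 7) p.2 (F j) ≤ A j) → (∀ x, ‖F 3 x‖ ≤ A 3) →
      ‖∑ p ∈ R, TI b ε F p‖ ≤ C * 2 ^ (J.1 + 7) * ∏ j, A j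

lemma avq_nonneg (q : ℝ) (k : ℕ) (l : ℤ) (f : ℤ → ℂ) : 0 ≤ avq q k l f := by
  unfold avq
  exact Real.rpow_nonneg (mul_nonneg (by positivity)
    (Finset.sum_nonneg fun y _ => Real.rpow_nonneg (norm_nonneg _) _)) _

/-- auxiliary letter `|f|^(q/2)` -/
noncomputable def aux (q : ℝ) (f : ℤ → ℂ) (y : ℤ) : ℂ := ((‖f y‖ ^ (q / 2) : ℝ) : ℂ)

lemma norm_aux (q : ℝ) (f : ℤ → ℂ) (y : ℤ) : ‖aux q f y‖ = ‖f y‖ ^ (q / 2) := by
  unfold aux
  rw [Complex.norm_real, Real.norm_of_nonneg (Real.rpow_nonneg (norm_nonneg _) _)]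

lemma norm_aux_rpow (q s : ℝ) (f : ℤ → ℂ) (y : ℤ) :
    ‖aux q f y‖ ^ s = ‖f y‖ ^ (q / 2 * s) := by
  rw [norm_aux, ← Real.rpow_mul (norm_nonneg _)]

lemma avq_eq (q : ℝ) (hq : 0 < q) (k : ℕ) (l : ℤ) (f : ℤ → ℂ) :
    avq q k l f = av2 k l (aux q f) ^ (2 / q) := by
  unfold avq av2
  have e : ∑ y ∈ dI k l, ‖aux q f y‖ ^ 2 = ∑ y ∈ dI k l, ‖f y‖ ^ q := by
    refine Finset.sum_congr rfl fun y _ => ?_
    rw [← Real.rpow_natCast, norm_aux_rpow]
    congr 1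
    push_cast
    ring
  rw [e, Real.sqrt_eq_rpow, ← Real.rpow_mul]
  · congr 1
    field_simp
  · exact mul_nonneg (by positivity)
      (Finset.sum_nonneg fun y _ => Real.rpow_nonneg (norm_nonneg _) _)

/-- auxiliary tuple -/
noncomputable def auxF (q : ℝ) (F : Fin 4 → ℤ → ℂ) : Fin 4 → ℤ → ℂ :=
  ![aux q (F 0), aux q (F 1), aux q (F 2), F 3]

lemma av2_aux_zero (q : ℝ) (hq : 0 < q) (k : ℕ) (l : ℤ) (f : ℤ → ℂ)
    (h : av2 k l (aux q f) = 0) : av2 k l f = 0 := by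
  have h1 := sum_sq_eq k l (aux q f)
  rw [h] at h1
  have h2 : ∑ y ∈ dI k l, ‖aux q f y‖ ^ 2 = 0 := by rw [h1]; ring
  rw [Finset.sum_eq_zero_iff_of_nonneg (fun y _ => by positivity)] at h2
  have h3 : ∀ y ∈ dI k l, ‖f y‖ = 0 := by
    intro y hy
    have h4 := h2 y hy
    rw [pow_eq_zero_iff (by norm_num), norm_aux] at h4
    rw [Real.rpow_eq_zero (norm_nonneg _) (by positivity)] at h4
    exact h4
  unfold av2
  rw [Finset.sum_eq_zero fun y hy => by rw [h3 y hy]; norm_num]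
  simp

lemma leaf_total_th (q : ℝ) (hq : 0 < q) (hq3 : q < 3) (T : ℕ) (F : Fin 4 → ℤ → ℂ) (A B : ℤ)
    (hF : ∀ j, (Function.support (F j)).Finite) :
    ∑ l ∈ Finset.Ico (A * 2 ^ T) (B * 2 ^ T), 2 ^ 7 * G T (auxF q F) (0, l) ^ (2 / q) ≤
      (4 / (6 / q - 2) * 2 ^ (6 / q) + 1) ^ 3 * (l3 (F 0) * l3 (F 1) * l3 (F 2)) := by
  set s : ℝ := 6 / q with hs
  have hs2 : 2 < s := by
    rw [hs, lt_div_iff₀ hq]
    linarith
  set K : ℝ := 4 / (s - 2) * 2 ^ s with hK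
  have hK0 : 0 ≤ K := by
    have : 0 < s - 2 := by linarith
    positivity
  have hM : ∀ f : ℤ → ℂ, (Function.support f).Finite →
      ∑ l ∈ Finset.Ico (A * 2 ^ T) (B * 2 ^ T), 2 ^ 7 * (Mr T (aux q f) T l ^ (2 / q)) ^ 3 ≤
      ((K + 1) * l3 f) ^ 3 := by
    intro f hf
    have h1 := max_thm_s s hs2 T (aux q f) A B
    have e1 : ∀ l, (Mr T (aux q f) T l ^ (2 / q)) ^ 3 = Mr T (aux q f) T l ^ s := by
      intro l
      rw [← Real.rpow_natCast, ← Real.rpow_mul (Mr_nonneg _ _ _ _)]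
      congr 1
      rw [hs]
      push_cast
      ring
    have e2 : ∀ y, ‖aux q f y‖ ^ s = ‖f y‖ ^ 3 := by
      intro y
      rw [norm_aux_rpow, ← Real.rpow_natCast]
      congr 1
      rw [hs]
      push_cast
      field_simp
      norm_num
    simp only [e1]
    refine h1.trans ?_
    simp only [e2]
    have h2 := sum_leaf_le f hf (Finset.Ico (A * 2 ^ T) (B * 2 ^ T))
    have h3 : K * ∑ l ∈ Finset.Ico (A * 2 ^ T) (B * 2 ^ T), ∑ y ∈ dI 7 l, ‖f y‖ ^ 3 ≤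
        K * l3 f ^ 3 := mul_le_mul_of_nonneg_left h2 hK0
    refine h3.trans ?_
    rw [mul_pow]
    refine mul_le_mul_of_nonneg_right ?_ (pow_nonneg (L0e.l3_nonneg f) 3)
    nlinarith [pow_nonneg hK0 3, pow_nonneg hK0 2]
  have h := holder3 (Finset.Ico (A * 2 ^ T) (B * 2 ^ T)) (fun _ => 2 ^ 7)
    (fun l => Mr T (aux q (F 0)) T l ^ (2 / q)) (fun l => Mr T (aux q (F 1)) T l ^ (2 / q))
    (fun l => Mr T (aux q (F 2)) T l ^ (2 / q)) (fun _ _ => by positivity)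
    (fun _ _ => Real.rpow_nonneg (Mr_nonneg _ _ _ _) _)
    (fun _ _ => Real.rpow_nonneg (Mr_nonneg _ _ _ _) _)
    (fun _ _ => Real.rpow_nonneg (Mr_nonneg _ _ _ _) _)
    ((K + 1) * l3 (F 0)) ((K + 1) * l3 (F 1)) ((K + 1) * l3 (F 2))
    (mul_nonneg (by linarith) (L0e.l3_nonneg _))
    (mul_nonneg (by linarith) (L0e.l3_nonneg _)) (mul_nonneg (by linarith) (L0e.l3_nonneg _))
    (hM (F 0) (hF 0)) (hM (F 1) (hF 1)) (hM (F 2) (hF 2))
  have e : ∀ l : ℤ, G T (auxF q F) (0, l) ^ (2 / q) = Mr T (aux q (F 0)) T l ^ (2 / q) *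
      Mr T (aux q (F 1)) T l ^ (2 / q) * Mr T (aux q (F 2)) T l ^ (2 / q) := by
    intro l
    have e0 : G T (auxF q F) (0, l) = Mr T (aux q (F 0)) T l * Mr T (aux q (F 1)) T l *
        Mr T (aux q (F 2)) T l := by
      unfold G auxF
      simp
    rw [e0, Real.mul_rpow (mul_nonneg (Mr_nonneg _ _ _ _) (Mr_nonneg _ _ _ _))
      (Mr_nonneg _ _ _ _), Real.mul_rpow (Mr_nonneg _ _ _ _) (Mr_nonneg _ _ _ _)]
  simp only [e]
  refine h.trans (le_of_eq ?_)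
  ring

/-- **class bound ⟹ GridBound** -/
theorem gridBound_of_BBq (q : ℝ) (hq1 : 1 ≤ q) (hq3 : q < 3) : BBq q → GridBound := by
  classical
  have hq : 0 < q := by linarith
  have hth1 : (1 / 2 : ℝ) ≤ 2 / q := by
    rw [div_le_div_iff₀ (by norm_num) hq]
    linarith
  have hth2 : 2 / q ≤ 2 := by
    rw [div_le_iff₀ hq]
    linarith
  have hth0 : 0 ≤ 2 / q := by positivity
  rintro ⟨C, hC, hBB⟩
  set K : ℝ := (4 / (6 / q - 2) * 2 ^ (6 / q) + 1) ^ 3 with hK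
  have hK0 : 0 ≤ K := by
    have : 0 < 6 / q - 2 := by
      have : 2 < 6 / q := by
        rw [lt_div_iff₀ hq]
        linarith
      linarith
    positivity
  refine ⟨(2 ^ (2 / q)) ^ 3 * C * (16 * K), by positivity, ?_⟩
  intro b hb ε hε R F hF hF3
  -- universe
  obtain ⟨T, hT⟩ : ∃ T : ℕ, ∀ p ∈ R, p.1 ≤ T :=
    ⟨R.sup Prod.fst, fun p hp => Finset.le_sup (f := Prod.fst) hp⟩
  obtain ⟨L, hL⟩ : ∃ L : ℤ, ∀ p ∈ R, |p.2| < L := by
    refine ⟨1 + ∑ p ∈ R, |p.2|, fun p hp => ?_⟩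
    have := Finset.single_le_sum (f := fun p : ℕ × ℤ => |p.2|) (fun q _ => abs_nonneg q.2) hp
    omega
  have hRU : R ⊆ U T (-L) L := by
    intro p hp
    rw [mem_U]
    have h1 := hL p hp
    have h2 : (1 : ℤ) ≤ 2 ^ (T - p.1) := one_le_pow₀ (by norm_num)
    have h3 : L ≤ L * 2 ^ (T - p.1) := by
      have : 0 ≤ L := (abs_nonneg p.2).trans h1.le
      nlinarith
    rw [abs_lt] at h1
    refine ⟨hT p hp, ?_, ?_⟩ <;> linarith [h1.1, h1.2]
  set ε' := epsR ε R with hε'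
  have hε1 : ∀ m x, ‖ε' m x‖ ≤ 1 := epsR_le ε R hε
  set F' := auxF q F with hF'
  have hF'3 : ∀ x, ‖F' 3 x‖ ≤ 1 := hF3
  have s1 : ∑ p ∈ R, TI b ε F p = ∑ p ∈ U T (-L) L, TI b ε' F p := by
    rw [← Finset.sum_subset hRU]
    · refine Finset.sum_congr rfl fun p hp => ?_
      rw [hε', TI_epsR, if_pos hp]
    · intro p _ hp
      rw [hε', TI_epsR, if_neg hp]
  have s2 : ∑ p ∈ U T (-L) L, TI b ε' F p = ∑ p ∈ U' T F' (-L) L, TI b ε' F p := by
    unfold U'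
    rw [Finset.sum_filter]
    refine Finset.sum_congr rfl fun p hp => ?_
    split_ifs with h
    · rfl
    · have hG : G T F' p = 0 := le_antisymm (not_lt.mp h) (G_nonneg T F' p)
      have hpT := (mem_U.mp hp).1
      have hav : ∀ f : ℤ → ℂ, av2 (p.1 + 7) p.2 f ≤ Mr T f (T - p.1) p.2 := by
        intro f
        have := av2_le_Mr T f (T - p.1) p.2
        rwa [show T - (T - p.1) + 7 = p.1 + 7 by omega] at this
      have hz : ∃ j, av2 (p.1 + 7) p.2 (F j) = 0 := by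
        unfold G at hG
        rcases mul_eq_zero.mp hG with h1 | h1
        · rcases mul_eq_zero.mp h1 with h2 | h2
          · exact ⟨0, av2_aux_zero q hq _ _ _ (le_antisymm
              (by rw [← h2]; exact hav (aux q (F 0))) (av2_nonneg _ _ _))⟩
          · exact ⟨1, av2_aux_zero q hq _ _ _ (le_antisymm
              (by rw [← h2]; exact hav (aux q (F 1))) (av2_nonneg _ _ _))⟩
        · exact ⟨2, av2_aux_zero q hq _ _ _ (le_antisymm
              (by rw [← h1]; exact hav (aux q (F 2))) (av2_nonneg _ _ _))⟩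
      obtain ⟨j, hj⟩ := hz
      have h4 := norm_TI_le b hb ε' hε1 F p
      rw [Finset.prod_eq_zero (Finset.mem_univ j) hj, mul_zero] at h4
      exact norm_le_zero_iff.mp h4
  have s3 : ∑ p ∈ U' T F' (-L) L, TI b ε' F p =
      ∑ J ∈ tops T F' (-L) L, ∑ p ∈ RJ T F' (-L) L J, TI b ε' F p := by
    unfold RJ
    rw [Finset.sum_fiberwise_of_maps_to]
    exact fun p hp => topn_mem hp
  rw [s1, s2, s3]
  have hJ : ∀ J ∈ tops T F' (-L) L, ‖∑ p ∈ RJ T F' (-L) L J, TI b ε' F p‖ ≤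
      (2 ^ (2 / q)) ^ 3 * C * (2 ^ (J.1 + 7) * G T F' J ^ (2 / q)) := by
    intro J _
    have n0 := Mr_nonneg T (aux q (F 0)) (T - J.1) J.2
    have n1 := Mr_nonneg T (aux q (F 1)) (T - J.1) J.2
    have n2 := Mr_nonneg T (aux q (F 2)) (T - J.1) J.2
    have hav : ∀ p ∈ RJ T F' (-L) L J, ∀ j : Fin 4, av2 (p.1 + 7) p.2 (F' j) ≤
        (![2 * Mr T (F' 0) (T - J.1) J.2, 2 * Mr T (F' 1) (T - J.1) J.2,
          2 * Mr T (F' 2) (T - J.1) J.2, 1] : Fin 4 → ℝ) j :=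
      fun p hp j => RJ_av T F' (-L) L J p hp hF'3 j
    have h := hBB b hb ε' hε1 (RJ T F' (-L) L J) J (RJ_region T F' (-L) L J) F
      ![(2 * Mr T (aux q (F 0)) (T - J.1) J.2) ^ (2 / q),
        (2 * Mr T (aux q (F 1)) (T - J.1) J.2) ^ (2 / q),
        (2 * Mr T (aux q (F 2)) (T - J.1) J.2) ^ (2 / q), 1] (by
          intro j
          fin_cases j
          · exact Real.rpow_nonneg (mul_nonneg (by norm_num) n0) _
          · exact Real.rpow_nonneg (mul_nonneg (by norm_num) n1) _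
          · exact Real.rpow_nonneg (mul_nonneg (by norm_num) n2) _
          · exact zero_le_one)
      (by
        intro j hj3 p hp
        rw [avq_eq q hq]
        fin_cases j
        · exact Real.rpow_le_rpow (av2_nonneg _ _ _) (hav p hp 0) hth0
        · exact Real.rpow_le_rpow (av2_nonneg _ _ _) (hav p hp 1) hth0
        · exact Real.rpow_le_rpow (av2_nonneg _ _ _) (hav p hp 2) hth0
        · exact absurd rfl hj3)
      hF3
    refine h.trans (le_of_eq ?_)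
    rw [Fin.prod_univ_four]
    have e0 : G T F' J = Mr T (aux q (F 0)) (T - J.1) J.2 * Mr T (aux q (F 1)) (T - J.1) J.2 *
        Mr T (aux q (F 2)) (T - J.1) J.2 := rfl
    rw [e0, Real.mul_rpow (mul_nonneg n0 n1) n2, Real.mul_rpow n0 n1]
    simp only [Matrix.cons_val_zero, Matrix.cons_val_one, Matrix.cons_val]
    rw [Real.mul_rpow (by norm_num) n0, Real.mul_rpow (by norm_num) n1,
      Real.mul_rpow (by norm_num) n2]
    ring
  calc ‖∑ J ∈ tops T F' (-L) L, ∑ p ∈ RJ T F' (-L) L J, TI b ε' F p‖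
      ≤ ∑ J ∈ tops T F' (-L) L, (2 ^ (2 / q)) ^ 3 * C * (2 ^ (J.1 + 7) * G T F' J ^ (2 / q)) :=
        (norm_sum_le _ _).trans (Finset.sum_le_sum hJ)
    _ = (2 ^ (2 / q)) ^ 3 * C * ∑ J ∈ tops T F' (-L) L, 2 ^ (J.1 + 7) * G T F' J ^ (2 / q) := by
        rw [Finset.mul_sum]
    _ ≤ (2 ^ (2 / q)) ^ 3 * C * (16 * (K * (l3 (F 0) * l3 (F 1) * l3 (F 2)))) := by
        refine mul_le_mul_of_nonneg_left ?_ (by positivity)
        refine (sum_tops_th (2 / q) hth1 hth2 T F' (-L) L).trans ?_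
        exact mul_le_mul_of_nonneg_left (leaf_total_th q hq hq3 T F (-L) L hF) (by norm_num)
    _ = _ := by ring

end Crest.Agent.R079.Lq853
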