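import Crest.Agent.R079.Lq2_853
import Crest.Agent.R079.Main_796

/-! R079 (helper853): literal `S0106` from the class bound `BBq q`, any `1 ≤ q < 3`. -/

set_option autoImplicit false

namespace Crest.Agent.R079.Lq853

/-- literal `S0106` (as `L0.Target`) from the class bound. -/
theorem target_of_BBq (q : ℝ) (hq1 : 1 ≤ q) (hq3 : q < 3) (h : BBq q) : L0.Target :=
  Main.target_of_GridBound' (gridBound_of_BBq q hq1 hq3 h)

end Crest.Agent.R079.Lq853
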