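import Crest.Agent.R079.L0e_292

/-! R079, L5 item 0 (helper398), part 1: running maximum of the local `L^q` averages (`2 ≤ q < 3`)
and the maximal theorem, potential `3 M^(3-q) a^q - (3-q) M^3` (292's argument). -/

set_option autoImplicit false

namespace Crest.Agent.R079.L0q

open Finset Grid L0e

/-- normalised local `L^q` norm of `f` on `dI k l` -/
noncomputable def avq (q : ℝ) (k : ℕ) (l : ℤ) (f : ℤ → ℂ) : ℝ :=
  ((1 / 2 ^ k) * ∑ y ∈ dI k l, ‖f y‖ ^ q) ^ (1 / q)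

lemma avq_base_nonneg (q : ℝ) (k : ℕ) (l : ℤ) (f : ℤ → ℂ) :
    0 ≤ (1 / 2 ^ k : ℝ) * ∑ y ∈ dI k l, ‖f y‖ ^ q :=
  mul_nonneg (by positivity) (Finset.sum_nonneg fun y _ => Real.rpow_nonneg (norm_nonneg _) _)

lemma avq_nonneg (q : ℝ) (k : ℕ) (l : ℤ) (f : ℤ → ℂ) : 0 ≤ avq q k l f :=
  Real.rpow_nonneg (avq_base_nonneg q k l f) _

lemma avq_rpow {q : ℝ} (hq : 0 < q) (k : ℕ) (l : ℤ) (f : ℤ → ℂ) :
    avq q k l f ^ q = (1 / 2 ^ k) * ∑ y ∈ dI k l, ‖f y‖ ^ q := by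
  unfold avq
  rw [← Real.rpow_mul (avq_base_nonneg q k l f), one_div_mul_cancel hq.ne', Real.rpow_one]

lemma sum_rpow_eq {q : ℝ} (hq : 0 < q) (k : ℕ) (l : ℤ) (f : ℤ → ℂ) :
    ∑ y ∈ dI k l, ‖f y‖ ^ q = 2 ^ k * avq q k l f ^ q := by
  rw [avq_rpow hq]
  have : (0 : ℝ) < 2 ^ k := by positivity
  field_simp

lemma avq_rpow_succ {q : ℝ} (hq : 0 < q) (k : ℕ) (l : ℤ) (f : ℤ → ℂ) :
    2 * avq q (k + 1) l f ^ q = avq q k (2 * l) f ^ q + avq q k (2 * l + 1) f ^ q := by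
  have h := sum_dI_succ k l (fun y => ‖f y‖ ^ q)
  rw [sum_rpow_eq hq, sum_rpow_eq hq, sum_rpow_eq hq, pow_succ] at h
  have h2 : (0 : ℝ) < 2 ^ k := by positivity
  have h3 : (2 : ℝ) ^ k * (2 * avq q (k + 1) l f ^ q) =
      2 ^ k * (avq q k (2 * l) f ^ q + avq q k (2 * l + 1) f ^ q) := by
    linear_combination h
  exact mul_left_cancel₀ h2.ne' h3

/-- running maximum from level `T + 7` down to level `T - d + 7`. -/
noncomputable def Mq (q : ℝ) (T : ℕ) (f : ℤ → ℂ) : ℕ → ℤ → ℝ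
  | 0, l => avq q (T + 7) l f
  | (d + 1), l => max (Mq q T f d (l / 2)) (avq q (T - (d + 1) + 7) l f)

lemma avq_le_Mq (q : ℝ) (T : ℕ) (f : ℤ → ℂ) (d : ℕ) (l : ℤ) :
    avq q (T - d + 7) l f ≤ Mq q T f d l := by
  cases d with
  | zero => exact le_refl _
  | succ d => exact le_max_right _ _

lemma Mq_nonneg (q : ℝ) (T : ℕ) (f : ℤ → ℂ) (d : ℕ) (l : ℤ) : 0 ≤ Mq q T f d l :=
  (avq_nonneg _ _ _ _).trans (avq_le_Mq q T f d l)

lemma Mq_mono (q : ℝ) (T : ℕ) (f : ℤ → ℂ) (d k : ℕ) (l : ℤ) :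
    Mq q T f d (l / 2 ^ k) ≤ Mq q T f (d + k) l := by
  induction k generalizing l with
  | zero => simp
  | succ k ih =>
    have e : l / 2 ^ (k + 1) = l / 2 / 2 ^ k := by
      rw [add_comm k 1, ← ediv_pow_pow, pow_one]
    rw [e]
    refine (ih (l / 2)).trans ?_
    exact le_max_left _ _

/-- weighted AM-GM -/
lemma amgm {q M a : ℝ} (h2 : 0 ≤ q) (h3 : q ≤ 3) (hM : 0 ≤ M) (ha : 0 ≤ a) :
    3 * (M ^ (3 - q) * a ^ q) ≤ (3 - q) * M ^ 3 + q * a ^ 3 := by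
  have h := Real.geom_mean_le_arith_mean2_weighted (w₁ := (3 - q) / 3) (w₂ := q / 3)
    (p₁ := M ^ 3) (p₂ := a ^ 3) (by linarith) (by linarith) (by positivity) (by positivity)
    (by ring)
  have e1 : (M ^ 3) ^ ((3 - q) / 3) = M ^ (3 - q) := by
    rw [← Real.rpow_natCast, ← Real.rpow_mul hM]
    congr 1
    push_cast
    ring
  have e2 : (a ^ 3) ^ (q / 3) = a ^ q := by
    rw [← Real.rpow_natCast, ← Real.rpow_mul ha]
    congr 1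
    push_cast
    ring
  rw [e1, e2] at h
  linarith

lemma mul_self_rpow {q a : ℝ} (_h2 : 2 ≤ q) (h3 : q < 3) (ha : 0 ≤ a) :
    a ^ (3 - q) * a ^ q = a ^ 3 := by
  rw [← Real.rpow_natCast a 3]
  rcases ha.lt_or_eq with h | h
  · rw [← Real.rpow_add h]
    congr 1
    push_cast
    ring
  · rw [← h, Real.zero_rpow (x := 3 - q) (by linarith), zero_mul, Real.zero_rpow (by norm_num)]

lemma pot_child {q M a : ℝ} (h2 : 2 ≤ q) (h3 : q < 3) (hM : 0 ≤ M) (ha : 0 ≤ a) :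
    3 * (M ^ (3 - q) * a ^ q) - (3 - q) * M ^ 3 ≤
      3 * ((max M a) ^ (3 - q) * a ^ q) - (3 - q) * (max M a) ^ 3 := by
  rcases le_total M a with h | h
  · rw [max_eq_right h, mul_self_rpow h2 h3 ha]
    have := amgm (q := q) (by linarith) h3.le hM ha
    linarith
  · rw [max_eq_left h]

/-- the potential -/
noncomputable def Wq (q : ℝ) (T : ℕ) (f : ℤ → ℂ) (A B : ℤ) (d : ℕ) : ℝ :=
  ∑ l ∈ Finset.Ico (A * 2 ^ d) (B * 2 ^ d),
    2 ^ (T - d + 7) * (3 * (Mq q T f d l ^ (3 - q) * avq q (T - d + 7) l f ^ q) -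
      (3 - q) * Mq q T f d l ^ 3)

lemma Wq_zero {q : ℝ} (h2 : 2 ≤ q) (h3 : q < 3) (T : ℕ) (f : ℤ → ℂ) (A B : ℤ) :
    0 ≤ Wq q T f A B 0 := by
  unfold Wq
  refine Finset.sum_nonneg fun l _ => ?_
  have h : (0 : ℝ) ≤ avq q (T + 7) l f := avq_nonneg _ _ _ _
  have e : 3 * (Mq q T f 0 l ^ (3 - q) * avq q (T - 0 + 7) l f ^ q) -
      (3 - q) * Mq q T f 0 l ^ 3 = q * avq q (T + 7) l f ^ 3 := by
    simp only [Mq, Nat.sub_zero]
    rw [mul_self_rpow h2 h3 h]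
    ring
  rw [e]
  positivity

lemma Wq_succ {q : ℝ} (h2 : 2 ≤ q) (h3 : q < 3) (T : ℕ) (f : ℤ → ℂ) (A B : ℤ) (d : ℕ)
    (hd : d + 1 ≤ T) : Wq q T f A B d ≤ Wq q T f A B (d + 1) := by
  unfold Wq
  have e1 : A * (2 : ℤ) ^ (d + 1) = 2 * (A * 2 ^ d) := by ring
  have e2 : B * (2 : ℤ) ^ (d + 1) = 2 * (B * 2 ^ d) := by ring
  rw [e1, e2, sum_two]
  refine Finset.sum_le_sum fun l _ => ?_
  obtain ⟨k, hk⟩ : ∃ k, T = d + 1 + k := Nat.exists_eq_add_of_le hd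
  have k1 : T - d + 7 = (T - (d + 1) + 7) + 1 := by omega
  rw [k1]
  set n := T - (d + 1) + 7 with hn
  have hav := avq_rpow_succ (q := q) (by linarith) n l f
  have m0 : Mq q T f (d + 1) (2 * l) = max (Mq q T f d l) (avq q n (2 * l) f) := by
    simp only [Mq]
    rw [show 2 * l / 2 = l by omega]
  have m1 : Mq q T f (d + 1) (2 * l + 1) = max (Mq q T f d l) (avq q n (2 * l + 1) f) := by
    simp only [Mq]
    rw [show (2 * l + 1) / 2 = l by omega]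
  rw [m0, m1]
  have c0 := pot_child h2 h3 (Mq_nonneg q T f d l) (avq_nonneg q n (2 * l) f)
  have c1 := pot_child h2 h3 (Mq_nonneg q T f d l) (avq_nonneg q n (2 * l + 1) f)
  have hp : (0 : ℝ) < 2 ^ n := by positivity
  rw [pow_succ, mul_assoc, ← mul_add]
  refine mul_le_mul_of_nonneg_left ?_ hp.le
  calc 2 * (3 * (Mq q T f d l ^ (3 - q) * avq q (n + 1) l f ^ q) - (3 - q) * Mq q T f d l ^ 3)
      = (3 * (Mq q T f d l ^ (3 - q) * avq q n (2 * l) f ^ q) - (3 - q) * Mq q T f d l ^ 3) +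
        (3 * (Mq q T f d l ^ (3 - q) * avq q n (2 * l + 1) f ^ q) -
          (3 - q) * Mq q T f d l ^ 3) := by
        linear_combination 3 * Mq q T f d l ^ (3 - q) * hav
    _ ≤ _ := add_le_add c0 c1

lemma Wq_nonneg {q : ℝ} (h2 : 2 ≤ q) (h3 : q < 3) (T : ℕ) (f : ℤ → ℂ) (A B : ℤ) :
    ∀ d, d ≤ T → 0 ≤ Wq q T f A B d
  | 0, _ => Wq_zero h2 h3 T f A B
  | (d + 1), h => (Wq_nonneg h2 h3 T f A B d (by omega)).trans (Wq_succ h2 h3 T f A B d h)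

lemma young {q M t : ℝ} (h2 : 2 ≤ q) (h3 : q < 3) (hM : 0 ≤ M) (ht : 0 ≤ t) :
    3 * (M ^ (3 - q) * t ^ q) ≤ (3 - q) / 2 * M ^ 3 + 24 * t ^ 3 := by
  -- apply `amgm` to `M / 2` and `2 t`
  have h := amgm (q := q) (M := M / 2) (a := 2 * t) (by linarith) h3.le (by linarith)
    (by linarith)
  rw [Real.div_rpow hM (by norm_num), Real.mul_rpow (by norm_num) ht] at h
  have e1 : (1 : ℝ) ≤ (2 : ℝ) ^ q / (2 : ℝ) ^ (3 - q) := by
    rw [← Real.rpow_sub (by norm_num)]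
    exact Real.one_le_rpow (by norm_num) (by linarith)
  have h5 : 0 ≤ M ^ (3 - q) * t ^ q :=
    mul_nonneg (Real.rpow_nonneg hM _) (Real.rpow_nonneg ht _)
  have e2 : M ^ (3 - q) / 2 ^ (3 - q) * (2 ^ q * t ^ q) =
      (2 : ℝ) ^ q / (2 : ℝ) ^ (3 - q) * (M ^ (3 - q) * t ^ q) := by
    ring
  rw [e2] at h
  have h6 : M ^ (3 - q) * t ^ q ≤ (2 : ℝ) ^ q / (2 : ℝ) ^ (3 - q) * (M ^ (3 - q) * t ^ q) :=
    le_mul_of_one_le_left h5 e1
  have h7 : 0 ≤ M ^ 3 := by positivity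
  have h8 : 0 ≤ t ^ 3 := by positivity
  have h9 : (3 - q) * (M / 2) ^ 3 ≤ (3 - q) / 2 * M ^ 3 := by
    have e : (3 - q) * (M / 2) ^ 3 = (3 - q) / 8 * M ^ 3 := by ring
    rw [e]
    exact mul_le_mul_of_nonneg_right (by linarith) h7
  have h10 : q * (2 * t) ^ 3 ≤ 24 * t ^ 3 := by
    have e : q * (2 * t) ^ 3 = 8 * q * t ^ 3 := by ring
    rw [e]
    exact mul_le_mul_of_nonneg_right (by linarith) h8
  linarith

/-- **maximal theorem**, one window of tops. -/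
theorem max_thm {q : ℝ} (hq2 : 2 ≤ q) (hq3 : q < 3) (T : ℕ) (f : ℤ → ℂ) (A B : ℤ) :
    ∑ l ∈ Finset.Ico (A * 2 ^ T) (B * 2 ^ T), 2 ^ 7 * Mq q T f T l ^ 3 ≤
      48 / (3 - q) * ∑ l ∈ Finset.Ico (A * 2 ^ T) (B * 2 ^ T), ∑ y ∈ dI 7 l, ‖f y‖ ^ 3 := by
  have h := Wq_nonneg hq2 hq3 T f A B T le_rfl
  unfold Wq at h
  rw [Nat.sub_self, zero_add] at h
  have h2 : ∀ l : ℤ, (2 : ℝ) ^ 7 * (3 * (Mq q T f T l ^ (3 - q) * avq q 7 l f ^ q) -
      (3 - q) * Mq q T f T l ^ 3) ≤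
      24 * ∑ y ∈ dI 7 l, ‖f y‖ ^ 3 - ((3 - q) / 2) * (2 ^ 7 * Mq q T f T l ^ 3) := by
    intro l
    have hs := sum_rpow_eq (q := q) (by linarith) 7 l f
    have hcard : ((dI 7 l).card : ℝ) = 2 ^ 7 := dI_card 7 l
    have h3 : ∑ y ∈ dI 7 l, (3 * Mq q T f T l ^ (3 - q)) * ‖f y‖ ^ q ≤
        ∑ y ∈ dI 7 l, ((3 - q) / 2 * Mq q T f T l ^ 3 + 24 * ‖f y‖ ^ 3) :=
      Finset.sum_le_sum fun y _ => by
        have := young hq2 hq3 (Mq_nonneg q T f T l) (norm_nonneg (f y))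
        linarith
    rw [← Finset.mul_sum, hs, Finset.sum_add_distrib, Finset.sum_const, nsmul_eq_mul, hcard,
      ← Finset.mul_sum] at h3
    linarith
  have h4 := h.trans (Finset.sum_le_sum fun l (_ : l ∈ Finset.Ico (A * 2 ^ T) (B * 2 ^ T)) => h2 l)
  rw [Finset.sum_sub_distrib, ← Finset.mul_sum, ← Finset.mul_sum] at h4
  generalize (∑ i ∈ Finset.Ico (A * 2 ^ T) (B * 2 ^ T), ∑ y ∈ dI 7 i, ‖f y‖ ^ 3) = X at h4 ⊢
  generalize (∑ i ∈ Finset.Ico (A * 2 ^ T) (B * 2 ^ T), 2 ^ 7 * Mq q T f T i ^ 3) = Y at h4 ⊢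
  have hs : 0 < 3 - q := by linarith
  rw [div_mul_eq_mul_div, le_div_iff₀ hs]
  linarith

/-- `avq = 0` implies `av2 = 0`. -/
lemma av2_eq_zero {q : ℝ} (hq : 0 < q) (k : ℕ) (l : ℤ) (f : ℤ → ℂ) (h : avq q k l f = 0) :
    av2 k l f = 0 := by
  have h1 := sum_rpow_eq hq k l f
  rw [h, Real.zero_rpow hq.ne', mul_zero] at h1
  have h2 : ∀ y ∈ dI k l, ‖f y‖ ^ q = 0 :=
    (Finset.sum_eq_zero_iff_of_nonneg fun y _ => Real.rpow_nonneg (norm_nonneg _) _).mp h1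
  have h3 : ∀ y ∈ dI k l, ‖f y‖ = 0 := by
    intro y hy
    by_contra hc
    have h0 : 0 < ‖f y‖ := lt_of_le_of_ne (norm_nonneg _) (Ne.symm hc)
    exact (Real.rpow_pos_of_pos h0 q).ne' (h2 y hy)
  unfold av2
  rw [Finset.sum_eq_zero (fun y hy => by rw [h3 y hy]; simp), mul_zero, Real.sqrt_zero]

end Crest.Agent.R079.L0q
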