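import Crest.Agent.R079.Tr_230
import Crest.Agent.R079.QDefs_248

/-! R079: MERGE LEMMA (617's remark): a finite sum of line atoms of one slot is ONE atom (translate along
the plane `cf . z = 0` until the coordinate supports are disjoint); the unit `A3` atoms form a convex set.
helper530. -/

set_option autoImplicit false
set_option linter.unusedVariables false

namespace Crest.Agent.R079.Mg530

open Finset Crest.Agent.R079.Grid Crest.Agent.R079.Glue Crest.Agent.R079.Growth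
  Crest.Agent.R079.QRed

/-- shift of a finite set -/
def sT (T : Finset ℤ) (s : ℤ) : Finset ℤ := T.map (addRightEmbedding s)

theorem sum_sT {M : Type*} [AddCommMonoid M] (T : Finset ℤ) (s : ℤ) (f : ℤ → M) :
    ∑ x ∈ sT T s, f x = ∑ x ∈ T, f (x + s) := by
  unfold sT
  rw [Finset.sum_map]
  rfl

/-- translation invariance along the plane -/
theorem atom_shift (j : Fin 4) (κ : ℝ) (T : Fin 3 → Finset ℤ) (a b c : ℤ → ℤ → ℂ) (s : Fin 3 → ℤ)
    (hs : cf j 0 * s 0 + cf j 1 * s 1 + cf j 2 * s 2 = 0) (y : ℤ) :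
    atom j κ (fun i => sT (T i) (s i)) (fun x x' => a (x - s 0) (x' - s 1))
      (fun x x' => b (x - s 1) (x' - s 2)) (fun x x' => c (x - s 2) (x' - s 0)) y =
      atom j κ T a b c y := by
  unfold atom
  congr 1
  rw [sum_sT]
  refine Finset.sum_congr rfl fun z0 _ => ?_
  rw [sum_sT]
  refine Finset.sum_congr rfl fun z1 _ => ?_
  rw [sum_sT]
  refine Finset.sum_congr rfl fun z2 _ => ?_
  have e : cf j 0 * (z0 + s 0) + cf j 1 * (z1 + s 1) + cf j 2 * (z2 + s 2) =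
      cf j 0 * z0 + cf j 1 * z1 + cf j 2 * z2 := by linarith
  rw [e]
  simp only [add_sub_cancel_right]

/-- glued edge -/
noncomputable def gl (T T' S S' : Finset ℤ) (a a' : ℤ → ℤ → ℂ) (x x' : ℤ) : ℂ :=
  if x ∈ T ∧ x' ∈ T' then a x x' else if x ∈ S ∧ x' ∈ S' then a' x x' else 0

theorem gl_1 {T T' S S' : Finset ℤ} {a a' : ℤ → ℤ → ℂ} {x x' : ℤ} (h : x ∈ T) (h' : x' ∈ T') :
    gl T T' S S' a a' x x' = a x x' := by
  unfold gl; rw [if_pos ⟨h, h'⟩]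

theorem gl_2 {T T' S S' : Finset ℤ} {a a' : ℤ → ℤ → ℂ} {x x' : ℤ} (hd : Disjoint T S)
    (h : x ∈ S) (h' : x' ∈ S') : gl T T' S S' a a' x x' = a' x x' := by
  unfold gl
  rw [if_neg (fun hc => Finset.disjoint_left.1 hd hc.1 h), if_pos ⟨h, h'⟩]

theorem gl_3 {T T' S S' : Finset ℤ} {a a' : ℤ → ℤ → ℂ} {x x' : ℤ} (hd : Disjoint T S)
    (hd' : Disjoint T' S') (h : x ∈ T) (h' : x' ∈ S') : gl T T' S S' a a' x x' = 0 := by
  unfold gl
  rw [if_neg (fun hc => Finset.disjoint_left.1 hd' hc.2 h'),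
    if_neg (fun hc => Finset.disjoint_left.1 hd h hc.1)]

theorem gl_4 {T T' S S' : Finset ℤ} {a a' : ℤ → ℤ → ℂ} {x x' : ℤ} (hd : Disjoint T S)
    (hd' : Disjoint T' S') (h : x ∈ S) (h' : x' ∈ T') : gl T T' S S' a a' x x' = 0 := by
  unfold gl
  rw [if_neg (fun hc => Finset.disjoint_left.1 hd hc.1 h),
    if_neg (fun hc => Finset.disjoint_left.1 hd' h' hc.2)]

/-- sums of a function of the glued edge -/
theorem sum_gl {T T' S S' : Finset ℤ} (hd : Disjoint T S) (hd' : Disjoint T' S')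
    (a a' : ℤ → ℤ → ℂ) (φ : ℂ → ℝ) (hφ : φ 0 = 0) :
    ∑ x ∈ T ∪ S, ∑ x' ∈ T' ∪ S', φ (gl T T' S S' a a' x x') =
      ∑ x ∈ T, ∑ x' ∈ T', φ (a x x') + ∑ x ∈ S, ∑ x' ∈ S', φ (a' x x') := by
  rw [Finset.sum_union hd]
  congr 1
  · refine Finset.sum_congr rfl fun x hx => ?_
    rw [Finset.sum_union hd', Finset.sum_congr rfl (fun x' hx' => by rw [gl_1 hx hx']),
      add_eq_left]
    refine Finset.sum_eq_zero fun x' hx' => ?_
    rw [gl_3 hd hd' hx hx', hφ]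
  · refine Finset.sum_congr rfl fun x hx => ?_
    rw [Finset.sum_union hd', add_comm, Finset.sum_congr rfl (fun x' hx' => by rw [gl_2 hd hx hx']),
      add_eq_left]
    refine Finset.sum_eq_zero fun x' hx' => ?_
    rw [gl_4 hd hd' hx hx', hφ]

/-- **two atoms with disjoint coordinate supports** -/
theorem atom_gl (j : Fin 4) (T S : Fin 3 → Finset ℤ) (hd : ∀ i, Disjoint (T i) (S i))
    (a b c a' b' c' : ℤ → ℤ → ℂ) (y : ℤ) :
    atom j 1 (fun i => T i ∪ S i) (gl (T 0) (T 1) (S 0) (S 1) a a') (gl (T 1) (T 2) (S 1) (S 2) b b')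
      (gl (T 2) (T 0) (S 2) (S 0) c c') y = atom j 1 T a b c y + atom j 1 S a' b' c' y := by
  unfold atom
  rw [← mul_add]
  congr 1
  rw [Finset.sum_union (hd 0)]
  congr 1
  · refine Finset.sum_congr rfl fun z0 h0 => ?_
    rw [Finset.sum_union (hd 1)]
    have e1 : ∑ z1 ∈ S 1, ∑ z2 ∈ T 2 ∪ S 2,
        (if cf j 0 * z0 + cf j 1 * z1 + cf j 2 * z2 = y then
          gl (T 0) (T 1) (S 0) (S 1) a a' z0 z1 * gl (T 1) (T 2) (S 1) (S 2) b b' z1 z2 *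
            gl (T 2) (T 0) (S 2) (S 0) c c' z2 z0 else 0) = 0 := by
      refine Finset.sum_eq_zero fun z1 h1 => Finset.sum_eq_zero fun z2 _ => ?_
      rw [gl_3 (hd 0) (hd 1) h0 h1, zero_mul, zero_mul, ite_self]
    rw [e1, add_zero]
    refine Finset.sum_congr rfl fun z1 h1 => ?_
    rw [Finset.sum_union (hd 2)]
    have e2 : ∑ z2 ∈ S 2,
        (if cf j 0 * z0 + cf j 1 * z1 + cf j 2 * z2 = y then
          gl (T 0) (T 1) (S 0) (S 1) a a' z0 z1 * gl (T 1) (T 2) (S 1) (S 2) b b' z1 z2 *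
            gl (T 2) (T 0) (S 2) (S 0) c c' z2 z0 else 0) = 0 := by
      refine Finset.sum_eq_zero fun z2 h2 => ?_
      rw [gl_3 (hd 1) (hd 2) h1 h2, mul_zero, zero_mul, ite_self]
    rw [e2, add_zero]
    refine Finset.sum_congr rfl fun z2 h2 => ?_
    rw [gl_1 h0 h1, gl_1 h1 h2, gl_1 h2 h0]
  · refine Finset.sum_congr rfl fun z0 h0 => ?_
    rw [Finset.sum_union (hd 1)]
    have e1 : ∑ z1 ∈ T 1, ∑ z2 ∈ T 2 ∪ S 2,
        (if cf j 0 * z0 + cf j 1 * z1 + cf j 2 * z2 = y then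
          gl (T 0) (T 1) (S 0) (S 1) a a' z0 z1 * gl (T 1) (T 2) (S 1) (S 2) b b' z1 z2 *
            gl (T 2) (T 0) (S 2) (S 0) c c' z2 z0 else 0) = 0 := by
      refine Finset.sum_eq_zero fun z1 h1 => Finset.sum_eq_zero fun z2 _ => ?_
      rw [gl_4 (hd 0) (hd 1) h0 h1, zero_mul, zero_mul, ite_self]
    rw [e1, zero_add]
    refine Finset.sum_congr rfl fun z1 h1 => ?_
    rw [Finset.sum_union (hd 2)]
    have e2 : ∑ z2 ∈ T 2,
        (if cf j 0 * z0 + cf j 1 * z1 + cf j 2 * z2 = y then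
          gl (T 0) (T 1) (S 0) (S 1) a a' z0 z1 * gl (T 1) (T 2) (S 1) (S 2) b b' z1 z2 *
            gl (T 2) (T 0) (S 2) (S 0) c c' z2 z0 else 0) = 0 := by
      refine Finset.sum_eq_zero fun z2 h2 => ?_
      rw [gl_4 (hd 1) (hd 2) h1 h2, mul_zero, zero_mul, ite_self]
    rw [e2, zero_add]
    refine Finset.sum_congr rfl fun z2 h2 => ?_
    rw [gl_2 (hd 0) h0 h1, gl_2 (hd 1) h1 h2, gl_2 (hd 2) h2 h0]

/-- a plane vector with all coordinates as large as we like -/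
theorem exists_shift (j : Fin 4) (T S : Fin 3 → Finset ℤ) :
    ∃ s : Fin 3 → ℤ, cf j 0 * s 0 + cf j 1 * s 1 + cf j 2 * s 2 = 0 ∧
      ∀ i, Disjoint (T i) (sT (S i) (s i)) := by
  -- a bound for all points
  obtain ⟨D, hD⟩ : ∃ D : ℕ, ∀ i, ∀ x ∈ T i ∪ S i, x.natAbs ≤ D := by
    refine ⟨∑ i, ∑ x ∈ T i ∪ S i, x.natAbs, fun i x hx => ?_⟩
    refine le_trans (Finset.single_le_sum (f := fun x => x.natAbs) (fun _ _ => Nat.zero_le _) hx) ?_
    exact Finset.single_le_sum (f := fun i => ∑ x ∈ T i ∪ S i, x.natAbs)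
      (fun _ _ => Nat.zero_le _) (Finset.mem_univ i)
  set E : ℤ := 2 * (D : ℤ) + 1 with hE
  refine ⟨![cf j 1 * cf j 2 * E, cf j 0 * cf j 2 * E, -2 * (cf j 0 * cf j 1) * E], ?_, ?_⟩
  · simp only [Matrix.cons_val_zero, Matrix.cons_val_one, Matrix.cons_val]
    ring
  · have key : ∀ (i : Fin 3) (q : ℤ), q ≠ 0 → ∀ x ∈ T i, x ∉ sT (S i) (q * E) := by
      intro i q hq x hx hx'
      unfold sT at hx'
      rw [Finset.mem_map] at hx'
      obtain ⟨z, hz, hzx⟩ := hx'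
      have hzx' : z + q * E = x := hzx
      have h1 := hD i x (Finset.mem_union_left _ hx)
      have h2 := hD i z (Finset.mem_union_right _ hz)
      have h3 : |q * E| ≤ 2 * (D : ℤ) := by
        have e : q * E = x - z := by linarith
        rw [e, abs_le]
        constructor <;> omega
      have h4 : (1 : ℤ) ≤ |q| := Int.one_le_abs hq
      have h5 : |q * E| = |q| * E := by
        rw [abs_mul, abs_of_nonneg (by positivity : (0 : ℤ) ≤ E)]
      have h6 : (0 : ℤ) ≤ E := by positivity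
      nlinarith
    have hc0 := Tr230.cf_ne j 0
    have hc1 := Tr230.cf_ne j 1
    have hc2 := Tr230.cf_ne j 2
    intro i
    rw [Finset.disjoint_left]
    fin_cases i
    · exact key 0 _ (mul_ne_zero hc1 hc2)
    · exact key 1 _ (mul_ne_zero hc0 hc2)
    · exact key 2 _ (mul_ne_zero (by norm_num) (mul_ne_zero hc0 hc1))

/-- **MERGE, two atoms** -/
theorem merge2 (j : Fin 4) (T S : Fin 3 → Finset ℤ) (a b c a' b' c' : ℤ → ℤ → ℂ) :
    ∃ (U : Fin 3 → Finset ℤ) (A B C : ℤ → ℤ → ℂ),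
      (∀ y, atom j 1 U A B C y = atom j 1 T a b c y + atom j 1 S a' b' c' y) ∧
      (∀ φ : ℂ → ℝ, φ 0 = 0 →
        ∑ x ∈ U 0, ∑ x' ∈ U 1, φ (A x x') =
          ∑ x ∈ T 0, ∑ x' ∈ T 1, φ (a x x') + ∑ x ∈ S 0, ∑ x' ∈ S 1, φ (a' x x') ∧
        ∑ x ∈ U 1, ∑ x' ∈ U 2, φ (B x x') =
          ∑ x ∈ T 1, ∑ x' ∈ T 2, φ (b x x') + ∑ x ∈ S 1, ∑ x' ∈ S 2, φ (b' x x') ∧
        ∑ x ∈ U 2, ∑ x' ∈ U 0, φ (C x x') =
          ∑ x ∈ T 2, ∑ x' ∈ T 0, φ (c x x') + ∑ x ∈ S 2, ∑ x' ∈ S 0, φ (c' x x')) := by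
  obtain ⟨s, hs, hd⟩ := exists_shift j T S
  refine ⟨fun i => T i ∪ sT (S i) (s i),
    gl (T 0) (T 1) (sT (S 0) (s 0)) (sT (S 1) (s 1)) a (fun x x' => a' (x - s 0) (x' - s 1)),
    gl (T 1) (T 2) (sT (S 1) (s 1)) (sT (S 2) (s 2)) b (fun x x' => b' (x - s 1) (x' - s 2)),
    gl (T 2) (T 0) (sT (S 2) (s 2)) (sT (S 0) (s 0)) c (fun x x' => c' (x - s 2) (x' - s 0)),
    fun y => ?_, fun φ hφ => ⟨?_, ?_, ?_⟩⟩
  · rw [atom_gl j T (fun i => sT (S i) (s i)) hd a b c (fun x x' => a' (x - s 0) (x' - s 1))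
      (fun x x' => b' (x - s 1) (x' - s 2)) (fun x x' => c' (x - s 2) (x' - s 0)) y,
      atom_shift j 1 S a' b' c' s hs y]
  · rw [sum_gl (hd 0) (hd 1) _ _ φ hφ]
    congr 1
    rw [sum_sT]
    refine Finset.sum_congr rfl fun x _ => ?_
    rw [sum_sT]
    simp only [add_sub_cancel_right]
  · rw [sum_gl (hd 1) (hd 2) _ _ φ hφ]
    congr 1
    rw [sum_sT]
    refine Finset.sum_congr rfl fun x _ => ?_
    rw [sum_sT]
    simp only [add_sub_cancel_right]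
  · rw [sum_gl (hd 2) (hd 0) _ _ φ hφ]
    congr 1
    rw [sum_sT]
    refine Finset.sum_congr rfl fun x _ => ?_
    rw [sum_sT]
    simp only [add_sub_cancel_right]

/-- **MERGE of a finite family**: `∑ atoms = ONE atom`, all the edge sums add -/
theorem merge (j : Fin 4) (n : ℕ) (T : Fin n → Fin 3 → Finset ℤ) (a b c : Fin n → ℤ → ℤ → ℂ) :
    ∃ (U : Fin 3 → Finset ℤ) (A B C : ℤ → ℤ → ℂ),
      (∀ y, atom j 1 U A B C y = ∑ l, atom j 1 (T l) (a l) (b l) (c l) y) ∧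
      (∀ φ : ℂ → ℝ, φ 0 = 0 →
        ∑ x ∈ U 0, ∑ x' ∈ U 1, φ (A x x') = ∑ l, ∑ x ∈ T l 0, ∑ x' ∈ T l 1, φ (a l x x') ∧
        ∑ x ∈ U 1, ∑ x' ∈ U 2, φ (B x x') = ∑ l, ∑ x ∈ T l 1, ∑ x' ∈ T l 2, φ (b l x x') ∧
        ∑ x ∈ U 2, ∑ x' ∈ U 0, φ (C x x') = ∑ l, ∑ x ∈ T l 2, ∑ x' ∈ T l 0, φ (c l x x')) := by
  induction n with
  | zero =>
    refine ⟨fun _ => ∅, fun _ _ => 0, fun _ _ => 0, fun _ _ => 0, fun y => ?_, fun φ hφ => ?_⟩
    · unfold atom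
      simp
    · simp
  | succ n ih =>
    obtain ⟨U, A, B, C, h1, h2⟩ := ih (fun l => T l.castSucc) (fun l => a l.castSucc)
      (fun l => b l.castSucc) (fun l => c l.castSucc)
    obtain ⟨V, A', B', C', h3, h4⟩ := merge2 j U (T (Fin.last n)) A B C (a (Fin.last n))
      (b (Fin.last n)) (c (Fin.last n))
    refine ⟨V, A', B', C', fun y => ?_, fun φ hφ => ⟨?_, ?_, ?_⟩⟩
    · rw [h3, h1, Fin.sum_univ_castSucc]
    · rw [(h4 φ hφ).1, (h2 φ hφ).1, Fin.sum_univ_castSucc]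
    · rw [(h4 φ hφ).2.1, (h2 φ hφ).2.1, Fin.sum_univ_castSucc]
    · rw [(h4 φ hφ).2.2, (h2 φ hφ).2.2, Fin.sum_univ_castSucc]

theorem atom_zero_a {j : Fin 4} {κ : ℝ} {T : Fin 3 → Finset ℤ} {a b c : ℤ → ℤ → ℂ}
    (h : n3 (T 0) (T 1) a = 0) (y : ℤ) : atom j κ T a b c y = 0 := by
  have h1 : ∀ x ∈ T 0, ∀ x' ∈ T 1, a x x' = 0 := by
    intro x hx x' hx'
    unfold n3 at h
    have h2 := (Finset.sum_eq_zero_iff_of_nonneg (fun _ _ => Finset.sum_nonneg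
      fun _ _ => by positivity)).1 h x hx
    have h3 := (Finset.sum_eq_zero_iff_of_nonneg (fun _ _ => by positivity)).1 h2 x' hx'
    simpa using h3
  unfold atom
  rw [Finset.sum_eq_zero, mul_zero]
  intro z0 h0
  refine Finset.sum_eq_zero fun z1 hz1 => Finset.sum_eq_zero fun z2 _ => ?_
  rw [h1 z0 h0 z1 hz1, zero_mul, zero_mul, ite_self]

theorem atom_zero_b {j : Fin 4} {κ : ℝ} {T : Fin 3 → Finset ℤ} {a b c : ℤ → ℤ → ℂ}
    (h : n3 (T 1) (T 2) b = 0) (y : ℤ) : atom j κ T a b c y = 0 := by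
  have h1 : ∀ x ∈ T 1, ∀ x' ∈ T 2, b x x' = 0 := by
    intro x hx x' hx'
    unfold n3 at h
    have h2 := (Finset.sum_eq_zero_iff_of_nonneg (fun _ _ => Finset.sum_nonneg
      fun _ _ => by positivity)).1 h x hx
    have h3 := (Finset.sum_eq_zero_iff_of_nonneg (fun _ _ => by positivity)).1 h2 x' hx'
    simpa using h3
  unfold atom
  rw [Finset.sum_eq_zero, mul_zero]
  intro z0 h0
  refine Finset.sum_eq_zero fun z1 hz1 => Finset.sum_eq_zero fun z2 hz2 => ?_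
  rw [h1 z1 hz1 z2 hz2, mul_zero, zero_mul, ite_self]

theorem atom_zero_c {j : Fin 4} {κ : ℝ} {T : Fin 3 → Finset ℤ} {a b c : ℤ → ℤ → ℂ}
    (h : n3 (T 2) (T 0) c = 0) (y : ℤ) : atom j κ T a b c y = 0 := by
  have h1 : ∀ x ∈ T 2, ∀ x' ∈ T 0, c x x' = 0 := by
    intro x hx x' hx'
    unfold n3 at h
    have h2 := (Finset.sum_eq_zero_iff_of_nonneg (fun _ _ => Finset.sum_nonneg
      fun _ _ => by positivity)).1 h x hx
    have h3 := (Finset.sum_eq_zero_iff_of_nonneg (fun _ _ => by positivity)).1 h2 x' hx'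
    simpa using h3
  unfold atom
  rw [Finset.sum_eq_zero, mul_zero]
  intro z0 h0
  refine Finset.sum_eq_zero fun z1 hz1 => Finset.sum_eq_zero fun z2 hz2 => ?_
  rw [h1 z2 hz2 z0 h0, mul_zero, ite_self]

theorem n3_smul (T T' : Finset ℤ) (a : ℤ → ℤ → ℂ) (u : ℂ) :
    n3 T T' (fun x x' => u * a x x') = ‖u‖ ^ 3 * n3 T T' a := by
  unfold n3
  rw [Finset.mul_sum]
  refine Finset.sum_congr rfl fun x _ => ?_
  rw [Finset.mul_sum]
  refine Finset.sum_congr rfl fun x' _ => ?_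
  rw [norm_mul, mul_pow]

theorem n3_nonneg (T T' : Finset ℤ) (a : ℤ → ℤ → ℂ) : 0 ≤ n3 T T' a :=
  Finset.sum_nonneg fun _ _ => Finset.sum_nonneg fun _ _ => by positivity

theorem atom_smul (j : Fin 4) (κ : ℝ) (T : Fin 3 → Finset ℤ) (a b c : ℤ → ℤ → ℂ) (u v w : ℂ) (y : ℤ) :
    atom j κ T (fun x x' => u * a x x') (fun x x' => v * b x x') (fun x x' => w * c x x') y =
      (u * v * w) * atom j κ T a b c y := by
  unfold atom
  rw [mul_left_comm]
  congr 1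
  rw [Finset.mul_sum]
  refine Finset.sum_congr rfl fun z0 _ => ?_
  rw [Finset.mul_sum]
  refine Finset.sum_congr rfl fun z1 _ => ?_
  rw [Finset.mul_sum]
  refine Finset.sum_congr rfl fun z2 _ => ?_
  split_ifs
  · ring
  · rw [mul_zero]

theorem atom_kap (j : Fin 4) (κ : ℝ) (T : Fin 3 → Finset ℤ) (a b c : ℤ → ℤ → ℂ) (y : ℤ) :
    atom j κ T a b c y = (κ : ℂ) * atom j 1 T a b c y := by
  unfold atom
  push_cast
  ring

/-- balanced form of `u * (unit atom)`: `κ = 1`, all three edges have `n3 ≤ |u|` -/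
theorem balance {j : Fin 4} {κ : ℝ} {T : Fin 3 → Finset ℤ} {a b c : ℤ → ℤ → ℂ} (hκ : 0 ≤ κ)
    (h1 : κ * (n3 (T 0) (T 1) a * n3 (T 1) (T 2) b * n3 (T 2) (T 0) c) ^ (1 / 3 : ℝ) ≤ 1) (u : ℂ) :
    ∃ a' b' c' : ℤ → ℤ → ℂ, (∀ y, atom j 1 T a' b' c' y = u * atom j κ T a b c y) ∧
      n3 (T 0) (T 1) a' ≤ ‖u‖ ∧ n3 (T 1) (T 2) b' ≤ ‖u‖ ∧ n3 (T 2) (T 0) c' ≤ ‖u‖ := by
  have hz : ∀ S S' : Finset ℤ, n3 S S' (fun _ _ => 0) ≤ ‖u‖ := by
    intro S S'
    unfold n3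
    simp
  have h0 : ∀ y, atom j 1 T (fun _ _ => 0) (fun _ _ => 0) (fun _ _ => 0) y = 0 := by
    intro y
    unfold atom
    simp
  by_cases ha : n3 (T 0) (T 1) a = 0
  · exact ⟨_, _, _, fun y => by rw [h0, atom_zero_a ha, mul_zero], hz _ _, hz _ _, hz _ _⟩
  by_cases hb : n3 (T 1) (T 2) b = 0
  · exact ⟨_, _, _, fun y => by rw [h0, atom_zero_b hb, mul_zero], hz _ _, hz _ _, hz _ _⟩
  by_cases hc : n3 (T 2) (T 0) c = 0
  · exact ⟨_, _, _, fun y => by rw [h0, atom_zero_c hc, mul_zero], hz _ _, hz _ _, hz _ _⟩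
  have ha' := lt_of_le_of_ne (n3_nonneg (T 0) (T 1) a) (Ne.symm ha)
  have hb' := lt_of_le_of_ne (n3_nonneg (T 1) (T 2) b) (Ne.symm hb)
  have hc' := lt_of_le_of_ne (n3_nonneg (T 2) (T 0) c) (Ne.symm hc)
  set Na := n3 (T 0) (T 1) a with hNa
  set Nb := n3 (T 1) (T 2) b with hNb
  set Nc := n3 (T 2) (T 0) c with hNc
  set mu : ℝ := (Na * Nb * Nc) ^ (1 / 3 : ℝ) with hmu
  have hmu0 : 0 < mu := by positivity
  have hmu3 : mu ^ 3 = Na * Nb * Nc := by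
    rw [hmu, ← Real.rpow_natCast, ← Real.rpow_mul (by positivity)]
    norm_num
  -- cube roots
  have cr : ∀ x : ℝ, 0 ≤ x → (x ^ (1 / 3 : ℝ)) ^ 3 = x := by
    intro x hx
    rw [← Real.rpow_natCast, ← Real.rpow_mul hx]
    norm_num
  set w : ℝ := ‖u‖ * κ * mu with hw
  have hw0 : 0 ≤ w := by positivity
  have hwu : w ≤ ‖u‖ := by
    rw [hw, mul_assoc]
    exact mul_le_of_le_one_right (norm_nonneg _) h1
  set la : ℝ := (w / Na) ^ (1 / 3 : ℝ) with hla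
  set lb : ℝ := (w / Nb) ^ (1 / 3 : ℝ) with hlb
  set lc : ℝ := (w / Nc) ^ (1 / 3 : ℝ) with hlc
  have hla0 : 0 ≤ la := by positivity
  have hlb0 : 0 ≤ lb := by positivity
  have hlc0 : 0 ≤ lc := by positivity
  have hla3 : la ^ 3 = w / Na := cr _ (by positivity)
  have hlb3 : lb ^ 3 = w / Nb := cr _ (by positivity)
  have hlc3 : lc ^ 3 = w / Nc := cr _ (by positivity)
  have hprod : la * lb * lc = ‖u‖ * κ := by
    have e : (la * lb * lc) ^ 3 = (‖u‖ * κ) ^ 3 := by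
      rw [mul_pow, mul_pow, hla3, hlb3, hlc3]
      have e2 : w / Na * (w / Nb) * (w / Nc) = w ^ 3 / (Na * Nb * Nc) := by
        field_simp
      rw [e2, ← hmu3, hw]
      field_simp
    exact (pow_left_inj₀ (by positivity) (by positivity) (by norm_num)).1 e
  -- the phase
  obtain ⟨ph, hph, hphu⟩ : ∃ ph : ℂ, ‖ph‖ = 1 ∧ ph * (‖u‖ : ℂ) = u := by
    by_cases hu : u = 0
    · exact ⟨1, by simp, by simp [hu]⟩
    · refine ⟨u / (‖u‖ : ℂ), ?_, ?_⟩
      · rw [norm_div, Complex.norm_real, norm_norm, div_self (norm_ne_zero_iff.2 hu)]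
      · rw [div_mul_cancel₀]
        exact_mod_cast norm_ne_zero_iff.2 hu
  refine ⟨fun x x' => (ph * (la : ℂ)) * a x x', fun x x' => (lb : ℂ) * b x x',
    fun x x' => (lc : ℂ) * c x x', fun y => ?_, ?_, ?_, ?_⟩
  · rw [atom_smul, atom_kap j κ]
    have e : ph * (la : ℂ) * (lb : ℂ) * (lc : ℂ) = u * (κ : ℂ) := by
      have e3 : ((la : ℂ) * (lb : ℂ) * (lc : ℂ)) = (‖u‖ : ℂ) * (κ : ℂ) := by
        exact_mod_cast hprod
      calc ph * (la : ℂ) * (lb : ℂ) * (lc : ℂ) = ph * ((la : ℂ) * (lb : ℂ) * (lc : ℂ)) := by ring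
        _ = ph * (‖u‖ : ℂ) * (κ : ℂ) := by rw [e3]; ring
        _ = _ := by rw [hphu]
    rw [e]
    ring
  · rw [n3_smul, norm_mul, hph, one_mul, Complex.norm_real, Real.norm_of_nonneg hla0, hla3,
      ← hNa, div_mul_cancel₀ _ ha]
    exact hwu
  · rw [n3_smul, Complex.norm_real, Real.norm_of_nonneg hlb0, hlb3, ← hNb, div_mul_cancel₀ _ hb]
    exact hwu
  · rw [n3_smul, Complex.norm_real, Real.norm_of_nonneg hlc0, hlc3, ← hNc, div_mul_cancel₀ _ hc]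
    exact hwu

/-- **the unit atoms are a convex set**: a frozen letter of mass `t` is `t` times ONE unit atom -/
theorem rep_one {j : Fin 4} {p : Nd} {f : Fn} {t : ℝ} (ht : 0 < t) (h : Rep j p f t) :
    ∃ φ, IsAtom j φ ∧ ∀ y ∈ iv p, f y = (t : ℂ) * φ y := by
  obtain ⟨n, φ, c, hφ, hf, hc⟩ := h
  choose κ T a b d h0 h1 h2 using hφ
  have hbal := fun i => balance (j := j) (h0 i) (h2 i) (c i)
  choose a' b' d' e0 e1 e2 e3 using hbal
  obtain ⟨U, A, B, D, m1, m2⟩ := merge j n T a' b' d'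
  have hsum := m2 (fun z => ‖z‖ ^ 3) (by simp)
  have nA : n3 (U 0) (U 1) A ≤ t := by
    have : n3 (U 0) (U 1) A = ∑ l, n3 (T l 0) (T l 1) (a' l) := hsum.1
    rw [this]
    exact (Finset.sum_le_sum fun l _ => e1 l).trans hc
  have nB : n3 (U 1) (U 2) B ≤ t := by
    have : n3 (U 1) (U 2) B = ∑ l, n3 (T l 1) (T l 2) (b' l) := hsum.2.1
    rw [this]
    exact (Finset.sum_le_sum fun l _ => e2 l).trans hc
  have nD : n3 (U 2) (U 0) D ≤ t := by
    have : n3 (U 2) (U 0) D = ∑ l, n3 (T l 2) (T l 0) (d' l) := hsum.2.2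
    rw [this]
    exact (Finset.sum_le_sum fun l _ => e3 l).trans hc
  refine ⟨atom j t⁻¹ U A B D, ⟨t⁻¹, U, A, B, D, by positivity, rfl, ?_⟩, fun y hy => ?_⟩
  · have h3 : n3 (U 0) (U 1) A * n3 (U 1) (U 2) B * n3 (U 2) (U 0) D ≤ t * t * t := by
      have q1 := n3_nonneg (U 0) (U 1) A
      have q2 := n3_nonneg (U 1) (U 2) B
      have q3 := n3_nonneg (U 2) (U 0) D
      exact mul_le_mul (mul_le_mul nA nB q2 ht.le) nD q3 (by positivity)
    have h4 : (n3 (U 0) (U 1) A * n3 (U 1) (U 2) B * n3 (U 2) (U 0) D) ^ (1 / 3 : ℝ) ≤ t := by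
      calc _ ≤ (t * t * t) ^ (1 / 3 : ℝ) := Real.rpow_le_rpow
            (mul_nonneg (mul_nonneg (n3_nonneg _ _ _) (n3_nonneg _ _ _)) (n3_nonneg _ _ _)) h3
            (by norm_num)
        _ = t := by
            have : t * t * t = t ^ (3 : ℝ) := by
              rw [show (3 : ℝ) = ((3 : ℕ) : ℝ) by norm_num, Real.rpow_natCast]
              ring
            rw [this, ← Real.rpow_mul ht.le]
            norm_num
    calc t⁻¹ * _ ≤ t⁻¹ * t := mul_le_mul_of_nonneg_left h4 (by positivity)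
      _ = 1 := inv_mul_cancel₀ ht.ne'
  · rw [atom_kap, hf y hy, m1 y]
    have e : (t : ℂ) * (((t⁻¹ : ℝ) : ℂ) * ∑ l, atom j 1 (T l) (a' l) (b' l) (d' l) y) =
        ∑ l, atom j 1 (T l) (a' l) (b' l) (d' l) y := by
      rw [← mul_assoc]
      have : (t : ℂ) * ((t⁻¹ : ℝ) : ℂ) = 1 := by
        rw [← Complex.ofReal_mul, mul_inv_cancel₀ ht.ne', Complex.ofReal_one]
      rw [this, one_mul]
    rw [e]
    refine Finset.sum_congr rfl fun l _ => ?_
    rw [e0 l y, h1 l]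

end Crest.Agent.R079.Mg530
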