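import Mathlib

/-!
# R079, Step I: MOVE with two moving letters (helper549)

A static bound with arbitrary node coefficients `|s p| ≤ 1` of a finite family of bilinear forms
gives the bound for letters that depend on the node through two arbitrary window maps
`v : P → α`, `w : P → β` (no nesting, no local condition), with the two global budgets.
Proof: independent signs for the two families.
-/

set_option autoImplicit false

namespace Crest.Agent.R079.Mov2

open Finset

/-- sign of a bit -/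
noncomputable def sg (b : Bool) : ℝ := if b then 1 else -1

lemma sg_sq (b : Bool) : sg b * sg b = 1 := by cases b <;> simp [sg]

lemma sg_not (b : Bool) : sg (!b) = - sg b := by cases b <;> simp [sg]

lemma abs_sg (b : Bool) : |sg b| = 1 := by cases b <;> simp [sg]

/-- orthogonality of the signs -/
lemma sum_sg {α : Type*} [Fintype α] [DecidableEq α] (a b : α) :
    ∑ e : α → Bool, sg (e a) * sg (e b) = if a = b then (2 : ℝ) ^ Fintype.card α else 0 := by
  split_ifs with h
  · subst h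
    simp [sg_sq]
  · have hinv : Function.Involutive (fun e : α → Bool => Function.update e a (!e a)) := by
      intro e
      simp
    have h1 := Equiv.sum_comp (Function.Involutive.toPerm _ hinv)
      (fun e : α → Bool => sg (e a) * sg (e b))
    have h2 : ∀ e : α → Bool, sg ((Function.Involutive.toPerm _ hinv e) a)
        * sg ((Function.Involutive.toPerm _ hinv e) b) = -(sg (e a) * sg (e b)) := by
      intro e
      have hb : b ≠ a := fun hb => h hb.symm
      simp [Function.Involutive.coe_toPerm, hb, sg_not]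
    rw [Finset.sum_congr rfl (fun e _ => h2 e), Finset.sum_neg_distrib] at h1
    linarith

variable {E F G : Type*} [NormedAddCommGroup E] [InnerProductSpace ℝ E]
  [NormedAddCommGroup F] [InnerProductSpace ℝ F] [NormedAddCommGroup G] [NormedSpace ℝ G]

/-- the signed sum of the letters -/
noncomputable def zz {α : Type*} [Fintype α] (D : α → E) (e : α → Bool) : E :=
  ∑ a, sg (e a) • D a

/-- mean square of the signed sum -/
lemma sum_zz_sq {α : Type*} [Fintype α] [DecidableEq α] (D : α → E) :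
    ∑ e : α → Bool, ‖zz D e‖ ^ 2 = (2 : ℝ) ^ Fintype.card α * ∑ a, ‖D a‖ ^ 2 := by
  have h1 : ∀ e : α → Bool, ‖zz D e‖ ^ 2
      = ∑ a, ∑ b, (sg (e a) * sg (e b)) * inner ℝ (D a) (D b) := by
    intro e
    rw [← real_inner_self_eq_norm_sq, zz, sum_inner]
    refine Finset.sum_congr rfl (fun a _ => ?_)
    rw [inner_sum]
    refine Finset.sum_congr rfl (fun b _ => ?_)
    rw [inner_smul_left, inner_smul_right]
    simp [mul_assoc]
  calc ∑ e : α → Bool, ‖zz D e‖ ^ 2
      = ∑ e : α → Bool, ∑ a, ∑ b, (sg (e a) * sg (e b)) * inner ℝ (D a) (D b) :=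
        Finset.sum_congr rfl (fun e _ => h1 e)
    _ = ∑ a, ∑ b, (∑ e : α → Bool, sg (e a) * sg (e b)) * inner ℝ (D a) (D b) := by
        rw [Finset.sum_comm]
        refine Finset.sum_congr rfl (fun a _ => ?_)
        rw [Finset.sum_comm]
        refine Finset.sum_congr rfl (fun b _ => ?_)
        rw [Finset.sum_mul]
    _ = ∑ a, (2 : ℝ) ^ Fintype.card α * ‖D a‖ ^ 2 := by
        refine Finset.sum_congr rfl (fun a _ => ?_)
        rw [Finset.sum_eq_single a]
        · rw [sum_sg, if_pos rfl, real_inner_self_eq_norm_sq]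
        · intro b _ hb
          rw [sum_sg, if_neg (fun h => hb h.symm), zero_mul]
        · intro h
          exact absurd (Finset.mem_univ a) h
    _ = (2 : ℝ) ^ Fintype.card α * ∑ a, ‖D a‖ ^ 2 := by rw [Finset.mul_sum]

/-- mean of the norm of the signed sum -/
lemma sum_zz_le {α : Type*} [Fintype α] [DecidableEq α] (D : α → E) :
    ∑ e : α → Bool, ‖zz D e‖ ≤ (2 : ℝ) ^ Fintype.card α * Real.sqrt (∑ a, ‖D a‖ ^ 2) := by
  have h1 : (∑ e : α → Bool, ‖zz D e‖) ^ 2
      ≤ ((2 : ℝ) ^ Fintype.card α * Real.sqrt (∑ a, ‖D a‖ ^ 2)) ^ 2 := by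
    have h2 := sq_sum_le_card_mul_sum_sq (s := (Finset.univ : Finset (α → Bool)))
      (f := fun e => ‖zz D e‖)
    have h3 : ((Finset.univ : Finset (α → Bool)).card : ℝ) = (2 : ℝ) ^ Fintype.card α := by
      simp
    rw [h3, sum_zz_sq] at h2
    have h4 : 0 ≤ ∑ a, ‖D a‖ ^ 2 := Finset.sum_nonneg (fun a _ => sq_nonneg _)
    rw [mul_pow, Real.sq_sqrt h4]
    calc (∑ e : α → Bool, ‖zz D e‖) ^ 2
        ≤ (2 : ℝ) ^ Fintype.card α * ((2 : ℝ) ^ Fintype.card α * ∑ a, ‖D a‖ ^ 2) := h2
      _ = ((2 : ℝ) ^ Fintype.card α) ^ 2 * ∑ a, ‖D a‖ ^ 2 := by ring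
  exact le_of_sq_le_sq h1 (by positivity)

/-- **MOVE, two moving letters**: the static bound with signs gives the bound for window
dependent letters, with the two global budgets. -/
theorem mov2 {P α β : Type*} [Fintype α] [DecidableEq α] [Fintype β] [DecidableEq β]
    (S : Finset P) (T : P → E →ₗ[ℝ] F →ₗ[ℝ] G) (N : ℝ) (hN0 : 0 ≤ N)
    (hN : ∀ s : P → ℝ, (∀ p, |s p| ≤ 1) → ∀ x y, ‖∑ p ∈ S, s p • T p x y‖ ≤ N * ‖x‖ * ‖y‖)
    (v : P → α) (w : P → β) (D : α → E) (H : β → F) (s : P → ℝ) (hs : ∀ p, |s p| ≤ 1) :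
    ‖∑ p ∈ S, s p • T p (D (v p)) (H (w p))‖
      ≤ N * Real.sqrt (∑ a, ‖D a‖ ^ 2) * Real.sqrt (∑ b, ‖H b‖ ^ 2) := by
  set A : ℝ := (2 : ℝ) ^ Fintype.card α with hA
  set B : ℝ := (2 : ℝ) ^ Fintype.card β with hB
  have hApos : 0 < A := by positivity
  have hBpos : 0 < B := by positivity
  have key : (A * B) • ∑ p ∈ S, s p • T p (D (v p)) (H (w p))
      = ∑ e : α → Bool, ∑ f : β → Bool,
          ∑ p ∈ S, (s p * (sg (e (v p)) * sg (f (w p)))) • T p (zz D e) (zz H f) := by
    have h1 : ∀ (e : α → Bool) (f : β → Bool),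
        ∑ p ∈ S, (s p * (sg (e (v p)) * sg (f (w p)))) • T p (zz D e) (zz H f)
        = ∑ p ∈ S, ∑ a, ∑ b, (s p * ((sg (e (v p)) * sg (e a)) * (sg (f (w p)) * sg (f b))))
            • T p (D a) (H b) := by
      intro e f
      refine Finset.sum_congr rfl (fun p _ => ?_)
      simp only [zz, map_sum, LinearMap.sum_apply, map_smul, LinearMap.smul_apply,
        Finset.smul_sum, smul_smul]
      rw [Finset.sum_comm]
      refine Finset.sum_congr rfl (fun a _ => ?_)
      refine Finset.sum_congr rfl (fun b _ => ?_)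
      congr 1
      ring
    have h2 : ∑ e : α → Bool, ∑ f : β → Bool,
          ∑ p ∈ S, (s p * (sg (e (v p)) * sg (f (w p)))) • T p (zz D e) (zz H f)
        = ∑ p ∈ S, ∑ a, ∑ b, (s p * ((∑ e : α → Bool, sg (e (v p)) * sg (e a))
            * (∑ f : β → Bool, sg (f (w p)) * sg (f b)))) • T p (D a) (H b) := by
      simp_rw [h1]
      have h3 : ∀ e : α → Bool, ∑ f : β → Bool, ∑ p ∈ S, ∑ a, ∑ b,
          (s p * ((sg (e (v p)) * sg (e a)) * (sg (f (w p)) * sg (f b)))) • T p (D a) (H b)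
          = ∑ p ∈ S, ∑ a, ∑ b, (s p * ((sg (e (v p)) * sg (e a))
            * (∑ f : β → Bool, sg (f (w p)) * sg (f b)))) • T p (D a) (H b) := by
        intro e
        rw [Finset.sum_comm]
        refine Finset.sum_congr rfl (fun p _ => ?_)
        rw [Finset.sum_comm]
        refine Finset.sum_congr rfl (fun a _ => ?_)
        rw [Finset.sum_comm]
        refine Finset.sum_congr rfl (fun b _ => ?_)
        rw [← Finset.sum_smul, ← Finset.mul_sum, ← Finset.mul_sum]
      simp_rw [h3]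
      rw [Finset.sum_comm]
      refine Finset.sum_congr rfl (fun p _ => ?_)
      rw [Finset.sum_comm]
      refine Finset.sum_congr rfl (fun a _ => ?_)
      rw [Finset.sum_comm]
      refine Finset.sum_congr rfl (fun b _ => ?_)
      rw [← Finset.sum_smul, ← Finset.mul_sum, ← Finset.sum_mul]
    rw [h2, Finset.smul_sum]
    refine Finset.sum_congr rfl (fun p _ => ?_)
    rw [Finset.sum_eq_single (v p)]
    · rw [Finset.sum_eq_single (w p)]
      · rw [sum_sg, sum_sg, if_pos rfl, if_pos rfl, smul_smul]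
        congr 1
        ring
      · intro b _ hb
        rw [sum_sg (w p) b, if_neg (fun h => hb h.symm)]
        simp
      · intro h
        exact absurd (Finset.mem_univ _) h
    · intro a _ ha
      refine Finset.sum_eq_zero (fun b _ => ?_)
      rw [sum_sg (v p) a, if_neg (fun h => ha h.symm)]
      simp
    · intro h
      exact absurd (Finset.mem_univ _) h
  have h5 : ‖(A * B) • ∑ p ∈ S, s p • T p (D (v p)) (H (w p))‖
      ≤ N * (∑ e : α → Bool, ‖zz D e‖) * (∑ f : β → Bool, ‖zz H f‖) := by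
    rw [key]
    calc ‖∑ e : α → Bool, ∑ f : β → Bool,
          ∑ p ∈ S, (s p * (sg (e (v p)) * sg (f (w p)))) • T p (zz D e) (zz H f)‖
        ≤ ∑ e : α → Bool, ∑ f : β → Bool, N * ‖zz D e‖ * ‖zz H f‖ := by
          refine (norm_sum_le _ _).trans (Finset.sum_le_sum (fun e _ => ?_))
          refine (norm_sum_le _ _).trans (Finset.sum_le_sum (fun f _ => ?_))
          refine hN (fun p => s p * (sg (e (v p)) * sg (f (w p)))) (fun p => ?_) _ _
          rw [abs_mul, abs_mul, abs_sg, abs_sg, mul_one, mul_one]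
          exact hs p
      _ = N * (∑ e : α → Bool, ‖zz D e‖) * (∑ f : β → Bool, ‖zz H f‖) := by
          simp_rw [← Finset.mul_sum, ← Finset.sum_mul, Finset.mul_sum]
  have h6 : ‖(A * B) • ∑ p ∈ S, s p • T p (D (v p)) (H (w p))‖
      = (A * B) * ‖∑ p ∈ S, s p • T p (D (v p)) (H (w p))‖ := by
    rw [norm_smul, Real.norm_of_nonneg (by positivity)]
  have h7 : N * (∑ e : α → Bool, ‖zz D e‖) * (∑ f : β → Bool, ‖zz H f‖)
      ≤ N * (A * Real.sqrt (∑ a, ‖D a‖ ^ 2)) * (B * Real.sqrt (∑ b, ‖H b‖ ^ 2)) := by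
    have h8 := sum_zz_le D
    have h9 := sum_zz_le H
    have h10 : 0 ≤ ∑ e : α → Bool, ‖zz D e‖ := Finset.sum_nonneg (fun e _ => norm_nonneg _)
    have h11 : 0 ≤ ∑ f : β → Bool, ‖zz H f‖ := Finset.sum_nonneg (fun e _ => norm_nonneg _)
    gcongr
  rw [h6] at h5
  have h12 : (A * B) * ‖∑ p ∈ S, s p • T p (D (v p)) (H (w p))‖
      ≤ (A * B) * (N * Real.sqrt (∑ a, ‖D a‖ ^ 2) * Real.sqrt (∑ b, ‖H b‖ ^ 2)) := by
    refine h5.trans (h7.trans (le_of_eq ?_))
    ring
  exact le_of_mul_le_mul_left h12 (by positivity)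

/-- one moving letter (the other one static) -/
theorem mov1 {P α : Type*} [Fintype α] [DecidableEq α]
    (S : Finset P) (T : P → E →ₗ[ℝ] F →ₗ[ℝ] G) (N : ℝ) (hN0 : 0 ≤ N)
    (hN : ∀ s : P → ℝ, (∀ p, |s p| ≤ 1) → ∀ x y, ‖∑ p ∈ S, s p • T p x y‖ ≤ N * ‖x‖ * ‖y‖)
    (v : P → α) (D : α → E) (y : F) (s : P → ℝ) (hs : ∀ p, |s p| ≤ 1) :
    ‖∑ p ∈ S, s p • T p (D (v p)) y‖ ≤ N * Real.sqrt (∑ a, ‖D a‖ ^ 2) * ‖y‖ := by
  have h := mov2 S T N hN0 hN v (fun _ => ()) D (fun _ : Unit => y) s hs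
  simpa [Real.sqrt_sq (norm_nonneg y)] using h

end Crest.Agent.R079.Mov2
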