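import Crest.Agent.R079.Move_59

/-! R079, Step I, MOVE lemma in CHAIN form (helper242).

`k = 0, .., n-1` = stack index of a window (any window system; windows of the same stack index are
disjoint), `T k` = the part of the word carried by the windows of stack index `k`, `x k`, `y k` = the
GLOBAL fields of the two moving letters on that stack.  The only input on the letters is the
quadratic variation along the chain, `‖x k - x l‖² ≤ D l - D k`; the price of the motion is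
`log₂ n`.  No nested windows, no node conditions, no count.

* `sign2`      : two independent families of signs (any two index maps, no nesting);
* `level_sum`  : square sum of the increments of one dyadic level;
* `move_chain` : `‖∑ T k (x k) (y k)‖ ≤ N (‖x_end‖ + a √Q) (‖y_end‖ + a √Q')`, `n ≤ 2 ^ a`. -/

set_option autoImplicit false

namespace Crest.Agent.R079.MovC

open Finset Crest.Agent.R079.Move59

section sign2

variable {ν ι κ : Type*} [Fintype ι] [DecidableEq ι] [Fintype κ] [DecidableEq κ]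
variable {E E' : Type*} [NormedAddCommGroup E] [InnerProductSpace ℝ E] [NormedAddCommGroup E']
  [InnerProductSpace ℝ E']

/-- the static signed bound of a family of bilinear words -/
def Stat (S : Finset ν) (T : ν → E →ₗ[ℝ] E' →ₗ[ℝ] ℂ) (N : ℝ) : Prop :=
  ∀ ε : ν → ℝ, (∀ k, |ε k| = 1) → ∀ u v, ‖∑ k ∈ S, ((ε k : ℝ) : ℂ) * T k u v‖ ≤ N * ‖u‖ * ‖v‖

lemma vec (a : ι) (d : ι → E) :
    ∑ s : ι → Bool, sg (s a) • ∑ i, sg (s i) • d i = (2 : ℝ) ^ Fintype.card ι • d a := by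
  have h1 : ∀ s : ι → Bool, sg (s a) • ∑ i, sg (s i) • d i =
      ∑ i, (sg (s a) * sg (s i)) • d i := by
    intro s
    rw [Finset.smul_sum]
    exact Finset.sum_congr rfl fun i _ => smul_smul _ _ _
  simp_rw [h1]
  rw [Finset.sum_comm]
  simp_rw [← Finset.sum_smul, sum_sg]
  rw [Finset.sum_eq_single a]
  · simp
  · intro i _ hi
    rw [if_neg (Ne.symm hi), zero_smul]
  · intro h
    exact absurd (Finset.mem_univ a) h

/-- **two independent families of signs** -/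
theorem sign2 (S : Finset ν) (T : ν → E →ₗ[ℝ] E' →ₗ[ℝ] ℂ) {N : ℝ} (hN : 0 ≤ N) (h : Stat S T N)
    (α : ν → ι) (β : ν → κ) (d : ι → E) (d' : κ → E') {V V' : ℝ} (hV : 0 ≤ V) (hV' : 0 ≤ V')
    (h2 : ∑ i, ‖d i‖ ^ 2 ≤ V ^ 2) (h2' : ∑ j, ‖d' j‖ ^ 2 ≤ V' ^ 2) :
    ‖∑ k ∈ S, T k (d (α k)) (d' (β k))‖ ≤ N * V * V' := by
  set A : ℝ := 2 ^ Fintype.card ι with hA
  set B : ℝ := 2 ^ Fintype.card κ with hB
  have hA0 : 0 < A := by positivity
  have hB0 : 0 < B := by positivity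
  set U : (ι → Bool) → E := fun s => ∑ i, sg (s i) • d i with hU
  set W : (κ → Bool) → E' := fun s => ∑ j, sg (s j) • d' j with hW
  have key : ∀ k, ∑ s : ι → Bool, ∑ s' : κ → Bool,
      ((sg (s (α k)) * sg (s' (β k)) : ℝ) : ℂ) * T k (U s) (W s') =
      ((A * B : ℝ) : ℂ) * T k (d (α k)) (d' (β k)) := by
    intro k
    have e1 : T k (∑ s : ι → Bool, sg (s (α k)) • U s) (∑ s' : κ → Bool, sg (s' (β k)) • W s') =
        ∑ s : ι → Bool, ∑ s' : κ → Bool,
          ((sg (s (α k)) * sg (s' (β k)) : ℝ) : ℂ) * T k (U s) (W s') := by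
      rw [map_sum (T k) (fun s : ι → Bool => sg (s (α k)) • U s) univ, LinearMap.sum_apply]
      refine Finset.sum_congr rfl fun s _ => ?_
      rw [map_sum]
      refine Finset.sum_congr rfl fun s' _ => ?_
      rw [map_smul, map_smul, LinearMap.smul_apply, Complex.real_smul, Complex.real_smul]
      push_cast
      ring
    rw [← e1, vec (α k) d, vec (β k) d', ← hA, ← hB, map_smul, map_smul, LinearMap.smul_apply,
      Complex.real_smul, Complex.real_smul]
    push_cast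
    ring
  have e2 : ((A * B : ℝ) : ℂ) * ∑ k ∈ S, T k (d (α k)) (d' (β k)) =
      ∑ s : ι → Bool, ∑ s' : κ → Bool, ∑ k ∈ S,
        ((sg (s (α k)) * sg (s' (β k)) : ℝ) : ℂ) * T k (U s) (W s') := by
    rw [Finset.mul_sum]
    calc ∑ k ∈ S, ((A * B : ℝ) : ℂ) * T k (d (α k)) (d' (β k))
        = ∑ k ∈ S, ∑ s : ι → Bool, ∑ s' : κ → Bool,
          ((sg (s (α k)) * sg (s' (β k)) : ℝ) : ℂ) * T k (U s) (W s') :=
          Finset.sum_congr rfl fun k _ => (key k).symm
      _ = ∑ s : ι → Bool, ∑ k ∈ S, ∑ s' : κ → Bool,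
          ((sg (s (α k)) * sg (s' (β k)) : ℝ) : ℂ) * T k (U s) (W s') := Finset.sum_comm
      _ = _ := Finset.sum_congr rfl fun s _ => Finset.sum_comm
  have hU2 : ∑ s, ‖U s‖ ≤ A * V := by
    refine sum_le (n := fun s => ‖U s‖) hV ?_
    rw [sum_norm_sq d]
    exact mul_le_mul_of_nonneg_left h2 hA0.le
  have hW2 : ∑ s, ‖W s‖ ≤ B * V' := by
    refine sum_le (n := fun s => ‖W s‖) hV' ?_
    rw [sum_norm_sq d']
    exact mul_le_mul_of_nonneg_left h2' hB0.le
  have h3 : A * B * ‖∑ k ∈ S, T k (d (α k)) (d' (β k))‖ ≤ N * (A * V) * (B * V') := by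
    have e : ‖((A * B : ℝ) : ℂ) * ∑ k ∈ S, T k (d (α k)) (d' (β k))‖ =
        A * B * ‖∑ k ∈ S, T k (d (α k)) (d' (β k))‖ := by
      rw [norm_mul, Complex.norm_real, Real.norm_of_nonneg (by positivity)]
    rw [← e, e2]
    calc ‖∑ s : ι → Bool, ∑ s' : κ → Bool, ∑ k ∈ S,
          ((sg (s (α k)) * sg (s' (β k)) : ℝ) : ℂ) * T k (U s) (W s')‖
        ≤ ∑ s : ι → Bool, ∑ s' : κ → Bool, N * ‖U s‖ * ‖W s'‖ := by
          refine (norm_sum_le _ _).trans (Finset.sum_le_sum fun s _ => ?_)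
          refine (norm_sum_le _ _).trans (Finset.sum_le_sum fun s' _ => ?_)
          exact h (fun k => sg (s (α k)) * sg (s' (β k)))
            (fun k => by rw [abs_mul, abs_sg, abs_sg, one_mul]) (U s) (W s')
      _ = N * (∑ s, ‖U s‖) * (∑ s', ‖W s'‖) := by
          rw [mul_assoc, Finset.sum_mul_sum, Finset.mul_sum]
          refine Finset.sum_congr rfl fun s _ => ?_
          rw [Finset.mul_sum]
          refine Finset.sum_congr rfl fun s' _ => ?_
          ring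
      _ ≤ N * (A * V) * (B * V') := by
          have h7 : N * (∑ s, ‖U s‖) ≤ N * (A * V) := mul_le_mul_of_nonneg_left hU2 hN
          exact mul_le_mul h7 hW2 (Finset.sum_nonneg fun s _ => norm_nonneg _) (by positivity)
  have h8 : A * B * ‖∑ k ∈ S, T k (d (α k)) (d' (β k))‖ ≤ A * B * (N * V * V') :=
    h3.trans (le_of_eq (by ring))
  exact le_of_mul_le_mul_left h8 (by positivity)

end sign2

section dyadic

variable {E : Type*} [NormedAddCommGroup E]

/-- last index of the block number `g` of length `2 ^ b` -/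
def cc (b g : ℕ) : ℕ := (g + 1) * 2 ^ b - 1

lemma cc_mono (b : ℕ) {g g' : ℕ} (h : g ≤ g') : cc b g ≤ cc b g' := by
  unfold cc
  have : (g + 1) * 2 ^ b ≤ (g' + 1) * 2 ^ b := Nat.mul_le_mul_right _ (by omega)
  omega

/-- the increment of level `b` on the block `g` -/
def inc (x : ℕ → E) (b g : ℕ) : E := x (cc b g) - x (cc (b + 1) (g / 2))

lemma cc_even (b h : ℕ) : cc (b + 1) h = cc b (2 * h + 1) := by
  unfold cc
  have : (h + 1) * 2 ^ (b + 1) = (2 * h + 1 + 1) * 2 ^ b := by ring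
  rw [this]

lemma inc_sq (x : ℕ → E) (D : ℕ → ℝ) (hx : ∀ k l, k ≤ l → ‖x k - x l‖ ^ 2 ≤ D l - D k) (b g : ℕ) :
    ‖inc x b g‖ ^ 2 ≤ D (cc b (g + 1)) - D (cc b g) := by
  have hD : ∀ k l, k ≤ l → D k ≤ D l := fun k l h => by
    have := hx k l h
    have h0 : 0 ≤ ‖x k - x l‖ ^ 2 := by positivity
    linarith
  unfold inc
  rw [cc_even]
  rcases Nat.even_or_odd' g with ⟨h, rfl | rfl⟩
  · have e : 2 * h / 2 = h := by omega
    rw [e]
    exact hx _ _ (cc_mono b (by omega))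
  · have e : (2 * h + 1) / 2 = h := by omega
    rw [e, sub_self, norm_zero]
    have := hD _ _ (cc_mono b (show 2 * h + 1 ≤ 2 * h + 1 + 1 by omega))
    have e0 : (0 : ℝ) ^ 2 = 0 := by norm_num
    rw [e0]
    linarith

/-- **square sum of one dyadic level** -/
theorem level_sum (x : ℕ → E) (D : ℕ → ℝ) {Q : ℝ}
    (hx : ∀ k l, k ≤ l → ‖x k - x l‖ ^ 2 ≤ D l - D k) (hQ : ∀ k, D k - D 0 ≤ Q) (b m : ℕ) :
    ∑ g ∈ range m, ‖inc x b g‖ ^ 2 ≤ Q := by
  refine (Finset.sum_le_sum fun g _ => inc_sq x D hx b g).trans ?_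
  rw [Finset.sum_range_sub (fun g => D (cc b g)) m]
  have h1 := hx 0 (cc b 0) (Nat.zero_le _)
  have h0 : 0 ≤ ‖x 0 - x (cc b 0)‖ ^ 2 := by positivity
  have h2 := hQ (cc b m)
  linarith

/-- the dyadic expansion along the chain -/
lemma expand (x : ℕ → E) (a k : ℕ) (hk : k < 2 ^ a) :
    x k = ∑ b ∈ range a, inc x b (k / 2 ^ b) + x (2 ^ a - 1) := by
  have h1 : ∀ b, inc x b (k / 2 ^ b) = x (cc b (k / 2 ^ b)) - x (cc (b + 1) (k / 2 ^ (b + 1))) := by
    intro b
    unfold inc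
    rw [Nat.div_div_eq_div_mul, pow_succ]
  simp_rw [h1]
  rw [Finset.sum_range_sub' (fun b => x (cc b (k / 2 ^ b))) a]
  have h0 : cc 0 (k / 2 ^ 0) = k := by
    unfold cc
    simp
  have ha : cc a (k / 2 ^ a) = 2 ^ a - 1 := by
    unfold cc
    rw [Nat.div_eq_of_lt hk]
    simp
  rw [h0, ha]
  abel

end dyadic

section chain

variable {E E' : Type*} [NormedAddCommGroup E] [InnerProductSpace ℝ E] [NormedAddCommGroup E']
  [InnerProductSpace ℝ E']

/-- the letter of level `b` (`b = a`: the static end letter) -/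
def pc {F : Type*} [NormedAddCommGroup F] (x : ℕ → F) (a b g : ℕ) : F :=
  if b < a then inc x b g else x (2 ^ a - 1)

/-- its price -/
noncomputable def vv {F : Type*} [NormedAddCommGroup F] (x : ℕ → F) (a : ℕ) (Q : ℝ) (b : ℕ) : ℝ :=
  if b < a then √Q else ‖x (2 ^ a - 1)‖

lemma vv_nonneg {F : Type*} [NormedAddCommGroup F] (x : ℕ → F) (a : ℕ) (Q : ℝ) (b : ℕ) :
    0 ≤ vv x a Q b := by
  unfold vv
  split_ifs
  · exact Real.sqrt_nonneg _
  · exact norm_nonneg _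

lemma vv_sum {F : Type*} [NormedAddCommGroup F] (x : ℕ → F) (a : ℕ) (Q : ℝ) :
    ∑ b ∈ range (a + 1), vv x a Q b = a * √Q + ‖x (2 ^ a - 1)‖ := by
  rw [Finset.sum_range_succ]
  have h1 : ∑ b ∈ range a, vv x a Q b = ∑ _b ∈ range a, √Q := by
    refine Finset.sum_congr rfl fun b hb => ?_
    unfold vv
    rw [if_pos (Finset.mem_range.1 hb)]
  rw [h1, Finset.sum_const, Finset.card_range, nsmul_eq_mul]
  unfold vv
  rw [if_neg (lt_irrefl a)]

lemma pc_sq {F : Type*} [NormedAddCommGroup F] (x : ℕ → F) (D : ℕ → ℝ) {Q : ℝ}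
    (hx : ∀ k l, k ≤ l → ‖x k - x l‖ ^ 2 ≤ D l - D k) (hQ : ∀ k, D k - D 0 ≤ Q) (a b : ℕ)
    (hb : b ∈ range (a + 1)) :
    ∑ g : Fin (2 ^ (a - b)), ‖pc x a b g‖ ^ 2 ≤ vv x a Q b ^ 2 := by
  have hQ0 : 0 ≤ Q := by
    have := hQ 0
    linarith
  by_cases h : b < a
  · unfold pc vv
    simp only [if_pos h]
    rw [Real.sq_sqrt hQ0, Fin.sum_univ_eq_sum_range (fun g => ‖inc x b g‖ ^ 2) (2 ^ (a - b))]
    exact level_sum x D hx hQ b _
  · have hba : b = a := by
      have := Finset.mem_range.1 hb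
      omega
    subst hba
    unfold pc vv
    simp

lemma pc_expand {F : Type*} [NormedAddCommGroup F] (x : ℕ → F) (a k : ℕ) (hk : k < 2 ^ a) :
    x k = ∑ b ∈ range (a + 1), pc x a b (k / 2 ^ b) := by
  rw [Finset.sum_range_succ]
  have h1 : ∑ b ∈ range a, pc x a b (k / 2 ^ b) = ∑ b ∈ range a, inc x b (k / 2 ^ b) := by
    refine Finset.sum_congr rfl fun b hb => ?_
    unfold pc
    rw [if_pos (Finset.mem_range.1 hb)]
  rw [h1]
  unfold pc
  rw [if_neg (lt_irrefl a)]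
  exact expand x a k hk

/-- **MOVE, chain form.** -/
theorem move_chain {n a : ℕ} (hn : n ≤ 2 ^ a) (T : ℕ → E →ₗ[ℝ] E' →ₗ[ℝ] ℂ) {N : ℝ} (hN : 0 ≤ N)
    (hT : Stat (range n) T N) (x : ℕ → E) (y : ℕ → E') (D D' : ℕ → ℝ) {Q Q' : ℝ}
    (hx : ∀ k l, k ≤ l → ‖x k - x l‖ ^ 2 ≤ D l - D k) (hQ : ∀ k, D k - D 0 ≤ Q)
    (hy : ∀ k l, k ≤ l → ‖y k - y l‖ ^ 2 ≤ D' l - D' k) (hQ' : ∀ k, D' k - D' 0 ≤ Q') :
    ‖∑ k ∈ range n, T k (x k) (y k)‖ ≤
      N * (a * √Q + ‖x (2 ^ a - 1)‖) * (a * √Q' + ‖y (2 ^ a - 1)‖) := by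
  have h1 : ∀ k ∈ range n, T k (x k) (y k) = ∑ b ∈ range (a + 1), ∑ c ∈ range (a + 1),
      T k (pc x a b (k / 2 ^ b)) (pc y a c (k / 2 ^ c)) := by
    intro k hk
    have hk' : k < 2 ^ a := lt_of_lt_of_le (Finset.mem_range.1 hk) hn
    conv_lhs => rw [pc_expand x a k hk', pc_expand y a k hk']
    rw [map_sum (T k) (fun b => pc x a b (k / 2 ^ b)) (range (a + 1)), LinearMap.sum_apply]
    refine Finset.sum_congr rfl fun b _ => ?_
    rw [map_sum]
  rw [Finset.sum_congr rfl h1, Finset.sum_comm]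
  have h2 : ∀ b ∈ range (a + 1), ∀ c ∈ range (a + 1),
      ‖∑ k ∈ range n, T k (pc x a b (k / 2 ^ b)) (pc y a c (k / 2 ^ c))‖ ≤
        N * vv x a Q b * vv y a Q' c := by
    intro b hb c hc
    have hb' : b ≤ a := Nat.lt_succ_iff.1 (Finset.mem_range.1 hb)
    have hc' : c ≤ a := Nat.lt_succ_iff.1 (Finset.mem_range.1 hc)
    have hlt : ∀ {k d : ℕ}, k < 2 ^ a → d ≤ a → k / 2 ^ d < 2 ^ (a - d) := by
      intro k d hk hd
      rw [Nat.div_lt_iff_lt_mul (by positivity), pow_sub_mul_pow 2 hd]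
      exact hk
    have h3 := sign2 (range n) T hN hT
      (fun k => if h : k < 2 ^ a then (⟨k / 2 ^ b, hlt h hb'⟩ : Fin (2 ^ (a - b))) else
        ⟨0, by positivity⟩)
      (fun k => if h : k < 2 ^ a then (⟨k / 2 ^ c, hlt h hc'⟩ : Fin (2 ^ (a - c))) else
        ⟨0, by positivity⟩)
      (fun g => pc x a b g) (fun g => pc y a c g) (vv_nonneg x a Q b) (vv_nonneg y a Q' c)
      (pc_sq x D hx hQ a b hb) (pc_sq y D' hy hQ' a c hc)
    refine le_trans (le_of_eq ?_) h3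
    congr 1
    refine Finset.sum_congr rfl fun k hk => ?_
    have hk' : k < 2 ^ a := lt_of_lt_of_le (Finset.mem_range.1 hk) hn
    simp only [dif_pos hk']
  calc ‖∑ b ∈ range (a + 1), ∑ k ∈ range n, ∑ c ∈ range (a + 1),
        T k (pc x a b (k / 2 ^ b)) (pc y a c (k / 2 ^ c))‖
      ≤ ∑ b ∈ range (a + 1), ∑ c ∈ range (a + 1), N * vv x a Q b * vv y a Q' c := by
        refine (norm_sum_le _ _).trans (Finset.sum_le_sum fun b hb => ?_)
        rw [Finset.sum_comm]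
        exact (norm_sum_le _ _).trans (Finset.sum_le_sum fun c hc => h2 b hb c hc)
    _ = N * (∑ b ∈ range (a + 1), vv x a Q b) * (∑ c ∈ range (a + 1), vv y a Q' c) := by
        rw [mul_assoc, Finset.sum_mul_sum, Finset.mul_sum]
        refine Finset.sum_congr rfl fun b _ => ?_
        rw [Finset.mul_sum]
        refine Finset.sum_congr rfl fun c _ => ?_
        ring
    _ = _ := by rw [vv_sum, vv_sum]

/-- one letter moves, the other one is static -/
theorem move_chain_one {n a : ℕ} (hn : n ≤ 2 ^ a) (T : ℕ → E →ₗ[ℝ] E' →ₗ[ℝ] ℂ) {N : ℝ}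
    (hN : 0 ≤ N) (hT : Stat (range n) T N) (x : ℕ → E) (y : E') (D : ℕ → ℝ) {Q : ℝ}
    (hx : ∀ k l, k ≤ l → ‖x k - x l‖ ^ 2 ≤ D l - D k) (hQ : ∀ k, D k - D 0 ≤ Q) :
    ‖∑ k ∈ range n, T k (x k) y‖ ≤ N * (a * √Q + ‖x (2 ^ a - 1)‖) * ‖y‖ := by
  have h := move_chain hn T hN hT x (fun _ => y) D (fun _ => 0) (Q := Q) (Q' := 0) hx hQ
    (fun k l _ => by simp) (fun k => by simp)
  simpa using h

end chain

end Crest.Agent.R079.MovC
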