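import Crest.Agent.R079.StkM_242

/-! R079, Step I, MOVE for functions on finite sets (helper242): `move_chain` with the norms
`√(∑_A ‖x‖²)` (no Hilbert space to build), locality of the words is automatic; and the repair of the
chain inequality with an additive slack (`chain_fix`), which is the form given by the stacks. -/

set_option autoImplicit false

namespace Crest.Agent.R079.MovC

open Finset Crest.Agent.R079.Move59

section fn

variable {Ω Ω' : Type*}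

/-- the `ℓ²` norm on `A` -/
noncomputable def nA (A : Finset Ω) (x : Ω → ℂ) : ℝ := √(∑ ω ∈ A, ‖x ω‖ ^ 2)

lemma nA_nonneg (A : Finset Ω) (x : Ω → ℂ) : 0 ≤ nA A x := Real.sqrt_nonneg _

/-- static signed bound, functions on finite sets -/
def StatF (A : Finset Ω) (A' : Finset Ω') (n : ℕ)
    (T : ℕ → (Ω → ℂ) →ₗ[ℝ] (Ω' → ℂ) →ₗ[ℝ] ℂ) (N : ℝ) : Prop :=
  ∀ ε : ℕ → ℝ, (∀ k, |ε k| = 1) → ∀ u v,
    ‖∑ k ∈ range n, ((ε k : ℝ) : ℂ) * T k u v‖ ≤ N * nA A u * nA A' v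

open Classical in
/-- extension by zero -/
noncomputable def ext0 (A : Finset Ω) : EuclideanSpace ℂ A →ₗ[ℝ] (Ω → ℂ) where
  toFun u := fun ω => if h : ω ∈ A then u ⟨ω, h⟩ else 0
  map_add' u v := by
    funext ω
    by_cases h : ω ∈ A <;> simp [h]
  map_smul' c u := by
    funext ω
    by_cases h : ω ∈ A <;> simp [h]

/-- restriction -/
noncomputable def res0 (A : Finset Ω) (x : Ω → ℂ) : EuclideanSpace ℂ A :=
  WithLp.toLp 2 (fun ω : A => x ω)

lemma ext0_mem {A : Finset Ω} (u : EuclideanSpace ℂ A) {ω : Ω} (h : ω ∈ A) :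
    ext0 A u ω = u ⟨ω, h⟩ := by
  classical
  show (if h : ω ∈ A then u ⟨ω, h⟩ else 0) = _
  rw [dif_pos h]

lemma ext0_res0 {A : Finset Ω} (x : Ω → ℂ) {ω : Ω} (h : ω ∈ A) : ext0 A (res0 A x) ω = x ω := by
  rw [ext0_mem _ h]
  rfl

lemma norm_res0 (A : Finset Ω) (x : Ω → ℂ) : ‖res0 A x‖ = nA A x := by
  rw [EuclideanSpace.norm_eq]
  unfold nA
  congr 1
  exact Finset.sum_coe_sort A (fun ω => ‖x ω‖ ^ 2)

lemma res0_sub (A : Finset Ω) (x y : Ω → ℂ) :
    res0 A x - res0 A y = res0 A (fun ω => x ω - y ω) := by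
  ext ω
  rfl

lemma nA_ext0 (A : Finset Ω) (u : EuclideanSpace ℂ A) : nA A (ext0 A u) = ‖u‖ := by
  rw [EuclideanSpace.norm_eq]
  unfold nA
  congr 1
  rw [← Finset.sum_coe_sort A (fun ω => ‖ext0 A u ω‖ ^ 2)]
  refine Finset.sum_congr rfl fun ω _ => ?_
  rw [ext0_mem u ω.2]

variable {A : Finset Ω} {A' : Finset Ω'} {n : ℕ} {T : ℕ → (Ω → ℂ) →ₗ[ℝ] (Ω' → ℂ) →ₗ[ℝ] ℂ} {N : ℝ}

/-- words which vanish for every choice of signs vanish term by term -/
lemma term_zero (f : ℕ → ℂ)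
    (h : ∀ ε : ℕ → ℝ, (∀ k, |ε k| = 1) → ∑ k ∈ range n, ((ε k : ℝ) : ℂ) * f k = 0) {k : ℕ}
    (hk : k ∈ range n) : f k = 0 := by
  have h1 := h (fun _ => 1) (fun _ => abs_one)
  have h2 := h (fun j => if j = k then -1 else 1) (fun j => by
    by_cases hj : j = k <;> simp [hj])
  have h3 : ∑ j ∈ range n, (((fun _ => (1 : ℝ)) j : ℝ) : ℂ) * f j -
      ∑ j ∈ range n, (((if j = k then -1 else 1 : ℝ)) : ℂ) * f j = 2 * f k := by
    rw [← Finset.sum_sub_distrib, Finset.sum_eq_single k]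
    · simp
      ring
    · intro j _ hj
      simp [hj]
    · intro hk'
      exact absurd hk hk'
  rw [h1, h2] at h3
  have h4 : (2 : ℂ) * f k = 0 := by rw [← h3]; ring
  simpa using h4

lemma kill_l (hT : StatF A A' n T N) {k : ℕ} (hk : k ∈ range n) {w : Ω → ℂ}
    (hw : ∀ ω ∈ A, w ω = 0) (v : Ω' → ℂ) : T k w v = 0 := by
  refine term_zero (n := n) (fun k => T k w v) (fun ε hε => ?_) hk
  have h0 : nA A w = 0 := by
    unfold nA
    rw [Finset.sum_eq_zero fun ω hω => by rw [hw ω hω]; simp, Real.sqrt_zero]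
  have h1 := hT ε hε w v
  rw [h0, mul_zero, zero_mul] at h1
  exact norm_le_zero_iff.1 h1

lemma kill_r (hT : StatF A A' n T N) {k : ℕ} (hk : k ∈ range n) (u : Ω → ℂ) {w : Ω' → ℂ}
    (hw : ∀ ω ∈ A', w ω = 0) : T k u w = 0 := by
  refine term_zero (n := n) (fun k => T k u w) (fun ε hε => ?_) hk
  have h0 : nA A' w = 0 := by
    unfold nA
    rw [Finset.sum_eq_zero fun ω hω => by rw [hw ω hω]; simp, Real.sqrt_zero]
  have h1 := hT ε hε u w
  rw [h0, mul_zero] at h1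
  exact norm_le_zero_iff.1 h1

/-- locality is automatic -/
lemma T_loc (hT : StatF A A' n T N) {k : ℕ} (hk : k ∈ range n) (x : Ω → ℂ) (y : Ω' → ℂ) :
    T k (ext0 A (res0 A x)) (ext0 A' (res0 A' y)) = T k x y := by
  have h1 : T k (x - ext0 A (res0 A x)) y = 0 :=
    kill_l hT hk (fun ω hω => by rw [Pi.sub_apply, ext0_res0 x hω, sub_self]) y
  have h2 : T k (ext0 A (res0 A x)) (y - ext0 A' (res0 A' y)) = 0 :=
    kill_r hT hk _ (fun ω hω => by rw [Pi.sub_apply, ext0_res0 y hω, sub_self])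
  rw [map_sub, LinearMap.sub_apply, sub_eq_zero] at h1
  rw [map_sub, sub_eq_zero] at h2
  rw [h1, h2]

lemma res0_dist {Ω₁ : Type*} (B : Finset Ω₁) (z : ℕ → Ω₁ → ℂ) (k l : ℕ) :
    ‖res0 B (z k) - res0 B (z l)‖ ^ 2 = ∑ ω ∈ B, ‖z k ω - z l ω‖ ^ 2 := by
  rw [res0_sub, norm_res0]
  unfold nA
  rw [Real.sq_sqrt (Finset.sum_nonneg fun _ _ => sq_nonneg _)]

/-- **MOVE for functions on finite sets.** -/
theorem move_fun {a : ℕ} (hn : n ≤ 2 ^ a) (hN : 0 ≤ N) (hT : StatF A A' n T N)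
    (x : ℕ → Ω → ℂ) (y : ℕ → Ω' → ℂ) (D D' : ℕ → ℝ) {Q Q' : ℝ}
    (hx : ∀ k l, k ≤ l → ∑ ω ∈ A, ‖x k ω - x l ω‖ ^ 2 ≤ D l - D k) (hQ : ∀ k, D k - D 0 ≤ Q)
    (hy : ∀ k l, k ≤ l → ∑ ω ∈ A', ‖y k ω - y l ω‖ ^ 2 ≤ D' l - D' k)
    (hQ' : ∀ k, D' k - D' 0 ≤ Q') :
    ‖∑ k ∈ range n, T k (x k) (y k)‖ ≤
      N * (a * √Q + nA A (x (2 ^ a - 1))) * (a * √Q' + nA A' (y (2 ^ a - 1))) := by
  have hS : Stat (range n) (fun k => (T k).compl₁₂ (ext0 A) (ext0 A')) N := by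
    intro ε hε u v
    have := hT ε hε (ext0 A u) (ext0 A' v)
    rw [nA_ext0, nA_ext0] at this
    simpa [LinearMap.compl₁₂_apply] using this
  have h := move_chain hn (fun k => (T k).compl₁₂ (ext0 A) (ext0 A')) hN hS
    (fun k => res0 A (x k)) (fun k => res0 A' (y k)) D D' (Q := Q) (Q' := Q')
    (fun k l hkl => by rw [res0_dist A x k l]; exact hx k l hkl) hQ
    (fun k l hkl => by rw [res0_dist A' y k l]; exact hy k l hkl) hQ'
  rw [norm_res0, norm_res0] at h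
  refine le_trans (le_of_eq ?_) h
  congr 1
  refine Finset.sum_congr rfl fun k hk => ?_
  rw [LinearMap.compl₁₂_apply, T_loc hT hk]

end fn

/-- the chain inequality with slack `e` (stacks `1, 2, ..`) in the form needed by `move_chain` -/
theorem chain_fix (F : ℕ → ℕ → ℝ) (V : ℕ → ℝ) {c e B : ℝ} (hc : 0 ≤ c) (he : 0 ≤ e) (m : ℕ)
    (hF : ∀ k l, 1 ≤ k → k ≤ l → F k l ≤ c * (V l - V k + e)) (hF0 : ∀ k, F k k = 0)
    (hV : ∀ k, 1 ≤ k → V k - V 1 ≤ B) :
    (∀ k l, k ≤ l → F (min k m + 1) (min l m + 1) ≤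
      c * (V (min l m + 1) + e * (min l m : ℕ)) - c * (V (min k m + 1) + e * (min k m : ℕ))) ∧
    ∀ k, c * (V (min k m + 1) + e * (min k m : ℕ)) - c * (V (min 0 m + 1) + e * (min 0 m : ℕ)) ≤
      c * (B + e * m) := by
  constructor
  · intro k l hkl
    rcases (min_le_min_right m hkl).lt_or_eq with h | h
    · have h1 := hF (min k m + 1) (min l m + 1) (by omega) (by omega)
      have h2 : ((min k m : ℕ) : ℝ) + 1 ≤ ((min l m : ℕ) : ℝ) := by exact_mod_cast h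
      have h3 : e * ((min k m : ℕ) : ℝ) + e ≤ e * ((min l m : ℕ) : ℝ) := by nlinarith
      have h4 : c * (V (min l m + 1) - V (min k m + 1) + e) ≤
          c * (V (min l m + 1) - V (min k m + 1) +
            (e * ((min l m : ℕ) : ℝ) - e * ((min k m : ℕ) : ℝ))) :=
        mul_le_mul_of_nonneg_left (by linarith) hc
      nlinarith [h1, h4]
    · rw [h, hF0]
      linarith
  · intro k
    have h1 := hV (min k m + 1) (by omega)
    have h0 : min 0 m = 0 := by omega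
    rw [h0]
    have h2 : ((min k m : ℕ) : ℝ) ≤ (m : ℝ) := by exact_mod_cast min_le_right k m
    have h3 : e * ((min k m : ℕ) : ℝ) ≤ e * m := mul_le_mul_of_nonneg_left h2 he
    have h4 : c * ((V (min k m + 1) - V 1) + e * ((min k m : ℕ) : ℝ)) ≤ c * (B + e * m) :=
      mul_le_mul_of_nonneg_left (by linarith) hc
    push_cast at h4 ⊢
    simp only [mul_zero, add_zero] at h4 ⊢
    nlinarith [h4]

end Crest.Agent.R079.MovC
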