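import Crest.Agent.R079.MovD_242

/-! R079, Step I, MOVE, final form on the stacks of a window partition (helper242).

* `size_Z`   : `κ ν ‖Z‖² ≤ len J (av J X ² + η)` (part above the threshold, any full region);
* `stackZ`, `stackG` : the two kinds of moving letters satisfy the hypotheses of `move_fun`;
* **`move_ZG`** : a word with the moving kernel letter `Z` (functional `X, f`) and the moving glued
  letter `g` (functional `X', f'`) on the stacks of a common partition; **`move_Z`** : static partner;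
  **`move_ZZ`** : two moving kernel letters. -/

set_option autoImplicit false

namespace Crest.Agent.R079.Stk

open Finset Crest.Agent.R079.Grid Crest.Agent.R079.Growth Crest.Agent.R079.QRed
  Crest.Agent.R079.Qh249 Crest.Agent.R079.TWin
open Crest.Agent.R079.RelW653 (vl NMP Jv Dv av_par sum_av' lf_sum_eq')
open Crest.Agent.R079.RelV653 Crest.Agent.R079.ThP653 Crest.Agent.R079.ThQ653
open Crest.Agent.R079.MovC

section family

variable {ι : Type*} [Fintype ι] {Ω : ι → Type*} {Bd : ∀ i, Nd → Finset (Ω i)}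
  {pos : ∀ i, Ω i → ℤ} {N : ∀ i, (Ω i → ℂ) → ℝ} {ν : ι → ℝ} {a : ∀ i, Ω i → ℂ} {r : ι → ℝ}
  {κ : ι → ℝ} {X : Fn} {η : ℝ} {f : Nd → Fn}

variable (hB : ∀ i, Bnd (Bd i) (pos i) (N i) (ν i)) (hr : ∀ i, 0 ≤ r i) (hκ : ∀ i, 0 ≤ κ i)
  (h : NMP (fun _ _ => True) (ThF Bd pos N ν a r κ) X η f)

include hB hr hκ h

/-- total value on the exits of a full region -/
lemma SL_Jv_le {W : Finset Nd} {J : Nd} (hW : Full W J) :
    SL W J (Jv (ThF Bd pos N ν a r κ) X f) ≤ len J * (av J X ^ 2 + η) := by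
  have hP := pen_ThF (a := a) (κ := κ) hB hr hκ
  calc SL W J (Jv (ThF Bd pos N ν a r κ) X f) ≤ SL W J (fun L => av L X ^ 2 + η) := by
        refine SL_mono fun L _ _ => ?_
        have := Jv_le hP h L
        linarith
    _ = len J * (av J X ^ 2 + η) := by
        rw [SL_add, SL_av hW X J hW.top, SL_const hW η J hW.top]
        ring

lemma SL_Jv_nonneg {W : Finset Nd} {J : Nd} :
    0 ≤ SL W J (Jv (ThF Bd pos N ν a r κ) X f) := by
  have hP := pen_ThF (a := a) (κ := κ) hB hr hκ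
  unfold SL
  exact Finset.sum_nonneg fun L _ => mul_nonneg (Growth.len_pos L).le (Jv_nonneg hP L)

/-- size of the kernel letter above the threshold -/
theorem size_Z {W : Finset Nd} {J : Nd} (hW : Full W J) (i : ι) :
    κ i * ν i * ∑ ω ∈ Bd i J, ‖Zs (Bd i) (pos i) (N i) (a i) (r i) W J f ω‖ ^ 2 ≤
      len J * (av J X ^ 2 + η) := by
  refine le_trans ?_ (SL_Jv_le hB hr hκ h hW)
  have e1 : ∑ ω ∈ Bd i J, ‖Zs (Bd i) (pos i) (N i) (a i) (r i) W J f ω‖ ^ 2 =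
      dst (Bd i) J (ag (Bd i) (pos i) (a i) J (gl W f))
        (Bgl (Bd i) (pos i) (N i) (a i) (r i) W J (gl W f)) := rfl
  rw [e1, mul_assoc, Bgl_dst (hB i) (a i) (hr i) hW (gl W f) J hW.top, ← SL_smul]
  refine SL_mono fun L hL _ => ?_
  have e2 : Th (Bd i) (pos i) (N i) (ν i) (a i) (r i) L (gl W f) =
      Th (Bd i) (pos i) (N i) (ν i) (a i) (r i) L (f L) := by
    unfold Th
    rw [ag_congr (hB i) fun y hy => gl_eq hW f hL hy]
  rw [e2]
  have h1 : κ i * Th (Bd i) (pos i) (N i) (ν i) (a i) (r i) L (f L) ≤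
      ThF Bd pos N ν a r κ L (f L) := by
    unfold ThF Sg
    exact Finset.single_le_sum
      (f := fun j => κ j * Th (Bd j) (pos j) (N j) (ν j) (a j) (r j) L (f L))
      (fun j _ => mul_nonneg (hκ j) (mul_nonneg (div_nonneg (hB j).nu.le (Growth.len_pos L).le)
        (dst_nonneg _ _ _))) (Finset.mem_univ i)
  unfold Jv vl
  have h2 : 0 ≤ av L (fun y => X y - f L y) ^ 2 := sq_nonneg _
  linarith

variable {R S : Finset Nd} {J : Nd} {W : Nd → Finset Nd} {C : ℝ} (hR : Full R J)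
  (hP : TWin.Part R S W C)

include hR hP

/-- the moving kernel letters satisfy the hypotheses of `move_fun` -/
theorem stackZ {i : ι} (hκi : 0 < κ i) (m : ℕ) :
    ∃ D : ℕ → ℝ, (∀ k l, k ≤ l → ∑ ω ∈ Bd i J,
      ‖Zs (Bd i) (pos i) (N i) (a i) (r i) (Rk R S (min k m + 1)) J f ω -
        Zs (Bd i) (pos i) (N i) (a i) (r i) (Rk R S (min l m + 1)) J f ω‖ ^ 2 ≤ D l - D k) ∧
      ∀ k, D k - D 0 ≤ 4 / (κ i * ν i) *
        (len J * (av J X ^ 2 + η) + 2 * η * len J * m) := by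
  have hν := (hB i).nu
  have hc : 0 < κ i * ν i := mul_pos hκi hν
  have hJ := Growth.len_pos J
  have he : 0 ≤ 2 * η * len J := by
    have := h.eta
    positivity
  have hfix := chain_fix
    (fun k l => dst (Bd i) J (Zs (Bd i) (pos i) (N i) (a i) (r i) (Rk R S k) J f)
      (Zs (Bd i) (pos i) (N i) (a i) (r i) (Rk R S l) J f))
    (fun k => SL (Rk R S k) J (Jv (ThF Bd pos N ν a r κ) X f))
    (c := 4 / (κ i * ν i)) (e := 2 * η * len J) (B := len J * (av J X ^ 2 + η))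
    (by positivity) he m ?_ ?_ ?_
  · exact ⟨_, hfix.1, hfix.2⟩
  · intro k l hk hkl
    have h1 := chain_Z hB hr hκ h hR hP hk hkl i
    rw [div_mul_eq_mul_div, le_div_iff₀ hc, mul_comm]
    exact h1
  · intro k
    unfold dst
    simp
  · intro k hk
    have h1 := SL_Jv_le hB hr hκ h (full_Rk hR hP hk)
    have h2 := SL_Jv_nonneg (W := Rk R S 1) (J := J) hB hr hκ h
    linarith

/-- the moving glued letters satisfy the hypotheses of `move_fun` -/
theorem stackG (m : ℕ) :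
    ∃ D : ℕ → ℝ, (∀ k l, k ≤ l → ∑ y ∈ iv J,
      ‖gl (Rk R S (min k m + 1)) f y - gl (Rk R S (min l m + 1)) f y‖ ^ 2 ≤ D l - D k) ∧
      ∀ k, D k - D 0 ≤ 2 * (len J * (av J X ^ 2 + η) + 2 * η * len J * m) := by
  have hJ := Growth.len_pos J
  have he : 0 ≤ 2 * η * len J := by
    have := h.eta
    positivity
  have hfix := chain_fix
    (fun k l => ∑ y ∈ iv J, ‖gl (Rk R S k) f y - gl (Rk R S l) f y‖ ^ 2)
    (fun k => SL (Rk R S k) J (Jv (ThF Bd pos N ν a r κ) X f))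
    (c := 2) (e := 2 * η * len J) (B := len J * (av J X ^ 2 + η))
    (by norm_num) he m ?_ ?_ ?_
  · exact ⟨_, hfix.1, hfix.2⟩
  · intro k l hk hkl
    exact chain_g hB hr hκ h hR hP hk hkl
  · intro k
    simp
  · intro k hk
    have h1 := SL_Jv_le hB hr hκ h (full_Rk hR hP hk)
    have h2 := SL_Jv_nonneg (W := Rk R S 1) (J := J) hB hr hκ h
    linarith

/-- norm of the last kernel letter -/
lemma nA_Z {i : ι} (hκi : 0 < κ i) {k : ℕ} (hk : 1 ≤ k) :
    nA (Bd i J) (Zs (Bd i) (pos i) (N i) (a i) (r i) (Rk R S k) J f) ≤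
      √(len J * (av J X ^ 2 + η) / (κ i * ν i)) := by
  have hc : 0 < κ i * ν i := mul_pos hκi (hB i).nu
  have h1 := size_Z hB hr hκ h (full_Rk hR hP hk) i
  unfold nA
  refine Real.sqrt_le_sqrt ?_
  rw [le_div_iff₀ hc, mul_comm]
  exact h1

/-- **MOVE on the stacks, kernel letter against a static partner** -/
theorem move_Z {i : ι} (hκi : 0 < κ i) {Ω' : Type*} {A' : Finset Ω'} {n b : ℕ} (hn : n ≤ 2 ^ b)
    (T : ℕ → (Ω i → ℂ) →ₗ[ℝ] (Ω' → ℂ) →ₗ[ℝ] ℂ) {M : ℝ} (hM : 0 ≤ M)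
    (hT : StatF (Bd i J) A' n T M) (y : Ω' → ℂ) :
    ‖∑ k ∈ range n, T k (Zs (Bd i) (pos i) (N i) (a i) (r i) (Rk R S (k + 1)) J f) y‖ ≤
      M * (b * √(4 / (κ i * ν i) * (len J * (av J X ^ 2 + η) + 2 * η * len J * (n - 1 : ℕ))) +
        √(len J * (av J X ^ 2 + η) / (κ i * ν i))) * nA A' y := by
  obtain ⟨D, h1, h2⟩ := stackZ hB hr hκ h hR hP hκi (n - 1)
  have h3 := move_fun hn hM hT
    (fun k => Zs (Bd i) (pos i) (N i) (a i) (r i) (Rk R S (min k (n - 1) + 1)) J f) (fun _ => y)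
    D (fun _ => 0) (Q' := 0) h1 h2 (fun k l _ => by simp) (fun k => by simp)
  have h4 : ∀ k ∈ range n, T k (Zs (Bd i) (pos i) (N i) (a i) (r i)
      (Rk R S (min k (n - 1) + 1)) J f) y =
      T k (Zs (Bd i) (pos i) (N i) (a i) (r i) (Rk R S (k + 1)) J f) y := by
    intro k hk
    have := Finset.mem_range.1 hk
    rw [show min k (n - 1) = k by omega]
  rw [Finset.sum_congr rfl h4] at h3
  refine h3.trans ?_
  rw [Real.sqrt_zero, mul_zero, zero_add]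
  refine mul_le_mul_of_nonneg_right ?_ (nA_nonneg _ _)
  refine mul_le_mul_of_nonneg_left ?_ hM
  have := nA_Z hB hr hκ h hR hP hκi (k := min (2 ^ b - 1) (n - 1) + 1) (by omega)
  linarith

end family

section two

variable {ι : Type*} [Fintype ι] {Ω : ι → Type*} {Bd : ∀ i, Nd → Finset (Ω i)}
  {pos : ∀ i, Ω i → ℤ} {N : ∀ i, (Ω i → ℂ) → ℝ} {ν : ι → ℝ} {a : ∀ i, Ω i → ℂ} {r : ι → ℝ}
  {κ : ι → ℝ} {X : Fn} {η : ℝ} {f : Nd → Fn}
  {ι' : Type*} [Fintype ι'] {Ω' : ι' → Type*} {Bd' : ∀ i, Nd → Finset (Ω' i)}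
  {pos' : ∀ i, Ω' i → ℤ} {N' : ∀ i, (Ω' i → ℂ) → ℝ} {ν' : ι' → ℝ} {a' : ∀ i, Ω' i → ℂ}
  {r' : ι' → ℝ} {κ' : ι' → ℝ} {X' : Fn} {η' : ℝ} {f' : Nd → Fn}

variable (hB : ∀ i, Bnd (Bd i) (pos i) (N i) (ν i)) (hr : ∀ i, 0 ≤ r i) (hκ : ∀ i, 0 ≤ κ i)
  (h : NMP (fun _ _ => True) (ThF Bd pos N ν a r κ) X η f)
  (hB' : ∀ i, Bnd (Bd' i) (pos' i) (N' i) (ν' i)) (hr' : ∀ i, 0 ≤ r' i) (hκ' : ∀ i, 0 ≤ κ' i)
  (h' : NMP (fun _ _ => True) (ThF Bd' pos' N' ν' a' r' κ') X' η' f')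
  {R S : Finset Nd} {J : Nd} {W : Nd → Finset Nd} {C : ℝ} (hR : Full R J)
  (hP : TWin.Part R S W C)

include hB hr hκ h hB' hr' hκ' h' hR hP

/-- **MOVE on the stacks, kernel letter of one functional against the glued letter of another** -/
theorem move_ZG {i : ι} (hκi : 0 < κ i) {n b : ℕ} (hn : n ≤ 2 ^ b)
    (T : ℕ → (Ω i → ℂ) →ₗ[ℝ] (ℤ → ℂ) →ₗ[ℝ] ℂ) {M : ℝ} (hM : 0 ≤ M)
    (hT : StatF (Bd i J) (iv J) n T M) :
    ‖∑ k ∈ range n, T k (Zs (Bd i) (pos i) (N i) (a i) (r i) (Rk R S (k + 1)) J f)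
        (gl (Rk R S (k + 1)) f')‖ ≤
      M * (b * √(4 / (κ i * ν i) * (len J * (av J X ^ 2 + η) + 2 * η * len J * (n - 1 : ℕ))) +
        √(len J * (av J X ^ 2 + η) / (κ i * ν i))) *
      (b * √(2 * (len J * (av J X' ^ 2 + η') + 2 * η' * len J * (n - 1 : ℕ))) +
        nA (iv J) (gl (Rk R S (min (2 ^ b - 1) (n - 1) + 1)) f')) := by
  obtain ⟨D, h1, h2⟩ := stackZ hB hr hκ h hR hP hκi (n - 1)
  obtain ⟨D', h1', h2'⟩ := stackG hB' hr' hκ' h' hR hP (n - 1)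
  have h3 := move_fun hn hM hT
    (fun k => Zs (Bd i) (pos i) (N i) (a i) (r i) (Rk R S (min k (n - 1) + 1)) J f)
    (fun k => gl (Rk R S (min k (n - 1) + 1)) f') D D' h1 h2 h1' h2'
  have h4 : ∀ k ∈ range n, T k (Zs (Bd i) (pos i) (N i) (a i) (r i)
      (Rk R S (min k (n - 1) + 1)) J f) (gl (Rk R S (min k (n - 1) + 1)) f') =
      T k (Zs (Bd i) (pos i) (N i) (a i) (r i) (Rk R S (k + 1)) J f)
        (gl (Rk R S (k + 1)) f') := by
    intro k hk
    have := Finset.mem_range.1 hk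
    rw [show min k (n - 1) = k by omega]
  rw [Finset.sum_congr rfl h4] at h3
  refine h3.trans ?_
  refine mul_le_mul_of_nonneg_right ?_ (add_nonneg (by positivity) (nA_nonneg _ _))
  refine mul_le_mul_of_nonneg_left ?_ hM
  have := nA_Z hB hr hκ h hR hP hκi (k := min (2 ^ b - 1) (n - 1) + 1) (by omega)
  linarith

/-- **MOVE on the stacks, two kernel letters** -/
theorem move_ZZ {i : ι} (hκi : 0 < κ i) {j : ι'} (hκj : 0 < κ' j) {n b : ℕ} (hn : n ≤ 2 ^ b)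
    (T : ℕ → (Ω i → ℂ) →ₗ[ℝ] (Ω' j → ℂ) →ₗ[ℝ] ℂ) {M : ℝ} (hM : 0 ≤ M)
    (hT : StatF (Bd i J) (Bd' j J) n T M) :
    ‖∑ k ∈ range n, T k (Zs (Bd i) (pos i) (N i) (a i) (r i) (Rk R S (k + 1)) J f)
        (Zs (Bd' j) (pos' j) (N' j) (a' j) (r' j) (Rk R S (k + 1)) J f')‖ ≤
      M * (b * √(4 / (κ i * ν i) * (len J * (av J X ^ 2 + η) + 2 * η * len J * (n - 1 : ℕ))) +
        √(len J * (av J X ^ 2 + η) / (κ i * ν i))) *
      (b * √(4 / (κ' j * ν' j) *
          (len J * (av J X' ^ 2 + η') + 2 * η' * len J * (n - 1 : ℕ))) +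
        √(len J * (av J X' ^ 2 + η') / (κ' j * ν' j))) := by
  obtain ⟨D, h1, h2⟩ := stackZ hB hr hκ h hR hP hκi (n - 1)
  obtain ⟨D', h1', h2'⟩ := stackZ hB' hr' hκ' h' hR hP hκj (n - 1)
  have h3 := move_fun hn hM hT
    (fun k => Zs (Bd i) (pos i) (N i) (a i) (r i) (Rk R S (min k (n - 1) + 1)) J f)
    (fun k => Zs (Bd' j) (pos' j) (N' j) (a' j) (r' j) (Rk R S (min k (n - 1) + 1)) J f')
    D D' h1 h2 h1' h2'
  have h4 : ∀ k ∈ range n, T k (Zs (Bd i) (pos i) (N i) (a i) (r i)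
      (Rk R S (min k (n - 1) + 1)) J f) (Zs (Bd' j) (pos' j) (N' j) (a' j) (r' j)
        (Rk R S (min k (n - 1) + 1)) J f') =
      T k (Zs (Bd i) (pos i) (N i) (a i) (r i) (Rk R S (k + 1)) J f)
        (Zs (Bd' j) (pos' j) (N' j) (a' j) (r' j) (Rk R S (k + 1)) J f') := by
    intro k hk
    have := Finset.mem_range.1 hk
    rw [show min k (n - 1) = k by omega]
  rw [Finset.sum_congr rfl h4] at h3
  refine h3.trans ?_
  have e1 := nA_Z hB hr hκ h hR hP hκi (k := min (2 ^ b - 1) (n - 1) + 1) (by omega)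
  have e2 := nA_Z hB' hr' hκ' h' hR hP hκj (k := min (2 ^ b - 1) (n - 1) + 1) (by omega)
  refine mul_le_mul ?_ ?_ (add_nonneg (by positivity) (nA_nonneg _ _)) (by positivity)
  · exact mul_le_mul_of_nonneg_left (by linarith) hM
  · linarith

end two

end Crest.Agent.R079.Stk
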