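import Crest.Agent.R079.Move_59

/-! R079, Step I, MOVE lemma in bilinear form (helper59).  `T i` = part of the word carried by the
window `i` (bilinear in the two letters), static signed bound `N ‖x‖ ‖y‖`. -/

set_option autoImplicit false

namespace Crest.Agent.R079.Move59

open Finset

variable {ι κ : Type*} [Fintype ι] [DecidableEq ι] [Fintype κ] [DecidableEq κ]
  {E F : Type*} [NormedAddCommGroup E] [InnerProductSpace ℝ E] [NormedAddCommGroup F]
  [InnerProductSpace ℝ F]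

lemma sg_mul (a b : Bool) : sg a * sg b = sg (a == b) := by
  cases a <;> cases b <;> simp [sg]

/-- **MOVE**, both letters move, the second one on the coarser windows `π i`. -/
theorem move_bil2 (π : ι → κ) (T : ι → E →ₗ[ℝ] F →ₗ[ℝ] ℂ) {N : ℝ} (hN : 0 ≤ N)
    (hT : ∀ (s : ι → Bool) (x : E) (y : F), ‖∑ i, sg (s i) • T i x y‖ ≤ N * ‖x‖ * ‖y‖)
    (D : ι → E) (D' : κ → F) :
    ‖∑ i, T i (D i) (D' (π i))‖ ≤
      N * Real.sqrt (∑ i, ‖D i‖ ^ 2) * Real.sqrt (∑ k, ‖D' k‖ ^ 2) := by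
  have hV : 0 ≤ ∑ i, ‖D i‖ ^ 2 := Finset.sum_nonneg fun i _ => sq_nonneg _
  have hV' : 0 ≤ ∑ k, ‖D' k‖ ^ 2 := Finset.sum_nonneg fun i _ => sq_nonneg _
  refine move π (fun i j k => T i (D j) (D' k)) (n := fun s => ‖∑ j, sg (s j) • D j‖)
    (n' := fun s => ‖∑ k, sg (s k) • D' k‖) hN (Real.sqrt_nonneg _) (Real.sqrt_nonneg _)
    (fun s => norm_nonneg _) (fun s => norm_nonneg _) ?_ ?_ ?_
  · rw [sum_norm_sq, Real.sq_sqrt hV]
  · rw [sum_norm_sq, Real.sq_sqrt hV']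
  · intro s s'
    refine le_trans (le_of_eq ?_) (hT (fun i => s i == s' (π i)) (∑ j, sg (s j) • D j)
      (∑ k, sg (s' k) • D' k))
    congr 1
    refine Finset.sum_congr rfl fun i _ => ?_
    have h1 : T i (∑ j, sg (s j) • D j) = ∑ j, sg (s j) • T i (D j) := by
      rw [map_sum]
      exact Finset.sum_congr rfl fun j _ => map_smul _ _ _
    rw [h1, LinearMap.sum_apply, Finset.smul_sum]
    refine Finset.sum_congr rfl fun j _ => ?_
    have h2 : (sg (s j) • T i (D j)) (∑ k, sg (s' k) • D' k) =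
        sg (s j) • ∑ k, sg (s' k) • T i (D j) (D' k) := by
      rw [LinearMap.smul_apply, map_sum]
      congr 1
      exact Finset.sum_congr rfl fun k _ => map_smul _ _ _
    rw [h2, Finset.smul_sum, Finset.smul_sum]
    refine Finset.sum_congr rfl fun k _ => ?_
    rw [← sg_mul]
    simp only [Complex.real_smul]
    push_cast
    ring

/-- **MOVE**, one moving letter, the partner static. -/
theorem move_bil (T : ι → E →ₗ[ℝ] F →ₗ[ℝ] ℂ) {N : ℝ} (hN : 0 ≤ N)
    (hT : ∀ (s : ι → Bool) (x : E) (y : F), ‖∑ i, sg (s i) • T i x y‖ ≤ N * ‖x‖ * ‖y‖)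
    (D : ι → E) (y : F) :
    ‖∑ i, T i (D i) y‖ ≤ N * Real.sqrt (∑ i, ‖D i‖ ^ 2) * ‖y‖ := by
  have h := move_bil2 (κ := Unit) (fun _ => ()) T hN hT D (fun _ => y)
  simpa [Real.sqrt_sq (norm_nonneg y)] using h

/-- families with weights: `Σ_i T_i (D_i, y)` when the letters are bounded by `V` in `ℓ²`. -/
theorem move_bil_le (T : ι → E →ₗ[ℝ] F →ₗ[ℝ] ℂ) {N V : ℝ} (hN : 0 ≤ N) (hV : 0 ≤ V)
    (hT : ∀ (s : ι → Bool) (x : E) (y : F), ‖∑ i, sg (s i) • T i x y‖ ≤ N * ‖x‖ * ‖y‖)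
    (D : ι → E) (hD : ∑ i, ‖D i‖ ^ 2 ≤ V ^ 2) (y : F) :
    ‖∑ i, T i (D i) y‖ ≤ N * V * ‖y‖ := by
  refine (move_bil T hN hT D y).trans ?_
  have h : Real.sqrt (∑ i, ‖D i‖ ^ 2) ≤ V := by
    rw [← Real.sqrt_sq hV]
    exact Real.sqrt_le_sqrt hD
  exact mul_le_mul_of_nonneg_right (mul_le_mul_of_nonneg_left h hN) (norm_nonneg y)

omit [DecidableEq ι] in
/-- **TELESCOPING IN LEVELS** (673, doc 2541 (4)): `x i = end letter + Σ_l (level increments)`; the
increment of level `l` seen by the window `i` is the one of the coarser window `π l i`.  `T` is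
summed over the fine windows; every level costs its own `ℓ²` budget. -/
theorem move_levels {L : ℕ} {κ : Fin L → Type*} [∀ l, Fintype (κ l)] [∀ l, DecidableEq (κ l)]
    (π : ∀ l, ι → κ l) (T : ι → E →ₗ[ℝ] F →ₗ[ℝ] ℂ) {N : ℝ} (hN : 0 ≤ N)
    (hT : ∀ (s : ι → Bool) (x : E) (y : F), ‖∑ i, sg (s i) • T i x y‖ ≤ N * ‖x‖ * ‖y‖)
    (x0 : E) (D : ∀ l, κ l → E) (x : ι → E)
    (V : Fin L → ℝ) (hV : ∀ l, 0 ≤ V l) (hD : ∀ l, ∑ k, ‖D l k‖ ^ 2 ≤ V l ^ 2) (y : F)
    (hx : ∀ i, T i (x i) y = T i x0 y + ∑ l, T i (D l (π l i)) y) :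
    ‖∑ i, T i (x i) y‖ ≤ N * (‖x0‖ + ∑ l, V l) * ‖y‖ := by
  have e : ∑ i, T i (x i) y = ∑ i, T i x0 y + ∑ l, ∑ i, T i (D l (π l i)) y := by
    rw [Finset.sum_comm, ← Finset.sum_add_distrib]
    exact Finset.sum_congr rfl fun i _ => hx i
  have h0 : ‖∑ i, T i x0 y‖ ≤ N * ‖x0‖ * ‖y‖ := by
    have := hT (fun _ => true) x0 y
    simpa [sg] using this
  have h1 : ∀ l, ‖∑ i, T i (D l (π l i)) y‖ ≤ N * V l * ‖y‖ := by
    intro l
    -- group the windows by `π l`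
    let S : κ l → E →ₗ[ℝ] F →ₗ[ℝ] ℂ := fun k => ∑ i ∈ univ.filter (fun i => π l i = k), T i
    have hS : ∀ (s : κ l → Bool) (x : E) (y : F), ‖∑ k, sg (s k) • S k x y‖ ≤ N * ‖x‖ * ‖y‖ := by
      intro s x y
      have e1 : ∑ k, sg (s k) • S k x y = ∑ i, sg (s (π l i)) • T i x y := by
        rw [← Finset.sum_fiberwise (s := (univ : Finset ι)) (g := π l)
          (f := fun i => sg (s (π l i)) • T i x y)]
        refine Finset.sum_congr rfl fun k _ => ?_
        simp only [S, LinearMap.sum_apply]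
        rw [Finset.smul_sum]
        refine Finset.sum_congr rfl fun i hi => ?_
        rw [(Finset.mem_filter.1 hi).2]
      rw [e1]
      exact hT (fun i => s (π l i)) x y
    have h2 := move_bil_le S hN (hV l) hS (D l) (hD l) y
    have e2 : ∑ k, S k (D l k) y = ∑ i, T i (D l (π l i)) y := by
      rw [← Finset.sum_fiberwise (s := (univ : Finset ι)) (g := π l)
        (f := fun i => T i (D l (π l i)) y)]
      refine Finset.sum_congr rfl fun k _ => ?_
      simp only [S, LinearMap.sum_apply]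
      refine Finset.sum_congr rfl fun i hi => ?_
      rw [(Finset.mem_filter.1 hi).2]
    rw [← e2]
    exact h2
  rw [e]
  calc ‖∑ i, T i x0 y + ∑ l, ∑ i, T i (D l (π l i)) y‖
      ≤ N * ‖x0‖ * ‖y‖ + ∑ l, N * V l * ‖y‖ := by
        refine (norm_add_le _ _).trans (add_le_add h0 ?_)
        exact (norm_sum_le _ _).trans (Finset.sum_le_sum fun l _ => h1 l)
    _ = N * (‖x0‖ + ∑ l, V l) * ‖y‖ := by
        rw [← Finset.sum_mul, ← Finset.mul_sum]
        ring

end Crest.Agent.R079.Move59
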