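import Mathlib

/-! R079, Step I, MOVE lemma (helper59): sign average over a finite family of windows.

`b i j k = T_i (Δ_j, Δ'_k)`: `T_i` = part of the word carried by the window `i`, `Δ_j` = increment of
the first (moving) letter attached to the window `j`, `Δ'_k` = increment of the second letter attached
to the coarser window `k`, `π i` = the coarser window containing `i`.  If every STATIC signed word is
bounded by `N` times the product of the Hilbert norms of the signed letters, then the sum of the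
words with MOVING letters is bounded by `N V V'`, `V² = Σ ‖Δ_j‖²`, `V'² = Σ ‖Δ'_k‖²`: no count. -/

set_option autoImplicit false

namespace Crest.Agent.R079.Move59

open Finset

/-- sign of a bit -/
def sg (b : Bool) : ℝ := if b then 1 else -1

lemma sg_sq (b : Bool) : sg b * sg b = 1 := by cases b <;> simp [sg]

lemma sg_not (b : Bool) : sg (!b) = - sg b := by cases b <;> simp [sg]

lemma abs_sg (b : Bool) : |sg b| = 1 := by cases b <;> simp [sg]

variable {ι κ : Type*} [Fintype ι] [DecidableEq ι] [Fintype κ] [DecidableEq κ]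

/-- orthogonality of the signs -/
lemma sum_sg (i j : ι) : ∑ s : ι → Bool, sg (s i) * sg (s j) =
    if i = j then (2 : ℝ) ^ Fintype.card ι else 0 := by
  by_cases h : i = j
  · subst h
    simp only [sg_sq, if_true]
    rw [Finset.sum_const, Finset.card_univ, Fintype.card_fun, Fintype.card_bool, nsmul_eq_mul]
    push_cast
    ring
  · rw [if_neg h]
    have hinv : ∀ s : ι → Bool, Function.update (Function.update s i (!(s i))) i
        (!(Function.update s i (!(s i)) i)) = s := by
      intro s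
      simp
    have := Finset.sum_involution (s := (Finset.univ : Finset (ι → Bool)))
      (f := fun s => sg (s i) * sg (s j)) (fun s _ => Function.update s i (!(s i)))
      (fun s _ => by
        have hj : Function.update s i (!(s i)) j = s j := by
          rw [Function.update_of_ne (Ne.symm h)]
        simp only [Function.update_self, hj, sg_not]
        ring)
      (fun s _ _ => by
        intro he
        have := congrFun he i
        simp at this)
      (fun s _ => Finset.mem_univ _)
      (fun s _ => hinv s)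
    exact this

/-- Hilbert norm of a signed sum, averaged -/
lemma sum_norm_sq {E : Type*} [NormedAddCommGroup E] [InnerProductSpace ℝ E] (D : ι → E) :
    ∑ s : ι → Bool, ‖∑ i, sg (s i) • D i‖ ^ 2 = 2 ^ Fintype.card ι * ∑ i, ‖D i‖ ^ 2 := by
  have h1 : ∀ s : ι → Bool, ‖∑ i, sg (s i) • D i‖ ^ 2 =
      ∑ i, ∑ j, (sg (s i) * sg (s j)) * inner ℝ (D i) (D j) := by
    intro s
    rw [← real_inner_self_eq_norm_sq, sum_inner]
    refine Finset.sum_congr rfl fun i _ => ?_
    rw [inner_sum]
    refine Finset.sum_congr rfl fun j _ => ?_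
    rw [real_inner_smul_left, real_inner_smul_right]
    ring
  calc ∑ s : ι → Bool, ‖∑ i, sg (s i) • D i‖ ^ 2
      = ∑ s : ι → Bool, ∑ i, ∑ j, (sg (s i) * sg (s j)) * inner ℝ (D i) (D j) :=
        Finset.sum_congr rfl fun s _ => h1 s
    _ = ∑ i, ∑ j, (∑ s : ι → Bool, sg (s i) * sg (s j)) * inner ℝ (D i) (D j) := by
        rw [Finset.sum_comm]
        refine Finset.sum_congr rfl fun i _ => ?_
        rw [Finset.sum_comm]
        refine Finset.sum_congr rfl fun j _ => ?_
        rw [Finset.sum_mul]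
    _ = ∑ i, 2 ^ Fintype.card ι * ‖D i‖ ^ 2 := by
        refine Finset.sum_congr rfl fun i _ => ?_
        rw [Finset.sum_eq_single i]
        · rw [sum_sg, if_pos rfl, real_inner_self_eq_norm_sq]
        · intro j _ hj
          rw [sum_sg, if_neg (Ne.symm hj), zero_mul]
        · intro h
          exact absurd (Finset.mem_univ i) h
    _ = _ := by rw [Finset.mul_sum]

/-- Cauchy-Schwarz on the sign cube -/
lemma sum_le {n : (ι → Bool) → ℝ} {V : ℝ} (hV : 0 ≤ V)
    (h2 : ∑ s, n s ^ 2 ≤ 2 ^ Fintype.card ι * V ^ 2) : ∑ s, n s ≤ 2 ^ Fintype.card ι * V := by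
  have h1 : (∑ s, n s) ^ 2 ≤ 2 ^ Fintype.card ι * ∑ s, n s ^ 2 := by
    have h := sq_sum_le_card_mul_sum_sq (s := (Finset.univ : Finset (ι → Bool))) (f := n)
    rw [Finset.card_univ, Fintype.card_fun, Fintype.card_bool] at h
    push_cast at h
    exact h
  have hc : (0 : ℝ) ≤ 2 ^ Fintype.card ι := by positivity
  have h3 : (∑ s, n s) ^ 2 ≤ (2 ^ Fintype.card ι * V) ^ 2 := by
    calc (∑ s, n s) ^ 2 ≤ 2 ^ Fintype.card ι * ∑ s, n s ^ 2 := h1
      _ ≤ 2 ^ Fintype.card ι * (2 ^ Fintype.card ι * V ^ 2) :=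
          mul_le_mul_of_nonneg_left h2 hc
      _ = _ := by ring
  exact le_of_sq_le_sq h3 (by positivity) 

/-- **MOVE**: both letters move, the second one on coarser windows. -/
theorem move (π : ι → κ) (b : ι → ι → κ → ℂ) {n : (ι → Bool) → ℝ} {n' : (κ → Bool) → ℝ}
    {N V V' : ℝ} (hN : 0 ≤ N) (hV : 0 ≤ V) (hV' : 0 ≤ V') (hn : ∀ s, 0 ≤ n s) (hn' : ∀ s, 0 ≤ n' s)
    (h2 : ∑ s, n s ^ 2 ≤ 2 ^ Fintype.card ι * V ^ 2)
    (h2' : ∑ s, n' s ^ 2 ≤ 2 ^ Fintype.card κ * V' ^ 2)
    (hb : ∀ (s : ι → Bool) (s' : κ → Bool), ‖∑ i, ∑ j, ∑ k,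
      (((sg (s i) * sg (s j)) * (sg (s' (π i)) * sg (s' k)) : ℝ) : ℂ) * b i j k‖ ≤
        N * n s * n' s') :
    ‖∑ i, b i i (π i)‖ ≤ N * V * V' := by
  set A : ℝ := 2 ^ Fintype.card ι with hA
  set B : ℝ := 2 ^ Fintype.card κ with hB
  have hA0 : 0 < A := by positivity
  have hB0 : 0 < B := by positivity
  have key : ((A * B : ℝ) : ℂ) * ∑ i, b i i (π i) = ∑ s : ι → Bool, ∑ s' : κ → Bool,
      ∑ i, ∑ j, ∑ k,
        (((sg (s i) * sg (s j)) * (sg (s' (π i)) * sg (s' k)) : ℝ) : ℂ) * b i j k := by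
    have e1 : ∀ i j k, ∑ s : ι → Bool, ∑ s' : κ → Bool,
        (((sg (s i) * sg (s j)) * (sg (s' (π i)) * sg (s' k)) : ℝ) : ℂ) * b i j k =
        (((if i = j then A else 0) * (if π i = k then B else 0) : ℝ) : ℂ) * b i j k := by
      intro i j k
      rw [← sum_sg i j, ← sum_sg (π i) k, Finset.sum_mul_sum]
      push_cast
      rw [Finset.sum_mul]
      refine Finset.sum_congr rfl fun s _ => ?_
      rw [Finset.sum_mul]
    calc ((A * B : ℝ) : ℂ) * ∑ i, b i i (π i)
        = ∑ i, ∑ j, ∑ k,
          (((if i = j then A else 0) * (if π i = k then B else 0) : ℝ) : ℂ) * b i j k := by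
          rw [Finset.mul_sum]
          refine Finset.sum_congr rfl fun i _ => ?_
          rw [Finset.sum_eq_single i]
          · rw [Finset.sum_eq_single (π i)]
            · simp
            · intro k _ hk
              rw [if_neg (Ne.symm hk)]
              simp
            · intro h
              exact absurd (Finset.mem_univ _) h
          · intro j _ hj
            refine Finset.sum_eq_zero fun k _ => ?_
            rw [if_neg (Ne.symm hj)]
            simp
          · intro h
            exact absurd (Finset.mem_univ _) h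
      _ = ∑ i, ∑ j, ∑ k, ∑ s : ι → Bool, ∑ s' : κ → Bool,
          (((sg (s i) * sg (s j)) * (sg (s' (π i)) * sg (s' k)) : ℝ) : ℂ) * b i j k := by
          refine Finset.sum_congr rfl fun i _ => Finset.sum_congr rfl fun j _ =>
            Finset.sum_congr rfl fun k _ => (e1 i j k).symm
      _ = ∑ i, ∑ j, ∑ s : ι → Bool, ∑ k, ∑ s' : κ → Bool,
          (((sg (s i) * sg (s j)) * (sg (s' (π i)) * sg (s' k)) : ℝ) : ℂ) * b i j k := by
          refine Finset.sum_congr rfl fun i _ => Finset.sum_congr rfl fun j _ => ?_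
          exact Finset.sum_comm
      _ = ∑ i, ∑ s : ι → Bool, ∑ j, ∑ k, ∑ s' : κ → Bool,
          (((sg (s i) * sg (s j)) * (sg (s' (π i)) * sg (s' k)) : ℝ) : ℂ) * b i j k := by
          refine Finset.sum_congr rfl fun i _ => ?_
          exact Finset.sum_comm
      _ = ∑ s : ι → Bool, ∑ i, ∑ j, ∑ k, ∑ s' : κ → Bool,
          (((sg (s i) * sg (s j)) * (sg (s' (π i)) * sg (s' k)) : ℝ) : ℂ) * b i j k :=
          Finset.sum_comm
      _ = ∑ s : ι → Bool, ∑ i, ∑ j, ∑ s' : κ → Bool, ∑ k,
          (((sg (s i) * sg (s j)) * (sg (s' (π i)) * sg (s' k)) : ℝ) : ℂ) * b i j k := by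
          refine Finset.sum_congr rfl fun s _ => Finset.sum_congr rfl fun i _ =>
            Finset.sum_congr rfl fun j _ => ?_
          exact Finset.sum_comm
      _ = ∑ s : ι → Bool, ∑ i, ∑ s' : κ → Bool, ∑ j, ∑ k,
          (((sg (s i) * sg (s j)) * (sg (s' (π i)) * sg (s' k)) : ℝ) : ℂ) * b i j k := by
          refine Finset.sum_congr rfl fun s _ => Finset.sum_congr rfl fun i _ => ?_
          exact Finset.sum_comm
      _ = _ := by
          refine Finset.sum_congr rfl fun s _ => ?_
          exact Finset.sum_comm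
  have h3 : A * B * ‖∑ i, b i i (π i)‖ ≤ N * (A * V) * (B * V') := by
    have e : ‖((A * B : ℝ) : ℂ) * ∑ i, b i i (π i)‖ = A * B * ‖∑ i, b i i (π i)‖ := by
      rw [norm_mul, Complex.norm_real, Real.norm_of_nonneg (by positivity)]
    rw [← e, key]
    calc ‖∑ s : ι → Bool, ∑ s' : κ → Bool, ∑ i, ∑ j, ∑ k,
          (((sg (s i) * sg (s j)) * (sg (s' (π i)) * sg (s' k)) : ℝ) : ℂ) * b i j k‖
        ≤ ∑ s : ι → Bool, ∑ s' : κ → Bool, N * n s * n' s' := by
          refine (norm_sum_le _ _).trans (Finset.sum_le_sum fun s _ => ?_)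
          exact (norm_sum_le _ _).trans (Finset.sum_le_sum fun s' _ => hb s s')
      _ = N * (∑ s, n s) * (∑ s', n' s') := by
          rw [mul_assoc, Finset.sum_mul_sum, Finset.mul_sum]
          refine Finset.sum_congr rfl fun s _ => ?_
          rw [Finset.mul_sum]
          refine Finset.sum_congr rfl fun s' _ => ?_
          ring
      _ ≤ N * (A * V) * (B * V') := by
          have h4 := sum_le hV h2
          have h5 := sum_le hV' h2'
          have h6 : 0 ≤ ∑ s', n' s' := Finset.sum_nonneg fun s _ => hn' s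
          have h7 : N * (∑ s, n s) ≤ N * (A * V) := mul_le_mul_of_nonneg_left h4 hN
          exact mul_le_mul h7 h5 h6 (by positivity)
  have h8 : A * B * ‖∑ i, b i i (π i)‖ ≤ A * B * (N * V * V') := h3.trans (le_of_eq (by ring))
  exact le_of_mul_le_mul_left h8 (by positivity)

/-- one moving letter, the other one static -/
theorem move_one (b : ι → ι → ℂ) {n : (ι → Bool) → ℝ} {N V y : ℝ} (hN : 0 ≤ N) (hV : 0 ≤ V)
    (hy : 0 ≤ y) (hn : ∀ s, 0 ≤ n s) (h2 : ∑ s, n s ^ 2 ≤ 2 ^ Fintype.card ι * V ^ 2)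
    (hb : ∀ s : ι → Bool, ‖∑ i, ∑ j, ((sg (s i) * sg (s j) : ℝ) : ℂ) * b i j‖ ≤ N * n s * y) :
    ‖∑ i, b i i‖ ≤ N * V * y := by
  have h := move (κ := Unit) (fun _ : ι => ()) (fun i j _ => b i j) (n := n) (n' := fun _ => y)
    hN hV hy hn (fun _ => hy) h2 (by simp) (fun s s' => by
      have e : ∀ i j, ∑ k : Unit, (((sg (s i) * sg (s j)) * (sg (s' ()) * sg (s' k)) : ℝ) : ℂ) *
          b i j = ((sg (s i) * sg (s j) : ℝ) : ℂ) * b i j := by
        intro i j
        simp [sg_sq]
      simp only [e]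
      exact hb s)
  exact h

end Crest.Agent.R079.Move59
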