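import Crest.Agent.R079.NLas_994
import Crest.Agent.R079.GInst2_531

/-! R079 (helper531): the node cost `C At L` of `GInst_531` / `GInst2_531` is an admissible cost
(`Cst`) of 994's node-dependent LASSO (`NLas_994`), and the READ-OUT of a window: homogeneous levels,
levels against the atoms and against mixtures, pointwise bound of the residual, splitting of the
top letter and of the leaf letters into (mixture of `A`) + (mixture of `B`) + (`L¹`-small). -/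

set_option autoImplicit false

namespace Crest.Agent.R079.NLasB531

open Finset Crest.Agent.R079.Grid Crest.Agent.R079.Glue Crest.Agent.R079.Growth
  Crest.Agent.R079.QRed Crest.Agent.R079.Qh249 Crest.Agent.R079.QVar181 Crest.Agent.R079.TWin
  Crest.Agent.R079.GInst531 Crest.Agent.R079.NLas994

/-- the cost predicate -/
def Kc (At : Nd → Set Fn) (L : ℝ) (p : Nd) (f : Fn) (u : ℝ) : Prop := GInst531.C At L p f ≤ u

variable {At A B : Nd → Set Fn} {L : ℝ} {K : Nd → Fn → ℝ → Prop} {G h g : Fn} {δ e0 : ℝ}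
  {W : Finset Nd} {k : Nd}

theorem kc_mono {p : Nd} {f : Fn} {u v : ℝ} (hf : Kc At L p f u) (huv : u ≤ v) : Kc At L p f v :=
  le_trans hf huv

theorem kc_atom (hL : 0 ≤ L) {p : Nd} {φ : Fn} (hφ : φ ∈ At p) : Kc At L p φ 1 := C_atom hL hφ

theorem kc_mx (hL : 0 ≤ L) {p : Nd} {φ : Fn} {M : ℝ} (hφ : Mx (At p) p M φ) : Kc At L p φ M :=
  C_mx hL hφ

/-- **the node cost is admissible** -/
theorem kc_cst (hL : 0 ≤ L) (hAt : RstM At) : Cst (Kc At L) where
  zero := fun _ => (C_zero hL).le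
  nn := fun _ _ _ hu => le_trans (C_nonneg hL) hu
  congr := fun p f g u hfg hu => by
    unfold Kc at hu ⊢
    rw [← C_local hfg]
    exact hu
  add := fun p f g u v hf hg => le_trans (C_add hL) (add_le_add hf hg)
  smul := fun p f u z hu => by
    unfold Kc at hu ⊢
    rw [C_smul hL]
    exact mul_le_mul_of_nonneg_left hu (norm_nonneg z)
  split := fun m l f u hu => ⟨_, _, le_refl _, le_refl _, by
    have h1 := C_chM hL hAt m l f
    unfold Kc at hu
    linarith⟩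

theorem sum_sq_av (p : Nd) (φ : Fn) : ∑ y ∈ iv p, ‖φ y‖ ^ 2 = len p * av p φ ^ 2 := by
  rw [av_sq]
  have := lenp p
  field_simp

/-- **HOMOGENEOUS LEVELS**: the additive error of a window scales with `av p φ` -/
theorem lev_hom (hK : Cst K) (h1 : LasW K G h g δ e0 W k) {p : Nd} (hp : p ∈ W) {φ : Fn} {w : ℝ}
    (hφ : K p φ w) :
    ‖∑ y ∈ iv p, (G y - g y) * (starRingEnd ℂ) (φ y)‖ ≤ len p * (w / 2 + 2 * e0 * av p φ) := by
  have hl := lenp p
  have hcard : ∑ _y ∈ iv p, (1 : ℝ) = len p := by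
    rw [Finset.sum_const, nsmul_eq_mul, mul_one, card_iv']
  rcases eq_or_lt_of_le (Growth.av_nonneg p φ) with h0 | h0
  · have hz : ∑ y ∈ iv p, ‖φ y‖ ^ 2 = 0 := by
      rw [sum_sq_av, ← h0]; ring
    have hz' : ∀ y ∈ iv p, φ y = 0 := by
      intro y hy
      have h2 := (Finset.sum_eq_zero_iff_of_nonneg fun y _ => by positivity).1 hz y hy
      exact norm_eq_zero.1 (pow_eq_zero_iff two_ne_zero |>.1 h2)
    have hs : ∑ y ∈ iv p, (G y - g y) * (starRingEnd ℂ) (φ y) = 0 :=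
      Finset.sum_eq_zero fun y hy => by rw [hz' y hy, map_zero, mul_zero]
    rw [hs, norm_zero, ← h0, mul_zero, add_zero]
    have := hK.nn _ _ _ hφ
    positivity
  · set a : ℝ := av p φ with ha
    have hn : ‖((a⁻¹ : ℝ) : ℂ)‖ = a⁻¹ := by
      rw [Complex.norm_real, Real.norm_eq_abs, abs_of_pos (inv_pos.2 h0)]
    have h2 := h1.lev p hp _ _ (hK.smul p φ w ((a⁻¹ : ℝ) : ℂ) hφ)
    rw [hn] at h2
    have e1 : ∑ y ∈ iv p, (G y - g y) * (starRingEnd ℂ) (((a⁻¹ : ℝ) : ℂ) * φ y) =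
        ((a⁻¹ : ℝ) : ℂ) * ∑ y ∈ iv p, (G y - g y) * (starRingEnd ℂ) (φ y) := by
      rw [Finset.mul_sum]
      refine Finset.sum_congr rfl fun y _ => ?_
      rw [map_mul, Complex.conj_ofReal]
      ring
    have e2 : ∑ y ∈ iv p, (1 + ‖((a⁻¹ : ℝ) : ℂ) * φ y‖ ^ 2) = 2 * len p := by
      rw [Finset.sum_add_distrib, hcard]
      have : ∑ y ∈ iv p, ‖((a⁻¹ : ℝ) : ℂ) * φ y‖ ^ 2 = len p := by
        simp only [norm_mul, hn, mul_pow]
        rw [← Finset.mul_sum, sum_sq_av, ← ha]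
        field_simp
      rw [this]
      ring
    rw [e1, e2, norm_mul, hn] at h2
    have h3 := mul_le_mul_of_nonneg_left h2 h0.le
    have e3 : a * (a⁻¹ * ‖∑ y ∈ iv p, (G y - g y) * (starRingEnd ℂ) (φ y)‖) =
        ‖∑ y ∈ iv p, (G y - g y) * (starRingEnd ℂ) (φ y)‖ := by
      rw [← mul_assoc, mul_inv_cancel₀ h0.ne', one_mul]
    have e4 : a * (len p * (a⁻¹ * w / 2) + e0 * (2 * len p)) =
        len p * (w / 2 + 2 * e0 * a) := by
      field_simp
    rw [e3, e4] at h3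
    exact h3

/-- **levels against the atoms of the node** -/
theorem lev_atom (hL : 0 ≤ L) (hAt : RstM At) (h1 : LasW (Kc At L) G h g δ e0 W k) {p : Nd}
    (hp : p ∈ W) {φ : Fn} (hφ : φ ∈ At p) :
    ‖∑ y ∈ iv p, (G y - g y) * (starRingEnd ℂ) (φ y)‖ ≤ len p * (1 / 2 + 2 * e0 * av p φ) :=
  lev_hom (kc_cst hL hAt) h1 hp (kc_atom hL hφ)

/-- levels against the mixtures of atoms of the node -/
theorem lev_mx (hL : 0 ≤ L) (hAt : RstM At) (h1 : LasW (Kc At L) G h g δ e0 W k) {p : Nd}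
    (hp : p ∈ W) {φ : Fn} {M : ℝ} (hφ : Mx (At p) p M φ) :
    ‖∑ y ∈ iv p, (G y - g y) * (starRingEnd ℂ) (φ y)‖ ≤ len p * (M / 2 + 2 * e0 * av p φ) :=
  lev_hom (kc_cst hL hAt) h1 hp (kc_mx hL hφ)

/-- levels against ARBITRARY functions: `L¹` duality -/
theorem lev_a1 (hL : 0 ≤ L) (hAt : RstM At) (h1 : LasW (Kc At L) G h g δ e0 W k) {p : Nd}
    (hp : p ∈ W) (φ : Fn) :
    ‖∑ y ∈ iv p, (G y - g y) * (starRingEnd ℂ) (φ y)‖ ≤
      len p * (L * a1 p φ / 2 + 2 * e0 * av p φ) :=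
  lev_hom (kc_cst hL hAt) h1 hp (C_le_a1 hL)

/-- **POINTWISE BOUND of the residual** -/
theorem res_pt (hL : 0 ≤ L) (h1 : LasW (Kc At L) G h g δ e0 W k) {p : Nd} (hp : p ∈ W) {y : ℤ}
    (hy : y ∈ iv p) : ‖G y - g y‖ ≤ L / 2 + e0 * (len p + 1) := by
  have hl := lenp p
  have h2 := h1.lev p hp (pt y 1) _ (C_pt hL hy 1)
  have e1 : ∑ x ∈ iv p, (G x - g x) * (starRingEnd ℂ) (pt y 1 x) = G y - g y := by
    rw [Finset.sum_eq_single y]
    · simp [pt]
    · intro b _ hb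
      simp [pt, hb]
    · intro h
      exact absurd hy h
  have e2 : ∑ x ∈ iv p, (1 + ‖pt y 1 x‖ ^ 2) = len p + 1 := by
    rw [Finset.sum_add_distrib, Finset.sum_const, nsmul_eq_mul, mul_one, card_iv']
    congr 1
    rw [Finset.sum_eq_single y]
    · simp [pt]
    · intro b _ hb
      simp [pt, hb]
    · intro h
      exact absurd hy h
  rw [e1, e2, norm_one] at h2
  have e3 : len p * (L * (1 / len p) / 2) = L / 2 := by
    field_simp
  rw [e3] at h2
  exact h2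

/-- **the top letter splits** -/
theorem top_split (hL : 0 ≤ L) (h1 : LasW (Kc (fun q => A q ∪ B q) L) G h g δ e0 W k) :
    ∃ H S T : Fn, Mx (A k) k 3 H ∧ Mx (B k) k 3 S ∧ L * a1 k T ≤ 3 ∧
      ∀ y ∈ iv k, h y = H y + S y + T y :=
  split hL (lt_of_le_of_lt h1.top (by norm_num))

/-- **the leaf letters split** -/
theorem leaf_split (hL : 0 ≤ L) (h1 : LasW (Kc (fun q => A q ∪ B q) L) G h g δ e0 W k) {q : Nd}
    (hq : q ∈ lf W) :
    ∃ H S T : Fn, Mx (A q) q 3 H ∧ Mx (B q) q 3 S ∧ L * a1 q T ≤ 3 ∧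
      ∀ y ∈ iv q, g y = H y + S y + T y :=
  split hL (lt_of_le_of_lt (h1.lfc q hq) (by norm_num))

/-- what a window delivers for the cost `C (A ∪ B) L` -/
structure Wn (A B : Nd → Set Fn) (L Q : ℝ) (G h g : Fn) (δ : ℝ) (W : Finset Nd) (k : Nd) :
    Prop where
  top : ∃ H S T : Fn, Mx (A k) k 3 H ∧ Mx (B k) k 3 S ∧ L * a1 k T ≤ 3 ∧
    ∀ y ∈ iv k, h y = H y + S y + T y
  leaf : ∀ q ∈ lf W, ∃ H S T : Fn, Mx (A q) q 3 H ∧ Mx (B q) q 3 S ∧ L * a1 q T ≤ 3 ∧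
    ∀ y ∈ iv q, g y = H y + S y + T y
  sml : ∀ p ∈ W, av p (fun y => g y - h y) ≤ 3 * Real.sqrt δ
  res : ∀ p ∈ W, av p (fun y => G y - g y) ≤ 2
  sup : ∀ p ∈ W, ∀ y ∈ iv p, ‖G y - g y‖ ≤ L
  lev : ∀ p ∈ W, ∀ φ, φ ∈ A p ∪ B p → av p φ ≤ Q →
    ‖∑ y ∈ iv p, (G y - g y) * (starRingEnd ℂ) (φ y)‖ ≤ len p
  mix : ∀ p ∈ W, ∀ φ M, Mx (A p ∪ B p) p M φ → av p φ ≤ Q * M →
    ‖∑ y ∈ iv p, (G y - g y) * (starRingEnd ℂ) (φ y)‖ ≤ len p * M

/-- **COMMON WINDOWS for finitely many letters and restrictable atom families** -/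
theorem windows {ι : Type*} [Fintype ι] {R : Finset Nd} {J : Nd} (hR : Full R J)
    (A B : ι → Nd → Set Fn) (L : ι → ℝ) (hL : ∀ i, 1 ≤ L i) (hA : ∀ i, RstM (A i))
    (hB : ∀ i, RstM (B i)) (G : ι → Fn) (hG : ∀ i, ∀ p ∈ R, av p (G i) ≤ 1) {δ Q : ℝ}
    (hδ : 0 < δ) (hQ : 0 ≤ Q) :
    ∃ (S : Finset Nd) (W : Nd → Finset Nd) (h g : ι → Nd → Fn),
      Part R S W (2 + 16 * Fintype.card ι / δ) ∧
      ∀ k ∈ S, ∀ i, Wn (A i) (B i) (L i) Q (G i) (h i k) (g i k) δ (W k) k := by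
  have hJ := lenp J
  have hL0 : ∀ i, 0 ≤ L i := fun i => zero_le_one.trans (hL i)
  have hAB : ∀ i, RstM (fun q => A i q ∪ B i q) := fun i => (hA i).union (hB i)
  set e0 : ℝ := min (1 / (2 * (len J + 1))) (1 / (4 * (Q + 1))) with he
  have he0 : 0 < e0 := lt_min (by positivity) (by positivity)
  have he1 : e0 * (len J + 1) ≤ 1 / 2 := by
    have : e0 ≤ 1 / (2 * (len J + 1)) := min_le_left _ _
    calc e0 * (len J + 1) ≤ 1 / (2 * (len J + 1)) * (len J + 1) :=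
          mul_le_mul_of_nonneg_right this (by positivity)
      _ = 1 / 2 := by field_simp
  have he2 : 2 * e0 * Q ≤ 1 / 2 := by
    have h2 : e0 ≤ 1 / (4 * (Q + 1)) := min_le_right _ _
    rw [le_div_iff₀ (by positivity)] at h2
    nlinarith
  obtain ⟨S, W, h, g, hP, hw⟩ := las_windows hR (fun i => Kc (fun q => A i q ∪ B i q) (L i))
    (fun i => kc_cst (hL0 i) (hAB i)) (fun i p f u v hu huv => kc_mono hu huv) G hG hδ he0
  refine ⟨S, W, h, g, hP, fun k hk i => ?_⟩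
  have h1 := hw k hk i
  have hlen : ∀ p ∈ W k, len p ≤ len J := by
    intro p hp
    have hlev : p.1 ≤ J.1 := Growth.iv_level (hR.reg.1 p (hP.wsub k hk hp))
    unfold len
    exact pow_le_pow_right₀ one_le_two (by omega)
  refine ⟨top_split (hL0 i) h1, fun q hq => leaf_split (hL0 i) h1 hq, h1.eav, h1.rav,
    fun p hp y hy => ?_, fun p hp φ hφ ha => ?_, fun p hp φ M hφ ha => ?_⟩
  · refine (res_pt (hL0 i) h1 hp hy).trans ?_
    have h2 : e0 * (len p + 1) ≤ e0 * (len J + 1) :=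
      mul_le_mul_of_nonneg_left (by linarith [hlen p hp]) he0.le
    have := hL i
    linarith
  · refine (lev_atom (hL0 i) (hAB i) h1 hp hφ).trans ?_
    have h2 : 2 * e0 * av p φ ≤ 2 * e0 * Q := mul_le_mul_of_nonneg_left ha (by positivity)
    have h3 := lenp p
    nlinarith
  · have hM : 0 ≤ M := by
      obtain ⟨n, ψ, c, _, _, h4⟩ := hφ
      exact le_trans (Finset.sum_nonneg fun _ _ => norm_nonneg _) h4
    refine (lev_mx (hL0 i) (hAB i) h1 hp hφ).trans ?_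
    have h2 : 2 * e0 * av p φ ≤ 2 * e0 * (Q * M) := mul_le_mul_of_nonneg_left ha (by positivity)
    have h3 := lenp p
    have h4 : 2 * e0 * (Q * M) ≤ 1 / 2 * M := by
      have := mul_le_mul_of_nonneg_right he2 hM
      linarith
    have h5 : M / 2 + 2 * e0 * av p φ ≤ M := by linarith
    exact mul_le_mul_of_nonneg_left h5 h3.le

end Crest.Agent.R079.NLasB531
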