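import Crest.Agent.R079.TWin4_903

/-! R079, doc 2531 / 28030 (540), helper994: LASSO with NODE-DEPENDENT SUPER-AVERAGING costs.
`K p f u` = "`f` has cost at most `u` at the node `p`".  Windows, small letter, levels at every node. -/

set_option autoImplicit false

namespace Crest.Agent.R079.NLas994

open Finset Crest.Agent.R079.Grid Crest.Agent.R079.Glue Crest.Agent.R079.Growth
  Crest.Agent.R079.QRed Crest.Agent.R079.Qh249 Crest.Agent.R079.QVar181 Crest.Agent.R079.TWin

/-- node-dependent cost; the average of the costs of the children is at most the cost of the parent -/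
structure Cst (K : Nd → Fn → ℝ → Prop) : Prop where
  zero : ∀ p, K p (fun _ => 0) 0
  nn : ∀ p f u, K p f u → 0 ≤ u
  congr : ∀ p f g u, (∀ y ∈ iv p, f y = g y) → K p f u → K p g u
  add : ∀ p f g u v, K p f u → K p g v → K p (fun y => f y + g y) (u + v)
  smul : ∀ p f u (z : ℂ), K p f u → K p (fun y => z * f y) (‖z‖ * u)
  split : ∀ (m : ℕ) (l : ℤ) f u, K (m + 1, l) f u →
    ∃ u0 u1, K (m, 2 * l) f u0 ∧ K (m, 2 * l + 1) f u1 ∧ u0 + u1 ≤ 2 * u

/-- the functional -/
noncomputable def Fl (p : Nd) (G f : Fn) (u : ℝ) : ℝ := av p (fun y => G y - f y) ^ 2 + u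

variable {K : Nd → Fn → ℝ → Prop}

theorem exists_near (hK : Cst K) {η : ℝ} (hη : 0 < η) (G : Fn) (p : Nd) :
    ∃ (f : Fn) (t : ℝ), K p f t ∧ ∀ (g : Fn) (u : ℝ), K p g u → Fl p G f t ≤ Fl p G g u + η := by
  let S : Set ℝ := {x | ∃ (g : Fn) (u : ℝ), K p g u ∧ x = Fl p G g u}
  have hne : S.Nonempty := ⟨_, _, _, hK.zero p, rfl⟩
  have hbd : BddBelow S := ⟨0, by
    rintro x ⟨g, u, h, rfl⟩
    have := hK.nn _ _ _ h
    unfold Fl
    positivity⟩
  obtain ⟨x, ⟨f, t, hft, rfl⟩, hx⟩ := Real.lt_sInf_add_pos hne hη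
  refine ⟨f, t, hft, fun g u hgu => ?_⟩
  have : sInf S ≤ Fl p G g u := csInf_le hbd ⟨g, u, hgu, rfl⟩
  linarith

theorem near_convex (hK : Cst K) {η : ℝ} {G : Fn} {p : Nd} {f : Fn} {t : ℝ} (hf : K p f t)
    (hmin : ∀ (g : Fn) (u : ℝ), K p g u → Fl p G f t ≤ Fl p G g u + η)
    (g : Fn) (u : ℝ) (hg : K p g u) :
    Fl p G f t + (1 / 2) * av p (fun y => g y - f y) ^ 2 ≤ Fl p G g u + 2 * η := by
  have hmid : K p (fun y => (1 / 2 : ℂ) * (f y + g y)) (‖(1 / 2 : ℂ)‖ * (t + u)) :=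
    hK.smul _ _ _ _ (hK.add _ _ _ _ _ hf hg)
  have hn : ‖(1 / 2 : ℂ)‖ = 1 / 2 := by simp
  rw [hn] at hmid
  have h := hmin _ _ hmid
  have key : av p (fun y => G y - (1 / 2 : ℂ) * (f y + g y)) ^ 2 =
      av p (fun y => G y - f y) ^ 2 / 2 + av p (fun y => G y - g y) ^ 2 / 2 -
        av p (fun y => g y - f y) ^ 2 / 4 := by
    rw [av_sq, av_sq, av_sq, av_sq]
    have : ∀ y, ‖G y - (1 / 2 : ℂ) * (f y + g y)‖ ^ 2 =
        ‖G y - f y‖ ^ 2 / 2 + ‖G y - g y‖ ^ 2 / 2 - ‖g y - f y‖ ^ 2 / 4 := by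
      intro y
      have e1 : G y - (1 / 2 : ℂ) * (f y + g y) = ((G y - f y) + (G y - g y)) / 2 := by ring
      have e2 : (G y - f y) - (G y - g y) = g y - f y := by ring
      rw [e1, norm_mid, e2]
    rw [Finset.sum_congr rfl fun y _ => this y, Finset.sum_sub_distrib, Finset.sum_add_distrib,
      ← Finset.sum_div, ← Finset.sum_div, ← Finset.sum_div]
    ring
  unfold Fl at h ⊢
  rw [key] at h
  linarith

theorem near_level (hK : Cst K) {η : ℝ} (hη : 0 < η) {G : Fn} {p : Nd} {f : Fn} {t : ℝ}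
    (hf : K p f t) (hmin : ∀ (g : Fn) (u : ℝ), K p g u → Fl p G f t ≤ Fl p G g u + η)
    (φ : Fn) (w : ℝ) (hφ : K p φ w) :
    ‖∑ y ∈ iv p, (G y - f y) * (starRingEnd ℂ) (φ y)‖ ≤
      len p * (w / 2) + Real.sqrt η / 2 * ∑ y ∈ iv p, (1 + ‖φ y‖ ^ 2) := by
  set S : ℂ := ∑ y ∈ iv p, (G y - f y) * (starRingEnd ℂ) (φ y) with hS
  have hL := len_pos' p
  have hw := hK.nn _ _ _ hφ
  set r := Real.sqrt η with hr
  have hr0 : 0 < r := Real.sqrt_pos.mpr hη
  have hrr : r ^ 2 = η := Real.sq_sqrt hη.le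
  have hs0 : 0 ≤ ∑ y ∈ iv p, (1 + ‖φ y‖ ^ 2) := Finset.sum_nonneg fun y _ => by positivity
  by_cases hS0 : S = 0
  · rw [hS0, norm_zero]
    positivity
  have hSn : 0 < ‖S‖ := norm_pos_iff.mpr hS0
  let z : ℂ := (r / ‖S‖ : ℝ) * S
  have hz : ‖z‖ = r := by
    simp only [z, norm_mul, Complex.norm_real, Real.norm_eq_abs]
    rw [abs_of_nonneg (by positivity)]
    field_simp
  have hzS : ((starRingEnd ℂ) z * S).re = r * ‖S‖ := by
    have e : (starRingEnd ℂ) z * S = ((r * ‖S‖ : ℝ) : ℂ) := by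
      simp only [z, map_mul, Complex.conj_ofReal]
      have : (starRingEnd ℂ) S * S = ((‖S‖ ^ 2 : ℝ) : ℂ) := by
        rw [mul_comm, Complex.mul_conj, Complex.normSq_eq_norm_sq]
      rw [mul_assoc, this]
      rw [← Complex.ofReal_mul]
      congr 1
      field_simp
    rw [e, Complex.ofReal_re]
  have hrep : K p (fun y => f y + z * φ y) (t + ‖z‖ * w) :=
    hK.add _ _ _ _ _ hf (hK.smul _ _ _ z hφ)
  have h := hmin _ _ hrep
  rw [hz] at h
  have key : av p (fun y => G y - (f y + z * φ y)) ^ 2 =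
      av p (fun y => G y - f y) ^ 2 - 2 * (r * ‖S‖) / len p +
        r ^ 2 * ((1 / len p) * ∑ y ∈ iv p, ‖φ y‖ ^ 2) := by
    rw [av_sq, av_sq]
    have : ∀ y, ‖G y - (f y + z * φ y)‖ ^ 2 =
        ‖G y - f y‖ ^ 2 - 2 * ((starRingEnd ℂ) z * ((G y - f y) * (starRingEnd ℂ) (φ y))).re
          + r ^ 2 * ‖φ y‖ ^ 2 := by
      intro y
      have e1 : G y - (f y + z * φ y) =
          (G y - f y) - z * (starRingEnd ℂ) ((starRingEnd ℂ) (φ y)) := by
        rw [Complex.conj_conj]; ring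
      rw [e1, norm_sub_mul, hz, Complex.norm_conj]
    rw [Finset.sum_congr rfl fun y _ => this y, Finset.sum_add_distrib, Finset.sum_sub_distrib,
      ← Finset.mul_sum, ← Finset.mul_sum]
    have e2 : ∑ y ∈ iv p, ((starRingEnd ℂ) z * ((G y - f y) * (starRingEnd ℂ) (φ y))).re
        = r * ‖S‖ := by
      rw [← hzS, hS, Finset.mul_sum, Complex.re_sum]
    rw [e2]
    ring
  unfold Fl at h
  rw [key] at h
  have hcard : ∑ _y ∈ iv p, (1 : ℝ) = len p := by
    rw [Finset.sum_const, nsmul_eq_mul, mul_one, card_iv']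
  have e3 : ∑ y ∈ iv p, (1 + ‖φ y‖ ^ 2) = len p + ∑ y ∈ iv p, ‖φ y‖ ^ 2 := by
    rw [Finset.sum_add_distrib, hcard]
  rw [e3]
  set Q := ∑ y ∈ iv p, ‖φ y‖ ^ 2 with hQ
  have h2 : 2 * (r * ‖S‖) / len p ≤ r ^ 2 * ((1 / len p) * Q) + r * w + r ^ 2 := by
    rw [hrr]; rw [hrr] at h; linarith
  have h3 : 2 * (r * ‖S‖) ≤ (r ^ 2 * ((1 / len p) * Q) + r * w + r ^ 2) * len p := by
    rwa [div_le_iff₀ hL] at h2
  have h4 : (r ^ 2 * ((1 / len p) * Q) + r * w + r ^ 2) * len p =
      2 * r * (len p * (w / 2) + r / 2 * (len p + Q)) := by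
    field_simp
    ring
  rw [h4] at h3
  have h5 : 2 * r * ‖S‖ ≤ 2 * r * (len p * (w / 2) + r / 2 * (len p + Q)) := by linarith
  exact le_of_mul_le_mul_left h5 (by positivity)

/-- near-minimisers at all nodes -/
structure NMc (K : Nd → Fn → ℝ → Prop) (η : ℝ) (G : Fn) (f : Nd → Fn) (t : Nd → ℝ) : Prop where
  eta : 0 < η
  rep : ∀ p, K p (f p) (t p)
  lev : ∀ p φ w, K p φ w → ‖∑ y ∈ iv p, (G y - f p y) * (starRingEnd ℂ) (φ y)‖ ≤
      len p * (w / 2) + Real.sqrt η / 2 * ∑ y ∈ iv p, (1 + ‖φ y‖ ^ 2)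
  cvx : ∀ p (g : Fn) (u : ℝ), K p g u →
    Fl p G (f p) (t p) + (1 / 2) * av p (fun y => g y - f p y) ^ 2 ≤ Fl p G g u + 2 * η

theorem exists_NMc (hK : Cst K) {η : ℝ} (hη : 0 < η) (G : Fn) :
    ∃ (f : Nd → Fn) (t : Nd → ℝ), NMc K η G f t := by
  choose f t hft hmin using exists_near hK hη G
  exact ⟨f, t, hη, hft, fun p φ w h => near_level hK hη (hft p) (hmin p) φ w h,
    fun p g u hgu => near_convex hK (hft p) (hmin p) g u hgu⟩

/-- costs at the leaves of a window -/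
theorem split_win (hK : Cst K) {W : Finset Nd} {I : Nd} (hW : Full W I) (f : Fn) :
    ∀ p ∈ W, ∀ u, K p f u → ∃ τ : Nd → ℝ, (∀ L ∈ lf W, iv L ⊆ iv p → K L f (τ L)) ∧
      SL W p τ ≤ len p * u := by
  classical
  refine full_ind hW (fun p hp u hu => ⟨fun _ => u, fun L hL hs => ?_, ?_⟩)
    fun m l hp hnl h0 h1 i0 i1 u hu => ?_
  · have := (mem_lf.1 hp).2 L (mem_lf.1 hL).1 hs
    rw [this]; exact hu
  · rw [SL_leaf hp]
  · obtain ⟨u0, u1, k0, k1, hs⟩ := hK.split m l f u hu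
    obtain ⟨τ0, a0, b0⟩ := i0 u0 k0
    obtain ⟨τ1, a1, b1⟩ := i1 u1 k1
    have hd : ∀ L, iv L ⊆ iv (m, 2 * l) → ¬ iv L ⊆ iv (m, 2 * l + 1) := by
      intro L h2 h3
      obtain ⟨y, hy⟩ := iv_nonempty L
      exact Finset.disjoint_left.1 (disj_ch m l) (h2 hy) (h3 hy)
    refine ⟨fun L => if iv L ⊆ iv (m, 2 * l) then τ0 L else τ1 L, fun L hL hLp => ?_, ?_⟩
    · by_cases hc : iv L ⊆ iv (m, 2 * l)
      · simp only [hc, if_true]
        exact a0 L hL hc
      · simp only [hc, if_false]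
        refine a1 L hL ?_
        obtain ⟨y, hy⟩ := iv_nonempty L
        have hyp := hLp hy
        rw [iv_ch, Finset.mem_union] at hyp
        rcases hyp with h | h
        · exact absurd (leaf_below hW hL h0 hy h) hc
        · exact leaf_below hW hL h1 hy h
    · rw [SL_node hW hnl h0 h1]
      have e0 : SL W (m, 2 * l) (fun L => if iv L ⊆ iv (m, 2 * l) then τ0 L else τ1 L)
          = SL W (m, 2 * l) τ0 := SL_congr fun L _ hL => by simp only [hL, if_true]
      have e1 : SL W (m, 2 * l + 1) (fun L => if iv L ⊆ iv (m, 2 * l) then τ0 L else τ1 L)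
          = SL W (m, 2 * l + 1) τ1 := SL_congr fun L _ hL => by
            have : ¬ iv L ⊆ iv (m, 2 * l) := fun h => hd L h hL
            simp only [this, if_false]
      rw [e0, e1, len_ch m l (2 * l)]
      have hl1 : len (m, 2 * l + 1) = len (m, 2 * l) := rfl
      rw [hl1] at b1
      have hpos := Growth.len_pos (m, 2 * l)
      nlinarith [mul_le_mul_of_nonneg_left hs hpos.le]

section NMfacts

variable {η : ℝ} {G : Fn} {f : Nd → Fn} {t : Nd → ℝ} (hK : Cst K) (h : NMc K η G f t)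

/-- value -/
noncomputable def vl (G : Fn) (f : Nd → Fn) (t : Nd → ℝ) (p : Nd) : ℝ := Fl p G (f p) (t p)

include hK h in
lemma vl_nonneg (p : Nd) : 0 ≤ vl G f t p := by
  have := hK.nn _ _ _ (h.rep p)
  unfold vl Fl
  positivity

include hK h in
lemma vl_le (p : Nd) : vl G f t p ≤ av p G ^ 2 + 2 * η := by
  have h1 := h.cvx p (fun _ => 0) 0 (hK.zero p)
  have h2 : 0 ≤ (1 / 2 : ℝ) * av p (fun y => 0 - f p y) ^ 2 := by positivity
  have h3 : Fl p G (fun _ => 0) 0 = av p G ^ 2 := by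
    unfold Fl
    simp
  unfold vl
  rw [h3] at h1
  linarith

include hK h in
lemma cost_le (p : Nd) : t p ≤ av p G ^ 2 + 2 * η := by
  have h1 := vl_le hK h p
  unfold vl Fl at h1
  have : 0 ≤ av p (fun y => G y - f p y) ^ 2 := sq_nonneg _
  linarith

include hK h in
lemma res_le' (p : Nd) : av p (fun y => G y - f p y) ^ 2 ≤ av p G ^ 2 + 2 * η := by
  have h1 := vl_le hK h p
  unfold vl Fl at h1
  have := hK.nn _ _ _ (h.rep p)
  linarith

include hK h in
lemma Drf_nn : ∀ q, 0 ≤ Drf (vl G f t) (2 * η) q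
  | (0, _) => le_refl _
  | (m + 1, l) => by
    obtain ⟨u0, u1, k0, k1, hs⟩ := hK.split m l _ _ (h.rep (m + 1, l))
    have h0 := h.cvx (m, 2 * l) _ _ k0
    have h1 := h.cvx (m, 2 * l + 1) _ _ k1
    have h2 := av_ch m l (fun y => G y - f (m + 1, l) y)
    have n0 : 0 ≤ (1 / 2 : ℝ) * av (m, 2 * l) (fun y => f (m + 1, l) y - f (m, 2 * l) y) ^ 2 := by
      positivity
    have n1 : 0 ≤ (1 / 2 : ℝ) *
        av (m, 2 * l + 1) (fun y => f (m + 1, l) y - f (m, 2 * l + 1) y) ^ 2 := by positivity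
    show 0 ≤ vl G f t (m + 1, l) -
      (vl G f t (m, 2 * l) + vl G f t (m, 2 * l + 1)) / 2 + 2 * η
    unfold vl
    unfold Fl at h0 h1 ⊢
    linarith

include hK h in
/-- energy inequality in a window -/
lemma dev_le' {W : Finset Nd} {I : Nd} (hW : Full W I) {p : Nd} (hp : p ∈ W) :
    SL W p (fun L => vl G f t L + (1 / 2) * av L (fun y => f p y - f L y) ^ 2)
      ≤ len p * (vl G f t p + 2 * η) := by
  obtain ⟨τ, h1, h2⟩ := split_win hK hW (f p) p hp (t p) (h.rep p)
  have h3 : SL W p (fun L => vl G f t L + (1 / 2) * av L (fun y => f p y - f L y) ^ 2)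
      ≤ SL W p (fun L => (av L (fun y => G y - f p y) ^ 2 + τ L) + 2 * η) :=
    SL_mono fun L hL hs => by
      have := h.cvx L (f p) (τ L) (h1 L hL hs)
      unfold Fl at this
      unfold vl Fl
      linarith
  refine h3.trans ?_
  rw [SL_add, SL_add, SL_av hW _ p hp, SL_const hW _ p hp]
  unfold vl Fl
  have : len p * (av p (fun y => G y - f p y) ^ 2 + t p + 2 * η) =
      len p * av p (fun y => G y - f p y) ^ 2 + len p * t p + len p * (2 * η) := by ring
  rw [this]
  linarith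

/-- admissible window of fineness `δ` -/
def Gdc (η : ℝ) (G : Fn) (f : Nd → Fn) (t : Nd → ℝ) (δ : ℝ) (W : Finset Nd) (I : Nd) : Prop :=
  ∀ p ∈ W, (1 / 2) * av p (fun y => f I y - f p y) ^ 2 +
    acc (Drf (vl G f t) (2 * η)) I p ≤ δ

include hK h in
lemma av_glue_le' {W : Finset Nd} {I : Nd} (hW : Full W I) {p : Nd} (hp : p ∈ W) {δ : ℝ}
    (hacc : ∀ L ∈ lf W, iv L ⊆ iv p → acc (Drf (vl G f t) (2 * η)) p L ≤ δ) :
    av p (fun y => f p y - gl W f y) ^ 2 ≤ 2 * δ + 4 * η := by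
  have hL := Growth.len_pos p
  have h1 := dev_le' hK h hW hp
  rw [SL_add, SL_smul] at h1
  have h2 : SL W p (fun L => av L (fun y => f p y - f L y) ^ 2)
      = len p * av p (fun y => f p y - gl W f y) ^ 2 := by
    have := av_gl hW (fun L y => f p y - f L y) p hp
    rw [← this]
    rfl
  rw [h2] at h1
  have h3 := le_SL_acc hW (Drf (vl G f t) (2 * η)) (vl G f t) (fun m l => by
    show _ ≤ vl G f t (m + 1, l) -
      (vl G f t (m, 2 * l) + vl G f t (m, 2 * l + 1)) / 2 + 2 * η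
    linarith [h.eta]) p hp
  rw [SL_add] at h3
  have h4 : SL W p (fun L => acc (Drf (vl G f t) (2 * η)) p L) ≤ SL W p (fun _ => δ) :=
    SL_mono hacc
  rw [SL_const hW δ p hp] at h4
  have h5 : len p * (av p (fun y => f p y - gl W f y) ^ 2) ≤ len p * (2 * δ + 4 * η) := by
    linarith
  exact le_of_mul_le_mul_left h5 hL

include hK h in
lemma acc_le_of_Gdc {W : Finset Nd} {I : Nd} (hW : Full W I) {δ : ℝ}
    (hG : Gdc η G f t δ W I) {p L : Nd} (hp : p ∈ W) (hL : L ∈ W) (hLp : iv L ⊆ iv p) :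
    acc (Drf (vl G f t) (2 * η)) p L ≤ δ := by
  have h1 := hG L hL
  have h2 := acc_trans (Drf (vl G f t) (2 * η)) hLp (hW.reg.1 p hp)
  have h3 := acc_nonneg (Drf_nn hK h) I p
  have h4 : 0 ≤ (1 / 2 : ℝ) * av L (fun y => f I y - f L y) ^ 2 := by positivity
  linarith

include hK h in
/-- **`gl W f - f I` is small at every node of an admissible window** -/
theorem av_E_le' {W : Finset Nd} {I : Nd} (hW : Full W I) {δ : ℝ} (hδ : 0 < δ)
    (hη : 16 * η ≤ δ) (hG : Gdc η G f t δ W I) {p : Nd} (hp : p ∈ W) :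
    av p (fun y => gl W f y - f I y) ≤ 3 * Real.sqrt δ := by
  have h1 := av_glue_le' hK h hW hp (δ := δ) fun L hL hLp =>
    acc_le_of_Gdc hK h hW hG hp (mem_lf.1 hL).1 hLp
  have h2 := hG p hp
  have h3 := acc_nonneg (Drf_nn hK h) I p
  have e1 : av p (fun y => gl W f y - f p y) = av p (fun y => f p y - gl W f y) := by
    unfold av av2
    congr 2
    exact Finset.sum_congr rfl fun y _ => by rw [norm_sub_rev]
  have e2 : av p (fun y => f p y - f I y) = av p (fun y => f I y - f p y) := by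
    unfold av av2
    congr 2
    exact Finset.sum_congr rfl fun y _ => by rw [norm_sub_rev]
  have h4 := TWin.av_add_le p (fun y => gl W f y - f p y) (fun y => f p y - f I y)
  have e3 : (fun y => (gl W f y - f p y) + (f p y - f I y)) = fun y => gl W f y - f I y := by
    funext y; ring
  rw [e3, e1, e2] at h4
  have hs := Real.sqrt_nonneg δ
  have hss : Real.sqrt δ ^ 2 = δ := Real.sq_sqrt hδ.le
  have h5 : av p (fun y => f p y - gl W f y) ≤ 3 / 2 * Real.sqrt δ := by
    have : av p (fun y => f p y - gl W f y) ^ 2 ≤ (3 / 2 * Real.sqrt δ) ^ 2 := by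
      rw [mul_pow, hss]
      linarith
    exact abs_le_of_sq_le_sq' this (by positivity) |>.2
  have h6 : av p (fun y => f I y - f p y) ≤ 3 / 2 * Real.sqrt δ := by
    have : av p (fun y => f I y - f p y) ^ 2 ≤ (3 / 2 * Real.sqrt δ) ^ 2 := by
      rw [mul_pow, hss]
      linarith
    exact abs_le_of_sq_le_sq' this (by positivity) |>.2
  linarith

include hK h in
/-- local norm of the residual -/
theorem av_res_le {W : Finset Nd} {I : Nd} (hW : Full W I) {p : Nd} (hp : p ∈ W) :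
    av p (fun y => G y - gl W f y) ^ 2 ≤ av p G ^ 2 + 2 * η := by
  have hL := Growth.len_pos p
  have h2 : SL W p (fun L => av L (fun y => G y - f L y) ^ 2)
      = len p * av p (fun y => G y - gl W f y) ^ 2 := by
    have := av_gl hW (fun L y => G y - f L y) p hp
    rw [← this]
    rfl
  have h3 : SL W p (fun L => av L (fun y => G y - f L y) ^ 2)
      ≤ SL W p (fun L => av L G ^ 2 + 2 * η) := SL_mono fun L _ _ => res_le' hK h L
  rw [h2, SL_add, SL_av hW G p hp, SL_const hW _ p hp, ← mul_add] at h3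
  exact le_of_mul_le_mul_left h3 hL

include hK h in
/-- **levels of the residual at every node of the window** -/
theorem lev_res' {W : Finset Nd} {I : Nd} (hW : Full W I) :
    ∀ p ∈ W, ∀ φ w, K p φ w → ‖∑ y ∈ iv p, (G y - gl W f y) * (starRingEnd ℂ) (φ y)‖ ≤
      len p * (w / 2) + Real.sqrt η / 2 * ∑ y ∈ iv p, (1 + ‖φ y‖ ^ 2) := by
  refine full_ind hW (fun L hL φ w hφ => ?_) fun m l hp hnl h0 h1 l0 l1 φ w hφ => ?_
  · have := h.lev L φ w hφ
    rwa [Finset.sum_congr rfl fun y hy => by rw [← gl_eq hW f hL hy]] at this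
  · obtain ⟨u0, u1, k0, k1, hs⟩ := hK.split m l _ _ hφ
    have e0 := l0 φ u0 k0
    have e1 := l1 φ u1 k1
    rw [iv_ch, Finset.sum_union (disj_ch m l), Finset.sum_union (disj_ch m l)]
    refine (norm_add_le _ _).trans ((add_le_add e0 e1).trans ?_)
    rw [len_ch m l (2 * l), show len (m, 2 * l + 1) = len (m, 2 * l) from rfl]
    have hpos := Growth.len_pos (m, 2 * l)
    nlinarith [mul_le_mul_of_nonneg_left hs hpos.le]

end NMfacts

/-- **existence of admissible windows** for a finite family of costs and letters -/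
theorem exists_windows' {ι : Type*} [Fintype ι] {R : Finset Nd} {J : Nd} (hR : Full R J)
    (K : ι → Nd → Fn → ℝ → Prop) (hK : ∀ i, Cst (K i)) (η : ℝ) (G : ι → Fn)
    (f : ι → Nd → Fn) (t : ι → Nd → ℝ) (heta : 0 < η)
    (h : ∀ i, NMc (K i) η (G i) (f i) (t i))
    (hG : ∀ i, ∀ p ∈ R, av p (G i) ≤ 1) (hη1 : η ≤ 1 / 2) {δ : ℝ} (hδ : 0 < δ)
    (hη : Fintype.card ι * (2 * η * (1 + J.1)) ≤ δ / 4) :
    ∃ (S : Finset Nd) (W : Nd → Finset Nd), Part R S W (2 + 16 * Fintype.card ι / δ) ∧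
      ∀ k ∈ S, ∀ i, Gdc η (G i) (f i) (t i) δ (W k) k := by
  classical
  let V : ι → Nd → ℝ := fun i => vl (G i) (f i) (t i)
  let D : ι → Nd → ℝ := fun i => Drf (V i) (2 * η)
  let g : Nd → Nd → ℝ := fun I p =>
    ∑ i, ((1 / 2) * av p (fun y => f i I y - f i p y) ^ 2 + acc (D i) I p)
  have hterm : ∀ i I p, 0 ≤ (1 / 2) * av p (fun y => f i I y - f i p y) ^ 2 + acc (D i) I p :=
    fun i I p => add_nonneg (by positivity) (acc_nonneg (Drf_nn (hK i) (h i)) I p)
  have hV0 : ∀ i p, 0 ≤ V i p := fun i p => vl_nonneg (hK i) (h i) p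
  have hV2 : ∀ i, ∀ p ∈ R, V i p ≤ 2 := by
    intro i p hp
    have h1 := vl_le (hK i) (h i) p
    have h2 : av p (G i) ^ 2 ≤ 1 := pow_le_one₀ (Growth.av_nonneg p _) (hG i p hp)
    show vl (G i) (f i) (t i) p ≤ 2
    linarith
  obtain ⟨S, W, hP, hg⟩ := exists_part hR (g := g) (P := fun p => ∑ i, 2 * V i p)
    (P₀ := 4 * Fintype.card ι) hδ
    (fun p _ => Finset.sum_nonneg fun i _ => mul_nonneg (by norm_num) (hV0 i p))
    (fun p hp => by
      calc ∑ i, 2 * V i p ≤ ∑ _i : ι, (4 : ℝ) :=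
            Finset.sum_le_sum fun i _ => by linarith [hV2 i p hp]
        _ = 4 * Fintype.card ι := by
            rw [Finset.sum_const, nsmul_eq_mul, Finset.card_univ]; ring)
    (fun I p => Finset.sum_nonneg fun i _ => hterm i I p)
    (fun I => by
      have : g I I = 0 := by
        refine Finset.sum_eq_zero fun i _ => ?_
        rw [acc_self, add_zero]
        have : av I (fun y => f i I y - f i I y) = 0 := by
          unfold av av2
          simp
        rw [this]
        ring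
      rw [this]
      exact hδ.le)
    (fun I hI W hW hWR => by
      rw [lf_sum_eq hW]
      have hlen := Growth.len_pos I
      have e1 : SL W I (fun p => g I p + ∑ i, 2 * V i p) =
          ∑ i, (SL W I (fun L => V i L + (1 / 2) * av L (fun y => f i I y - f i L y) ^ 2) +
            SL W I (fun L => V i L + acc (D i) I L)) := by
        rw [← Finset.sum_congr rfl fun i _ => SL_add W I _ _, ← SL_sum]
        refine SL_congr fun L _ _ => ?_
        simp only [g]
        rw [← Finset.sum_add_distrib]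
        exact Finset.sum_congr rfl fun i _ => by ring
      rw [e1]
      have h1 : ∀ i, SL W I (fun L => V i L + (1 / 2) * av L (fun y => f i I y - f i L y) ^ 2) +
            SL W I (fun L => V i L + acc (D i) I L) ≤
          len I * (2 * V i I + 2 * η * (1 + J.1)) := by
        intro i
        have a1 := dev_le' (hK i) (h i) hW hW.top
        have a2 := SL_acc_le hW (D i) (V i) (2 * η) (by positivity)
          (fun m l => le_refl _) I hW.top
        have hlev : (I.1 : ℝ) ≤ J.1 := by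
          exact_mod_cast Growth.iv_level (hR.reg.1 I hI)
        have a3 : len I * (2 * η * I.1) ≤ len I * (2 * η * J.1) :=
          mul_le_mul_of_nonneg_left (mul_le_mul_of_nonneg_left hlev (by positivity)) hlen.le
        have a1' : SL W I (fun L => V i L + (1 / 2) * av L (fun y => f i I y - f i L y) ^ 2)
            ≤ len I * (V i I + 2 * η) := a1
        nlinarith [a1', a2, a3]
      refine (Finset.sum_le_sum fun i _ => h1 i).trans ?_
      rw [← Finset.mul_sum, Finset.sum_add_distrib, Finset.sum_const, nsmul_eq_mul,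
        Finset.card_univ]
      refine mul_le_mul_of_nonneg_left ?_ hlen.le
      linarith)
  refine ⟨S, W, ?_, fun k hk i p hp => ?_⟩
  · have e : 4 * (4 * (Fintype.card ι : ℝ)) / δ = 16 * Fintype.card ι / δ := by ring
    rw [← e]
    exact hP
  · have h1 := hg k hk p hp
    have h2 : (1 / 2) * av p (fun y => f i k y - f i p y) ^ 2 + acc (D i) k p ≤ g k p :=
      Finset.single_le_sum (f := fun i => (1 / 2) * av p (fun y => f i k y - f i p y) ^ 2 +
        acc (D i) k p) (fun i _ => hterm i k p) (Finset.mem_univ i)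
    exact h2.trans h1

/-- what a window delivers for one letter `G` and one cost `K`: top letter `h`, exit letter `g` -/
structure LasW (K : Nd → Fn → ℝ → Prop) (G h g : Fn) (δ e0 : ℝ) (W : Finset Nd) (k : Nd) : Prop where
  top : K k h 2
  lfc : ∀ L ∈ lf W, K L g 2
  eav : ∀ p ∈ W, av p (fun y => g y - h y) ≤ 3 * Real.sqrt δ
  rav : ∀ p ∈ W, av p (fun y => G y - g y) ≤ 2
  lev : ∀ p ∈ W, ∀ φ w, K p φ w → ‖∑ y ∈ iv p, (G y - g y) * (starRingEnd ℂ) (φ y)‖ ≤
      len p * (w / 2) + e0 * ∑ y ∈ iv p, (1 + ‖φ y‖ ^ 2)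

/-- **COMMON WINDOWS** of a finite family of letters with node-dependent costs -/
theorem las_windows {ι : Type*} [Fintype ι] {R : Finset Nd} {J : Nd} (hR : Full R J)
    (K : ι → Nd → Fn → ℝ → Prop) (hK : ∀ i, Cst (K i))
    (hmono : ∀ i p f u v, K i p f u → u ≤ v → K i p f v) (G : ι → Fn)
    (hG : ∀ i, ∀ p ∈ R, av p (G i) ≤ 1) {δ e0 : ℝ} (hδ : 0 < δ) (he0 : 0 < e0) :
    ∃ (S : Finset Nd) (W : Nd → Finset Nd) (h g : ι → Nd → Fn),
      Part R S W (2 + 16 * Fintype.card ι / δ) ∧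
      ∀ k ∈ S, ∀ i, LasW (K i) (G i) (h i k) (g i k) δ e0 (W k) k := by
  set n : ℝ := ((Fintype.card ι : ℕ) : ℝ) with hn
  have hn0 : 0 ≤ n := Nat.cast_nonneg _
  set η : ℝ := min (min (1 / 2) (δ / 16)) (min (e0 ^ 2) (δ / (8 * (n + 1) * (1 + J.1)))) with hη
  have hη0 : 0 < η := by
    rw [hη]
    refine lt_min (lt_min (by norm_num) (by positivity)) (lt_min (by positivity) (by positivity))
  have h1 : η ≤ 1 / 2 := (min_le_left _ _).trans (min_le_left _ _)
  have h2 : 16 * η ≤ δ := by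
    have : η ≤ δ / 16 := (min_le_left _ _).trans (min_le_right _ _)
    linarith
  have h3 : η ≤ e0 ^ 2 := (min_le_right _ _).trans (min_le_left _ _)
  have h4 : n * (2 * η * (1 + J.1)) ≤ δ / 4 := by
    have h5 : η ≤ δ / (8 * (n + 1) * (1 + J.1)) := (min_le_right _ _).trans (min_le_right _ _)
    have hJ : (0 : ℝ) < 1 + J.1 := by positivity
    rw [le_div_iff₀ (by positivity)] at h5
    nlinarith [mul_nonneg (mul_nonneg hn0 hη0.le) hJ.le, mul_nonneg hη0.le hJ.le]
  have hse : Real.sqrt η / 2 ≤ e0 := by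
    have : Real.sqrt η ≤ Real.sqrt (e0 ^ 2) := Real.sqrt_le_sqrt h3
    rw [Real.sqrt_sq he0.le] at this
    linarith [Real.sqrt_nonneg η]
  choose f t hNM using fun i => exists_NMc (hK i) hη0 (G i)
  obtain ⟨S, W, hP, hGd⟩ := exists_windows' hR K hK η G f t hη0 hNM hG h1 hδ h4
  refine ⟨S, W, fun i k => f i k, fun i k => gl (W k) (f i), hP, fun k hk i => ?_⟩
  have hW := hP.full k hk
  have hav : ∀ p ∈ W k, av p (G i) ^ 2 ≤ 1 := fun p hp =>
    pow_le_one₀ (Growth.av_nonneg p _) (hG i p (hP.wsub k hk hp))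
  refine ⟨?_, fun L hL => ?_, fun p hp => ?_, fun p hp => ?_, fun p hp φ w hφ => ?_⟩
  · refine hmono i _ _ _ _ ((hNM i).rep k) ?_
    have := cost_le (hK i) (hNM i) k
    have := hav k hW.top
    linarith
  · refine hmono i _ _ _ _ ((hK i).congr _ _ _ _ (fun y hy => (gl_eq hW (f i) hL hy).symm)
      ((hNM i).rep L)) ?_
    have := cost_le (hK i) (hNM i) L
    have := hav L (mem_lf.1 hL).1
    linarith
  · exact av_E_le' (hK i) (hNM i) hW hδ h2 (hGd k hk i) hp
  · have h5 := av_res_le (hK i) (hNM i) hW hp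
    have h6 := hav p hp
    have h7 : av p (fun y => G i y - gl (W k) (f i) y) ^ 2 ≤ 2 ^ 2 := by linarith
    exact abs_le_of_sq_le_sq' h7 (by norm_num) |>.2
  · refine (lev_res' (hK i) (hNM i) hW p hp φ w hφ).trans ?_
    have hs0 : 0 ≤ ∑ y ∈ iv p, (1 + ‖φ y‖ ^ 2) := Finset.sum_nonneg fun y _ => by positivity
    have := mul_le_mul_of_nonneg_right hse hs0
    linarith

end Crest.Agent.R079.NLas994
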