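import Crest.Agent.R079.GridDefs_569
import Mathlib

/-! R079, DICTIONARY, `swap` (helper127): the PROJECTED op-atoms of the three types of a slot `k`
(bounded gauge on any of the three edges) coincide up to `≤ 324` unit atoms of the same side.

`IsOp k j e e' n H φ` : `φ y = Σ_{z ∈ cube of side n, Σ (sl · - sl k) z = y} m(z_e,z_e') U(z_j,z_e) V(z_j,z_e')`,
`|m| ≤ 1`, marginals of `U`, `V` at `z_j` `≤ n α`, `Σ α² ≤ n`, `|U|, |V| ≤ H` (977's `OLev` literally).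
`isOp_sym` : `e ↔ e'`;  `isOp_swap` : `j ↔ e`;  `isOp_any` : any type to any type. -/

set_option autoImplicit false

namespace Crest.Agent.R079.OLevSw

open Finset Crest.Agent.R079.Grid

/-! ### sums over integer intervals -/

theorem sum_Ico_fin {M : Type*} [AddCommMonoid M] (w : ℤ) (n : ℕ) (f : ℤ → M) :
    ∑ x ∈ Ico w (w + n), f x = ∑ c : Fin n, f (w + ((c : ℕ) : ℤ)) := by
  symm
  refine Finset.sum_bij (fun c _ => w + ((c : ℕ) : ℤ)) ?_ ?_ ?_ ?_
  · intro c _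
    have := c.2
    rw [Finset.mem_Ico]
    constructor
    · linarith [Int.natCast_nonneg (c : ℕ)]
    · have : ((c : ℕ) : ℤ) < n := by exact_mod_cast c.2
      linarith
  · intro c _ c' _ h
    have h1 : ((c : ℕ) : ℤ) = ((c' : ℕ) : ℤ) := by linarith
    exact Fin.ext (by exact_mod_cast h1)
  · intro x hx
    rw [Finset.mem_Ico] at hx
    refine ⟨⟨(x - w).toNat, ?_⟩, Finset.mem_univ _, ?_⟩
    · omega
    · show w + (((x - w).toNat : ℕ) : ℤ) = x
      omega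
  · intro c _; rfl

theorem sum_Ico_blocks {M : Type*} [AddCommMonoid M] (w : ℤ) (n N : ℕ) (f : ℤ → M) :
    ∑ x ∈ Ico w (w + N * n), f x =
      ∑ s : Fin N, ∑ x ∈ Ico (w + ((s : ℕ) : ℤ) * n) (w + ((s : ℕ) : ℤ) * n + n), f x := by
  induction N with
  | zero => simp
  | succ N ih =>
    rw [Fin.sum_univ_castSucc]
    simp only [Fin.val_castSucc, Fin.val_last]
    rw [← ih]
    have h1 : Ico w (w + ((N + 1 : ℕ) : ℤ) * n) =
        Ico w (w + N * n) ∪ Ico (w + (N : ℤ) * n) (w + (N : ℤ) * n + n) := by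
      have hN : (0 : ℤ) ≤ (N : ℤ) * n := by positivity
      have hn : (0 : ℤ) ≤ (n : ℤ) := by positivity
      have e1 : w + ((N + 1 : ℕ) : ℤ) * n = w + (N : ℤ) * n + n := by push_cast; ring
      rw [e1]
      exact (Finset.Ico_union_Ico_eq_Ico (by linarith) (by linarith)).symm
    rw [h1, Finset.sum_union]
    exact Finset.Ico_disjoint_Ico_consecutive _ _ _

/-! ### the swap -/

/-- value of the OLD variable `e` (coefficient `b`) in terms of the NEW variable `j` -/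
def fe (a b r s : ℤ) (x : ℤ) : ℤ := a * ((x - r) / b) + s

theorem swap_sum (a b : ℤ) (ha : a ≠ 0) (hb : b ≠ 0) (ha3 : |a| ≤ 3) (hb3 : |b| ≤ 3)
    (A B A' B' : Finset ℤ)
    (hA' : ∀ x ∈ A, ∀ z ∈ B, b * (z / a) + x % b ∈ A')
    (hB' : ∀ x ∈ A, ∀ z ∈ B, a * (x / b) + z % a ∈ B')
    (G : ℤ → ℤ → ℤ → ℂ) :
    ∑ x ∈ A, ∑ z ∈ B, G (a * x + b * z) x z =
      ∑ r : Fin 3, ∑ s : Fin 3, ∑ x ∈ A', ∑ z ∈ B',
        if (x % b = ((r : ℕ) : ℤ) ∧ z % a = ((s : ℕ) : ℤ)) ∧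
            (fe b a ((s : ℕ) : ℤ) ((r : ℕ) : ℤ) z ∈ A ∧ fe a b ((r : ℕ) : ℤ) ((s : ℕ) : ℤ) x ∈ B) then
          G (a * x + b * z) (fe b a ((s : ℕ) : ℤ) ((r : ℕ) : ℤ) z)
            (fe a b ((r : ℕ) : ℤ) ((s : ℕ) : ℤ) x) else 0 := by
  classical
  have hbm : ∀ x : ℤ, 0 ≤ x % b ∧ x % b < 3 := fun x =>
    ⟨Int.emod_nonneg x hb, (Int.emod_lt_abs x hb).trans_le hb3⟩
  have ham : ∀ x : ℤ, 0 ≤ x % a ∧ x % a < 3 := fun x =>
    ⟨Int.emod_nonneg x ha, (Int.emod_lt_abs x ha).trans_le ha3⟩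
  -- LHS as a sum over the product
  rw [← Finset.sum_product']
  -- RHS as a sum over a filtered product
  have hR : (∑ r : Fin 3, ∑ s : Fin 3, ∑ x ∈ A', ∑ z ∈ B',
        if (x % b = ((r : ℕ) : ℤ) ∧ z % a = ((s : ℕ) : ℤ)) ∧
            (fe b a ((s : ℕ) : ℤ) ((r : ℕ) : ℤ) z ∈ A ∧ fe a b ((r : ℕ) : ℤ) ((s : ℕ) : ℤ) x ∈ B) then
          G (a * x + b * z) (fe b a ((s : ℕ) : ℤ) ((r : ℕ) : ℤ) z)
            (fe a b ((r : ℕ) : ℤ) ((s : ℕ) : ℤ) x) else 0) =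
      ∑ t ∈ (A' ×ˢ B').filter (fun t => fe b a (t.2 % a) (t.1 % b) t.2 ∈ A ∧
          fe a b (t.1 % b) (t.2 % a) t.1 ∈ B),
        G (a * t.1 + b * t.2) (fe b a (t.2 % a) (t.1 % b) t.2) (fe a b (t.1 % b) (t.2 % a) t.1) := by
    rw [Finset.sum_filter, Finset.sum_product]
    have e1 : ∀ s : Fin 3, ∀ r : Fin 3, True := fun _ _ => trivial
    calc _ = ∑ x ∈ A', ∑ z ∈ B', ∑ r : Fin 3, ∑ s : Fin 3,
        (if (x % b = ((r : ℕ) : ℤ) ∧ z % a = ((s : ℕ) : ℤ)) ∧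
            (fe b a ((s : ℕ) : ℤ) ((r : ℕ) : ℤ) z ∈ A ∧ fe a b ((r : ℕ) : ℤ) ((s : ℕ) : ℤ) x ∈ B) then
          G (a * x + b * z) (fe b a ((s : ℕ) : ℤ) ((r : ℕ) : ℤ) z)
            (fe a b ((r : ℕ) : ℤ) ((s : ℕ) : ℤ) x) else 0) := by
          have e2 : ∀ r : Fin 3, (∑ s : Fin 3, ∑ x ∈ A', ∑ z ∈ B',
              (if (x % b = ((r : ℕ) : ℤ) ∧ z % a = ((s : ℕ) : ℤ)) ∧
                (fe b a ((s : ℕ) : ℤ) ((r : ℕ) : ℤ) z ∈ A ∧
                  fe a b ((r : ℕ) : ℤ) ((s : ℕ) : ℤ) x ∈ B) then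
              G (a * x + b * z) (fe b a ((s : ℕ) : ℤ) ((r : ℕ) : ℤ) z)
                (fe a b ((r : ℕ) : ℤ) ((s : ℕ) : ℤ) x) else 0)) =
              ∑ x ∈ A', ∑ z ∈ B', ∑ s : Fin 3,
              (if (x % b = ((r : ℕ) : ℤ) ∧ z % a = ((s : ℕ) : ℤ)) ∧
                (fe b a ((s : ℕ) : ℤ) ((r : ℕ) : ℤ) z ∈ A ∧
                  fe a b ((r : ℕ) : ℤ) ((s : ℕ) : ℤ) x ∈ B) then
              G (a * x + b * z) (fe b a ((s : ℕ) : ℤ) ((r : ℕ) : ℤ) z)
                (fe a b ((r : ℕ) : ℤ) ((s : ℕ) : ℤ) x) else 0) := by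
            intro r
            rw [Finset.sum_comm]
            refine Finset.sum_congr rfl fun x _ => ?_
            rw [Finset.sum_comm]
          rw [Finset.sum_congr rfl fun r _ => e2 r, Finset.sum_comm]
          refine Finset.sum_congr rfl fun x _ => ?_
          rw [Finset.sum_comm]
      _ = _ := by
          refine Finset.sum_congr rfl fun x _ => Finset.sum_congr rfl fun z _ => ?_
          have hr0 : (x % b).toNat < 3 := by have := hbm x; omega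
          have hs0 : (z % a).toNat < 3 := by have := ham z; omega
          have hrv : (((x % b).toNat : ℕ) : ℤ) = x % b := by have := hbm x; omega
          have hsv : (((z % a).toNat : ℕ) : ℤ) = z % a := by have := ham z; omega
          rw [Finset.sum_eq_single (⟨(x % b).toNat, hr0⟩ : Fin 3)]
          · rw [Finset.sum_eq_single (⟨(z % a).toNat, hs0⟩ : Fin 3)]
            · simp only [hrv, hsv, true_and, and_self]
            · intro s _ hs
              rw [if_neg]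
              rintro ⟨⟨-, h2⟩, -⟩
              apply hs
              apply Fin.ext
              show (s : ℕ) = (z % a).toNat
              omega
            · intro h; exact absurd (Finset.mem_univ _) h
          · intro r _ hr
            refine Finset.sum_eq_zero fun s _ => ?_
            rw [if_neg]
            rintro ⟨⟨h1, -⟩, -⟩
            apply hr
            apply Fin.ext
            show (r : ℕ) = (x % b).toNat
            omega
          · intro h; exact absurd (Finset.mem_univ _) h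
  rw [hR]
  -- the involution
  have k1 : ∀ u v c : ℤ, c ≠ 0 → (c * u + v % c) % c = v % c := by
    intro u v c hc
    rw [Int.add_emod, Int.mul_emod_right, zero_add, Int.emod_emod_of_dvd _ dvd_rfl, Int.emod_emod_of_dvd _ dvd_rfl]
  have k2 : ∀ u v c : ℤ, c ≠ 0 → (c * u + v % c - v % c) / c = u := by
    intro u v c hc
    rw [add_sub_cancel_right]
    exact Int.mul_ediv_cancel_left u hc
  have k3 : ∀ x c : ℤ, c ≠ 0 → (x - x % c) / c = x / c := by
    intro x c hc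
    have h1 : x - x % c = c * (x / c) := by
      have := Int.mul_ediv_add_emod x c
      linarith
    rw [h1]
    exact Int.mul_ediv_cancel_left _ hc
  have k4 : ∀ u v c : ℤ, c ≠ 0 → (c * u + v % c) / c = u := by
    intro u v c hc
    rw [← k3 _ c hc, k1 u v c hc]
    exact k2 u v c hc
  refine Finset.sum_nbij' (fun t => (b * (t.2 / a) + t.1 % b, a * (t.1 / b) + t.2 % a))
    (fun t => (b * (t.2 / a) + t.1 % b, a * (t.1 / b) + t.2 % a)) ?_ ?_ ?_ ?_ ?_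
  · rintro ⟨x, z⟩ h
    rw [Finset.mem_product] at h
    simp only [Finset.mem_filter, Finset.mem_product]
    refine ⟨⟨hA' x h.1 z h.2, hB' x h.1 z h.2⟩, ?_, ?_⟩
    · simp only [fe]
      rw [k1 _ _ a ha, k1 _ _ b hb, k2 _ _ a ha]
      rw [Int.mul_ediv_add_emod]
      exact h.1
    · simp only [fe]
      rw [k1 _ _ a ha, k1 _ _ b hb, k2 _ _ b hb]
      rw [Int.mul_ediv_add_emod]
      exact h.2
  · rintro ⟨x, z⟩ h
    rw [Finset.mem_filter] at h
    obtain ⟨-, h⟩ := h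
    simp only [fe] at h
    rw [k3 _ a ha, k3 _ b hb] at h
    exact Finset.mem_product.2 ⟨h.1, h.2⟩
  · rintro ⟨x, z⟩ _
    simp only
    rw [k4 _ _ a ha, k4 _ _ b hb, k1 _ _ a ha, k1 _ _ b hb, Int.mul_ediv_add_emod,
      Int.mul_ediv_add_emod]
  · rintro ⟨x, z⟩ _
    simp only
    rw [k4 _ _ a ha, k4 _ _ b hb, k1 _ _ a ha, k1 _ _ b hb, Int.mul_ediv_add_emod,
      Int.mul_ediv_add_emod]
  · rintro ⟨x, z⟩ _
    simp only [fe]
    rw [k1 _ _ a ha, k1 _ _ b hb, k2 _ _ a ha, k2 _ _ b hb, Int.mul_ediv_add_emod,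
      Int.mul_ediv_add_emod]
    congr 1
    have h1 := Int.mul_ediv_add_emod x b
    have h2 := Int.mul_ediv_add_emod z a
    linear_combination (-a) * h1 + (-b) * h2

/-! ### op-atoms -/

/-- projected op-atom: slot `k`, special vertex `j`, bounded gauge on the edge `(e, e')`, cube of
side `n` at `(w, q, u)` -/
noncomputable def opA (k j e e' : Fin 4) (n : ℕ) (w q u : ℤ) (m : ℤ → ℤ → ℂ)
    (U V : Fin n → Fin n → ℂ) (y : ℤ) : ℂ :=
  ∑ c : Fin n, ∑ i : Fin n, ∑ i' : Fin n,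
    if (sl j - sl k) * (w + ((c : ℕ) : ℤ)) + (sl e - sl k) * (q + ((i : ℕ) : ℤ)) +
        (sl e' - sl k) * (u + ((i' : ℕ) : ℤ)) = y then
      m (q + ((i : ℕ) : ℤ)) (u + ((i' : ℕ) : ℤ)) * U c i * V c i' else 0

/-- unit op-atoms of side `n` and height `≤ H` -/
def IsOp (k j e e' : Fin 4) (n : ℕ) (H : ℝ) (φ : ℤ → ℂ) : Prop :=
  ∃ (w q u : ℤ) (m : ℤ → ℤ → ℂ) (U V : Fin n → Fin n → ℂ) (α : Fin n → ℝ),
    (∀ z z', ‖m z z'‖ ≤ 1) ∧ (∀ c, 0 ≤ α c) ∧ (∀ c, ∑ i, ‖U c i‖ ^ 2 ≤ n * α c) ∧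
    (∀ c, ∑ i, ‖V c i‖ ^ 2 ≤ n * α c) ∧ ∑ c, α c ^ 2 ≤ n ∧ (∀ c i, ‖U c i‖ ≤ H) ∧
    (∀ c i, ‖V c i‖ ≤ H) ∧ φ = opA k j e e' n w q u m U V

/-- the two ends of the gauge edge -/
theorem isOp_sym {k j e e' : Fin 4} {n : ℕ} {H : ℝ} {φ : ℤ → ℂ} (h : IsOp k j e e' n H φ) :
    IsOp k j e' e n H φ := by
  obtain ⟨w, q, u, m, U, V, α, hm, hα, hU, hV, hs, hH, hH', rfl⟩ := h
  refine ⟨w, u, q, fun z z' => m z' z, V, U, α, fun z z' => hm z' z, hα, hV, hU, hs, hH', hH, ?_⟩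
  funext y
  unfold opA
  refine Finset.sum_congr rfl fun c _ => ?_
  rw [Finset.sum_comm]
  refine Finset.sum_congr rfl fun i' _ => Finset.sum_congr rfl fun i _ => ?_
  have e1 : (sl j - sl k) * (w + ((c : ℕ) : ℤ)) + (sl e - sl k) * (q + ((i : ℕ) : ℤ)) +
      (sl e' - sl k) * (u + ((i' : ℕ) : ℤ)) = (sl j - sl k) * (w + ((c : ℕ) : ℤ)) +
      (sl e' - sl k) * (u + ((i' : ℕ) : ℤ)) + (sl e - sl k) * (q + ((i : ℕ) : ℤ)) := by ring
  rw [e1]
  refine if_congr Iff.rfl ?_ rfl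
  ring

/-- extension of a matrix of the box `(w, q)` by zero -/
noncomputable def ext (n : ℕ) (w q : ℤ) (U : Fin n → Fin n → ℂ) (x z : ℤ) : ℂ :=
  if h : (0 ≤ x - w ∧ x - w < n) ∧ (0 ≤ z - q ∧ z - q < n) then
    U ⟨(x - w).toNat, by omega⟩ ⟨(z - q).toNat, by omega⟩ else 0

theorem ext_val (n : ℕ) (w q : ℤ) (U : Fin n → Fin n → ℂ) (c i : Fin n) :
    ext n w q U (w + ((c : ℕ) : ℤ)) (q + ((i : ℕ) : ℤ)) = U c i := by
  have h1 := c.2
  have h2 := i.2
  unfold ext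
  rw [dif_pos ⟨by omega, by omega⟩]
  congr 1
  · apply Fin.ext
    show (w + ((c : ℕ) : ℤ) - w).toNat = c
    omega
  · apply Fin.ext
    show (q + ((i : ℕ) : ℤ) - q).toNat = i
    omega

theorem ext_le {n : ℕ} {w q : ℤ} {U : Fin n → Fin n → ℂ} {H : ℝ} (hH : 0 ≤ H)
    (h : ∀ c i, ‖U c i‖ ≤ H) (x z : ℤ) : ‖ext n w q U x z‖ ≤ H := by
  unfold ext
  split_ifs
  · exact h _ _
  · simpa using hH

/-- extension of `α` by zero -/
noncomputable def exa (n : ℕ) (w : ℤ) (α : Fin n → ℝ) (x : ℤ) : ℝ :=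
  if h : 0 ≤ x - w ∧ x - w < n then α ⟨(x - w).toNat, by omega⟩ else 0

theorem exa_val (n : ℕ) (w : ℤ) (α : Fin n → ℝ) (c : Fin n) :
    exa n w α (w + ((c : ℕ) : ℤ)) = α c := by
  have h1 := c.2
  unfold exa
  rw [dif_pos (by omega)]
  congr 1
  apply Fin.ext
  show (w + ((c : ℕ) : ℤ) - w).toNat = c
  omega

theorem exa_nonneg {n : ℕ} {w : ℤ} {α : Fin n → ℝ} (h : ∀ c, 0 ≤ α c) (x : ℤ) :
    0 ≤ exa n w α x := by
  unfold exa
  split_ifs
  · exact h _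
  · exact le_rfl

theorem sum_ext_le {n : ℕ} {w q : ℤ} {U : Fin n → Fin n → ℂ} {α : Fin n → ℝ}
    (hα : ∀ c, 0 ≤ α c) (hU : ∀ c, ∑ i, ‖U c i‖ ^ 2 ≤ n * α c) (x : ℤ) (S : Finset ℤ) :
    ∑ z ∈ S, ‖ext n w q U x z‖ ^ 2 ≤ n * exa n w α x := by
  classical
  by_cases hx : 0 ≤ x - w ∧ x - w < n
  · have h1 : ∑ z ∈ S, ‖ext n w q U x z‖ ^ 2 ≤ ∑ z ∈ Ico q (q + n), ‖ext n w q U x z‖ ^ 2 := by
      rw [← Finset.sum_filter_add_sum_filter_not S (fun z => z ∈ Ico q (q + n))]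
      have h2 : ∑ z ∈ S.filter (fun z => ¬ z ∈ Ico q (q + n)), ‖ext n w q U x z‖ ^ 2 = 0 := by
        refine Finset.sum_eq_zero fun z hz => ?_
        have h3 := (Finset.mem_filter.1 hz).2
        rw [Finset.mem_Ico] at h3
        have h4 : ext n w q U x z = 0 := by
          unfold ext
          rw [dif_neg]
          rintro ⟨-, h5⟩
          exact h3 (by omega)
        rw [h4]; simp
      rw [h2, add_zero]
      refine Finset.sum_le_sum_of_subset_of_nonneg ?_ fun _ _ _ => by positivity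
      intro z hz
      exact (Finset.mem_filter.1 hz).2
    refine h1.trans ?_
    rw [sum_Ico_fin]
    have hx' : x = w + ((((x - w).toNat : ℕ)) : ℤ) := by omega
    have hlt : (x - w).toNat < n := by omega
    have h3 : exa n w α x = α ⟨(x - w).toNat, hlt⟩ := by
      have := exa_val n w α ⟨(x - w).toNat, hlt⟩
      rw [← this]
      congr 1
    rw [h3]
    refine (Finset.sum_congr rfl fun i _ => ?_).le.trans (hU ⟨(x - w).toNat, hlt⟩)
    have := ext_val n w q U ⟨(x - w).toNat, hlt⟩ i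
    rw [← this]
    congr 3
  · have h1 : ∀ z ∈ S, ‖ext n w q U x z‖ ^ 2 = 0 := by
      intro z _
      have : ext n w q U x z = 0 := by
        unfold ext
        rw [dif_neg]
        rintro ⟨h5, -⟩
        exact hx h5
      rw [this]; simp
    rw [Finset.sum_eq_zero h1]
    have := exa_nonneg (w := w) hα x
    positivity

theorem sl_bd (j k : Fin 4) : |sl j - sl k| ≤ 3 := by
  revert j k; decide

theorem sl_ne {j k : Fin 4} (h : j ≠ k) : sl j - sl k ≠ 0 := by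
  revert j k; decide

/-- image interval -/
theorem img_mem (a b : ℤ) (ha : a ≠ 0) (hb : b ≠ 0) (hb3 : |b| ≤ 3) (q : ℤ)
    (n : ℕ) (hn : 0 < n) : ∃ w' : ℤ, ∀ x : ℤ, ∀ z ∈ Ico q (q + n),
      b * (z / a) + x % b ∈ Ico w' (w' + (6 : ℕ) * n) := by
  have hn' : (1 : ℤ) ≤ n := by exact_mod_cast hn
  have key : ∃ l : ℤ, ∀ z ∈ Ico q (q + n), l ≤ z / a ∧ z / a ≤ l + n := by
    rcases lt_or_gt_of_ne ha with h | h
    · refine ⟨(q + n - 1) / a, fun z hz => ?_⟩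
      rw [Finset.mem_Ico] at hz
      set Z := z / a with hZ
      set L := (q + n - 1) / a with hL
      have e1 := Int.mul_ediv_add_emod z a
      have e2 := Int.mul_ediv_add_emod (q + n - 1) a
      rw [← hZ] at e1
      rw [← hL] at e2
      have e3 := Int.emod_nonneg z ha
      have e4 := Int.emod_lt_abs z ha
      have e5 := Int.emod_nonneg (q + n - 1) ha
      have e6 := Int.emod_lt_abs (q + n - 1) ha
      rw [abs_of_neg h] at e4 e6
      constructor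
      · have h1 : (-a) * (L - 1) < (-a) * Z := by nlinarith
        have h2 := lt_of_mul_lt_mul_left h1 (by omega : (0 : ℤ) ≤ -a)
        omega
      · have h3 : (n : ℤ) - 1 ≤ (-a) * (n - 1) := by nlinarith
        have h1 : (-a) * (Z - 1) < (-a) * (L + n - 1) := by nlinarith
        have h2 := lt_of_mul_lt_mul_left h1 (by omega : (0 : ℤ) ≤ -a)
        omega
    · refine ⟨q / a, fun z hz => ?_⟩
      rw [Finset.mem_Ico] at hz
      refine ⟨Int.ediv_le_ediv h hz.1, ?_⟩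
      set Z := z / a with hZ
      set L := q / a with hL
      have e1 := Int.mul_ediv_add_emod z a
      have e2 := Int.mul_ediv_add_emod q a
      rw [← hZ] at e1
      rw [← hL] at e2
      have e3 := Int.emod_nonneg z ha
      have e6 := Int.emod_lt_abs q ha
      rw [abs_of_pos h] at e6
      have h3 : (n : ℤ) - 1 ≤ a * (n - 1) := by nlinarith
      have h1 : a * Z < a * (L + n) := by nlinarith
      have h2 := lt_of_mul_lt_mul_left h1 h.le
      omega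
  obtain ⟨l, hl⟩ := key
  rcases lt_or_gt_of_ne hb with h | h
  · refine ⟨b * (l + n), fun x z hz => ?_⟩
    obtain ⟨h1, h2⟩ := hl z hz
    have e3 := Int.emod_nonneg x hb
    have e4 := Int.emod_lt_abs x hb
    rw [abs_of_neg h] at e4 hb3
    rw [Finset.mem_Ico]
    constructor
    · have : b * (l + n) ≤ b * (z / a) := mul_le_mul_of_nonpos_left h2 h.le
      linarith
    · have h5 : b * (z / a) ≤ b * l := mul_le_mul_of_nonpos_left h1 h.le
      push_cast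
      nlinarith
  · refine ⟨b * l, fun x z hz => ?_⟩
    obtain ⟨h1, h2⟩ := hl z hz
    have e3 := Int.emod_nonneg x hb
    have e4 := Int.emod_lt_abs x hb
    rw [abs_of_pos h] at e4 hb3
    rw [Finset.mem_Ico]
    constructor
    · have : b * l ≤ b * (z / a) := mul_le_mul_of_nonneg_left h1 h.le
      linarith
    · have h5 : b * (z / a) ≤ b * (l + n) := mul_le_mul_of_nonneg_left h2 h.le
      push_cast
      nlinarith

theorem fe_inj {a b r s : ℤ} (ha : a ≠ 0) (hb : b ≠ 0) {x x' : ℤ} (hx : x % b = r)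
    (hx' : x' % b = r) (h : fe a b r s x = fe a b r s x') : x = x' := by
  unfold fe at h
  have h1 : a * ((x - r) / b) = a * ((x' - r) / b) := by linarith
  have h2 := mul_left_cancel₀ ha h1
  have k3 : ∀ y : ℤ, y % b = r → (y - r) / b = y / b := by
    intro y hy
    have h1 : y - r = b * (y / b) := by
      have := Int.mul_ediv_add_emod y b
      linarith
    rw [h1]
    exact Int.mul_ediv_cancel_left _ hb
  rw [k3 x hx, k3 x' hx'] at h2
  have e1 := Int.mul_ediv_add_emod x b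
  have e2 := Int.mul_ediv_add_emod x' b
  rw [← e1, ← e2, h2, hx, hx']

theorem sum_if_le {ι : Type*} [Fintype ι] (p : ι → Prop) [DecidablePred p] (f : ι → ℤ)
    (hf : ∀ i i', p i → p i' → f i = f i' → i = i') (g : ℤ → ℝ) (C : ℝ)
    (hC : ∀ S : Finset ℤ, ∑ z ∈ S, g z ≤ C) :
    ∑ i, (if p i then g (f i) else 0) ≤ C := by
  classical
  rw [← Finset.sum_filter]
  rw [← Finset.sum_image (f := g) (g := f) (s := Finset.univ.filter p)
    (fun i hi i' hi' h => hf i i' (Finset.mem_filter.1 hi).2 (Finset.mem_filter.1 hi').2 h)]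
  exact hC _

theorem sum_exa_le {n : ℕ} {w : ℤ} {α : Fin n → ℝ} {C : ℝ}
    (hs : ∑ c, α c ^ 2 ≤ C) (S : Finset ℤ) : ∑ z ∈ S, exa n w α z ^ 2 ≤ C := by
  classical
  have h1 : ∑ z ∈ S, exa n w α z ^ 2 ≤ ∑ z ∈ Ico w (w + n), exa n w α z ^ 2 := by
    rw [← Finset.sum_filter_add_sum_filter_not S (fun z => z ∈ Ico w (w + n))]
    have h2 : ∑ z ∈ S.filter (fun z => ¬ z ∈ Ico w (w + n)), exa n w α z ^ 2 = 0 := by
      refine Finset.sum_eq_zero fun z hz => ?_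
      have h3 := (Finset.mem_filter.1 hz).2
      rw [Finset.mem_Ico] at h3
      have h4 : exa n w α z = 0 := by
        unfold exa
        rw [dif_neg]
        rintro h5
        exact h3 (by omega)
      rw [h4]; simp
    rw [h2, add_zero]
    refine Finset.sum_le_sum_of_subset_of_nonneg ?_ fun _ _ _ => by positivity
    intro z hz
    exact (Finset.mem_filter.1 hz).2
  refine h1.trans ?_
  rw [sum_Ico_fin]
  simp only [exa_val]
  exact hs

/-- **`swap`: special vertex `j` ↔ special vertex `e`** -/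
theorem isOp_swap {k j e e' : Fin 4} (hjk : j ≠ k) (hek : e ≠ k) {n : ℕ} (hn : 0 < n) {H : ℝ}
    (hH0 : 0 ≤ H) {φ : ℤ → ℂ} (h : IsOp k j e e' n H φ) :
    ∃ ψ : (Fin 3 × Fin 3) × (Fin 6 × Fin 6) → ℤ → ℂ,
      (∀ t, IsOp k e j e' n H (ψ t)) ∧ φ = fun y => ∑ t, ψ t y := by
  classical
  obtain ⟨w, q, u, m, U, V, α, hm, hα, hU, hV, hs, hH, hH', rfl⟩ := h
  have ha := sl_ne hjk
  have hb := sl_ne hek
  have ha3 := sl_bd j k
  have hb3 := sl_bd e k
  set a := sl j - sl k with hadef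
  set b := sl e - sl k with hbdef
  set d := sl e' - sl k with hddef
  obtain ⟨w', hw'⟩ := img_mem a b ha hb hb3 q n hn
  obtain ⟨q', hq'⟩ := img_mem b a hb ha ha3 w n hn
  set UZ := ext n w q U with hUZ
  set VZ := ext n w u V with hVZ
  set αZ := exa n w α with hαZ
  -- conditions
  let cd : (Fin 3 × Fin 3) → ℤ → ℤ → Prop := fun t x z =>
    (x % b = ((t.1 : ℕ) : ℤ) ∧ z % a = ((t.2 : ℕ) : ℤ)) ∧
      (fe b a ((t.2 : ℕ) : ℤ) ((t.1 : ℕ) : ℤ) z ∈ Ico w (w + n) ∧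
        fe a b ((t.1 : ℕ) : ℤ) ((t.2 : ℕ) : ℤ) x ∈ Ico q (q + n))
  let ex : (Fin 3 × Fin 3) → ℤ → ℤ := fun t z => fe b a ((t.2 : ℕ) : ℤ) ((t.1 : ℕ) : ℤ) z
  let ez : (Fin 3 × Fin 3) → ℤ → ℤ := fun t x => fe a b ((t.1 : ℕ) : ℤ) ((t.2 : ℕ) : ℤ) x
  let X0 : (Fin 3 × Fin 3) × (Fin 6 × Fin 6) → ℤ := fun t => w' + ((t.2.1 : ℕ) : ℤ) * n
  let Z0 : (Fin 3 × Fin 3) × (Fin 6 × Fin 6) → ℤ := fun t => q' + ((t.2.2 : ℕ) : ℤ) * n
  let m' : (Fin 3 × Fin 3) × (Fin 6 × Fin 6) → ℤ → ℤ → ℂ := fun t x v => m (ez t.1 x) v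
  let U' : (Fin 3 × Fin 3) × (Fin 6 × Fin 6) → Fin n → Fin n → ℂ := fun t c i =>
    if cd t.1 (X0 t + ((i : ℕ) : ℤ)) (Z0 t + ((c : ℕ) : ℤ)) then
      UZ (ex t.1 (Z0 t + ((c : ℕ) : ℤ))) (ez t.1 (X0 t + ((i : ℕ) : ℤ))) else 0
  let V' : (Fin 3 × Fin 3) × (Fin 6 × Fin 6) → Fin n → Fin n → ℂ := fun t c i =>
    if (Z0 t + ((c : ℕ) : ℤ)) % a = ((t.1.2 : ℕ) : ℤ) then
      VZ (ex t.1 (Z0 t + ((c : ℕ) : ℤ))) (u + ((i : ℕ) : ℤ)) else 0
  let α' : (Fin 3 × Fin 3) × (Fin 6 × Fin 6) → Fin n → ℝ := fun t c =>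
    if (Z0 t + ((c : ℕ) : ℤ)) % a = ((t.1.2 : ℕ) : ℤ) then
      αZ (ex t.1 (Z0 t + ((c : ℕ) : ℤ))) else 0
  refine ⟨fun t => opA k e j e' n (Z0 t) (X0 t) u (m' t) (U' t) (V' t), ?_, ?_⟩
  · intro t
    refine ⟨Z0 t, X0 t, u, m' t, U' t, V' t, α' t, fun z z' => hm _ _, ?_, ?_, ?_, ?_, ?_, ?_, rfl⟩
    · intro c
      show 0 ≤ ite _ _ _
      split_ifs
      · exact exa_nonneg hα _
      · exact le_rfl
    · intro c
      by_cases hc : (Z0 t + ((c : ℕ) : ℤ)) % a = ((t.1.2 : ℕ) : ℤ)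
      · have h1 : α' t c = αZ (ex t.1 (Z0 t + ((c : ℕ) : ℤ))) := if_pos hc
        rw [h1]
        have h2 : ∀ i, ‖U' t c i‖ ^ 2 ≤ if (X0 t + ((i : ℕ) : ℤ)) % b = ((t.1.1 : ℕ) : ℤ) then
            ‖UZ (ex t.1 (Z0 t + ((c : ℕ) : ℤ))) (ez t.1 (X0 t + ((i : ℕ) : ℤ)))‖ ^ 2 else 0 := by
          intro i
          show ‖ite _ _ _‖ ^ 2 ≤ _
          split_ifs with h3 h4 h4
          · exact le_rfl
          · exact absurd h3.1.1 h4
          · rw [norm_zero, zero_pow two_ne_zero]; positivity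
          · simp
        refine (Finset.sum_le_sum fun i _ => h2 i).trans ?_
        refine sum_if_le (fun i : Fin n => (X0 t + ((i : ℕ) : ℤ)) % b = ((t.1.1 : ℕ) : ℤ))
          (fun i => ez t.1 (X0 t + ((i : ℕ) : ℤ))) ?_
          (fun z => ‖UZ (ex t.1 (Z0 t + ((c : ℕ) : ℤ))) z‖ ^ 2) _ ?_
        · intro i i' h3 h4 h5
          have h6 := fe_inj ha hb h3 h4 h5
          have h7 : ((i : ℕ) : ℤ) = ((i' : ℕ) : ℤ) := by linarith
          exact Fin.ext (by exact_mod_cast h7)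
        · intro S
          exact sum_ext_le hα hU _ S
      · have h1 : α' t c = 0 := if_neg hc
        rw [h1]
        have h2 : ∀ i, U' t c i = 0 := by
          intro i
          refine if_neg ?_
          rintro ⟨⟨-, h3⟩, -⟩
          exact hc h3
        simp [h2]
    · intro c
      by_cases hc : (Z0 t + ((c : ℕ) : ℤ)) % a = ((t.1.2 : ℕ) : ℤ)
      · have h1 : α' t c = αZ (ex t.1 (Z0 t + ((c : ℕ) : ℤ))) := if_pos hc
        rw [h1]
        have h2 : ∀ i, ‖V' t c i‖ ^ 2 =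
            ‖VZ (ex t.1 (Z0 t + ((c : ℕ) : ℤ))) (u + ((i : ℕ) : ℤ))‖ ^ 2 := by
          intro i
          have : V' t c i = VZ (ex t.1 (Z0 t + ((c : ℕ) : ℤ))) (u + ((i : ℕ) : ℤ)) := if_pos hc
          rw [this]
        rw [Finset.sum_congr rfl fun i _ => h2 i]
        have h3 := sum_ext_le (w := w) (q := u) hα hV (ex t.1 (Z0 t + ((c : ℕ) : ℤ)))
          (Ico u (u + n))
        rw [sum_Ico_fin] at h3
        exact h3
      · have h1 : α' t c = 0 := if_neg hc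
        rw [h1]
        have h2 : ∀ i, V' t c i = 0 := fun i => if_neg hc
        simp [h2]
    · have h2 : ∀ c, α' t c ^ 2 = if (Z0 t + ((c : ℕ) : ℤ)) % a = ((t.1.2 : ℕ) : ℤ) then
          αZ (ex t.1 (Z0 t + ((c : ℕ) : ℤ))) ^ 2 else 0 := by
        intro c
        show (ite _ _ _) ^ 2 = _
        split_ifs
        · rfl
        · simp
      rw [Finset.sum_congr rfl fun c _ => h2 c]
      refine sum_if_le (fun c : Fin n => (Z0 t + ((c : ℕ) : ℤ)) % a = ((t.1.2 : ℕ) : ℤ))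
        (fun c => ex t.1 (Z0 t + ((c : ℕ) : ℤ))) ?_ (fun z => αZ z ^ 2) _ ?_
      · intro i i' h3 h4 h5
        have h6 := fe_inj hb ha h3 h4 h5
        have h7 : ((i : ℕ) : ℤ) = ((i' : ℕ) : ℤ) := by linarith
        exact Fin.ext (by exact_mod_cast h7)
      · intro S
        exact sum_exa_le hs S
    · intro c i
      show ‖ite _ _ _‖ ≤ H
      split_ifs
      · exact ext_le hH0 hH _ _
      · simpa using hH0
    · intro c i
      show ‖ite _ _ _‖ ≤ H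
      split_ifs
      · exact ext_le hH0 hH' _ _
      · simpa using hH0
  · funext y
    -- left side over integer boxes
    let G : ℤ → ℤ → ℤ → ℂ := fun T x z => ∑ v ∈ Ico u (u + n),
      if T + d * v = y then m z v * UZ x z * VZ x v else 0
    have hL : opA k j e e' n w q u m U V y =
        ∑ x ∈ Ico w (w + n), ∑ z ∈ Ico q (q + n), G (a * x + b * z) x z := by
      unfold opA
      rw [sum_Ico_fin]
      refine Finset.sum_congr rfl fun c _ => ?_
      rw [sum_Ico_fin]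
      refine Finset.sum_congr rfl fun i _ => ?_
      show _ = ∑ v ∈ Ico u (u + n), _
      rw [sum_Ico_fin]
      refine Finset.sum_congr rfl fun i' _ => ?_
      rw [hUZ, hVZ, ext_val, ext_val]
    rw [hL, swap_sum a b ha hb ha3 hb3 (Ico w (w + n)) (Ico q (q + n))
      (Ico w' (w' + (6 : ℕ) * n)) (Ico q' (q' + (6 : ℕ) * n))
      (fun x _ z hz => hw' x z hz) (fun x hx z _ => hq' z x hx) G]
    rw [Fintype.sum_prod_type, Fintype.sum_prod_type]
    refine Finset.sum_congr rfl fun r _ => Finset.sum_congr rfl fun s _ => ?_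
    rw [sum_Ico_blocks, Fintype.sum_prod_type]
    refine Finset.sum_congr rfl fun s1 _ => ?_
    have e1 : ∀ x : ℤ, (∑ z ∈ Ico q' (q' + (6 : ℕ) * n),
        if (x % b = ((r : ℕ) : ℤ) ∧ z % a = ((s : ℕ) : ℤ)) ∧
            (fe b a ((s : ℕ) : ℤ) ((r : ℕ) : ℤ) z ∈ Ico w (w + n) ∧
              fe a b ((r : ℕ) : ℤ) ((s : ℕ) : ℤ) x ∈ Ico q (q + n)) then
          G (a * x + b * z) (fe b a ((s : ℕ) : ℤ) ((r : ℕ) : ℤ) z)
            (fe a b ((r : ℕ) : ℤ) ((s : ℕ) : ℤ) x) else 0) =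
        ∑ s2 : Fin 6, ∑ z ∈ Ico (q' + ((s2 : ℕ) : ℤ) * n) (q' + ((s2 : ℕ) : ℤ) * n + n),
        if (x % b = ((r : ℕ) : ℤ) ∧ z % a = ((s : ℕ) : ℤ)) ∧
            (fe b a ((s : ℕ) : ℤ) ((r : ℕ) : ℤ) z ∈ Ico w (w + n) ∧
              fe a b ((r : ℕ) : ℤ) ((s : ℕ) : ℤ) x ∈ Ico q (q + n)) then
          G (a * x + b * z) (fe b a ((s : ℕ) : ℤ) ((r : ℕ) : ℤ) z)
            (fe a b ((r : ℕ) : ℤ) ((s : ℕ) : ℤ) x) else 0 := fun x => sum_Ico_blocks _ _ _ _
    rw [Finset.sum_congr rfl fun x _ => e1 x, Finset.sum_comm]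
    refine Finset.sum_congr rfl fun s2 _ => ?_
    rw [Finset.sum_comm, sum_Ico_fin]
    unfold opA
    refine Finset.sum_congr rfl fun c _ => ?_
    rw [sum_Ico_fin]
    refine Finset.sum_congr rfl fun i _ => ?_
    by_cases hcd : cd (r, s) (X0 ((r, s), (s1, s2)) + ((i : ℕ) : ℤ))
        (Z0 ((r, s), (s1, s2)) + ((c : ℕ) : ℤ))
    · have hU1 : U' ((r, s), (s1, s2)) c i =
          UZ (ex (r, s) (Z0 ((r, s), (s1, s2)) + ((c : ℕ) : ℤ)))
            (ez (r, s) (X0 ((r, s), (s1, s2)) + ((i : ℕ) : ℤ))) := if_pos hcd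
      rw [if_pos hcd]
      show (∑ v ∈ Ico u (u + n), _) = _
      rw [sum_Ico_fin]
      refine Finset.sum_congr rfl fun i' _ => ?_
      have hV1 : V' ((r, s), (s1, s2)) c i' =
          VZ (ex (r, s) (Z0 ((r, s), (s1, s2)) + ((c : ℕ) : ℤ))) (u + ((i' : ℕ) : ℤ)) :=
        if_pos hcd.1.2
      rw [hU1, hV1]
      refine if_congr ?_ rfl rfl
      rw [← hadef, ← hbdef, ← hddef]
      constructor <;> intro h9 <;> rw [← h9] <;> ring
    · have hU1 : U' ((r, s), (s1, s2)) c i = 0 := if_neg hcd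
      rw [if_neg hcd]
      symm
      refine Finset.sum_eq_zero fun i' _ => ?_
      rw [hU1]
      simp

/-- any vertex may be made special; the mass is multiplied by at most `324` -/
theorem isOp_any {k j e e' : Fin 4} (hjk : j ≠ k) (hek : e ≠ k) (hek' : e' ≠ k) (hje : j ≠ e)
    (hje' : j ≠ e') (hee : e ≠ e') {n : ℕ} (hn : 0 < n) {H : ℝ} (hH0 : 0 ≤ H) {φ : ℤ → ℂ}
    (h : IsOp k j e e' n H φ) (j1 e1 e2 : Fin 4) (h1 : j1 ≠ k) (h2 : e1 ≠ k) (h3 : e2 ≠ k)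
    (h12 : j1 ≠ e1) (h13 : j1 ≠ e2) (h23 : e1 ≠ e2) :
    ∃ (N : ℕ) (ψ : Fin N → ℤ → ℂ), N ≤ 324 ∧ (∀ t, IsOp k j1 e1 e2 n H (ψ t)) ∧
      φ = fun y => ∑ t, ψ t y := by
  classical
  -- the order of the last two indices is irrelevant
  have hsym : ∀ φ' : ℤ → ℂ, ∀ x y : Fin 4, x ≠ k → y ≠ k → x ≠ j1 → y ≠ j1 → x ≠ y →
      IsOp k j1 x y n H φ' → IsOp k j1 e1 e2 n H φ' := by
    intro φ' x y hx hy hx1 hy1 hxy h'
    have hc : (x = e1 ∧ y = e2) ∨ (x = e2 ∧ y = e1) := by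
      revert hx hy hx1 hy1 hxy h1 h2 h3 h12 h13 h23
      clear h' h hjk hek hek' hje hje' hee hn hH0
      revert x y j1 e1 e2 k
      decide
    rcases hc with ⟨rfl, rfl⟩ | ⟨rfl, rfl⟩
    · exact h'
    · exact isOp_sym h'
  have hj : j1 = j ∨ j1 = e ∨ j1 = e' := by
    revert hjk hek hek' hje hje' hee h1
    clear h h2 h3 h12 h13 h23 hsym
    revert k j e e' j1
    decide
  have fin : ∀ ψ : (Fin 3 × Fin 3) × (Fin 6 × Fin 6) → ℤ → ℂ,
      (∀ t, IsOp k j1 e1 e2 n H (ψ t)) → (φ = fun y => ∑ t, ψ t y) →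
      ∃ (N : ℕ) (ψ : Fin N → ℤ → ℂ), N ≤ 324 ∧ (∀ t, IsOp k j1 e1 e2 n H (ψ t)) ∧
        φ = fun y => ∑ t, ψ t y := by
    intro ψ hψ hφ
    let eq := Fintype.equivFin ((Fin 3 × Fin 3) × (Fin 6 × Fin 6))
    refine ⟨Fintype.card ((Fin 3 × Fin 3) × (Fin 6 × Fin 6)), fun i => ψ (eq.symm i), ?_,
      fun t => hψ _, ?_⟩
    · simp
    · rw [hφ]
      funext y
      exact (Equiv.sum_comp eq.symm (fun t => ψ t y)).symm
  rcases hj with rfl | rfl | rfl
  · refine ⟨1, fun _ => φ, by norm_num, fun _ => ?_, by simp⟩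
    exact hsym φ e e' hek hek' (Ne.symm hje) (Ne.symm hje') hee h
  · obtain ⟨ψ, hψ, hφ⟩ := isOp_swap hjk hek hn hH0 h
    exact fin ψ (fun t => hsym _ j e' hjk hek' hje (Ne.symm hee) hje' (hψ t)) hφ
  · obtain ⟨ψ, hψ, hφ⟩ := isOp_swap hjk hek' hn hH0 (isOp_sym h)
    exact fin ψ (fun t => hsym _ j e hjk hek hje' hee hje (hψ t)) hφ

end Crest.Agent.R079.OLevSw
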