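import Crest.Agent.R079.Static_569
import Crest.Agent.R079.GrowthDefs_248

/-! R079, doc 2539 (6) L6 (helper354): ONE-BOX / ONE-NODE form of Step II.

`Lbox` is split in the 16 sub-boxes of side `N` (constant Haar sign); on each of them
Cauchy-Schwarz in the three variables of ONE arbitrary letter (`σ 1`), so that what is left is the
LEAF quantity of 246 / 977:
`∑_{x₀,x₃,x₂} ‖∑_{x₁} F(σ 0) · F(σ 3) · F(σ 2)‖²`, roles `σ 0` = frozen letter (does not see `x₀`),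
`σ 3` = second static letter, `σ 2` = arbitrary letter. -/

set_option autoImplicit false

namespace Crest.Agent.R079.OneN354

open Finset Crest.Agent.R079.Grid Crest.Agent.R079.Growth

/-- argument of the letter of role `r` at the point `(x₀,..,x₃)` (roles, absolute variables) -/
def ag (b x : ℤ) (N : ℕ) (σ : Equiv.Perm (Fin 4)) (r : Fin 4) (z : Fin 4 → ℤ) : ℤ :=
  x + ∑ i, (sl (σ i) - sl (σ r)) * z i - sl (σ r) * (b * N)

/-- splitting of `Fin (N+N)` -/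
def spl (N : ℕ) : Fin 2 × Fin N ≃ Fin (N + N) :=
  finProdFinEquiv.trans (finCongr (two_mul N))

theorem spl_val (N : ℕ) (a : Fin 2) (v : Fin N) : ((spl N (a, v) : Fin (N + N)) : ℕ) = v + N * a := by
  simp [spl, finProdFinEquiv]

theorem hsg_spl (N : ℕ) (a : Fin 2) (v : Fin N) :
    hsg N (spl N (a, v)) = if a = 0 then 1 else -1 := by
  unfold hsg
  rw [spl_val]
  have hv := v.isLt
  fin_cases a
  · simp
  · simp

/-- sub-box sum, constant sign -/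
noncomputable def SB (N : ℕ) (b x : ℤ) (F : Fin 4 → ℤ → ℂ) (s : Fin 4 → Fin 2) : ℂ :=
  ∑ v : Fin 4 → Fin N, ∏ j, F j (x + ∑ i, (sl i - sl j) * (((v i : ℕ) : ℤ) + N * (s i : ℕ)) -
    sl j * (b * N))

theorem lbox_eq (N : ℕ) (b x : ℤ) (F : Fin 4 → ℤ → ℂ) :
    Lbox N b F x = (1 / ((N : ℂ) + N) ^ 4) * ∑ s : Fin 4 → Fin 2,
      (∏ i, if s i = 0 then (1 : ℂ) else -1) * SB N b x F s := by
  unfold Lbox
  congr 1
  rw [← Equiv.sum_comp (Equiv.piCongrRight fun _ : Fin 4 => spl N),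
    ← Equiv.sum_comp (Equiv.arrowProdEquivProdArrow (Fin 4) (fun _ => Fin 2) (fun _ => Fin N)).symm,
    Fintype.sum_prod_type]
  refine Finset.sum_congr rfl fun s _ => ?_
  unfold SB
  rw [Finset.mul_sum]
  refine Finset.sum_congr rfl fun v _ => ?_
  have h1 : ∀ i, ((Equiv.piCongrRight fun _ : Fin 4 => spl N)
      ((Equiv.arrowProdEquivProdArrow (Fin 4) (fun _ => Fin 2) (fun _ => Fin N)).symm (s, v))) i =
      spl N (s i, v i) := fun i => rfl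
  congr 1
  · rw [Complex.ofReal_prod]
    refine Finset.prod_congr rfl fun i _ => ?_
    rw [h1, hsg_spl]
    split_ifs <;> simp

theorem norm_lbox_le (N : ℕ) (b x : ℤ) (F : Fin 4 → ℤ → ℂ) :
    ‖Lbox N b F x‖ ≤ (1 / ((N : ℝ) + N) ^ 4) * ∑ s : Fin 4 → Fin 2, ‖SB N b x F s‖ := by
  rw [lbox_eq, norm_mul]
  have h0 : ‖(1 / ((N : ℂ) + N) ^ 4)‖ = 1 / ((N : ℝ) + N) ^ 4 := by
    have : (1 / ((N : ℂ) + N) ^ 4) = ((1 / ((N : ℝ) + N) ^ 4 : ℝ) : ℂ) := by push_cast; ring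
    rw [this, Complex.norm_real, Real.norm_of_nonneg (by positivity)]
  rw [h0]
  refine mul_le_mul_of_nonneg_left ?_ (by positivity)
  refine (norm_sum_le _ _).trans (Finset.sum_le_sum fun s _ => ?_)
  rw [norm_mul, norm_prod]
  have : ∏ i, ‖(if s i = 0 then (1 : ℂ) else -1)‖ = 1 :=
    Finset.prod_eq_one fun i _ => by split_ifs <;> simp
  rw [this, one_mul]

theorem sum_fin_Ico {M : Type*} [AddCommMonoid M] (N : ℕ) (o : ℤ) (g : ℤ → M) :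
    ∑ v : Fin N, g (((v : ℕ) : ℤ) + o) = ∑ z ∈ Ico o (o + N), g z := by
  rw [Finset.sum_fin_eq_sum_range]
  symm
  refine Finset.sum_bij (fun z _ => (z - o).toNat) ?_ ?_ ?_ ?_
  · intro z hz
    rw [mem_Ico] at hz
    rw [mem_range]
    omega
  · intro z hz z' hz' h
    rw [mem_Ico] at hz hz'
    omega
  · intro k hk
    rw [mem_range] at hk
    exact ⟨o + k, by rw [mem_Ico]; omega, by omega⟩
  · intro z hz
    rw [mem_Ico] at hz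
    have h1 : (z - o).toNat < N := by omega
    rw [dif_pos h1]
    congr 1
    simp only
    omega

/-- the sub-box sum as a nested sum over the four roles -/
theorem SB_eq (N : ℕ) (b x : ℤ) (F : Fin 4 → ℤ → ℂ) (s : Fin 4 → Fin 2) (σ : Equiv.Perm (Fin 4)) :
    SB N b x F s =
      ∑ x0 ∈ Ico ((N : ℤ) * (s (σ 0) : ℕ)) (N * (s (σ 0) : ℕ) + N),
      ∑ x3 ∈ Ico ((N : ℤ) * (s (σ 3) : ℕ)) (N * (s (σ 3) : ℕ) + N),
      ∑ x2 ∈ Ico ((N : ℤ) * (s (σ 2) : ℕ)) (N * (s (σ 2) : ℕ) + N),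
      ∑ x1 ∈ Ico ((N : ℤ) * (s (σ 1) : ℕ)) (N * (s (σ 1) : ℕ) + N),
        ∏ r, F (σ r) (ag b x N σ r ![x0, x1, x2, x3]) := by
  unfold SB
  rw [← Equiv.sum_comp (Equiv.piCongrLeft (fun _ => Fin N) σ)]
  have e4 : ∀ G : (Fin 4 → Fin N) → ℂ, ∑ v, G v =
      ∑ a0 : Fin N, ∑ a3 : Fin N, ∑ a2 : Fin N, ∑ a1 : Fin N, G ![a0, a1, a2, a3] := by
    intro G
    rw [← Equiv.sum_comp (Fin.consEquiv fun _ : Fin 4 => Fin N), Fintype.sum_prod_type]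
    refine Finset.sum_congr rfl fun a0 _ => ?_
    rw [← Equiv.sum_comp (Fin.consEquiv fun _ : Fin 3 => Fin N), Fintype.sum_prod_type]
    have h3 : ∀ a1 : Fin N, ∑ w : Fin 2 → Fin N, G (Fin.cons a0 (Fin.cons a1 w)) =
        ∑ a3 : Fin N, ∑ a2 : Fin N, G ![a0, a1, a2, a3] := by
      intro a1
      rw [← Equiv.sum_comp (finTwoArrowEquiv (Fin N)).symm, Fintype.sum_prod_type, Finset.sum_comm]
      rfl
    have h4 : ∑ a1 : Fin N, ∑ w : Fin 2 → Fin N, G (Fin.cons a0 (Fin.cons a1 w)) =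
        ∑ a3 : Fin N, ∑ a2 : Fin N, ∑ a1 : Fin N, G ![a0, a1, a2, a3] := by
      rw [Finset.sum_congr rfl fun a1 _ => h3 a1, Finset.sum_comm]
      exact Finset.sum_congr rfl fun a3 _ => Finset.sum_comm
    exact h4
  rw [e4]
  rw [← sum_fin_Ico]
  refine Finset.sum_congr rfl fun a0 _ => ?_
  rw [← sum_fin_Ico]
  refine Finset.sum_congr rfl fun a3 _ => ?_
  rw [← sum_fin_Ico]
  refine Finset.sum_congr rfl fun a2 _ => ?_
  rw [← sum_fin_Ico]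
  refine Finset.sum_congr rfl fun a1 _ => ?_
  rw [← Equiv.prod_comp σ]
  refine Finset.prod_congr rfl fun r _ => ?_
  congr 1
  unfold ag
  congr 2
  rw [← Equiv.sum_comp σ]
  refine Finset.sum_congr rfl fun i _ => ?_
  congr 1
  rw [Equiv.piCongrLeft_apply_apply]
  fin_cases i <;> rfl

/-- corner of the sub-box `s` in the role `r` -/
def cn (N : ℕ) (s : Fin 4 → Fin 2) (σ : Equiv.Perm (Fin 4)) (r : Fin 4) : ℤ :=
  (N : ℤ) * ((s (σ r) : Fin 2) : ℕ)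

/-- the letter of role `1` does not see `x₁` -/
theorem ag_one (b x : ℤ) (N : ℕ) (σ : Equiv.Perm (Fin 4)) (x0 x1 x1' x2 x3 : ℤ) :
    ag b x N σ 1 ![x0, x1, x2, x3] = ag b x N σ 1 ![x0, x1', x2, x3] := by
  unfold ag
  simp [Fin.sum_univ_four]

/-- **Cauchy-Schwarz on a sub-box** -/
theorem SB_le (N : ℕ) (b x : ℤ) (F : Fin 4 → ℤ → ℂ) (s : Fin 4 → Fin 2)
    (σ : Equiv.Perm (Fin 4)) :
    ‖SB N b x F s‖ ≤
      Real.sqrt (∑ x0 ∈ Ico (cn N s σ 0) (cn N s σ 0 + N), ∑ x3 ∈ Ico (cn N s σ 3) (cn N s σ 3 + N),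
        ∑ x2 ∈ Ico (cn N s σ 2) (cn N s σ 2 + N), ‖F (σ 1) (ag b x N σ 1 ![x0, 0, x2, x3])‖ ^ 2) *
      Real.sqrt (∑ x0 ∈ Ico (cn N s σ 0) (cn N s σ 0 + N), ∑ x3 ∈ Ico (cn N s σ 3) (cn N s σ 3 + N),
        ∑ x2 ∈ Ico (cn N s σ 2) (cn N s σ 2 + N), ‖∑ x1 ∈ Ico (cn N s σ 1) (cn N s σ 1 + N),
          F (σ 0) (ag b x N σ 0 ![x0, x1, x2, x3]) * F (σ 3) (ag b x N σ 3 ![x0, x1, x2, x3]) *
            F (σ 2) (ag b x N σ 2 ![x0, x1, x2, x3])‖ ^ 2) := by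
  rw [SB_eq N b x F s σ]
  have e : ∀ x0 x3 x2, ∑ x1 ∈ Ico ((N : ℤ) * (s (σ 1) : ℕ)) (N * (s (σ 1) : ℕ) + N),
      ∏ r, F (σ r) (ag b x N σ r ![x0, x1, x2, x3]) =
      F (σ 1) (ag b x N σ 1 ![x0, 0, x2, x3]) * ∑ x1 ∈ Ico (cn N s σ 1) (cn N s σ 1 + N),
          F (σ 0) (ag b x N σ 0 ![x0, x1, x2, x3]) * F (σ 3) (ag b x N σ 3 ![x0, x1, x2, x3]) *
            F (σ 2) (ag b x N σ 2 ![x0, x1, x2, x3]) := by
    intro x0 x3 x2
    rw [Finset.mul_sum]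
    refine Finset.sum_congr rfl fun x1 _ => ?_
    rw [Fin.prod_univ_four, ag_one b x N σ x0 0 x1 x2 x3]
    ring
  simp only [e]
  -- one sum over the triples
  set I0 := Ico (cn N s σ 0) (cn N s σ 0 + N)
  set I3 := Ico (cn N s σ 3) (cn N s σ 3 + N)
  set I2 := Ico (cn N s σ 2) (cn N s σ 2 + N)
  have t : ∀ {M : Type} [AddCommMonoid M] (G : ℤ → ℤ → ℤ → M),
      ∑ x0 ∈ I0, ∑ x3 ∈ I3, ∑ x2 ∈ I2, G x0 x3 x2 =
        ∑ z ∈ I0 ×ˢ I3 ×ˢ I2, G z.1 z.2.1 z.2.2 := by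
    intro M _ G
    rw [Finset.sum_product]
    exact Finset.sum_congr rfl fun x0 _ => by rw [Finset.sum_product]
  rw [t (fun x0 x3 x2 => ‖F (σ 1) (ag b x N σ 1 ![x0, 0, x2, x3])‖ ^ 2),
    t (fun x0 x3 x2 => ‖∑ x1 ∈ Ico (cn N s σ 1) (cn N s σ 1 + N),
          F (σ 0) (ag b x N σ 0 ![x0, x1, x2, x3]) * F (σ 3) (ag b x N σ 3 ![x0, x1, x2, x3]) *
            F (σ 2) (ag b x N σ 2 ![x0, x1, x2, x3])‖ ^ 2)]
  have ht := t (fun x0 x3 x2 => F (σ 1) (ag b x N σ 1 ![x0, 0, x2, x3]) *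
    ∑ x1 ∈ Ico (cn N s σ 1) (cn N s σ 1 + N),
          F (σ 0) (ag b x N σ 0 ![x0, x1, x2, x3]) * F (σ 3) (ag b x N σ 3 ![x0, x1, x2, x3]) *
            F (σ 2) (ag b x N σ 2 ![x0, x1, x2, x3]))
  refine (le_of_eq (congrArg norm ht)).trans ?_
  rw [← Real.sqrt_mul (Finset.sum_nonneg fun _ _ => by positivity)]
  refine Real.le_sqrt_of_sq_le ?_
  refine (pow_le_pow_left₀ (norm_nonneg _) (norm_sum_le _ _) 2).trans ?_
  simp only [norm_mul]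
  exact Finset.sum_mul_sq_le_sq_mul_sq _ _ _

/-- fibre sum of one letter: for fixed `(x₀,x₃)` the argument runs injectively -/
theorem fib_le (N : ℕ) (b x : ℤ) (σ : Equiv.Perm (Fin 4)) (f : ℤ → ℂ) (o0 o2 o3 : ℤ)
    (S : Finset ℤ)
    (hS : ∀ x0 ∈ Ico o0 (o0 + N), ∀ x3 ∈ Ico o3 (o3 + N), ∀ x2 ∈ Ico o2 (o2 + N),
      ag b x N σ 1 ![x0, 0, x2, x3] ∈ S) :
    ∑ x0 ∈ Ico o0 (o0 + N), ∑ x3 ∈ Ico o3 (o3 + N), ∑ x2 ∈ Ico o2 (o2 + N),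
      ‖f (ag b x N σ 1 ![x0, 0, x2, x3])‖ ^ 2 ≤ (N : ℝ) ^ 2 * ∑ y ∈ S, ‖f y‖ ^ 2 := by
  have hne : sl (σ 2) - sl (σ 1) ≠ 0 := by
    have := sl_ne (σ 2) (σ 1) (fun h => by simpa using σ.injective h)
    omega
  have h1 : ∀ x0 ∈ Ico o0 (o0 + N), ∀ x3 ∈ Ico o3 (o3 + N), ∑ x2 ∈ Ico o2 (o2 + N),
      ‖f (ag b x N σ 1 ![x0, 0, x2, x3])‖ ^ 2 ≤ ∑ y ∈ S, ‖f y‖ ^ 2 := by
    intro x0 h0 x3 h3
    have hinj : Set.InjOn (fun x2 => ag b x N σ 1 ![x0, 0, x2, x3])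
        (Ico o2 (o2 + N) : Finset ℤ) := by
      intro z _ z' _ h
      simp only [ag, Fin.sum_univ_four, Matrix.cons_val_zero, Matrix.cons_val_one,
        Matrix.cons_val_two, Matrix.cons_val_three, Matrix.head_cons, Matrix.tail_cons] at h
      have h5 : (sl (σ 2) - sl (σ 1)) * z = (sl (σ 2) - sl (σ 1)) * z' := by
        simp at h
        rcases h with h | h
        · rw [h]
        · exact absurd h (by omega)
      exact mul_left_cancel₀ hne h5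
    rw [← Finset.sum_image (f := fun y => ‖f y‖ ^ 2) hinj]
    refine Finset.sum_le_sum_of_subset_of_nonneg ?_ fun _ _ _ => by positivity
    intro y hy
    rw [Finset.mem_image] at hy
    obtain ⟨x2, h2, rfl⟩ := hy
    exact hS x0 h0 x3 h3 x2 h2
  calc _ ≤ ∑ x0 ∈ Ico o0 (o0 + N), ∑ x3 ∈ Ico o3 (o3 + N), ∑ y ∈ S, ‖f y‖ ^ 2 :=
        Finset.sum_le_sum fun x0 h0 => Finset.sum_le_sum fun x3 h3 => h1 x0 h0 x3 h3
    _ = _ := by
        simp only [Finset.sum_const, Int.card_Ico, nsmul_eq_mul]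
        have e0 : (o0 + N - o0).toNat = N := by omega
        have e3 : (o3 + N - o3).toNat = N := by omega
        rw [e0, e3]
        ring

/-- **ONE BOX**: if the leaf quantity of every sub-box is `≤ Q²` then
`‖Lbox‖ ≤ N⁻³ · (∑_{S} |F_{σ 1}|²)^(1/2) · Q`. -/
theorem one_box (N : ℕ) (hN : 0 < N) (b x : ℤ) (F : Fin 4 → ℤ → ℂ) (σ : Equiv.Perm (Fin 4))
    (S : Finset ℤ) (Q : ℝ) (hQ : 0 ≤ Q)
    (hS : ∀ s : Fin 4 → Fin 2, ∀ x0 ∈ Ico (cn N s σ 0) (cn N s σ 0 + N),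
      ∀ x3 ∈ Ico (cn N s σ 3) (cn N s σ 3 + N), ∀ x2 ∈ Ico (cn N s σ 2) (cn N s σ 2 + N),
      ag b x N σ 1 ![x0, 0, x2, x3] ∈ S)
    (hL : ∀ s : Fin 4 → Fin 2,
      ∑ x0 ∈ Ico (cn N s σ 0) (cn N s σ 0 + N), ∑ x3 ∈ Ico (cn N s σ 3) (cn N s σ 3 + N),
        ∑ x2 ∈ Ico (cn N s σ 2) (cn N s σ 2 + N), ‖∑ x1 ∈ Ico (cn N s σ 1) (cn N s σ 1 + N),
          F (σ 0) (ag b x N σ 0 ![x0, x1, x2, x3]) * F (σ 3) (ag b x N σ 3 ![x0, x1, x2, x3]) *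
            F (σ 2) (ag b x N σ 2 ![x0, x1, x2, x3])‖ ^ 2 ≤ Q ^ 2) :
    ‖Lbox N b F x‖ ≤ (1 / (N : ℝ) ^ 3) * Real.sqrt (∑ y ∈ S, ‖F (σ 1) y‖ ^ 2) * Q := by
  have hN' : (0 : ℝ) < N := by exact_mod_cast hN
  refine (norm_lbox_le N b x F).trans ?_
  have h1 : ∀ s : Fin 4 → Fin 2, ‖SB N b x F s‖ ≤
      (N : ℝ) * Real.sqrt (∑ y ∈ S, ‖F (σ 1) y‖ ^ 2) * Q := by
    intro s
    refine (SB_le N b x F s σ).trans ?_
    refine mul_le_mul ?_ ?_ (Real.sqrt_nonneg _) (by positivity)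
    · refine (Real.sqrt_le_sqrt (fib_le N b x σ (F (σ 1)) _ _ _ S (hS s))).trans ?_
      rw [Real.sqrt_mul (by positivity), Real.sqrt_sq hN'.le]
    · refine (Real.sqrt_le_sqrt (hL s)).trans ?_
      rw [Real.sqrt_sq hQ]
  calc (1 / ((N : ℝ) + N) ^ 4) * ∑ s : Fin 4 → Fin 2, ‖SB N b x F s‖
      ≤ (1 / ((N : ℝ) + N) ^ 4) * ∑ _s : Fin 4 → Fin 2,
        (N : ℝ) * Real.sqrt (∑ y ∈ S, ‖F (σ 1) y‖ ^ 2) * Q :=
        mul_le_mul_of_nonneg_left (Finset.sum_le_sum fun s _ => h1 s) (by positivity)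
    _ = (1 / (N : ℝ) ^ 3) * Real.sqrt (∑ y ∈ S, ‖F (σ 1) y‖ ^ 2) * Q := by
        simp only [Finset.sum_const, Finset.card_univ, Fintype.card_fun, Fintype.card_fin,
          nsmul_eq_mul]
        push_cast
        field_simp
        ring

/-- all arguments of an admissible box lie in the interval of the node -/
theorem ag_mem (m : ℕ) (l b x : ℤ) (hb : b = -1 ∨ b = -7) (hx : x ∈ adm m l)
    (σ : Equiv.Perm (Fin 4)) (r : Fin 4) (z : Fin 4 → ℤ) (h0 : ∀ i, 0 ≤ z i)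
    (h1 : ∀ i, z i < 2 * 2 ^ m) : ag b x (2 ^ m) σ r z ∈ iv (m, l) := by
  have hlt : ∀ j, (z (σ.symm j)).toNat < 2 ^ m + 2 ^ m := by
    intro j
    have a0 := h0 (σ.symm j)
    have a1 := h1 (σ.symm j)
    have : ((z (σ.symm j)).toNat : ℤ) < ((2 ^ m + 2 ^ m : ℕ) : ℤ) := by
      rw [Int.toNat_of_nonneg a0]
      push_cast
      linarith
    exact_mod_cast this
  have h := yv_mem m l b x hb hx (fun j => ⟨(z (σ.symm j)).toNat, hlt j⟩) (σ r)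
  have e : yv (2 ^ m) b x (fun j => ⟨(z (σ.symm j)).toNat, hlt j⟩) (σ r) =
      ag b x (2 ^ m) σ r z := by
    unfold yv ag
    push_cast
    congr 2
    rw [← Equiv.sum_comp σ]
    refine Finset.sum_congr rfl fun i _ => ?_
    simp only [Equiv.symm_apply_apply]
    rw [Int.toNat_of_nonneg (h0 i)]
  rw [e] at h
  exact h

/-- range of the sub-box variables -/
theorem cn_range (N : ℕ) (s : Fin 4 → Fin 2) (σ : Equiv.Perm (Fin 4)) (r : Fin 4) {z : ℤ}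
    (hz : z ∈ Ico (cn N s σ r) (cn N s σ r + N)) : 0 ≤ z ∧ z < 2 * N := by
  unfold cn at hz
  rw [mem_Ico] at hz
  have h2 : ((s (σ r) : Fin 2) : ℕ) < 2 := (s (σ r)).isLt
  have h3 : (((s (σ r) : Fin 2) : ℕ) : ℤ) ≤ 1 := by omega
  have h4 : (0 : ℤ) ≤ (((s (σ r) : Fin 2) : ℕ) : ℤ) := by positivity
  have hN : (0 : ℤ) ≤ N := by positivity
  constructor
  · nlinarith [hz.1]
  · nlinarith [hz.2]

/-- the box version of `ag_mem` -/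
theorem ag_mem_box (m : ℕ) (l b x : ℤ) (hb : b = -1 ∨ b = -7) (hx : x ∈ adm m l)
    (σ : Equiv.Perm (Fin 4)) (r : Fin 4) (s : Fin 4 → Fin 2) {x0 x1 x2 x3 : ℤ}
    (h0 : x0 ∈ Ico (cn (2 ^ m) s σ 0) (cn (2 ^ m) s σ 0 + (2 ^ m : ℕ)))
    (h1 : x1 ∈ Ico (cn (2 ^ m) s σ 1) (cn (2 ^ m) s σ 1 + (2 ^ m : ℕ)))
    (h2 : x2 ∈ Ico (cn (2 ^ m) s σ 2) (cn (2 ^ m) s σ 2 + (2 ^ m : ℕ)))
    (h3 : x3 ∈ Ico (cn (2 ^ m) s σ 3) (cn (2 ^ m) s σ 3 + (2 ^ m : ℕ))) :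
    ag b x (2 ^ m) σ r ![x0, x1, x2, x3] ∈ iv (m, l) := by
  have a0 := cn_range (2 ^ m) s σ 0 h0
  have a1 := cn_range (2 ^ m) s σ 1 h1
  have a2 := cn_range (2 ^ m) s σ 2 h2
  have a3 := cn_range (2 ^ m) s σ 3 h3
  push_cast at a0 a1 a2 a3
  refine ag_mem m l b x hb hx σ r _ ?_ ?_
  · intro i
    fin_cases i
    · exact a0.1
    · exact a1.1
    · exact a2.1
    · exact a3.1
  · intro i
    fin_cases i
    · exact a0.2
    · exact a1.2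
    · exact a2.2
    · exact a3.2

/-- **ONE NODE (doc 2539, L6)**: leaf quantity `≤ Q²` on every sub-box of every admissible box of the
node ⊢ `∑_{x ∈ adm p} ‖Lbox‖ ≤ len p · N⁻³ · (∑_{iv p} |F_{σ 1}|²)^(1/2) · Q`. -/
theorem one_node (m : ℕ) (l b : ℤ) (hb : b = -1 ∨ b = -7) (F : Fin 4 → ℤ → ℂ)
    (σ : Equiv.Perm (Fin 4)) (Q : ℝ) (hQ : 0 ≤ Q)
    (hL : ∀ x ∈ adm m l, ∀ s : Fin 4 → Fin 2,
      ∑ x0 ∈ Ico (cn (2 ^ m) s σ 0) (cn (2 ^ m) s σ 0 + (2 ^ m : ℕ)),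
        ∑ x3 ∈ Ico (cn (2 ^ m) s σ 3) (cn (2 ^ m) s σ 3 + (2 ^ m : ℕ)),
        ∑ x2 ∈ Ico (cn (2 ^ m) s σ 2) (cn (2 ^ m) s σ 2 + (2 ^ m : ℕ)),
        ‖∑ x1 ∈ Ico (cn (2 ^ m) s σ 1) (cn (2 ^ m) s σ 1 + (2 ^ m : ℕ)),
          F (σ 0) (ag b x (2 ^ m) σ 0 ![x0, x1, x2, x3]) *
            F (σ 3) (ag b x (2 ^ m) σ 3 ![x0, x1, x2, x3]) *
            F (σ 2) (ag b x (2 ^ m) σ 2 ![x0, x1, x2, x3])‖ ^ 2 ≤ Q ^ 2) :
    ∑ x ∈ adm m l, ‖Lbox (2 ^ m) b F x‖ ≤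
      len (m, l) * ((1 / ((2 : ℝ) ^ m) ^ 3) * Real.sqrt (∑ y ∈ iv (m, l), ‖F (σ 1) y‖ ^ 2) * Q) := by
  have h1 : ∀ x ∈ adm m l, ‖Lbox (2 ^ m) b F x‖ ≤
      (1 / ((2 : ℝ) ^ m) ^ 3) * Real.sqrt (∑ y ∈ iv (m, l), ‖F (σ 1) y‖ ^ 2) * Q := by
    intro x hx
    have h := one_box (2 ^ m) (by positivity) b x F σ (iv (m, l)) Q hQ ?_ (hL x hx)
    · push_cast at h
      exact h
    · intro s x0 h0 x3 h3 x2 h2
      rw [ag_one b x (2 ^ m) σ x0 0 (cn (2 ^ m) s σ 1) x2 x3]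
      refine ag_mem_box m l b x hb hx σ 1 s h0 ?_ h2 h3
      rw [mem_Ico]
      constructor
      · exact le_rfl
      · have : (0 : ℤ) < ((2 ^ m : ℕ) : ℤ) := by positivity
        linarith
  refine (Finset.sum_le_sum h1).trans ?_
  rw [Finset.sum_const, nsmul_eq_mul]
  refine mul_le_mul_of_nonneg_right ?_ (by positivity)
  have h2 : (adm m l).card ≤ (dI (m + 7) l).card := by
    refine Finset.card_le_card ?_
    intro x hx
    unfold adm at hx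
    unfold dI
    rw [mem_Ico] at hx ⊢
    have h3 : (0 : ℤ) < 2 ^ (m + 1) := by positivity
    constructor <;> linarith [hx.1, hx.2]
  have h3 : ((dI (m + 7) l).card : ℝ) = len (m, l) := by
    unfold dI len
    rw [Int.card_Ico]
    have e : ((l + 1) * 2 ^ (m + 7) - l * 2 ^ (m + 7)).toNat = 2 ^ (m + 7) := by
      have : (l + 1) * (2 : ℤ) ^ (m + 7) - l * 2 ^ (m + 7) = ((2 ^ (m + 7) : ℕ) : ℤ) := by
        push_cast
        ring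
      rw [this, Int.toNat_natCast]
    rw [e]
    push_cast
    rfl
  rw [← h3]
  exact_mod_cast h2

end Crest.Agent.R079.OneN354
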