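import Crest.Agent.R072.NodeSpec

/-!
# R079, item P24 (a): node inequality for all exponents in `(2,4)`, one layer (helper504)

Docs 2460 (819), 2461 (504), 20502 (282).  Rescaled letters `A_l = l^(-1/p) A` etc.; resolvents
`R_v = (1 + M_v(l))⁻¹`, `M_v(l) = x(l) P + y(l) Q`; the derivative of
`W(l) = tr (R u R A R u R B R u R C)` is bounded by the Jensen gaps of `ht · 1` at the layer `l`.
-/

set_option autoImplicit false
set_option linter.unusedSectionVars false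

open Matrix Filter Topology
open scoped MatrixOrder

namespace Crest.Agent.R079.P24

open Crest.Agent.R072.Nd

section basics

variable {m n p q : Type*} [Fintype m] [Fintype n] [Fintype p] [Fintype q]
  [DecidableEq m] [DecidableEq n]

/-- the resolvent `(1 + M)⁻¹` -/
noncomputable def Rs (M : Matrix n n ℝ) : Matrix n n ℝ := (sh M 1)⁻¹

/-- the gap of the layer potential `ht · 1` -/
noncomputable def Gk (u : Matrix n n ℝ) (M : Matrix n n ℝ) : ℝ := ht (M + u * M * u) 1 - 2 * ht M 1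

/-- the energy of a layer -/
noncomputable def en (u M : Matrix n n ℝ) : ℝ := trace (M * Rs M * Rs M * u * (M * Rs M) * u)

theorem psd_symm {M : Matrix n n ℝ} (hM : 0 ≤ M) : Mᵀ = M := by
  have := (Matrix.nonneg_iff_posSemidef.mp hM).1
  rwa [IsHermitian, conjTranspose_eq_transpose_of_trivial] at this

theorem Rs_symm {M : Matrix n n ℝ} (hM : 0 ≤ M) : (Rs M)ᵀ = Rs M := by
  have := (sh_posDef hM one_pos).inv.1
  rwa [IsHermitian, conjTranspose_eq_transpose_of_trivial] at this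

theorem mul_Rs {M : Matrix n n ℝ} (hM : 0 ≤ M) : M * Rs M = 1 - Rs M := by
  have := mul_sh_inv hM one_pos
  rwa [one_smul] at this

theorem Rs_mul {M : Matrix n n ℝ} (hM : 0 ≤ M) : Rs M * M = 1 - Rs M := by
  have h := congrArg transpose (mul_Rs hM)
  rwa [transpose_mul, Rs_symm hM, psd_symm hM, transpose_sub, transpose_one, Rs_symm hM] at h

theorem Rs_comm {M : Matrix n n ℝ} (hM : 0 ≤ M) : M * Rs M = Rs M * M := by
  rw [mul_Rs hM, Rs_mul hM]

theorem Rs_nonneg {M : Matrix n n ℝ} (hM : 0 ≤ M) : 0 ≤ Rs M :=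
  (sh_posDef hM one_pos).inv.posSemidef.nonneg

/-- spectral form of the resolvent -/
theorem Rs_spec {V : Matrix n n ℝ} (hV : Vᵀ * V = 1) (hV' : V * Vᵀ = 1) {e : n → ℝ}
    (he : ∀ i, 0 ≤ e i) :
    Rs (V * diagonal e * Vᵀ) = V * diagonal (fun i => (e i + 1)⁻¹) * Vᵀ :=
  spec_sh_inv hV hV' he one_pos

theorem spec_le {V : Matrix n n ℝ} {a b : n → ℝ} (h : ∀ i, a i ≤ b i) :
    V * diagonal a * Vᵀ ≤ V * diagonal b * Vᵀ := by
  have : diagonal a ≤ (diagonal b : Matrix n n ℝ) := by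
    rw [← sub_nonneg, diagonal_sub]
    exact (PosSemidef.diagonal fun i => sub_nonneg.2 (h i)).nonneg
  exact le_conj this V

/-- `R ≤ 1`, `R² ≤ 1`, `R² ≤ R` -/
theorem Rs_le_one {M : Matrix n n ℝ} (hM : 0 ≤ M) : Rs M ≤ 1 := by
  obtain ⟨V, e, hV, hV', he, rfl⟩ := exists_spec (Matrix.nonneg_iff_posSemidef.mp hM)
  rw [Rs_spec hV hV' he]
  have h1 : (1 : Matrix n n ℝ) = V * diagonal (fun _ => 1) * Vᵀ := by
    rw [diagonal_one, Matrix.mul_one, hV']
  rw [h1]
  exact spec_le fun i => inv_le_one_of_one_le₀ (by linarith [he i])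

theorem Rs_sq_le {M : Matrix n n ℝ} (hM : 0 ≤ M) : Rs M * Rs M ≤ Rs M := by
  obtain ⟨V, e, hV, hV', he, rfl⟩ := exists_spec (Matrix.nonneg_iff_posSemidef.mp hM)
  rw [Rs_spec hV hV' he, spec_mul hV]
  refine spec_le fun i => ?_
  have h1 : (e i + 1)⁻¹ ≤ 1 := inv_le_one_of_one_le₀ (by linarith [he i])
  have h2 : 0 ≤ (e i + 1)⁻¹ := inv_nonneg.2 (by linarith [he i])
  nlinarith

theorem Rs_sq_le_one {M : Matrix n n ℝ} (hM : 0 ≤ M) : Rs M * Rs M ≤ 1 :=
  (Rs_sq_le hM).trans (Rs_le_one hM)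

/-- `R M R ≤ 1` and `R M R ≤ M R` (as `M R R`) -/
theorem MRR_le {M : Matrix n n ℝ} (hM : 0 ≤ M) :
    0 ≤ M * Rs M * Rs M ∧ M * Rs M * Rs M ≤ M * Rs M ∧ M * Rs M * Rs M ≤ 1 ∧ 0 ≤ M * Rs M := by
  obtain ⟨V, e, hV, hV', he, rfl⟩ := exists_spec (Matrix.nonneg_iff_posSemidef.mp hM)
  rw [Rs_spec hV hV' he, spec_mul hV, spec_mul hV]
  have h1 : ∀ i, (e i + 1)⁻¹ ≤ 1 := fun i => inv_le_one_of_one_le₀ (by linarith [he i])
  have h2 : ∀ i, 0 ≤ (e i + 1)⁻¹ := fun i => inv_nonneg.2 (by linarith [he i])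
  have h3 : ∀ i, e i * (e i + 1)⁻¹ ≤ 1 := fun i => by
    rw [← div_eq_mul_inv, div_le_one (by linarith [he i])]; linarith
  have h4 : ∀ i, 0 ≤ e i * (e i + 1)⁻¹ := fun i => mul_nonneg (he i) (h2 i)
  refine ⟨spec_psd V fun i => mul_nonneg (h4 i) (h2 i), spec_le fun i => ?_, ?_,
    spec_psd V h4⟩
  · nlinarith [h1 i, h2 i, h4 i]
  · have h5 : (1 : Matrix n n ℝ) = V * diagonal (fun _ => 1) * Vᵀ := by
      rw [diagonal_one, Matrix.mul_one, hV']
    rw [h5]
    exact spec_le fun i => by nlinarith [h1 i, h2 i, h4 i, h3 i]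

/-- **Jensen gap of a layer bounds the energy** -/
theorem en_le_Gk {M : Matrix n n ℝ} (hM : 0 ≤ M) {u : Matrix n n ℝ} (hu : uᵀ = u)
    (hu2 : u * u = 1) : 2 * en u M ≤ Gk u M := by
  obtain ⟨V, e, hV, hV', he, rfl⟩ := exists_spec (Matrix.nonneg_iff_posSemidef.mp hM)
  have h := ht_sign_gap hV hV' he hu hu2 (t := 1) one_pos
  unfold Gk
  refine le_trans (le_of_eq ?_) h
  have e1 : en u (V * diagonal e * Vᵀ) = gen (Vᵀ * u * V) e 1 := by
    unfold en
    rw [Rs_spec hV hV' he, spec_mul hV, spec_mul hV]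
    have hs : (Vᵀ * u * V)ᵀ = Vᵀ * u * V := by
      rw [transpose_mul, transpose_mul, hu, transpose_transpose, Matrix.mul_assoc]
    have e2 : trace (V * diagonal (fun i => e i * (e i + 1)⁻¹ * (e i + 1)⁻¹) * Vᵀ * u *
        (V * diagonal (fun i => e i * (e i + 1)⁻¹) * Vᵀ) * u)
        = trace (diagonal (fun i => e i * (e i + 1)⁻¹ * (e i + 1)⁻¹) *
          ((Vᵀ * u * V) * diagonal (fun i => e i * (e i + 1)⁻¹) * (Vᵀ * u * V)ᵀ)) := by
      rw [hs]
      rw [show V * diagonal (fun i => e i * (e i + 1)⁻¹ * (e i + 1)⁻¹) * Vᵀ * u *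
        (V * diagonal (fun i => e i * (e i + 1)⁻¹) * Vᵀ) * u
        = V * (diagonal (fun i => e i * (e i + 1)⁻¹ * (e i + 1)⁻¹) * Vᵀ * u *
        V * diagonal (fun i => e i * (e i + 1)⁻¹) * Vᵀ * u) by simp only [Matrix.mul_assoc],
        trace_mul_comm]
      simp only [Matrix.mul_assoc]
    rw [e2, trace_diag_sandwich]
    unfold gen
    refine Finset.sum_congr rfl fun i _ => Finset.sum_congr rfl fun j _ => ?_
    rw [div_eq_mul_inv, div_eq_mul_inv]
    rw [show (((e i + 1) ^ 2)⁻¹ : ℝ) = (e i + 1)⁻¹ * (e i + 1)⁻¹ by rw [sq, mul_inv]]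
    ring
  rw [e1]
  ring

theorem en_nonneg {M : Matrix n n ℝ} (hM : 0 ≤ M) {u : Matrix n n ℝ} (hu : uᵀ = u) :
    0 ≤ en u M := by
  obtain ⟨h1, h2, h3, h4⟩ := MRR_le hM
  unfold en
  rw [Matrix.mul_assoc (M * Rs M * Rs M * u), Matrix.mul_assoc (M * Rs M * Rs M) u]
  have h5 : 0 ≤ u * (M * Rs M) * uᵀ := frob_psd_conj h4 u
  rw [hu] at h5
  rw [← Matrix.mul_assoc u]
  exact frob_trace_mul_nonneg h1 h5

/-- `su = R u R` -/
noncomputable def sR (u M : Matrix n n ℝ) : Matrix n n ℝ := Rs M * u * Rs M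

theorem sR_symm {M : Matrix n n ℝ} (hM : 0 ≤ M) {u : Matrix n n ℝ} (hu : uᵀ = u) :
    (sR u M)ᵀ = sR u M := by
  unfold sR
  rw [transpose_mul, transpose_mul, hu, Rs_symm hM, Matrix.mul_assoc]

theorem sR_contraction {M : Matrix n n ℝ} (hM : 0 ≤ M) {u : Matrix n n ℝ} (hu : uᵀ = u)
    (hu2 : u * u = 1) : sR u M * (sR u M)ᵀ ≤ 1 := by
  rw [sR_symm hM hu]
  have e1 : sR u M * sR u M = (Rs M * u) * (Rs M * Rs M) * (Rs M * u)ᵀ := by
    rw [transpose_mul, hu, Rs_symm hM]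
    unfold sR
    simp only [Matrix.mul_assoc]
  rw [e1]
  refine (le_conj (Rs_sq_le_one hM) (Rs M * u)).trans ?_
  rw [Matrix.mul_one, transpose_mul, hu, Rs_symm hM]
  rw [show Rs M * u * (u * Rs M) = Rs M * (u * u) * Rs M by simp only [Matrix.mul_assoc], hu2,
    Matrix.mul_one]
  exact Rs_sq_le_one hM

/-- the symmetric energy `tr (MRR u MRR u)` is at most `en` -/
theorem sym_en_le {M : Matrix n n ℝ} (hM : 0 ≤ M) {u : Matrix n n ℝ} (hu : uᵀ = u) :
    trace (M * Rs M * Rs M * (u * (M * Rs M * Rs M) * u)) ≤ en u M := by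
  obtain ⟨h1, h2, h3, h4⟩ := MRR_le hM
  have h5 : u * (M * Rs M * Rs M) * u ≤ u * (M * Rs M) * u := by
    have := le_conj h2 u
    rwa [hu] at this
  refine (trace_mul_mono_right h1 h5).trans (le_of_eq ?_)
  unfold en
  simp only [Matrix.mul_assoc]

theorem RMR {M : Matrix n n ℝ} (hM : 0 ≤ M) : Rs M * M * Rs M = M * Rs M * Rs M := by
  rw [← Rs_comm hM]

/-- undifferentiated factor -/
theorem fsq_sR_le {M : Matrix n n ℝ} (hM : 0 ≤ M) {u : Matrix n n ℝ} (hu : uᵀ = u)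
    (B : Matrix p n ℝ) (C : Matrix n q ℝ) (hB : Bᵀ * B ≤ M) (hC : C * Cᵀ ≤ M) :
    fsq (B * sR u M * C) ≤ en u M := by
  refine (fsq_sandwich_le B (sR u M) C hB hC).trans ?_
  refine le_trans (le_of_eq ?_) (sym_en_le hM hu)
  rw [sR_symm hM hu]
  unfold sR
  rw [show M * (Rs M * u * Rs M * M * (Rs M * u * Rs M))
    = (M * Rs M) * (u * (Rs M * M * Rs M) * u) * Rs M by simp only [Matrix.mul_assoc],
    trace_mul_comm, ← Matrix.mul_assoc, RMR hM,
    show Rs M * (M * Rs M) = Rs M * M * Rs M by simp only [Matrix.mul_assoc], RMR hM]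

/-- a contraction and its transpose -/
theorem contr_transpose (X : Matrix m n ℝ) (h : X * Xᵀ ≤ 1) : Xᵀ * X ≤ 1 := by
  have hP := psd_transpose_mul_self X
  obtain ⟨V, e, hV, hV', he, hPe⟩ := exists_spec (Matrix.nonneg_iff_posSemidef.mp hP)
  have h1 : Xᵀ * X * (Xᵀ * X) ≤ Xᵀ * X := by
    have := le_conj h Xᵀ
    rw [transpose_transpose, Matrix.mul_one] at this
    refine le_trans (le_of_eq ?_) this
    simp only [Matrix.mul_assoc]
  rw [hPe, spec_mul hV] at h1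
  have h2 := le_conj h1 Vᵀ
  rw [transpose_transpose] at h2
  have h3 : ∀ a : n → ℝ, Vᵀ * (V * diagonal a * Vᵀ) * V = diagonal a := fun a => by
    rw [show Vᵀ * (V * diagonal a * Vᵀ) * V = (Vᵀ * V) * diagonal a * (Vᵀ * V) by
      simp only [Matrix.mul_assoc], hV, Matrix.one_mul, Matrix.mul_one]
  rw [h3, h3] at h2
  have h4 : ∀ i, e i * e i ≤ e i := fun i => by
    have h5 := (Matrix.nonneg_iff_posSemidef.mp (sub_nonneg.mpr h2)).diag_nonneg (i := i)
    rw [Matrix.sub_apply, diagonal_apply_eq, diagonal_apply_eq] at h5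
    linarith
  have h5 : ∀ i, e i ≤ 1 := fun i => by
    have h6 := h4 i
    have h7 := he i
    by_contra hc
    nlinarith [not_le.1 hc]
  rw [hPe, show (1 : Matrix n n ℝ) = V * diagonal (fun _ => 1) * Vᵀ by
    rw [diagonal_one, Matrix.mul_one, hV']]
  exact spec_le h5

/-- `Z R Z ≤ Z` for `0 ≤ Z ≤ M` -/
theorem ZRZ_le {M Z : Matrix n n ℝ} (hM : 0 ≤ M) (hZ : 0 ≤ Z) (hZM : Z ≤ M) :
    Z * Rs M * Z ≤ Z := by
  obtain ⟨Y, hY⟩ := CStarAlgebra.nonneg_iff_eq_star_mul_self.mp hZ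
  rw [star_eq_conjTranspose, conjTranspose_eq_transpose_of_trivial] at hY
  obtain ⟨S, hS, hSs, hSM⟩ : ∃ S : Matrix n n ℝ, S * S = Rs M ∧ Sᵀ = S ∧ S * M * Sᵀ ≤ 1 := by
    obtain ⟨V, e, hV, hV', he, rfl⟩ := exists_spec (Matrix.nonneg_iff_posSemidef.mp hM)
    have hp : ∀ i, 0 < e i + 1 := fun i => by linarith [he i]
    refine ⟨V * diagonal (fun i => √((e i + 1)⁻¹)) * Vᵀ, ?_, ?_, ?_⟩
    · rw [Rs_spec hV hV' he, spec_mul hV]
      congr 3
      funext i
      exact Real.mul_self_sqrt (inv_nonneg.2 (hp i).le)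
    · rw [transpose_mul, transpose_mul, transpose_transpose, diagonal_transpose,
        Matrix.mul_assoc]
    · have e1 : (V * diagonal (fun i => √((e i + 1)⁻¹)) * Vᵀ)ᵀ =
          V * diagonal (fun i => √((e i + 1)⁻¹)) * Vᵀ := by
        rw [transpose_mul, transpose_mul, transpose_transpose, diagonal_transpose,
          Matrix.mul_assoc]
      rw [e1, spec_mul hV, spec_mul hV]
      have h5 : (1 : Matrix n n ℝ) = V * diagonal (fun _ => 1) * Vᵀ := by
        rw [diagonal_one, Matrix.mul_one, hV']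
      rw [h5]
      refine spec_le fun i => ?_
      have h6 : √((e i + 1)⁻¹) * e i * √((e i + 1)⁻¹) = e i * (e i + 1)⁻¹ := by
        rw [mul_comm (√((e i + 1)⁻¹)) (e i), mul_assoc,
          Real.mul_self_sqrt (inv_nonneg.2 (hp i).le)]
      rw [h6, ← div_eq_mul_inv, div_le_one (hp i)]
      linarith
  have h1 : (S * Yᵀ) * (S * Yᵀ)ᵀ ≤ 1 := by
    refine le_trans ?_ hSM
    have := le_conj hZM S
    refine le_trans (le_of_eq ?_) this
    rw [hY, transpose_mul, transpose_transpose]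
    simp only [Matrix.mul_assoc]
  have h2 := contr_transpose _ h1
  have h3 := le_conj h2 Yᵀ
  rw [transpose_transpose, Matrix.mul_one, ← hY] at h3
  refine le_trans (le_of_eq ?_) h3
  rw [transpose_mul, transpose_transpose, hSs, ← hS, hY]
  simp only [Matrix.mul_assoc]

/-- differentiated factor, derivative on the left -/
theorem fsq_dR_left {M Z : Matrix n n ℝ} (hM : 0 ≤ M) (hZ : 0 ≤ Z) (hZM : Z ≤ M)
    {u : Matrix n n ℝ} (hu : uᵀ = u) (A : Matrix n p ℝ) (hA : A * Aᵀ ≤ M) :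
    fsq (Rs M * Z * Rs M * u * Rs M * A) ≤ en u M := by
  have hR := Rs_symm hM
  have hZs := psd_symm hZ
  have h0 := fsq_sandwich_le (1 : Matrix n n ℝ) (Rs M * Z * Rs M * u * Rs M) A (M := 1) (N := M)
    (by rw [transpose_one, Matrix.mul_one]) hA
  rw [Matrix.one_mul, Matrix.one_mul] at h0
  refine h0.trans ?_
  -- `tr (R Z R u (R M R) u R Z R) = tr ((R Z R² Z R) (u (R M R) u))`
  have e1 : trace (Rs M * Z * Rs M * u * Rs M * M * (Rs M * Z * Rs M * u * Rs M)ᵀ)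
      = trace ((Rs M * (Z * (Rs M * Rs M) * Z) * Rs M) * (u * (M * Rs M * Rs M) * u)) := by
    have e2 : (Rs M * Z * Rs M * u * Rs M)ᵀ = Rs M * u * Rs M * Z * Rs M := by
      simp only [transpose_mul, hR, hZs, hu, Matrix.mul_assoc]
    rw [e2, ← RMR hM]
    rw [show Rs M * Z * Rs M * u * Rs M * M * (Rs M * u * Rs M * Z * Rs M)
      = (Rs M * Z * (Rs M * u * (Rs M * M * Rs M) * u * Rs M)) * (Z * Rs M) by
      simp only [Matrix.mul_assoc], trace_mul_comm]
    rw [show Z * Rs M * (Rs M * Z * (Rs M * u * (Rs M * M * Rs M) * u * Rs M))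
      = (Z * (Rs M * Rs M) * Z * (Rs M * u * (Rs M * M * Rs M) * u)) * Rs M by
      simp only [Matrix.mul_assoc], trace_mul_comm]
    simp only [Matrix.mul_assoc]
  rw [e1]
  obtain ⟨g1, g2, g3, g4⟩ := MRR_le hM
  have h1 : Z * (Rs M * Rs M) * Z ≤ M := by
    have h2 := le_conj (Rs_sq_le hM) Z
    rw [hZs] at h2
    exact h2.trans ((ZRZ_le hM hZ hZM).trans hZM)
  have h3 : Rs M * (Z * (Rs M * Rs M) * Z) * Rs M ≤ M * Rs M * Rs M := by
    have h4 := le_conj h1 (Rs M)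
    rw [hR] at h4
    rwa [RMR hM] at h4
  have h5 : 0 ≤ u * (M * Rs M * Rs M) * u := by
    have := frob_psd_conj g1 u
    rwa [hu] at this
  exact (trace_mul_mono_left h3 h5).trans (sym_en_le hM hu)

/-- differentiated factor, derivative on the right -/
theorem fsq_dR_right {M Z : Matrix n n ℝ} (hM : 0 ≤ M) (hZ : 0 ≤ Z) (hZM : Z ≤ M)
    {u : Matrix n n ℝ} (hu : uᵀ = u) (C : Matrix p n ℝ) (hC : Cᵀ * C ≤ M) :
    fsq (C * (Rs M * u * Rs M * Z * Rs M)) ≤ en u M := by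
  have h := fsq_dR_left hM hZ hZM hu Cᵀ (by rwa [transpose_transpose])
  rw [← fsq_transpose] at h
  refine le_trans (le_of_eq ?_) h
  congr 1
  simp only [transpose_mul, Rs_symm hM, psd_symm hZ, hu, transpose_transpose, Matrix.mul_assoc]

end basics

end Crest.Agent.R079.P24
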