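import Crest.Agent.R079.P24a_504
import Crest.Agent.R072.Node

/-!
# R079, item P24 (b): the path `W(l)`, its derivative and the node inequality (helper504)
-/

set_option autoImplicit false
set_option linter.unusedSectionVars false

open Matrix Filter Topology MeasureTheory
open scoped MatrixOrder

namespace Crest.Agent.R079.P24

open Crest.Agent.R072.Nd

section inv

variable {m n p : Type*} [Fintype m] [Fintype n] [Fintype p] [DecidableEq n]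

/-- entries of the inverse depend continuously on the entries -/
theorem mtend_inv {X : ℝ → Matrix n n ℝ} {l : Filter ℝ} {L : Matrix n n ℝ} (hX : MTend X l L)
    (hu : L.det ≠ 0) : MTend (fun s => (X s)⁻¹) l L⁻¹ := by
  have h1 : Tendsto X l (𝓝 L) := tendsto_pi_nhds.2 fun i => tendsto_pi_nhds.2 fun j => hX i j
  have h2 : Tendsto (fun s => (X s).det) l (𝓝 L.det) :=
    (continuous_id.matrix_det.tendsto L).comp h1
  have h3 : Tendsto (fun s => (X s).adjugate) l (𝓝 L.adjugate) :=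
    (continuous_id.matrix_adjugate.tendsto L).comp h1
  intro i j
  have h4 : Tendsto (fun s => (X s).adjugate i j) l (𝓝 (L.adjugate i j)) :=
    (tendsto_pi_nhds.1 (tendsto_pi_nhds.1 h3 i)) j
  have h5 := (h2.inv₀ hu).mul h4
  have e : ∀ Y : Matrix n n ℝ, Y⁻¹ i j = (Y.det)⁻¹ * Y.adjugate i j := fun Y => by
    rw [Matrix.inv_def, Matrix.smul_apply, Ring.inverse_eq_inv', smul_eq_mul]
  simp only [e]
  exact h5

theorem mderiv_cont {X : ℝ → Matrix m n ℝ} {X' : Matrix m n ℝ} {t : ℝ} (hX : MDeriv X X' t) :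
    MTend X (𝓝 t) (X t) := fun i j => (hX i j).continuousAt

theorem mderiv_inv {X : ℝ → Matrix n n ℝ} {X' : Matrix n n ℝ} {t : ℝ} (hX : MDeriv X X' t)
    (hu : (X t).det ≠ 0) :
    MDeriv (fun s => (X s)⁻¹) (-((X t)⁻¹ * X' * (X t)⁻¹)) t := by
  have hc := mderiv_cont hX
  have h1 : Tendsto X (𝓝 t) (𝓝 (X t)) :=
    tendsto_pi_nhds.2 fun i => tendsto_pi_nhds.2 fun j => hc i j
  have h2 : Tendsto (fun s => (X s).det) (𝓝 t) (𝓝 (X t).det) :=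
    (continuous_id.matrix_det.tendsto (X t)).comp h1
  have h3 : ∀ᶠ s in 𝓝 t, (X s).det ≠ 0 := h2.eventually_ne hu
  have hi := mtend_inv hc hu
  -- slopes
  have hs : MTend (fun s => (s - t)⁻¹ • (X s - X t)) (𝓝[≠] t) X' := fun i j => by
    have := (hasDerivAt_iff_tendsto_slope.1 (hX i j))
    refine this.congr fun s => ?_
    rw [slope_def_field, div_eq_inv_mul]
    rfl
  have hi' : MTend (fun s => (X s)⁻¹) (𝓝[≠] t) (X t)⁻¹ := fun i j =>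
    (hi i j).mono_left nhdsWithin_le_nhds
  have key := (hi'.mul hs).mul (MTend.const (𝓝[≠] t) (X t)⁻¹)
  intro i j
  rw [hasDerivAt_iff_tendsto_slope]
  have h4 := (key i j).neg
  refine Tendsto.congr' ?_ h4
  filter_upwards [nhdsWithin_le_nhds h3] with s hs'
  have e1 : (X s)⁻¹ - (X t)⁻¹ = -((X s)⁻¹ * (X s - X t) * (X t)⁻¹) := by
    rw [Matrix.mul_sub, Matrix.sub_mul, nonsing_inv_mul _ (isUnit_iff_ne_zero.2 hs'),
      Matrix.one_mul, Matrix.mul_assoc, mul_nonsing_inv _ (isUnit_iff_ne_zero.2 hu),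
      Matrix.mul_one]
    abel
  have e2 : slope (fun s => (X s)⁻¹ i j) t s = (s - t)⁻¹ * ((X s)⁻¹ - (X t)⁻¹) i j := by
    rw [slope_def_field, Matrix.sub_apply, div_eq_inv_mul]
  rw [e2, e1, Matrix.neg_apply, Matrix.mul_smul, Matrix.smul_mul, Matrix.smul_apply, smul_eq_mul]
  ring

theorem MDeriv.smul_const {X : ℝ → Matrix m n ℝ} {X' : Matrix m n ℝ} {t : ℝ}
    (hX : MDeriv X X' t) (c : ℝ) : MDeriv (fun s => c • X s) (c • X') t := fun i j =>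
  (hX i j).const_mul c

theorem MDeriv.add {X Y : ℝ → Matrix m n ℝ} {X' Y' : Matrix m n ℝ} {t : ℝ}
    (hX : MDeriv X X' t) (hY : MDeriv Y Y' t) : MDeriv (fun s => X s + Y s) (X' + Y') t :=
  fun i j => (hX i j).add (hY i j)

theorem mderiv_coeff {x : ℝ → ℝ} {x' t : ℝ} (hx : HasDerivAt x x' t) (P : Matrix m n ℝ) :
    MDeriv (fun s => x s • P) (x' • P) t := fun i j => hx.mul_const (P i j)

theorem mderiv_Rs {M : ℝ → Matrix n n ℝ} {Z : Matrix n n ℝ} {t : ℝ} (hM : 0 ≤ M t)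
    (hd : MDeriv M (-(t⁻¹ • Z)) t) :
    MDeriv (fun s => Rs (M s)) (t⁻¹ • (Rs (M t) * Z * Rs (M t))) t := by
  have h1 : MDeriv (fun s => sh (M s) 1) (-(t⁻¹ • Z)) t := by
    intro i j
    unfold sh
    simp only [Matrix.add_apply]
    exact (hd i j).add_const _
  have h2 := mderiv_inv h1 (sh_isUnit hM one_pos).ne_zero
  have e : -((sh (M t) 1)⁻¹ * -(t⁻¹ • Z) * (sh (M t) 1)⁻¹) =
      t⁻¹ • (Rs (M t) * Z * Rs (M t)) := by
    unfold Rs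
    rw [Matrix.mul_neg, Matrix.neg_mul, neg_neg, Matrix.mul_smul, Matrix.smul_mul]
  rw [e] at h2
  exact h2

theorem mderiv_sR {M : ℝ → Matrix n n ℝ} {Z : Matrix n n ℝ} {t : ℝ} (u : Matrix n n ℝ)
    (hM : 0 ≤ M t) (hd : MDeriv M (-(t⁻¹ • Z)) t) :
    MDeriv (fun s => sR u (M s)) (t⁻¹ • (Rs (M t) * Z * Rs (M t) * u * Rs (M t) +
      Rs (M t) * u * (Rs (M t) * Z * Rs (M t)))) t := by
  have h1 := mderiv_Rs hM hd
  have h2 := (h1.mul_const u).mul h1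
  unfold sR
  convert h2 using 1
  simp only [Matrix.smul_mul, Matrix.mul_smul, smul_add, Matrix.mul_assoc]

end inv

section path

variable {i0 i1 i2 : Type*} [Fintype i0] [Fintype i1] [Fintype i2] [DecidableEq i0]
  [DecidableEq i1] [DecidableEq i2]

/-- one differentiated factor, `A B C` rescaled letters at the layer -/
theorem term_le {u0 : Matrix i0 i0 ℝ} {u1 : Matrix i1 i1 ℝ} {u2 : Matrix i2 i2 ℝ}
    (h0 : u0ᵀ = u0) (h1 : u1ᵀ = u1) (h2 : u2ᵀ = u2) (q1 : u1 * u1 = 1) (q2 : u2 * u2 = 1)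
    {M0 Z0 : Matrix i0 i0 ℝ} {M1 : Matrix i1 i1 ℝ} {M2 : Matrix i2 i2 ℝ}
    (p0 : 0 ≤ M0) (p1 : 0 ≤ M1) (p2 : 0 ≤ M2) (z0 : 0 ≤ Z0) (zm : Z0 ≤ M0)
    {A : Matrix i0 i1 ℝ} {B : Matrix i1 i2 ℝ} {C : Matrix i2 i0 ℝ}
    (a0 : A * Aᵀ ≤ M0) (a1 : Aᵀ * A ≤ M1) (b1 : B * Bᵀ ≤ M1) (b2 : Bᵀ * B ≤ M2)
    (c2 : C * Cᵀ ≤ M2) (c0 : Cᵀ * C ≤ M0) :
    |trace ((Rs M0 * Z0 * Rs M0 * u0 * Rs M0 + Rs M0 * u0 * (Rs M0 * Z0 * Rs M0)) * A *
        sR u1 M1 * B * sR u2 M2 * C)| ≤ en u0 M0 + (en u1 M1 + en u2 M2) / 2 := by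
  have g0 := en_nonneg p0 h0
  have g1 := en_nonneg p1 h1
  have g2 := en_nonneg p2 h2
  have amgm : ∀ x y : ℝ, 0 ≤ x → 0 ≤ y → √x * √y ≤ (x + y) / 2 := by
    intro x y hx hy
    nlinarith [sq_nonneg (√x - √y), Real.sq_sqrt hx, Real.sq_sqrt hy]
  have L : |trace (Rs M0 * Z0 * Rs M0 * u0 * Rs M0 * A * sR u1 M1 * (B * sR u2 M2 * C))|
      ≤ (en u0 M0 + en u2 M2) / 2 := by
    refine (abs_trace_mul_mul_le _ _ _ (sR_contraction p1 h1 q1)).trans ?_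
    refine le_trans ?_ (amgm _ _ g0 g2)
    exact mul_le_mul (Real.sqrt_le_sqrt (fsq_dR_left p0 z0 zm h0 A a0))
      (Real.sqrt_le_sqrt (fsq_sR_le p2 h2 B C b2 c2)) (Real.sqrt_nonneg _) (Real.sqrt_nonneg _)
  have R : |trace ((A * sR u1 M1 * B) * sR u2 M2 * (C * (Rs M0 * u0 * Rs M0 * Z0 * Rs M0)))|
      ≤ (en u0 M0 + en u1 M1) / 2 := by
    refine (abs_trace_mul_mul_le _ _ _ (sR_contraction p2 h2 q2)).trans ?_
    rw [mul_comm]
    refine le_trans ?_ (amgm _ _ g0 g1)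
    exact mul_le_mul (Real.sqrt_le_sqrt (fsq_dR_right p0 z0 zm h0 C c0))
      (Real.sqrt_le_sqrt (fsq_sR_le p1 h1 A B a1 b1)) (Real.sqrt_nonneg _) (Real.sqrt_nonneg _)
  have split : trace ((Rs M0 * Z0 * Rs M0 * u0 * Rs M0 + Rs M0 * u0 * (Rs M0 * Z0 * Rs M0)) * A *
        sR u1 M1 * B * sR u2 M2 * C)
      = trace (Rs M0 * Z0 * Rs M0 * u0 * Rs M0 * A * sR u1 M1 * (B * sR u2 M2 * C))
        + trace ((A * sR u1 M1 * B) * sR u2 M2 * (C * (Rs M0 * u0 * Rs M0 * Z0 * Rs M0))) := by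
    have r : trace ((A * sR u1 M1 * B) * sR u2 M2 * (C * (Rs M0 * u0 * Rs M0 * Z0 * Rs M0)))
        = trace (Rs M0 * u0 * (Rs M0 * Z0 * Rs M0) * A * sR u1 M1 * B * sR u2 M2 * C) := by
      rw [show A * sR u1 M1 * B * sR u2 M2 * (C * (Rs M0 * u0 * Rs M0 * Z0 * Rs M0))
        = (A * sR u1 M1 * B * sR u2 M2 * C) * (Rs M0 * u0 * (Rs M0 * Z0 * Rs M0)) by
          simp only [Matrix.mul_assoc], trace_mul_comm]
      simp only [Matrix.mul_assoc]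
    rw [r, ← trace_add]
    congr 1
    simp only [Matrix.add_mul, Matrix.mul_assoc]
  rw [split]
  refine (abs_add_le _ _).trans ?_
  refine (add_le_add L R).trans (le_of_eq ?_)
  ring

/-- the path -/
noncomputable def Wl (u0 : Matrix i0 i0 ℝ) (u1 : Matrix i1 i1 ℝ) (u2 : Matrix i2 i2 ℝ)
    (M0 : ℝ → Matrix i0 i0 ℝ) (M1 : ℝ → Matrix i1 i1 ℝ) (M2 : ℝ → Matrix i2 i2 ℝ)
    (A : Matrix i0 i1 ℝ) (B : Matrix i1 i2 ℝ) (C : Matrix i2 i0 ℝ) (l : ℝ) : ℝ :=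
  trace (sR u0 (M0 l) * A * sR u1 (M1 l) * B * sR u2 (M2 l) * C)

/-- **derivative of the path at a layer**; `a b c` = weights, `a b c l = 1` -/
theorem Wl_deriv {u0 : Matrix i0 i0 ℝ} {u1 : Matrix i1 i1 ℝ} {u2 : Matrix i2 i2 ℝ}
    (h0 : u0ᵀ = u0) (h1 : u1ᵀ = u1) (h2 : u2ᵀ = u2) (q0 : u0 * u0 = 1) (q1 : u1 * u1 = 1)
    (q2 : u2 * u2 = 1) {M0 : ℝ → Matrix i0 i0 ℝ} {M1 : ℝ → Matrix i1 i1 ℝ}
    {M2 : ℝ → Matrix i2 i2 ℝ} {Z0 : Matrix i0 i0 ℝ} {Z1 : Matrix i1 i1 ℝ} {Z2 : Matrix i2 i2 ℝ}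
    {l : ℝ} (hl : 0 < l) (p0 : 0 ≤ M0 l) (p1 : 0 ≤ M1 l) (p2 : 0 ≤ M2 l)
    (z0 : 0 ≤ Z0) (z1 : 0 ≤ Z1) (z2 : 0 ≤ Z2) (y0 : Z0 ≤ M0 l) (y1 : Z1 ≤ M1 l) (y2 : Z2 ≤ M2 l)
    (d0 : MDeriv M0 (-(l⁻¹ • Z0)) l) (d1 : MDeriv M1 (-(l⁻¹ • Z1)) l)
    (d2 : MDeriv M2 (-(l⁻¹ • Z2)) l)
    (A : Matrix i0 i1 ℝ) (B : Matrix i1 i2 ℝ) (C : Matrix i2 i0 ℝ) {a b c : ℝ}
    (habc : a * b * c * l = 1)
    (a0 : (a • A) * (a • A)ᵀ ≤ M0 l) (a1 : (a • A)ᵀ * (a • A) ≤ M1 l)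
    (b1 : (b • B) * (b • B)ᵀ ≤ M1 l) (b2 : (b • B)ᵀ * (b • B) ≤ M2 l)
    (c2 : (c • C) * (c • C)ᵀ ≤ M2 l) (c0 : (c • C)ᵀ * (c • C) ≤ M0 l) :
    ∃ w' : ℝ, HasDerivAt (Wl u0 u1 u2 M0 M1 M2 A B C) w' l ∧
      |w'| ≤ Gk u0 (M0 l) + Gk u1 (M1 l) + Gk u2 (M2 l) := by
  have m0 := mderiv_sR u0 p0 d0
  have m1 := mderiv_sR u1 p1 d1
  have m2 := mderiv_sR u2 p2 d2
  have D := ((((((m0.mul_const A).mul m1).mul_const B).mul m2).mul_const C)).trace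
  refine ⟨_, D, ?_⟩
  have T0 := term_le h0 h1 h2 q1 q2 p0 p1 p2 z0 y0 a0 a1 b1 b2 c2 c0
  have T1 := term_le h1 h2 h0 q2 q0 p1 p2 p0 z1 y1 b1 b2 c2 c0 a0 a1
  have T2 := term_le h2 h0 h1 q0 q1 p2 p0 p1 z2 y2 c2 c0 a0 a1 b1 b2
  have e0 := en_le_Gk p0 h0 q0
  have e1 := en_le_Gk p1 h1 q1
  have e2 := en_le_Gk p2 h2 q2
  set X0 := Rs (M0 l) * Z0 * Rs (M0 l) * u0 * Rs (M0 l) +
    Rs (M0 l) * u0 * (Rs (M0 l) * Z0 * Rs (M0 l)) with hX0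
  set X1 := Rs (M1 l) * Z1 * Rs (M1 l) * u1 * Rs (M1 l) +
    Rs (M1 l) * u1 * (Rs (M1 l) * Z1 * Rs (M1 l)) with hX1
  set X2 := Rs (M2 l) * Z2 * Rs (M2 l) * u2 * Rs (M2 l) +
    Rs (M2 l) * u2 * (Rs (M2 l) * Z2 * Rs (M2 l)) with hX2
  set s0 := sR u0 (M0 l)
  set s1 := sR u1 (M1 l)
  set s2 := sR u2 (M2 l)
  have r1 : trace (s0 * A * X1 * B * s2 * C) = trace (X1 * B * s2 * C * s0 * A) := by
    rw [show s0 * A * X1 * B * s2 * C = (s0 * A) * (X1 * B * s2 * C) by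
      simp only [Matrix.mul_assoc], trace_mul_comm]
    simp only [Matrix.mul_assoc]
  have r2 : trace (s0 * A * s1 * B * X2 * C) = trace (X2 * C * s0 * A * s1 * B) := by
    rw [show s0 * A * s1 * B * X2 * C = (s0 * A * s1 * B) * (X2 * C) by
      simp only [Matrix.mul_assoc], trace_mul_comm]
    simp only [Matrix.mul_assoc]
  have split : trace (((l⁻¹ • X0 * A * s1 + s0 * A * (l⁻¹ • X1)) * B * s2 +
        s0 * A * s1 * B * (l⁻¹ • X2)) * C)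
      = l⁻¹ * (trace (X0 * A * s1 * B * s2 * C) + trace (X1 * B * s2 * C * s0 * A)
        + trace (X2 * C * s0 * A * s1 * B)) := by
    rw [← r1, ← r2, ← trace_add, ← trace_add, ← smul_eq_mul, ← trace_smul]
    congr 1
    simp only [Matrix.add_mul, Matrix.mul_assoc, Matrix.smul_mul, Matrix.mul_smul, smul_add]
  rw [split]
  have hli : l⁻¹ = a * b * c := by
    field_simp
    linarith
  have s3 : trace (X0 * (a • A) * s1 * (b • B) * s2 * (c • C)) =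
      a * b * c * trace (X0 * A * s1 * B * s2 * C) := by
    simp only [Matrix.smul_mul, Matrix.mul_smul, trace_smul, smul_eq_mul]
    ring
  have s4 : trace (X1 * (b • B) * s2 * (c • C) * s0 * (a • A)) =
      a * b * c * trace (X1 * B * s2 * C * s0 * A) := by
    simp only [Matrix.smul_mul, Matrix.mul_smul, trace_smul, smul_eq_mul]
    ring
  have s5 : trace (X2 * (c • C) * s0 * (a • A) * s1 * (b • B)) =
      a * b * c * trace (X2 * C * s0 * A * s1 * B) := by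
    simp only [Matrix.smul_mul, Matrix.mul_smul, trace_smul, smul_eq_mul]
    ring
  rw [hli, mul_add, mul_add, ← s3, ← s4, ← s5]
  have k1 := abs_add_le (trace (X0 * (a • A) * s1 * (b • B) * s2 * (c • C)) +
    trace (X1 * (b • B) * s2 * (c • C) * s0 * (a • A)))
    (trace (X2 * (c • C) * s0 * (a • A) * s1 * (b • B)))
  have k2 := abs_add_le (trace (X0 * (a • A) * s1 * (b • B) * s2 * (c • C)))
    (trace (X1 * (b • B) * s2 * (c • C) * s0 * (a • A)))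
  linarith

end path

end Crest.Agent.R079.P24
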