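import Crest.Agent.R079.TWin2_903

/-! R079, doc 2531 (787), (O2): superposition of window systems (helper222).

* `part_inter`  : superposition of two partitions into windows, counts ADD (tops = union of the tops);
* `part_family` : the same for a finite family;
* `part_one`    : the one-window partition;
* every window of the union lies in one window of each system. -/

set_option autoImplicit false

namespace Crest.Agent.R079.WinA222

open Finset Crest.Agent.R079.Grid Crest.Agent.R079.Growth Crest.Agent.R079.QRed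
  Crest.Agent.R079.Qe292 Crest.Agent.R079.Qh249 Crest.Agent.R079.TWin

/-! ### superposition -/

section inter

variable {R S : Finset Nd} {W : Nd → Finset Nd} {C : ℝ}

lemma own_unique (h : Part R S W C) {A B q : Nd} (hA : A ∈ S) (hB : B ∈ S) (h1 : q ∈ W A)
    (h2 : q ∈ W B) : A = B := by
  by_contra hne
  exact Finset.disjoint_left.1 (h.disj A hA B hB hne) h1 h2

/-- **superposition of two window systems: the counts add** -/
theorem part_inter {S' : Finset Nd} {W' : Nd → Finset Nd} {C' : ℝ}
    (h : Part R S W C) (h' : Part R S' W' C') :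
    ∃ W'' : Nd → Finset Nd, Part R (S ∪ S') W'' (C + C') ∧
      ∀ K ∈ S ∪ S', ∃ A ∈ S, ∃ B ∈ S', W'' K = W A ∩ W' B ∧ K ∈ W A ∧ K ∈ W' B := by
  classical
  have hex : ∀ p : Nd, ∃ K, p ∈ R → K ∈ S ∧ p ∈ W K := fun p => by
    by_cases hp : p ∈ R
    · obtain ⟨K, hK, hpK⟩ := h.cover p hp
      exact ⟨K, fun _ => ⟨hK, hpK⟩⟩
    · exact ⟨p, fun hp' => absurd hp' hp⟩
  have hex' : ∀ p : Nd, ∃ K, p ∈ R → K ∈ S' ∧ p ∈ W' K := fun p => by
    by_cases hp : p ∈ R
    · obtain ⟨K, hK, hpK⟩ := h'.cover p hp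
      exact ⟨K, fun _ => ⟨hK, hpK⟩⟩
    · exact ⟨p, fun hp' => absurd hp' hp⟩
  choose ow how using hex
  choose ow' how' using hex'
  have hSR : S ∪ S' ⊆ R := Finset.union_subset h.sub h'.sub
  have oS : ∀ K ∈ S, ow K = K := fun K hK =>
    own_unique h (how K (h.sub hK)).1 hK (how K (h.sub hK)).2 (h.full K hK).top
  have oS' : ∀ K ∈ S', ow' K = K := fun K hK =>
    own_unique h' (how' K (h'.sub hK)).1 hK (how' K (h'.sub hK)).2 (h'.full K hK).top
  have hcase : ∀ K ∈ S ∪ S', ow K = K ∨ ow' K = K := fun K hK =>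
    (Finset.mem_union.1 hK).elim (fun h1 => Or.inl (oS K h1)) fun h1 => Or.inr (oS' K h1)
  have hle : ∀ p ∈ R, iv p ⊆ iv (ow p) := fun p hp =>
    (h.full _ (how p hp).1).reg.1 p (how p hp).2
  have hle' : ∀ p ∈ R, iv p ⊆ iv (ow' p) := fun p hp =>
    (h'.full _ (how' p hp).1).reg.1 p (how' p hp).2
  refine ⟨fun K => W (ow K) ∩ W' (ow' K), ⟨hSR, ?_, ?_, ?_, ?_, ?_⟩, ?_⟩
  · -- full
    intro K hK
    have hKR := hSR hK
    have f1 := h.full _ (how K hKR).1
    have f2 := h'.full _ (how' K hKR).1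
    refine ⟨⟨fun p hp => ?_, fun p hp q h1 h2 => ?_⟩, ?_, fun m l hml => ?_⟩
    · rw [Finset.mem_inter] at hp
      rcases hcase K hK with h1 | h1
      · have := f1.reg.1 p hp.1
        rwa [h1] at this
      · have := f2.reg.1 p hp.2
        rwa [h1] at this
    · rw [Finset.mem_inter] at hp ⊢
      exact ⟨f1.reg.2 p hp.1 q h1 (h2.trans (hle K hKR)),
        f2.reg.2 p hp.2 q h1 (h2.trans (hle' K hKR))⟩
    · exact Finset.mem_inter.2 ⟨(how K hKR).2, (how' K hKR).2⟩
    · rw [Finset.mem_inter] at hml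
      have b1 := f1.bin m l hml.1
      have b2 := f2.bin m l hml.2
      rw [Finset.mem_inter, Finset.mem_inter]
      tauto
  · exact fun K hK => Finset.inter_subset_left.trans (h.wsub _ (how K (hSR hK)).1)
  · -- disjoint
    intro K hK K₁ hK₁ hne
    rw [Finset.disjoint_left]
    intro p hp hp₁
    rw [Finset.mem_inter] at hp hp₁
    have e1 : ow K = ow K₁ :=
      own_unique h (how K (hSR hK)).1 (how K₁ (hSR hK₁)).1 hp.1 hp₁.1
    have e2 : ow' K = ow' K₁ :=
      own_unique h' (how' K (hSR hK)).1 (how' K₁ (hSR hK₁)).1 hp.2 hp₁.2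
    refine hne (Qe292.iv_antisymm ?_ ?_)
    · rcases hcase K₁ hK₁ with h1 | h1
      · rw [← h1, ← e1]
        exact hle K (hSR hK)
      · rw [← h1, ← e2]
        exact hle' K (hSR hK)
    · rcases hcase K hK with h1 | h1
      · rw [← h1, e1]
        exact hle K₁ (hSR hK₁)
      · rw [← h1, e2]
        exact hle' K₁ (hSR hK₁)
  · -- cover
    intro p hp
    have a1 := how p hp
    have a2 := how' p hp
    rcases Qe292.sub_total (hle p hp) (hle' p hp) with h1 | h1
    · refine ⟨ow p, Finset.mem_union_left _ a1.1, Finset.mem_inter.2 ⟨?_, ?_⟩⟩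
      · rw [oS _ a1.1]
        exact a1.2
      · have hA : ow p ∈ W' (ow' p) := (h'.full _ a2.1).reg.2 p a2.2 _ (hle p hp) h1
        have hAR := h.sub a1.1
        rw [own_unique h' (how' _ hAR).1 a2.1 (how' _ hAR).2 hA]
        exact a2.2
    · refine ⟨ow' p, Finset.mem_union_right _ a2.1, Finset.mem_inter.2 ⟨?_, ?_⟩⟩
      · have hA : ow' p ∈ W (ow p) := (h.full _ a1.1).reg.2 p a1.2 _ (hle' p hp) h1
        have hAR := h'.sub a2.1
        rw [own_unique h (how _ hAR).1 a1.1 (how _ hAR).2 hA]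
        exact a1.2
      · rw [oS' _ a2.1]
        exact a2.2
  · -- count
    intro p hp
    have h1 : (S ∪ S').filter (fun K => iv K ⊆ iv p) =
        S.filter (fun K => iv K ⊆ iv p) ∪ S'.filter (fun K => iv K ⊆ iv p) :=
      Finset.filter_union _ _ _
    rw [h1]
    have h2 : ∑ K ∈ S.filter (fun K => iv K ⊆ iv p) ∪ S'.filter (fun K => iv K ⊆ iv p), len K ≤
        ∑ K ∈ S.filter (fun K => iv K ⊆ iv p), len K +
          ∑ K ∈ S'.filter (fun K => iv K ⊆ iv p), len K := by
      rw [← Finset.sum_union_inter]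
      have : 0 ≤ ∑ K ∈ S.filter (fun K => iv K ⊆ iv p) ∩ S'.filter (fun K => iv K ⊆ iv p),
          len K := Finset.sum_nonneg fun K _ => (Growth.len_pos K).le
      linarith
    have h3 := h.cnt p hp
    have h4 := h'.cnt p hp
    linarith
  · intro K hK
    have hKR := hSR hK
    exact ⟨ow K, (how K hKR).1, ow' K, (how' K hKR).1, rfl, (how K hKR).2, (how' K hKR).2⟩

/-- the one-window partition -/
theorem part_one {J : Nd} (hR : Full R J) : Part R {J} (fun _ => R) 1 where
  sub := by
    intro K hK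
    rw [Finset.mem_singleton] at hK
    rw [hK]
    exact hR.top
  full := by
    intro K hK
    rw [Finset.mem_singleton] at hK
    rw [hK]
    exact hR
  wsub := fun _ _ => subset_rfl
  disj := by
    intro K hK K' hK' hne
    rw [Finset.mem_singleton] at hK hK'
    exact absurd (hK.trans hK'.symm) hne
  cover := fun p hp => ⟨J, Finset.mem_singleton_self J, hp⟩
  cnt := by
    intro p hp
    rw [one_mul, Finset.sum_filter, Finset.sum_singleton]
    split_ifs with h1
    · rw [Qe292.iv_antisymm h1 (hR.reg.1 p hp)]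
    · exact (Growth.len_pos p).le

/-- enlarging the count -/
theorem part_mono {C' : ℝ} (h : Part R S W C) (hC : C ≤ C') : Part R S W C' :=
  ⟨h.sub, h.full, h.wsub, h.disj, h.cover, fun p hp => (h.cnt p hp).trans
    (mul_le_mul_of_nonneg_right hC (Growth.len_pos p).le)⟩

/-- **superposition of a finite family: the counts add** -/
theorem part_family {ι : Type*} (s : Finset ι) {J : Nd} (hR : Full R J)
    (T : ι → Finset Nd) (V : ι → Nd → Finset Nd) (c : ι → ℝ)
    (h : ∀ i ∈ s, Part R (T i) (V i) (c i)) :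
    ∃ (S : Finset Nd) (W : Nd → Finset Nd), Part R S W (1 + ∑ i ∈ s, c i) ∧
      (∀ K ∈ S, ∀ i ∈ s, ∃ A ∈ T i, W K ⊆ V i A ∧ K ∈ V i A) ∧
      (∀ i ∈ s, T i ⊆ S) ∧ ∀ K ∈ S, K = J ∨ ∃ i ∈ s, K ∈ T i := by
  classical
  induction s using Finset.induction_on with
  | empty =>
    refine ⟨{J}, fun _ => R, ?_, ?_, ?_, ?_⟩
    · rw [Finset.sum_empty, add_zero]
      exact part_one hR
    · exact fun K _ i hi => absurd hi (Finset.notMem_empty i)
    · exact fun i hi => absurd hi (Finset.notMem_empty i)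
    · exact fun K hK => Or.inl (Finset.mem_singleton.1 hK)
  | insert a s ha ih =>
    obtain ⟨S, W, hP, hW, hTS, hST⟩ := ih fun i hi => h i (Finset.mem_insert_of_mem hi)
    obtain ⟨W'', hP'', hW''⟩ := part_inter hP (h a (Finset.mem_insert_self a s))
    refine ⟨S ∪ T a, W'', ?_, ?_, ?_, ?_⟩
    · rw [Finset.sum_insert ha]
      exact part_mono hP'' (by linarith)
    · intro K hK i hi
      obtain ⟨A, hA, B, hB, he, hKA, hKB⟩ := hW'' K hK
      rw [he]
      rcases Finset.mem_insert.1 hi with rfl | hi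
      · exact ⟨B, hB, Finset.inter_subset_right, hKB⟩
      · obtain ⟨A', hA', h1, h2⟩ := hW A hA i hi
        refine ⟨A', hA', Finset.inter_subset_left.trans h1, h1 hKA⟩
    · intro i hi
      rcases Finset.mem_insert.1 hi with rfl | hi
      · exact Finset.subset_union_right
      · exact (hTS i hi).trans Finset.subset_union_left
    · intro K hK
      rcases Finset.mem_union.1 hK with h1 | h1
      · rcases hST K h1 with h2 | ⟨i, hi, h2⟩
        · exact Or.inl h2
        · exact Or.inr ⟨i, Finset.mem_insert_of_mem hi, h2⟩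
      · exact Or.inr ⟨a, Finset.mem_insert_self a s, h1⟩

end inter

end Crest.Agent.R079.WinA222
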