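import Crest.Agent.R079.TWin2_903
import Crest.Agent.R079.WinA_222

/-! R079, doc 2531 (787), (O1) + (O2): iteration of the generation step, superposition with the static
windows, final sum (helper110).  Node-level letters: `X p` = letter used at the node `p`. -/

set_option autoImplicit false

namespace Crest.Agent.R079.PIter110

open Finset Crest.Agent.R079.Grid Crest.Agent.R079.Growth Crest.Agent.R079.QRed
  Crest.Agent.R079.TWin

/-- **ONE GENERATION** on all full subregions of `R`: size classes `Q1 → Q1'`, `Q2 → Q2'`, window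
count `c`, gain `th` per letter, error `d`. -/
def Gen (R : Finset Nd) (t : Nd → Fn → Fn → ℂ) (Q1 Q1' Q2 Q2' : Finset Nd → Fn → ℝ → Prop)
    (c th d : ℝ) : Prop :=
  ∀ W I, Full W I → W ⊆ R → ∀ Y1 Y2 y1 y2, 0 ≤ y1 → 0 ≤ y2 → Q1 W Y1 y1 → Q2 W Y2 y2 →
    ∃ (S : Finset Nd) (V : Nd → Finset Nd) (X1 X2 : Nd → Fn), Part W S V c ∧
      (∀ K ∈ S, ∀ p ∈ V K, X1 p = X1 K ∧ X2 p = X2 K) ∧
      (∀ K ∈ S, Q1' (V K) (X1 K) (th * y1) ∧ Q2' (V K) (X2 K) (th * y2)) ∧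
      ‖∑ p ∈ W, t p Y1 Y2 - ∑ p ∈ W, t p (X1 p) (X2 p)‖ ≤ d * y1 * y2 * len I

lemma Part.mono {R S : Finset Nd} {V : Nd → Finset Nd} {C C' : ℝ} (h : Part R S V C)
    (hC : C ≤ C') : Part R S V C' :=
  ⟨h.sub, h.full, h.wsub, h.disj, h.cover, fun p hp =>
    (h.cnt p hp).trans (mul_le_mul_of_nonneg_right hC (Growth.len_pos p).le)⟩

lemma len_mono {K p : Nd} (h : iv K ⊆ iv p) : len K ≤ len p := by
  rw [← Growth.card_iv K, ← Growth.card_iv p]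
  exact_mod_cast Finset.card_le_card h

lemma part_one {R : Finset Nd} {J : Nd} (hR : Full R J) : Part R {J} (fun _ => R) 1 := by
  refine ⟨?_, ?_, ?_, ?_, ?_, ?_⟩
  · intro K hK
    rw [Finset.mem_singleton.1 hK]
    exact hR.top
  · intro K hK
    rw [Finset.mem_singleton.1 hK]
    exact hR
  · intro K _
    exact subset_rfl
  · intro K hK K' hK' hne
    exact absurd ((Finset.mem_singleton.1 hK).trans (Finset.mem_singleton.1 hK').symm) hne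
  · intro p hp
    exact ⟨J, Finset.mem_singleton_self _, hp⟩
  · intro p _
    rw [one_mul, Finset.sum_filter, Finset.sum_singleton]
    split_ifs with h
    · exact len_mono h
    · exact (Growth.len_pos p).le

lemma part_sum {E : Type*} [AddCommMonoid E] {R S : Finset Nd} {V : Nd → Finset Nd} {C : ℝ}
    (h : Part R S V C) (f : Nd → E) : ∑ p ∈ R, f p = ∑ K ∈ S, ∑ p ∈ V K, f p := by
  classical
  have e : R = S.biUnion V := by
    ext p
    rw [Finset.mem_biUnion]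
    constructor
    · intro hp
      obtain ⟨K, hK, hpK⟩ := h.cover p hp
      exact ⟨K, hK, hpK⟩
    · rintro ⟨K, hK, hpK⟩
      exact h.wsub K hK hpK
  rw [e, Finset.sum_biUnion]
  intro K hK K' hK' hne
  exact h.disj K (by exact_mod_cast hK) K' (by exact_mod_cast hK') hne

lemma part_cnt {R S : Finset Nd} {V : Nd → Finset Nd} {C : ℝ} {J : Nd} (hR : Full R J)
    (h : Part R S V C) : ∑ K ∈ S, len K ≤ C * len J := by
  have h1 := h.cnt J hR.top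
  have e : S.filter (fun K => iv K ⊆ iv J) = S :=
    Finset.filter_true_of_mem fun K hK => hR.reg.1 K (h.sub hK)
  rwa [e] at h1

lemma part_uniq {R S : Finset Nd} {V : Nd → Finset Nd} {C : ℝ} (h : Part R S V C) {K K' p : Nd}
    (hK : K ∈ S) (hK' : K' ∈ S) (h1 : p ∈ V K) (h2 : p ∈ V K') : K = K' := by
  by_contra hne
  exact Finset.disjoint_left.1 (h.disj K hK K' hK' hne) h1 h2

/-- **ITERATION** of the generation step -/
theorem iter {R : Finset Nd} {J : Nd} (hR : Full R J) {t : Nd → Fn → Fn → ℂ}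
    {Q1 Q2 : ℕ → Finset Nd → Fn → ℝ → Prop} {c th d : ℝ} (hc : 1 ≤ c) (hth : 0 ≤ th)
    (hd : 0 ≤ d)
    (hG : ∀ k, Gen R t (Q1 k) (Q1 (k + 1)) (Q2 k) (Q2 (k + 1)) c th d) (Y1 Y2 : Fn) {y1 y2 : ℝ}
    (hy1 : 0 ≤ y1) (hy2 : 0 ≤ y2) (h1 : Q1 0 R Y1 y1) (h2 : Q2 0 R Y2 y2) :
    ∀ n : ℕ, ∃ (S : Finset Nd) (V : Nd → Finset Nd) (X1 X2 : Nd → Fn), Part R S V ((2 * c) ^ n) ∧
      (∀ K ∈ S, ∀ p ∈ V K, X1 p = X1 K ∧ X2 p = X2 K) ∧
      (∀ K ∈ S, Q1 n (V K) (X1 K) (th ^ n * y1) ∧ Q2 n (V K) (X2 K) (th ^ n * y2)) ∧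
      ‖∑ p ∈ R, t p Y1 Y2 - ∑ p ∈ R, t p (X1 p) (X2 p)‖ ≤
        d * (∑ k ∈ Finset.range n, (2 * c * th ^ 2) ^ k) * y1 * y2 * len J := by
  classical
  intro n
  induction n with
  | zero =>
    refine ⟨{J}, fun _ => R, fun _ => Y1, fun _ => Y2, ?_, fun _ _ _ _ => ⟨rfl, rfl⟩, ?_, ?_⟩
    · rw [pow_zero]
      exact part_one hR
    · intro K _
      rw [pow_zero, one_mul, one_mul]
      exact ⟨h1, h2⟩
    · simp
  | succ n ih =>
    obtain ⟨S, V, X1, X2, hP, hst, hQ, herr⟩ := ih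
    have hyn1 : 0 ≤ th ^ n * y1 := mul_nonneg (pow_nonneg hth n) hy1
    have hyn2 : 0 ≤ th ^ n * y2 := mul_nonneg (pow_nonneg hth n) hy2
    have hstep : ∀ K : Nd, ∃ (S' : Finset Nd) (V' : Nd → Finset Nd) (Z1 Z2 : Nd → Fn), K ∈ S →
        (Part (V K) S' V' c ∧
        (∀ L ∈ S', ∀ p ∈ V' L, Z1 p = Z1 L ∧ Z2 p = Z2 L) ∧
        (∀ L ∈ S', Q1 (n + 1) (V' L) (Z1 L) (th * (th ^ n * y1)) ∧
          Q2 (n + 1) (V' L) (Z2 L) (th * (th ^ n * y2))) ∧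
        ‖∑ p ∈ V K, t p (X1 K) (X2 K) - ∑ p ∈ V K, t p (Z1 p) (Z2 p)‖ ≤
          d * (th ^ n * y1) * (th ^ n * y2) * len K) := by
      intro K
      by_cases hK : K ∈ S
      · obtain ⟨S', V', Z1, Z2, a, b, e, f⟩ := hG n (V K) K (hP.full K hK) (hP.wsub K hK) (X1 K)
          (X2 K) _ _ hyn1 hyn2 (hQ K hK).1 (hQ K hK).2
        exact ⟨S', V', Z1, Z2, fun _ => ⟨a, b, e, f⟩⟩
      · exact ⟨∅, fun _ => ∅, fun _ => Y1, fun _ => Y2, fun h => absurd h hK⟩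
    choose S' V' Z1 Z2 hst' using hstep
    obtain ⟨S2, W2, hP2, hsub⟩ := refine_part hR (by linarith : (0 : ℝ) ≤ c) hP S' V'
      (fun K hK => (hst' K hK).1)
    -- owner of a node
    let κ : Nd → Nd := fun p => if hex : ∃ K ∈ S, p ∈ V K then hex.choose else p
    have hκ : ∀ K ∈ S, ∀ p ∈ V K, κ p = K := by
      intro K hK p hp
      have hex : ∃ K ∈ S, p ∈ V K := ⟨K, hK, hp⟩
      have e : κ p = hex.choose := by simp only [κ]; rw [dif_pos hex]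
      rw [e]
      exact part_uniq hP hex.choose_spec.1 hK hex.choose_spec.2 hp
    refine ⟨S2, W2, fun p => Z1 (κ p) p, fun p => Z2 (κ p) p, ?_, ?_, ?_, ?_⟩
    · refine Part.mono hP2 ?_
      have h3 : (1 : ℝ) ≤ (2 * c) ^ n := one_le_pow₀ (by linarith)
      rw [pow_succ]
      nlinarith
    · intro K' hK' p hp
      obtain ⟨K, hK, hKK, hW, hWs⟩ := hsub K' hK'
      have hp1 : κ p = K := hκ K hK p (hWs hp)
      have hp2 : κ K' = K := hκ K hK K' (hWs ((hP2.full K' hK').top))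
      simp only [hp1, hp2]
      rw [hW] at hp
      exact (hst' K hK).2.1 K' hKK p hp
    · intro K' hK'
      obtain ⟨K, hK, hKK, hW, hWs⟩ := hsub K' hK'
      have hp2 : κ K' = K := hκ K hK K' (hWs ((hP2.full K' hK').top))
      simp only [hp2]
      rw [hW, pow_succ, mul_comm (th ^ n) th, mul_assoc, mul_assoc]
      exact (hst' K hK).2.2.1 K' hKK
    · have e1 : ∑ p ∈ R, t p Y1 Y2 - ∑ p ∈ R, t p (Z1 (κ p) p) (Z2 (κ p) p) =
          (∑ p ∈ R, t p Y1 Y2 - ∑ p ∈ R, t p (X1 p) (X2 p)) +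
          ∑ K ∈ S, (∑ p ∈ V K, t p (X1 K) (X2 K) - ∑ p ∈ V K, t p (Z1 K p) (Z2 K p)) := by
        rw [Finset.sum_sub_distrib]
        have a1 : ∑ p ∈ R, t p (X1 p) (X2 p) = ∑ K ∈ S, ∑ p ∈ V K, t p (X1 K) (X2 K) := by
          rw [part_sum hP]
          refine Finset.sum_congr rfl fun K hK => Finset.sum_congr rfl fun p hp => ?_
          rw [(hst K hK p hp).1, (hst K hK p hp).2]
        have a2 : ∑ p ∈ R, t p (Z1 (κ p) p) (Z2 (κ p) p) =
            ∑ K ∈ S, ∑ p ∈ V K, t p (Z1 K p) (Z2 K p) := by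
          rw [part_sum hP]
          refine Finset.sum_congr rfl fun K hK => Finset.sum_congr rfl fun p hp => ?_
          rw [hκ K hK p hp]
        rw [a1, a2]
        ring
      rw [e1]
      refine (norm_add_le _ _).trans ?_
      have h4 : ‖∑ K ∈ S, (∑ p ∈ V K, t p (X1 K) (X2 K) - ∑ p ∈ V K, t p (Z1 K p) (Z2 K p))‖ ≤
          ∑ K ∈ S, d * (th ^ n * y1) * (th ^ n * y2) * len K :=
        (norm_sum_le _ _).trans (Finset.sum_le_sum fun K hK => (hst' K hK).2.2.2)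
      rw [← Finset.mul_sum] at h4
      have h5 := mul_le_mul_of_nonneg_left (part_cnt hR hP)
        (mul_nonneg (mul_nonneg hd hyn1) hyn2)
      rw [Finset.sum_range_succ]
      have e2 : d * (∑ k ∈ Finset.range n, (2 * c * th ^ 2) ^ k + (2 * c * th ^ 2) ^ n) * y1 * y2 *
          len J = d * (∑ k ∈ Finset.range n, (2 * c * th ^ 2) ^ k) * y1 * y2 * len J +
          d * (th ^ n * y1) * (th ^ n * y2) * ((2 * c) ^ n * len J) := by
        rw [mul_pow (2 * c) (th ^ 2) n, ← pow_mul, Nat.mul_comm 2 n, pow_mul (th) n 2]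
        ring
      rw [e2]
      linarith

/-- **FINAL SUM**: `n` generations, then superposition with the static windows `S0`, `V0` -/
theorem final {R : Finset Nd} {J : Nd} (hR : Full R J) {t : Nd → Fn → Fn → ℂ}
    {Q1 Q2 : ℕ → Finset Nd → Fn → ℝ → Prop} {c th d b A : ℝ} (hc : 1 ≤ c) (hth : 0 ≤ th)
    (hd : 0 ≤ d) (hA : 0 ≤ A)
    (hG : ∀ k, Gen R t (Q1 k) (Q1 (k + 1)) (Q2 k) (Q2 (k + 1)) c th d) (n : ℕ)
    (hm1 : ∀ W W' Y y, W' ⊆ W → Q1 n W Y y → Q1 n W' Y y)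
    (hm2 : ∀ W W' Y y, W' ⊆ W → Q2 n W Y y → Q2 n W' Y y)
    {S0 : Finset Nd} {V0 : Nd → Finset Nd} (h0 : Part R S0 V0 b)
    (hpc : ∀ K0 ∈ S0, ∀ W I, Full W I → W ⊆ V0 K0 → ∀ Y1 Y2 y1 y2, 0 ≤ y1 → 0 ≤ y2 →
      Q1 n W Y1 y1 → Q2 n W Y2 y2 → ‖∑ p ∈ W, t p Y1 Y2‖ ≤ A * y1 * y2 * len I)
    (Y1 Y2 : Fn) {y1 y2 : ℝ} (hy1 : 0 ≤ y1) (hy2 : 0 ≤ y2) (h1 : Q1 0 R Y1 y1)
    (h2 : Q2 0 R Y2 y2) :
    ‖∑ p ∈ R, t p Y1 Y2‖ ≤ (d * (∑ k ∈ Finset.range n, (2 * c * th ^ 2) ^ k) +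
      A * (th ^ n) ^ 2 * ((2 * c) ^ n + b)) * y1 * y2 * len J := by
  classical
  obtain ⟨S, V, X1, X2, hP, hst, hQ, herr⟩ := iter hR hc hth hd hG Y1 Y2 hy1 hy2 h1 h2 n
  obtain ⟨V2, hP2, hsub⟩ := WinA222.part_inter hP h0
  have hyn1 : 0 ≤ th ^ n * y1 := mul_nonneg (pow_nonneg hth n) hy1
  have hyn2 : 0 ≤ th ^ n * y2 := mul_nonneg (pow_nonneg hth n) hy2
  have h3 : ‖∑ p ∈ R, t p (X1 p) (X2 p)‖ ≤
      ∑ K ∈ S ∪ S0, A * (th ^ n * y1) * (th ^ n * y2) * len K := by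
    rw [part_sum hP2]
    refine (norm_sum_le _ _).trans (Finset.sum_le_sum fun K hK => ?_)
    obtain ⟨K1, hK1, K2, hK2, hW, hKa, hKb⟩ := hsub K hK
    have ha : V2 K ⊆ V K1 := by rw [hW]; exact Finset.inter_subset_left
    have hb : V2 K ⊆ V0 K2 := by rw [hW]; exact Finset.inter_subset_right
    have e : ∑ p ∈ V2 K, t p (X1 p) (X2 p) = ∑ p ∈ V2 K, t p (X1 K1) (X2 K1) :=
      Finset.sum_congr rfl fun p hp => by rw [(hst K1 hK1 p (ha hp)).1, (hst K1 hK1 p (ha hp)).2]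
    rw [e]
    exact hpc K2 hK2 _ K (hP2.full K hK) hb _ _ _ _ hyn1 hyn2 (hm1 _ _ _ _ ha (hQ K1 hK1).1)
      (hm2 _ _ _ _ ha (hQ K1 hK1).2)
  rw [← Finset.mul_sum] at h3
  have h4 := mul_le_mul_of_nonneg_left (part_cnt hR hP2)
    (mul_nonneg (mul_nonneg hA hyn1) hyn2)
  have e0 : ∑ p ∈ R, t p Y1 Y2 = (∑ p ∈ R, t p Y1 Y2 - ∑ p ∈ R, t p (X1 p) (X2 p)) +
      ∑ p ∈ R, t p (X1 p) (X2 p) := by ring
  rw [e0]
  refine (norm_add_le _ _).trans ?_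
  have e2 : (d * (∑ k ∈ Finset.range n, (2 * c * th ^ 2) ^ k) +
      A * (th ^ n) ^ 2 * ((2 * c) ^ n + b)) * y1 * y2 * len J =
      d * (∑ k ∈ Finset.range n, (2 * c * th ^ 2) ^ k) * y1 * y2 * len J +
      A * (th ^ n * y1) * (th ^ n * y2) * (((2 * c) ^ n + b) * len J) := by ring
  rw [e2]
  linarith

end Crest.Agent.R079.PIter110
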