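import Crest.Agent.R079.PLMove_931
import Crest.Agent.R079.PathSum_815

/-! R079, LABELLED line potentials, (2,4,4): the log-det potential with labels is a `Good` pair
(label version of `PotLD_378`), touching lemmas (label version of `PotMask_491`, PL3) and the node
inequality along a path for labelled boxes (label version of `PathBox_378`).  helper242. -/

set_option autoImplicit false
set_option linter.unusedVariables false
set_option linter.unusedSectionVars false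

namespace Crest.Agent.R079.PotL

open Matrix Finset Filter Topology Crest.Agent.R072 Crest.Agent.R079.LD Crest.Agent.R079.Path
  Crest.Agent.R072.Nd
open scoped MatrixOrder

section inst

variable {α : Type*} [Fintype α] [DecidableEq α]

/-- the log-det pair at threshold `t`, with labels -/
noncomputable def ldP (t : ℝ) (α : Type*) [Fintype α] [DecidableEq α] : TPot α where
  F := fun _ M => LD t M
  E := fun _ M => LD (t / 2) M

theorem hsL_symm (r : ℕ) : (diagonal (hsL r α))ᵀ = diagonal (hsL r α) := diagonal_transpose _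

theorem hsL_sq (r : ℕ) : diagonal (hsL r α) * diagonal (hsL r α) = 1 := by
  rw [diagonal_mul_diagonal, ← diagonal_one]
  congr 1
  ext i
  exact hsL_mul_self r i

theorem LD_pinchL {t : ℝ} (ht : 0 < t) (r : ℕ)
    {M : Matrix (Fin (r + r) × α) (Fin (r + r) × α) ℝ} (hM : M.PosSemidef) :
    LD t (M + diagonal (hsL r α) * M * diagonal (hsL r α)) =
      LD t (blkA r M) + LD t (blkB r M) := by
  have hA : (blkA r M).PosSemidef := (hM.submatrix _).smul (by norm_num)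
  have hB : (blkB r M).PosSemidef := (hM.submatrix _).smul (by norm_num)
  have h2 : (M + diagonal (hsL r α) * M * diagonal (hsL r α)).submatrix (eqL r α) (eqL r α) =
      fromBlocks (blkA r M) 0 0 (blkB r M) := by
    ext i j
    rcases i with ⟨i, s⟩ | ⟨i, s⟩ <;> rcases j with ⟨j, t⟩ | ⟨j, t⟩ <;>
      simp [hsL, hsgn, diagonal_mul, mul_diagonal, two_mul, eqL_inl, eqL_inr, blkA, blkB]
  rw [← LD_submatrix t (eqL r α), h2, LD_fromBlocks ht hA.nonneg hB.nonneg]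

/-- the pinching gain dominates `tr g(M) U g(M) U` -/
theorem gam_LDL_ge {t : ℝ} (ht : 0 < t) (r : ℕ)
    {M : Matrix (Fin (r + r) × α) (Fin (r + r) × α) ℝ} (hM : M.PosSemidef) :
    trace (gt t M * gt t (diagonal (hsL r α) * M * diagonal (hsL r α))) ≤
      gam (fun _ M => LD t M) r M := by
  have hU : 0 ≤ diagonal (hsL r α) * M * diagonal (hsL r α) :=
    sandwich_nonneg (hsL_symm r) hM.nonneg
  have h := LD_superadd_gap ht hM.nonneg hU
  rw [LD_pinchL ht r hM, LD_conj (hsL_sq r)] at h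
  show _ ≤ LD t (blkA r M) + LD t (blkB r M) - 2 * LD t M
  linarith

theorem goodPot_LDL {t : ℝ} (ht : 0 < t) : GoodPot (α := α) (fun _ M => LD t M) where
  nonneg := fun r M hM => LD_nonneg ht hM.nonneg
  supp := fun r Z hZ => by
    refine ⟨{ toFun := fun Y => trace (gt t Z * (t⁻¹ • Y))
              map_add' := fun Y Y' => by rw [smul_add, mul_add, trace_add]
              map_smul' := fun a Y => by
                rw [smul_comm, mul_smul_comm, trace_smul, RingHom.id_apply] }, ?_⟩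
    intro X hX
    have h := bregLD_nonneg ht hZ.nonneg hX.nonneg
    unfold bregLD at h
    show LD t Z + trace (gt t Z * (t⁻¹ • (X - Z))) ≤ LD t X
    linarith
  split := fun r M hM => by
    refine le_trans ?_ (gam_LDL_ge ht r hM)
    have hU : 0 ≤ diagonal (hsL r α) * M * diagonal (hsL r α) :=
      sandwich_nonneg (hsL_symm r) hM.nonneg
    exact frob_trace_mul_nonneg (gm_nonneg (inv_smul_nonneg ht hM.nonneg))
      (gm_nonneg (inv_smul_nonneg ht hU))

theorem instLDL {t : ℝ} (ht : 0 < t) : Good (ldP t α) 1 where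
  c0 := zero_le_one
  F := goodPot_LDL ht
  E := goodPot_LDL (half_pos ht)
  mixed := fun r a₁ a₂ b₁ b₂ ha1 ha2 hb1 hb2 => by
    rw [one_mul]
    exact LD_mixed_le ht ha1.nonneg ha2.nonneg hb1.nonneg hb2.nonneg

theorem En_le_gamL {N : ℕ} {M : Matrix (Fin (N + N) × α) (Fin (N + N) × α) ℝ}
    (hM : M.PosSemidef) :
    En (diagonal (hsL N α)) M ≤ gam (ldP 1 α).F N M := by
  have h1 := En_le_LD1 (hsL_symm N) (hsL_sq N) hM.nonneg
  have h2 := LD_pinchL one_pos N hM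
  rw [Pot.LD_one, Pot.LD_one, Pot.LD_one] at h2
  show _ ≤ LD 1 (blkA N M) + LD 1 (blkB N M) - 2 * LD 1 M
  rw [Pot.LD_one, Pot.LD_one, Pot.LD_one]
  linarith

end inst

section touch

variable {Q : ℕ} [NeZero Q] {α β γ : Type*} [Fintype α] [DecidableEq α] [Fintype β] [Fintype γ]

/-- the box `[q, q+a) × [p, p+a)` sees a difference of `X` and `X'` -/
def Sees {μ : Type*} (X X' : ZMod Q → ZMod Q → μ) (a : ℕ) (q p : ZMod Q) : Prop :=
  ∃ i j : ℕ, i < a ∧ j < a ∧ X (q + (i : ZMod Q)) (p + (j : ZMod Q)) ≠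
    X' (q + (i : ZMod Q)) (p + (j : ZMod Q))

/-- a box which sees no difference has the same averaged matrix -/
theorem abar_congr {X X' : ZMod Q → ZMod Q → Matrix β α ℝ} {a : ℕ} {q p : ZMod Q}
    (h : ¬ Sees X X' a q p) : abar X a a q p = abar X' a a q p := by
  have h1 : ∀ i j : ℕ, i < a → j < a → X (q + (i : ZMod Q)) (p + (j : ZMod Q)) =
      X' (q + (i : ZMod Q)) (p + (j : ZMod Q)) := by
    intro i j hi hj
    by_contra hne
    exact h ⟨i, j, hi, hj, hne⟩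
  ext j j'
  unfold abar
  congr 1
  refine Finset.sum_congr rfl fun i hi => Finset.sum_congr rfl fun l _ => ?_
  rw [h1 i j.1 (Finset.mem_range.1 hi) j.1.2, h1 i j'.1 (Finset.mem_range.1 hi) j'.1.2]

theorem touchW {P : TPot α} (hF : GoodPot P.F) (X X' : ZMod Q → ZMod Q → Matrix β α ℝ)
    (Z Z' : ZMod Q → ZMod Q → Matrix γ α ℝ) (N : ℕ)
    (n : ZMod Q) (D : Finset (ZMod Q × ZMod Q))
    (hD : ∀ p q, (Sees X X' N q p ∨ Sees Z Z' N (n - p - q) p) → (q, p) ∈ D) :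
    W P X Z N N n - W P X' Z' N N n ≤ ∑ z ∈ D,
      P.F N (abar X N N z.1 z.2 + abar Z N N (n - z.2 - z.1) z.2) := by
  unfold W
  rw [← Finset.sum_sub_distrib]
  simp only [← Finset.sum_sub_distrib]
  rw [Finset.sum_comm, ← Finset.sum_product']
  rw [Finset.univ_product_univ]
  have hsub : D ⊆ (Finset.univ : Finset (ZMod Q × ZMod Q)) := Finset.subset_univ _
  rw [← Finset.sum_subset hsub ?_]
  · refine Finset.sum_le_sum fun z _ => ?_
    have := hF.nonneg N (abar X' N N z.1 z.2 + abar Z' N N (n - z.2 - z.1) z.2)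
      (abar_add_posSemidef _ _ _ _ _ _ _ _)
    linarith
  · intro z _ hz
    have h1 : ¬ (Sees X X' N z.1 z.2 ∨ Sees Z Z' N (n - z.2 - z.1) z.2) := fun h => hz (hD _ _ h)
    rw [not_or] at h1
    rw [abar_congr h1.1, abar_congr h1.2, sub_self]

theorem touchV {P : TPot α} (hF : GoodPot P.F) (X X' : ZMod Q → ZMod Q → Matrix β α ℝ)
    (Z Z' : ZMod Q → ZMod Q → Matrix γ α ℝ) (N : ℕ)
    (D : ZMod Q → Finset (ZMod Q × ZMod Q))
    (hD : ∀ n p q, (Sees X X' N q p ∨ Sees Z Z' N (n - p - q) p) → (q, p) ∈ D n) :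
    Vb P X Z N - Vb P X' Z' N ≤ bl (fun n => ∑ z ∈ D n,
      P.F N (abar X N N z.1 z.2 + abar Z N N (n - z.2 - z.1) z.2)) N (-2) := by
  unfold Vb bl
  rw [← mul_sub, ← Finset.sum_sub_distrib]
  refine mul_le_mul_of_nonneg_left (Finset.sum_le_sum fun i _ => ?_) (by positivity)
  exact touchW hF X X' Z Z' N _ _ (hD _)

theorem touchE {P : TPot α} (hE : GoodPot P.E) (X X' : ZMod Q → ZMod Q → Matrix β α ℝ) (N : ℕ)
    (D : Finset (ZMod Q × ZMod Q)) (hD : ∀ p q, Sees X X' N q p → (q, p) ∈ D) :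
    EW P X N N - EW P X' N N ≤ ∑ z ∈ D, P.E N (abar X N N z.1 z.2) := by
  unfold EW
  rw [← Finset.sum_sub_distrib]
  simp only [← Finset.sum_sub_distrib]
  rw [Finset.sum_comm, ← Finset.sum_product']
  rw [Finset.univ_product_univ]
  have hsub : D ⊆ (Finset.univ : Finset (ZMod Q × ZMod Q)) := Finset.subset_univ _
  rw [← Finset.sum_subset hsub ?_]
  · refine Finset.sum_le_sum fun z _ => ?_
    have := hE.nonneg N (abar X' N N z.1 z.2) (abar_posSemidef _ _ _ _ _)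
    linarith
  · intro z _ hz
    have h1 : ¬ Sees X X' N z.1 z.2 := fun h => hz (hD _ _ h)
    rw [abar_congr h1, sub_self]

end touch

section box

variable {Q : ℕ} [NeZero Q] {κ0 κ1 κ2 : Type*} [Fintype κ0] [DecidableEq κ0]
  [Fintype κ1] [DecidableEq κ1] [Fintype κ2] [DecidableEq κ2]

/-- transposed letter -/
def trL {κ κ' : Type*} (F : ZMod Q → ZMod Q → Matrix κ κ' ℝ) : ZMod Q → ZMod Q → Matrix κ' κ ℝ :=
  fun x y => (F y x)ᵀ

/-- scaled letter -/
def scL {κ κ' : Type*} (c : ℝ) (F : ZMod Q → ZMod Q → Matrix κ κ' ℝ) :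
    ZMod Q → ZMod Q → Matrix κ κ' ℝ := fun x y => c • F x y

theorem abar_scL {x : ℝ} (hx : 0 ≤ x) (X : ZMod Q → ZMod Q → Matrix κ0 κ1 ℝ) (a r : ℕ)
    (q p : ZMod Q) : abar (scL √x X) a r q p = x • abar X a r q p := by
  ext j j'
  simp only [abar, scL, Matrix.smul_apply, smul_eq_mul]
  have h := Real.mul_self_sqrt hx
  have e : ∀ i ∈ range a, ∑ l : κ0, √x * X (q + (i : ZMod Q)) (p + ((j.1 : ℕ) : ZMod Q)) l j.2 *
      (√x * X (q + (i : ZMod Q)) (p + ((j'.1 : ℕ) : ZMod Q)) l j'.2) =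
      x * ∑ l : κ0, X (q + (i : ZMod Q)) (p + ((j.1 : ℕ) : ZMod Q)) l j.2 *
      X (q + (i : ZMod Q)) (p + ((j'.1 : ℕ) : ZMod Q)) l j'.2 := by
    intro i _
    rw [Finset.mul_sum]
    refine Finset.sum_congr rfl fun l _ => ?_
    linear_combination (X (q + (i : ZMod Q)) (p + ((j.1 : ℕ) : ZMod Q)) l j.2 *
      X (q + (i : ZMod Q)) (p + ((j'.1 : ℕ) : ZMod Q)) l j'.2) * h
  rw [Finset.sum_congr rfl e, ← Finset.mul_sum]
  ring

/-- the three joint pinching gains of a labelled box at parameters `x, y, z` -/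
noncomputable def gamsL (F0 : ZMod Q → ZMod Q → Matrix κ0 κ1 ℝ)
    (F1 : ZMod Q → ZMod Q → Matrix κ1 κ2 ℝ) (F2 : ZMod Q → ZMod Q → Matrix κ2 κ0 ℝ)
    (N : ℕ) (p0 p1 p2 : ZMod Q) (x y z : ℝ) : ℝ :=
  gam (ldP 1 κ0).F N (x • abar (trL F0) (N + N) (N + N) p1 p0 +
      z • abar F2 (N + N) (N + N) p2 p0) +
  gam (ldP 1 κ1).F N (y • abar (trL F1) (N + N) (N + N) p2 p1 +
      x • abar F0 (N + N) (N + N) p0 p1) +
  gam (ldP 1 κ2).F N (z • abar (trL F2) (N + N) (N + N) p0 p2 +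
      y • abar F1 (N + N) (N + N) p1 p2)

theorem EE_le_gamsL (F0 : ZMod Q → ZMod Q → Matrix κ0 κ1 ℝ)
    (F1 : ZMod Q → ZMod Q → Matrix κ1 κ2 ℝ) (F2 : ZMod Q → ZMod Q → Matrix κ2 κ0 ℝ) (N : ℕ)
    (p0 p1 p2 : ZMod Q) {x y z : ℝ} (hx : 0 ≤ x) (hy : 0 ≤ y) (hz : 0 ≤ z) :
    Path.EE (diagonal (hsL N κ0)) (diagonal (hsL N κ1)) (diagonal (hsL N κ2))
      (bm F0 (N + N) p0 p1) (bm F1 (N + N) p1 p2) (bm F2 (N + N) p2 p0) x y z ≤
      gamsL F0 F1 F2 N p0 p1 p2 x y z := by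
  unfold Path.EE gamsL
  have h3 := En_le_gamL (N := N) (Matrix.nonneg_iff_posSemidef.mp
    (Pv_nonneg hx hz (bm F0 (N + N) p0 p1) (bm F2 (N + N) p2 p0)))
  have h4 := En_le_gamL (N := N) (Matrix.nonneg_iff_posSemidef.mp
    (Pv_nonneg hy hx (bm F1 (N + N) p1 p2) (bm F0 (N + N) p0 p1)))
  have h2 := En_le_gamL (N := N) (Matrix.nonneg_iff_posSemidef.mp
    (Pv_nonneg hz hy (bm F2 (N + N) p2 p0) (bm F1 (N + N) p1 p2)))
  have e3 : Pv x z (bm F0 (N + N) p0 p1) (bm F2 (N + N) p2 p0) =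
      x • abar (trL F0) (N + N) (N + N) p1 p0 + z • abar F2 (N + N) (N + N) p2 p0 := by
    unfold Pv
    rw [bm_mul_transpose F0, transpose_mul_bm F2]
    rfl
  have e4 : Pv y x (bm F1 (N + N) p1 p2) (bm F0 (N + N) p0 p1) =
      y • abar (trL F1) (N + N) (N + N) p2 p1 + x • abar F0 (N + N) (N + N) p0 p1 := by
    unfold Pv
    rw [bm_mul_transpose F1, transpose_mul_bm F0]
    rfl
  have e2 : Pv z y (bm F2 (N + N) p2 p0) (bm F1 (N + N) p1 p2) =
      z • abar (trL F2) (N + N) (N + N) p0 p2 + y • abar F1 (N + N) (N + N) p1 p2 := by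
    unfold Pv
    rw [bm_mul_transpose F2, transpose_mul_bm F1]
    rfl
  rw [← e3, ← e4, ← e2]
  linarith

/-- **(PN)** path bound for a finite family of labelled boxes, with weights. -/
theorem LboxL_path {ι : Type*} (S : Finset ι) (w : ι → ℝ) (hw : ∀ i ∈ S, 0 ≤ w i)
    (F0 : ι → ZMod Q → ZMod Q → Matrix κ0 κ1 ℝ) (F1 : ι → ZMod Q → ZMod Q → Matrix κ1 κ2 ℝ)
    (F2 : ι → ZMod Q → ZMod Q → Matrix κ2 κ0 ℝ) (N : ι → ℕ)
    (p0 p1 p2 : ι → ZMod Q) {x y z : ℤ → ℝ} (hp : PathSeq x y z) (B : ℝ)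
    (hB : ∀ J : ℕ, ∑ j ∈ Finset.Ico (-(J : ℤ)) J, (√(x j) * √(y j) * √(z j))⁻¹ *
      ∑ i ∈ S, w i * gamsL (F0 i) (F1 i) (F2 i) (N i) (p0 i) (p1 i) (p2 i) (x j) (y j) (z j) ≤
        B) :
    ∑ i ∈ S, w i * |LboxL (F0 i) (F1 i) (F2 i) (N i) (p0 i) (p1 i) (p2 i)| ≤ 76800 * B := by
  -- interpolants
  set T : ι → ℤ → ℝ := fun i j => Tt (diagonal (hsL (N i) κ0)) (diagonal (hsL (N i) κ1))
    (diagonal (hsL (N i) κ2)) (bm (F0 i) (N i + N i) (p0 i) (p1 i))
    (bm (F1 i) (N i + N i) (p1 i) (p2 i))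
    (bm (F2 i) (N i + N i) (p2 i) (p0 i)) (x j) (y j) (z j) with hT
  set L : ι → ℝ := fun i => LboxL (F0 i) (F1 i) (F2 i) (N i) (p0 i) (p1 i) (p2 i) with hL
  have hbot : ∀ i ∈ S, Tendsto (fun J : ℕ => T i (-(J : ℤ))) atTop (𝓝 (L i)) := by
    intro i hi
    have h := Tt_tendsto (l := atBot) (diagonal (hsL (N i) κ0)) (diagonal (hsL (N i) κ1))
      (diagonal (hsL (N i) κ2)) (bm (F0 i) (N i + N i) (p0 i) (p1 i))
      (bm (F1 i) (N i + N i) (p1 i) (p2 i))
      (bm (F2 i) (N i + N i) (p2 i) (p0 i)) hp.xbot hp.ybot hp.zbot (fun j => (hp.xpos j).le)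
      (fun j => (hp.ypos j).le) (fun j => (hp.zpos j).le)
    rw [← LboxL_eq_trace] at h
    exact h.comp (tendsto_neg_atTop_atBot.comp tendsto_natCast_atTop_atTop)
  have htop : ∀ i ∈ S, Tendsto (fun J : ℕ => |T i (J : ℤ)|) atTop (𝓝 0) := by
    intro i hi
    refine squeeze_zero (g := fun J : ℕ => (√(x J * y J * z J))⁻¹ *
      (√(Fintype.card (Fin (N i + N i) × κ0)) * √(Fintype.card (Fin (N i + N i) × κ2)))) ?_ ?_ ?_
    · intro J; exact abs_nonneg _
    · intro J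
      have h := Tt_tail (hsL_symm (α := κ0) (N i)) (hsL_symm (α := κ1) (N i))
        (hsL_symm (α := κ2) (N i)) (hsL_sq (N i))
        (hsL_sq (N i)) (hsL_sq (N i)) (bm (F0 i) (N i + N i) (p0 i) (p1 i))
        (bm (F1 i) (N i + N i) (p1 i) (p2 i)) (bm (F2 i) (N i + N i) (p2 i) (p0 i)) (hp.xpos J)
        (hp.ypos J) (hp.zpos J)
      rw [Real.sqrt_mul (mul_pos (hp.xpos J) (hp.ypos J)).le, Real.sqrt_mul (hp.xpos J).le]
      exact h
    · have h1 : Tendsto (fun J : ℕ => √(x J * y J * z J)) atTop atTop :=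
        Real.tendsto_sqrt_atTop.comp (hp.top.comp tendsto_natCast_atTop_atTop)
      simpa using h1.inv_tendsto_atTop.mul_const
        (√(Fintype.card (Fin (N i + N i) × κ0) : ℝ) * √(Fintype.card (Fin (N i + N i) × κ2) : ℝ))
  have hmain : ∀ J : ℕ, ∑ i ∈ S, w i * |T i (-(J : ℤ))| ≤
      ∑ i ∈ S, w i * |T i (J : ℤ)| + 76800 * B := by
    intro J
    have h1 : ∀ i ∈ S, w i * |T i (-(J : ℤ))| ≤ w i * |T i (J : ℤ)| + 76800 *
        ∑ j ∈ Finset.Ico (-(J : ℤ)) J, (√(x j) * √(y j) * √(z j))⁻¹ *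
          (w i * gamsL (F0 i) (F1 i) (F2 i) (N i) (p0 i) (p1 i) (p2 i) (x j) (y j) (z j)) := by
      intro i hi
      have h2 := Tt_telescope (hsL_symm (α := κ0) (N i)) (hsL_symm (α := κ1) (N i))
        (hsL_symm (α := κ2) (N i))
        (hsL_sq (N i)) (hsL_sq (N i)) (hsL_sq (N i)) (bm (F0 i) (N i + N i) (p0 i) (p1 i))
        (bm (F1 i) (N i + N i) (p1 i) (p2 i)) (bm (F2 i) (N i + N i) (p2 i) (p0 i)) hp J
      have h3 : ∑ j ∈ Finset.Ico (-(J : ℤ)) J, (√(x j) * √(y j) * √(z j))⁻¹ *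
          Path.EE (diagonal (hsL (N i) κ0)) (diagonal (hsL (N i) κ1)) (diagonal (hsL (N i) κ2))
            (bm (F0 i) (N i + N i) (p0 i) (p1 i)) (bm (F1 i) (N i + N i) (p1 i) (p2 i))
            (bm (F2 i) (N i + N i) (p2 i) (p0 i)) (x j) (y j) (z j) ≤
          ∑ j ∈ Finset.Ico (-(J : ℤ)) J, (√(x j) * √(y j) * √(z j))⁻¹ *
            gamsL (F0 i) (F1 i) (F2 i) (N i) (p0 i) (p1 i) (p2 i) (x j) (y j) (z j) := by
        refine Finset.sum_le_sum fun j _ => mul_le_mul_of_nonneg_left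
          (EE_le_gamsL _ _ _ _ _ _ _ (hp.xpos j).le (hp.ypos j).le (hp.zpos j).le)
          (by positivity)
      have h4 : w i * |T i (-(J : ℤ))| ≤ w i * (|T i (J : ℤ)| + 76800 *
          ∑ j ∈ Finset.Ico (-(J : ℤ)) J, (√(x j) * √(y j) * √(z j))⁻¹ *
            gamsL (F0 i) (F1 i) (F2 i) (N i) (p0 i) (p1 i) (p2 i) (x j) (y j) (z j)) := by
        refine mul_le_mul_of_nonneg_left (h2.trans ?_) (hw i hi)
        linarith
      refine h4.trans (le_of_eq ?_)
      rw [mul_add]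
      congr 1
      rw [mul_left_comm, Finset.mul_sum]
      congr 1
      refine Finset.sum_congr rfl fun j _ => ?_
      ring
    refine (Finset.sum_le_sum h1).trans ?_
    rw [Finset.sum_add_distrib, ← Finset.mul_sum, Finset.sum_comm]
    have h5 := hB J
    have h6 : ∑ j ∈ Finset.Ico (-(J : ℤ)) J, ∑ i ∈ S, (√(x j) * √(y j) * √(z j))⁻¹ *
          (w i * gamsL (F0 i) (F1 i) (F2 i) (N i) (p0 i) (p1 i) (p2 i) (x j) (y j) (z j)) =
        ∑ j ∈ Finset.Ico (-(J : ℤ)) J, (√(x j) * √(y j) * √(z j))⁻¹ *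
      ∑ i ∈ S, w i * gamsL (F0 i) (F1 i) (F2 i) (N i) (p0 i) (p1 i) (p2 i) (x j) (y j) (z j) := by
      refine Finset.sum_congr rfl fun j _ => ?_
      rw [Finset.mul_sum]
    rw [h6]
    linarith
  have hlim1 : Tendsto (fun J : ℕ => ∑ i ∈ S, w i * |T i (-(J : ℤ))|) atTop
      (𝓝 (∑ i ∈ S, w i * |L i|)) :=
    tendsto_finsetSum _ fun i hi => ((hbot i hi).abs).const_mul _
  have hlim2 : Tendsto (fun J : ℕ => ∑ i ∈ S, w i * |T i (J : ℤ)| + 76800 * B) atTop
      (𝓝 (∑ i ∈ S, w i * 0 + 76800 * B)) :=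
    (tendsto_finsetSum _ fun i hi => (htop i hi).const_mul _).add_const _
  have h := le_of_tendsto_of_tendsto' hlim1 hlim2 hmain
  simpa using h

end box

end Crest.Agent.R079.PotL
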