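import Crest.Agent.R079.PL24A_242

/-! R079, LABELLED line potentials, (2,4,4): summation over the scales from a leaf scale `2^m0` with
scale dependent labelled letters, arbitrary `PathSeq`, only the changes are paid (label version of
`Tri_378`).  helper242. -/

set_option autoImplicit false
set_option linter.unusedVariables false
set_option linter.unusedSectionVars false

namespace Crest.Agent.R079.PotL

open Matrix Finset Filter Topology Crest.Agent.R072 Crest.Agent.R079.LD Crest.Agent.R079.Path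
  Crest.Agent.R072.Nd
open scoped MatrixOrder

variable {Q : ℕ} [NeZero Q] {κ0 κ1 κ2 : Type*} [Fintype κ0] [DecidableEq κ0]
  [Fintype κ1] [DecidableEq κ1] [Fintype κ2] [DecidableEq κ2]

theorem sees_scL {κ κ' : Type*} {c : ℝ} {X X' : ZMod Q → ZMod Q → Matrix κ κ' ℝ} {a : ℕ}
    {q p : ZMod Q} (h : Sees (scL c X) (scL c X') a q p) : Sees X X' a q p := by
  obtain ⟨i, j, hi, hj, hne⟩ := h
  refine ⟨i, j, hi, hj, fun h => hne ?_⟩
  unfold scL
  rw [h]

theorem sees_trL {κ κ' : Type*} {X X' : ZMod Q → ZMod Q → Matrix κ κ' ℝ} {a : ℕ}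
    {q p : ZMod Q} (h : Sees (trL X) (trL X') a q p) : Sees X X' a p q := by
  obtain ⟨i, j, hi, hj, hne⟩ := h
  refine ⟨j, i, hj, hi, fun h => hne ?_⟩
  unfold trL
  rw [h]

theorem bl_sum {ι : Type*} (s : Finset ι) (f : ι → ZMod Q → ℝ) (N : ℕ) (l : ℤ) :
    bl (fun n => ∑ j ∈ s, f j n) N l = ∑ j ∈ s, bl (f j) N l := by
  unfold bl
  rw [Finset.sum_comm, Finset.mul_sum]

theorem sum_gamsL_eq (F0 : ZMod Q → ZMod Q → Matrix κ0 κ1 ℝ)
    (F1 : ZMod Q → ZMod Q → Matrix κ1 κ2 ℝ) (F2 : ZMod Q → ZMod Q → Matrix κ2 κ0 ℝ)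
    (N : ℕ) (n : ZMod Q) {x y z : ℝ}
    (hx : 0 ≤ x) (hy : 0 ≤ y) (hz : 0 ≤ z) :
    ∑ p0 : ZMod Q, ∑ p1 : ZMod Q, gamsL F0 F1 F2 N p0 p1 (n - p0 - p1) x y z =
      GW (ldP 1 κ0) (scL √x (trL F0)) (scL √z F2) N n +
      GW (ldP 1 κ1) (scL √x F0) (scL √y (trL F1)) N n +
      GW (ldP 1 κ2) (scL √y F1) (scL √z (trL F2)) N n := by
  have h1 : GW (ldP 1 κ0) (scL √x (trL F0)) (scL √z F2) N n = ∑ p0 : ZMod Q, ∑ p1 : ZMod Q,
      gam (ldP 1 κ0).F N (x • abar (trL F0) (N + N) (N + N) p1 p0 +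
        z • abar F2 (N + N) (N + N) (n - p0 - p1) p0) := by
    unfold GW
    refine Finset.sum_congr rfl fun p _ => Finset.sum_congr rfl fun q _ => ?_
    rw [abar_scL hx, abar_scL hz]
  have h2 : GW (ldP 1 κ1) (scL √x F0) (scL √y (trL F1)) N n = ∑ p0 : ZMod Q, ∑ p1 : ZMod Q,
      gam (ldP 1 κ1).F N (y • abar (trL F1) (N + N) (N + N) (n - p0 - p1) p1 +
        x • abar F0 (N + N) (N + N) p0 p1) := by
    unfold GW
    rw [Finset.sum_comm]
    refine Finset.sum_congr rfl fun q _ => Finset.sum_congr rfl fun p _ => ?_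
    rw [abar_scL hx, abar_scL hy, add_comm, show n - p - q = n - q - p by ring]
  have h3 : GW (ldP 1 κ2) (scL √y F1) (scL √z (trL F2)) N n = ∑ p0 : ZMod Q, ∑ p1 : ZMod Q,
      gam (ldP 1 κ2).F N (z • abar (trL F2) (N + N) (N + N) p0 (n - p0 - p1) +
        y • abar F1 (N + N) (N + N) p1 (n - p0 - p1)) := by
    rw [Pot.sum_third n (fun p0 p1 p2 => gam (ldP 1 κ2).F N
      (z • abar (trL F2) (N + N) (N + N) p0 p2 +
        y • abar F1 (N + N) (N + N) p1 p2))]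
    unfold GW
    refine Finset.sum_congr rfl fun p _ => Finset.sum_congr rfl fun q _ => ?_
    rw [abar_scL hy, abar_scL hz, add_comm]
  rw [h1, h2, h3, ← Finset.sum_add_distrib, ← Finset.sum_add_distrib]
  refine Finset.sum_congr rfl fun p0 _ => ?_
  rw [← Finset.sum_add_distrib, ← Finset.sum_add_distrib]
  rfl

/-- joint potentials of a box of side `N` at parameters `x, y, z` -/
noncomputable def JVL (F0 : ZMod Q → ZMod Q → Matrix κ0 κ1 ℝ)
    (F1 : ZMod Q → ZMod Q → Matrix κ1 κ2 ℝ) (F2 : ZMod Q → ZMod Q → Matrix κ2 κ0 ℝ)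
    (N : ℕ) (p0 p1 p2 : ZMod Q) (x y z : ℝ) : ℝ :=
  LD 1 (x • abar (trL F0) N N p1 p0 + z • abar F2 N N p2 p0) +
  LD 1 (x • abar F0 N N p0 p1 + y • abar (trL F1) N N p2 p1) +
  LD 1 (y • abar F1 N N p1 p2 + z • abar (trL F2) N N p0 p2)

/-- own potentials of a box of side `a` at parameter `x` -/
noncomputable def JEL (F : ZMod Q → ZMod Q → Matrix κ0 κ1 ℝ) (a : ℕ) (q p : ZMod Q) (x : ℝ) : ℝ :=
  LD (1 / 2) (x • abar F a a q p) + LD (1 / 2) (x • abar (trL F) a a p q)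

/-- the box `(p0,p1,p2)` of side `N` sees a change -/
def Any3L (A A' : ZMod Q → ZMod Q → Matrix κ0 κ1 ℝ) (B B' : ZMod Q → ZMod Q → Matrix κ1 κ2 ℝ)
    (C C' : ZMod Q → ZMod Q → Matrix κ2 κ0 ℝ) (N : ℕ) (p0 p1 p2 : ZMod Q) : Prop :=
  Sees A A' N p0 p1 ∨ Sees B B' N p1 p2 ∨ Sees C C' N p2 p0

open Classical in
/-- change of the reference potentials of the three vertices -/
theorem vb_changeL (A A' : ZMod Q → ZMod Q → Matrix κ0 κ1 ℝ)
    (B B' : ZMod Q → ZMod Q → Matrix κ1 κ2 ℝ) (C C' : ZMod Q → ZMod Q → Matrix κ2 κ0 ℝ) {N : ℕ}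
    {x y z : ℝ} (hx : 0 ≤ x) (hy : 0 ≤ y) (hz : 0 ≤ z) :
    (Vb (ldP 1 κ0) (scL √x (trL A)) (scL √z C) N - Vb (ldP 1 κ0) (scL √x (trL A')) (scL √z C') N) +
    (Vb (ldP 1 κ1) (scL √x A) (scL √y (trL B)) N - Vb (ldP 1 κ1) (scL √x A') (scL √y (trL B')) N) +
    (Vb (ldP 1 κ2) (scL √y B) (scL √z (trL C)) N - Vb (ldP 1 κ2) (scL √y B') (scL √z (trL C')) N) ≤
    bl (fun n => ∑ p0 : ZMod Q, ∑ p1 : ZMod Q,
      if Any3L A A' B B' C C' N p0 p1 (n - p0 - p1) then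
        JVL A B C N p0 p1 (n - p0 - p1) x y z else 0) N (-2) := by
  have h1 := touchV (instLDL (α := κ0) one_pos).F (scL √x (trL A)) (scL √x (trL A')) (scL √z C)
    (scL √z C') N
    (fun n => Finset.univ.filter fun w => Any3L A A' B B' C C' N w.2 w.1 (n - w.2 - w.1)) (by
      intro n p q h
      rw [Finset.mem_filter]
      refine ⟨Finset.mem_univ _, ?_⟩
      rcases h with h | h
      · exact Or.inl (sees_trL (sees_scL h))
      · exact Or.inr (Or.inr (sees_scL h)))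
  have h2 := touchV (instLDL (α := κ1) one_pos).F (scL √x A) (scL √x A') (scL √y (trL B))
    (scL √y (trL B')) N
    (fun n => Finset.univ.filter fun w => Any3L A A' B B' C C' N w.1 w.2 (n - w.2 - w.1)) (by
      intro n p q h
      rw [Finset.mem_filter]
      refine ⟨Finset.mem_univ _, ?_⟩
      rcases h with h | h
      · exact Or.inl (sees_scL h)
      · exact Or.inr (Or.inl (sees_trL (sees_scL h))))
  have h3 := touchV (instLDL (α := κ2) one_pos).F (scL √y B) (scL √y B') (scL √z (trL C))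
    (scL √z (trL C')) N
    (fun n => Finset.univ.filter fun w => Any3L A A' B B' C C' N (n - w.2 - w.1) w.1 w.2) (by
      intro n p q h
      rw [Finset.mem_filter]
      refine ⟨Finset.mem_univ _, ?_⟩
      rcases h with h | h
      · exact Or.inr (Or.inl (sees_scL h))
      · exact Or.inr (Or.inr (sees_trL (sees_scL h))))
  refine (add_le_add (add_le_add h1 h2) h3).trans (le_of_eq ?_)
  rw [← bl_add, ← bl_add]
  congr 1
  funext n
  have e1 : ∑ w ∈ (Finset.univ.filter fun w : ZMod Q × ZMod Q =>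
        Any3L A A' B B' C C' N w.2 w.1 (n - w.2 - w.1)),
      (ldP 1 κ0).F N (abar (scL √x (trL A)) N N w.1 w.2 +
        abar (scL √z C) N N (n - w.2 - w.1) w.2) =
      ∑ p0 : ZMod Q, ∑ p1 : ZMod Q, if Any3L A A' B B' C C' N p0 p1 (n - p0 - p1) then
        LD 1 (x • abar (trL A) N N p1 p0 + z • abar C N N (n - p0 - p1) p0) else 0 := by
    rw [Finset.sum_filter, Fintype.sum_prod_type, Finset.sum_comm]
    refine Finset.sum_congr rfl fun p0 _ => Finset.sum_congr rfl fun p1 _ => ?_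
    simp only [abar_scL hx, abar_scL hz]
    rfl
  have e2 : ∑ w ∈ (Finset.univ.filter fun w : ZMod Q × ZMod Q =>
        Any3L A A' B B' C C' N w.1 w.2 (n - w.2 - w.1)),
      (ldP 1 κ1).F N (abar (scL √x A) N N w.1 w.2 +
        abar (scL √y (trL B)) N N (n - w.2 - w.1) w.2) =
      ∑ p0 : ZMod Q, ∑ p1 : ZMod Q, if Any3L A A' B B' C C' N p0 p1 (n - p0 - p1) then
        LD 1 (x • abar A N N p0 p1 + y • abar (trL B) N N (n - p0 - p1) p1) else 0 := by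
    rw [Finset.sum_filter, Fintype.sum_prod_type]
    refine Finset.sum_congr rfl fun p0 _ => Finset.sum_congr rfl fun p1 _ => ?_
    simp only [abar_scL hx, abar_scL hy]
    rw [show n - p1 - p0 = n - p0 - p1 by ring]
    rfl
  have e3 : ∑ w ∈ (Finset.univ.filter fun w : ZMod Q × ZMod Q =>
        Any3L A A' B B' C C' N (n - w.2 - w.1) w.1 w.2),
      (ldP 1 κ2).F N (abar (scL √y B) N N w.1 w.2 +
        abar (scL √z (trL C)) N N (n - w.2 - w.1) w.2) =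
      ∑ p0 : ZMod Q, ∑ p1 : ZMod Q, if Any3L A A' B B' C C' N p0 p1 (n - p0 - p1) then
        LD 1 (y • abar B N N p1 (n - p0 - p1) + z • abar (trL C) N N p0 (n - p0 - p1)) else 0 := by
    rw [Pot.sum_third n (fun p0 p1 p2 => if Any3L A A' B B' C C' N p0 p1 p2 then
        LD 1 (y • abar B N N p1 p2 + z • abar (trL C) N N p0 p2) else 0)]
    rw [Finset.sum_filter, Fintype.sum_prod_type, Finset.sum_comm]
    refine Finset.sum_congr rfl fun p2 _ => Finset.sum_congr rfl fun p1 _ => ?_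
    simp only [abar_scL hy, abar_scL hz]
    rfl
  rw [e1, e2, e3, ← Finset.sum_add_distrib, ← Finset.sum_add_distrib]
  refine Finset.sum_congr rfl fun p0 _ => ?_
  rw [← Finset.sum_add_distrib, ← Finset.sum_add_distrib]
  refine Finset.sum_congr rfl fun p1 _ => ?_
  by_cases h : Any3L A A' B B' C C' N p0 p1 (n - p0 - p1)
  · simp only [h, if_true]
    rfl
  · simp only [h, if_false, add_zero]

open Classical in
/-- change of the own potentials of one letter -/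
theorem ew_changeL (A A' : ZMod Q → ZMod Q → Matrix κ0 κ1 ℝ) (a : ℕ) {x : ℝ} (hx : 0 ≤ x) :
    (EW (ldP 1 κ0) (scL √x (trL A)) a a - EW (ldP 1 κ0) (scL √x (trL A')) a a) +
    (EW (ldP 1 κ1) (scL √x A) a a - EW (ldP 1 κ1) (scL √x A') a a) ≤
    ∑ q : ZMod Q, ∑ p : ZMod Q, if Sees A A' a q p then JEL A a q p x else 0 := by
  have h1 := touchE (instLDL (α := κ0) one_pos).E (scL √x (trL A)) (scL √x (trL A')) a
    (Finset.univ.filter fun w => Sees A A' a w.2 w.1) (by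
      intro p q h
      rw [Finset.mem_filter]
      exact ⟨Finset.mem_univ _, sees_trL (sees_scL h)⟩)
  have h2 := touchE (instLDL (α := κ1) one_pos).E (scL √x A) (scL √x A') a
    (Finset.univ.filter fun w => Sees A A' a w.1 w.2) (by
      intro p q h
      rw [Finset.mem_filter]
      exact ⟨Finset.mem_univ _, sees_scL h⟩)
  refine (add_le_add h1 h2).trans (le_of_eq ?_)
  rw [Finset.sum_filter, Finset.sum_filter, Fintype.sum_prod_type, Fintype.sum_prod_type,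
    Finset.sum_comm, ← Finset.sum_add_distrib]
  refine Finset.sum_congr rfl fun q _ => ?_
  rw [← Finset.sum_add_distrib]
  refine Finset.sum_congr rfl fun p _ => ?_
  by_cases h : Sees A A' a q p
  · simp only [h, if_true, abar_scL hx]
    unfold JEL
    rw [add_comm]
    rfl
  · simp only [h, if_false, add_zero]

theorem abar_zeroL {κ κ' : Type*} [Fintype κ] [Fintype κ'] (a r : ℕ) (q p : ZMod Q) :
    abar (fun _ _ => 0 : ZMod Q → ZMod Q → Matrix κ κ' ℝ) a r q p = 0 := by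
  ext j j'
  simp [abar]

theorem Vb_zeroL (N : ℕ) :
    Vb (ldP 1 κ0) (fun _ _ => 0 : ZMod Q → ZMod Q → Matrix κ1 κ0 ℝ)
      (fun _ _ => 0 : ZMod Q → ZMod Q → Matrix κ2 κ0 ℝ) N = 0 := by
  unfold Vb bl W
  simp [abar_zeroL, ldP, Pot.LD_zero]

theorem EE_zeroL (N : ℕ) :
    EE (ldP 1 κ0) (fun _ _ => 0 : ZMod Q → ZMod Q → Matrix κ1 κ0 ℝ)
      (fun _ _ => 0 : ZMod Q → ZMod Q → Matrix κ2 κ0 ℝ) N = 0 := by
  unfold EE EW
  simp [abar_zeroL, ldP, Pot.LD_zero]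

theorem scL_zero {κ κ' : Type*} (c : ℝ) {X : ZMod Q → ZMod Q → Matrix κ κ' ℝ}
    (h : X = fun _ _ => 0) : scL c X = fun _ _ => 0 := by
  unfold scL
  rw [h]
  simp

theorem trL_zero {κ κ' : Type*} {X : ZMod Q → ZMod Q → Matrix κ κ' ℝ} (h : X = fun _ _ => 0) :
    trL X = fun _ _ => 0 := by
  unfold trL
  rw [h]
  simp

open Classical in
/-- the three vertices together, at fixed parameters -/
theorem mask_threeL (A : ℕ → ZMod Q → ZMod Q → Matrix κ0 κ1 ℝ)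
    (B : ℕ → ZMod Q → ZMod Q → Matrix κ1 κ2 ℝ) (C : ℕ → ZMod Q → ZMod Q → Matrix κ2 κ0 ℝ)
    (hA : A 0 = fun _ _ => 0) (hB : B 0 = fun _ _ => 0) (hC : C 0 = fun _ _ => 0)
    (κ m0 M : ℕ) (l : ℤ) (hκ : 2 * |l| + 20 ≤ 2 ^ κ) {x y z : ℝ} (hx : 0 ≤ x) (hy : 0 ≤ y)
    (hz : 0 ≤ z) :
    ∑ m ∈ range M, bl (fun n => ∑ p0 : ZMod Q, ∑ p1 : ZMod Q,
      gamsL (A (m + 1)) (B (m + 1)) (C (m + 1)) (2 ^ (m0 + m)) p0 p1 (n - p0 - p1) x y z)
        (2 ^ (m0 + m)) l ≤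
    4 * ∑ m ∈ range M, bl (fun n => ∑ p0 : ZMod Q, ∑ p1 : ZMod Q,
      if Any3L (A (m + 1)) (A m) (B (m + 1)) (B m) (C (m + 1)) (C m) (2 ^ (m0 + m)) p0 p1
        (n - p0 - p1)
      then JVL (A (m + 1)) (B (m + 1)) (C (m + 1)) (2 ^ (m0 + m)) p0 p1 (n - p0 - p1) x y z
      else 0) (2 ^ (m0 + m)) (-2) +
    16 * ∑ k ∈ range κ, ∑ m ∈ range M,
      ((∑ q : ZMod Q, ∑ p : ZMod Q, if Sees (A (m + 1)) (A m) (2 ^ (m0 + m + k)) q p then
        JEL (A (m + 1)) (2 ^ (m0 + m + k)) q p x else 0) +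
      (∑ q : ZMod Q, ∑ p : ZMod Q, if Sees (B (m + 1)) (B m) (2 ^ (m0 + m + k)) q p then
        JEL (B (m + 1)) (2 ^ (m0 + m + k)) q p y else 0) +
      (∑ q : ZMod Q, ∑ p : ZMod Q, if Sees (C (m + 1)) (C m) (2 ^ (m0 + m + k)) q p then
        JEL (C (m + 1)) (2 ^ (m0 + m + k)) q p z else 0)) := by
  have h1 := mask_sum_from (instLDL (α := κ0) one_pos) (fun m => scL √x (trL (A m)))
    (fun m => scL √z (C m)) κ m0 M l hκ
  have h2 := mask_sum_from (instLDL (α := κ1) one_pos) (fun m => scL √x (A m))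
    (fun m => scL √y (trL (B m))) κ m0 M l hκ
  have h3 := mask_sum_from (instLDL (α := κ2) one_pos) (fun m => scL √y (B m))
    (fun m => scL √z (trL (C m))) κ m0 M l hκ
  simp only [scL_zero _ (trL_zero hA), scL_zero _ hC, scL_zero _ hA, scL_zero _ (trL_zero hB),
    scL_zero _ hB, scL_zero _ (trL_zero hC), Vb_zeroL, EE_zeroL, mul_zero, add_zero, mul_one]
    at h1 h2 h3
  have hL : ∀ m : ℕ, bl (fun n => ∑ p0 : ZMod Q, ∑ p1 : ZMod Q,
      gamsL (A (m + 1)) (B (m + 1)) (C (m + 1)) (2 ^ (m0 + m)) p0 p1 (n - p0 - p1) x y z)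
        (2 ^ (m0 + m)) l =
      bl (GW (ldP 1 κ0) (scL √x (trL (A (m + 1)))) (scL √z (C (m + 1))) (2 ^ (m0 + m)))
        (2 ^ (m0 + m)) l +
      bl (GW (ldP 1 κ1) (scL √x (A (m + 1))) (scL √y (trL (B (m + 1)))) (2 ^ (m0 + m)))
        (2 ^ (m0 + m)) l +
      bl (GW (ldP 1 κ2) (scL √y (B (m + 1))) (scL √z (trL (C (m + 1)))) (2 ^ (m0 + m)))
        (2 ^ (m0 + m)) l := by
    intro m
    rw [← bl_add, ← bl_add]
    congr 1
    funext n
    exact sum_gamsL_eq _ _ _ _ _ hx hy hz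
  simp only [hL]
  rw [Finset.sum_add_distrib, Finset.sum_add_distrib]
  refine (add_le_add (add_le_add h1 h2) h3).trans ?_
  have hV := Finset.sum_le_sum fun m (_ : m ∈ range M) =>
    vb_changeL (A (m + 1)) (A m) (B (m + 1)) (B m) (C (m + 1)) (C m) (N := 2 ^ (m0 + m))
      hx hy hz
  have hE : ∑ k ∈ range κ, ∑ m ∈ range M,
      ((EE (ldP 1 κ0) (scL √x (trL (A (m + 1)))) (scL √z (C (m + 1))) (2 ^ (m0 + m + k)) -
        EE (ldP 1 κ0) (scL √x (trL (A m))) (scL √z (C m)) (2 ^ (m0 + m + k))) +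
      (EE (ldP 1 κ1) (scL √x (A (m + 1))) (scL √y (trL (B (m + 1)))) (2 ^ (m0 + m + k)) -
        EE (ldP 1 κ1) (scL √x (A m)) (scL √y (trL (B m))) (2 ^ (m0 + m + k))) +
      (EE (ldP 1 κ2) (scL √y (B (m + 1))) (scL √z (trL (C (m + 1)))) (2 ^ (m0 + m + k)) -
        EE (ldP 1 κ2) (scL √y (B m)) (scL √z (trL (C m))) (2 ^ (m0 + m + k)))) ≤
      ∑ k ∈ range κ, ∑ m ∈ range M,
      ((∑ q : ZMod Q, ∑ p : ZMod Q, if Sees (A (m + 1)) (A m) (2 ^ (m0 + m + k)) q p then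
        JEL (A (m + 1)) (2 ^ (m0 + m + k)) q p x else 0) +
      (∑ q : ZMod Q, ∑ p : ZMod Q, if Sees (B (m + 1)) (B m) (2 ^ (m0 + m + k)) q p then
        JEL (B (m + 1)) (2 ^ (m0 + m + k)) q p y else 0) +
      (∑ q : ZMod Q, ∑ p : ZMod Q, if Sees (C (m + 1)) (C m) (2 ^ (m0 + m + k)) q p then
        JEL (C (m + 1)) (2 ^ (m0 + m + k)) q p z else 0)) := by
    refine Finset.sum_le_sum fun k _ => Finset.sum_le_sum fun m _ => ?_
    have a1 := ew_changeL (A (m + 1)) (A m) (2 ^ (m0 + m + k)) hx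
    have a2 := ew_changeL (B (m + 1)) (B m) (2 ^ (m0 + m + k)) hy
    have a3 := ew_changeL (C (m + 1)) (C m) (2 ^ (m0 + m + k)) hz
    unfold EE
    linarith
  simp only [Finset.sum_add_distrib] at hV hE ⊢
  linarith

/-- the boxes of all scales `m0 + m`, `m < M`, and all offsets of the block `l` -/
noncomputable def idxL (Q : ℕ) [NeZero Q] (m0 M : ℕ) : Finset (Σ _ : ℕ, ℕ × ZMod Q × ZMod Q) :=
  (range M).sigma fun m => (range (2 ^ (m0 + m))) ×ˢ (Finset.univ ×ˢ Finset.univ)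

theorem sum_idxL (m0 M : ℕ) (l : ℤ) (f : ℕ → ZMod Q → ZMod Q → ZMod Q → ℝ) :
    ∑ i ∈ idxL Q m0 M, (1 / ((2 ^ (m0 + i.1) : ℕ) : ℝ)) * f i.1 i.2.2.1 i.2.2.2
      ((l : ZMod Q) * ((2 ^ (m0 + i.1) : ℕ) : ZMod Q) + (i.2.1 : ZMod Q) - i.2.2.1 - i.2.2.2) =
    ∑ m ∈ range M, bl (fun n => ∑ p0 : ZMod Q, ∑ p1 : ZMod Q, f m p0 p1 (n - p0 - p1))
      (2 ^ (m0 + m)) l := by
  unfold idxL
  rw [Finset.sum_sigma]
  refine Finset.sum_congr rfl fun m _ => ?_
  unfold bl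
  rw [Finset.sum_product, Finset.mul_sum]
  refine Finset.sum_congr rfl fun i _ => ?_
  rw [Finset.sum_product, Finset.mul_sum]
  refine Finset.sum_congr rfl fun p0 _ => ?_
  rw [Finset.mul_sum]

open Classical in
/-- **(TRI, labels)** for an arbitrary path, with abstract budgets of the boxes which see a change -/
theorem tri_pathL (A : ℕ → ZMod Q → ZMod Q → Matrix κ0 κ1 ℝ)
    (B : ℕ → ZMod Q → ZMod Q → Matrix κ1 κ2 ℝ) (C : ℕ → ZMod Q → ZMod Q → Matrix κ2 κ0 ℝ)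
    (hA : A 0 = fun _ _ => 0) (hB : B 0 = fun _ _ => 0) (hC : C 0 = fun _ _ => 0)
    (κ m0 M : ℕ) (l : ℤ)
    (hκ : 2 * |l| + 20 ≤ 2 ^ κ) {x y z : ℤ → ℝ} (hp : PathSeq x y z)
    (GV : ℕ → ZMod Q → ZMod Q → ZMod Q → ℝ) (GA GB GC : ℕ → ℕ → ZMod Q → ZMod Q → ℝ)
    (hV : ∀ m ∈ range M, ∀ p0 p1 p2 : ZMod Q,
      Any3L (A (m + 1)) (A m) (B (m + 1)) (B m) (C (m + 1)) (C m) (2 ^ (m0 + m)) p0 p1 p2 →
      ∀ J : ℕ, ∑ j ∈ Finset.Ico (-(J : ℤ)) J, (√(x j) * √(y j) * √(z j))⁻¹ *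
        JVL (A (m + 1)) (B (m + 1)) (C (m + 1)) (2 ^ (m0 + m)) p0 p1 p2 (x j) (y j) (z j) ≤
      GV m p0 p1 p2)
    (hGA : ∀ m ∈ range M, ∀ k ∈ range κ, ∀ q p : ZMod Q,
      Sees (A (m + 1)) (A m) (2 ^ (m0 + m + k)) q p → ∀ J : ℕ,
      ∑ j ∈ Finset.Ico (-(J : ℤ)) J, (√(x j) * √(y j) * √(z j))⁻¹ *
        JEL (A (m + 1)) (2 ^ (m0 + m + k)) q p (x j) ≤ GA m k q p)
    (hGB : ∀ m ∈ range M, ∀ k ∈ range κ, ∀ q p : ZMod Q,
      Sees (B (m + 1)) (B m) (2 ^ (m0 + m + k)) q p → ∀ J : ℕ,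
      ∑ j ∈ Finset.Ico (-(J : ℤ)) J, (√(x j) * √(y j) * √(z j))⁻¹ *
        JEL (B (m + 1)) (2 ^ (m0 + m + k)) q p (y j) ≤ GB m k q p)
    (hGC : ∀ m ∈ range M, ∀ k ∈ range κ, ∀ q p : ZMod Q,
      Sees (C (m + 1)) (C m) (2 ^ (m0 + m + k)) q p → ∀ J : ℕ,
      ∑ j ∈ Finset.Ico (-(J : ℤ)) J, (√(x j) * √(y j) * √(z j))⁻¹ *
        JEL (C (m + 1)) (2 ^ (m0 + m + k)) q p (z j) ≤ GC m k q p) :
    ∑ m ∈ range M, bl (fun n => ∑ p0 : ZMod Q, ∑ p1 : ZMod Q,
      |LboxL (A (m + 1)) (B (m + 1)) (C (m + 1)) (2 ^ (m0 + m)) p0 p1 (n - p0 - p1)|)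
        (2 ^ (m0 + m)) l ≤
    76800 * (4 * ∑ m ∈ range M, bl (fun n => ∑ p0 : ZMod Q, ∑ p1 : ZMod Q,
      if Any3L (A (m + 1)) (A m) (B (m + 1)) (B m) (C (m + 1)) (C m) (2 ^ (m0 + m)) p0 p1
        (n - p0 - p1)
      then GV m p0 p1 (n - p0 - p1) else 0) (2 ^ (m0 + m)) (-2) +
    16 * ∑ k ∈ range κ, ∑ m ∈ range M,
      ((∑ q : ZMod Q, ∑ p : ZMod Q, if Sees (A (m + 1)) (A m) (2 ^ (m0 + m + k)) q p then
        GA m k q p else 0) +
      (∑ q : ZMod Q, ∑ p : ZMod Q, if Sees (B (m + 1)) (B m) (2 ^ (m0 + m + k)) q p then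
        GB m k q p else 0) +
      (∑ q : ZMod Q, ∑ p : ZMod Q, if Sees (C (m + 1)) (C m) (2 ^ (m0 + m + k)) q p then
        GC m k q p else 0))) := by
  rw [← sum_idxL m0 M l (fun m p0 p1 p2 =>
    |LboxL (A (m + 1)) (B (m + 1)) (C (m + 1)) (2 ^ (m0 + m)) p0 p1 p2|)]
  refine LboxL_path (idxL Q m0 M) (fun i => 1 / ((2 ^ (m0 + i.1) : ℕ) : ℝ))
    (fun i _ => by positivity)
    (fun i => A (i.1 + 1)) (fun i => B (i.1 + 1)) (fun i => C (i.1 + 1)) (fun i => 2 ^ (m0 + i.1))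
    (fun i => i.2.2.1) (fun i => i.2.2.2)
    (fun i => (l : ZMod Q) * ((2 ^ (m0 + i.1) : ℕ) : ZMod Q) + (i.2.1 : ZMod Q) - i.2.2.1 -
      i.2.2.2) hp _ fun J => ?_
  set w : ℤ → ℝ := fun j => (√(x j) * √(y j) * √(z j))⁻¹ with hw
  have hw0 : ∀ j, 0 ≤ w j := fun j => by positivity
  have h1 : ∀ j ∈ Finset.Ico (-(J : ℤ)) J, (√(x j) * √(y j) * √(z j))⁻¹ *
      ∑ i ∈ idxL Q m0 M, 1 / ((2 ^ (m0 + i.1) : ℕ) : ℝ) *
        gamsL (A (i.1 + 1)) (B (i.1 + 1)) (C (i.1 + 1))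
        (2 ^ (m0 + i.1)) i.2.2.1 i.2.2.2
        ((l : ZMod Q) * ((2 ^ (m0 + i.1) : ℕ) : ZMod Q) + (i.2.1 : ZMod Q) - i.2.2.1 - i.2.2.2)
        (x j) (y j) (z j) ≤
      4 * ∑ m ∈ range M, bl (fun n => ∑ p0 : ZMod Q, ∑ p1 : ZMod Q,
      if Any3L (A (m + 1)) (A m) (B (m + 1)) (B m) (C (m + 1)) (C m) (2 ^ (m0 + m)) p0 p1
        (n - p0 - p1)
      then w j * JVL (A (m + 1)) (B (m + 1)) (C (m + 1)) (2 ^ (m0 + m)) p0 p1 (n - p0 - p1)
        (x j) (y j) (z j)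
      else 0) (2 ^ (m0 + m)) (-2) +
      16 * ∑ k ∈ range κ, ∑ m ∈ range M,
      ((∑ q : ZMod Q, ∑ p : ZMod Q, if Sees (A (m + 1)) (A m) (2 ^ (m0 + m + k)) q p then
        w j * JEL (A (m + 1)) (2 ^ (m0 + m + k)) q p (x j) else 0) +
      (∑ q : ZMod Q, ∑ p : ZMod Q, if Sees (B (m + 1)) (B m) (2 ^ (m0 + m + k)) q p then
        w j * JEL (B (m + 1)) (2 ^ (m0 + m + k)) q p (y j) else 0) +
      (∑ q : ZMod Q, ∑ p : ZMod Q, if Sees (C (m + 1)) (C m) (2 ^ (m0 + m + k)) q p then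
        w j * JEL (C (m + 1)) (2 ^ (m0 + m + k)) q p (z j) else 0)) := by
    intro j _
    rw [sum_idxL m0 M l (fun m p0 p1 p2 =>
      gamsL (A (m + 1)) (B (m + 1)) (C (m + 1)) (2 ^ (m0 + m)) p0 p1 p2 (x j) (y j) (z j))]
    have h := mul_le_mul_of_nonneg_left (mask_threeL A B C hA hB hC κ m0 M l hκ (hp.xpos j).le
      (hp.ypos j).le (hp.zpos j).le) (hw0 j)
    refine h.trans (le_of_eq ?_)
    rw [mul_add, mul_left_comm, mul_left_comm (w j) 16]
    congr 2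
    · rw [Finset.mul_sum]
      refine Finset.sum_congr rfl fun m _ => ?_
      rw [← bl_const_mul]
      congr 1
      funext n
      rw [Finset.mul_sum]
      refine Finset.sum_congr rfl fun p0 _ => ?_
      rw [Finset.mul_sum]
      refine Finset.sum_congr rfl fun p1 _ => ?_
      rw [mul_ite, mul_zero]
    · rw [Finset.mul_sum]
      refine Finset.sum_congr rfl fun k _ => ?_
      rw [Finset.mul_sum]
      refine Finset.sum_congr rfl fun m _ => ?_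
      rw [mul_add, mul_add]
      congr 2
      all_goals
        rw [Finset.mul_sum]
        refine Finset.sum_congr rfl fun p0 _ => ?_
        rw [Finset.mul_sum]
        refine Finset.sum_congr rfl fun p1 _ => ?_
        rw [mul_ite, mul_zero]
  refine (Finset.sum_le_sum h1).trans ?_
  rw [Finset.sum_add_distrib, ← Finset.mul_sum, ← Finset.mul_sum]
  refine add_le_add (mul_le_mul_of_nonneg_left ?_ (by norm_num))
    (mul_le_mul_of_nonneg_left ?_ (by norm_num))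
  · rw [Finset.sum_comm]
    refine Finset.sum_le_sum fun m hm => ?_
    rw [← bl_sum]
    refine bl_mono (fun n => ?_) _ _
    rw [Finset.sum_comm]
    refine Finset.sum_le_sum fun p0 _ => ?_
    rw [Finset.sum_comm]
    refine Finset.sum_le_sum fun p1 _ => ?_
    by_cases h : Any3L (A (m + 1)) (A m) (B (m + 1)) (B m) (C (m + 1)) (C m) (2 ^ (m0 + m)) p0 p1
      (n - p0 - p1)
    · simp only [h, if_true]
      exact hV m hm _ _ _ h J
    · simp only [h, if_false, Finset.sum_const_zero, le_refl]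
  · rw [Finset.sum_comm]
    refine Finset.sum_le_sum fun k hk => ?_
    rw [Finset.sum_comm]
    refine Finset.sum_le_sum fun m hm => ?_
    rw [Finset.sum_add_distrib, Finset.sum_add_distrib]
    refine add_le_add (add_le_add ?_ ?_) ?_
    · rw [Finset.sum_comm]
      refine Finset.sum_le_sum fun q _ => ?_
      rw [Finset.sum_comm]
      refine Finset.sum_le_sum fun p _ => ?_
      by_cases h : Sees (A (m + 1)) (A m) (2 ^ (m0 + m + k)) q p
      · simp only [h, if_true]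
        exact hGA m hm k hk _ _ h J
      · simp only [h, if_false, Finset.sum_const_zero, le_refl]
    · rw [Finset.sum_comm]
      refine Finset.sum_le_sum fun q _ => ?_
      rw [Finset.sum_comm]
      refine Finset.sum_le_sum fun p _ => ?_
      by_cases h : Sees (B (m + 1)) (B m) (2 ^ (m0 + m + k)) q p
      · simp only [h, if_true]
        exact hGB m hm k hk _ _ h J
      · simp only [h, if_false, Finset.sum_const_zero, le_refl]
    · rw [Finset.sum_comm]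
      refine Finset.sum_le_sum fun q _ => ?_
      rw [Finset.sum_comm]
      refine Finset.sum_le_sum fun p _ => ?_
      by_cases h : Sees (C (m + 1)) (C m) (2 ^ (m0 + m + k)) q p
      · simp only [h, if_true]
        exact hGC m hm k hk _ _ h J
      · simp only [h, if_false, Finset.sum_const_zero, le_refl]

end Crest.Agent.R079.PotL
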