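import Crest.Agent.R079.PL24B_242
import Crest.Agent.R079.Tri24_815

/-! R079, LABELLED line potentials, (2,4,4): budgets of the path (label version of `PathSum_815` and
`Tri24_815`).  Final statements: `tri_budL`, `tri244L`, **`tri24L`** (scale dependent letters, only
changes are paid) and **`tri24L_static`** (static letters, leaf scale `2^m0`).  The constants do not
see labels, `Q`, `M`, `m0`.  helper242. -/

set_option autoImplicit false
set_option linter.unusedVariables false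
set_option linter.unusedSectionVars false

namespace Crest.Agent.R079.PotL

open Matrix Finset Filter Topology Crest.Agent.R072 Crest.Agent.R079.LD Crest.Agent.R079.Path
  Crest.Agent.R072.Nd
open scoped MatrixOrder

section mat

variable {n : Type*} [Fintype n] [DecidableEq n]

theorem LDt_le_minL {M : Matrix n n ℝ} (hM : M.PosSemidef) {c : ℝ}
    (hc : 0 ≤ c) : LD 1 (c • M) ≤ min (c * trace M) (c ^ 2 * trace (M * M)) := by
  have hcM : (c • M).PosSemidef := hM.smul hc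
  have h1 := LD_le_trace one_pos hcM.nonneg
  have h2 := LD_le_sq one_pos hcM.nonneg
  rw [trace_smul, smul_eq_mul] at h1
  rw [Matrix.smul_mul, Matrix.mul_smul, smul_smul, trace_smul, smul_eq_mul] at h2
  rw [inv_one, one_mul] at h1
  rw [inv_one, one_pow, one_mul] at h2
  rw [sq]
  exact le_min h1 h2

theorem LDh_le_minL {M : Matrix n n ℝ} (hM : M.PosSemidef) {c : ℝ}
    (hc : 0 ≤ c) : LD (1 / 2) (c • M) ≤ 4 * min (c * trace M) (c ^ 2 * trace (M * M)) := by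
  have hcM : (c • M).PosSemidef := hM.smul hc
  have h1 := LD_le_trace (t := 1 / 2) (by norm_num) hcM.nonneg
  have h2 := LD_le_sq (t := 1 / 2) (by norm_num) hcM.nonneg
  have h0 : 0 ≤ trace (c • M) := hcM.trace_nonneg
  rw [trace_smul, smul_eq_mul] at h1 h0
  rw [Matrix.smul_mul, Matrix.mul_smul, smul_smul, trace_smul, smul_eq_mul] at h2
  rw [mul_min_of_nonneg _ _ (by norm_num : (0 : ℝ) ≤ 4), sq c]
  refine le_min ?_ ?_
  · refine h1.trans ?_
    rw [show ((1 / 2 : ℝ))⁻¹ = 2 by norm_num]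
    linarith
  · refine h2.trans ?_
    rw [show ((1 / 2 : ℝ))⁻¹ ^ 2 = 4 by norm_num]

theorem trace_sq_nonnegL {M : Matrix n n ℝ} (hM : M.PosSemidef) : 0 ≤ trace (M * M) := by
  have h : M * M = Mᴴ * M := by rw [hM.1.eq]
  rw [h]
  exact (posSemidef_conjTranspose_mul_self M).trace_nonneg

theorem trace_sq_leL {M : Matrix n n ℝ} (hM : M.PosSemidef) : trace (M * M) ≤ trace M ^ 2 := by
  have hsym : ∀ i j, M i j = M j i := fun i j => by
    have := hM.1.apply i j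
    simpa using this.symm
  have hd : ∀ i, 0 ≤ M i i := fun i => hM.diag_nonneg
  have h2 : ∀ i j, M i j * M j i ≤ M i i * M j j := by
    intro i j
    rw [hsym j i]
    have h := hM.dotProduct_mulVec_nonneg
      (fun k => M j j * (if k = i then 1 else 0) - M i j * (if k = j then 1 else 0))
    have h3 : star (fun k => M j j * (if k = i then 1 else 0) - M i j * (if k = j then 1 else 0)) ⬝ᵥ
        M *ᵥ (fun k => M j j * (if k = i then 1 else 0) - M i j * (if k = j then 1 else 0)) =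
        M j j * (M j j * M i i - M i j * M i j) := by
      simp only [dotProduct, mulVec, star_trivial, mul_sub, sub_mul, Finset.sum_sub_distrib,
        mul_ite, mul_one, mul_zero, ite_mul, zero_mul, Finset.sum_ite_eq', Finset.mem_univ, if_true]
      rw [hsym j i]
      ring
    rw [h3] at h
    rcases (hd j).eq_or_lt with h4 | h4
    · -- `M j j = 0` forces `M i j = 0`
      have h5 : ∀ c : ℝ, 0 ≤ M i i + 2 * c * M i j := by
        intro c
        have h6 := hM.dotProduct_mulVec_nonneg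
          (fun k => (if k = i then 1 else 0) + c * (if k = j then 1 else 0))
        have h7 : star (fun k => (if k = i then (1 : ℝ) else 0) + c * (if k = j then 1 else 0)) ⬝ᵥ
            M *ᵥ (fun k => (if k = i then 1 else 0) + c * (if k = j then 1 else 0)) =
            M i i + 2 * c * M i j + c ^ 2 * M j j := by
          simp only [dotProduct, mulVec, star_trivial, mul_add, add_mul, Finset.sum_add_distrib,
            mul_ite, mul_one, mul_zero, ite_mul, zero_mul, one_mul, Finset.sum_ite_eq',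
            Finset.mem_univ, if_true]
          rw [hsym j i]
          ring
        rw [h7, ← h4, mul_zero, add_zero] at h6
        exact h6
      have h8 : M i j = 0 := by
        by_contra hne
        have := h5 (-(M i i + 1) / (2 * M i j))
        have e : M i i + 2 * (-(M i i + 1) / (2 * M i j)) * M i j = -1 := by
          field_simp
          ring
        rw [e] at this
        linarith
      rw [h8, mul_zero]
      exact mul_nonneg (hd i) (hd j)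
    · have := nonneg_of_mul_nonneg_right h h4
      linarith
  rw [sq]
  unfold trace
  simp only [Matrix.diag_apply, Matrix.mul_apply]
  rw [Finset.sum_mul_sum]
  exact Finset.sum_le_sum fun i _ => Finset.sum_le_sum fun j _ => h2 i j

/-- one joint potential -/
theorem bud_jointL {w c d : ℤ → ℝ} {S T : ℝ → ℝ → ℝ} (hw : ∀ j, 0 ≤ w j) (hc0 : ∀ j, 0 ≤ c j)
    (hd0 : ∀ j, 0 ≤ d j) (hc : Pot.Bud w c S) (hd : Pot.Bud w d T)
    (U V : Matrix n n ℝ) (hU : U.PosSemidef) (hV : V.PosSemidef) {a a4 b b4 : ℝ}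
    (ha : trace U = a) (ha4 : trace (U * U) = a4) (hb : trace V = b) (hb4 : trace (V * V) = b4)
    (J : ℕ) :
    ∑ j ∈ Finset.Ico (-(J : ℤ)) J, w j * LD 1 (c j • U + d j • V) ≤
      2 * (S a a4 + T b b4) := by
  have h0a : 0 ≤ a := ha ▸ hU.trace_nonneg
  have h0b : 0 ≤ b := hb ▸ hV.trace_nonneg
  have h0a4 : 0 ≤ a4 := ha4 ▸ trace_sq_nonnegL hU
  have h0b4 : 0 ≤ b4 := hb4 ▸ trace_sq_nonnegL hV
  have h1 : ∀ j, w j * LD 1 (c j • U + d j • V) ≤
      2 * (w j * min (c j * a) (c j ^ 2 * a4) + w j * min (d j * b) (d j ^ 2 * b4)) := by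
    intro j
    have h2 := LD_add_le one_pos (hU.smul (hc0 j)).nonneg (hV.smul (hd0 j)).nonneg
    have h3 := LDt_le_minL hU (hc0 j)
    have h4 := LDt_le_minL hV (hd0 j)
    rw [ha, ha4] at h3
    rw [hb, hb4] at h4
    calc w j * LD 1 (c j • U + d j • V)
        ≤ w j * (2 * (min (c j * a) (c j ^ 2 * a4) + min (d j * b) (d j ^ 2 * b4))) :=
          mul_le_mul_of_nonneg_left (by linarith) (hw j)
      _ = _ := by ring
  refine (Finset.sum_le_sum fun j _ => h1 j).trans ?_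
  rw [← Finset.mul_sum, Finset.sum_add_distrib]
  have h5 := hc a a4 h0a h0a4 J
  have h6 := hd b b4 h0b h0b4 J
  linarith

/-- one own potential -/
theorem bud_ownL {w c : ℤ → ℝ} {S : ℝ → ℝ → ℝ} (hw : ∀ j, 0 ≤ w j) (hc0 : ∀ j, 0 ≤ c j)
    (hc : Pot.Bud w c S) (U : Matrix n n ℝ) (hU : U.PosSemidef) {a a4 : ℝ}
    (ha : trace U = a) (ha4 : trace (U * U) = a4) (J : ℕ) :
    ∑ j ∈ Finset.Ico (-(J : ℤ)) J, w j * LD (1 / 2) (c j • U) ≤ 4 * S a a4 := by
  have h0a : 0 ≤ a := ha ▸ hU.trace_nonneg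
  have h0a4 : 0 ≤ a4 := ha4 ▸ trace_sq_nonnegL hU
  have h1 : ∀ j, w j * LD (1 / 2) (c j • U) ≤
      4 * (w j * min (c j * a) (c j ^ 2 * a4)) := by
    intro j
    have h3 := LDh_le_minL hU (hc0 j)
    rw [ha, ha4] at h3
    calc w j * LD (1 / 2) (c j • U) ≤ w j * (4 * min (c j * a) (c j ^ 2 * a4)) :=
          mul_le_mul_of_nonneg_left h3 (hw j)
      _ = _ := by ring
  refine (Finset.sum_le_sum fun j _ => h1 j).trans ?_
  rw [← Finset.mul_sum]
  have h5 := hc a a4 h0a h0a4 J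
  linarith

end mat

section box

variable {Q : ℕ} [NeZero Q] {κ0 κ1 κ2 : Type*} [Fintype κ0] [DecidableEq κ0]
  [Fintype κ1] [DecidableEq κ1] [Fintype κ2] [DecidableEq κ2]

/-- normalised Hilbert-Schmidt norm squared of a labelled box -/
noncomputable def bxL (F : ZMod Q → ZMod Q → Matrix κ0 κ1 ℝ) (a : ℕ) (q p : ZMod Q) : ℝ :=
  trace (abar F a a q p)

/-- fourth power of the normalised Schatten-4 norm of a labelled box -/
noncomputable def q4L (F : ZMod Q → ZMod Q → Matrix κ0 κ1 ℝ) (a : ℕ) (q p : ZMod Q) : ℝ :=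
  trace (abar F a a q p * abar F a a q p)

theorem bxL_nonneg (F : ZMod Q → ZMod Q → Matrix κ0 κ1 ℝ) (a : ℕ) (q p : ZMod Q) :
    0 ≤ bxL F a q p := (abar_posSemidef _ _ _ _ _).trace_nonneg

theorem q4L_nonneg (F : ZMod Q → ZMod Q → Matrix κ0 κ1 ℝ) (a : ℕ) (q p : ZMod Q) :
    0 ≤ q4L F a q p := trace_sq_nonnegL (abar_posSemidef _ _ _ _ _)

theorem q4L_le_bxL_sq (F : ZMod Q → ZMod Q → Matrix κ0 κ1 ℝ) (a : ℕ) (q p : ZMod Q) :
    q4L F a q p ≤ bxL F a q p ^ 2 := trace_sq_leL (abar_posSemidef _ _ _ _ _)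

/-- explicit form of `bxL` -/
theorem bxL_eq (F : ZMod Q → ZMod Q → Matrix κ0 κ1 ℝ) (a : ℕ) (q p : ZMod Q) :
    bxL F a q p = (1 / ((a : ℝ) * a)) * ∑ i ∈ range a, ∑ j ∈ range a,
      hs2 (F (q + (i : ZMod Q)) (p + (j : ZMod Q))) := by
  have e1 : bxL F a q p = ∑ j : Fin a, ∑ s : κ1, (1 / ((a : ℝ) * a)) *
      ∑ i ∈ range a, ∑ l : κ0, F (q + (i : ZMod Q)) (p + ((j : ℕ) : ZMod Q)) l s *
        F (q + (i : ZMod Q)) (p + ((j : ℕ) : ZMod Q)) l s := by
    show trace (abar F a a q p) = _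
    rw [trace, Fintype.sum_prod_type]
    rfl
  rw [e1]
  simp only [← Finset.mul_sum]
  congr 1
  rw [Finset.sum_comm (s := range a) (t := range a)]
  rw [Finset.sum_range (fun j => ∑ i ∈ range a,
    hs2 (F (q + (i : ZMod Q)) (p + (j : ZMod Q))))]
  refine Finset.sum_congr rfl fun j _ => ?_
  rw [Finset.sum_comm]
  refine Finset.sum_congr rfl fun i _ => ?_
  unfold hs2
  rw [Finset.sum_comm]
  refine Finset.sum_congr rfl fun l _ => Finset.sum_congr rfl fun s _ => ?_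
  ring

theorem abar_trL_eq (F : ZMod Q → ZMod Q → Matrix κ0 κ1 ℝ) (a : ℕ) (q p : ZMod Q) :
    abar (trL F) a a p q = bm F a q p * (bm F a q p)ᵀ := (bm_mul_transpose F a q p).symm

theorem bxL_tr (F : ZMod Q → ZMod Q → Matrix κ0 κ1 ℝ) (a : ℕ) (q p : ZMod Q) :
    bxL (trL F) a p q = bxL F a q p := by
  unfold bxL
  rw [abar_trL_eq, ← transpose_mul_bm F a q p, trace_mul_comm]

theorem q4L_tr (F : ZMod Q → ZMod Q → Matrix κ0 κ1 ℝ) (a : ℕ) (q p : ZMod Q) :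
    q4L (trL F) a p q = q4L F a q p := by
  unfold q4L
  rw [abar_trL_eq, ← transpose_mul_bm F a q p]
  rw [Matrix.mul_assoc (bm F a q p), trace_mul_comm (bm F a q p)]
  simp only [Matrix.mul_assoc]

/-- budget of the joint potentials -/
theorem bud_JVL {x y z : ℤ → ℝ} (hp : PathSeq x y z) {SA SB SC : ℝ → ℝ → ℝ}
    (hA : Pot.Bud (fun j => (√(x j) * √(y j) * √(z j))⁻¹) x SA)
    (hB : Pot.Bud (fun j => (√(x j) * √(y j) * √(z j))⁻¹) y SB)
    (hC : Pot.Bud (fun j => (√(x j) * √(y j) * √(z j))⁻¹) z SC)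
    (F0 : ZMod Q → ZMod Q → Matrix κ0 κ1 ℝ) (F1 : ZMod Q → ZMod Q → Matrix κ1 κ2 ℝ)
    (F2 : ZMod Q → ZMod Q → Matrix κ2 κ0 ℝ) (N : ℕ) (p0 p1 p2 : ZMod Q) (J : ℕ) :
    ∑ j ∈ Finset.Ico (-(J : ℤ)) J, (√(x j) * √(y j) * √(z j))⁻¹ *
      JVL F0 F1 F2 N p0 p1 p2 (x j) (y j) (z j) ≤
    4 * (SA (bxL F0 N p0 p1) (q4L F0 N p0 p1) + SB (bxL F1 N p1 p2) (q4L F1 N p1 p2) +
      SC (bxL F2 N p2 p0) (q4L F2 N p2 p0)) := by
  have hw : ∀ j, 0 ≤ (fun j => (√(x j) * √(y j) * √(z j))⁻¹) j := fun j => by positivity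
  have hx := fun j => (hp.xpos j).le
  have hy := fun j => (hp.ypos j).le
  have hz := fun j => (hp.zpos j).le
  have h1 := bud_jointL hw hx hz hA hC (abar (trL F0) N N p1 p0) (abar F2 N N p2 p0)
    (abar_posSemidef _ _ _ _ _) (abar_posSemidef _ _ _ _ _) (bxL_tr F0 N p0 p1) (q4L_tr F0 N p0 p1)
    (rfl : trace (abar F2 N N p2 p0) = bxL F2 N p2 p0) (rfl : _ = q4L F2 N p2 p0) J
  have h2 := bud_jointL hw hx hy hA hB (abar F0 N N p0 p1) (abar (trL F1) N N p2 p1)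
    (abar_posSemidef _ _ _ _ _) (abar_posSemidef _ _ _ _ _)
    (rfl : trace (abar F0 N N p0 p1) = bxL F0 N p0 p1) (rfl : _ = q4L F0 N p0 p1)
    (bxL_tr F1 N p1 p2) (q4L_tr F1 N p1 p2) J
  have h3 := bud_jointL hw hy hz hB hC (abar F1 N N p1 p2) (abar (trL F2) N N p0 p2)
    (abar_posSemidef _ _ _ _ _) (abar_posSemidef _ _ _ _ _)
    (rfl : trace (abar F1 N N p1 p2) = bxL F1 N p1 p2) (rfl : _ = q4L F1 N p1 p2)
    (bxL_tr F2 N p2 p0) (q4L_tr F2 N p2 p0) J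
  have e : ∑ j ∈ Finset.Ico (-(J : ℤ)) J, (√(x j) * √(y j) * √(z j))⁻¹ *
      JVL F0 F1 F2 N p0 p1 p2 (x j) (y j) (z j) =
      ∑ j ∈ Finset.Ico (-(J : ℤ)) J, (√(x j) * √(y j) * √(z j))⁻¹ *
        LD 1 (x j • abar (trL F0) N N p1 p0 + z j • abar F2 N N p2 p0) +
      ∑ j ∈ Finset.Ico (-(J : ℤ)) J, (√(x j) * √(y j) * √(z j))⁻¹ *
        LD 1 (x j • abar F0 N N p0 p1 + y j • abar (trL F1) N N p2 p1) +
      ∑ j ∈ Finset.Ico (-(J : ℤ)) J, (√(x j) * √(y j) * √(z j))⁻¹ *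
        LD 1 (y j • abar F1 N N p1 p2 + z j • abar (trL F2) N N p0 p2) := by
    rw [← Finset.sum_add_distrib, ← Finset.sum_add_distrib]
    refine Finset.sum_congr rfl fun j _ => ?_
    unfold JVL
    ring
  rw [e]
  simp only [bxL, q4L] at h1 h2 h3 ⊢
  linarith

/-- budget of the own potentials -/
theorem bud_JEL {w c : ℤ → ℝ} {S : ℝ → ℝ → ℝ} (hw : ∀ j, 0 ≤ w j) (hc0 : ∀ j, 0 ≤ c j)
    (hc : Pot.Bud w c S) (F : ZMod Q → ZMod Q → Matrix κ0 κ1 ℝ) (a : ℕ) (q p : ZMod Q) (J : ℕ) :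
    ∑ j ∈ Finset.Ico (-(J : ℤ)) J, w j * JEL F a q p (c j) ≤
      8 * S (bxL F a q p) (q4L F a q p) := by
  have h1 := bud_ownL hw hc0 hc (abar F a a q p) (abar_posSemidef _ _ _ _ _)
    (rfl : trace (abar F a a q p) = bxL F a q p) (rfl : _ = q4L F a q p) J
  have h2 := bud_ownL hw hc0 hc (abar (trL F) a a p q) (abar_posSemidef _ _ _ _ _)
    (bxL_tr F a q p) (q4L_tr F a q p) J
  have e : ∑ j ∈ Finset.Ico (-(J : ℤ)) J, w j * JEL F a q p (c j) =
      ∑ j ∈ Finset.Ico (-(J : ℤ)) J, w j * LD (1 / 2) (c j • abar F a a q p) +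
      ∑ j ∈ Finset.Ico (-(J : ℤ)) J, w j * LD (1 / 2) (c j • abar (trL F) a a p q) := by
    rw [← Finset.sum_add_distrib]
    refine Finset.sum_congr rfl fun j _ => ?_
    unfold JEL
    ring
  rw [e]
  simp only [bxL, q4L] at h1 h2 ⊢
  linarith

open Classical in
/-- exit value of the joint potentials with budgets `GA, GB, GC` (functions of a labelled box) -/
noncomputable def VSL (SA SB SC : ℝ → ℝ → ℝ) (A A' : ZMod Q → ZMod Q → Matrix κ0 κ1 ℝ)
    (B B' : ZMod Q → ZMod Q → Matrix κ1 κ2 ℝ) (C C' : ZMod Q → ZMod Q → Matrix κ2 κ0 ℝ)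
    (N : ℕ) : ℝ :=
  bl (fun n => ∑ p0 : ZMod Q, ∑ p1 : ZMod Q,
    if Any3L A A' B B' C C' N p0 p1 (n - p0 - p1) then
      SA (bxL A N p0 p1) (q4L A N p0 p1) +
      SB (bxL B N p1 (n - p0 - p1)) (q4L B N p1 (n - p0 - p1)) +
      SC (bxL C N (n - p0 - p1) p0) (q4L C N (n - p0 - p1) p0)
    else 0) N (-2)

open Classical in
/-- exit value of an own potential with budget `S` -/
noncomputable def ESL (S : ℝ → ℝ → ℝ) (A A' : ZMod Q → ZMod Q → Matrix κ0 κ1 ℝ) (N : ℕ) : ℝ :=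
  ∑ q : ZMod Q, ∑ p : ZMod Q, if Sees A A' N q p then S (bxL A N q p) (q4L A N q p) else 0

theorem VSL_mono {SA SB SC TA TB TC : ℝ → ℝ → ℝ} (A A' : ZMod Q → ZMod Q → Matrix κ0 κ1 ℝ)
    (B B' : ZMod Q → ZMod Q → Matrix κ1 κ2 ℝ) (C C' : ZMod Q → ZMod Q → Matrix κ2 κ0 ℝ) (N : ℕ)
    (hA : ∀ q p, SA (bxL A N q p) (q4L A N q p) ≤ TA (bxL A N q p) (q4L A N q p))
    (hB : ∀ q p, SB (bxL B N q p) (q4L B N q p) ≤ TB (bxL B N q p) (q4L B N q p))
    (hC : ∀ q p, SC (bxL C N q p) (q4L C N q p) ≤ TC (bxL C N q p) (q4L C N q p)) :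
    VSL SA SB SC A A' B B' C C' N ≤ VSL TA TB TC A A' B B' C C' N := by
  classical
  unfold VSL
  refine bl_mono (fun n => Finset.sum_le_sum fun p0 _ => Finset.sum_le_sum fun p1 _ => ?_) _ _
  split_ifs
  · exact add_le_add (add_le_add (hA _ _) (hB _ _)) (hC _ _)
  · exact le_refl _

theorem ESL_mono {S T : ℝ → ℝ → ℝ} (A A' : ZMod Q → ZMod Q → Matrix κ0 κ1 ℝ) (N : ℕ)
    (h : ∀ q p, S (bxL A N q p) (q4L A N q p) ≤ T (bxL A N q p) (q4L A N q p)) :
    ESL S A A' N ≤ ESL T A A' N := by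
  classical
  unfold ESL
  refine Finset.sum_le_sum fun q _ => Finset.sum_le_sum fun p _ => ?_
  split_ifs
  · exact h _ _
  · exact le_refl _

open Classical in
/-- **(TRI, labels)** with budgets in terms of `bxL` and `q4L`, arbitrary path -/
theorem tri_budL (A : ℕ → ZMod Q → ZMod Q → Matrix κ0 κ1 ℝ)
    (B : ℕ → ZMod Q → ZMod Q → Matrix κ1 κ2 ℝ) (C : ℕ → ZMod Q → ZMod Q → Matrix κ2 κ0 ℝ)
    (hA0 : A 0 = fun _ _ => 0) (hB0 : B 0 = fun _ _ => 0) (hC0 : C 0 = fun _ _ => 0)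
    (κ m0 M : ℕ) (l : ℤ)
    (hκ : 2 * |l| + 20 ≤ 2 ^ κ) {x y z : ℤ → ℝ} (hp : PathSeq x y z) {SA SB SC : ℝ → ℝ → ℝ}
    (hA : Pot.Bud (fun j => (√(x j) * √(y j) * √(z j))⁻¹) x SA)
    (hB : Pot.Bud (fun j => (√(x j) * √(y j) * √(z j))⁻¹) y SB)
    (hC : Pot.Bud (fun j => (√(x j) * √(y j) * √(z j))⁻¹) z SC) :
    ∑ m ∈ range M, bl (fun n => ∑ p0 : ZMod Q, ∑ p1 : ZMod Q,
      |LboxL (A (m + 1)) (B (m + 1)) (C (m + 1)) (2 ^ (m0 + m)) p0 p1 (n - p0 - p1)|)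
        (2 ^ (m0 + m)) l ≤
    76800 * 128 * ∑ m ∈ range M,
      (VSL SA SB SC (A (m + 1)) (A m) (B (m + 1)) (B m) (C (m + 1)) (C m) (2 ^ (m0 + m)) +
        ∑ k ∈ range κ, (ESL SA (A (m + 1)) (A m) (2 ^ (m0 + m + k)) +
          ESL SB (B (m + 1)) (B m) (2 ^ (m0 + m + k)) +
          ESL SC (C (m + 1)) (C m) (2 ^ (m0 + m + k)))) := by
  have hw : ∀ j, 0 ≤ (fun j => (√(x j) * √(y j) * √(z j))⁻¹) j := fun j => by positivity
  have h := tri_pathL A B C hA0 hB0 hC0 κ m0 M l hκ hp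
    (fun m p0 p1 p2 => 4 * (SA (bxL (A (m + 1)) (2 ^ (m0 + m)) p0 p1)
        (q4L (A (m + 1)) (2 ^ (m0 + m)) p0 p1) +
        SB (bxL (B (m + 1)) (2 ^ (m0 + m)) p1 p2) (q4L (B (m + 1)) (2 ^ (m0 + m)) p1 p2) +
        SC (bxL (C (m + 1)) (2 ^ (m0 + m)) p2 p0) (q4L (C (m + 1)) (2 ^ (m0 + m)) p2 p0)))
    (fun m k q p => 8 * SA (bxL (A (m + 1)) (2 ^ (m0 + m + k)) q p)
      (q4L (A (m + 1)) (2 ^ (m0 + m + k)) q p))
    (fun m k q p => 8 * SB (bxL (B (m + 1)) (2 ^ (m0 + m + k)) q p)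
      (q4L (B (m + 1)) (2 ^ (m0 + m + k)) q p))
    (fun m k q p => 8 * SC (bxL (C (m + 1)) (2 ^ (m0 + m + k)) q p)
      (q4L (C (m + 1)) (2 ^ (m0 + m + k)) q p))
    (fun m _ p0 p1 p2 _ J => bud_JVL hp hA hB hC _ _ _ _ _ _ _ J)
    (fun m _ k _ q p _ J => bud_JEL hw (fun j => (hp.xpos j).le) hA _ _ _ _ J)
    (fun m _ k _ q p _ J => bud_JEL hw (fun j => (hp.ypos j).le) hB _ _ _ _ J)
    (fun m _ k _ q p _ J => bud_JEL hw (fun j => (hp.zpos j).le) hC _ _ _ _ J)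
  refine h.trans ?_
  have hVT : ∀ m : ℕ, bl (fun n => ∑ p0 : ZMod Q, ∑ p1 : ZMod Q,
      if Any3L (A (m + 1)) (A m) (B (m + 1)) (B m) (C (m + 1)) (C m) (2 ^ (m0 + m)) p0 p1
        (n - p0 - p1)
      then 4 * (SA (bxL (A (m + 1)) (2 ^ (m0 + m)) p0 p1) (q4L (A (m + 1)) (2 ^ (m0 + m)) p0 p1) +
        SB (bxL (B (m + 1)) (2 ^ (m0 + m)) p1 (n - p0 - p1))
          (q4L (B (m + 1)) (2 ^ (m0 + m)) p1 (n - p0 - p1)) +
        SC (bxL (C (m + 1)) (2 ^ (m0 + m)) (n - p0 - p1) p0)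
          (q4L (C (m + 1)) (2 ^ (m0 + m)) (n - p0 - p1) p0))
      else 0) (2 ^ (m0 + m)) (-2) =
      4 * VSL SA SB SC (A (m + 1)) (A m) (B (m + 1)) (B m) (C (m + 1)) (C m) (2 ^ (m0 + m)) := by
    intro m
    unfold VSL
    rw [← bl_const_mul]
    congr 1
    funext n
    rw [Finset.mul_sum]
    refine Finset.sum_congr rfl fun p0 _ => ?_
    rw [Finset.mul_sum]
    refine Finset.sum_congr rfl fun p1 _ => ?_
    rw [mul_ite, mul_zero]
  have hETA : ∀ m k : ℕ, (∑ q : ZMod Q, ∑ p : ZMod Q,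
      if Sees (A (m + 1)) (A m) (2 ^ (m0 + m + k)) q p then
        8 * SA (bxL (A (m + 1)) (2 ^ (m0 + m + k)) q p) (q4L (A (m + 1)) (2 ^ (m0 + m + k)) q p)
        else 0) = 8 * ESL SA (A (m + 1)) (A m) (2 ^ (m0 + m + k)) := fun m k => by
    unfold ESL
    rw [Finset.mul_sum]
    refine Finset.sum_congr rfl fun q _ => ?_
    rw [Finset.mul_sum]
    refine Finset.sum_congr rfl fun p _ => ?_
    rw [mul_ite, mul_zero]
  have hETB : ∀ m k : ℕ, (∑ q : ZMod Q, ∑ p : ZMod Q,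
      if Sees (B (m + 1)) (B m) (2 ^ (m0 + m + k)) q p then
        8 * SB (bxL (B (m + 1)) (2 ^ (m0 + m + k)) q p) (q4L (B (m + 1)) (2 ^ (m0 + m + k)) q p)
        else 0) = 8 * ESL SB (B (m + 1)) (B m) (2 ^ (m0 + m + k)) := fun m k => by
    unfold ESL
    rw [Finset.mul_sum]
    refine Finset.sum_congr rfl fun q _ => ?_
    rw [Finset.mul_sum]
    refine Finset.sum_congr rfl fun p _ => ?_
    rw [mul_ite, mul_zero]
  have hETC : ∀ m k : ℕ, (∑ q : ZMod Q, ∑ p : ZMod Q,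
      if Sees (C (m + 1)) (C m) (2 ^ (m0 + m + k)) q p then
        8 * SC (bxL (C (m + 1)) (2 ^ (m0 + m + k)) q p) (q4L (C (m + 1)) (2 ^ (m0 + m + k)) q p)
        else 0) = 8 * ESL SC (C (m + 1)) (C m) (2 ^ (m0 + m + k)) := fun m k => by
    unfold ESL
    rw [Finset.mul_sum]
    refine Finset.sum_congr rfl fun q _ => ?_
    rw [Finset.mul_sum]
    refine Finset.sum_congr rfl fun p _ => ?_
    rw [mul_ite, mul_zero]
  simp only [hVT, hETA, hETB, hETC]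
  have hV0 : 0 ≤ ∑ m ∈ range M, VSL SA SB SC (A (m + 1)) (A m) (B (m + 1)) (B m) (C (m + 1)) (C m)
      (2 ^ (m0 + m)) := by
    refine Finset.sum_nonneg fun m _ => ?_
    unfold VSL
    refine bl_nonneg (fun n => Finset.sum_nonneg fun p0 _ => Finset.sum_nonneg fun p1 _ => ?_) _ _
    split_ifs
    · exact add_nonneg (add_nonneg (hA.nonneg (bxL_nonneg _ _ _ _) (q4L_nonneg _ _ _ _))
        (hB.nonneg (bxL_nonneg _ _ _ _) (q4L_nonneg _ _ _ _)))
        (hC.nonneg (bxL_nonneg _ _ _ _) (q4L_nonneg _ _ _ _))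
    · exact le_refl _
  rw [Finset.sum_add_distrib]
  rw [Finset.sum_comm (s := range M) (t := range κ)]
  simp only [← mul_add, ← Finset.mul_sum]
  linarith

end box

end Crest.Agent.R079.PotL
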