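import Crest.Agent.R079.PLPhi_931

/-! R079, LABELLED line potentials: the COST of moving letters (label cost lemma, operator norm of
the diagonal block of the Gram matrix, Hilbert-Schmidt norm on the letter), summation from a leaf
scale `2^m0`, and the moving word.  helper931. -/

set_option autoImplicit false
set_option linter.unusedVariables false
set_option linter.unusedSectionVars false

namespace Crest.Agent.R079.PotL

open Matrix Finset Crest.Agent.R072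
open scoped MatrixOrder

local notation "rt" => CFC.sqrt

section mat

variable {m n : Type*} [Fintype m] [DecidableEq m] [Fintype n] [DecidableEq n]

theorem psd_tms (X : Matrix m n ℝ) : (Xᵀ * X).PosSemidef := by
  have := posSemidef_conjTranspose_mul_self X
  rwa [conjTranspose_eq_transpose_of_trivial] at this

/-- **label cost, matrix form**: `phi(old) - phi(new) ≤ 3 tr(√M_old X_oldᵀ (X_old - X_new))`. -/
theorem phi_cost (X Y : Matrix m n ℝ) {G : Matrix n n ℝ} (hG : G.PosSemidef) :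
    phi (Xᵀ * X + G) - phi (Yᵀ * Y + G) ≤
      3 * (rt (Xᵀ * X + G) * (Xᵀ * (X - Y))).trace := by
  have hX : (Xᵀ * X + G).PosSemidef := (psd_tms X).add hG
  have hY : (Yᵀ * Y + G).PosSemidef := (psd_tms Y).add hG
  have h := phi_sub_le hX hY
  set S := rt (Xᵀ * X + G) with hS
  have hSp : S.PosSemidef := rt_psd _
  have hSt : Sᵀ = S := rt_transpose _
  have e : Xᵀ * X + G - (Yᵀ * Y + G) =
      Xᵀ * (X - Y) + (Xᵀ * (X - Y))ᵀ - (X - Y)ᵀ * (X - Y) := by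
    rw [transpose_mul, transpose_transpose, transpose_sub]
    simp only [Matrix.mul_sub, Matrix.sub_mul]
    abel
  rw [e, Matrix.mul_sub, Matrix.mul_add, trace_sub, trace_add] at h
  have h1 : (S * (Xᵀ * (X - Y))ᵀ).trace = (S * (Xᵀ * (X - Y))).trace := by
    rw [← trace_transpose (S * (Xᵀ * (X - Y))ᵀ), transpose_mul, transpose_transpose, hSt,
      trace_mul_comm]
  have h2 : 0 ≤ (S * ((X - Y)ᵀ * (X - Y))).trace := trace_mul_nonneg hSp (psd_tms (X - Y))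
  rw [h1] at h
  linarith

/-- label cost, both letters move -/
theorem phi_cost2 {m' : Type*} [Fintype m'] [DecidableEq m'] (X Y : Matrix m n ℝ)
    (Z V : Matrix m' n ℝ) :
    phi (Xᵀ * X + Zᵀ * Z) - phi (Yᵀ * Y + Vᵀ * V) ≤
      3 * (rt (Xᵀ * X + Zᵀ * Z) * (Xᵀ * (X - Y))).trace +
      3 * (rt (Xᵀ * X + Zᵀ * Z) * (Zᵀ * (Z - V))).trace := by
  have hX : (Xᵀ * X + Zᵀ * Z).PosSemidef := (psd_tms X).add (psd_tms Z)
  have hY : (Yᵀ * Y + Vᵀ * V).PosSemidef := (psd_tms Y).add (psd_tms V)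
  have h := phi_sub_le hX hY
  set S := rt (Xᵀ * X + Zᵀ * Z) with hS
  have hSp : S.PosSemidef := rt_psd _
  have hSt : Sᵀ = S := rt_transpose _
  have e : Xᵀ * X + Zᵀ * Z - (Yᵀ * Y + Vᵀ * V) =
      (Xᵀ * (X - Y) + (Xᵀ * (X - Y))ᵀ - (X - Y)ᵀ * (X - Y)) +
      (Zᵀ * (Z - V) + (Zᵀ * (Z - V))ᵀ - (Z - V)ᵀ * (Z - V)) := by
    rw [transpose_mul, transpose_transpose, transpose_sub, transpose_mul, transpose_transpose,
      transpose_sub]
    simp only [Matrix.mul_sub, Matrix.sub_mul]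
    abel
  have hl : ∀ A B A' B' : Matrix n n ℝ, (S * ((A + Aᵀ - B) + (A' + A'ᵀ - B'))).trace =
      ((S * A).trace + (S * Aᵀ).trace - (S * B).trace) +
      ((S * A').trace + (S * A'ᵀ).trace - (S * B').trace) := by
    intro A B A' B'
    simp only [Matrix.mul_add, Matrix.mul_sub, trace_add, trace_sub]
  rw [e, hl] at h
  have h1 : (S * (Xᵀ * (X - Y))ᵀ).trace = (S * (Xᵀ * (X - Y))).trace := by
    rw [← trace_transpose (S * (Xᵀ * (X - Y))ᵀ), transpose_mul, transpose_transpose, hSt,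
      trace_mul_comm]
  have h1' : (S * (Zᵀ * (Z - V))ᵀ).trace = (S * (Zᵀ * (Z - V))).trace := by
    rw [← trace_transpose (S * (Zᵀ * (Z - V))ᵀ), transpose_mul, transpose_transpose, hSt,
      trace_mul_comm]
  have h2 : 0 ≤ (S * ((X - Y)ᵀ * (X - Y))).trace := trace_mul_nonneg hSp (psd_tms (X - Y))
  have h2' : 0 ≤ (S * ((Z - V)ᵀ * (Z - V))).trace := trace_mul_nonneg hSp (psd_tms (Z - V))
  rw [h1, h1'] at h
  linarith

theorem trace_eq_sum (X D : Matrix m n ℝ) {S : Matrix n n ℝ} (hS : Sᵀ = S) :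
    (S * (Xᵀ * D)).trace = ∑ i : m, ∑ j : n, (X * S) i j * D i j := by
  have h1 : (S * (Xᵀ * D)).trace = ((X * S)ᵀ * D).trace := by
    rw [transpose_mul, hS, Matrix.mul_assoc]
  rw [h1, Matrix.trace, Finset.sum_comm]
  refine Finset.sum_congr rfl fun j _ => ?_
  rw [Matrix.diag_apply, Matrix.mul_apply]
  rfl

end mat

section blk

variable {ι J α β : Type*} [Fintype ι] [DecidableEq ι] [Fintype J] [DecidableEq J]
  [Fintype α] [DecidableEq α] [Fintype β] [DecidableEq β]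

/-- squared Hilbert-Schmidt norm of a label matrix -/
noncomputable def hs2 (A : Matrix β α ℝ) : ℝ := ∑ l : β, ∑ s : α, A l s ^ 2

/-- Hilbert-Schmidt norm of a label matrix -/
noncomputable def hsn (A : Matrix β α ℝ) : ℝ := Real.sqrt (hs2 A)

theorem hs2_nonneg (A : Matrix β α ℝ) : 0 ≤ hs2 A :=
  Finset.sum_nonneg fun _ _ => Finset.sum_nonneg fun _ _ => sq_nonneg _

theorem hsn_nonneg (A : Matrix β α ℝ) : 0 ≤ hsn A := Real.sqrt_nonneg _

theorem hsn_sq (A : Matrix β α ℝ) : hsn A ^ 2 = hs2 A := Real.sq_sqrt (hs2_nonneg A)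

theorem hsn_zero : hsn (0 : Matrix β α ℝ) = 0 := by simp [hsn, hs2]

theorem hs2_transpose (A : Matrix β α ℝ) : hs2 Aᵀ = hs2 A := by
  unfold hs2
  rw [Finset.sum_comm]
  rfl

theorem hsn_transpose (A : Matrix β α ℝ) : hsn Aᵀ = hsn A := by
  unfold hsn
  rw [hs2_transpose]

theorem hsn_smul {c : ℝ} (hc : 0 ≤ c) (A : Matrix β α ℝ) : hsn (c • A) = c * hsn A := by
  unfold hsn
  have : hs2 (c • A) = c ^ 2 * hs2 A := by
    unfold hs2
    rw [Finset.mul_sum]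
    refine Finset.sum_congr rfl fun l _ => ?_
    rw [Finset.mul_sum]
    refine Finset.sum_congr rfl fun s _ => ?_
    rw [Matrix.smul_apply, smul_eq_mul]
    ring
  rw [this, Real.sqrt_mul (sq_nonneg c), Real.sqrt_sq hc]

theorem hs_cs (A B : Matrix β α ℝ) : ∑ l : β, ∑ s : α, A l s * B l s ≤ hsn A * hsn B := by
  have h := Finset.sum_mul_sq_le_sq_mul_sq (Finset.univ : Finset (β × α))
    (fun z => A z.1 z.2) (fun z => B z.1 z.2)
  rw [Fintype.sum_prod_type, Fintype.sum_prod_type, Fintype.sum_prod_type] at h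
  have h2 : (∑ l : β, ∑ s : α, A l s * B l s) ^ 2 ≤ (hsn A * hsn B) ^ 2 := by
    rw [mul_pow, hsn_sq, hsn_sq]
    exact h
  exact le_of_sq_le_sq h2 (mul_nonneg (hsn_nonneg _) (hsn_nonneg _))
where
  le_of_sq_le_sq {a b : ℝ} (h : a ^ 2 ≤ b ^ 2) (hb : 0 ≤ b) : a ≤ b := by
    exact le_trans (le_abs_self a) (by
      have := sq_le_sq.1 h
      rwa [abs_of_nonneg hb] at this)

/-- the block `(i, j)` of a matrix with labels -/
def blk (X : Matrix (ι × β) (J × α) ℝ) (i : ι) (j : J) : Matrix β α ℝ :=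
  fun l s => X (i, l) (j, s)

/-- columns of `√M` : the block of `x √M` at `j` is at most `K |x|` if `|M(j,j)|_op ≤ K²` -/
theorem row_bound {M : Matrix (J × α) (J × α) ℝ} (hM : M.PosSemidef) (x : J × α → ℝ) (j : J)
    {K : ℝ} (hK0 : 0 ≤ K)
    (hK : ∀ v : α → ℝ, ∑ s : α, ∑ t : α, v s * M (j, s) (j, t) * v t ≤ K ^ 2 * ∑ s : α, v s ^ 2) :
    ∑ s : α, (∑ k, x k * rt M k (j, s)) ^ 2 ≤ K ^ 2 * ∑ k, x k ^ 2 := by
  set y : α → ℝ := fun s => ∑ k, x k * rt M k (j, s) with hy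
  set w : J × α → ℝ := fun k => ∑ s : α, rt M k (j, s) * y s with hw
  have hMM := rt_mul_rt hM
  have hT := rt_transpose M
  -- |y|² = x · w
  have h1 : ∑ s : α, y s ^ 2 = ∑ k, x k * w k := by
    have : ∀ s, y s ^ 2 = ∑ k, x k * rt M k (j, s) * y s := by
      intro s
      rw [sq]
      conv_lhs => lhs; rw [hy]
      rw [Finset.sum_mul]
    simp_rw [this]
    rw [Finset.sum_comm]
    refine Finset.sum_congr rfl fun k _ => ?_
    rw [hw, Finset.mul_sum]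
    refine Finset.sum_congr rfl fun s _ => ?_
    ring
  -- |w|² = y M(j,j) y
  have h2 : ∑ k, w k ^ 2 = ∑ s : α, ∑ t : α, y s * M (j, s) (j, t) * y t := by
    have e : ∀ s t : α, M (j, s) (j, t) = ∑ k, rt M k (j, s) * rt M k (j, t) := by
      intro s t
      conv_lhs => rw [← hMM]
      rw [Matrix.mul_apply]
      refine Finset.sum_congr rfl fun k _ => ?_
      congr 1
      have := congrFun (congrFun hT k) (j, s)
      rw [Matrix.transpose_apply] at this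
      exact this
    simp_rw [e, Finset.mul_sum, Finset.sum_mul]
    have e2 : ∀ k, w k ^ 2 = ∑ s : α, ∑ t : α, y s * (rt M k (j, s) * rt M k (j, t)) * y t := by
      intro k
      rw [sq]
      conv_lhs => rw [hw]
      rw [Finset.sum_mul]
      refine Finset.sum_congr rfl fun s _ => ?_
      rw [Finset.mul_sum]
      refine Finset.sum_congr rfl fun t _ => ?_
      ring
    simp_rw [e2]
    rw [Finset.sum_comm]
    refine Finset.sum_congr rfl fun s _ => ?_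
    rw [Finset.sum_comm]
  have h3 := hK y
  rw [← h2] at h3
  have h4 := Finset.sum_mul_sq_le_sq_mul_sq (Finset.univ : Finset (J × α)) x w
  rw [← h1] at h4
  have hy0 : 0 ≤ ∑ s : α, y s ^ 2 := Finset.sum_nonneg fun _ _ => sq_nonneg _
  have hx0 : 0 ≤ ∑ k, x k ^ 2 := Finset.sum_nonneg fun _ _ => sq_nonneg _
  rcases eq_or_lt_of_le hy0 with h0 | h0
  · rw [← h0]; positivity
  · have h5 : (∑ s : α, y s ^ 2) * (∑ s : α, y s ^ 2) ≤
        (K ^ 2 * ∑ k, x k ^ 2) * (∑ s : α, y s ^ 2) := by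
      calc (∑ s : α, y s ^ 2) * (∑ s : α, y s ^ 2) = (∑ s : α, y s ^ 2) ^ 2 := by ring
        _ ≤ (∑ k, x k ^ 2) * ∑ k, w k ^ 2 := h4
        _ ≤ (∑ k, x k ^ 2) * (K ^ 2 * ∑ s : α, y s ^ 2) :=
            mul_le_mul_of_nonneg_left h3 hx0
        _ = (K ^ 2 * ∑ k, x k ^ 2) * (∑ s : α, y s ^ 2) := by ring
    exact le_of_mul_le_mul_right h5 h0

/-- **label cost, block form** -/
theorem trace_blk_le (X D : Matrix (ι × β) (J × α) ℝ) {M : Matrix (J × α) (J × α) ℝ}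
    (hM : M.PosSemidef) {R K : ℝ} (hR0 : 0 ≤ R) (hK0 : 0 ≤ K)
    (h : ∀ i j, blk D i j ≠ 0 → (∑ l : β, ∑ k, X (i, l) k ^ 2 ≤ R ^ 2) ∧
      (∀ v : α → ℝ, ∑ s : α, ∑ t : α, v s * M (j, s) (j, t) * v t ≤
        K ^ 2 * ∑ s : α, v s ^ 2)) :
    (rt M * (Xᵀ * D)).trace ≤ R * K * ∑ i : ι, ∑ j : J, hsn (blk D i j) := by
  rw [trace_eq_sum X D (rt_transpose M), Fintype.sum_prod_type, Finset.mul_sum]
  refine Finset.sum_le_sum fun i _ => ?_
  simp_rw [Fintype.sum_prod_type]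
  rw [Finset.sum_comm, Finset.mul_sum]
  refine Finset.sum_le_sum fun j _ => ?_
  by_cases h0 : blk D i j = 0
  · have : ∀ l s, D (i, l) (j, s) = 0 := fun l s => congrFun (congrFun h0 l) s
    simp [this, h0, hsn_zero]
  · obtain ⟨hR, hK⟩ := h i j h0
    have h1 := hs_cs (blk (X * rt M) i j) (blk D i j)
    refine h1.trans (mul_le_mul_of_nonneg_right ?_ (hsn_nonneg _))
    have h2 : hs2 (blk (X * rt M) i j) ≤ (R * K) ^ 2 := by
      unfold hs2 blk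
      calc ∑ l : β, ∑ s : α, (X * rt M) (i, l) (j, s) ^ 2
          ≤ ∑ l : β, K ^ 2 * ∑ k, X (i, l) k ^ 2 := by
            refine Finset.sum_le_sum fun l _ => ?_
            have := row_bound hM (fun k => X (i, l) k) j hK0 hK
            simpa [Matrix.mul_apply] using this
        _ = K ^ 2 * ∑ l : β, ∑ k, X (i, l) k ^ 2 := by rw [Finset.mul_sum]
        _ ≤ K ^ 2 * R ^ 2 := mul_le_mul_of_nonneg_left hR (sq_nonneg K)
        _ = (R * K) ^ 2 := by ring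
    unfold hsn
    calc Real.sqrt (hs2 (blk (X * rt M) i j)) ≤ Real.sqrt ((R * K) ^ 2) := Real.sqrt_le_sqrt h2
      _ = R * K := Real.sqrt_sq (mul_nonneg hR0 hK0)

end blk

section lat

variable {Q : ℕ} [NeZero Q] {α β γ : Type*} [Fintype α] [DecidableEq α] [Fintype β]
  [DecidableEq β] [Fintype γ] [DecidableEq γ]

/-- average over a row: `E_{x1 ∈ [p, p+N)} |X(x0, x1)|²_HS ≤ R²` -/
def RowB (X : ZMod Q → ZMod Q → Matrix β α ℝ) (N : ℕ) (R : ℝ) (x p : ZMod Q) : Prop :=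
  (1 / (N : ℝ)) * ∑ k ∈ range N, hs2 (X x (p + (k : ZMod Q))) ≤ R ^ 2

/-- operator norm of the column: `|E_{x0 ∈ [q, q+N)} XᵀX (x1)|_op ≤ K²` -/
def ColB (X : ZMod Q → ZMod Q → Matrix β α ℝ) (N : ℕ) (K : ℝ) (q y : ZMod Q) : Prop :=
  ∀ v : α → ℝ, (1 / (N : ℝ)) * ∑ k ∈ range N, ∑ l : β,
    (∑ s : α, X (q + (k : ZMod Q)) y l s * v s) ^ 2 ≤ K ^ 2 * ∑ s : α, v s ^ 2

theorem abar_quad (X : ZMod Q → ZMod Q → Matrix β α ℝ) (N : ℕ) (q p : ZMod Q) (j : Fin N)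
    (v : α → ℝ) :
    ∑ s : α, ∑ t : α, v s * abar X N N q p (j, s) (j, t) * v t =
      (1 / (N : ℝ)) * ((1 / (N : ℝ)) * ∑ k ∈ range N, ∑ l : β,
        (∑ s : α, X (q + (k : ZMod Q)) (p + ((j : ℕ) : ZMod Q)) l s * v s) ^ 2) := by
  have e : ∀ (k : ℕ) (l : β), (∑ s : α, X (q + (k : ZMod Q)) (p + ((j : ℕ) : ZMod Q)) l s *
      v s) ^ 2 = ∑ s : α, ∑ t : α, v s * (X (q + (k : ZMod Q)) (p + ((j : ℕ) : ZMod Q)) l s *
        X (q + (k : ZMod Q)) (p + ((j : ℕ) : ZMod Q)) l t) * v t := by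
    intro k l
    rw [sq, Finset.sum_mul]
    refine Finset.sum_congr rfl fun s _ => ?_
    rw [Finset.mul_sum]
    refine Finset.sum_congr rfl fun t _ => ?_
    ring
  simp_rw [e]
  have e2 : ∑ k ∈ range N, ∑ l : β, ∑ s : α, ∑ t : α,
      v s * (X (q + (k : ZMod Q)) (p + ((j : ℕ) : ZMod Q)) l s *
        X (q + (k : ZMod Q)) (p + ((j : ℕ) : ZMod Q)) l t) * v t =
      ∑ s : α, ∑ t : α, v s * (∑ k ∈ range N, ∑ l : β,
        X (q + (k : ZMod Q)) (p + ((j : ℕ) : ZMod Q)) l s *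
        X (q + (k : ZMod Q)) (p + ((j : ℕ) : ZMod Q)) l t) * v t := by
    simp_rw [Finset.mul_sum, Finset.sum_mul]
    have c1 : ∀ f : ℕ → β → α → α → ℝ, ∑ k ∈ range N, ∑ l : β, ∑ s : α, ∑ t : α, f k l s t =
        ∑ s : α, ∑ t : α, ∑ k ∈ range N, ∑ l : β, f k l s t := by
      intro f
      calc ∑ k ∈ range N, ∑ l : β, ∑ s : α, ∑ t : α, f k l s t
          = ∑ k ∈ range N, ∑ s : α, ∑ l : β, ∑ t : α, f k l s t :=
            Finset.sum_congr rfl fun k _ => Finset.sum_comm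
        _ = ∑ s : α, ∑ k ∈ range N, ∑ l : β, ∑ t : α, f k l s t := Finset.sum_comm
        _ = ∑ s : α, ∑ k ∈ range N, ∑ t : α, ∑ l : β, f k l s t :=
            Finset.sum_congr rfl fun s _ => Finset.sum_congr rfl fun k _ => Finset.sum_comm
        _ = ∑ s : α, ∑ t : α, ∑ k ∈ range N, ∑ l : β, f k l s t :=
            Finset.sum_congr rfl fun s _ => Finset.sum_comm
    exact c1 _
  rw [e2, ← mul_assoc, Finset.mul_sum]
  refine Finset.sum_congr rfl fun s _ => ?_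
  rw [Finset.mul_sum]
  refine Finset.sum_congr rfl fun t _ => ?_
  simp only [abar]
  rw [one_div_mul_one_div]
  ring

theorem bm_sub_blk (X Y : ZMod Q → ZMod Q → Matrix β α ℝ) (N : ℕ) (q p : ZMod Q)
    (i j : Fin N) :
    blk (bm X N q p - bm Y N q p) i j =
      (1 / (N : ℝ)) • (X (q + ((i : ℕ) : ZMod Q)) (p + ((j : ℕ) : ZMod Q)) -
        Y (q + ((i : ℕ) : ZMod Q)) (p + ((j : ℕ) : ZMod Q))) := by
  ext l s
  simp only [blk, bm, Matrix.sub_apply, Matrix.smul_apply, smul_eq_mul]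
  ring

theorem bm_row (X : ZMod Q → ZMod Q → Matrix β α ℝ) {N : ℕ} (hN : 0 < N) (q p : ZMod Q)
    (i : Fin N) {R : ℝ} (h : RowB X N R (q + ((i : ℕ) : ZMod Q)) p) :
    ∑ l : β, ∑ k, bm X N q p (i, l) k ^ 2 ≤ (R / Real.sqrt N) ^ 2 := by
  have hN' : (0 : ℝ) < N := by exact_mod_cast hN
  unfold RowB at h
  have e : ∑ l : β, ∑ k, bm X N q p (i, l) k ^ 2 = (1 / (N : ℝ)) * ((1 / (N : ℝ)) *
      ∑ k ∈ range N, hs2 (X (q + ((i : ℕ) : ZMod Q)) (p + (k : ZMod Q)))) := by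
    simp_rw [Fintype.sum_prod_type]
    rw [Finset.sum_comm, Finset.sum_range, Finset.mul_sum, Finset.mul_sum]
    refine Finset.sum_congr rfl fun k _ => ?_
    unfold hs2
    simp_rw [Finset.mul_sum]
    refine Finset.sum_congr rfl fun l _ => Finset.sum_congr rfl fun s _ => ?_
    simp only [bm]
    ring
  rw [e, div_pow, Real.sq_sqrt hN'.le]
  calc (1 / (N : ℝ)) * _ ≤ (1 / (N : ℝ)) * R ^ 2 :=
        mul_le_mul_of_nonneg_left h (by positivity)
    _ = R ^ 2 / N := by ring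

/-- **cost of moving both letters in one box** -/
theorem box_cost (X Y : ZMod Q → ZMod Q → Matrix β α ℝ) (Z V : ZMod Q → ZMod Q → Matrix γ α ℝ)
    {N : ℕ} (hN : 0 < N) (q p q' : ZMod Q) {R R' K K₁ K₂ : ℝ} (hR0 : 0 ≤ R) (hR'0 : 0 ≤ R')
    (hK0 : 0 ≤ K) (hKK : K₁ ^ 2 + K₂ ^ 2 ≤ K ^ 2)
    (hX : ∀ i j : Fin N, X (q + ((i : ℕ) : ZMod Q)) (p + ((j : ℕ) : ZMod Q)) ≠
        Y (q + ((i : ℕ) : ZMod Q)) (p + ((j : ℕ) : ZMod Q)) →
      RowB X N R (q + ((i : ℕ) : ZMod Q)) p ∧ ColB X N K₁ q (p + ((j : ℕ) : ZMod Q)) ∧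
        ColB Z N K₂ q' (p + ((j : ℕ) : ZMod Q)))
    (hZ : ∀ i j : Fin N, Z (q' + ((i : ℕ) : ZMod Q)) (p + ((j : ℕ) : ZMod Q)) ≠
        V (q' + ((i : ℕ) : ZMod Q)) (p + ((j : ℕ) : ZMod Q)) →
      RowB Z N R' (q' + ((i : ℕ) : ZMod Q)) p ∧ ColB X N K₁ q (p + ((j : ℕ) : ZMod Q)) ∧
        ColB Z N K₂ q' (p + ((j : ℕ) : ZMod Q))) :
    phi (abar X N N q p + abar Z N N q' p) - phi (abar Y N N q p + abar V N N q' p) ≤
      3 * R * K * ((1 / (N : ℝ) ^ 2) * ∑ i : Fin N, ∑ j : Fin N,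
        hsn (X (q + ((i : ℕ) : ZMod Q)) (p + ((j : ℕ) : ZMod Q)) -
          Y (q + ((i : ℕ) : ZMod Q)) (p + ((j : ℕ) : ZMod Q)))) +
      3 * R' * K * ((1 / (N : ℝ) ^ 2) * ∑ i : Fin N, ∑ j : Fin N,
        hsn (Z (q' + ((i : ℕ) : ZMod Q)) (p + ((j : ℕ) : ZMod Q)) -
          V (q' + ((i : ℕ) : ZMod Q)) (p + ((j : ℕ) : ZMod Q)))) := by
  have hN' : (0 : ℝ) < N := by exact_mod_cast hN
  have hs : (0 : ℝ) < Real.sqrt N := Real.sqrt_pos.2 hN'
  have hss : Real.sqrt N * Real.sqrt N = N := Real.mul_self_sqrt hN'.le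
  set M := abar X N N q p + abar Z N N q' p with hM
  have hMp : M.PosSemidef := abar_add_posSemidef _ _ _ _ _ _ _ _
  have hcol : ∀ j : Fin N, ColB X N K₁ q (p + ((j : ℕ) : ZMod Q)) →
      ColB Z N K₂ q' (p + ((j : ℕ) : ZMod Q)) →
      ∀ v : α → ℝ, ∑ s : α, ∑ t : α, v s * M (j, s) (j, t) * v t ≤
        (K / Real.sqrt N) ^ 2 * ∑ s : α, v s ^ 2 := by
    intro j h1 h2 v
    have e : ∑ s : α, ∑ t : α, v s * M (j, s) (j, t) * v t =
        ∑ s : α, ∑ t : α, v s * abar X N N q p (j, s) (j, t) * v t +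
        ∑ s : α, ∑ t : α, v s * abar Z N N q' p (j, s) (j, t) * v t := by
      rw [← Finset.sum_add_distrib]
      refine Finset.sum_congr rfl fun s _ => ?_
      rw [← Finset.sum_add_distrib]
      refine Finset.sum_congr rfl fun t _ => ?_
      rw [hM, Matrix.add_apply]
      ring
    rw [e, abar_quad, abar_quad, div_pow, Real.sq_sqrt hN'.le, ← mul_add]
    have hv : 0 ≤ ∑ s : α, v s ^ 2 := Finset.sum_nonneg fun _ _ => sq_nonneg _
    calc (1 / (N : ℝ)) * (_ + _) ≤ (1 / (N : ℝ)) * (K₁ ^ 2 * ∑ s : α, v s ^ 2 +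
          K₂ ^ 2 * ∑ s : α, v s ^ 2) :=
          mul_le_mul_of_nonneg_left (add_le_add (h1 v) (h2 v)) (by positivity)
      _ = (1 / (N : ℝ)) * ((K₁ ^ 2 + K₂ ^ 2) * ∑ s : α, v s ^ 2) := by ring
      _ ≤ (1 / (N : ℝ)) * (K ^ 2 * ∑ s : α, v s ^ 2) :=
          mul_le_mul_of_nonneg_left (mul_le_mul_of_nonneg_right hKK hv) (by positivity)
      _ = K ^ 2 / N * ∑ s : α, v s ^ 2 := by ring
  have key := phi_cost2 (bm X N q p) (bm Y N q p) (bm Z N q' p) (bm V N q' p)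
  rw [transpose_mul_bm, transpose_mul_bm, transpose_mul_bm, transpose_mul_bm] at key
  refine key.trans ?_
  have k1 := trace_blk_le (bm X N q p) (bm X N q p - bm Y N q p) hMp
    (R := R / Real.sqrt N) (K := K / Real.sqrt N) (by positivity) (by positivity) (by
      intro i j hij
      rw [bm_sub_blk] at hij
      have hne : X (q + ((i : ℕ) : ZMod Q)) (p + ((j : ℕ) : ZMod Q)) ≠
          Y (q + ((i : ℕ) : ZMod Q)) (p + ((j : ℕ) : ZMod Q)) := by
        intro h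
        rw [h, sub_self, smul_zero] at hij
        exact hij rfl
      obtain ⟨h1, h2, h3⟩ := hX i j hne
      exact ⟨bm_row X hN q p i h1, hcol j h2 h3⟩)
  have k2 := trace_blk_le (bm Z N q' p) (bm Z N q' p - bm V N q' p) hMp
    (R := R' / Real.sqrt N) (K := K / Real.sqrt N) (by positivity) (by positivity) (by
      intro i j hij
      rw [bm_sub_blk] at hij
      have hne : Z (q' + ((i : ℕ) : ZMod Q)) (p + ((j : ℕ) : ZMod Q)) ≠
          V (q' + ((i : ℕ) : ZMod Q)) (p + ((j : ℕ) : ZMod Q)) := by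
        intro h
        rw [h, sub_self, smul_zero] at hij
        exact hij rfl
      obtain ⟨h1, h2, h3⟩ := hZ i j hne
      exact ⟨bm_row Z hN q' p i h1, hcol j h2 h3⟩)
  have hn : (0 : ℝ) ≤ 1 / (N : ℝ) := by positivity
  simp only [bm_sub_blk, hsn_smul hn] at k1 k2
  have f1 : ∀ (R : ℝ) (S : Fin N → Fin N → ℝ),
      R / Real.sqrt N * (K / Real.sqrt N) * ∑ i : Fin N, ∑ j : Fin N, 1 / (N : ℝ) * S i j =
      R * K * ((1 / (N : ℝ) ^ 2) * ∑ i : Fin N, ∑ j : Fin N, S i j) := by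
    intro R S
    simp_rw [← Finset.mul_sum]
    have : R / Real.sqrt N * (K / Real.sqrt N) = R * K / N := by
      rw [div_mul_div_comm, hss]
    rw [this]
    field_simp
  rw [f1] at k1 k2
  linarith

theorem sum_box_avg (f : ZMod Q → ZMod Q → ℝ) {N : ℕ} (hN : 0 < N) :
    ∑ p : ZMod Q, ∑ q : ZMod Q, (1 / (N : ℝ) ^ 2) * ∑ i : Fin N, ∑ j : Fin N,
      f (q + ((i : ℕ) : ZMod Q)) (p + ((j : ℕ) : ZMod Q)) = ∑ x : ZMod Q, ∑ y : ZMod Q, f x y := by
  have hN' : (0 : ℝ) < N := by exact_mod_cast hN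
  have c1 : ∀ g : ZMod Q → ZMod Q → Fin N → Fin N → ℝ,
      ∑ p : ZMod Q, ∑ q : ZMod Q, ∑ i : Fin N, ∑ j : Fin N, g p q i j =
      ∑ i : Fin N, ∑ j : Fin N, ∑ p : ZMod Q, ∑ q : ZMod Q, g p q i j := by
    intro g
    calc ∑ p : ZMod Q, ∑ q : ZMod Q, ∑ i : Fin N, ∑ j : Fin N, g p q i j
        = ∑ p : ZMod Q, ∑ i : Fin N, ∑ q : ZMod Q, ∑ j : Fin N, g p q i j :=
          Finset.sum_congr rfl fun _ _ => Finset.sum_comm
      _ = ∑ i : Fin N, ∑ p : ZMod Q, ∑ q : ZMod Q, ∑ j : Fin N, g p q i j := Finset.sum_comm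
      _ = ∑ i : Fin N, ∑ p : ZMod Q, ∑ j : Fin N, ∑ q : ZMod Q, g p q i j :=
          Finset.sum_congr rfl fun _ _ => Finset.sum_congr rfl fun _ _ => Finset.sum_comm
      _ = ∑ i : Fin N, ∑ j : Fin N, ∑ p : ZMod Q, ∑ q : ZMod Q, g p q i j :=
          Finset.sum_congr rfl fun _ _ => Finset.sum_comm
  simp_rw [← Finset.mul_sum]
  rw [c1]
  have h1 : ∀ i j : Fin N, ∑ p : ZMod Q, ∑ q : ZMod Q,
      f (q + ((i : ℕ) : ZMod Q)) (p + ((j : ℕ) : ZMod Q)) = ∑ x : ZMod Q, ∑ y : ZMod Q, f x y := by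
    intro i j
    rw [Finset.sum_comm]
    have : ∀ q : ZMod Q, ∑ p : ZMod Q, f (q + ((i : ℕ) : ZMod Q)) (p + ((j : ℕ) : ZMod Q)) =
        ∑ p : ZMod Q, f (q + ((i : ℕ) : ZMod Q)) p := fun q =>
      Lattice.sum_add_right' (fun p => f (q + ((i : ℕ) : ZMod Q)) p) _
    simp_rw [this]
    exact Lattice.sum_add_right' (fun q => ∑ p : ZMod Q, f q p) _
  simp_rw [h1]
  rw [Finset.sum_const, Finset.sum_const, Finset.card_univ, Fintype.card_fin, nsmul_eq_mul,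
    nsmul_eq_mul]
  field_simp

/-- total variation between two letters -/
noncomputable def dist1 (X Y : ZMod Q → ZMod Q → Matrix β α ℝ) : ℝ :=
  ∑ x : ZMod Q, ∑ y : ZMod Q, hsn (X x y - Y x y)

theorem dist1_nonneg (X Y : ZMod Q → ZMod Q → Matrix β α ℝ) : 0 ≤ dist1 X Y :=
  Finset.sum_nonneg fun _ _ => Finset.sum_nonneg fun _ _ => hsn_nonneg _

theorem dist1_self (X : ZMod Q → ZMod Q → Matrix β α ℝ) : dist1 X X = 0 := by
  simp [dist1, hsn_zero]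

theorem dist1_transpose (X Y : ZMod Q → ZMod Q → Matrix β α ℝ) :
    dist1 (fun x y => (X y x)ᵀ) (fun x y => (Y y x)ᵀ) = dist1 X Y := by
  unfold dist1
  rw [Finset.sum_comm]
  refine Finset.sum_congr rfl fun x _ => Finset.sum_congr rfl fun y _ => ?_
  rw [← transpose_sub, hsn_transpose]

/-- uniform box hypotheses at side `N` -/
structure UB (X : ZMod Q → ZMod Q → Matrix β α ℝ) (Z : ZMod Q → ZMod Q → Matrix γ α ℝ)
    (X' : ZMod Q → ZMod Q → Matrix β α ℝ) (Z' : ZMod Q → ZMod Q → Matrix γ α ℝ)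
    (N : ℕ) (R R' K₁ K₂ : ℝ) : Prop where
  rowX : X ≠ X' → ∀ x p, RowB X N R x p
  rowZ : Z ≠ Z' → ∀ x p, RowB Z N R' x p
  colX : ∀ q y, ColB X N K₁ q y
  colZ : ∀ q y, ColB Z N K₂ q y

/-- **cost of moving both letters, joint potential** -/
theorem W_cost (X Y : ZMod Q → ZMod Q → Matrix β α ℝ) (Z V : ZMod Q → ZMod Q → Matrix γ α ℝ)
    {N : ℕ} (hN : 0 < N) (n : ZMod Q) {R R' K K₁ K₂ : ℝ} (hR0 : 0 ≤ R) (hR'0 : 0 ≤ R')
    (hK0 : 0 ≤ K) (hKK : K₁ ^ 2 + K₂ ^ 2 ≤ K ^ 2) (h : UB X Z Y V N R R' K₁ K₂) :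
    W (phiP α) X Z N N n - W (phiP α) Y V N N n ≤
      3 * R * K * dist1 X Y + 3 * R' * K * dist1 Z V := by
  unfold W
  rw [← Finset.sum_sub_distrib]
  simp only [← Finset.sum_sub_distrib]
  have hb : ∀ p q : ZMod Q, (phiP α).F N (abar X N N q p + abar Z N N (n - p - q) p) -
      (phiP α).F N (abar Y N N q p + abar V N N (n - p - q) p) ≤
      3 * R * K * ((1 / (N : ℝ) ^ 2) * ∑ i : Fin N, ∑ j : Fin N,
        hsn (X (q + ((i : ℕ) : ZMod Q)) (p + ((j : ℕ) : ZMod Q)) -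
          Y (q + ((i : ℕ) : ZMod Q)) (p + ((j : ℕ) : ZMod Q)))) +
      3 * R' * K * ((1 / (N : ℝ) ^ 2) * ∑ i : Fin N, ∑ j : Fin N,
        hsn (Z (n - p - q + ((i : ℕ) : ZMod Q)) (p + ((j : ℕ) : ZMod Q)) -
          V (n - p - q + ((i : ℕ) : ZMod Q)) (p + ((j : ℕ) : ZMod Q)))) := by
    intro p q
    refine box_cost X Y Z V hN q p (n - p - q) hR0 hR'0 hK0 hKK ?_ ?_
    · intro i j hne
      exact ⟨h.rowX (fun he => hne (by rw [he])) _ _, h.colX _ _, h.colZ _ _⟩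
    · intro i j hne
      exact ⟨h.rowZ (fun he => hne (by rw [he])) _ _, h.colX _ _, h.colZ _ _⟩
  refine (Finset.sum_le_sum fun p _ => Finset.sum_le_sum fun q _ => hb p q).trans (le_of_eq ?_)
  simp_rw [Finset.sum_add_distrib, ← Finset.mul_sum]
  have e1 := sum_box_avg (fun x y => hsn (X x y - Y x y)) hN
  have e2 := sum_box_avg (fun x y => hsn (Z x y - V x y)) hN
  simp_rw [← Finset.mul_sum] at e1 e2
  have e3 : ∑ p : ZMod Q, ∑ q : ZMod Q, ∑ i : Fin N, ∑ j : Fin N,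
      hsn (Z (n - p - q + ((i : ℕ) : ZMod Q)) (p + ((j : ℕ) : ZMod Q)) -
          V (n - p - q + ((i : ℕ) : ZMod Q)) (p + ((j : ℕ) : ZMod Q))) =
      ∑ p : ZMod Q, ∑ q : ZMod Q, ∑ i : Fin N, ∑ j : Fin N,
      hsn (Z (q + ((i : ℕ) : ZMod Q)) (p + ((j : ℕ) : ZMod Q)) -
          V (q + ((i : ℕ) : ZMod Q)) (p + ((j : ℕ) : ZMod Q))) := by
    refine Finset.sum_congr rfl fun p _ => ?_
    rw [← Equiv.sum_comp (Equiv.subLeft (n - p)) (fun q => ∑ i : Fin N, ∑ j : Fin N,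
      hsn (Z (q + ((i : ℕ) : ZMod Q)) (p + ((j : ℕ) : ZMod Q)) -
          V (q + ((i : ℕ) : ZMod Q)) (p + ((j : ℕ) : ZMod Q))))]
    rfl
  rw [e3, e1, e2]
  rfl

/-- cost, own potential -/
theorem EW_cost (X Y : ZMod Q → ZMod Q → Matrix β α ℝ) {N : ℕ} (hN : 0 < N) {R K : ℝ}
    (hR0 : 0 ≤ R) (hK0 : 0 ≤ K) (hR : X ≠ Y → ∀ x p, RowB X N R x p)
    (hK : ∀ q y, ColB X N K q y) :
    EW (phiP α) X N N - EW (phiP α) Y N N ≤ 3 * R * K * dist1 X Y := by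
  have hz : ∀ q y, ColB (fun _ _ => (0 : Matrix β α ℝ) : ZMod Q → ZMod Q → Matrix β α ℝ)
      N 0 q y := by
    intro q y v
    simp
  have h0 : ∀ q p, abar (fun _ _ => (0 : Matrix β α ℝ) : ZMod Q → ZMod Q → Matrix β α ℝ)
      N N q p = 0 := by
    intro q p
    ext a b
    simp [abar]
  have hw := W_cost X Y (fun _ _ => (0 : Matrix β α ℝ) : ZMod Q → ZMod Q → Matrix β α ℝ)
    (fun _ _ => (0 : Matrix β α ℝ)) hN 0 (R := R) (R' := 0) (K := K) (K₁ := K) (K₂ := 0) hR0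
    le_rfl hK0 (by simp) ⟨hR, fun h => absurd rfl h, hK, hz⟩
  rw [dist1_self, mul_zero, add_zero] at hw
  unfold W at hw
  simp only [h0, add_zero] at hw
  exact hw

theorem bl_const (c : ℝ) {N : ℕ} (hN : 0 < N) (l : ℤ) : bl (fun _ : ZMod Q => c) N l = c := by
  have hN' : (N : ℝ) ≠ 0 := by exact_mod_cast hN.ne'
  unfold bl
  rw [Finset.sum_const, Finset.card_range, nsmul_eq_mul]
  field_simp

theorem Vb_cost (X Y : ZMod Q → ZMod Q → Matrix β α ℝ) (Z V : ZMod Q → ZMod Q → Matrix γ α ℝ)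
    {N : ℕ} (hN : 0 < N) {R R' K K₁ K₂ : ℝ} (hR0 : 0 ≤ R) (hR'0 : 0 ≤ R')
    (hK0 : 0 ≤ K) (hKK : K₁ ^ 2 + K₂ ^ 2 ≤ K ^ 2) (h : UB X Z Y V N R R' K₁ K₂) :
    Vb (phiP α) X Z N - Vb (phiP α) Y V N ≤ 3 * R * K * dist1 X Y + 3 * R' * K * dist1 Z V := by
  unfold Vb
  have h1 : bl (W (phiP α) X Z N N) N (-2) ≤ bl (fun n => W (phiP α) Y V N N n +
      (3 * R * K * dist1 X Y + 3 * R' * K * dist1 Z V)) N (-2) :=
    bl_mono (fun n => by have := W_cost X Y Z V hN n hR0 hR'0 hK0 hKK h; linarith) _ _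
  rw [bl_add, bl_const _ hN] at h1
  linarith

theorem EE_cost (X Y : ZMod Q → ZMod Q → Matrix β α ℝ) (Z V : ZMod Q → ZMod Q → Matrix γ α ℝ)
    {N : ℕ} (hN : 0 < N) {R R' K K₁ K₂ : ℝ} (hR0 : 0 ≤ R) (hR'0 : 0 ≤ R') (hK₁ : 0 ≤ K₁)
    (hK₂ : 0 ≤ K₂) (hK0 : 0 ≤ K) (hKK : K₁ ^ 2 + K₂ ^ 2 ≤ K ^ 2)
    (h : UB X Z Y V N R R' K₁ K₂) :
    EE (phiP α) X Z N - EE (phiP α) Y V N ≤ 3 * R * K * dist1 X Y + 3 * R' * K * dist1 Z V := by
  have h1 := EW_cost X Y hN hR0 hK₁ h.rowX h.colX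
  have h2 := EW_cost Z V hN hR'0 hK₂ h.rowZ h.colZ
  have hk1 : K₁ ≤ K := by nlinarith [sq_nonneg K₂]
  have hk2 : K₂ ≤ K := by nlinarith [sq_nonneg K₁]
  have e1 : 3 * R * K₁ * dist1 X Y ≤ 3 * R * K * dist1 X Y :=
    mul_le_mul_of_nonneg_right (by nlinarith) (dist1_nonneg _ _)
  have e2 : 3 * R' * K₂ * dist1 Z V ≤ 3 * R' * K * dist1 Z V :=
    mul_le_mul_of_nonneg_right (by nlinarith) (dist1_nonneg _ _)
  unfold EE
  linarith

theorem RowB_double {X : ZMod Q → ZMod Q → Matrix β α ℝ} {N : ℕ} (hN : 0 < N) {R : ℝ}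
    (h : ∀ x p, RowB X N R x p) : ∀ x p, RowB X (N + N) R x p := by
  intro x p
  have hN' : (N : ℝ) ≠ 0 := by exact_mod_cast hN.ne'
  have h1 := h x p
  have h2 := h x (p + (N : ZMod Q))
  unfold RowB at *
  rw [Finset.sum_range_add]
  simp only [Nat.cast_add, ← add_assoc]
  have e : (1 / ((N : ℝ) + N)) = (1 / 2) * (1 / (N : ℝ)) := by field_simp; norm_num
  rw [e]
  nlinarith

theorem ColB_double {X : ZMod Q → ZMod Q → Matrix β α ℝ} {N : ℕ} (hN : 0 < N) {K : ℝ}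
    (h : ∀ q y, ColB X N K q y) : ∀ q y, ColB X (N + N) K q y := by
  intro q y v
  have hN' : (N : ℝ) ≠ 0 := by exact_mod_cast hN.ne'
  have h1 := h q y v
  have h2 := h (q + (N : ZMod Q)) y v
  rw [Finset.sum_range_add]
  simp only [Nat.cast_add, ← add_assoc]
  have e : (1 / ((N : ℝ) + N)) = (1 / 2) * (1 / (N : ℝ)) := by field_simp; norm_num
  rw [e]
  nlinarith

theorem UB.pow {X X' : ZMod Q → ZMod Q → Matrix β α ℝ} {Z Z' : ZMod Q → ZMod Q → Matrix γ α ℝ}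
    {a : ℕ} {R R' K₁ K₂ : ℝ} (h : UB X Z X' Z' (2 ^ a) R R' K₁ K₂) (j : ℕ) :
    UB X Z X' Z' (2 ^ (a + j)) R R' K₁ K₂ := by
  induction j with
  | zero => exact h
  | succ j ih =>
    have hp : 0 < 2 ^ (a + j) := by positivity
    have e : 2 ^ (a + (j + 1)) = 2 ^ (a + j) + 2 ^ (a + j) := by ring
    rw [e]
    exact ⟨fun hne => RowB_double hp (ih.rowX hne), fun hne => RowB_double hp (ih.rowZ hne),
      ColB_double hp ih.colX, ColB_double hp ih.colZ⟩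

end lat

end Crest.Agent.R079.PotL
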