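import Crest.Agent.R072.Lattice

/-! R079, LABELLED lattice potentials, definitions (label version of helper491's `PotDefs_491`).

Functions `X : ZMod Q → ZMod Q → Matrix β α ℝ` : value at `(q, p)` = matrix, row label `β` attached to
the first variable, column label `α` attached to the second variable.  `abar X a r q p` is the
averaged Gram matrix on `Fin r × α` (average over the `a` rows, SUM over the row labels).  Labels are
arbitrary finite types; no dimension enters any constant.  helper931. -/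

set_option autoImplicit false
set_option linter.unusedVariables false
set_option linter.unusedSectionVars false

namespace Crest.Agent.R079.PotL

open Matrix Finset Crest.Agent.R072
open Crest.Agent.R072.Lattice (sum_sub_left' sum_add_right' sum_shift sum_range_mul_aux)
open scoped MatrixOrder

variable {α β γ : Type*}

/-- a pair of "trace" potentials -/
structure TPot (α : Type*) where
  /-- joint potential -/
  F : (r : ℕ) → Matrix (Fin r × α) (Fin r × α) ℝ → ℝ
  /-- companion (own) potential -/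
  E : (r : ℕ) → Matrix (Fin r × α) (Fin r × α) ℝ → ℝ

/-- midpoint gap of a function on matrices -/
noncomputable def mgap (G : (r : ℕ) → Matrix (Fin r × α) (Fin r × α) ℝ → ℝ) (r : ℕ)
    (X Y : Matrix (Fin r × α) (Fin r × α) ℝ) : ℝ :=
  G r X + G r Y - 2 * G r ((1 / 2 : ℝ) • (X + Y))

/-- upper left block, doubled -/
def blkA (r : ℕ) (M : Matrix (Fin (r + r) × α) (Fin (r + r) × α) ℝ) : Matrix (Fin r × α) (Fin r × α) ℝ :=
  (2 : ℝ) • M.submatrix (Prod.map (Fin.castAdd r) id) (Prod.map (Fin.castAdd r) id)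

/-- lower right block, doubled -/
def blkB (r : ℕ) (M : Matrix (Fin (r + r) × α) (Fin (r + r) × α) ℝ) : Matrix (Fin r × α) (Fin r × α) ℝ :=
  (2 : ℝ) • M.submatrix (Prod.map (Fin.natAdd r) id) (Prod.map (Fin.natAdd r) id)

/-- pinching gain: `F(2 M₁₁) + F(2 M₂₂) - 2 F(M)` -/
noncomputable def gam (G : (r : ℕ) → Matrix (Fin r × α) (Fin r × α) ℝ → ℝ) (r : ℕ)
    (M : Matrix (Fin (r + r) × α) (Fin (r + r) × α) ℝ) : ℝ :=
  G r (blkA r M) + G r (blkB r M) - 2 * G (r + r) M

/-- one potential: nonnegative, convex (supporting functional at every PSD matrix), pinching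
inequality -/
structure GoodPot (G : (r : ℕ) → Matrix (Fin r × α) (Fin r × α) ℝ → ℝ) : Prop where
  nonneg : ∀ (r : ℕ) (M : Matrix (Fin r × α) (Fin r × α) ℝ), M.PosSemidef → 0 ≤ G r M
  supp : ∀ (r : ℕ) (Z : Matrix (Fin r × α) (Fin r × α) ℝ), Z.PosSemidef →
    ∃ L : Matrix (Fin r × α) (Fin r × α) ℝ →ₗ[ℝ] ℝ, ∀ X : Matrix (Fin r × α) (Fin r × α) ℝ, X.PosSemidef →
      G r Z + L (X - Z) ≤ G r X
  split : ∀ (r : ℕ) (M : Matrix (Fin (r + r) × α) (Fin (r + r) × α) ℝ), M.PosSemidef → 0 ≤ gam G r M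

theorem GoodPot.mid {G : (r : ℕ) → Matrix (Fin r × α) (Fin r × α) ℝ → ℝ} (h : GoodPot G) (r : ℕ)
    (X Y : Matrix (Fin r × α) (Fin r × α) ℝ) (hX : X.PosSemidef) (hY : Y.PosSemidef) :
    G r ((1 / 2 : ℝ) • (X + Y)) ≤ (1 / 2) * G r X + (1 / 2) * G r Y := by
  obtain ⟨L, hL⟩ := h.supp r ((1 / 2 : ℝ) • (X + Y)) ((hX.add hY).smul (by norm_num))
  have h1 := hL X hX
  have h2 := hL Y hY
  have e : L (X - (1 / 2 : ℝ) • (X + Y)) + L (Y - (1 / 2 : ℝ) • (X + Y)) = 0 := by
    rw [← map_add]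
    have : X - (1 / 2 : ℝ) • (X + Y) + (Y - (1 / 2 : ℝ) • (X + Y)) = 0 := by
      have h3 : (1 / 2 : ℝ) • (X + Y) + (1 / 2 : ℝ) • (X + Y) = X + Y := by
        rw [← add_smul]; norm_num
      calc X - (1 / 2 : ℝ) • (X + Y) + (Y - (1 / 2 : ℝ) • (X + Y))
          = (X + Y) - ((1 / 2 : ℝ) • (X + Y) + (1 / 2 : ℝ) • (X + Y)) := by abel
        _ = 0 := by rw [h3, sub_self]
    rw [this, map_zero]
  linarith

/-- the axioms used by the lattice argument, with constant `c` in the mixed difference estimate -/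
structure Good (P : TPot α) (c : ℝ) : Prop where
  c0 : 0 ≤ c
  F : GoodPot P.F
  E : GoodPot P.E
  mixed : ∀ (r : ℕ) (a₁ a₂ b₁ b₂ : Matrix (Fin r × α) (Fin r × α) ℝ), a₁.PosSemidef → a₂.PosSemidef →
    b₁.PosSemidef → b₂.PosSemidef →
    |P.F r (a₁ + b₁) + P.F r (a₂ + b₂) - P.F r (a₁ + b₂) - P.F r (a₂ + b₁)| ≤
      c * (mgap P.E r a₁ a₂ + mgap P.E r b₁ b₂)


section lat

variable {Q : ℕ} [NeZero Q] [Fintype α] [DecidableEq α] [Fintype β] [Fintype γ]

/-- averaged Gram matrices with labels -/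
noncomputable def abar (X : ZMod Q → ZMod Q → Matrix β α ℝ) (a r : ℕ) (q p : ZMod Q) :
    Matrix (Fin r × α) (Fin r × α) ℝ :=
  fun j j' => (1 / ((a : ℝ) * r)) *
    ∑ i ∈ range a, ∑ l : β, X (q + (i : ZMod Q)) (p + ((j.1 : ℕ) : ZMod Q)) l j.2 *
      X (q + (i : ZMod Q)) (p + ((j'.1 : ℕ) : ZMod Q)) l j'.2

theorem abar_posSemidef (X : ZMod Q → ZMod Q → Matrix β α ℝ) (a r : ℕ) (q p : ZMod Q) :
    (abar X a r q p).PosSemidef := by
  have h : abar X a r q p = (1 / ((a : ℝ) * r)) •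
      ∑ i ∈ range a, ∑ l : β,
        vecMulVec (fun j : Fin r × α => X (q + (i : ZMod Q)) (p + ((j.1 : ℕ) : ZMod Q)) l j.2)
        (star (fun j : Fin r × α => X (q + (i : ZMod Q)) (p + ((j.1 : ℕ) : ZMod Q)) l j.2)) := by
    ext j j'
    simp [abar, Matrix.sum_apply, vecMulVec_apply]
  rw [h]
  refine PosSemidef.smul ?_ (by positivity)
  exact posSemidef_sum _ (fun i _ => posSemidef_sum _
    (fun l _ => posSemidef_vecMulVec_self_star _))

theorem abar_add_posSemidef (X : ZMod Q → ZMod Q → Matrix β α ℝ)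
    (Z : ZMod Q → ZMod Q → Matrix γ α ℝ) (a r : ℕ) (q p q' p' : ZMod Q) :
    (abar X a r q p + abar Z a r q' p').PosSemidef :=
  (abar_posSemidef X a r q p).add (abar_posSemidef Z a r q' p')

/-- averages over `2a` points -/
theorem abar_double (X : ZMod Q → ZMod Q → Matrix β α ℝ) {a r : ℕ} (ha : 0 < a) (q p : ZMod Q) :
    abar X (a + a) r q p = (1 / 2 : ℝ) • (abar X a r q p + abar X a r (q + a) p) := by
  ext j j'
  simp only [abar, Matrix.smul_apply, Matrix.add_apply, smul_eq_mul, Finset.sum_range_add]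
  have ha' : (a : ℝ) ≠ 0 := by exact_mod_cast ha.ne'
  have : (1 / (((a + a : ℕ) : ℝ) * r)) = (1 / 2) * (1 / ((a : ℝ) * r)) := by
    push_cast
    rcases eq_or_ne (r : ℝ) 0 with hr | hr
    · simp [hr]
    · field_simp; norm_num
  rw [this]
  simp only [Nat.cast_add, ← add_assoc]
  ring

theorem abar_submatrix_castAdd (X : ZMod Q → ZMod Q → Matrix β α ℝ) {a r : ℕ} (hr : 0 < r)
    (q p : ZMod Q) : (2 : ℝ) • (abar X a (r + r) q p).submatrix (Prod.map (Fin.castAdd r) id)
      (Prod.map (Fin.castAdd r) id) = abar X a r q p := by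
  ext j j'
  simp only [abar, Matrix.smul_apply, Matrix.submatrix_apply, smul_eq_mul, Prod.map_fst,
    Prod.map_snd, Fin.val_castAdd, id]
  have hr' : (r : ℝ) ≠ 0 := by exact_mod_cast hr.ne'
  have : (1 / ((a : ℝ) * r)) = 2 * (1 / ((a : ℝ) * ((r + r : ℕ) : ℝ))) := by
    push_cast
    rcases eq_or_ne (a : ℝ) 0 with ha | ha
    · simp [ha]
    · field_simp; norm_num
  rw [this]
  ring

theorem abar_submatrix_natAdd (X : ZMod Q → ZMod Q → Matrix β α ℝ) {a r : ℕ} (hr : 0 < r)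
    (q p : ZMod Q) : (2 : ℝ) • (abar X a (r + r) q p).submatrix (Prod.map (Fin.natAdd r) id)
      (Prod.map (Fin.natAdd r) id) = abar X a r q (p + r) := by
  ext j j'
  simp only [abar, Matrix.smul_apply, Matrix.submatrix_apply, smul_eq_mul, Prod.map_fst,
    Prod.map_snd, Fin.val_natAdd, id, Nat.cast_add, ← add_assoc]
  have hr' : (r : ℝ) ≠ 0 := by exact_mod_cast hr.ne'
  have : (1 / ((a : ℝ) * r)) = 2 * (1 / ((a : ℝ) * ((r : ℝ) + (r : ℝ)))) := by
    rcases eq_or_ne (a : ℝ) 0 with ha | ha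
    · simp [ha]
    · field_simp; norm_num
  rw [this]
  ring

/-- `KN`-averages are averages of shifted `N`-averages -/
theorem abar_mul (X : ZMod Q → ZMod Q → Matrix β α ℝ) {K N r : ℕ} (hK : 0 < K) (hN : 0 < N)
    (q p : ZMod Q) :
    abar X (K * N) r q p =
      (1 / (K : ℝ)) • ∑ i ∈ range K, abar X N r (q + (i : ZMod Q) * N) p := by
  have hK' : (K : ℝ) ≠ 0 := by positivity
  have hN' : (N : ℝ) ≠ 0 := by positivity
  ext j j'
  rw [Matrix.smul_apply, Matrix.sum_apply]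
  unfold abar
  rw [sum_range_mul_aux, smul_eq_mul, ← Finset.mul_sum, ← mul_assoc]
  congr 1
  · push_cast
    rw [mul_assoc, one_div_mul_one_div]
  · refine Finset.sum_congr rfl fun i _ => Finset.sum_congr rfl fun k _ => ?_
    have : q + ((i * N + k : ℕ) : ZMod Q) = q + (i : ZMod Q) * N + (k : ZMod Q) := by
      push_cast; ring
    rw [this]

theorem abar_two (X : ZMod Q → ZMod Q → Matrix β α ℝ) {N r : ℕ} (hN : 0 < N) (q p : ZMod Q) :
    abar X (N + N) r q p = (1 / 2 : ℝ) • (abar X N r q p + abar X N r (q + N) p) := by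
  have h := abar_mul X (K := 2) (r := r) (by norm_num) hN q p
  rw [two_mul] at h
  rw [h]
  simp [Finset.sum_range_succ]


/-- joint potential at sizes `(a, r)`, offset `n` (R072's `W`) -/
noncomputable def W (P : TPot α) (X : ZMod Q → ZMod Q → Matrix β α ℝ)
    (Z : ZMod Q → ZMod Q → Matrix γ α ℝ) (a r : ℕ) (n : ZMod Q) : ℝ :=
  ∑ p : ZMod Q, ∑ q : ZMod Q, P.F r (abar X a r q p + abar Z a r (n - p - q) p)

/-- own potential (companion `E`) -/
noncomputable def EW (P : TPot α) (X : ZMod Q → ZMod Q → Matrix β α ℝ) (a r : ℕ) : ℝ :=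
  ∑ p : ZMod Q, ∑ q : ZMod Q, P.E r (abar X a r q p)

/-- pinching gains of all boxes of side `2N`, offset `n` -/
noncomputable def GW (P : TPot α) (X : ZMod Q → ZMod Q → Matrix β α ℝ)
    (Z : ZMod Q → ZMod Q → Matrix γ α ℝ) (N : ℕ) (n : ZMod Q) : ℝ :=
  ∑ p : ZMod Q, ∑ q : ZMod Q,
    gam P.F N (abar X (N + N) (N + N) q p + abar Z (N + N) (N + N) (n - p - q) p)

/-- average of `f` over the block `[l N, l N + N)` of offsets -/
noncomputable def bl (f : ZMod Q → ℝ) (N : ℕ) (l : ℤ) : ℝ :=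
  (1 / (N : ℝ)) * ∑ i ∈ range N, f ((l : ZMod Q) * (N : ZMod Q) + (i : ZMod Q))

/-- reference potential: boxes of side `N`, block `-2` (centred) -/
noncomputable def Vb (P : TPot α) (X : ZMod Q → ZMod Q → Matrix β α ℝ)
    (Z : ZMod Q → ZMod Q → Matrix γ α ℝ) (N : ℕ) : ℝ :=
  bl (W P X Z N N) N (-2)

/-- own potentials of both functions at scale `N` -/
noncomputable def EE (P : TPot α) (X : ZMod Q → ZMod Q → Matrix β α ℝ)
    (Z : ZMod Q → ZMod Q → Matrix γ α ℝ) (N : ℕ) : ℝ :=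
  EW P X N N + EW P Z N N


end lat

end Crest.Agent.R079.PotL
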