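import Crest.Agent.R079.PLEdef_377

/-! R079, PLExt (doc 2517 of 377), [E1]: spectral cut of a projection and join of two projections,
with the trace bounds.  helper653. -/

set_option autoImplicit false
set_option linter.unusedVariables false
set_option linter.unusedSectionVars false

namespace Crest.Agent.R079.PotL

open Matrix Finset Crest.Agent.R072
open scoped MatrixOrder

namespace PLE1

variable {κ : Type*} [Fintype κ] [DecidableEq κ]

/-- real spectral theorem, bare hands form -/
lemma spec (T : Matrix κ κ ℝ) (hT : T.PosSemidef) :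
    ∃ (U : Matrix κ κ ℝ) (d : κ → ℝ), Uᵀ * U = 1 ∧ U * Uᵀ = 1 ∧ T = U * diagonal d * Uᵀ ∧
      ∀ i, 0 ≤ d i := by
  refine ⟨(hT.isHermitian.eigenvectorUnitary : Matrix κ κ ℝ), hT.isHermitian.eigenvalues, ?_, ?_,
    ?_, hT.eigenvalues_nonneg⟩
  · have := Unitary.coe_star_mul_self hT.isHermitian.eigenvectorUnitary
    rwa [star_eq_conjTranspose, conjTranspose_eq_transpose_of_trivial] at this
  · have := Unitary.coe_mul_star_self hT.isHermitian.eigenvectorUnitary
    rwa [Unitary.coe_star, star_eq_conjTranspose, conjTranspose_eq_transpose_of_trivial] at this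
  · have := hT.isHermitian.spectral_theorem
    rw [Unitary.conjStarAlgAut_apply, star_eq_conjTranspose,
      conjTranspose_eq_transpose_of_trivial] at this
    exact this

/-- functional calculus -/
lemma fmul {U : Matrix κ κ ℝ} (hU : Uᵀ * U = 1) (a b : κ → ℝ) :
    (U * diagonal a * Uᵀ) * (U * diagonal b * Uᵀ) = U * diagonal (fun i => a i * b i) * Uᵀ := by
  calc (U * diagonal a * Uᵀ) * (U * diagonal b * Uᵀ)
      = U * diagonal a * (Uᵀ * U) * diagonal b * Uᵀ := by simp only [Matrix.mul_assoc]
    _ = U * diagonal a * diagonal b * Uᵀ := by rw [hU, Matrix.mul_one]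
    _ = U * diagonal (fun i => a i * b i) * Uᵀ := by
        rw [Matrix.mul_assoc U, diagonal_mul_diagonal]

lemma ftr {U : Matrix κ κ ℝ} (a : κ → ℝ) :
    (U * diagonal a * Uᵀ)ᵀ = U * diagonal a * Uᵀ := by
  rw [transpose_mul, transpose_mul, transpose_transpose, diagonal_transpose, Matrix.mul_assoc]

lemma ftrace {U : Matrix κ κ ℝ} (hU : Uᵀ * U = 1) (a : κ → ℝ) :
    (U * diagonal a * Uᵀ).trace = ∑ i, a i := by
  rw [trace_mul_comm, ← Matrix.mul_assoc, hU, Matrix.one_mul, trace_diagonal]

lemma fquad {U : Matrix κ κ ℝ} (hU' : U * Uᵀ = 1) (a : κ → ℝ) {δ : ℝ} (ha : ∀ i, a i ≤ δ)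
    (v : κ → ℝ) : v ⬝ᵥ (U * diagonal a * Uᵀ) *ᵥ v ≤ δ * (v ⬝ᵥ v) := by
  have h1 : v ⬝ᵥ (U * diagonal a * Uᵀ) *ᵥ v = ∑ i, a i * (Uᵀ *ᵥ v) i ^ 2 := by
    rw [← mulVec_mulVec, ← mulVec_mulVec, dotProduct_mulVec, ← mulVec_transpose]
    simp only [dotProduct, mulVec_diagonal]
    exact Finset.sum_congr rfl fun i _ => by ring
  have h2 : v ⬝ᵥ v = ∑ i, (Uᵀ *ᵥ v) i ^ 2 := by
    have : v ⬝ᵥ v = v ⬝ᵥ (U * Uᵀ) *ᵥ v := by rw [hU', one_mulVec]
    rw [this, ← mulVec_mulVec, dotProduct_mulVec, ← mulVec_transpose]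
    simp only [dotProduct]
    exact Finset.sum_congr rfl fun i _ => by ring
  rw [h1, h2, Finset.mul_sum]
  exact Finset.sum_le_sum fun i _ => mul_le_mul_of_nonneg_right (ha i) (sq_nonneg _)

lemma trace_tmul_nonneg {ι : Type*} [Fintype ι] (A : Matrix ι κ ℝ) : 0 ≤ (Aᵀ * A).trace := by
  simp only [Matrix.trace, Matrix.diag, Matrix.mul_apply, Matrix.transpose_apply]
  exact Finset.sum_nonneg fun i _ => Finset.sum_nonneg fun j _ => mul_self_nonneg _

lemma tmul_zero {ι : Type*} [Fintype ι] (A : Matrix ι κ ℝ) (h : Aᵀ * A = 0) : A = 0 := by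
  have h1 : (Aᵀ * A).trace = 0 := by rw [h, trace_zero]
  simp only [Matrix.trace, Matrix.diag, Matrix.mul_apply, Matrix.transpose_apply] at h1
  ext j i
  have h2 := (Finset.sum_eq_zero_iff_of_nonneg fun i _ =>
    Finset.sum_nonneg fun j _ => mul_self_nonneg (A j i)).1 h1 i (Finset.mem_univ _)
  have h3 := (Finset.sum_eq_zero_iff_of_nonneg fun j _ => mul_self_nonneg (A j i)).1 h2 j
    (Finset.mem_univ _)
  simpa using mul_self_eq_zero.1 h3

lemma IsPr.trace_nonneg' {P : Matrix κ κ ℝ} (h : IsPr P) : 0 ≤ P.trace := by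
  have := trace_tmul_nonneg P
  rwa [h.symm, h.idem] at this

end PLE1

open PLE1

theorem exists_cut {κ : Type*} [Fintype κ] [DecidableEq κ] (q S : Matrix κ κ ℝ) (hq : IsPr q)
    (hS : S.PosSemidef) {δ : ℝ} (hδ : 0 < δ) :
    ∃ q' : Matrix κ κ ℝ, IsPr q' ∧ q' * q = q' ∧
      (∀ v : κ → ℝ, v ⬝ᵥ (q' * S * q') *ᵥ v ≤ δ * (v ⬝ᵥ v)) ∧
      δ * (q - q').trace ≤ ((q - q') * S).trace := by
  have hT : (q * S * q).PosSemidef := by
    have := hS.mul_mul_conjTranspose_same q
    rwa [conjTranspose_eq_transpose_of_trivial, hq.symm] at this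
  obtain ⟨U, d, hU, hU', hTe, hd⟩ := spec _ hT
  set T := q * S * q with hTd
  have hqT : q * T = T := by rw [hTd, ← Matrix.mul_assoc, ← Matrix.mul_assoc, hq.idem]
  set e := U * diagonal (fun i => if δ < d i then (1 : ℝ) else 0) * Uᵀ with he
  set g := U * diagonal (fun i => if δ < d i then (d i)⁻¹ else 0) * Uᵀ with hg
  have heT : e = T * g := by
    rw [hTe, hg, fmul hU, he]
    congr 2
    congr 1
    funext i
    split_ifs with h
    · exact (mul_inv_cancel₀ (hδ.trans h).ne').symm
    · simp
  have hqe : q * e = e := by rw [heT, ← Matrix.mul_assoc, hqT]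
  have hes : eᵀ = e := ftr _
  have heq : e * q = e := by
    have := congrArg Matrix.transpose hqe
    rwa [transpose_mul, hes, hq.symm] at this
  have hee : e * e = e := by
    rw [he, fmul hU]
    congr 2
    congr 1
    funext i
    split_ifs <;> simp
  have hq'q : (q - e) * q = q - e := by rw [Matrix.sub_mul, hq.idem, heq]
  have hqq' : q * (q - e) = q - e := by rw [Matrix.mul_sub, hq.idem, hqe]
  refine ⟨q - e, ⟨?_, ?_⟩, hq'q, ?_, ?_⟩
  · rw [transpose_sub, hes, hq.symm]
  · rw [Matrix.mul_sub, hq'q, Matrix.sub_mul, hqe, hee, sub_self, sub_zero]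
  · intro v
    have h1 : (q - e) * S * (q - e) = (q - e) * T * (q - e) := by
      have : (q - e) * T * (q - e) = ((q - e) * q) * S * (q * (q - e)) := by
        rw [hTd]; simp only [Matrix.mul_assoc]
      rw [this, hq'q, hqq']
    have hqTq : T * q = T := by rw [hTd, Matrix.mul_assoc, Matrix.mul_assoc, hq.idem,
      ← Matrix.mul_assoc]
    have h2 : (q - e) * T * (q - e)
        = U * diagonal (fun i => if δ < d i then 0 else d i) * Uᵀ := by
      have h3 : (q - e) * T * (q - e) = T - T * e - e * T + e * T * e := by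
        rw [Matrix.sub_mul, hqT, Matrix.mul_sub, Matrix.sub_mul, hqTq, Matrix.sub_mul,
          Matrix.mul_assoc e T q, hqTq]
        abel
      rw [h3, hTe, he, fmul hU, fmul hU, fmul hU, ← Matrix.sub_mul, ← Matrix.mul_sub,
        diagonal_sub, ← Matrix.sub_mul, ← Matrix.mul_sub, diagonal_sub, ← Matrix.add_mul,
        ← Matrix.mul_add, diagonal_add]
      congr 2
      congr 1
      funext i
      split_ifs <;> ring
    rw [h1, h2]
    refine fquad hU' _ (fun i => ?_) v
    split_ifs with h
    · exact hδ.le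
    · exact not_lt.1 h
  · rw [sub_sub_cancel]
    have h1 : (e * S).trace = (e * T).trace := by
      have : e * T = (e * q) * (S * q) := by rw [hTd]; simp only [Matrix.mul_assoc]
      rw [this, heq, ← Matrix.mul_assoc, trace_mul_comm (e * S) q, ← Matrix.mul_assoc, hqe]
    rw [h1, hTe, he, fmul hU, ftrace hU, ftrace hU, Finset.mul_sum]
    refine Finset.sum_le_sum fun i _ => ?_
    split_ifs with h
    · linarith
    · simp

theorem exists_join {κ : Type*} [Fintype κ] [DecidableEq κ] (R p : Matrix κ κ ℝ) (hR : IsPr R)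
    (hp : IsPr p) :
    ∃ R' : Matrix κ κ ℝ, IsPr R' ∧ R * R' = R ∧ p * R' = p ∧
      ∀ p' : Matrix κ κ ℝ, IsPr p' → p' * p = p' → p' * R = p' →
        R'.trace - R.trace ≤ p.trace - p'.trace := by
  have h1R : (1 - R)ᵀ = 1 - R := by rw [transpose_sub, transpose_one, hR.symm]
  have h1R2 : (1 - R) * (1 - R) = 1 - R := by
    rw [Matrix.sub_mul, Matrix.one_mul, Matrix.mul_sub, Matrix.mul_one, hR.idem, sub_self,
      sub_zero]
  have hR1 : R * (1 - R) = 0 := by rw [Matrix.mul_sub, Matrix.mul_one, hR.idem, sub_self]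
  have hpp : p.PosSemidef := by
    have := posSemidef_conjTranspose_mul_self p
    rwa [conjTranspose_eq_transpose_of_trivial, hp.symm, hp.idem] at this
  have hT : ((1 - R) * p * (1 - R)).PosSemidef := by
    have := hpp.mul_mul_conjTranspose_same (1 - R)
    rwa [conjTranspose_eq_transpose_of_trivial, h1R] at this
  obtain ⟨U, d, hU, hU', hTe, hd⟩ := spec _ hT
  set T := (1 - R) * p * (1 - R) with hTd
  set e := U * diagonal (fun i => if 0 < d i then (1 : ℝ) else 0) * Uᵀ with he
  set g := U * diagonal (fun i => if 0 < d i then (d i)⁻¹ else 0) * Uᵀ with hg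
  have heT : e = T * g := by
    rw [hTe, hg, fmul hU, he]
    congr 2
    congr 1
    funext i
    split_ifs with h
    · exact (mul_inv_cancel₀ h.ne').symm
    · simp
  have hRT : R * T = 0 := by
    rw [hTd, ← Matrix.mul_assoc, ← Matrix.mul_assoc, hR1, Matrix.zero_mul, Matrix.zero_mul]
  have hRe : R * e = 0 := by rw [heT, ← Matrix.mul_assoc, hRT, Matrix.zero_mul]
  have hes : eᵀ = e := ftr _
  have heR : e * R = 0 := by
    have := congrArg Matrix.transpose hRe
    rwa [transpose_mul, hes, hR.symm, transpose_zero] at this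
  have hee : e * e = e := by
    rw [he, fmul hU]
    congr 2
    congr 1
    funext i
    split_ifs <;> simp
  have hTee : T * e = T := by
    rw [hTe, he, fmul hU]
    congr 2
    congr 1
    funext i
    split_ifs with h
    · simp
    · have := le_antisymm (not_lt.1 h) (hd i)
      simp [this]
  have hT1 : T * (1 - R) = T := by rw [hTd, Matrix.mul_assoc, h1R2]
  have hpR' : p * (R + e) = p := by
    set w := 1 - R - e with hw
    have hws : wᵀ = w := by rw [hw, transpose_sub, h1R, hes]
    have hw1 : (1 - R) * w = w := by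
      rw [hw, Matrix.mul_sub, h1R2, Matrix.sub_mul, Matrix.one_mul, hRe, sub_zero]
    have hw2 : w * (1 - R) = w := by
      have := congrArg Matrix.transpose hw1
      rwa [transpose_mul, hws, h1R] at this
    have hTw : T * w = 0 := by rw [hw, Matrix.mul_sub, hT1, hTee, sub_self]
    have h1 : w * p * w = 0 := by
      have h2 : w * p * w = (w * (1 - R)) * p * ((1 - R) * w) := by rw [hw1, hw2]
      have h3 : (w * (1 - R)) * p * ((1 - R) * w) = w * (T * w) := by
        rw [hTd]; simp only [Matrix.mul_assoc]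
      rw [h2, h3, hTw, Matrix.mul_zero]
    have h2 : p * w = 0 := by
      apply tmul_zero
      rw [transpose_mul, hws, hp.symm]
      calc w * p * (p * w) = w * (p * p) * w := by simp only [Matrix.mul_assoc]
        _ = 0 := by rw [hp.idem, h1]
    have h3 : R + e = 1 - w := by rw [hw]; abel
    rw [h3, Matrix.mul_sub, Matrix.mul_one, h2, sub_zero]
  refine ⟨R + e, ⟨?_, ?_⟩, ?_, hpR', ?_⟩
  · rw [transpose_add, hes, hR.symm]
  · rw [Matrix.add_mul, Matrix.mul_add, Matrix.mul_add, hR.idem, hRe, heR, hee, add_zero,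
      zero_add]
  · rw [Matrix.mul_add, hR.idem, hRe, add_zero]
  · intro p' hp' hp'p hp'R
    have hpp' : p * p' = p' := by
      have := congrArg Matrix.transpose hp'p
      rwa [transpose_mul, hp'.symm, hp.symm] at this
    set D := p - p' with hD
    have hDs : Dᵀ = D := by rw [hD, transpose_sub, hp.symm, hp'.symm]
    have hDD : D * D = D := by
      rw [hD, Matrix.sub_mul, Matrix.mul_sub, Matrix.mul_sub, hp.idem, hpp', hp'p, hp'.idem,
        sub_self, sub_zero]
    have hTD : T = (1 - R) * D * (1 - R) := by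
      have h0 : p' * (1 - R) = 0 := by rw [Matrix.mul_sub, Matrix.mul_one, hp'R, sub_self]
      rw [hTd, hD, Matrix.mul_sub (1 - R) p p', Matrix.sub_mul ((1 - R) * p) ((1 - R) * p') (1 - R),
        Matrix.mul_assoc (1 - R) p' (1 - R), h0, Matrix.mul_zero, sub_zero]
    set s := U * diagonal (fun i => if 0 < d i then (Real.sqrt (d i))⁻¹ else 0) * Uᵀ with hs
    have hss : sᵀ = s := ftr _
    have hse : s * e = s := by
      rw [hs, he, fmul hU]
      congr 2
      congr 1
      funext i
      split_ifs <;> simp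
    have hsTs : s * T * s = e := by
      rw [hs, hTe, fmul hU, fmul hU, he]
      congr 2
      congr 1
      funext i
      split_ifs with h
      · have h1 := Real.mul_self_sqrt h.le
        have h2 : Real.sqrt (d i) ≠ 0 := (Real.sqrt_pos.2 h).ne'
        field_simp
        nlinarith
      · simp
    set V := D * (1 - R) * s with hV
    have hVV : Vᵀ * V = e := by
      have h1 : Vᵀ = s * (1 - R) * D := by
        rw [hV, transpose_mul (D * (1 - R)) s, transpose_mul D (1 - R), hDs, h1R, hss,
          Matrix.mul_assoc s (1 - R) D]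
      have h2 : s * (1 - R) * D * (D * (1 - R) * s) = s * ((1 - R) * (D * D) * (1 - R)) * s := by
        simp only [Matrix.mul_assoc]
      rw [h1, hV, h2, hDD, ← hTD, hsTs]
    have hVe : V * e = V := by rw [hV, Matrix.mul_assoc, hse]
    have hDV : D * V = V := by
      have h1 : D * (D * (1 - R) * s) = (D * D) * (1 - R) * s := by simp only [Matrix.mul_assoc]
      rw [hV, h1, hDD]
    set P := V * Vᵀ with hP
    have hPs : Pᵀ = P := by rw [hP, transpose_mul, transpose_transpose]
    have hPP : P * P = P := by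
      have h1 : V * Vᵀ * (V * Vᵀ) = V * (Vᵀ * V) * Vᵀ := by simp only [Matrix.mul_assoc]
      rw [hP, h1, hVV, hVe]
    have hDP : D * P = P := by rw [hP, ← Matrix.mul_assoc, hDV]
    have hPD : P * D = P := by
      have := congrArg Matrix.transpose hDP
      rwa [transpose_mul, hPs, hDs] at this
    have h1 : 0 ≤ (D - P).trace := by
      have h2 := trace_tmul_nonneg (D - P)
      have h5 : (D - P)ᵀ * (D - P) = D - P := by
        rw [transpose_sub, hDs, hPs, Matrix.mul_sub (D - P) D P, Matrix.sub_mul D P D,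
          Matrix.sub_mul D P P, hDD, hPD, hDP, hPP, sub_self, sub_zero]
      rwa [h5] at h2
    have h3 : P.trace = e.trace := by rw [hP, trace_mul_comm, hVV]
    have h4 : D.trace = p.trace - p'.trace := by rw [hD, trace_sub]
    rw [trace_sub, h3, h4] at h1
    rw [trace_add]
    linarith

end Crest.Agent.R079.PotL
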