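import Crest.Agent.R079.PLEdef_377

/-! R079, doc 2517 [E2]: Cuculescu projections on dyadic cells, over the spectral cut as a
hypothesis `CutH`.  helper476. -/

set_option autoImplicit false
set_option linter.unusedVariables false
set_option linter.unusedSectionVars false

namespace Crest.Agent.R079.PotL

open Matrix Finset Crest.Agent.R072
open scoped MatrixOrder

namespace E2c
section
variable {Q : ℕ} [NeZero Q] {κ : Type*} [Fintype κ] [DecidableEq κ]

theorem cel_succ (m : ℕ) (x : ZMod Q) : cel (m + 1) x = cel m x / 2 := by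
  unfold cel
  rw [pow_succ, Nat.div_div_eq_div_mul]

theorem card_cel_le (m i : ℕ) : (univ.filter fun x : ZMod Q => cel m x = i).card ≤ 2 ^ m := by
  have h : (univ.filter fun x : ZMod Q => cel m x = i).card ≤
      (Finset.Ico (i * 2 ^ m) (i * 2 ^ m + 2 ^ m)).card := by
    refine Finset.card_le_card_of_injOn (fun x => x.val) ?_ ?_
    · intro x hx
      have hx2 : x.val / 2 ^ m = i := (Finset.mem_filter.1 (Finset.mem_coe.1 hx)).2
      simp only [coe_Ico, Set.mem_Ico]
      subst hx2
      have h1 := Nat.div_mul_le_self x.val (2 ^ m)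
      have h2 := Nat.lt_div_mul_add (a := x.val) (b := 2 ^ m) (by positivity)
      exact ⟨h1, h2⟩
    · intro x _ y _ hxy
      exact ZMod.val_injective Q hxy
  simpa using h

/-- the statement of `exists_cut` -/
def CutH (κ : Type*) [Fintype κ] [DecidableEq κ] : Prop :=
  ∀ (q S : Matrix κ κ ℝ), IsPr q → S.PosSemidef → ∀ δ : ℝ, 0 < δ →
    ∃ q' : Matrix κ κ ℝ, IsPr q' ∧ q' * q = q' ∧
      (∀ v : κ → ℝ, v ⬝ᵥ (q' * S * q') *ᵥ v ≤ δ * (v ⬝ᵥ v)) ∧
      δ * (q - q').trace ≤ ((q - q') * S).trace

theorem isPr_one : IsPr (1 : Matrix κ κ ℝ) := ⟨by simp, by simp⟩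

theorem isPr_diff {q q' : Matrix κ κ ℝ} (h : IsPr q) (h' : IsPr q') (hle : q' * q = q') :
    IsPr (q - q') := by
  have h2 : q * q' = q' := by
    have := congrArg Matrix.transpose hle
    rwa [Matrix.transpose_mul, h.symm, h'.symm] at this
  refine ⟨by rw [Matrix.transpose_sub, h.symm, h'.symm], ?_⟩
  rw [Matrix.sub_mul, Matrix.mul_sub, Matrix.mul_sub, h.idem, h'.idem, hle, h2]
  abel

theorem isPr_tr {D G : Matrix κ κ ℝ} (hD : IsPr D) (hG : G.PosSemidef) :
    0 ≤ (D * G).trace := by
  have h1 : (D * G).trace = (D * G * D.conjTranspose).trace := by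
    have hc : D.conjTranspose = D := by rw [Matrix.conjTranspose_eq_transpose_of_trivial, hD.symm]
    rw [hc, Matrix.trace_mul_comm (D * G) D, ← Matrix.mul_assoc, hD.idem]
  rw [h1]
  exact (hG.mul_mul_conjTranspose_same D).trace_nonneg

variable (G : ZMod Q → Matrix κ κ ℝ)

/-- cell average -/
noncomputable def cellS (m i : ℕ) : Matrix κ κ ℝ :=
  ((2 : ℝ) ^ m)⁻¹ • ∑ y with cel (Q := Q) m y = i, G y

theorem cellS_psd (hG : ∀ x, (G x).PosSemidef) (m i : ℕ) : (cellS G m i).PosSemidef := by
  unfold cellS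
  refine Matrix.PosSemidef.smul ?_ (by positivity)
  exact Matrix.posSemidef_sum _ fun y _ => hG y

/-- the Cuculescu projections, indexed by `j = M - m` and the cell -/
noncomputable def cucA (cut : Matrix κ κ ℝ → Matrix κ κ ℝ → Matrix κ κ ℝ) (M : ℕ) :
    ℕ → ℕ → Matrix κ κ ℝ
  | 0, i => cut 1 (cellS G M i)
  | j + 1, i => cut (cucA cut M j (i / 2)) (cellS G (M - (j + 1)) i)

theorem exists_cuc_of (hcut : CutH κ) {M : ℕ} (hG : ∀ x, (G x).PosSemidef) {δ : ℝ} (hδ : 0 < δ) :
    ∃ q : ℕ → ZMod Q → Matrix κ κ ℝ, (∀ m x, IsPr (q m x)) ∧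
      (∀ m ≤ M, ∀ x y, cel m x = cel m y → q m x = q m y) ∧
      (∀ m < M, ∀ x, q m x * q (m + 1) x = q m x) ∧
      (∀ m ≤ M, ∀ x (v : κ → ℝ), ∑ y with cel m y = cel m x, v ⬝ᵥ (q m x * G y * q m x) *ᵥ v ≤
        2 ^ m * δ * (v ⬝ᵥ v)) ∧
      δ * ∑ x, (1 - q 0 x).trace ≤ ∑ x, (G x).trace := by
  classical
  have hc : ∀ p : Matrix κ κ ℝ × Matrix κ κ ℝ, ∃ q' : Matrix κ κ ℝ, IsPr p.1 → p.2.PosSemidef →
      IsPr q' ∧ q' * p.1 = q' ∧
      (∀ v : κ → ℝ, v ⬝ᵥ (q' * p.2 * q') *ᵥ v ≤ δ * (v ⬝ᵥ v)) ∧
      δ * (p.1 - q').trace ≤ ((p.1 - q') * p.2).trace := by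
    intro p
    by_cases h1 : IsPr p.1
    · by_cases h2 : p.2.PosSemidef
      · obtain ⟨q', hq'⟩ := hcut p.1 p.2 h1 h2 δ hδ
        exact ⟨q', fun _ _ => hq'⟩
      · exact ⟨0, fun _ h => (h2 h).elim⟩
    · exact ⟨0, fun h => (h1 h).elim⟩
  choose cut hcut' using hc
  set A := cucA G (fun a b => cut (a, b)) M with hA
  have hS := cellS_psd G hG
  have hpr : ∀ j i, IsPr (A j i) := by
    intro j
    induction j with
    | zero => intro i; exact (hcut' (1, cellS G M i) isPr_one (hS _ _)).1
    | succ j ih => intro i; exact (hcut' (A j (i / 2), cellS G (M - (j + 1)) i) (ih _) (hS _ _)).1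
  -- parent projections
  let par : ℕ → ℕ → Matrix κ κ ℝ := fun j i => match j with
    | 0 => 1
    | j + 1 => A j (i / 2)
  have hpar : ∀ j i, IsPr (par j i) := by
    intro j i
    cases j with
    | zero => exact isPr_one
    | succ j => exact hpr _ _
  have hmain : ∀ j i, A j i * par j i = A j i ∧
      (∀ v : κ → ℝ, v ⬝ᵥ (A j i * cellS G (M - j) i * A j i) *ᵥ v ≤ δ * (v ⬝ᵥ v)) ∧
      δ * (par j i - A j i).trace ≤ ((par j i - A j i) * cellS G (M - j) i).trace := by
    intro j i
    cases j with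
    | zero => exact (hcut' (1, cellS G M i) isPr_one (hS _ _)).2
    | succ j => exact (hcut' (A j (i / 2), cellS G (M - (j + 1)) i) (hpr _ _) (hS _ _)).2
  refine ⟨fun m x => A (M - m) (cel m x), fun m x => hpr _ _, ?_, ?_, ?_, ?_⟩
  · intro m _ x y h
    simp only [h]
  · intro m hm x
    have h := (hmain (M - m) (cel m x)).1
    have e : M - m = (M - (m + 1)) + 1 := by omega
    have e2 : par (M - m) (cel m x) = A (M - (m + 1)) (cel (m + 1) x) := by
      rw [e, cel_succ]
    rw [e2] at h
    exact h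
  · intro m hm x v
    have h := (hmain (M - m) (cel m x)).2.1 v
    have e : M - (M - m) = m := by omega
    rw [e] at h
    have e3 : ∑ y with cel m y = cel m x, v ⬝ᵥ (A (M - m) (cel m x) * G y * A (M - m) (cel m x)) *ᵥ v
        = 2 ^ m * (v ⬝ᵥ (A (M - m) (cel m x) * cellS G m (cel m x) * A (M - m) (cel m x)) *ᵥ v) := by
      unfold cellS
      rw [Matrix.mul_smul, Matrix.smul_mul, Matrix.smul_mulVec, dotProduct_smul, smul_eq_mul,
        ← mul_assoc, mul_inv_cancel₀ (by positivity), one_mul, Matrix.mul_sum, Matrix.sum_mul,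
        Matrix.sum_mulVec, dotProduct_sum]
    have h5 := mul_le_mul_of_nonneg_left h (by positivity : (0 : ℝ) ≤ 2 ^ m)
    rw [e3]
    refine h5.trans (le_of_eq ?_)
    ring
  · -- the count
    have hstep : ∀ m ≤ M, δ * ∑ x : ZMod Q, (par (M - m) (cel m x) - A (M - m) (cel m x)).trace ≤
        ∑ x : ZMod Q, ((par (M - m) (cel m x) - A (M - m) (cel m x)) * G x).trace := by
      intro m hm
      have hD : ∀ i, IsPr (par (M - m) i - A (M - m) i) := fun i =>
        isPr_diff (hpar _ _) (hpr _ _) (hmain _ _).1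
      have h1 : ∀ x : ZMod Q, δ * (par (M - m) (cel m x) - A (M - m) (cel m x)).trace ≤
          ((2 : ℝ) ^ m)⁻¹ * ∑ y with cel (Q := Q) m y = cel m x,
            ((par (M - m) (cel m y) - A (M - m) (cel m y)) * G y).trace := by
        intro x
        have h := (hmain (M - m) (cel m x)).2.2
        have e : M - (M - m) = m := by omega
        rw [e] at h
        refine h.trans (le_of_eq ?_)
        unfold cellS
        rw [Matrix.mul_smul, Matrix.trace_smul, smul_eq_mul, Matrix.mul_sum, Matrix.trace_sum]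
        congr 1
        refine Finset.sum_congr rfl fun y hy => ?_
        rw [Finset.mem_filter] at hy
        rw [hy.2]
      rw [Finset.mul_sum]
      refine (Finset.sum_le_sum fun x _ => h1 x).trans ?_
      rw [← Finset.mul_sum]
      simp_rw [Finset.sum_filter]
      rw [Finset.sum_comm]
      have h2 : ∀ y : ZMod Q, ∑ x : ZMod Q, (if cel m y = cel m x then
          ((par (M - m) (cel m y) - A (M - m) (cel m y)) * G y).trace else 0) ≤
          (2 : ℝ) ^ m * ((par (M - m) (cel m y) - A (M - m) (cel m y)) * G y).trace := by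
        intro y
        rw [← Finset.sum_filter, Finset.sum_const, nsmul_eq_mul]
        refine mul_le_mul_of_nonneg_right ?_ (isPr_tr (hD _) (hG y))
        have hc2 := card_cel_le (Q := Q) m (cel m y)
        have : (univ.filter fun x : ZMod Q => cel m y = cel m x) =
            (univ.filter fun x : ZMod Q => cel m x = cel m y) := by
          ext x; simp [eq_comm]
        rw [this]
        exact_mod_cast hc2
      refine (mul_le_mul_of_nonneg_left (Finset.sum_le_sum fun y _ => h2 y) (by positivity)).trans ?_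
      rw [← Finset.mul_sum, ← mul_assoc, inv_mul_cancel₀ (by positivity), one_mul]
    -- telescoping
    have htel : ∀ x : ZMod Q, (1 : Matrix κ κ ℝ) - A (M - 0) (cel 0 x) =
        ∑ m ∈ range (M + 1), (par (M - m) (cel m x) - A (M - m) (cel m x)) := by
      intro x
      have h3 : ∀ k ≤ M, ∑ m ∈ range (k + 1), (par (M - m) (cel m x) - A (M - m) (cel m x)) =
          par (M - k) (cel k x) - A (M - 0) (cel 0 x) := by
        intro k
        induction k with
        | zero => intro _; simp
        | succ k ih =>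
          intro hk
          rw [Finset.sum_range_succ, ih (by omega)]
          have e : M - k = (M - (k + 1)) + 1 := by omega
          have e2 : par (M - k) (cel k x) = A (M - (k + 1)) (cel (k + 1) x) := by
            rw [e, cel_succ]
          rw [e2]
          abel
      rw [h3 M le_rfl]
      simp [par]
    have hsum : δ * ∑ x : ZMod Q, (1 - A (M - 0) (cel 0 x)).trace ≤
        ∑ x : ZMod Q, ((1 - A (M - 0) (cel 0 x)) * G x).trace := by
      simp_rw [htel, Matrix.trace_sum, Matrix.sum_mul, Matrix.trace_sum]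
      rw [Finset.sum_comm, Finset.mul_sum, Finset.sum_comm (s := univ)]
      refine Finset.sum_le_sum fun m hm => hstep m ?_
      have := Finset.mem_range.1 hm
      omega
    refine hsum.trans (Finset.sum_le_sum fun x _ => ?_)
    rw [Matrix.sub_mul, Matrix.one_mul, Matrix.trace_sub]
    have := isPr_tr (hpr (M - 0) (cel 0 x)) (hG x)
    linarith

end
end E2c
end Crest.Agent.R079.PotL
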