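import Crest.Agent.R079.PLE1_653
import Crest.Agent.R079.PLE2c_476

/-! R079, doc 2517 [E2]: `exists_cuc` (Cuculescu projections on dyadic cells).  helper476. -/

set_option autoImplicit false
set_option linter.unusedVariables false

namespace Crest.Agent.R079.PotL

open Matrix Finset Crest.Agent.R072
open scoped MatrixOrder

theorem exists_cuc {Q : ℕ} [NeZero Q] {κ : Type*} [Fintype κ] [DecidableEq κ] {M : ℕ}
    (hQ : 2 ^ M ∣ Q) (G : ZMod Q → Matrix κ κ ℝ) (hG : ∀ x, (G x).PosSemidef) {δ : ℝ} (hδ : 0 < δ) :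
    ∃ q : ℕ → ZMod Q → Matrix κ κ ℝ, (∀ m x, IsPr (q m x)) ∧
      (∀ m ≤ M, ∀ x y, cel m x = cel m y → q m x = q m y) ∧
      (∀ m < M, ∀ x, q m x * q (m + 1) x = q m x) ∧
      (∀ m ≤ M, ∀ x (v : κ → ℝ), ∑ y with cel m y = cel m x, v ⬝ᵥ (q m x * G y * q m x) *ᵥ v ≤
        2 ^ m * δ * (v ⬝ᵥ v)) ∧
      δ * ∑ x, (1 - q 0 x).trace ≤ ∑ x, (G x).trace :=
  E2c.exists_cuc_of G (fun q S hq hS _ hδ' => exists_cut q S hq hS hδ') hG hδ

end Crest.Agent.R079.PotL
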