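import Crest.Agent.R079.PLEdef_377

/-! R079, labelled corner in the LINE model: [E2'] `exists_nbr` of doc 2517 (377), over
`exists_join` as hypothesis.  helper517. -/

set_option autoImplicit false

namespace Crest.Agent.R079.PotL

open Matrix Finset Crest.Agent.R072
open scoped MatrixOrder

/-- statement of [E1] `exists_join` for the index type `κ` -/
def JoinS (κ : Type*) [Fintype κ] [DecidableEq κ] : Prop :=
  ∀ R p : Matrix κ κ ℝ, IsPr R → IsPr p →
    ∃ R' : Matrix κ κ ℝ, IsPr R' ∧ R * R' = R ∧ p * R' = p ∧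
      ∀ p' : Matrix κ κ ℝ, IsPr p' → p' * p = p' → p' * R = p' →
        R'.trace - R.trace ≤ p.trace - p'.trace

theorem isPr_zero517 {κ : Type*} [Fintype κ] : IsPr (0 : Matrix κ κ ℝ) :=
  ⟨by simp, by simp⟩

theorem join_fin517 {κ : Type*} [Fintype κ] [DecidableEq κ] (hJ : JoinS κ) {σ : Type*}
    (s : Finset σ) (R : Matrix κ κ ℝ) (p : σ → Matrix κ κ ℝ) (hR : IsPr R) (hp : ∀ i, IsPr (p i)) :
    ∃ R' : Matrix κ κ ℝ, IsPr R' ∧ R * R' = R ∧ (∀ i ∈ s, p i * R' = p i) ∧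
      ∀ p' : σ → Matrix κ κ ℝ, (∀ i ∈ s, IsPr (p' i) ∧ p' i * p i = p' i ∧ p' i * R = p' i) →
        R'.trace - R.trace ≤ ∑ i ∈ s, ((p i).trace - (p' i).trace) := by
  classical
  induction s using Finset.induction_on with
  | empty => exact ⟨R, hR, hR.idem, by simp, fun p' _ => by simp⟩
  | insert a s ha ih =>
    obtain ⟨R1, h1, h2, h3, h4⟩ := ih
    obtain ⟨R', g1, g2, g3, g4⟩ := hJ R1 (p a) h1 (hp a)
    refine ⟨R', g1, ?_, ?_, ?_⟩
    · calc R * R' = R * R1 * R' := by rw [h2]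
        _ = R * (R1 * R') := by rw [Matrix.mul_assoc]
        _ = R := by rw [g2, h2]
    · intro i hi
      rcases Finset.mem_insert.mp hi with rfl | hi
      · exact g3
      · calc p i * R' = p i * R1 * R' := by rw [h3 i hi]
          _ = p i * (R1 * R') := by rw [Matrix.mul_assoc]
          _ = p i := by rw [g2, h3 i hi]
    · intro p' hp'
      rw [Finset.sum_insert ha]
      have e1 := h4 p' (fun i hi => hp' i (Finset.mem_insert_of_mem hi))
      obtain ⟨k1, k2, k3⟩ := hp' a (Finset.mem_insert_self a s)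
      have e2 := g4 (p' a) k1 k2 (by
        calc p' a * R1 = p' a * R * R1 := by rw [k3]
          _ = p' a * (R * R1) := by rw [Matrix.mul_assoc]
          _ = p' a := by rw [h2, k3])
      linarith

section cells
variable {Q : ℕ} [NeZero Q]

theorem cel_int517 {M m : ℕ} (hQ : 2 ^ M ∣ Q) (hm : m ≤ M) (z : ℤ) :
    ((cel m (z : ZMod Q) : ℕ) : ℤ) = z / 2 ^ m % ((Q / 2 ^ m : ℕ) : ℤ) := by
  obtain ⟨k, hk⟩ : 2 ^ m ∣ Q := (pow_dvd_pow 2 hm).trans hQ
  have h1 : (((z : ZMod Q).val : ℕ) : ℤ) = z % Q := ZMod.val_intCast z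
  have h2 : Q / 2 ^ m = k := by
    rw [hk]; exact Nat.mul_div_cancel_left k (by positivity)
  unfold cel
  rw [h2]
  push_cast
  rw [h1]
  have h3 : (Q : ℤ) = 2 ^ m * (k : ℤ) := by exact_mod_cast hk
  rw [h3]
  have hp : (0 : ℤ) < 2 ^ m := by positivity
  have e1 : z % (2 ^ m * (k : ℤ)) = z + 2 ^ m * (-(k * (z / (2 ^ m * (k : ℤ))))) := by
    have := Int.emod_def z (2 ^ m * (k : ℤ))
    rw [this]; ring
  rw [e1, Int.add_mul_ediv_left _ _ hp.ne', Int.emod_def, Int.ediv_ediv_of_nonneg hp.le]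
  ring

theorem cel_congr517 {M m : ℕ} (hQ : 2 ^ M ∣ Q) (hm : m ≤ M) {z z' : ℤ}
    (h : z / 2 ^ m = z' / 2 ^ m) : cel m (z : ZMod Q) = cel m (z' : ZMod Q) := by
  have h1 := cel_int517 (Q := Q) hQ hm z
  have h2 := cel_int517 (Q := Q) hQ hm z'
  rw [h] at h1
  exact_mod_cast h1.trans h2.symm

omit [NeZero Q] in
theorem cel_succ517 (m : ℕ) (x : ZMod Q) : cel (m + 1) x = cel m x / 2 := by
  unfold cel
  rw [pow_succ, Nat.div_div_eq_div_mul]

omit [NeZero Q] in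
theorem cel_up517 {m : ℕ} {x y : ZMod Q} (h : cel m x = cel m y) : cel (m + 1) x = cel (m + 1) y := by
  rw [cel_succ517, cel_succ517, h]

/-- canonical point of the cell number `a + s` -/
def rp517 (Q : ℕ) (m a : ℕ) (s : ℤ) : ZMod Q := (((a : ℤ) + s) * 2 ^ m : ℤ)

theorem cel_rp517 {M m : ℕ} (hQ : 2 ^ M ∣ Q) (hm : m ≤ M) (x : ZMod Q) (t : ℤ) :
    cel m (x + (t : ZMod Q)) =
      cel m (rp517 Q m (cel m x) (((x.val : ℤ) + t) / 2 ^ m - (cel m x : ℤ))) := by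
  have hx : x + (t : ZMod Q) = (((x.val : ℤ) + t : ℤ) : ZMod Q) := by
    push_cast
    rw [ZMod.natCast_zmod_val]
  rw [hx]
  unfold rp517
  apply cel_congr517 hQ hm
  have hp : (0 : ℤ) < 2 ^ m := by positivity
  rw [Int.mul_ediv_cancel _ hp.ne']
  ring

/-- same cell, shift by `s` cells -/
theorem cel_rp_shift517 {M m : ℕ} (hQ : 2 ^ M ∣ Q) (hm : m ≤ M) (x : ZMod Q) (s : ℤ) :
    cel m (rp517 Q m (cel m x) s) = cel m (x + ((s * 2 ^ m : ℤ) : ZMod Q)) := by
  rw [cel_rp517 hQ hm x (s * 2 ^ m)]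
  have hp : (0 : ℤ) < 2 ^ m := by positivity
  have : ((x.val : ℤ) + s * 2 ^ m) / 2 ^ m - (cel m x : ℤ) = s := by
    rw [Int.add_mul_ediv_right _ _ hp.ne']
    unfold cel
    push_cast
    ring
  rw [this]

end cells

section nbr
variable {Q : ℕ} [NeZero Q] {κ ι : Type*} [Fintype κ] [DecidableEq κ] [Fintype ι]

/-- the shift number `c ∈ [-C, C]` -/
def sh517 (C : ℕ) (c : Fin (2 * C + 1)) : ℤ := (c : ℕ) - (C : ℤ)

theorem exists_sh517 {C : ℕ} {z : ℤ} (h1 : -(C : ℤ) ≤ z) (h2 : z ≤ C) :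
    ∃ c : Fin (2 * C + 1), sh517 C c = z := by
  refine ⟨⟨(z + C).toNat, by omega⟩, ?_⟩
  unfold sh517
  simp only
  omega

theorem exists_step517 (hJ : JoinS κ) {M m : ℕ} (hQ : 2 ^ M ∣ Q) (hm : m ≤ M) (C : ℕ)
    (p : ι → ZMod Q → Matrix κ κ ℝ) (hp : ∀ f x, IsPr (p f x))
    (hc : ∀ f x y, cel m x = cel m y → p f x = p f y)
    (S : ZMod Q → Matrix κ κ ℝ) (hS : ∀ x, IsPr (S x))
    (hSc : ∀ x y, cel m x = cel m y → S x = S y) :
    ∃ R : ZMod Q → Matrix κ κ ℝ, (∀ x, IsPr (R x)) ∧ (∀ x y, cel m x = cel m y → R x = R y) ∧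
      (∀ x, S x * R x = S x) ∧
      (∀ f x, ∀ t : ℤ, |t| ≤ C * 2 ^ m → p f (x + (t : ZMod Q)) * R x = p f (x + (t : ZMod Q))) ∧
      (∀ p' : ι → ZMod Q → Matrix κ κ ℝ, (∀ f x, IsPr (p' f x)) →
        (∀ f x y, cel m x = cel m y → p' f x = p' f y) → (∀ f x, p' f x * p f x = p' f x) →
        (∀ f x, ∀ c : Fin (2 * C + 1), p' f (x + ((sh517 C c * 2 ^ m : ℤ) : ZMod Q)) * S x =
          p' f (x + ((sh517 C c * 2 ^ m : ℤ) : ZMod Q))) →
        ∑ x, (R x).trace ≤ ∑ x, (S x).trace +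
          (2 * C + 1) * (∑ f, ∑ x, (p f x).trace - ∑ f, ∑ x, (p' f x).trace)) := by
  classical
  have key : ∀ a : ℕ, ∀ x : ZMod Q, cel m x = a → ∃ R' : Matrix κ κ ℝ, IsPr R' ∧ S x * R' = S x ∧
      (∀ i ∈ (univ : Finset (ι × Fin (2 * C + 1))),
        p i.1 (rp517 Q m a (sh517 C i.2)) * R' = p i.1 (rp517 Q m a (sh517 C i.2))) ∧
      ∀ p' : ι × Fin (2 * C + 1) → Matrix κ κ ℝ, (∀ i ∈ (univ : Finset (ι × Fin (2 * C + 1))),
        IsPr (p' i) ∧ p' i * p i.1 (rp517 Q m a (sh517 C i.2)) = p' i ∧ p' i * S x = p' i) →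
        R'.trace - (S x).trace ≤ ∑ i ∈ (univ : Finset (ι × Fin (2 * C + 1))),
          ((p i.1 (rp517 Q m a (sh517 C i.2))).trace - (p' i).trace) := by
    intro a x _
    exact join_fin517 hJ univ (S x)
      (fun i : ι × Fin (2 * C + 1) => p i.1 (rp517 Q m a (sh517 C i.2))) (hS x)
      (fun i => hp _ _)
  -- choose one matrix per cell number
  have key2 : ∀ a : ℕ, ∃ R' : Matrix κ κ ℝ, ∀ x : ZMod Q, cel m x = a → IsPr R' ∧ S x * R' = S x ∧
      (∀ i ∈ (univ : Finset (ι × Fin (2 * C + 1))),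
        p i.1 (rp517 Q m a (sh517 C i.2)) * R' = p i.1 (rp517 Q m a (sh517 C i.2))) ∧
      ∀ p' : ι × Fin (2 * C + 1) → Matrix κ κ ℝ, (∀ i ∈ (univ : Finset (ι × Fin (2 * C + 1))),
        IsPr (p' i) ∧ p' i * p i.1 (rp517 Q m a (sh517 C i.2)) = p' i ∧ p' i * S x = p' i) →
        R'.trace - (S x).trace ≤ ∑ i ∈ (univ : Finset (ι × Fin (2 * C + 1))),
          ((p i.1 (rp517 Q m a (sh517 C i.2))).trace - (p' i).trace) := by
    intro a
    by_cases h : ∃ x : ZMod Q, cel m x = a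
    · obtain ⟨x0, hx0⟩ := h
      obtain ⟨R', h1, h2, h3, h4⟩ := key a x0 hx0
      refine ⟨R', fun x hx => ?_⟩
      have : S x = S x0 := hSc _ _ (hx.trans hx0.symm)
      rw [this]
      exact ⟨h1, h2, h3, h4⟩
    · exact ⟨0, fun x hx => absurd ⟨x, hx⟩ h⟩
  choose R0 hR0 using key2
  have hpt : ∀ f (x : ZMod Q) (t : ℤ), p f (x + (t : ZMod Q)) =
      p f (rp517 Q m (cel m x) (((x.val : ℤ) + t) / 2 ^ m - (cel m x : ℤ))) :=
    fun f x t => hc f _ _ (cel_rp517 hQ hm x t)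
  refine ⟨fun x => R0 (cel m x), fun x => (hR0 _ x rfl).1, ?_, fun x => (hR0 _ x rfl).2.1, ?_, ?_⟩
  · intro x y h; simp only [h]
  · intro f x t ht
    have hp2 : (0 : ℤ) < 2 ^ m := by positivity
    have hx : ((cel m x : ℕ) : ℤ) = (x.val : ℤ) / 2 ^ m := by unfold cel; push_cast; rfl
    obtain ⟨c, hcc⟩ : ∃ c : Fin (2 * C + 1),
        sh517 C c = ((x.val : ℤ) + t) / 2 ^ m - (cel m x : ℤ) := by
      obtain ⟨t1, t2⟩ := abs_le.mp ht
      have hd1 : ((x.val : ℤ) - C * 2 ^ m) / 2 ^ m ≤ ((x.val : ℤ) + t) / 2 ^ m :=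
        Int.ediv_le_ediv hp2 (by linarith)
      have hd2 : ((x.val : ℤ) + t) / 2 ^ m ≤ ((x.val : ℤ) + C * 2 ^ m) / 2 ^ m :=
        Int.ediv_le_ediv hp2 (by linarith)
      rw [Int.add_mul_ediv_right _ _ hp2.ne'] at hd2
      rw [sub_eq_add_neg, ← neg_mul, Int.add_mul_ediv_right _ _ hp2.ne'] at hd1
      apply exists_sh517 <;> rw [hx] <;> linarith
    rw [hpt f x t, ← hcc]
    exact (hR0 _ x rfl).2.2.1 (f, c) (Finset.mem_univ _)
  · intro p' hp' hc' hpp hpS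
    have hq : ∀ f (x : ZMod Q) (c : Fin (2 * C + 1)),
        p f (rp517 Q m (cel m x) (sh517 C c)) = p f (x + ((sh517 C c * 2 ^ m : ℤ) : ZMod Q)) :=
      fun f x c => hc f _ _ (cel_rp_shift517 hQ hm x _)
    have h1 : ∀ x : ZMod Q, (R0 (cel m x)).trace - (S x).trace ≤
        ∑ i : ι × Fin (2 * C + 1), ((p i.1 (x + ((sh517 C i.2 * 2 ^ m : ℤ) : ZMod Q))).trace -
          (p' i.1 (x + ((sh517 C i.2 * 2 ^ m : ℤ) : ZMod Q))).trace) := by
      intro x
      have := (hR0 _ x rfl).2.2.2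
        (fun i => p' i.1 (x + ((sh517 C i.2 * 2 ^ m : ℤ) : ZMod Q))) (by
          intro i _
          refine ⟨hp' _ _, ?_, hpS _ _ _⟩
          rw [hq]
          exact hpp _ _)
      refine this.trans (le_of_eq (Finset.sum_congr rfl fun i _ => ?_))
      rw [hq]
    have h2 : ∑ x : ZMod Q, ((R0 (cel m x)).trace - (S x).trace) ≤
        ∑ x : ZMod Q, ∑ i : ι × Fin (2 * C + 1),
          ((p i.1 (x + ((sh517 C i.2 * 2 ^ m : ℤ) : ZMod Q))).trace -
          (p' i.1 (x + ((sh517 C i.2 * 2 ^ m : ℤ) : ZMod Q))).trace) :=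
      Finset.sum_le_sum fun x _ => h1 x
    have h3 : ∑ x : ZMod Q, ∑ i : ι × Fin (2 * C + 1),
          ((p i.1 (x + ((sh517 C i.2 * 2 ^ m : ℤ) : ZMod Q))).trace -
          (p' i.1 (x + ((sh517 C i.2 * 2 ^ m : ℤ) : ZMod Q))).trace) =
        (2 * C + 1) * (∑ f, ∑ x, (p f x).trace - ∑ f, ∑ x, (p' f x).trace) := by
      rw [Finset.sum_comm, Fintype.sum_prod_type]
      rw [Finset.sum_congr rfl fun f _ => Finset.sum_congr rfl fun c _ =>
        (show ∑ x : ZMod Q, ((p f (x + ((sh517 C c * 2 ^ m : ℤ) : ZMod Q))).trace -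
          (p' f (x + ((sh517 C c * 2 ^ m : ℤ) : ZMod Q))).trace) =
          ∑ x : ZMod Q, ((p f x).trace - (p' f x).trace) from
          Equiv.sum_comp (Equiv.addRight ((sh517 C c * 2 ^ m : ℤ) : ZMod Q))
            (fun x => (p f x).trace - (p' f x).trace))]
      simp only [Finset.sum_const, Finset.card_univ, Fintype.card_fin, nsmul_eq_mul,
        Finset.sum_sub_distrib, ← Finset.mul_sum]
      push_cast
      ring
    rw [Finset.sum_sub_distrib] at h2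
    linarith

theorem exists_nbr517 (hJ : JoinS κ) {M : ℕ}
    (hQ : 2 ^ M ∣ Q) (C : ℕ) (p : ι → ℕ → ZMod Q → Matrix κ κ ℝ) (hp : ∀ f m x, IsPr (p f m x))
    (hc : ∀ f, ∀ m ≤ M, ∀ x y, cel m x = cel m y → p f m x = p f m y)
    (hm : ∀ f, ∀ m < M, ∀ x, p f (m + 1) x * p f m x = p f (m + 1) x) :
    ∃ R : ℕ → ZMod Q → Matrix κ κ ℝ, (∀ m x, IsPr (R m x)) ∧
      (∀ m ≤ M, ∀ x y, cel m x = cel m y → R m x = R m y) ∧
      (∀ m < M, ∀ x, R (m + 1) x * R m x = R (m + 1) x) ∧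
      (∀ f, ∀ m ≤ M, ∀ x, ∀ t : ℤ, |t| ≤ C * 2 ^ m →
        p f m (x + (t : ZMod Q)) * R m x = p f m (x + (t : ZMod Q))) ∧
      ∑ x, (R 0 x).trace ≤ (2 * C + 1) * ∑ f, ∑ x, (p f 0 x).trace := by
  classical
  let P : ℕ → (ZMod Q → Matrix κ κ ℝ) → Prop := fun n S =>
    (∀ x, IsPr (S x)) ∧ (∀ x y, cel (M - n) x = cel (M - n) y → S x = S y) ∧
    (∀ f x, ∀ t : ℤ, |t| ≤ C * 2 ^ (M - n) →
      p f (M - n) (x + (t : ZMod Q)) * S x = p f (M - n) (x + (t : ZMod Q))) ∧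
    ∑ x, (S x).trace ≤ (2 * C + 1) * ∑ f, ∑ x, (p f (M - n) x).trace
  have base : ∃ S, P 0 S := by
    obtain ⟨R, h1, h2, _, h4, h5⟩ := exists_step517 hJ hQ (le_refl M) C (fun f => p f M)
      (fun f x => hp f M x) (fun f x y h => hc f M le_rfl x y h) (fun _ => 0)
      (fun _ => isPr_zero517) (fun _ _ _ => rfl)
    refine ⟨R, h1, h2, h4, ?_⟩
    have := h5 (fun _ _ => 0) (fun _ _ => isPr_zero517) (fun _ _ _ _ => rfl) (fun _ _ => by simp)
      (fun _ _ _ => by simp)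
    simpa using this
  have step : ∀ n S, P n S → ∃ S', P (n + 1) S' ∧ ∀ x, S x * S' x = S x := by
    intro n S hS
    rcases lt_or_ge n M with hn | hn
    · obtain ⟨k1, k2, k3, k4⟩ := hS
      have em : M - n = M - (n + 1) + 1 := by omega
      set m := M - (n + 1) with hmdef
      rw [em] at k2 k3 k4
      have hmM : m < M := by omega
      obtain ⟨R, h1, h2, h3, h4, h5⟩ := exists_step517 hJ hQ hmM.le C (fun f => p f m)
        (fun f x => hp f m x) (fun f x y h => hc f m hmM.le x y h) S k1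
        (fun x y h => k2 x y (cel_up517 h))
      refine ⟨R, ⟨h1, h2, h4, ?_⟩, h3⟩
      have := h5 (fun f => p f (m + 1)) (fun f x => hp f (m + 1) x)
        (fun f x y h => hc f (m + 1) hmM x y (cel_up517 h)) (fun f x => hm f m hmM x)
        (fun f x c => k3 f x _ (by
          have hp2 : (0 : ℤ) < 2 ^ m := by positivity
          have hc1 : |sh517 C c| ≤ (C : ℤ) := by
            unfold sh517
            rw [abs_le]
            omega
          rw [abs_mul, abs_of_pos hp2, pow_succ]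
          nlinarith [mul_nonneg (Int.natCast_nonneg C) hp2.le]))
      calc ∑ x, (R x).trace ≤ _ := this
        _ ≤ _ := by linarith
    · refine ⟨S, ?_, fun x => (hS.1 x).idem⟩
      have e : M - (n + 1) = M - n := by omega
      simp only [P, e]
      exact hS
  obtain ⟨S0, hS0⟩ := base
  choose! F hF using step
  let T : ℕ → ZMod Q → Matrix κ κ ℝ := fun n => Nat.rec S0 (fun k S => F k S) n
  have hT : ∀ n, P n (T n) := by
    intro n
    induction n with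
    | zero => exact hS0
    | succ k ih => exact (hF k (T k) ih).1
  refine ⟨fun m => T (M - m), fun m x => (hT _).1 x, ?_, ?_, ?_, ?_⟩
  · intro m hmM x y h
    have := (hT (M - m)).2.1 x y
    rw [Nat.sub_sub_self hmM] at this
    exact this h
  · intro m hmM x
    have e : M - m = M - (m + 1) + 1 := by omega
    show T (M - (m + 1)) x * T (M - m) x = T (M - (m + 1)) x
    rw [e]
    exact (hF (M - (m + 1)) (T (M - (m + 1))) (hT _)).2 x
  · intro f m hmM x t ht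
    have := (hT (M - m)).2.2.1 f x t
    rw [Nat.sub_sub_self hmM] at this
    exact this ht
  · have := (hT M).2.2.2
    rw [Nat.sub_self] at this
    exact this

end nbr

end Crest.Agent.R079.PotL
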