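import Crest.Agent.R079.PLE1_653
import Crest.Agent.R079.PLE2n_517

/-! R079, labelled corner in the LINE model: [E2'] `exists_nbr` of doc 2517 (377), verbatim.  helper517. -/

set_option autoImplicit false

namespace Crest.Agent.R079.PotL

open Matrix Finset Crest.Agent.R072
open scoped MatrixOrder

theorem exists_nbr {Q : ℕ} [NeZero Q] {κ ι : Type*} [Fintype κ] [DecidableEq κ] [Fintype ι] {M : ℕ}
    (hQ : 2 ^ M ∣ Q) (C : ℕ) (p : ι → ℕ → ZMod Q → Matrix κ κ ℝ) (hp : ∀ f m x, IsPr (p f m x))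
    (hc : ∀ f, ∀ m ≤ M, ∀ x y, cel m x = cel m y → p f m x = p f m y)
    (hm : ∀ f, ∀ m < M, ∀ x, p f (m + 1) x * p f m x = p f (m + 1) x) :
    ∃ R : ℕ → ZMod Q → Matrix κ κ ℝ, (∀ m x, IsPr (R m x)) ∧
      (∀ m ≤ M, ∀ x y, cel m x = cel m y → R m x = R m y) ∧
      (∀ m < M, ∀ x, R (m + 1) x * R m x = R (m + 1) x) ∧
      (∀ f, ∀ m ≤ M, ∀ x, ∀ t : ℤ, |t| ≤ C * 2 ^ m →
        p f m (x + (t : ZMod Q)) * R m x = p f m (x + (t : ZMod Q))) ∧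
      ∑ x, (R 0 x).trace ≤ (2 * C + 1) * ∑ f, ∑ x, (p f 0 x).trace :=
  exists_nbr517 (fun R p hR hp => exists_join R p hR hp) hQ C p hp hc hm

end Crest.Agent.R079.PotL
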