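import Crest.Agent.R079.PLEdef_377

/-! R079, doc 2517 (377), leaf [E3L] `costL`: the cost of moving a letter on the LEFT range of a
field of projections.  helper303. -/

set_option autoImplicit false
set_option linter.unusedVariables false
set_option linter.unusedSectionVars false

namespace Crest.Agent.R079.PotL

open Matrix Finset Crest.Agent.R072
open scoped MatrixOrder

local notation "rt" => CFC.sqrt

namespace E3L303

section mat

variable {m n : Type*} [Fintype m] [DecidableEq m] [Fintype n] [DecidableEq n]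

theorem sum_sq_pr {P : Matrix m m ℝ} (hP : IsPr P) : ∑ b : m, ∑ l : m, P b l ^ 2 = P.trace := by
  have h1 : P.trace = (P * Pᵀ).trace := by rw [hP.symm, hP.idem]
  rw [h1, Matrix.trace]
  refine Finset.sum_congr rfl fun b _ => ?_
  rw [Matrix.diag_apply, Matrix.mul_apply]
  refine Finset.sum_congr rfl fun l _ => ?_
  rw [Matrix.transpose_apply, sq]

theorem pr_trace_nonneg {P : Matrix m m ℝ} (hP : IsPr P) : 0 ≤ P.trace := by
  rw [← sum_sq_pr hP]
  exact Finset.sum_nonneg fun _ _ => Finset.sum_nonneg fun _ _ => sq_nonneg _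

/-- a projection moves to the other side of the Hilbert-Schmidt product -/
theorem hs_move {P : Matrix m m ℝ} (hP : IsPr P) (A D : Matrix m n ℝ) :
    ∑ l : m, ∑ s : n, A l s * (P * D) l s = ∑ l : m, ∑ s : n, (P * A) l s * D l s := by
  have key : ∀ A B : Matrix m n ℝ, ∑ l : m, ∑ s : n, A l s * B l s = (Aᵀ * B).trace := by
    intro A B
    rw [Matrix.trace, Finset.sum_comm]
    refine Finset.sum_congr rfl fun s _ => ?_
    rw [Matrix.diag_apply, Matrix.mul_apply]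
    rfl
  rw [key, key, transpose_mul, hP.symm, Matrix.mul_assoc]

/-- `|w S|² = w M w` -/
theorem sum_vecMul_rt {M : Matrix n n ℝ} (hM : M.PosSemidef) (w : n → ℝ) :
    ∑ j : n, (∑ k : n, w k * rt M k j) ^ 2 = w ⬝ᵥ M *ᵥ w := by
  have hMM := rt_mul_rt hM
  have hT := rt_transpose M
  have e : M = rt M * (rt M)ᵀ := by rw [hT, hMM]
  have h1 : w ⬝ᵥ M *ᵥ w = (w ᵥ* rt M) ⬝ᵥ (w ᵥ* rt M) := by
    conv_lhs => rw [e]
    rw [← Matrix.mulVec_mulVec, Matrix.mulVec_transpose, Matrix.dotProduct_mulVec]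
  rw [h1]
  simp only [dotProduct, Matrix.vecMul]
  refine Finset.sum_congr rfl fun j _ => ?_
  rw [sq]

end mat

variable {Q : ℕ} [NeZero Q] {α β : Type*} [Fintype α] [DecidableEq α] [Fintype β] [DecidableEq β]

/-- one box, one row block, ONE projection -/
theorem row_pr (X : ZMod Q → ZMod Q → Matrix β α ℝ) {N : ℕ} (hN : 0 < N) (q p : ZMod Q)
    (i : Fin N) {M : Matrix (Fin N × α) (Fin N × α) ℝ} (hM : M.PosSemidef) {μ K : ℝ}
    (hμ : ∀ v, v ⬝ᵥ M *ᵥ v ≤ μ ^ 2 * (v ⬝ᵥ v)) {P : Matrix β β ℝ} (hP : IsPr P)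
    (hK : ColB (fun x y => (X y x)ᵀ) N K p (q + ((i : ℕ) : ZMod Q))) :
    ∑ j : Fin N, hs2 (P * blk (bm X N q p * rt M) i j) ≤ μ ^ 2 * (K ^ 2 / N) * P.trace := by
  have hN' : (0 : ℝ) < N := by exact_mod_cast hN
  set w : β → (Fin N × α) → ℝ := fun b k => ∑ l : β, P b l * bm X N q p (i, l) k with hw
  have e1 : ∀ (j : Fin N) (b : β) (s : α), (P * blk (bm X N q p * rt M) i j) b s =
      ∑ k, w b k * rt M k (j, s) := by
    intro j b s
    rw [Matrix.mul_apply]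
    simp only [blk, Matrix.mul_apply, hw, Finset.mul_sum, Finset.sum_mul]
    rw [Finset.sum_comm]
    refine Finset.sum_congr rfl fun k _ => Finset.sum_congr rfl fun l _ => ?_
    ring
  have e2 : ∑ j : Fin N, hs2 (P * blk (bm X N q p * rt M) i j) =
      ∑ b : β, ∑ z : Fin N × α, (∑ k, w b k * rt M k z) ^ 2 := by
    unfold hs2
    simp_rw [e1, Fintype.sum_prod_type]
    rw [Finset.sum_comm]
  rw [e2]
  have e3 : ∀ b : β, ∑ z : Fin N × α, (∑ k, w b k * rt M k z) ^ 2 ≤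
      μ ^ 2 * ∑ k, w b k ^ 2 := by
    intro b
    rw [sum_vecMul_rt hM]
    refine (hμ _).trans (le_of_eq ?_)
    simp only [dotProduct]
    congr 1
    refine Finset.sum_congr rfl fun k _ => ?_
    rw [sq]
  have e4 : ∀ b : β, ∑ k, w b k ^ 2 ≤ (K ^ 2 / N) * ∑ l : β, P b l ^ 2 := by
    intro b
    have h := hK (fun l => P b l)
    have e5 : ∑ k, w b k ^ 2 = (1 / (N : ℝ)) * ((1 / (N : ℝ)) * ∑ k ∈ range N, ∑ t : α,
        (∑ s : β, (X (q + ((i : ℕ) : ZMod Q)) (p + (k : ZMod Q)))ᵀ t s * P b s) ^ 2) := by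
      rw [Fintype.sum_prod_type, Finset.sum_range, Finset.mul_sum, Finset.mul_sum]
      refine Finset.sum_congr rfl fun k _ => ?_
      rw [Finset.mul_sum, Finset.mul_sum]
      refine Finset.sum_congr rfl fun t _ => ?_
      have : w b (k, t) = (1 / (N : ℝ)) *
          ∑ s : β, (X (q + ((i : ℕ) : ZMod Q)) (p + (((k : Fin N) : ℕ) : ZMod Q)))ᵀ t s * P b s := by
        rw [hw, Finset.mul_sum]
        refine Finset.sum_congr rfl fun s _ => ?_
        simp only [bm, Matrix.transpose_apply]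
        ring
      rw [this]
      ring
    rw [e5]
    calc (1 / (N : ℝ)) * _ ≤ (1 / (N : ℝ)) * (K ^ 2 * ∑ s : β, P b s ^ 2) :=
          mul_le_mul_of_nonneg_left h (by positivity)
      _ = (K ^ 2 / N) * ∑ l : β, P b l ^ 2 := by ring
  calc ∑ b : β, ∑ z : Fin N × α, (∑ k, w b k * rt M k z) ^ 2
      ≤ ∑ b : β, μ ^ 2 * ((K ^ 2 / N) * ∑ l : β, P b l ^ 2) :=
        Finset.sum_le_sum fun b _ => (e3 b).trans
          (mul_le_mul_of_nonneg_left (e4 b) (sq_nonneg _))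
    _ = μ ^ 2 * (K ^ 2 / N) * ∑ b : β, ∑ l : β, P b l ^ 2 := by
        rw [← Finset.mul_sum, ← Finset.mul_sum]
        ring
    _ = _ := by rw [sum_sq_pr hP]

/-- piecewise constant projections: the value at `y` is paid by its neighbours -/
theorem pc_le {π : ZMod Q → ZMod Q → Matrix β β ℝ} {L : ℕ} (hL : 0 < L) (hpc : PC2 π L)
    (x y : ZMod Q) (f : Matrix β β ℝ → ℝ) (hf : ∀ P, 0 ≤ f P) :
    (L : ℝ) * f (π x y) ≤ ∑ i ∈ range (2 * L), f (π x (y - (L : ZMod Q) + (i : ZMod Q))) := by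
  obtain ⟨s, hs, hc, he⟩ := hpc x y
  calc (L : ℝ) * f (π x y) ≤ (s.card : ℝ) * f (π x y) :=
        mul_le_mul_of_nonneg_right (by exact_mod_cast hc) (hf _)
    _ = ∑ i ∈ s, f (π x (y - (L : ZMod Q) + (i : ZMod Q))) := by
        rw [Finset.sum_congr rfl fun i hi => by rw [he i hi], Finset.sum_const, nsmul_eq_mul]
    _ ≤ _ := Finset.sum_le_sum_of_subset_of_nonneg hs fun _ _ _ => hf _

/-- convolution of ranges -/
theorem conv_le (N L : ℕ) (g : ℕ → Fin N → ℝ) (hg : ∀ t j, 0 ≤ g t j) :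
    ∑ j : Fin N, ∑ i ∈ range (2 * L), g ((j : ℕ) + i) j ≤
      ∑ t ∈ range (N + 2 * L), ∑ j : Fin N, g t j := by
  rw [Finset.sum_comm (s := range (N + 2 * L))]
  refine Finset.sum_le_sum fun j _ => ?_
  have h1 : ∑ i ∈ range (2 * L), g ((j : ℕ) + i) j =
      ∑ t ∈ (range (2 * L)).image (fun i => (j : ℕ) + i), g t j := by
    rw [Finset.sum_image]
    intro a _ b _ hab
    simpa using hab
  rw [h1]
  refine Finset.sum_le_sum_of_subset_of_nonneg ?_ fun t _ _ => hg t j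
  intro t ht
  rw [Finset.mem_image] at ht
  obtain ⟨i, hi, rfl⟩ := ht
  rw [Finset.mem_range] at hi ⊢
  have := j.2
  omega

/-- one box, one row block, moving projections -/
theorem row_pc (X : ZMod Q → ZMod Q → Matrix β α ℝ) {π : ZMod Q → ZMod Q → Matrix β β ℝ}
    (hπ : ∀ x y, IsPr (π x y)) {L N : ℕ} (hL : 0 < L) (hN : 0 < N) (hpc : PC2 π L)
    (q p : ZMod Q) (i : Fin N) {M : Matrix (Fin N × α) (Fin N × α) ℝ} (hM : M.PosSemidef)
    {μ K : ℝ} (hμ : ∀ v, v ⬝ᵥ M *ᵥ v ≤ μ ^ 2 * (v ⬝ᵥ v))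
    (hK : ColB (fun x y => (X y x)ᵀ) N K p (q + ((i : ℕ) : ZMod Q))) :
    ∑ j : Fin N, hs2 (π (q + ((i : ℕ) : ZMod Q)) (p + ((j : ℕ) : ZMod Q)) *
        blk (bm X N q p * rt M) i j) ≤
      μ ^ 2 * (K ^ 2 / N) / L * ∑ t ∈ range (N + 2 * L),
        (π (q + ((i : ℕ) : ZMod Q)) (p + ((t : ZMod Q) - (L : ZMod Q)))).trace := by
  have hL' : (0 : ℝ) < L := by exact_mod_cast hL
  set x := q + ((i : ℕ) : ZMod Q) with hx
  have h1 : ∀ j : Fin N, (L : ℝ) * hs2 (π x (p + ((j : ℕ) : ZMod Q)) *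
      blk (bm X N q p * rt M) i j) ≤
      ∑ k ∈ range (2 * L), hs2 (π x (p + ((((j : ℕ) + k : ℕ) : ZMod Q) - (L : ZMod Q))) *
        blk (bm X N q p * rt M) i j) := by
    intro j
    refine (pc_le hL hpc x (p + ((j : ℕ) : ZMod Q))
      (fun P => hs2 (P * blk (bm X N q p * rt M) i j)) fun _ => hs2_nonneg _).trans (le_of_eq ?_)
    refine Finset.sum_congr rfl fun k _ => ?_
    have : p + ((j : ℕ) : ZMod Q) - (L : ZMod Q) + (k : ZMod Q) =
        p + ((((j : ℕ) + k : ℕ) : ZMod Q) - (L : ZMod Q)) := by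
      push_cast
      ring
    simp only [this]
  have h2 : (L : ℝ) * ∑ j : Fin N, hs2 (π x (p + ((j : ℕ) : ZMod Q)) *
      blk (bm X N q p * rt M) i j) ≤ ∑ t ∈ range (N + 2 * L), ∑ j : Fin N,
        hs2 (π x (p + ((t : ZMod Q) - (L : ZMod Q))) * blk (bm X N q p * rt M) i j) := by
    rw [Finset.mul_sum]
    refine (Finset.sum_le_sum fun j _ => h1 j).trans ?_
    exact conv_le N L (fun t j => hs2 (π x (p + ((t : ZMod Q) - (L : ZMod Q))) *
      blk (bm X N q p * rt M) i j)) fun _ _ => hs2_nonneg _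
  have h3 : (L : ℝ) * ∑ j : Fin N, hs2 (π x (p + ((j : ℕ) : ZMod Q)) *
      blk (bm X N q p * rt M) i j) ≤ ∑ t ∈ range (N + 2 * L),
        μ ^ 2 * (K ^ 2 / N) * (π x (p + ((t : ZMod Q) - (L : ZMod Q)))).trace :=
    h2.trans (Finset.sum_le_sum fun t _ => row_pr X hN q p i hM hμ (hπ _ _) hK)
  rw [← Finset.mul_sum] at h3
  rw [div_mul_eq_mul_div, le_div_iff₀ hL', mul_comm]
  exact h3

/-- one box -/
theorem box_le (X D : ZMod Q → ZMod Q → Matrix β α ℝ) (π : ZMod Q → ZMod Q → Matrix β β ℝ)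
    (hπ : ∀ x y, IsPr (π x y)) (hD : ∀ x y, π x y * D x y = D x y) {N : ℕ}
    (q p : ZMod Q) (M : Matrix (Fin N × α) (Fin N × α) ℝ) {θ : ℝ} (hθ : 0 < θ) :
    (rt M * ((bm X N q p)ᵀ * bm D N q p)).trace ≤
      θ / 2 * ∑ i : Fin N, ∑ j : Fin N,
        hs2 (π (q + ((i : ℕ) : ZMod Q)) (p + ((j : ℕ) : ZMod Q)) *
          blk (bm X N q p * rt M) i j) +
      1 / (2 * θ) * ((1 / (N : ℝ) ^ 2) * ∑ i : Fin N, ∑ j : Fin N,
        hs2 (D (q + ((i : ℕ) : ZMod Q)) (p + ((j : ℕ) : ZMod Q)))) := by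
  rw [trace_eq_sum _ _ (rt_transpose M), Fintype.sum_prod_type]
  have h1 : ∀ i j : Fin N, ∑ l : β, ∑ s : α,
      (bm X N q p * rt M) (i, l) (j, s) * bm D N q p (i, l) (j, s) ≤
      θ / 2 * hs2 (π (q + ((i : ℕ) : ZMod Q)) (p + ((j : ℕ) : ZMod Q)) *
          blk (bm X N q p * rt M) i j) +
      1 / (2 * θ) * ((1 / (N : ℝ) ^ 2) *
        hs2 (D (q + ((i : ℕ) : ZMod Q)) (p + ((j : ℕ) : ZMod Q)))) := by
    intro i j
    set P := π (q + ((i : ℕ) : ZMod Q)) (p + ((j : ℕ) : ZMod Q)) with hP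
    set D' := D (q + ((i : ℕ) : ZMod Q)) (p + ((j : ℕ) : ZMod Q)) with hD'
    have e1 : ∑ l : β, ∑ s : α,
        (bm X N q p * rt M) (i, l) (j, s) * bm D N q p (i, l) (j, s) =
        ∑ l : β, ∑ s : α, (P * blk (bm X N q p * rt M) i j) l s * ((1 / (N : ℝ)) * D' l s) := by
      have e2 : ∑ l : β, ∑ s : α,
          (bm X N q p * rt M) (i, l) (j, s) * bm D N q p (i, l) (j, s) =
          (1 / (N : ℝ)) * ∑ l : β, ∑ s : α, blk (bm X N q p * rt M) i j l s * (P * D') l s := by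
        rw [hP, hD', hD, Finset.mul_sum]
        refine Finset.sum_congr rfl fun l _ => ?_
        rw [Finset.mul_sum]
        refine Finset.sum_congr rfl fun s _ => ?_
        simp only [blk, bm]
        ring
      rw [e2, hs_move (hπ _ _), Finset.mul_sum]
      refine Finset.sum_congr rfl fun l _ => ?_
      rw [Finset.mul_sum]
      refine Finset.sum_congr rfl fun s _ => ?_
      ring
    rw [e1]
    have e3 : θ / 2 * hs2 (P * blk (bm X N q p * rt M) i j) +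
        1 / (2 * θ) * ((1 / (N : ℝ) ^ 2) * hs2 D') =
        ∑ l : β, ∑ s : α, (θ / 2 * (P * blk (bm X N q p * rt M) i j) l s ^ 2 +
          1 / (2 * θ) * ((1 / (N : ℝ)) * D' l s) ^ 2) := by
      unfold hs2
      simp_rw [Finset.sum_add_distrib, Finset.mul_sum]
      congr 1
      refine Finset.sum_congr rfl fun l _ => Finset.sum_congr rfl fun s _ => ?_
      ring
    rw [e3]
    refine Finset.sum_le_sum fun l _ => Finset.sum_le_sum fun s _ => ?_
    set a := (P * blk (bm X N q p * rt M) i j) l s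
    set b := (1 / (N : ℝ)) * D' l s
    have h4 : 0 ≤ (θ * a - b) ^ 2 / (2 * θ) := by positivity
    have h5 : (θ * a - b) ^ 2 / (2 * θ) = θ / 2 * a ^ 2 + 1 / (2 * θ) * b ^ 2 - a * b := by
      field_simp
      ring
    linarith
  have h2 : ∀ i : Fin N, ∑ l : β, ∑ z : Fin N × α,
      (bm X N q p * rt M) (i, l) z * bm D N q p (i, l) z =
      ∑ j : Fin N, ∑ l : β, ∑ s : α,
        (bm X N q p * rt M) (i, l) (j, s) * bm D N q p (i, l) (j, s) := by
    intro i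
    simp_rw [Fintype.sum_prod_type]
    rw [Finset.sum_comm]
  simp_rw [h2]
  refine (Finset.sum_le_sum fun i _ => Finset.sum_le_sum fun j _ => h1 i j).trans (le_of_eq ?_)
  simp_rw [Finset.sum_add_distrib, ← Finset.mul_sum]

-- [E3L] (the global name `PotL.costL` is 664's file PLE3L_664; here it is `PotL.E3L303.costL`)
theorem costL (X D : ZMod Q → ZMod Q → Matrix β α ℝ) (π : ZMod Q → ZMod Q → Matrix β β ℝ)
    (hπ : ∀ x y, IsPr (π x y)) (hD : ∀ x y, π x y * D x y = D x y) {L N : ℕ} (hL : 0 < L)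
    (hN : 0 < N) (hpc : PC2 π L)
    (M : ZMod Q → ZMod Q → Matrix (Fin N × α) (Fin N × α) ℝ) (hM : ∀ p q, (M p q).PosSemidef)
    {μ K KD θ : ℝ} (hθ : 0 < θ) (hμ : ∀ p q v, v ⬝ᵥ (M p q) *ᵥ v ≤ μ ^ 2 * (v ⬝ᵥ v))
    (hK : ∀ q y, ColB (fun x y => (X y x)ᵀ) N K q y)
    (hE : ∑ x, ∑ y, hs2 (D x y) ≤ KD ^ 2 * ∑ x, ∑ y, (π x y).trace) :
    ∑ p, ∑ q, (rt (M p q) * ((bm X N q p)ᵀ * bm D N q p)).trace ≤
      (θ / 2 * μ ^ 2 * K ^ 2 * ((N + 2 * L : ℝ) / L) + KD ^ 2 / (2 * θ)) *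
        ∑ x, ∑ y, (π x y).trace := by
  have hN' : (0 : ℝ) < N := by exact_mod_cast hN
  have hL' : (0 : ℝ) < L := by exact_mod_cast hL
  set T : ℝ := ∑ x, ∑ y, (π x y).trace with hT
  -- the letter part
  have a1 : ∑ p, ∑ q, (rt (M p q) * ((bm X N q p)ᵀ * bm D N q p)).trace ≤
      ∑ p : ZMod Q, ∑ q : ZMod Q, (θ / 2 * ∑ i : Fin N, (μ ^ 2 * (K ^ 2 / N) / L *
          ∑ t ∈ range (N + 2 * L),
            (π (q + ((i : ℕ) : ZMod Q)) (p + ((t : ZMod Q) - (L : ZMod Q)))).trace) +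
        1 / (2 * θ) * ((1 / (N : ℝ) ^ 2) * ∑ i : Fin N, ∑ j : Fin N,
          hs2 (D (q + ((i : ℕ) : ZMod Q)) (p + ((j : ℕ) : ZMod Q))))) := by
    refine Finset.sum_le_sum fun p _ => Finset.sum_le_sum fun q _ => ?_
    refine (box_le X D π hπ hD q p (M p q) hθ).trans (add_le_add_left ?_ _)
    refine mul_le_mul_of_nonneg_left ?_ (by positivity)
    exact Finset.sum_le_sum fun i _ => row_pc X hπ hL hN hpc q p i (hM p q) (hμ p q) (hK _ _)
  have a2 : ∑ p : ZMod Q, ∑ q : ZMod Q, (1 / (2 * θ) * ((1 / (N : ℝ) ^ 2) *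
        ∑ i : Fin N, ∑ j : Fin N,
          hs2 (D (q + ((i : ℕ) : ZMod Q)) (p + ((j : ℕ) : ZMod Q))))) ≤
      KD ^ 2 / (2 * θ) * T := by
    have c0 : ∀ G : ZMod Q → ZMod Q → ℝ, ∑ p : ZMod Q, ∑ q : ZMod Q, (1 / (2 * θ) * G p q) =
        1 / (2 * θ) * ∑ p : ZMod Q, ∑ q : ZMod Q, G p q := by
      intro G
      rw [Finset.mul_sum]
      exact Finset.sum_congr rfl fun p _ => (Finset.mul_sum _ _ _).symm
    rw [c0, sum_box_avg (fun x y => hs2 (D x y)) hN]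
    calc 1 / (2 * θ) * ∑ x, ∑ y, hs2 (D x y) ≤ 1 / (2 * θ) * (KD ^ 2 * T) :=
          mul_le_mul_of_nonneg_left hE (by positivity)
      _ = _ := by ring
  have a3 : ∑ p : ZMod Q, ∑ q : ZMod Q, (θ / 2 * ∑ i : Fin N, (μ ^ 2 * (K ^ 2 / N) / L *
          ∑ t ∈ range (N + 2 * L),
            (π (q + ((i : ℕ) : ZMod Q)) (p + ((t : ZMod Q) - (L : ZMod Q)))).trace)) =
      θ / 2 * μ ^ 2 * K ^ 2 * ((N + 2 * L : ℝ) / L) * T := by
    have b1 : ∀ (i : Fin N) (t : ℕ), ∑ p : ZMod Q, ∑ q : ZMod Q,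
        (π (q + ((i : ℕ) : ZMod Q)) (p + ((t : ZMod Q) - (L : ZMod Q)))).trace = T := by
      intro i t
      rw [Finset.sum_comm, hT]
      have : ∀ q : ZMod Q, ∑ p : ZMod Q,
          (π (q + ((i : ℕ) : ZMod Q)) (p + ((t : ZMod Q) - (L : ZMod Q)))).trace =
          ∑ p : ZMod Q, (π (q + ((i : ℕ) : ZMod Q)) p).trace := fun q =>
        Lattice.sum_add_right' (fun p => (π (q + ((i : ℕ) : ZMod Q)) p).trace) _
      simp_rw [this]
      exact Lattice.sum_add_right' (fun q => ∑ p : ZMod Q, (π q p).trace) _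
    have b2 : ∑ p : ZMod Q, ∑ q : ZMod Q, (θ / 2 * ∑ i : Fin N, (μ ^ 2 * (K ^ 2 / N) / L *
          ∑ t ∈ range (N + 2 * L),
            (π (q + ((i : ℕ) : ZMod Q)) (p + ((t : ZMod Q) - (L : ZMod Q)))).trace)) =
        θ / 2 * (μ ^ 2 * (K ^ 2 / N) / L * ∑ i : Fin N, ∑ t ∈ range (N + 2 * L),
          ∑ p : ZMod Q, ∑ q : ZMod Q,
            (π (q + ((i : ℕ) : ZMod Q)) (p + ((t : ZMod Q) - (L : ZMod Q)))).trace) := by
      simp_rw [← Finset.mul_sum]
      congr 2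
      have c1 : ∀ f : ZMod Q → ZMod Q → Fin N → ℕ → ℝ,
          ∑ p : ZMod Q, ∑ q : ZMod Q, ∑ i : Fin N, ∑ t ∈ range (N + 2 * L), f p q i t =
          ∑ i : Fin N, ∑ t ∈ range (N + 2 * L), ∑ p : ZMod Q, ∑ q : ZMod Q, f p q i t := by
        intro f
        calc ∑ p : ZMod Q, ∑ q : ZMod Q, ∑ i : Fin N, ∑ t ∈ range (N + 2 * L), f p q i t
            = ∑ p : ZMod Q, ∑ i : Fin N, ∑ q : ZMod Q, ∑ t ∈ range (N + 2 * L), f p q i t :=
              Finset.sum_congr rfl fun _ _ => Finset.sum_comm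
          _ = ∑ i : Fin N, ∑ p : ZMod Q, ∑ q : ZMod Q, ∑ t ∈ range (N + 2 * L), f p q i t :=
              Finset.sum_comm
          _ = ∑ i : Fin N, ∑ p : ZMod Q, ∑ t ∈ range (N + 2 * L), ∑ q : ZMod Q, f p q i t :=
              Finset.sum_congr rfl fun _ _ => Finset.sum_congr rfl fun _ _ => Finset.sum_comm
          _ = ∑ i : Fin N, ∑ t ∈ range (N + 2 * L), ∑ p : ZMod Q, ∑ q : ZMod Q, f p q i t :=
              Finset.sum_congr rfl fun _ _ => Finset.sum_comm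
      exact c1 fun p q i t =>
        (π (q + ((i : ℕ) : ZMod Q)) (p + ((t : ZMod Q) - (L : ZMod Q)))).trace
    rw [b2]
    simp_rw [b1]
    rw [Finset.sum_const, Finset.sum_const, Finset.card_univ, Fintype.card_fin, card_range,
      nsmul_eq_mul, nsmul_eq_mul]
    push_cast
    field_simp
  refine a1.trans ?_
  simp_rw [Finset.sum_add_distrib]
  rw [a3, add_mul]
  exact add_le_add_right a2 _

end E3L303

end Crest.Agent.R079.PotL
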