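import Crest.Agent.R079.PLEdef_377

/-! R079, [E3L] of doc 2517: cost of a change of the letter on the LEFT (row labels) side, finite
rank projections, absolute value form.  helper664. -/

set_option autoImplicit false
set_option linter.unusedVariables false
set_option linter.unusedSectionVars false

namespace Crest.Agent.R079.PotL

open Matrix Finset Crest.Agent.R072
open scoped MatrixOrder

local notation "rt" => CFC.sqrt

namespace E3L

theorem pr_hs {κ : Type*} [Fintype κ] [DecidableEq κ] {P : Matrix κ κ ℝ} (hP : IsPr P) :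
    ∑ l, ∑ l', P l l' ^ 2 = P.trace := by
  have h : P.trace = (P * P).trace := by rw [hP.idem]
  rw [h, Matrix.trace]
  refine Finset.sum_congr rfl fun l _ => ?_
  rw [Matrix.diag_apply, Matrix.mul_apply]
  refine Finset.sum_congr rfl fun l' _ => ?_
  have : P l' l = P l l' := by
    have := congrFun (congrFun hP.symm l) l'
    rwa [Matrix.transpose_apply] at this
  rw [this, sq]

theorem pr_trace_nonneg {κ : Type*} [Fintype κ] [DecidableEq κ] {P : Matrix κ κ ℝ} (hP : IsPr P) :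
    0 ≤ P.trace := by
  rw [← pr_hs hP]
  exact Finset.sum_nonneg fun _ _ => Finset.sum_nonneg fun _ _ => sq_nonneg _

theorem row_quad {k : Type*} [Fintype k] [DecidableEq k] {M : Matrix k k ℝ} (hM : M.PosSemidef)
    (v : k → ℝ) : ∑ j, (∑ i, v i * rt M i j) ^ 2 = v ⬝ᵥ M *ᵥ v := by
  have h1 : v ⬝ᵥ M *ᵥ v = (v ᵥ* rt M) ⬝ᵥ (v ᵥ* rt M) := by
    have hT : (rt M)ᵀ = rt M := rt_transpose M
    calc v ⬝ᵥ M *ᵥ v = v ⬝ᵥ (rt M * rt M) *ᵥ v := by rw [rt_mul_rt hM]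
      _ = v ⬝ᵥ rt M *ᵥ (rt M *ᵥ v) := by rw [Matrix.mulVec_mulVec]
      _ = (v ᵥ* rt M) ⬝ᵥ (rt M *ᵥ v) := by rw [Matrix.dotProduct_mulVec]
      _ = (v ᵥ* rt M) ⬝ᵥ (v ᵥ* rt M) := by
          conv_lhs => rw [← hT]
          rw [Matrix.mulVec_transpose, hT]
  rw [h1, dotProduct]
  refine Finset.sum_congr rfl fun j _ => ?_
  rw [sq]
  rfl

section
variable {Q : ℕ} [NeZero Q] {α β : Type*} [Fintype α] [DecidableEq α] [Fintype β] [DecidableEq β]

/-- one projection against one row of boxes -/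
theorem proj_row (X : ZMod Q → ZMod Q → Matrix β α ℝ) {N : ℕ} (hN : 0 < N)
    {M : Matrix (Fin N × α) (Fin N × α) ℝ} (hM : M.PosSemidef) {μ K : ℝ}
    (hμ : ∀ v, v ⬝ᵥ M *ᵥ v ≤ μ ^ 2 * (v ⬝ᵥ v)) (q p : ZMod Q) (i : Fin N)
    (hK : ColB (fun x y => (X y x)ᵀ) N K p (q + ((i : ℕ) : ZMod Q))) {P : Matrix β β ℝ}
    (hP : IsPr P) :
    ∑ l : β, ∑ j, (∑ l' : β, P l l' * (bm X N q p * rt M) (i, l') j) ^ 2 ≤
      μ ^ 2 * (K ^ 2 / N) * P.trace := by
  have hN' : (0 : ℝ) < N := by exact_mod_cast hN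
  -- the rows
  have e1 : ∀ (l : β) (j : Fin N × α), ∑ l' : β, P l l' * (bm X N q p * rt M) (i, l') j =
      ∑ k, (∑ l' : β, P l l' * bm X N q p (i, l') k) * rt M k j := by
    intro l j
    simp only [Matrix.mul_apply, Finset.mul_sum, Finset.sum_mul]
    rw [Finset.sum_comm]
    refine Finset.sum_congr rfl fun k _ => Finset.sum_congr rfl fun l' _ => ?_
    ring
  have h1 : ∀ l : β, ∑ j, (∑ l' : β, P l l' * (bm X N q p * rt M) (i, l') j) ^ 2 ≤
      μ ^ 2 * ∑ k, (∑ l' : β, P l l' * bm X N q p (i, l') k) ^ 2 := by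
    intro l
    simp_rw [e1]
    rw [row_quad hM]
    refine (hμ _).trans (le_of_eq ?_)
    congr 1
    rw [dotProduct]
    exact Finset.sum_congr rfl fun k _ => (sq _).symm
  have h2 : ∀ l : β, ∑ k, (∑ l' : β, P l l' * bm X N q p (i, l') k) ^ 2 ≤
      K ^ 2 / N * ∑ l' : β, P l l' ^ 2 := by
    intro l
    have h := hK (fun l' => P l l')
    have e2 : ∑ k, (∑ l' : β, P l l' * bm X N q p (i, l') k) ^ 2 =
        (1 / (N : ℝ)) * ((1 / (N : ℝ)) * ∑ k ∈ range N, ∑ a : α,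
          (∑ s : β, (X (q + ((i : ℕ) : ZMod Q)) (p + (k : ZMod Q)))ᵀ a s * P l s) ^ 2) := by
      rw [Fintype.sum_prod_type, Finset.sum_range, Finset.mul_sum, Finset.mul_sum]
      refine Finset.sum_congr rfl fun k _ => ?_
      rw [Finset.mul_sum, Finset.mul_sum]
      refine Finset.sum_congr rfl fun a _ => ?_
      have : ∑ l' : β, P l l' * bm X N q p (i, l') (k, a) = (1 / (N : ℝ)) *
          ∑ s : β, (X (q + ((i : ℕ) : ZMod Q)) (p + ((k : ℕ) : ZMod Q)))ᵀ a s * P l s := by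
        rw [Finset.mul_sum]
        refine Finset.sum_congr rfl fun s _ => ?_
        simp only [bm, Matrix.transpose_apply]
        ring
      rw [this]
      ring
    rw [e2]
    calc (1 / (N : ℝ)) * _ ≤ (1 / (N : ℝ)) * (K ^ 2 * ∑ s : β, P l s ^ 2) :=
          mul_le_mul_of_nonneg_left h (by positivity)
      _ = K ^ 2 / N * ∑ l' : β, P l l' ^ 2 := by ring
  calc ∑ l : β, ∑ j, (∑ l' : β, P l l' * (bm X N q p * rt M) (i, l') j) ^ 2
      ≤ ∑ l : β, μ ^ 2 * (K ^ 2 / N * ∑ l' : β, P l l' ^ 2) :=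
        Finset.sum_le_sum fun l _ => (h1 l).trans (mul_le_mul_of_nonneg_left (h2 l) (sq_nonneg μ))
    _ = μ ^ 2 * (K ^ 2 / N) * P.trace := by
        rw [← pr_hs hP, Finset.mul_sum]
        refine Finset.sum_congr rfl fun l _ => ?_
        ring

/-- moving window: a piecewise constant family, all `y` of the box -/
theorem pc_row {π : ZMod Q → ZMod Q → Matrix β β ℝ} {L N : ℕ} (hL : 0 < L)
    (hpc : PC2 π L) (x p : ZMod Q) (f : Matrix β β ℝ → Fin N → ℝ)
    (hf : ∀ P j, 0 ≤ f P j) :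
    ∑ j : Fin N, f (π x (p + ((j : ℕ) : ZMod Q))) j ≤
      (1 / (L : ℝ)) * ∑ m ∈ range (N + 2 * L), ∑ j : Fin N,
        f (π x (p - (L : ZMod Q) + (m : ZMod Q))) j := by
  have hL' : (0 : ℝ) < L := by exact_mod_cast hL
  have h1 : ∀ j : Fin N, (L : ℝ) * f (π x (p + ((j : ℕ) : ZMod Q))) j ≤
      ∑ i ∈ range (2 * L), f (π x (p + ((j : ℕ) : ZMod Q) - (L : ZMod Q) + (i : ZMod Q))) j := by
    intro j
    obtain ⟨s, hs, hc, he⟩ := hpc x (p + ((j : ℕ) : ZMod Q))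
    calc (L : ℝ) * f (π x (p + ((j : ℕ) : ZMod Q))) j
        ≤ (s.card : ℝ) * f (π x (p + ((j : ℕ) : ZMod Q))) j :=
          mul_le_mul_of_nonneg_right (by exact_mod_cast hc) (hf _ _)
      _ = ∑ i ∈ s, f (π x (p + ((j : ℕ) : ZMod Q) - (L : ZMod Q) + (i : ZMod Q))) j := by
          rw [Finset.sum_congr rfl fun i hi => by rw [he i hi], Finset.sum_const, nsmul_eq_mul]
      _ ≤ _ := Finset.sum_le_sum_of_subset_of_nonneg hs fun _ _ _ => hf _ _
  have h2 : ∀ j : Fin N, ∑ i ∈ range (2 * L),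
      f (π x (p + ((j : ℕ) : ZMod Q) - (L : ZMod Q) + (i : ZMod Q))) j ≤
      ∑ m ∈ range (N + 2 * L), f (π x (p - (L : ZMod Q) + (m : ZMod Q))) j := by
    intro j
    have e : ∑ i ∈ range (2 * L),
        f (π x (p + ((j : ℕ) : ZMod Q) - (L : ZMod Q) + (i : ZMod Q))) j =
        ∑ m ∈ (range (2 * L)).image (fun i => (j : ℕ) + i),
          f (π x (p - (L : ZMod Q) + (m : ZMod Q))) j := by
      rw [Finset.sum_image (fun a _ b _ h => by simpa using h)]
      refine Finset.sum_congr rfl fun i _ => ?_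
      have : p + ((j : ℕ) : ZMod Q) - (L : ZMod Q) + (i : ZMod Q) =
          p - (L : ZMod Q) + (((j : ℕ) + i : ℕ) : ZMod Q) := by push_cast; ring
      rw [this]
    rw [e]
    refine Finset.sum_le_sum_of_subset_of_nonneg ?_ fun _ _ _ => hf _ _
    intro m hm
    rw [Finset.mem_image] at hm
    obtain ⟨i, hi, rfl⟩ := hm
    rw [Finset.mem_range] at hi ⊢
    have := j.2
    omega
  have h3 : (L : ℝ) * ∑ j : Fin N, f (π x (p + ((j : ℕ) : ZMod Q))) j ≤
      ∑ m ∈ range (N + 2 * L), ∑ j : Fin N, f (π x (p - (L : ZMod Q) + (m : ZMod Q))) j := by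
    rw [Finset.mul_sum, Finset.sum_comm]
    exact Finset.sum_le_sum fun j _ => (h1 j).trans (h2 j)
  calc ∑ j : Fin N, f (π x (p + ((j : ℕ) : ZMod Q))) j
      = (1 / (L : ℝ)) * ((L : ℝ) * ∑ j : Fin N, f (π x (p + ((j : ℕ) : ZMod Q))) j) := by
        field_simp
    _ ≤ _ := mul_le_mul_of_nonneg_left h3 (by positivity)

/-- one box -/
theorem box_one (X D : ZMod Q → ZMod Q → Matrix β α ℝ) (π : ZMod Q → ZMod Q → Matrix β β ℝ)
    (hπ : ∀ x y, IsPr (π x y)) (hD : ∀ x y, π x y * D x y = D x y) {L N : ℕ} (hL : 0 < L)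
    (hN : 0 < N) (hpc : PC2 π L)
    {M : Matrix (Fin N × α) (Fin N × α) ℝ} (hM : M.PosSemidef)
    {μ K θ : ℝ} (hθ : 0 < θ) (hμ : ∀ v, v ⬝ᵥ M *ᵥ v ≤ μ ^ 2 * (v ⬝ᵥ v))
    (hK : ∀ q y, ColB (fun x y => (X y x)ᵀ) N K q y) (q p : ZMod Q) :
    (rt M * ((bm X N q p)ᵀ * bm D N q p)).trace ≤
      (θ / 2 * μ ^ 2 * (K ^ 2 / N) * (1 / L)) * ∑ i : Fin N, ∑ m ∈ range (N + 2 * L),
        (π (q + ((i : ℕ) : ZMod Q)) (p - (L : ZMod Q) + (m : ZMod Q))).trace +
      (1 / (2 * θ)) * ((1 / (N : ℝ) ^ 2) * ∑ i : Fin N, ∑ j : Fin N,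
        hs2 (D (q + ((i : ℕ) : ZMod Q)) (p + ((j : ℕ) : ZMod Q)))) := by
  have hN' : (0 : ℝ) < N := by exact_mod_cast hN
  have hL' : (0 : ℝ) < L := by exact_mod_cast hL
  set Y := bm X N q p * rt M with hY
  rw [trace_eq_sum (bm X N q p) (bm D N q p) (rt_transpose M), ← hY]
  -- energy of a projection at block (i, j)
  set f : Fin N → Matrix β β ℝ → Fin N → ℝ := fun i P j =>
    ∑ l : β, ∑ s : α, (∑ l' : β, P l l' * Y (i, l') (j, s)) ^ 2 with hf
  have hf0 : ∀ i P j, 0 ≤ f i P j := fun i P j =>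
    Finset.sum_nonneg fun _ _ => Finset.sum_nonneg fun _ _ => sq_nonneg _
  -- one block
  have hblk : ∀ i j : Fin N, ∑ l : β, ∑ s : α, Y (i, l) (j, s) * bm D N q p (i, l) (j, s) ≤
      θ / 2 * f i (π (q + ((i : ℕ) : ZMod Q)) (p + ((j : ℕ) : ZMod Q))) j +
      (1 / (2 * θ)) * ((1 / (N : ℝ) ^ 2) * hs2 (D (q + ((i : ℕ) : ZMod Q))
        (p + ((j : ℕ) : ZMod Q)))) := by
    intro i j
    set x := q + ((i : ℕ) : ZMod Q) with hx
    set y := p + ((j : ℕ) : ZMod Q) with hy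
    have hsym : ∀ l l', π x y l' l = π x y l l' := fun l l' => by
      have := congrFun (congrFun (hπ x y).symm l) l'
      rwa [Matrix.transpose_apply] at this
    have e0 : ∀ l s, bm D N q p (i, l) (j, s) = (1 / (N : ℝ)) * ∑ l', π x y l l' * D x y l' s := by
      intro l s
      have := congrFun (congrFun (hD x y) l) s
      rw [Matrix.mul_apply] at this
      rw [this]
      rfl
    have e1 : ∑ l : β, ∑ s : α, Y (i, l) (j, s) * bm D N q p (i, l) (j, s) =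
        ∑ l : β, ∑ s : α, (∑ l' : β, π x y l l' * Y (i, l') (j, s)) *
          ((1 / (N : ℝ)) * D x y l s) := by
      simp_rw [e0]
      have c1 : ∀ l s, Y (i, l) (j, s) * ((1 / (N : ℝ)) * ∑ l', π x y l l' * D x y l' s) =
          ∑ l', Y (i, l) (j, s) * (π x y l l' * ((1 / (N : ℝ)) * D x y l' s)) := by
        intro l s
        rw [Finset.mul_sum, Finset.mul_sum]
        exact Finset.sum_congr rfl fun l' _ => by ring
      simp_rw [c1]
      calc ∑ l : β, ∑ s : α, ∑ l', Y (i, l) (j, s) * (π x y l l' * ((1 / (N : ℝ)) * D x y l' s))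
          = ∑ s : α, ∑ l : β, ∑ l', Y (i, l) (j, s) * (π x y l l' * ((1 / (N : ℝ)) * D x y l' s)) :=
            Finset.sum_comm
        _ = ∑ s : α, ∑ l', ∑ l : β, Y (i, l) (j, s) * (π x y l l' * ((1 / (N : ℝ)) * D x y l' s)) :=
            Finset.sum_congr rfl fun _ _ => Finset.sum_comm
        _ = ∑ l', ∑ s : α, ∑ l : β, Y (i, l) (j, s) * (π x y l l' * ((1 / (N : ℝ)) * D x y l' s)) :=
            Finset.sum_comm
        _ = _ := by
            refine Finset.sum_congr rfl fun l' _ => Finset.sum_congr rfl fun s _ => ?_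
            rw [Finset.sum_mul]
            refine Finset.sum_congr rfl fun l _ => ?_
            rw [hsym l' l]
            ring
    rw [e1]
    have e2 : θ / 2 * f i (π x y) j + (1 / (2 * θ)) * ((1 / (N : ℝ) ^ 2) * hs2 (D x y)) =
        ∑ l : β, ∑ s : α, (θ / 2 * (∑ l' : β, π x y l l' * Y (i, l') (j, s)) ^ 2 +
          (1 / (2 * θ)) * ((1 / (N : ℝ)) * D x y l s) ^ 2) := by
      simp only [hf, hs2, Finset.sum_add_distrib, ← Finset.mul_sum]
      congr 1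
      congr 1
      rw [Finset.mul_sum]
      refine Finset.sum_congr rfl fun l _ => ?_
      rw [Finset.mul_sum]
      refine Finset.sum_congr rfl fun s _ => ?_
      ring
    rw [e2]
    refine Finset.sum_le_sum fun l _ => Finset.sum_le_sum fun s _ => ?_
    set a := ∑ l' : β, π x y l l' * Y (i, l') (j, s)
    set b := (1 / (N : ℝ)) * D x y l s
    have h : 0 ≤ (1 / (2 * θ)) * (θ * a - b) ^ 2 := by positivity
    have e3 : (1 / (2 * θ)) * (θ * a - b) ^ 2 = θ / 2 * a ^ 2 + (1 / (2 * θ)) * b ^ 2 - a * b := by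
      field_simp
      ring
    linarith
  -- sum over the blocks
  have hsum : ∑ i : Fin N × β, ∑ j : Fin N × α, Y i j * bm D N q p i j =
      ∑ i : Fin N, ∑ j : Fin N, ∑ l : β, ∑ s : α, Y (i, l) (j, s) * bm D N q p (i, l) (j, s) := by
    rw [Fintype.sum_prod_type]
    refine Finset.sum_congr rfl fun i _ => ?_
    simp_rw [Fintype.sum_prod_type]
    rw [Finset.sum_comm]
  rw [hsum]
  have hrow : ∀ i : Fin N, ∑ j : Fin N, f i (π (q + ((i : ℕ) : ZMod Q)) (p + ((j : ℕ) : ZMod Q))) j ≤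
      (1 / (L : ℝ)) * ∑ m ∈ range (N + 2 * L), μ ^ 2 * (K ^ 2 / N) *
        (π (q + ((i : ℕ) : ZMod Q)) (p - (L : ZMod Q) + (m : ZMod Q))).trace := by
    intro i
    refine (pc_row hL hpc _ p (f i) (hf0 i)).trans ?_
    refine mul_le_mul_of_nonneg_left (Finset.sum_le_sum fun m _ => ?_) (by positivity)
    have h := proj_row X hN hM hμ q p i (hK p _)
      (hπ (q + ((i : ℕ) : ZMod Q)) (p - (L : ZMod Q) + (m : ZMod Q)))
    refine le_trans (le_of_eq ?_) h
    simp only [hf]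
    rw [Finset.sum_comm]
    refine Finset.sum_congr rfl fun l _ => ?_
    rw [Fintype.sum_prod_type]
  calc ∑ i : Fin N, ∑ j : Fin N, ∑ l : β, ∑ s : α, Y (i, l) (j, s) * bm D N q p (i, l) (j, s)
      ≤ ∑ i : Fin N, ∑ j : Fin N,
        (θ / 2 * f i (π (q + ((i : ℕ) : ZMod Q)) (p + ((j : ℕ) : ZMod Q))) j +
        (1 / (2 * θ)) * ((1 / (N : ℝ) ^ 2) * hs2 (D (q + ((i : ℕ) : ZMod Q))
          (p + ((j : ℕ) : ZMod Q))))) :=
        Finset.sum_le_sum fun i _ => Finset.sum_le_sum fun j _ => hblk i j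
    _ = θ / 2 * ∑ i : Fin N, ∑ j : Fin N,
          f i (π (q + ((i : ℕ) : ZMod Q)) (p + ((j : ℕ) : ZMod Q))) j +
        (1 / (2 * θ)) * ((1 / (N : ℝ) ^ 2) * ∑ i : Fin N, ∑ j : Fin N,
        hs2 (D (q + ((i : ℕ) : ZMod Q)) (p + ((j : ℕ) : ZMod Q)))) := by
        simp only [Finset.sum_add_distrib, ← Finset.mul_sum]
    _ ≤ θ / 2 * ∑ i : Fin N, ((1 / (L : ℝ)) * ∑ m ∈ range (N + 2 * L), μ ^ 2 * (K ^ 2 / N) *
        (π (q + ((i : ℕ) : ZMod Q)) (p - (L : ZMod Q) + (m : ZMod Q))).trace) +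
        (1 / (2 * θ)) * ((1 / (N : ℝ) ^ 2) * ∑ i : Fin N, ∑ j : Fin N,
        hs2 (D (q + ((i : ℕ) : ZMod Q)) (p + ((j : ℕ) : ZMod Q)))) := by
        have := Finset.sum_le_sum fun i (_ : i ∈ Finset.univ) => hrow i
        have h2 := mul_le_mul_of_nonneg_left this (by positivity : 0 ≤ θ / 2)
        linarith
    _ = _ := by
        simp only [← Finset.mul_sum]
        ring

end
end E3L

section
variable {Q : ℕ} [NeZero Q] {α β : Type*} [Fintype α] [DecidableEq α] [Fintype β] [DecidableEq β]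

/-- [E3L] -/
theorem costL (X D : ZMod Q → ZMod Q → Matrix β α ℝ) (π : ZMod Q → ZMod Q → Matrix β β ℝ)
    (hπ : ∀ x y, IsPr (π x y)) (hD : ∀ x y, π x y * D x y = D x y) {L N : ℕ} (hL : 0 < L)
    (hN : 0 < N) (hpc : PC2 π L)
    (M : ZMod Q → ZMod Q → Matrix (Fin N × α) (Fin N × α) ℝ) (hM : ∀ p q, (M p q).PosSemidef)
    {μ K KD θ : ℝ} (hθ : 0 < θ) (hμ : ∀ p q v, v ⬝ᵥ (M p q) *ᵥ v ≤ μ ^ 2 * (v ⬝ᵥ v))
    (hK : ∀ q y, ColB (fun x y => (X y x)ᵀ) N K q y)
    (hE : ∑ x, ∑ y, hs2 (D x y) ≤ KD ^ 2 * ∑ x, ∑ y, (π x y).trace) :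
    ∑ p, ∑ q, (rt (M p q) * ((bm X N q p)ᵀ * bm D N q p)).trace ≤
      (θ / 2 * μ ^ 2 * K ^ 2 * ((N + 2 * L : ℝ) / L) + KD ^ 2 / (2 * θ)) *
        ∑ x, ∑ y, (π x y).trace := by
  have hN' : (0 : ℝ) < N := by exact_mod_cast hN
  have hL' : (0 : ℝ) < L := by exact_mod_cast hL
  set T : ℝ := ∑ x, ∑ y, (π x y).trace with hT
  have h1 := Finset.sum_le_sum fun p (_ : p ∈ (Finset.univ : Finset (ZMod Q))) =>
    Finset.sum_le_sum fun q (_ : q ∈ (Finset.univ : Finset (ZMod Q))) =>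
      E3L.box_one X D π hπ hD hL hN hpc (hM p q) hθ (hμ p q) hK q p
  refine h1.trans ?_
  simp only [Finset.sum_add_distrib, ← Finset.mul_sum]
  have e1 := sum_box_avg (fun x y => hs2 (D x y)) hN
  simp only [← Finset.mul_sum] at e1
  rw [e1]
  have e2 : ∑ p : ZMod Q, ∑ q : ZMod Q, ∑ i : Fin N, ∑ m ∈ range (N + 2 * L),
      (π (q + ((i : ℕ) : ZMod Q)) (p - (L : ZMod Q) + (m : ZMod Q))).trace =
      (N : ℝ) * ((N : ℝ) + 2 * L) * T := by
    have c1 : ∑ p : ZMod Q, ∑ q : ZMod Q, ∑ i : Fin N, ∑ m ∈ range (N + 2 * L),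
        (π (q + ((i : ℕ) : ZMod Q)) (p - (L : ZMod Q) + (m : ZMod Q))).trace =
        ∑ i : Fin N, ∑ m ∈ range (N + 2 * L), ∑ p : ZMod Q, ∑ q : ZMod Q,
        (π (q + ((i : ℕ) : ZMod Q)) (p - (L : ZMod Q) + (m : ZMod Q))).trace := by
      calc ∑ p : ZMod Q, ∑ q : ZMod Q, ∑ i : Fin N, ∑ m ∈ range (N + 2 * L),
            (π (q + ((i : ℕ) : ZMod Q)) (p - (L : ZMod Q) + (m : ZMod Q))).trace
          = ∑ p : ZMod Q, ∑ i : Fin N, ∑ q : ZMod Q, ∑ m ∈ range (N + 2 * L),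
            (π (q + ((i : ℕ) : ZMod Q)) (p - (L : ZMod Q) + (m : ZMod Q))).trace :=
            Finset.sum_congr rfl fun _ _ => Finset.sum_comm
        _ = ∑ i : Fin N, ∑ p : ZMod Q, ∑ q : ZMod Q, ∑ m ∈ range (N + 2 * L),
            (π (q + ((i : ℕ) : ZMod Q)) (p - (L : ZMod Q) + (m : ZMod Q))).trace := Finset.sum_comm
        _ = ∑ i : Fin N, ∑ p : ZMod Q, ∑ m ∈ range (N + 2 * L), ∑ q : ZMod Q,
            (π (q + ((i : ℕ) : ZMod Q)) (p - (L : ZMod Q) + (m : ZMod Q))).trace :=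
            Finset.sum_congr rfl fun _ _ => Finset.sum_congr rfl fun _ _ => Finset.sum_comm
        _ = _ := Finset.sum_congr rfl fun _ _ => Finset.sum_comm
    rw [c1]
    have c2 : ∀ (i : Fin N) (m : ℕ), ∑ p : ZMod Q, ∑ q : ZMod Q,
        (π (q + ((i : ℕ) : ZMod Q)) (p - (L : ZMod Q) + (m : ZMod Q))).trace = T := by
      intro i m
      rw [Finset.sum_comm, hT]
      have : ∀ q : ZMod Q, ∑ p : ZMod Q,
          (π (q + ((i : ℕ) : ZMod Q)) (p - (L : ZMod Q) + (m : ZMod Q))).trace =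
          ∑ p : ZMod Q, (π (q + ((i : ℕ) : ZMod Q)) p).trace := by
        intro q
        have := Lattice.sum_add_right' (fun p => (π (q + ((i : ℕ) : ZMod Q)) p).trace)
          (-(L : ZMod Q) + (m : ZMod Q))
        rw [← this]
        refine Finset.sum_congr rfl fun p _ => ?_
        congr 2
        ring
      simp_rw [this]
      exact Lattice.sum_add_right' (fun q => ∑ p : ZMod Q, (π q p).trace) _
    simp_rw [c2]
    rw [Finset.sum_const, Finset.sum_const, Finset.card_univ, Fintype.card_fin, Finset.card_range,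
      nsmul_eq_mul, nsmul_eq_mul]
    push_cast
    ring
  rw [e2]
  have h3 : (1 / (2 * θ)) * ∑ x, ∑ y, hs2 (D x y) ≤ (1 / (2 * θ)) * (KD ^ 2 * T) :=
    mul_le_mul_of_nonneg_left hE (by positivity)
  refine (add_le_add_right h3 _).trans (le_of_eq ?_)
  field_simp
end
end Crest.Agent.R079.PotL
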