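import Crest.Agent.R079.PLEdef_377

/-! R079, labelled corner `(oo-,2+,2+)` in the LINE model (377's doc 2517), leaf E3R `costR`.
helper396. -/

set_option autoImplicit false
set_option linter.unusedVariables false
set_option linter.unusedSectionVars false

namespace Crest.Agent.R079.PotL

open Matrix Finset Crest.Agent.R072
open scoped MatrixOrder

local notation "rt" => CFC.sqrt

section aux

variable {ι J α β : Type*} [Fintype ι] [DecidableEq ι] [Fintype J] [DecidableEq J]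
  [Fintype α] [DecidableEq α] [Fintype β] [DecidableEq β]

/-- weighted AM-GM for the label pairing -/
theorem pair_le (A E : Matrix β α ℝ) {θ : ℝ} (hθ : 0 < θ) :
    ∑ l : β, ∑ s : α, A l s * E l s ≤ θ / 2 * hs2 A + 1 / (2 * θ) * hs2 E := by
  unfold hs2
  rw [Finset.mul_sum, Finset.mul_sum, ← Finset.sum_add_distrib]
  refine Finset.sum_le_sum fun l _ => ?_
  rw [Finset.mul_sum, Finset.mul_sum, ← Finset.sum_add_distrib]
  refine Finset.sum_le_sum fun s _ => ?_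
  have h : 0 ≤ (θ * A l s - E l s) ^ 2 / (2 * θ) := by positivity
  have e : (θ * A l s - E l s) ^ 2 / (2 * θ) =
      θ / 2 * A l s ^ 2 + 1 / (2 * θ) * E l s ^ 2 - A l s * E l s := by
    field_simp
    ring
  linarith

theorem pair_right (A E : Matrix β α ℝ) {P : Matrix α α ℝ} (hP : Pᵀ = P) (hE : E * P = E) :
    ∑ l : β, ∑ s : α, A l s * E l s = ∑ l : β, ∑ s : α, (A * P) l s * E l s := by
  have h : ∀ B C : Matrix β α ℝ, ∑ l : β, ∑ s : α, B l s * C l s = (Bᵀ * C).trace := by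
    intro B C
    rw [Matrix.trace, Finset.sum_comm]
    refine Finset.sum_congr rfl fun j _ => ?_
    rw [Matrix.diag_apply, Matrix.mul_apply]
    rfl
  rw [h, h, transpose_mul, hP, Matrix.mul_assoc]
  conv_lhs => rw [← hE]
  rw [← Matrix.mul_assoc, Matrix.trace_mul_comm]

theorem pair_left (A E : Matrix β α ℝ) {P : Matrix β β ℝ} (hP : Pᵀ = P) (hE : P * E = E) :
    ∑ l : β, ∑ s : α, A l s * E l s = ∑ l : β, ∑ s : α, (P * A) l s * E l s := by
  have h : ∀ B C : Matrix β α ℝ, ∑ l : β, ∑ s : α, B l s * C l s = (Bᵀ * C).trace := by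
    intro B C
    rw [Matrix.trace, Finset.sum_comm]
    refine Finset.sum_congr rfl fun j _ => ?_
    rw [Matrix.diag_apply, Matrix.mul_apply]
    rfl
  rw [h, h, transpose_mul, hP, Matrix.mul_assoc, hE]

theorem pr_sum_sq {P : Matrix α α ℝ} (hP : IsPr P) : ∑ t : α, ∑ s : α, P s t ^ 2 = P.trace := by
  conv_rhs => rw [← hP.idem]
  rw [Matrix.trace]
  refine Finset.sum_congr rfl fun t _ => ?_
  rw [Matrix.diag_apply, Matrix.mul_apply]
  refine Finset.sum_congr rfl fun s _ => ?_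
  have := congrFun (congrFun hP.symm t) s
  rw [Matrix.transpose_apply] at this
  rw [← this]
  have h2 := congrFun (congrFun hP.symm s) t
  rw [Matrix.transpose_apply] at h2
  rw [sq]

theorem pr_trace_nonneg {P : Matrix α α ℝ} (hP : IsPr P) : 0 ≤ P.trace := by
  rw [← pr_sum_sq hP]
  exact Finset.sum_nonneg fun _ _ => Finset.sum_nonneg fun _ _ => sq_nonneg _

/-- the column block of `√M` applied to `v` -/
theorem rt_col_sq {M : Matrix (J × α) (J × α) ℝ} (hM : M.PosSemidef) (j : J) (v : α → ℝ) :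
    ∑ k, (∑ s : α, rt M k (j, s) * v s) ^ 2 = ∑ s : α, ∑ t : α, v s * M (j, s) (j, t) * v t := by
  have hMM := rt_mul_rt hM
  have hT := rt_transpose M
  have e : ∀ s t : α, M (j, s) (j, t) = ∑ k, rt M k (j, s) * rt M k (j, t) := by
    intro s t
    conv_lhs => rw [← hMM]
    rw [Matrix.mul_apply]
    refine Finset.sum_congr rfl fun k _ => ?_
    congr 1
    have := congrFun (congrFun hT k) (j, s)
    rw [Matrix.transpose_apply] at this
    exact this
  simp_rw [e, Finset.mul_sum, Finset.sum_mul]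
  have e2 : ∀ k, (∑ s : α, rt M k (j, s) * v s) ^ 2 =
      ∑ s : α, ∑ t : α, v s * (rt M k (j, s) * rt M k (j, t)) * v t := by
    intro k
    rw [sq, Finset.sum_mul]
    refine Finset.sum_congr rfl fun s _ => ?_
    rw [Finset.mul_sum]
    refine Finset.sum_congr rfl fun t _ => ?_
    ring
  simp_rw [e2]
  rw [Finset.sum_comm]
  refine Finset.sum_congr rfl fun s _ => ?_
  rw [Finset.sum_comm]

/-- **right block bound**: `Σ_i |(X √M)(i,j) P|² ≤ ξ² c tr P` -/
theorem right_block (X : Matrix (ι × β) (J × α) ℝ) {M : Matrix (J × α) (J × α) ℝ}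
    (hM : M.PosSemidef) (j : J) {P : Matrix α α ℝ} (hP : IsPr P) {ξ c : ℝ}
    (hξ : ∀ v, (X *ᵥ v) ⬝ᵥ (X *ᵥ v) ≤ ξ ^ 2 * (v ⬝ᵥ v))
    (hK : ∀ v : α → ℝ, ∑ s : α, ∑ t : α, v s * M (j, s) (j, t) * v t ≤ c * ∑ s : α, v s ^ 2) :
    ∑ i : ι, hs2 (blk (X * rt M) i j * P) ≤ ξ ^ 2 * c * P.trace := by
  set u : α → (J × α → ℝ) := fun t k => ∑ s : α, rt M k (j, s) * P s t with hu
  have h1 : ∀ (i : ι) (l : β) (t : α), (blk (X * rt M) i j * P) l t = (X *ᵥ u t) (i, l) := by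
    intro i l t
    rw [Matrix.mul_apply]
    simp only [blk, Matrix.mul_apply, Matrix.mulVec, dotProduct, hu]
    simp_rw [Finset.sum_mul, Finset.mul_sum]
    rw [Finset.sum_comm]
    refine Finset.sum_congr rfl fun k _ => Finset.sum_congr rfl fun s _ => ?_
    ring
  have h2 : ∑ i : ι, hs2 (blk (X * rt M) i j * P) = ∑ t : α, (X *ᵥ u t) ⬝ᵥ (X *ᵥ u t) := by
    unfold hs2
    simp_rw [h1]
    have c1 : ∑ i : ι, ∑ l : β, ∑ s : α, (X *ᵥ u s) (i, l) ^ 2 =
        ∑ s : α, ∑ i : ι, ∑ l : β, (X *ᵥ u s) (i, l) ^ 2 := by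
      rw [Finset.sum_comm]
      calc _ = ∑ l : β, ∑ s : α, ∑ i : ι, (X *ᵥ u s) (i, l) ^ 2 :=
            Finset.sum_congr rfl fun _ _ => Finset.sum_comm
        _ = ∑ s : α, ∑ l : β, ∑ i : ι, (X *ᵥ u s) (i, l) ^ 2 := Finset.sum_comm
        _ = _ := Finset.sum_congr rfl fun _ _ => Finset.sum_comm
    rw [c1]
    refine Finset.sum_congr rfl fun t _ => ?_
    rw [dotProduct, Fintype.sum_prod_type]
    refine Finset.sum_congr rfl fun i _ => Finset.sum_congr rfl fun l _ => ?_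
    rw [sq]
  rw [h2]
  calc ∑ t : α, (X *ᵥ u t) ⬝ᵥ (X *ᵥ u t) ≤ ∑ t : α, ξ ^ 2 * (u t ⬝ᵥ u t) :=
        Finset.sum_le_sum fun t _ => hξ _
    _ ≤ ∑ t : α, ξ ^ 2 * (c * ∑ s : α, P s t ^ 2) := by
        refine Finset.sum_le_sum fun t _ => mul_le_mul_of_nonneg_left ?_ (sq_nonneg _)
        have e : u t ⬝ᵥ u t = ∑ k, (∑ s : α, rt M k (j, s) * P s t) ^ 2 := by
          rw [dotProduct]
          refine Finset.sum_congr rfl fun k _ => ?_
          rw [sq]
        rw [e, rt_col_sq hM j (fun s => P s t)]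
        exact hK _
    _ = ξ ^ 2 * c * P.trace := by
        rw [← pr_sum_sq hP, Finset.mul_sum]
        refine Finset.sum_congr rfl fun t _ => ?_
        ring

end aux

section lat

variable {Q : ℕ} [NeZero Q] {α β : Type*} [Fintype α] [DecidableEq α] [Fintype β] [DecidableEq β]

/-- piecewise constancy, averaged: a nonnegative function of `π` at a point of the box is at most
the sum over the fattened box divided by `L` -/
theorem pc_avg {κ : Type*} {π : ZMod Q → ZMod Q → Matrix κ κ ℝ} {L : ℕ} (hL : 0 < L)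
    (hpc : PC2 π L) {N : ℕ} (x p : ZMod Q) (j : ℕ) (hj : j < N) (f : Matrix κ κ ℝ → ℝ)
    (hf : ∀ y, 0 ≤ f (π x y)) :
    f (π x (p + (j : ZMod Q))) ≤ (1 / (L : ℝ)) *
      ∑ r ∈ range (N + 2 * L), f (π x (p - (L : ZMod Q) + (r : ZMod Q))) := by
  obtain ⟨s, hs, hc, he⟩ := hpc x (p + (j : ZMod Q))
  have hL' : (0 : ℝ) < L := by exact_mod_cast hL
  have h1 : ∑ i ∈ s, f (π x (p + (j : ZMod Q) - (L : ZMod Q) + (i : ZMod Q))) =
      s.card * f (π x (p + (j : ZMod Q))) := by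
    rw [Finset.sum_congr rfl fun i hi => by rw [he i hi], Finset.sum_const, nsmul_eq_mul]
  have h2 : ∑ i ∈ s, f (π x (p + (j : ZMod Q) - (L : ZMod Q) + (i : ZMod Q))) ≤
      ∑ r ∈ range (N + 2 * L), f (π x (p - (L : ZMod Q) + (r : ZMod Q))) := by
    have h3 : ∑ i ∈ s, f (π x (p + (j : ZMod Q) - (L : ZMod Q) + (i : ZMod Q))) =
        ∑ r ∈ s.map (addLeftEmbedding j), f (π x (p - (L : ZMod Q) + (r : ZMod Q))) := by
      rw [Finset.sum_map]
      refine Finset.sum_congr rfl fun i _ => ?_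
      congr 2
      simp only [addLeftEmbedding_apply]
      push_cast
      ring
    rw [h3]
    refine Finset.sum_le_sum_of_subset_of_nonneg ?_ fun r _ _ => hf _
    intro r hr
    rw [Finset.mem_map] at hr
    obtain ⟨i, hi, rfl⟩ := hr
    have := Finset.mem_range.1 (hs hi)
    rw [Finset.mem_range, addLeftEmbedding_apply]
    omega
  rw [h1] at h2
  have h4 : (L : ℝ) * f (π x (p + (j : ZMod Q))) ≤ s.card * f (π x (p + (j : ZMod Q))) :=
    mul_le_mul_of_nonneg_right (by exact_mod_cast hc) (hf _)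
  rw [one_div, ← div_eq_inv_mul, le_div_iff₀ hL']
  linarith

theorem sum_shift2 (f : ZMod Q → ZMod Q → ℝ) (a b : ZMod Q) :
    ∑ p : ZMod Q, ∑ q : ZMod Q, f (q + a) (p + b) = ∑ x : ZMod Q, ∑ y : ZMod Q, f x y := by
  rw [Finset.sum_comm]
  have : ∀ q : ZMod Q, ∑ p : ZMod Q, f (q + a) (p + b) = ∑ p : ZMod Q, f (q + a) p := fun q =>
    Lattice.sum_add_right' (fun p => f (q + a) p) _
  simp_rw [this]
  exact Lattice.sum_add_right' (fun q => ∑ p : ZMod Q, f q p) _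

theorem hs2_blk_bm (D : ZMod Q → ZMod Q → Matrix β α ℝ) (N : ℕ) (q p : ZMod Q) (i j : Fin N) :
    hs2 (blk (bm D N q p) i j) = 1 / (N : ℝ) ^ 2 *
      hs2 (D (q + ((i : ℕ) : ZMod Q)) (p + ((j : ℕ) : ZMod Q))) := by
  unfold hs2 blk bm
  rw [Finset.mul_sum]
  refine Finset.sum_congr rfl fun l _ => ?_
  rw [Finset.mul_sum]
  refine Finset.sum_congr rfl fun s _ => ?_
  ring

/-- the energy of the difference letter, summed over all boxes -/
theorem sum_hs2_bm (D : ZMod Q → ZMod Q → Matrix β α ℝ) {N : ℕ} (hN : 0 < N) :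
    ∑ p : ZMod Q, ∑ q : ZMod Q, ∑ i : Fin N, ∑ j : Fin N, hs2 (blk (bm D N q p) i j) =
      ∑ x, ∑ y, hs2 (D x y) := by
  have h := sum_box_avg (fun x y => hs2 (D x y)) hN
  rw [← h]
  refine Finset.sum_congr rfl fun p _ => Finset.sum_congr rfl fun q _ => ?_
  rw [Finset.mul_sum]
  refine Finset.sum_congr rfl fun i _ => ?_
  rw [Finset.mul_sum]
  exact Finset.sum_congr rfl fun j _ => hs2_blk_bm D N q p i j

/-- **E3R** -/
theorem costR (X D : ZMod Q → ZMod Q → Matrix β α ℝ) (π : ZMod Q → ZMod Q → Matrix α α ℝ)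
    (hπ : ∀ x y, IsPr (π x y)) (hD : ∀ x y, D x y * π x y = D x y) {L N : ℕ} (hL : 0 < L)
    (hN : 0 < N) (hpc : PC1 π L)
    (M : ZMod Q → ZMod Q → Matrix (Fin N × α) (Fin N × α) ℝ) (hM : ∀ p q, (M p q).PosSemidef)
    {ξ K KD θ : ℝ} (hθ : 0 < θ)
    (hξ : ∀ p q v, (bm X N q p *ᵥ v) ⬝ᵥ (bm X N q p *ᵥ v) ≤ ξ ^ 2 * (v ⬝ᵥ v))
    (hK : ∀ p q (j : Fin N) (v : α → ℝ), ∑ s : α, ∑ t : α, v s * M p q (j, s) (j, t) * v t ≤
        K ^ 2 / N * ∑ s : α, v s ^ 2)
    (hE : ∑ x, ∑ y, hs2 (D x y) ≤ KD ^ 2 * ∑ x, ∑ y, (π x y).trace) :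
    ∑ p, ∑ q, (rt (M p q) * ((bm X N q p)ᵀ * bm D N q p)).trace ≤
      (θ / 2 * ξ ^ 2 * K ^ 2 * ((N + 2 * L : ℝ) / L) + KD ^ 2 / (2 * θ)) *
        ∑ x, ∑ y, (π x y).trace := by
  have hN' : (0 : ℝ) < N := by exact_mod_cast hN
  have hL' : (0 : ℝ) < L := by exact_mod_cast hL
  -- one box
  have hbox : ∀ p q : ZMod Q, (rt (M p q) * ((bm X N q p)ᵀ * bm D N q p)).trace ≤
      θ / 2 * ((1 / (L : ℝ)) * ∑ j : Fin N, ∑ r ∈ range (N + 2 * L),
        ξ ^ 2 * (K ^ 2 / N) * (π (q - (L : ZMod Q) + (r : ZMod Q))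
          (p + ((j : ℕ) : ZMod Q))).trace) +
      1 / (2 * θ) * ∑ i : Fin N, ∑ j : Fin N, hs2 (blk (bm D N q p) i j) := by
    intro p q
    rw [trace_eq_sum _ _ (rt_transpose _), Fintype.sum_prod_type]
    have e1 : ∀ i : Fin N, ∑ l : β, ∑ k : Fin N × α, (bm X N q p * rt (M p q)) (i, l) k *
        bm D N q p (i, l) k ≤ ∑ j : Fin N, (θ / 2 * hs2 (blk (bm X N q p * rt (M p q)) i j *
          π (q + ((i : ℕ) : ZMod Q)) (p + ((j : ℕ) : ZMod Q))) +
          1 / (2 * θ) * hs2 (blk (bm D N q p) i j)) := by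
      intro i
      simp_rw [Fintype.sum_prod_type]
      rw [Finset.sum_comm]
      refine Finset.sum_le_sum fun j _ => ?_
      have hDE : blk (bm D N q p) i j * π (q + ((i : ℕ) : ZMod Q)) (p + ((j : ℕ) : ZMod Q)) =
          blk (bm D N q p) i j := by
        have e : blk (bm D N q p) i j = (1 / (N : ℝ)) •
            D (q + ((i : ℕ) : ZMod Q)) (p + ((j : ℕ) : ZMod Q)) := by
          ext l s
          simp only [blk, bm, Matrix.smul_apply, smul_eq_mul]
        rw [e, Matrix.smul_mul, hD]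
      have h1 := pair_right (blk (bm X N q p * rt (M p q)) i j) (blk (bm D N q p) i j)
        (hπ (q + ((i : ℕ) : ZMod Q)) (p + ((j : ℕ) : ZMod Q))).symm hDE
      have h2 := pair_le (blk (bm X N q p * rt (M p q)) i j *
        π (q + ((i : ℕ) : ZMod Q)) (p + ((j : ℕ) : ZMod Q))) (blk (bm D N q p) i j) hθ
      rw [← h1] at h2
      exact h2
    refine (Finset.sum_le_sum fun i _ => e1 i).trans ?_
    have e2 : ∑ i : Fin N, ∑ j : Fin N, (θ / 2 * hs2 (blk (bm X N q p * rt (M p q)) i j *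
          π (q + ((i : ℕ) : ZMod Q)) (p + ((j : ℕ) : ZMod Q))) +
          1 / (2 * θ) * hs2 (blk (bm D N q p) i j)) =
        θ / 2 * ∑ i : Fin N, ∑ j : Fin N, hs2 (blk (bm X N q p * rt (M p q)) i j *
          π (q + ((i : ℕ) : ZMod Q)) (p + ((j : ℕ) : ZMod Q))) +
        1 / (2 * θ) * ∑ i : Fin N, ∑ j : Fin N, hs2 (blk (bm D N q p) i j) := by
      simp_rw [Finset.sum_add_distrib, ← Finset.mul_sum]
    rw [e2]
    refine add_le_add (mul_le_mul_of_nonneg_left ?_ (by positivity)) le_rfl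
    rw [Finset.sum_comm, Finset.mul_sum]
    refine Finset.sum_le_sum fun j _ => ?_
    calc ∑ i : Fin N, hs2 (blk (bm X N q p * rt (M p q)) i j *
          π (q + ((i : ℕ) : ZMod Q)) (p + ((j : ℕ) : ZMod Q)))
        ≤ ∑ i : Fin N, (1 / (L : ℝ)) * ∑ r ∈ range (N + 2 * L),
            hs2 (blk (bm X N q p * rt (M p q)) i j *
              π (q - (L : ZMod Q) + (r : ZMod Q)) (p + ((j : ℕ) : ZMod Q))) := by
          refine Finset.sum_le_sum fun i _ => ?_
          exact pc_avg (π := fun y x => π x y) hL hpc (p + ((j : ℕ) : ZMod Q)) q (i : ℕ) i.2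
            (fun P => hs2 (blk (bm X N q p * rt (M p q)) i j * P)) (fun _ => hs2_nonneg _)
      _ = (1 / (L : ℝ)) * ∑ r ∈ range (N + 2 * L), ∑ i : Fin N,
            hs2 (blk (bm X N q p * rt (M p q)) i j *
              π (q - (L : ZMod Q) + (r : ZMod Q)) (p + ((j : ℕ) : ZMod Q))) := by
          rw [← Finset.mul_sum, Finset.sum_comm]
      _ ≤ (1 / (L : ℝ)) * ∑ r ∈ range (N + 2 * L), ξ ^ 2 * (K ^ 2 / N) *
            (π (q - (L : ZMod Q) + (r : ZMod Q)) (p + ((j : ℕ) : ZMod Q))).trace := by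
          refine mul_le_mul_of_nonneg_left (Finset.sum_le_sum fun r _ => ?_) (by positivity)
          exact right_block (bm X N q p) (hM p q) j (hπ _ _) (hξ p q) (hK p q j)
  refine (Finset.sum_le_sum fun p _ => Finset.sum_le_sum fun q _ => hbox p q).trans ?_
  simp_rw [Finset.sum_add_distrib, ← Finset.mul_sum]
  rw [sum_hs2_bm D hN]
  have hT : ∑ p : ZMod Q, ∑ q : ZMod Q, ∑ j : Fin N, ∑ r ∈ range (N + 2 * L),
      (π (q - (L : ZMod Q) + (r : ZMod Q)) (p + ((j : ℕ) : ZMod Q))).trace =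
      (N * (N + 2 * L : ℝ)) * ∑ x, ∑ y, (π x y).trace := by
    have c1 : ∑ p : ZMod Q, ∑ q : ZMod Q, ∑ j : Fin N, ∑ r ∈ range (N + 2 * L),
        (π (q - (L : ZMod Q) + (r : ZMod Q)) (p + ((j : ℕ) : ZMod Q))).trace =
        ∑ j : Fin N, ∑ r ∈ range (N + 2 * L), ∑ p : ZMod Q, ∑ q : ZMod Q,
        (π (q - (L : ZMod Q) + (r : ZMod Q)) (p + ((j : ℕ) : ZMod Q))).trace := by
      calc _ = ∑ p : ZMod Q, ∑ j : Fin N, ∑ q : ZMod Q, ∑ r ∈ range (N + 2 * L),
            (π (q - (L : ZMod Q) + (r : ZMod Q)) (p + ((j : ℕ) : ZMod Q))).trace :=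
            Finset.sum_congr rfl fun _ _ => Finset.sum_comm
        _ = ∑ j : Fin N, ∑ p : ZMod Q, ∑ q : ZMod Q, ∑ r ∈ range (N + 2 * L),
            (π (q - (L : ZMod Q) + (r : ZMod Q)) (p + ((j : ℕ) : ZMod Q))).trace :=
            Finset.sum_comm
        _ = ∑ j : Fin N, ∑ p : ZMod Q, ∑ r ∈ range (N + 2 * L), ∑ q : ZMod Q,
            (π (q - (L : ZMod Q) + (r : ZMod Q)) (p + ((j : ℕ) : ZMod Q))).trace :=
            Finset.sum_congr rfl fun _ _ => Finset.sum_congr rfl fun _ _ => Finset.sum_comm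
        _ = _ := Finset.sum_congr rfl fun _ _ => Finset.sum_comm
    rw [c1]
    have h1 : ∀ (j : Fin N) (r : ℕ), ∑ p : ZMod Q, ∑ q : ZMod Q,
        (π (q - (L : ZMod Q) + (r : ZMod Q)) (p + ((j : ℕ) : ZMod Q))).trace =
        ∑ x, ∑ y, (π x y).trace := by
      intro j r
      have := sum_shift2 (fun x y => (π x y).trace) (-(L : ZMod Q) + (r : ZMod Q))
        ((j : ℕ) : ZMod Q)
      rw [← this]
      refine Finset.sum_congr rfl fun p _ => Finset.sum_congr rfl fun q _ => ?_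
      congr 2
      ring
    simp_rw [h1]
    rw [Finset.sum_const, Finset.sum_const, Finset.card_range, Finset.card_univ,
      Fintype.card_fin, nsmul_eq_mul, nsmul_eq_mul]
    push_cast
    ring
  rw [hT]
  have hθ2 : 1 / (2 * θ) * ∑ x, ∑ y, hs2 (D x y) ≤
      1 / (2 * θ) * (KD ^ 2 * ∑ x, ∑ y, (π x y).trace) :=
    mul_le_mul_of_nonneg_left hE (by positivity)
  refine (add_le_add le_rfl hθ2).trans (le_of_eq ?_)
  field_simp

end lat

end Crest.Agent.R079.PotL
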