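import Crest.Agent.R079.PLEdef_377

/-! R079, labelled corner in the LINE model, E4: operator norms of box matrices, price of the
moves in `MSf` from trace prices.  helper377. -/

set_option autoImplicit false
set_option linter.unusedVariables false
set_option linter.unusedSectionVars false

namespace Crest.Agent.R079.PotL

open Matrix Finset Crest.Agent.R072
open scoped MatrixOrder

local notation "rt" => CFC.sqrt

section op

variable {Q : ℕ} [NeZero Q] {α β γ : Type*} [Fintype α] [DecidableEq α] [Fintype β]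
  [DecidableEq β] [Fintype γ] [DecidableEq γ]

/-- column bound ⟹ operator norm of the box -/
theorem bm_op_col (X : ZMod Q → ZMod Q → Matrix β α ℝ) {N : ℕ} (hN : 0 < N) {K : ℝ}
    (h : ∀ q y, ColB X N K q y) (q p : ZMod Q) (v : Fin N × α → ℝ) :
    (bm X N q p *ᵥ v) ⬝ᵥ (bm X N q p *ᵥ v) ≤ K ^ 2 * (v ⬝ᵥ v) := by
  have hN' : (0 : ℝ) < N := by exact_mod_cast hN
  -- pointwise: |Σ_j x_j|² ≤ N Σ_j |x_j|²
  have h1 : ∀ (i : Fin N) (l : β), (bm X N q p *ᵥ v) (i, l) ^ 2 ≤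
      (1 / (N : ℝ)) * ∑ j : Fin N, (∑ s : α, X (q + ((i : ℕ) : ZMod Q))
        (p + ((j : ℕ) : ZMod Q)) l s * v (j, s)) ^ 2 := by
    intro i l
    have e : (bm X N q p *ᵥ v) (i, l) = (1 / (N : ℝ)) * ∑ j : Fin N,
        ∑ s : α, X (q + ((i : ℕ) : ZMod Q)) (p + ((j : ℕ) : ZMod Q)) l s * v (j, s) := by
      simp only [Matrix.mulVec, dotProduct, Fintype.sum_prod_type, bm, Finset.mul_sum]
      refine Finset.sum_congr rfl fun j _ => Finset.sum_congr rfl fun s _ => ?_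
      ring
    rw [e, mul_pow]
    have h2 := Finset.sum_mul_sq_le_sq_mul_sq (Finset.univ : Finset (Fin N)) (fun _ => (1 : ℝ))
      (fun j => ∑ s : α, X (q + ((i : ℕ) : ZMod Q)) (p + ((j : ℕ) : ZMod Q)) l s * v (j, s))
    simp only [one_mul, one_pow, Finset.sum_const, Finset.card_univ, Fintype.card_fin,
      nsmul_eq_mul, mul_one] at h2
    calc (1 / (N : ℝ)) ^ 2 * _ ≤ (1 / (N : ℝ)) ^ 2 * (N * _) :=
          mul_le_mul_of_nonneg_left h2 (by positivity)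
      _ = _ := by field_simp
  have h2 : (bm X N q p *ᵥ v) ⬝ᵥ (bm X N q p *ᵥ v) ≤ ∑ i : Fin N, ∑ l : β,
      (1 / (N : ℝ)) * ∑ j : Fin N, (∑ s : α, X (q + ((i : ℕ) : ZMod Q))
        (p + ((j : ℕ) : ZMod Q)) l s * v (j, s)) ^ 2 := by
    rw [dotProduct, Fintype.sum_prod_type]
    refine Finset.sum_le_sum fun i _ => Finset.sum_le_sum fun l _ => ?_
    rw [← sq]
    exact h1 i l
  refine h2.trans ?_
  have h3 : ∑ i : Fin N, ∑ l : β,
      (1 / (N : ℝ)) * ∑ j : Fin N, (∑ s : α, X (q + ((i : ℕ) : ZMod Q))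
        (p + ((j : ℕ) : ZMod Q)) l s * v (j, s)) ^ 2 =
      ∑ j : Fin N, (1 / (N : ℝ)) * ∑ k ∈ range N, ∑ l : β,
        (∑ s : α, X (q + (k : ZMod Q)) (p + ((j : ℕ) : ZMod Q)) l s * v (j, s)) ^ 2 := by
    simp_rw [← Finset.mul_sum]
    congr 1
    rw [show (∑ i : Fin N, ∑ l : β, ∑ j : Fin N, (∑ s : α, X (q + ((i : ℕ) : ZMod Q))
        (p + ((j : ℕ) : ZMod Q)) l s * v (j, s)) ^ 2) = ∑ i : Fin N, ∑ j : Fin N, ∑ l : β,
        (∑ s : α, X (q + ((i : ℕ) : ZMod Q)) (p + ((j : ℕ) : ZMod Q)) l s * v (j, s)) ^ 2 from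
        Finset.sum_congr rfl fun i _ => Finset.sum_comm, Finset.sum_comm]
    refine Finset.sum_congr rfl fun j _ => ?_
    rw [Finset.sum_range]
  rw [h3, dotProduct, Fintype.sum_prod_type, Finset.mul_sum]
  refine Finset.sum_le_sum fun j _ => ?_
  have h4 := h q (p + ((j : ℕ) : ZMod Q)) (fun s => v (j, s))
  refine h4.trans (le_of_eq ?_)
  simp only [sq]

theorem bm_transpose (X : ZMod Q → ZMod Q → Matrix β α ℝ) (N : ℕ) (q p : ZMod Q) :
    (bm X N q p)ᵀ = bm (fun y x => (X x y)ᵀ) N p q := by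
  ext i j
  rfl

/-- row bound ⟹ operator norm of the box -/
theorem bm_op_row (X : ZMod Q → ZMod Q → Matrix β α ℝ) {N : ℕ} (hN : 0 < N) {K : ℝ}
    (h : ∀ q y, ColB (fun y x => (X x y)ᵀ) N K q y) (q p : ZMod Q) (v : Fin N × α → ℝ) :
    (bm X N q p *ᵥ v) ⬝ᵥ (bm X N q p *ᵥ v) ≤ K ^ 2 * (v ⬝ᵥ v) := by
  have hT := bm_op_col (fun y x => (X x y)ᵀ) hN h p q
  rw [← bm_transpose] at hT
  set A := bm X N q p
  set w := A *ᵥ v with hw
  have h1 := hT w
  -- w·w = v · Aᵀ w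
  have e : w ⬝ᵥ w = v ⬝ᵥ (Aᵀ *ᵥ w) := by
    conv_lhs => lhs; rw [hw]
    rw [Matrix.mulVec_transpose, dotProduct_comm, Matrix.dotProduct_mulVec, dotProduct_comm]
  have h2 := Finset.sum_mul_sq_le_sq_mul_sq (Finset.univ : Finset (Fin N × α)) v (Aᵀ *ᵥ w)
  have hv : 0 ≤ v ⬝ᵥ v := by
    rw [dotProduct]; exact Finset.sum_nonneg fun i _ => mul_self_nonneg _
  have hw0 : 0 ≤ w ⬝ᵥ w := by
    rw [dotProduct]; exact Finset.sum_nonneg fun i _ => mul_self_nonneg _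
  have h3 : (w ⬝ᵥ w) * (w ⬝ᵥ w) ≤ (K ^ 2 * (v ⬝ᵥ v)) * (w ⬝ᵥ w) := by
    calc (w ⬝ᵥ w) * (w ⬝ᵥ w) = (v ⬝ᵥ (Aᵀ *ᵥ w)) ^ 2 := by rw [← e]; ring
      _ ≤ (∑ i, v i ^ 2) * ∑ i, (Aᵀ *ᵥ w) i ^ 2 := h2
      _ = (v ⬝ᵥ v) * ((Aᵀ *ᵥ w) ⬝ᵥ (Aᵀ *ᵥ w)) := by simp only [dotProduct, sq]
      _ ≤ (v ⬝ᵥ v) * (K ^ 2 * (w ⬝ᵥ w)) := mul_le_mul_of_nonneg_left h1 hv
      _ = _ := by ring
  rcases eq_or_lt_of_le hw0 with h0 | h0
  · rw [← h0]; positivity
  · exact le_of_mul_le_mul_right h3 h0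

/-- quadratic form of the Gram matrix -/
theorem abar_op (X : ZMod Q → ZMod Q → Matrix β α ℝ) {N : ℕ} (q p : ZMod Q) {K : ℝ}
    (h : ∀ v, (bm X N q p *ᵥ v) ⬝ᵥ (bm X N q p *ᵥ v) ≤ K ^ 2 * (v ⬝ᵥ v)) (v : Fin N × α → ℝ) :
    v ⬝ᵥ (abar X N N q p *ᵥ v) ≤ K ^ 2 * (v ⬝ᵥ v) := by
  rw [← transpose_mul_bm, ← Matrix.mulVec_mulVec, Matrix.dotProduct_mulVec,
    Matrix.vecMul_transpose]
  exact h v

theorem abar_diag (X : ZMod Q → ZMod Q → Matrix β α ℝ) {N : ℕ} (q p : ZMod Q) {K : ℝ}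
    (h : ∀ q y, ColB X N K q y) (j : Fin N) (v : α → ℝ) :
    ∑ s : α, ∑ t : α, v s * abar X N N q p (j, s) (j, t) * v t ≤ K ^ 2 / N * ∑ s : α, v s ^ 2 := by
  rw [abar_quad]
  have h1 := h q (p + ((j : ℕ) : ZMod Q)) v
  calc (1 / (N : ℝ)) * _ ≤ (1 / (N : ℝ)) * (K ^ 2 * ∑ s : α, v s ^ 2) :=
        mul_le_mul_of_nonneg_left h1 (by positivity)
    _ = _ := by ring

end op

section price

variable {Q : ℕ} [NeZero Q] {α β γ : Type*} [Fintype α] [DecidableEq α] [Fintype β]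
  [DecidableEq β] [Fintype γ] [DecidableEq γ]

/-- trace price of the change `D` of the letter `X` over all boxes of side `N`, for every family of
PSD matrices with operator norm `≤ μ²` (and, if `dg`, diagonal blocks `≤ μ²/N`) -/
def TrP (dg : Prop) (X D : ZMod Q → ZMod Q → Matrix β α ℝ) (N : ℕ) (μ c : ℝ) : Prop :=
  ∀ M : ZMod Q → ZMod Q → Matrix (Fin N × α) (Fin N × α) ℝ, (∀ p q, (M p q).PosSemidef) →
    (∀ p q v, v ⬝ᵥ (M p q *ᵥ v) ≤ μ ^ 2 * (v ⬝ᵥ v)) →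
    (dg → ∀ p q (j : Fin N) (v : α → ℝ), ∑ s : α, ∑ t : α, v s * M p q (j, s) (j, t) * v t ≤
      μ ^ 2 / N * ∑ s : α, v s ^ 2) →
    ∑ p, ∑ q, (rt (M p q) * ((bm X N q p)ᵀ * bm D N q p)).trace ≤ c

theorem TrP.add {dg : Prop} {X D D' : ZMod Q → ZMod Q → Matrix β α ℝ} {N : ℕ} {μ c c' : ℝ}
    (h : TrP dg X D N μ c) (h' : TrP dg X D' N μ c') :
    TrP dg X (fun x y => D x y + D' x y) N μ (c + c') := by
  intro M h1 h2 h3
  refine le_trans (le_of_eq ?_) (add_le_add (h M h1 h2 h3) (h' M h1 h2 h3))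
  rw [← Finset.sum_add_distrib]
  refine Finset.sum_congr rfl fun p _ => ?_
  rw [← Finset.sum_add_distrib]
  refine Finset.sum_congr rfl fun q _ => ?_
  have e : bm (fun x y => D x y + D' x y) N q p = bm D N q p + bm D' N q p := by
    ext i j
    simp only [bm, Matrix.add_apply]
    ring
  rw [e, Matrix.mul_add, Matrix.mul_add, trace_add]

theorem TrP.mono {dg : Prop} {X D : ZMod Q → ZMod Q → Matrix β α ℝ} {N : ℕ} {μ c c' : ℝ}
    (h : TrP dg X D N μ c) (hc : c ≤ c') : TrP dg X D N μ c' :=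
  fun M h1 h2 h3 => (h M h1 h2 h3).trans hc

theorem TrP.zero {dg : Prop} {X D : ZMod Q → ZMod Q → Matrix β α ℝ} {N : ℕ} {μ : ℝ}
    (h : ∀ x y, D x y = 0) : TrP dg X D N μ 0 := by
  intro M h1 h2 h3
  have e : ∀ q p, bm D N q p = 0 := by
    intro q p
    ext i j
    simp [bm, h]
  simp [e]

/-- operator norm bounds of a letter on boxes of side `N` -/
structure OpB (dg : Prop) (X : ZMod Q → ZMod Q → Matrix β α ℝ) (N : ℕ) (K : ℝ) : Prop where
  op : ∀ q p (v : Fin N × α → ℝ), (bm X N q p *ᵥ v) ⬝ᵥ (bm X N q p *ᵥ v) ≤ K ^ 2 * (v ⬝ᵥ v)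
  col : dg → ∀ q y, ColB X N K q y

theorem OpB.of_col {dg : Prop} {X : ZMod Q → ZMod Q → Matrix β α ℝ} {N : ℕ} (hN : 0 < N) {K : ℝ}
    (h : ∀ q y, ColB X N K q y) : OpB dg X N K :=
  ⟨fun q p v => bm_op_col X hN h q p v, fun _ => h⟩

theorem OpB.of_row {X : ZMod Q → ZMod Q → Matrix β α ℝ} {N : ℕ} (hN : 0 < N) {K : ℝ}
    (h : ∀ q y, ColB (fun y x => (X x y)ᵀ) N K q y) : OpB False X N K :=
  ⟨fun q p v => bm_op_row X hN h q p v, fun h => h.elim⟩

theorem dot_self_nonneg {n : Type*} [Fintype n] (v : n → ℝ) : 0 ≤ v ⬝ᵥ v := by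
  rw [dotProduct]; exact Finset.sum_nonneg fun i _ => mul_self_nonneg _

theorem W_price {dg : Prop} (X Y : ZMod Q → ZMod Q → Matrix β α ℝ)
    (Z V : ZMod Q → ZMod Q → Matrix γ α ℝ) {N : ℕ} (n : ZMod Q) {KX KZ μ cX cZ : ℝ}
    (hKK : KX ^ 2 + KZ ^ 2 ≤ μ ^ 2) (hX : OpB dg X N KX) (hZ : OpB dg Z N KZ)
    (pX : TrP dg X (fun x y => X x y - Y x y) N μ cX)
    (pZ : TrP dg Z (fun x y => Z x y - V x y) N μ cZ) :
    W (phiP α) X Z N N n - W (phiP α) Y V N N n ≤ 3 * cX + 3 * cZ := by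
  have hsub : ∀ q p, bm (fun x y => X x y - Y x y) N q p = bm X N q p - bm Y N q p := by
    intro q p
    ext i j
    simp only [bm, Matrix.sub_apply]
    ring
  have hsub' : ∀ q p, bm (fun x y => Z x y - V x y) N q p = bm Z N q p - bm V N q p := by
    intro q p
    ext i j
    simp only [bm, Matrix.sub_apply]
    ring
  have hb : ∀ p q : ZMod Q, (phiP α).F N (abar X N N q p + abar Z N N (n - p - q) p) -
      (phiP α).F N (abar Y N N q p + abar V N N (n - p - q) p) ≤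
      3 * (rt (abar X N N q p + abar Z N N (n - p - q) p) *
        ((bm X N q p)ᵀ * (bm X N q p - bm Y N q p))).trace +
      3 * (rt (abar X N N q p + abar Z N N (n - p - q) p) *
        ((bm Z N (n - p - q) p)ᵀ * (bm Z N (n - p - q) p - bm V N (n - p - q) p))).trace := by
    intro p q
    have key := phi_cost2 (bm X N q p) (bm Y N q p) (bm Z N (n - p - q) p) (bm V N (n - p - q) p)
    rw [transpose_mul_bm, transpose_mul_bm, transpose_mul_bm, transpose_mul_bm] at key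
    exact key
  -- bounds of the joint Gram matrix
  have hop : ∀ q p q' (v : Fin N × α → ℝ),
      v ⬝ᵥ ((abar X N N q p + abar Z N N q' p) *ᵥ v) ≤ μ ^ 2 * (v ⬝ᵥ v) := by
    intro q p q' v
    rw [Matrix.add_mulVec, dotProduct_add]
    have h1 := abar_op X q p (hX.op q p) v
    have h2 := abar_op Z q' p (hZ.op q' p) v
    have h3 := mul_le_mul_of_nonneg_right hKK (dot_self_nonneg v)
    linarith
  have hdg : dg → ∀ q p q' (j : Fin N) (v : α → ℝ), ∑ s : α, ∑ t : α,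
      v s * (abar X N N q p + abar Z N N q' p) (j, s) (j, t) * v t ≤
      μ ^ 2 / N * ∑ s : α, v s ^ 2 := by
    intro hd q p q' j v
    have h1 := abar_diag X q p (hX.col hd) j v
    have h2 := abar_diag Z q' p (hZ.col hd) j v
    have e : ∑ s : α, ∑ t : α, v s * (abar X N N q p + abar Z N N q' p) (j, s) (j, t) * v t =
        ∑ s : α, ∑ t : α, v s * abar X N N q p (j, s) (j, t) * v t +
        ∑ s : α, ∑ t : α, v s * abar Z N N q' p (j, s) (j, t) * v t := by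
      rw [← Finset.sum_add_distrib]
      refine Finset.sum_congr rfl fun s _ => ?_
      rw [← Finset.sum_add_distrib]
      refine Finset.sum_congr rfl fun t _ => ?_
      rw [Matrix.add_apply]
      ring
    have h3 : 0 ≤ ∑ s : α, v s ^ 2 := Finset.sum_nonneg fun _ _ => sq_nonneg _
    have h4 : KX ^ 2 / (N : ℝ) + KZ ^ 2 / N ≤ μ ^ 2 / N := by
      rw [← add_div]
      exact div_le_div_of_nonneg_right hKK (Nat.cast_nonneg N)
    have h5 := mul_le_mul_of_nonneg_right h4 h3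
    rw [e]
    linarith
  unfold W
  rw [← Finset.sum_sub_distrib]
  simp only [← Finset.sum_sub_distrib]
  refine (Finset.sum_le_sum fun p _ => Finset.sum_le_sum fun q _ => hb p q).trans ?_
  simp_rw [Finset.sum_add_distrib, ← Finset.mul_sum]
  have k1 := pX (fun p q => abar X N N q p + abar Z N N (n - p - q) p)
    (fun p q => abar_add_posSemidef _ _ _ _ _ _ _ _) (fun p q v => hop q p _ v)
    (fun hd p q j v => hdg hd q p _ j v)
  have k2 := pZ (fun p q => abar X N N (n - p - q) p + abar Z N N q p)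
    (fun p q => abar_add_posSemidef _ _ _ _ _ _ _ _) (fun p q v => hop _ p q v)
    (fun hd p q j v => hdg hd _ p q j v)
  simp only [hsub] at k1
  simp only [hsub'] at k2
  have e3 : ∑ p : ZMod Q, ∑ q : ZMod Q,
      (rt (abar X N N q p + abar Z N N (n - p - q) p) *
        ((bm Z N (n - p - q) p)ᵀ * (bm Z N (n - p - q) p - bm V N (n - p - q) p))).trace =
      ∑ p : ZMod Q, ∑ q : ZMod Q, (rt (abar X N N (n - p - q) p + abar Z N N q p) *
        ((bm Z N q p)ᵀ * (bm Z N q p - bm V N q p))).trace := by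
    refine Finset.sum_congr rfl fun p _ => ?_
    rw [← Equiv.sum_comp (Equiv.subLeft (n - p)) (fun q =>
      (rt (abar X N N (n - p - q) p + abar Z N N q p) *
        ((bm Z N q p)ᵀ * (bm Z N q p - bm V N q p))).trace)]
    refine Finset.sum_congr rfl fun q _ => ?_
    rw [Equiv.subLeft_apply, sub_sub_cancel]
  rw [e3]
  linarith

theorem EW_price {dg : Prop} (X Y : ZMod Q → ZMod Q → Matrix β α ℝ) {N : ℕ} {K μ c : ℝ}
    (hKK : K ^ 2 ≤ μ ^ 2) (hX : OpB dg X N K)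
    (pX : TrP dg X (fun x y => X x y - Y x y) N μ c) :
    EW (phiP α) X N N - EW (phiP α) Y N N ≤ 3 * c := by
  have h0 : ∀ q p, abar (fun _ _ => (0 : Matrix β α ℝ) : ZMod Q → ZMod Q → Matrix β α ℝ)
      N N q p = 0 := by
    intro q p
    ext a b
    simp [abar]
  have hz : OpB dg (fun _ _ => (0 : Matrix β α ℝ) : ZMod Q → ZMod Q → Matrix β α ℝ) N 0 := by
    refine ⟨fun q p v => ?_, fun _ q y v => by simp⟩
    have : bm (fun _ _ => (0 : Matrix β α ℝ) : ZMod Q → ZMod Q → Matrix β α ℝ) N q p = 0 := by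
      ext i j
      simp [bm]
    rw [this]
    simp
  have hw := W_price X Y (fun _ _ => (0 : Matrix β α ℝ) : ZMod Q → ZMod Q → Matrix β α ℝ)
    (fun _ _ => (0 : Matrix β α ℝ)) (0 : ZMod Q) (KX := K) (KZ := 0) (μ := μ) (cX := c) (cZ := 0)
    (by linarith [hKK, show (0 : ℝ) ^ 2 = 0 by norm_num]) hX hz pX
    (TrP.zero (fun x y => by simp))
  unfold W at hw
  simp only [h0, add_zero] at hw
  have : EW (phiP α) X N N - EW (phiP α) Y N N ≤ 3 * c + 3 * 0 := hw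
  linarith

end price

section msf

variable {Q : ℕ} [NeZero Q] {α β γ : Type*} [Fintype α] [DecidableEq α] [Fintype β]
  [DecidableEq β] [Fintype γ] [DecidableEq γ]

/-- **price of moving letters from trace prices** -/
theorem MSf_price {dg : Prop} (X : ℕ → ZMod Q → ZMod Q → Matrix β α ℝ)
    (Z : ℕ → ZMod Q → ZMod Q → Matrix γ α ℝ) (k M : ℕ) {KX KZ μ : ℝ} (cX cZ : ℕ → ℝ)
    (hKK : KX ^ 2 + KZ ^ 2 ≤ μ ^ 2)
    (hX : ∀ m ∈ range M, ∀ j ≤ k, OpB dg (X (m + 1)) (2 ^ (m + j)) KX)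
    (hZ : ∀ m ∈ range M, ∀ j ≤ k, OpB dg (Z (m + 1)) (2 ^ (m + j)) KZ)
    (pX : ∀ m ∈ range M, ∀ j ≤ k,
      TrP dg (X (m + 1)) (fun x y => X (m + 1) x y - X m x y) (2 ^ (m + j)) μ (cX m))
    (pZ : ∀ m ∈ range M, ∀ j ≤ k,
      TrP dg (Z (m + 1)) (fun x y => Z (m + 1) x y - Z m x y) (2 ^ (m + j)) μ (cZ m)) :
    MSf X Z k 0 M ≤ (8 + 64 * k) * EE (phiP α) (X 0) (Z 0) 1 +
      (12 + 192 * k) * ∑ m ∈ range M, (cX m + cZ m) := by
  have h0 := Vb_le_EE (X 0) (Z 0) (N := 1) (by norm_num)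
  have h1 : ∑ m ∈ range M, (Vb (phiP α) (X (m + 1)) (Z (m + 1)) (2 ^ (0 + m)) -
      Vb (phiP α) (X m) (Z m) (2 ^ (0 + m))) ≤ ∑ m ∈ range M, 3 * (cX m + cZ m) := by
    refine Finset.sum_le_sum fun m hm => ?_
    unfold Vb
    have hx := hX m hm 0 (Nat.zero_le _)
    have hz := hZ m hm 0 (Nat.zero_le _)
    have px := pX m hm 0 (Nat.zero_le _)
    have pz := pZ m hm 0 (Nat.zero_le _)
    simp only [add_zero] at hx hz px pz
    simp only [zero_add]
    have h2 : bl (W (phiP α) (X (m + 1)) (Z (m + 1)) (2 ^ m) (2 ^ m)) (2 ^ m) (-2) ≤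
        bl (fun n => W (phiP α) (X m) (Z m) (2 ^ m) (2 ^ m) n + 3 * (cX m + cZ m)) (2 ^ m)
          (-2) :=
      bl_mono (fun n => by
        have := W_price (X (m + 1)) (X m) (Z (m + 1)) (Z m) n hKK hx hz px pz
        linarith) _ _
    rw [bl_add, bl_const _ (by positivity)] at h2
    linarith
  have h2 : ∑ j ∈ range k, ∑ m ∈ range M,
      (EE (phiP α) (X (m + 1)) (Z (m + 1)) (2 ^ (0 + m + j)) -
        EE (phiP α) (X m) (Z m) (2 ^ (0 + m + j))) ≤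
      ∑ j ∈ range k, ∑ m ∈ range M, 3 * (cX m + cZ m) := by
    refine Finset.sum_le_sum fun j hj => Finset.sum_le_sum fun m hm => ?_
    have hj' : j ≤ k := (Finset.mem_range.1 hj).le
    simp only [zero_add]
    have hk1 : KX ^ 2 ≤ μ ^ 2 := by nlinarith [sq_nonneg KZ]
    have hk2 : KZ ^ 2 ≤ μ ^ 2 := by nlinarith [sq_nonneg KX]
    have e1 := EW_price (X (m + 1)) (X m) hk1 (hX m hm j hj') (pX m hm j hj')
    have e2 := EW_price (Z (m + 1)) (Z m) hk2 (hZ m hm j hj') (pZ m hm j hj')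
    unfold EE
    linarith
  rw [Finset.sum_const, Finset.card_range, nsmul_eq_mul] at h2
  rw [← Finset.mul_sum] at h1 h2
  unfold MSf
  simp only [pow_zero] at *
  have hk : (0 : ℝ) ≤ k := Nat.cast_nonneg k
  nlinarith

end msf

end Crest.Agent.R079.PotL
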