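import Crest.Agent.R079.PLEdef_377

/-! R079, [E4a] (doc 2517): leaf value of `phi` on one label matrix with an operator norm bound.
helper664. -/

set_option autoImplicit false
set_option linter.unusedVariables false
set_option linter.unusedSectionVars false

namespace Crest.Agent.R079.PotL

open Matrix Finset Crest.Agent.R072
open scoped MatrixOrder

local notation "rt" => CFC.sqrt

/-- `tr M^{3/2} ≤ K tr M` if `M ≤ K²` -/
theorem phi_le_mul_trace {k : Type*} [Fintype k] [DecidableEq k] {M : Matrix k k ℝ}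
    (hM : M.PosSemidef) {K : ℝ} (hK0 : 0 ≤ K) (hK : ∀ v, v ⬝ᵥ M *ᵥ v ≤ K ^ 2 * (v ⬝ᵥ v)) :
    phi M ≤ K * M.trace := by
  have h1 : (K ^ 2 • (1 : Matrix k k ℝ)).PosSemidef := PosSemidef.one.smul (sq_nonneg K)
  have h2 : (K ^ 2 • (1 : Matrix k k ℝ) - M).PosSemidef := by
    rw [Matrix.posSemidef_iff_dotProduct_mulVec]
    refine ⟨h1.isHermitian.sub hM.isHermitian, fun v => ?_⟩
    rw [star_trivial, sub_mulVec, dotProduct_sub, smul_mulVec, one_mulVec, dotProduct_smul,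
      smul_eq_mul]
    have := hK v
    linarith
  have h3 : rt (K ^ 2 • (1 : Matrix k k ℝ)) = K • (1 : Matrix k k ℝ) := by
    apply rt_unique (PosSemidef.one.smul hK0)
    rw [smul_mul_smul_comm, mul_one, sq]
  have h4 := rt_mono' hM h1 h2
  rw [h3] at h4
  have h5 := trace_mul_le_trace_mul hM h4
  rw [mul_smul_comm, mul_one, trace_smul, smul_eq_mul, trace_mul_comm] at h5
  exact h5

section
variable {Q : ℕ} [NeZero Q] {α β : Type*} [Fintype α] [DecidableEq α] [Fintype β] [DecidableEq β]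

/-- the quadratic form of the Gram matrix of a box -/
theorem abar_quad_bm (X : ZMod Q → ZMod Q → Matrix β α ℝ) (N : ℕ) (q p : ZMod Q)
    (v : Fin N × α → ℝ) :
    v ⬝ᵥ (abar X N N q p) *ᵥ v = (bm X N q p *ᵥ v) ⬝ᵥ (bm X N q p *ᵥ v) := by
  rw [← transpose_mul_bm, ← mulVec_mulVec, dotProduct_mulVec, vecMul_transpose]

/-- trace of the Gram matrix of a box -/
theorem trace_abar664 (X : ZMod Q → ZMod Q → Matrix β α ℝ) (N : ℕ) (q p : ZMod Q) :
    (abar X N N q p).trace = (1 / (N : ℝ) ^ 2) * ∑ i : Fin N, ∑ j : Fin N,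
      hs2 (X (q + ((i : ℕ) : ZMod Q)) (p + ((j : ℕ) : ZMod Q))) := by
  rw [Matrix.trace, Fintype.sum_prod_type, Finset.sum_comm, Finset.sum_comm (s := (Finset.univ : Finset α)),
    Finset.sum_comm (s := (Finset.univ : Finset (Fin N))) (t := (Finset.univ : Finset (Fin N))),
    Finset.mul_sum]
  refine Finset.sum_congr rfl fun j _ => ?_
  simp only [Matrix.diag_apply, abar]
  rw [← Finset.mul_sum]
  have e : (1 / ((N : ℝ) * N)) = 1 / (N : ℝ) ^ 2 := by rw [sq]
  rw [e]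
  congr 1
  rw [Finset.sum_comm, Finset.sum_range]
  refine Finset.sum_congr rfl fun i _ => ?_
  unfold hs2
  rw [Finset.sum_comm]
  exact Finset.sum_congr rfl fun l _ => Finset.sum_congr rfl fun s _ => (sq _).symm

/-- [E4a] -/
theorem leaf_phi (X : ZMod Q → ZMod Q → Matrix β α ℝ) (q p : ZMod Q) {K : ℝ} (hK0 : 0 ≤ K)
    (hK : ∀ v, (X q p *ᵥ v) ⬝ᵥ (X q p *ᵥ v) ≤ K ^ 2 * (v ⬝ᵥ v)) :
    phi (abar X 1 1 q p) ≤ K * hs2 (X q p) := by
  have hM := abar_posSemidef X 1 1 q p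
  have h1 : ∀ v, v ⬝ᵥ (abar X 1 1 q p) *ᵥ v ≤ K ^ 2 * (v ⬝ᵥ v) := by
    intro v
    rw [abar_quad_bm]
    set w : α → ℝ := fun s => v (0, s) with hw
    have e1 : ∀ i : Fin 1 × β, (bm X 1 q p *ᵥ v) i = (X q p *ᵥ w) i.2 := by
      intro i
      simp only [Matrix.mulVec, dotProduct, bm, Fintype.sum_prod_type, Fin.sum_univ_one]
      have h0 : i.1 = 0 := Subsingleton.elim _ _
      simp [h0, hw]
    have e2 : (bm X 1 q p *ᵥ v) ⬝ᵥ (bm X 1 q p *ᵥ v) = (X q p *ᵥ w) ⬝ᵥ (X q p *ᵥ w) := by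
      simp only [dotProduct, e1, Fintype.sum_prod_type, Fin.sum_univ_one]
    have e3 : v ⬝ᵥ v = w ⬝ᵥ w := by
      simp only [dotProduct, Fintype.sum_prod_type, Fin.sum_univ_one, hw]
    rw [e2, e3]
    exact hK w
  refine (phi_le_mul_trace hM hK0 h1).trans (le_of_eq ?_)
  congr 1
  simp only [Matrix.trace, Matrix.diag_apply, abar, Fintype.sum_prod_type, Fin.sum_univ_one,
    hs2]
  rw [Finset.sum_comm]
  refine Finset.sum_congr rfl fun l _ => ?_
  simp [sq]

end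
end Crest.Agent.R079.PotL
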