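import Crest.Agent.R079.PLE4_377

/-! R079, labelled corner in the LINE model, E5: dyadic cells on `ZMod Q`, extraction records and
their bounds.  helper377. -/

set_option autoImplicit false
set_option linter.unusedVariables false
set_option linter.unusedSectionVars false

namespace Crest.Agent.R079.PotL

open Matrix Finset Crest.Agent.R072
open scoped MatrixOrder

section cells

variable {Q : ℕ} [NeZero Q]

theorem cel_add {m : ℕ} (h : 2 ^ m ∣ Q) (p : ZMod Q) (k : ℕ) :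
    cel m (p + (k : ZMod Q)) = ((p.val + k) / 2 ^ m) % (Q / 2 ^ m) := by
  obtain ⟨c, hc⟩ := h
  have hp : 0 < 2 ^ m := by positivity
  have e : (p + (k : ZMod Q)).val = (p.val + k) % Q := by
    have h1 : p + (k : ZMod Q) = ((p.val + k : ℕ) : ZMod Q) := by
      push_cast
      rw [ZMod.natCast_zmod_val]
    rw [h1, ZMod.val_natCast]
  unfold cel
  rw [e]
  have h2 : Q / 2 ^ m = c := by
    rw [hc]
    exact Nat.mul_div_cancel_left c hp
  rw [h2]
  have h3 : ∀ a : ℕ, a % Q / 2 ^ m = a / 2 ^ m % c := by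
    intro a
    have h4 : a % Q = a % (2 ^ m * c) := congrArg (fun t => a % t) hc
    rw [h4]
    exact Nat.mod_mul_right_div_self _ _ _
  exact h3 _

theorem cel_lt {m : ℕ} (h : 2 ^ m ∣ Q) (p : ZMod Q) : cel m p < Q / 2 ^ m := by
  unfold cel
  exact Nat.div_lt_div_of_lt_of_dvd h (ZMod.val_lt p)

theorem cel_succ {m : ℕ} {x y : ZMod Q} (h : cel m x = cel m y) : cel (m + 1) x = cel (m + 1) y := by
  unfold cel at *
  rw [pow_succ, ← Nat.div_div_eq_div_mul, ← Nat.div_div_eq_div_mul, h]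

/-- window of length `2^m` at `p` meets at most two cells of length `2^(m+1)` -/
theorem cel_window {m : ℕ} (h : 2 ^ (m + 1) ∣ Q) (p : ZMod Q) {k : ℕ} (hk : k < 2 ^ m) :
    cel (m + 1) (p + (k : ZMod Q)) = cel (m + 1) p ∨
      cel (m + 1) (p + (k : ZMod Q)) = cel (m + 1) (p + ((2 ^ m : ℕ) : ZMod Q)) := by
  have h0 : cel (m + 1) p = (p.val / 2 ^ (m + 1)) % (Q / 2 ^ (m + 1)) := by
    have := cel_add h p 0
    simpa using this
  rw [cel_add h, cel_add h, h0]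
  have hp : 0 < 2 ^ (m + 1) := by positivity
  obtain ⟨t, r, hr, ht⟩ : ∃ t r : ℕ, r < 2 ^ (m + 1) ∧ p.val = 2 ^ (m + 1) * t + r :=
    ⟨p.val / 2 ^ (m + 1), p.val % 2 ^ (m + 1), Nat.mod_lt _ hp, (Nat.div_add_mod _ _).symm⟩
  have e2 : 2 ^ (m + 1) = 2 ^ m + 2 ^ m := by ring
  have d0 : (2 ^ (m + 1) * t + r) / 2 ^ (m + 1) = t := by
    rw [Nat.mul_add_div hp, Nat.div_eq_of_lt hr, add_zero]
  rcases lt_or_ge (r + k) (2 ^ (m + 1)) with hlt | hge
  · left
    rw [ht, add_assoc, Nat.mul_add_div hp, Nat.div_eq_of_lt hlt, add_zero, d0]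
  · right
    have g1 : (r + k) / 2 ^ (m + 1) = 1 := by
      rw [Nat.div_eq_iff hp]
      constructor <;> omega
    have g2 : (r + 2 ^ m) / 2 ^ (m + 1) = 1 := by
      rw [Nat.div_eq_iff hp]
      constructor <;> omega
    rw [ht, add_assoc, add_assoc, Nat.mul_add_div hp, Nat.mul_add_div hp, g1, g2]

theorem natCast_inj_of_lt {a b : ℕ} (ha : a < Q) (hb : b < Q) (h : (a : ZMod Q) = (b : ZMod Q)) :
    a = b := by
  have := congrArg ZMod.val h
  rwa [ZMod.val_natCast, ZMod.val_natCast, Nat.mod_eq_of_lt ha, Nat.mod_eq_of_lt hb] at this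

/-- sum over a window `≤` sums over two cells -/
theorem sum_window_le {m : ℕ} (h : 2 ^ (m + 1) ∣ Q) (f : ZMod Q → ℝ) (hf : ∀ y, 0 ≤ f y)
    (p : ZMod Q) :
    ∑ k ∈ range (2 ^ m), f (p + (k : ZMod Q)) ≤
      ∑ y with cel (m + 1) y = cel (m + 1) p, f y +
        ∑ y with cel (m + 1) y = cel (m + 1) (p + ((2 ^ m : ℕ) : ZMod Q)), f y := by
  classical
  have hQ : 2 ^ m < Q := by
    have h1 := Nat.le_of_dvd (NeZero.pos Q) h
    have h2 : 2 ^ m < 2 ^ (m + 1) := Nat.pow_lt_pow_right (by norm_num) (by omega)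
    omega
  have hinj : Set.InjOn (fun k : ℕ => p + (k : ZMod Q)) (range (2 ^ m) : Finset ℕ) := by
    intro a ha b hb hab
    have ha' := Finset.mem_range.1 (Finset.mem_coe.1 ha)
    have hb' := Finset.mem_range.1 (Finset.mem_coe.1 hb)
    have : (a : ZMod Q) = (b : ZMod Q) := add_left_cancel hab
    exact natCast_inj_of_lt (ha'.trans hQ) (hb'.trans hQ) this
  have e : ∑ k ∈ range (2 ^ m), f (p + (k : ZMod Q)) =
      ∑ y ∈ (range (2 ^ m)).image (fun k : ℕ => p + (k : ZMod Q)), f y :=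
    (Finset.sum_image hinj).symm
  rw [e]
  have hsub : (range (2 ^ m)).image (fun k : ℕ => p + (k : ZMod Q)) ⊆
      (univ.filter fun y => cel (m + 1) y = cel (m + 1) p) ∪
      (univ.filter fun y => cel (m + 1) y = cel (m + 1) (p + ((2 ^ m : ℕ) : ZMod Q))) := by
    intro y hy
    obtain ⟨k, hk, rfl⟩ := Finset.mem_image.1 hy
    rw [Finset.mem_union, Finset.mem_filter, Finset.mem_filter]
    rcases cel_window h p (Finset.mem_range.1 hk) with h1 | h1
    · exact Or.inl ⟨Finset.mem_univ _, h1⟩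
    · exact Or.inr ⟨Finset.mem_univ _, h1⟩
  refine (Finset.sum_le_sum_of_subset_of_nonneg hsub fun y _ _ => hf y).trans ?_
  have hu := Finset.sum_union_inter (s₁ := univ.filter fun y => cel (m + 1) y = cel (m + 1) p)
    (s₂ := univ.filter fun y => cel (m + 1) y = cel (m + 1) (p + ((2 ^ m : ℕ) : ZMod Q)))
    (f := f)
  have hi : 0 ≤ ∑ y ∈ (univ.filter fun y => cel (m + 1) y = cel (m + 1) p) ∩
      (univ.filter fun y => cel (m + 1) y = cel (m + 1) (p + ((2 ^ m : ℕ) : ZMod Q))), f y :=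
    Finset.sum_nonneg fun y _ => hf y
  linarith

/-- the points `y - r + t` of the cell of `y` -/
theorem cel_pt {m : ℕ} (h : 2 ^ m ∣ Q) (y : ZMod Q) {t : ℕ} (ht : t < 2 ^ m) :
    cel m (((2 ^ m * (y.val / 2 ^ m) + t : ℕ) : ZMod Q)) = cel m y := by
  have hp : 0 < 2 ^ m := by positivity
  have h1 := cel_add h (0 : ZMod Q) (2 ^ m * (y.val / 2 ^ m) + t)
  rw [zero_add, ZMod.val_zero, zero_add, Nat.mul_add_div hp, Nat.div_eq_of_lt ht, add_zero] at h1
  rw [h1]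
  have h2 := cel_lt h y
  unfold cel at *
  exact Nat.mod_eq_of_lt h2

/-- number of points of a cell -/
theorem card_cel {m : ℕ} (h : 2 ^ m ∣ Q) (y : ZMod Q) :
    (univ.filter fun y' : ZMod Q => cel m y' = cel m y).card = 2 ^ m := by
  classical
  have hp : 0 < 2 ^ m := by positivity
  have hlt := cel_lt h y
  have hbase : ∀ t < 2 ^ m, 2 ^ m * (y.val / 2 ^ m) + t < Q := by
    intro t ht
    obtain ⟨c, hc⟩ := h
    have h2 : Q / 2 ^ m = c := by
      rw [hc]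
      exact Nat.mul_div_cancel_left c hp
    unfold cel at hlt
    rw [h2] at hlt
    calc 2 ^ m * (y.val / 2 ^ m) + t < 2 ^ m * (y.val / 2 ^ m) + 2 ^ m := by omega
      _ = 2 ^ m * (y.val / 2 ^ m + 1) := by ring
      _ ≤ 2 ^ m * c := Nat.mul_le_mul_left _ hlt
      _ = Q := hc.symm
  have e : (univ.filter fun y' : ZMod Q => cel m y' = cel m y) =
      (range (2 ^ m)).image (fun t : ℕ => ((2 ^ m * (y.val / 2 ^ m) + t : ℕ) : ZMod Q)) := by
    ext z
    rw [Finset.mem_filter, Finset.mem_image]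
    constructor
    · rintro ⟨_, hz⟩
      refine ⟨z.val % 2 ^ m, Finset.mem_range.2 (Nat.mod_lt _ hp), ?_⟩
      have : 2 ^ m * (y.val / 2 ^ m) + z.val % 2 ^ m = z.val := by
        unfold cel at hz
        rw [← hz]
        exact Nat.div_add_mod _ _
      rw [this, ZMod.natCast_zmod_val]
    · rintro ⟨t, ht, rfl⟩
      exact ⟨Finset.mem_univ _, cel_pt h y (Finset.mem_range.1 ht)⟩
  rw [e, Finset.card_image_of_injOn, Finset.card_range]
  intro a ha b hb hab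
  have ha' := Finset.mem_range.1 (Finset.mem_coe.1 ha)
  have hb' := Finset.mem_range.1 (Finset.mem_coe.1 hb)
  have := natCast_inj_of_lt (hbase a ha') (hbase b hb') hab
  omega

/-- forward window -/
theorem cel_fwd {m : ℕ} (h : 2 ^ m ∣ Q) (y : ZMod Q) : ∃ s : Finset ℕ, s ⊆ range (2 * 2 ^ m) ∧
    2 ^ m ≤ s.card ∧ ∀ i ∈ s, cel m (y - ((2 ^ m : ℕ) : ZMod Q) + (i : ZMod Q)) = cel m y := by
  have hp : 0 < 2 ^ m := by positivity
  set r := y.val % 2 ^ m with hr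
  have hrlt : r < 2 ^ m := Nat.mod_lt _ hp
  have hy : y.val = 2 ^ m * (y.val / 2 ^ m) + r := (Nat.div_add_mod _ _).symm
  refine ⟨Finset.Ico (2 ^ m - r) (2 * 2 ^ m - r), ?_, ?_, ?_⟩
  · intro i hi
    rw [Finset.mem_Ico] at hi
    rw [Finset.mem_range]
    omega
  · rw [Nat.card_Ico]
    omega
  · intro i hi
    rw [Finset.mem_Ico] at hi
    have e : y - ((2 ^ m : ℕ) : ZMod Q) + (i : ZMod Q) =
        ((2 ^ m * (y.val / 2 ^ m) + (i - (2 ^ m - r)) : ℕ) : ZMod Q) := by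
      have h1 : (y : ZMod Q) = ((2 ^ m * (y.val / 2 ^ m) + r : ℕ) : ZMod Q) := by
        rw [← hy, ZMod.natCast_zmod_val]
      have h2 : 2 ^ m * (y.val / 2 ^ m) + r + i =
          2 ^ m * (y.val / 2 ^ m) + (i - (2 ^ m - r)) + 2 ^ m := by omega
      have h3 : ((2 ^ m * (y.val / 2 ^ m) + r + i : ℕ) : ZMod Q) =
          ((2 ^ m * (y.val / 2 ^ m) + (i - (2 ^ m - r)) + 2 ^ m : ℕ) : ZMod Q) := by rw [h2]
      rw [Nat.cast_add _ i, Nat.cast_add _ (2 ^ m)] at h3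
      rw [← h1] at h3
      rw [sub_add_eq_add_sub, h3, add_sub_cancel_right]
    rw [e]
    exact cel_pt h y (by omega)

/-- backward window -/
theorem cel_bwd {m : ℕ} (h : 2 ^ m ∣ Q) (y : ZMod Q) : ∃ s : Finset ℕ, s ⊆ range (2 * 2 ^ m) ∧
    2 ^ m ≤ s.card ∧ ∀ i ∈ s, cel m (y + ((2 ^ m : ℕ) : ZMod Q) - (i : ZMod Q)) = cel m y := by
  have hp : 0 < 2 ^ m := by positivity
  set r := y.val % 2 ^ m with hr
  have hrlt : r < 2 ^ m := Nat.mod_lt _ hp
  have hy : y.val = 2 ^ m * (y.val / 2 ^ m) + r := (Nat.div_add_mod _ _).symm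
  refine ⟨Finset.Ico (r + 1) (r + 1 + 2 ^ m), ?_, ?_, ?_⟩
  · intro i hi
    rw [Finset.mem_Ico] at hi
    rw [Finset.mem_range]
    omega
  · rw [Nat.card_Ico]
    omega
  · intro i hi
    rw [Finset.mem_Ico] at hi
    have e : y + ((2 ^ m : ℕ) : ZMod Q) - (i : ZMod Q) =
        ((2 ^ m * (y.val / 2 ^ m) + (r + 2 ^ m - i) : ℕ) : ZMod Q) := by
      have h1 : (y : ZMod Q) = ((2 ^ m * (y.val / 2 ^ m) + r : ℕ) : ZMod Q) := by
        rw [← hy, ZMod.natCast_zmod_val]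
      have h2 : 2 ^ m * (y.val / 2 ^ m) + r + 2 ^ m =
          2 ^ m * (y.val / 2 ^ m) + (r + 2 ^ m - i) + i := by omega
      have h3 : ((2 ^ m * (y.val / 2 ^ m) + r + 2 ^ m : ℕ) : ZMod Q) =
          ((2 ^ m * (y.val / 2 ^ m) + (r + 2 ^ m - i) + i : ℕ) : ZMod Q) := by rw [h2]
      rw [Nat.cast_add _ (2 ^ m), Nat.cast_add _ i] at h3
      rw [← h1] at h3
      rw [h3, add_sub_cancel_right]
    rw [e]
    exact cel_pt h y (by omega)

end cells

section rec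

variable {Q : ℕ} [NeZero Q] {κ lam ν : Type*} [Fintype κ] [DecidableEq κ] [Fintype lam]
  [DecidableEq lam] [Fintype ν] [DecidableEq ν]

/-- extraction record for the row labels of the letter `F x y` (cells in `y`, row `x` fixed) -/
structure Ext (F : ZMod Q → ZMod Q → Matrix κ lam ℝ) (M : ℕ) (δ n : ℝ)
    (q : ℕ → ZMod Q → ZMod Q → Matrix κ κ ℝ) : Prop where
  pr : ∀ m x y, IsPr (q m x y)
  cell : ∀ m ≤ M, ∀ x y y', cel m y = cel m y' → q m x y = q m x y'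
  mono : ∀ m < M, ∀ x y, q m x y * q (m + 1) x y = q m x y
  bnd : ∀ m ≤ M, ∀ x y (v : κ → ℝ), ∑ y' with cel m y' = cel m y,
    v ⬝ᵥ ((q m x y * (F x y' * (F x y')ᵀ) * q m x y) *ᵥ v) ≤ 2 ^ m * δ * (v ⬝ᵥ v)
  cnt : ∑ x, ∑ y, ((q M x y).trace - (q 0 x y).trace) ≤ n

/-- record of the low rank projections in front of the op-small letter `F2 x2 x0`
(row label `κ` at `x2`; third variable `z = - x0 - x2`) -/
structure RExt (F2 : ZMod Q → ZMod Q → Matrix κ ν ℝ) (M C : ℕ) (τ n : ℝ)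
    (q q' R : ℕ → ZMod Q → ZMod Q → Matrix κ κ ℝ) : Prop where
  pr : ∀ m x z, IsPr (R m x z)
  cell : ∀ m ≤ M, ∀ x z z', cel m z = cel m z' → R m x z = R m x z'
  mono : ∀ m < M, ∀ x z, R (m + 1) x z * R m x z = R (m + 1) x z
  nbr : ∀ m ≤ M, ∀ x z (t : ℤ), |t| ≤ C * 2 ^ m →
    (q m x (z + (t : ZMod Q)) - q' m x (z + (t : ZMod Q))) * R m x z =
      q m x (z + (t : ZMod Q)) - q' m x (z + (t : ZMod Q))
  leaf : ∑ x, ∑ x0, hs2 (R 0 x (-x0 - x) * F2 x x0) ≤ τ ^ 2 * n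
  cnt : ∑ x, ∑ z, ((R 0 x z).trace - (R M x z).trace) ≤ n

end rec

end Crest.Agent.R079.PotL
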