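import Crest.Agent.R079.PLMove_931

/-! R079, labelled corner `(oo-,2+,2+)` of R072 in the LINE model from the `(3,3,3)` potentials
(396's doc 2490, absolute-value form): definitions.  helper377. -/

set_option autoImplicit false
set_option linter.unusedVariables false
set_option linter.unusedSectionVars false

namespace Crest.Agent.R079.PotL

open Matrix Finset Crest.Agent.R072
open scoped MatrixOrder

/-- orthogonal projection matrix -/
structure IsPr {κ : Type*} [Fintype κ] (P : Matrix κ κ ℝ) : Prop where
  symm : Pᵀ = P
  idem : P * P = P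

section
variable {Q : ℕ} [NeZero Q] {κ : Type*}

/-- index of the dyadic cell of length `2^m` -/
def cel (m : ℕ) (x : ZMod Q) : ℕ := x.val / 2 ^ m

/-- piecewise constant at length `L` in the second variable -/
def PC2 (π : ZMod Q → ZMod Q → Matrix κ κ ℝ) (L : ℕ) : Prop :=
  ∀ x y, ∃ s : Finset ℕ, s ⊆ range (2 * L) ∧ L ≤ s.card ∧
    ∀ i ∈ s, π x (y - (L : ZMod Q) + (i : ZMod Q)) = π x y

/-- piecewise constant at length `L` in the first variable -/
def PC1 (π : ZMod Q → ZMod Q → Matrix κ κ ℝ) (L : ℕ) : Prop := PC2 (fun y x => π x y) L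

end

end Crest.Agent.R079.PotL
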