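import Crest.Agent.R079.PLE5_377

/-! R079, labelled corner in the LINE model, doc 2524 [F1]: operator bounds of the compressed
letters (`Ext.colT`, `Ext.colT2`, `Ext.leaf`).  helper664. -/

set_option autoImplicit false
set_option linter.unusedVariables false
set_option linter.unusedSectionVars false

namespace Crest.Agent.R079.PotL

open Matrix Finset Crest.Agent.R072
open scoped MatrixOrder

section

variable {Q : ℕ} [NeZero Q] {κ lam ν : Type*} [Fintype κ] [DecidableEq κ] [Fintype lam]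
  [DecidableEq lam] [Fintype ν] [DecidableEq ν]

namespace F1

/-- `v·(P F Fᵀ P) v = |(P F)ᵀ v|²` -/
theorem quad_eq (P : Matrix κ κ ℝ) (hP : Pᵀ = P) (F : Matrix κ lam ℝ) (v : κ → ℝ) :
    v ⬝ᵥ ((P * (F * Fᵀ) * P) *ᵥ v) = ((P * F)ᵀ *ᵥ v) ⬝ᵥ ((P * F)ᵀ *ᵥ v) := by
  have e : P * (F * Fᵀ) * P = (P * F) * (P * F)ᵀ := by
    rw [Matrix.transpose_mul, hP]
    simp only [Matrix.mul_assoc]
  rw [e, ← Matrix.mulVec_mulVec, Matrix.dotProduct_mulVec, ← Matrix.mulVec_transpose]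

theorem quad_nonneg (A : Matrix κ lam ℝ) (v : κ → ℝ) : 0 ≤ (Aᵀ *ᵥ v) ⬝ᵥ (Aᵀ *ᵥ v) := by
  rw [dotProduct]
  exact Finset.sum_nonneg fun i _ => mul_self_nonneg _

theorem letter_eq (c : ℝ) (A : Matrix κ lam ℝ) (v : κ → ℝ) :
    ∑ l : lam, (∑ s : κ, (c • A)ᵀ l s * v s) ^ 2 = c ^ 2 * ((Aᵀ *ᵥ v) ⬝ᵥ (Aᵀ *ᵥ v)) := by
  rw [dotProduct, Finset.mul_sum]
  refine Finset.sum_congr rfl fun l _ => ?_
  have e : ∑ s : κ, (c • A)ᵀ l s * v s = c * (Aᵀ *ᵥ v) l := by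
    rw [Matrix.mulVec, dotProduct, Finset.mul_sum]
    refine Finset.sum_congr rfl fun s _ => ?_
    simp only [Matrix.transpose_apply, Matrix.smul_apply, smul_eq_mul]
    ring
  rw [e]
  ring

/-- one window of length `2^m` -/
theorem colT0 {F : ZMod Q → ZMod Q → Matrix κ lam ℝ} {M : ℕ} {δ n : ℝ}
    {q : ℕ → ZMod Q → ZMod Q → Matrix κ κ ℝ} (h : Ext F M δ n q) (hQ : 2 ^ M ∣ Q) (hδ : 0 ≤ δ)
    {m : ℕ} (hm : m < M) (p x : ZMod Q) (c : ℝ) :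
    ColB (fun y x => (c • (q (m + 1) x y * F x y))ᵀ) (2 ^ m) (2 * |c| * √δ) p x := by
  intro v
  have hQ' : 2 ^ (m + 1) ∣ Q := (pow_dvd_pow 2 hm).trans hQ
  have hp : (0 : ℝ) < 2 ^ m := by positivity
  have hs : √δ ^ 2 = δ := Real.sq_sqrt hδ
  have hv : ∑ s : κ, v s ^ 2 = v ⬝ᵥ v := by
    rw [dotProduct]
    exact Finset.sum_congr rfl fun s _ => by ring
  have hcell : ∀ z : ZMod Q, ∑ y with cel (m + 1) y = cel (m + 1) z,
      c ^ 2 * (((q (m + 1) x y * F x y)ᵀ *ᵥ v) ⬝ᵥ ((q (m + 1) x y * F x y)ᵀ *ᵥ v)) ≤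
        c ^ 2 * (2 ^ (m + 1) * δ * (v ⬝ᵥ v)) := by
    intro z
    rw [← Finset.mul_sum]
    refine mul_le_mul_of_nonneg_left ?_ (sq_nonneg c)
    refine le_trans (le_of_eq ?_) (h.bnd (m + 1) hm x z v)
    refine Finset.sum_congr rfl fun y hy => ?_
    rw [h.cell (m + 1) hm x y z (Finset.mem_filter.1 hy).2,
      quad_eq _ (h.pr (m + 1) x z).symm]
  have hw := sum_window_le hQ'
    (fun y => c ^ 2 * (((q (m + 1) x y * F x y)ᵀ *ᵥ v) ⬝ᵥ ((q (m + 1) x y * F x y)ᵀ *ᵥ v)))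
    (fun y => mul_nonneg (sq_nonneg c) (quad_nonneg _ v)) p
  have h1 := hcell p
  have h2 := hcell (p + ((2 ^ m : ℕ) : ZMod Q))
  have e1 : ∑ k ∈ range (2 ^ m), ∑ l : lam, (∑ s : κ,
      (fun y x => (c • (q (m + 1) x y * F x y))ᵀ) (p + (k : ZMod Q)) x l s * v s) ^ 2 =
      ∑ k ∈ range (2 ^ m), c ^ 2 * (((q (m + 1) x (p + (k : ZMod Q)) *
        F x (p + (k : ZMod Q)))ᵀ *ᵥ v) ⬝ᵥ ((q (m + 1) x (p + (k : ZMod Q)) *
        F x (p + (k : ZMod Q)))ᵀ *ᵥ v)) :=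
    Finset.sum_congr rfl fun k _ => letter_eq c _ v
  rw [e1, hv]
  have hcast : ((2 ^ m : ℕ) : ℝ) = 2 ^ m := by push_cast; ring
  rw [hcast]
  have h3 : ∑ k ∈ range (2 ^ m), c ^ 2 * (((q (m + 1) x (p + (k : ZMod Q)) *
        F x (p + (k : ZMod Q)))ᵀ *ᵥ v) ⬝ᵥ ((q (m + 1) x (p + (k : ZMod Q)) *
        F x (p + (k : ZMod Q)))ᵀ *ᵥ v)) ≤ 2 ^ m * (4 * c ^ 2 * δ * (v ⬝ᵥ v)) := by
    refine hw.trans ?_
    refine (add_le_add h1 h2).trans (le_of_eq ?_)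
    rw [pow_succ]
    ring
  calc (1 / (2 : ℝ) ^ m) * _ ≤ (1 / (2 : ℝ) ^ m) * (2 ^ m * (4 * c ^ 2 * δ * (v ⬝ᵥ v))) :=
        mul_le_mul_of_nonneg_left h3 (by positivity)
    _ = 4 * c ^ 2 * δ * (v ⬝ᵥ v) := by field_simp
    _ = (2 * |c| * √δ) ^ 2 * (v ⬝ᵥ v) := by
        rw [mul_pow, mul_pow, sq_abs, hs]
        ring

end F1

theorem Ext.colT {F : ZMod Q → ZMod Q → Matrix κ lam ℝ} {M : ℕ} {δ n : ℝ}
    {q : ℕ → ZMod Q → ZMod Q → Matrix κ κ ℝ} (h : Ext F M δ n q) (hQ : 2 ^ M ∣ Q) (hδ : 0 ≤ δ)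
    {m : ℕ} (hm : m < M) (j : ℕ) (p x : ZMod Q) (c : ℝ) :
    ColB (fun y x => (c • (q (m + 1) x y * F x y))ᵀ) (2 ^ (m + j)) (2 * |c| * √δ) p x := by
  revert p x
  induction j with
  | zero => exact fun p x => F1.colT0 h hQ hδ hm p x c
  | succ j ih =>
    have hp : 0 < 2 ^ (m + j) := by positivity
    have e : 2 ^ (m + (j + 1)) = 2 ^ (m + j) + 2 ^ (m + j) := by ring
    rw [e]
    exact ColB_double hp ih

theorem Ext.colT2 {F : ZMod Q → ZMod Q → Matrix κ lam ℝ} {M : ℕ} {δ n δ' n' : ℝ}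
    {q q' : ℕ → ZMod Q → ZMod Q → Matrix κ κ ℝ} (h : Ext F M δ n q) (h' : Ext F M δ' n' q')
    (hQ : 2 ^ M ∣ Q) (hδ : 0 ≤ δ) (hδ' : 0 ≤ δ')
    {m : ℕ} (hm : m < M) (j : ℕ) (p x : ZMod Q) (c : ℝ) :
    ColB (fun y x => (c • ((q (m + 1) x y - q' (m + 1) x y) * F x y))ᵀ) (2 ^ (m + j))
      (|c| * √(8 * (δ + δ'))) p x := by
  intro v
  have hA := h.colT hQ hδ hm j p x c v
  have hB := h'.colT hQ hδ' hm j p x c v
  have hv : 0 ≤ ∑ s : κ, v s ^ 2 := Finset.sum_nonneg fun s _ => sq_nonneg _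
  have hs : √(8 * (δ + δ')) ^ 2 = 8 * (δ + δ') := Real.sq_sqrt (by positivity)
  have h1 : √δ ^ 2 = δ := Real.sq_sqrt hδ
  have h2 : √δ' ^ 2 = δ' := Real.sq_sqrt hδ'
  have hN : (0 : ℝ) ≤ 1 / ((2 ^ (m + j) : ℕ) : ℝ) := by positivity
  have hpt : ∑ k ∈ range (2 ^ (m + j)), ∑ l : lam, (∑ s : κ,
      (fun y x => (c • ((q (m + 1) x y - q' (m + 1) x y) * F x y))ᵀ) (p + (k : ZMod Q)) x l s *
        v s) ^ 2 ≤
      2 * ∑ k ∈ range (2 ^ (m + j)), ∑ l : lam, (∑ s : κ,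
        (fun y x => (c • (q (m + 1) x y * F x y))ᵀ) (p + (k : ZMod Q)) x l s * v s) ^ 2 +
      2 * ∑ k ∈ range (2 ^ (m + j)), ∑ l : lam, (∑ s : κ,
        (fun y x => (c • (q' (m + 1) x y * F x y))ᵀ) (p + (k : ZMod Q)) x l s * v s) ^ 2 := by
    rw [Finset.mul_sum, Finset.mul_sum, ← Finset.sum_add_distrib]
    refine Finset.sum_le_sum fun k _ => ?_
    rw [Finset.mul_sum, Finset.mul_sum, ← Finset.sum_add_distrib]
    refine Finset.sum_le_sum fun l _ => ?_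
    have e : ∑ s : κ, (fun y x => (c • ((q (m + 1) x y - q' (m + 1) x y) * F x y))ᵀ)
        (p + (k : ZMod Q)) x l s * v s =
        ∑ s : κ, (fun y x => (c • (q (m + 1) x y * F x y))ᵀ) (p + (k : ZMod Q)) x l s * v s -
        ∑ s : κ, (fun y x => (c • (q' (m + 1) x y * F x y))ᵀ) (p + (k : ZMod Q)) x l s * v s := by
      rw [← Finset.sum_sub_distrib]
      refine Finset.sum_congr rfl fun s _ => ?_
      simp only [Matrix.transpose_apply, Matrix.smul_apply, smul_eq_mul, Matrix.sub_mul,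
        Matrix.sub_apply]
      ring
    rw [e]
    nlinarith [sq_nonneg (∑ s : κ, (fun y x => (c • (q (m + 1) x y * F x y))ᵀ)
      (p + (k : ZMod Q)) x l s * v s + ∑ s : κ, (fun y x => (c • (q' (m + 1) x y * F x y))ᵀ)
      (p + (k : ZMod Q)) x l s * v s)]
  refine (mul_le_mul_of_nonneg_left hpt hN).trans ?_
  rw [mul_pow, sq_abs, hs]
  rw [mul_pow, mul_pow, sq_abs, h1] at hA
  rw [mul_pow, mul_pow, sq_abs, h2] at hB
  linarith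

theorem Ext.leaf {F : ZMod Q → ZMod Q → Matrix κ lam ℝ} {M : ℕ} {δ n : ℝ}
    {q : ℕ → ZMod Q → ZMod Q → Matrix κ κ ℝ} (h : Ext F M δ n q) (x y : ZMod Q) (v : κ → ℝ) :
    ((q 0 x y * F x y)ᵀ *ᵥ v) ⬝ᵥ ((q 0 x y * F x y)ᵀ *ᵥ v) ≤ δ * (v ⬝ᵥ v) := by
  have h1 := h.bnd 0 (Nat.zero_le _) x y v
  rw [pow_zero, one_mul] at h1
  refine le_trans ?_ h1
  have h2 : ∀ y' : ZMod Q, 0 ≤ v ⬝ᵥ ((q 0 x y * (F x y' * (F x y')ᵀ) * q 0 x y) *ᵥ v) := by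
    intro y'
    rw [F1.quad_eq _ (h.pr 0 x y).symm]
    exact F1.quad_nonneg _ _
  have h3 := Finset.single_le_sum (s := univ.filter fun y' => cel 0 y' = cel 0 y)
    (f := fun y' => v ⬝ᵥ ((q 0 x y * (F x y' * (F x y')ᵀ) * q 0 x y) *ᵥ v))
    (fun y' _ => h2 y') (Finset.mem_filter.2 ⟨Finset.mem_univ y, rfl⟩)
  refine le_trans (le_of_eq ?_) h3
  exact (F1.quad_eq _ (h.pr 0 x y).symm _ v).symm

end

end Crest.Agent.R079.PotL
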