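import Crest.Agent.R079.PLE5_377
import Crest.Agent.R079.PLE3R_396

/-! R079, labelled corner `(oo-,2+,2+)` in the LINE model (377's doc 2524), leaf F2:
`IsPr.sub`, `Ext.pc`, `Ext.energy`.  helper396. -/

set_option autoImplicit false
set_option linter.unusedVariables false
set_option linter.unusedSectionVars false

namespace Crest.Agent.R079.PotL

open Matrix Finset Crest.Agent.R072
open scoped MatrixOrder

section
variable {Q : ℕ} [NeZero Q] {κ lam ν : Type*} [Fintype κ] [DecidableEq κ] [Fintype lam]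
  [DecidableEq lam] [Fintype ν] [DecidableEq ν]

theorem IsPr.sub {a b : Matrix κ κ ℝ} (ha : IsPr a) (hb : IsPr b) (h : b * a = b) :
    IsPr (a - b) := by
  have h2 : a * b = b := by
    have := congrArg Matrix.transpose h
    rwa [transpose_mul, ha.symm, hb.symm] at this
  refine ⟨by rw [transpose_sub, ha.symm, hb.symm], ?_⟩
  rw [Matrix.sub_mul, Matrix.mul_sub, Matrix.mul_sub, ha.idem, hb.idem, h, h2, sub_self, sub_zero]

theorem Ext.pc {F : ZMod Q → ZMod Q → Matrix κ lam ℝ} {M : ℕ} {δ n : ℝ}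
    {q : ℕ → ZMod Q → ZMod Q → Matrix κ κ ℝ} (h : Ext F M δ n q) (hQ : 2 ^ M ∣ Q)
    {m : ℕ} (hm : m < M) : PC2 (fun x y => q (m + 1) x y - q m x y) (2 ^ m) := by
  intro x y
  have hd : 2 ^ m ∣ Q := (pow_dvd_pow 2 hm.le).trans hQ
  obtain ⟨s, hs, hc, he⟩ := cel_fwd hd y
  refine ⟨s, hs, hc, fun i hi => ?_⟩
  have h1 := he i hi
  have h2 := h.cell m hm.le x _ y h1
  have h3 := h.cell (m + 1) hm x _ y (cel_succ h1)
  show q (m + 1) x _ - q m x _ = q (m + 1) x y - q m x y
  rw [h2, h3]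

/-- double counting over cells -/
theorem sum_cel {m : ℕ} (h : 2 ^ m ∣ Q) (f : ZMod Q → ℝ) :
    ∑ y : ZMod Q, ∑ y' : ZMod Q with cel m y' = cel m y, f y' = 2 ^ m * ∑ y : ZMod Q, f y := by
  classical
  have e : ∀ y : ZMod Q, ∑ y' with cel m y' = cel m y, f y' =
      ∑ y' : ZMod Q, if cel m y' = cel m y then f y' else 0 := fun y => Finset.sum_filter _ _
  simp_rw [e]
  rw [Finset.sum_comm, Finset.mul_sum]
  refine Finset.sum_congr rfl fun y' _ => ?_
  have e2 : ∑ y : ZMod Q, (if cel m y' = cel m y then f y' else 0) =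
      ∑ y : ZMod Q with cel m y = cel m y', f y' := by
    rw [Finset.sum_filter]
    refine Finset.sum_congr rfl fun y _ => ?_
    by_cases hh : cel m y' = cel m y
    · rw [if_pos hh, if_pos hh.symm]
    · rw [if_neg hh, if_neg (fun k => hh k.symm)]
  rw [e2, Finset.sum_const, card_cel h, nsmul_eq_mul]
  push_cast
  ring

theorem hs2_mul_cols (P : Matrix κ κ ℝ) (hP : Pᵀ = P) (A : Matrix κ lam ℝ) :
    hs2 (P * A) = ∑ t : κ, (fun s => P s t) ⬝ᵥ ((A * Aᵀ) *ᵥ (fun s => P s t)) := by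
  have h1 : ∀ (v : κ → ℝ), v ⬝ᵥ ((A * Aᵀ) *ᵥ v) = ∑ l : lam, (∑ s : κ, v s * A s l) ^ 2 := by
    intro v
    rw [← Matrix.mulVec_mulVec, Matrix.dotProduct_mulVec]
    simp only [dotProduct, Matrix.vecMul, Matrix.mulVec, Matrix.transpose_apply]
    refine Finset.sum_congr rfl fun l _ => ?_
    rw [sq]
    congr 1
    refine Finset.sum_congr rfl fun s _ => ?_
    ring
  unfold hs2
  refine Finset.sum_congr rfl fun t _ => ?_
  rw [h1]
  refine Finset.sum_congr rfl fun l _ => ?_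
  congr 1
  rw [Matrix.mul_apply]
  refine Finset.sum_congr rfl fun s _ => ?_
  have := congrFun (congrFun hP t) s
  rw [Matrix.transpose_apply] at this
  rw [this]

theorem psd_quad_nonneg (A : Matrix κ lam ℝ) (v : κ → ℝ) : 0 ≤ v ⬝ᵥ ((A * Aᵀ) *ᵥ v) := by
  rw [← Matrix.mulVec_mulVec, Matrix.dotProduct_mulVec, ← Matrix.mulVec_transpose]
  exact Finset.sum_nonneg fun _ _ => mul_self_nonneg _

theorem quad_fix (U A : Matrix κ κ ℝ) (v : κ → ℝ) (hU : Uᵀ = U) (hv : U *ᵥ v = v) :
    v ⬝ᵥ ((U * A * U) *ᵥ v) = v ⬝ᵥ (A *ᵥ v) := by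
  have h1 : (U * A * U) *ᵥ v = U *ᵥ (A *ᵥ (U *ᵥ v)) := by
    rw [Matrix.mulVec_mulVec, Matrix.mulVec_mulVec]
  have h2 : v ⬝ᵥ (U *ᵥ (A *ᵥ v)) = (U *ᵥ v) ⬝ᵥ (A *ᵥ v) := by
    rw [Matrix.dotProduct_mulVec, ← Matrix.mulVec_transpose, hU]
  rw [h1, hv, h2, hv]

theorem Ext.energy {F : ZMod Q → ZMod Q → Matrix κ lam ℝ} {M : ℕ} {δ n : ℝ}
    {q : ℕ → ZMod Q → ZMod Q → Matrix κ κ ℝ} (h : Ext F M δ n q) (hQ : 2 ^ M ∣ Q) (hδ : 0 ≤ δ)
    {m : ℕ} (hm : m < M) :
    ∑ x, ∑ y, hs2 ((q (m + 1) x y - q m x y) * F x y) ≤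
      2 * δ * ∑ x, ∑ y, (q (m + 1) x y - q m x y).trace := by
  classical
  have hd : 2 ^ m ∣ Q := (pow_dvd_pow 2 hm.le).trans hQ
  rw [Finset.mul_sum]
  refine Finset.sum_le_sum fun x _ => ?_
  have hpos : (0 : ℝ) < 2 ^ m := by positivity
  have key : 2 ^ m * ∑ y, hs2 ((q (m + 1) x y - q m x y) * F x y) ≤
      ∑ y, 2 ^ (m + 1) * δ * (q (m + 1) x y - q m x y).trace := by
    rw [← sum_cel hd]
    refine Finset.sum_le_sum fun y _ => ?_
    set P := q (m + 1) x y - q m x y with hPdef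
    have hP : IsPr P := (h.pr (m + 1) x y).sub (h.pr m x y) (h.mono m hm x y)
    have hqP : q (m + 1) x y * P = P := by
      have h2 : q (m + 1) x y * q m x y = q m x y := by
        have := congrArg Matrix.transpose (h.mono m hm x y)
        rwa [transpose_mul, (h.pr (m + 1) x y).symm, (h.pr m x y).symm] at this
      rw [hPdef, Matrix.mul_sub, (h.pr (m + 1) x y).idem, h2]
    have e1 : ∀ y' ∈ (univ.filter fun y' => cel m y' = cel m y),
        hs2 ((q (m + 1) x y' - q m x y') * F x y') = ∑ t : κ, (fun s => P s t) ⬝ᵥ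
          ((q (m + 1) x y * (F x y' * (F x y')ᵀ) * q (m + 1) x y) *ᵥ (fun s => P s t)) := by
      intro y' hy'
      have hc := (Finset.mem_filter.1 hy').2
      rw [h.cell m hm.le x y' y hc, h.cell (m + 1) hm x y' y (cel_succ hc), ← hPdef,
        hs2_mul_cols P hP.symm]
      refine Finset.sum_congr rfl fun t _ => ?_
      have hcol : q (m + 1) x y *ᵥ (fun s => P s t) = fun s => P s t := by
        funext s
        have := congrFun (congrFun hqP s) t
        rw [Matrix.mul_apply] at this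
        exact this
      exact (quad_fix (q (m + 1) x y) (F x y' * (F x y')ᵀ) (fun s => P s t)
        (h.pr (m + 1) x y).symm hcol).symm
    rw [Finset.sum_congr rfl e1, Finset.sum_comm]
    calc ∑ t : κ, ∑ y' with cel m y' = cel m y, (fun s => P s t) ⬝ᵥ
          ((q (m + 1) x y * (F x y' * (F x y')ᵀ) * q (m + 1) x y) *ᵥ (fun s => P s t))
        ≤ ∑ t : κ, 2 ^ (m + 1) * δ * ((fun s => P s t) ⬝ᵥ (fun s => P s t)) := by
          refine Finset.sum_le_sum fun t _ => ?_
          refine le_trans ?_ (h.bnd (m + 1) hm x y (fun s => P s t))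
          refine Finset.sum_le_sum_of_subset_of_nonneg ?_ ?_
          · intro y' hy'
            rw [Finset.mem_filter] at hy' ⊢
            exact ⟨hy'.1, cel_succ hy'.2⟩
          · intro y' _ _
            have e : q (m + 1) x y * (F x y' * (F x y')ᵀ) * q (m + 1) x y =
                (q (m + 1) x y * F x y') * (q (m + 1) x y * F x y')ᵀ := by
              rw [transpose_mul, (h.pr (m + 1) x y).symm]
              simp only [Matrix.mul_assoc]
            rw [e]
            exact psd_quad_nonneg _ _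
      _ = 2 ^ (m + 1) * δ * P.trace := by
          rw [← pr_sum_sq hP, Finset.mul_sum]
          refine Finset.sum_congr rfl fun t _ => ?_
          congr 1
          rw [dotProduct]
          refine Finset.sum_congr rfl fun s _ => ?_
          rw [sq]
  rw [← Finset.mul_sum] at key
  have e3 : (2 : ℝ) ^ (m + 1) * δ * ∑ y, (q (m + 1) x y - q m x y).trace =
      2 ^ m * (2 * δ * ∑ y, (q (m + 1) x y - q m x y).trace) := by
    rw [pow_succ]
    ring
  rw [e3] at key
  exact le_of_mul_le_mul_left key hpos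

end

end Crest.Agent.R079.PotL
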