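import Crest.Agent.R079.PLE5_377

/-! R079, doc 2524 (377), [F4]: bounds of the op-small letter `rho` behind the low rank
projections (`RExt`).  helper303. -/

set_option autoImplicit false
set_option linter.unusedVariables false
set_option linter.unusedSectionVars false

namespace Crest.Agent.R079.PotL

open Matrix Finset Crest.Agent.R072
open scoped MatrixOrder

namespace F4303

section mat

variable {m n : Type*} [Fintype m] [DecidableEq m] [Fintype n] [DecidableEq n]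

theorem dot_nn (v : m → ℝ) : 0 ≤ v ⬝ᵥ v :=
  Finset.sum_nonneg fun _ _ => mul_self_nonneg _

theorem dot_eq (v : m → ℝ) : v ⬝ᵥ v = ∑ i, v i ^ 2 := by
  simp only [dotProduct, sq]

theorem move (A : Matrix m n ℝ) (v : n → ℝ) (w : m → ℝ) : (A *ᵥ v) ⬝ᵥ w = v ⬝ᵥ (Aᵀ *ᵥ w) := by
  rw [Matrix.mulVec_transpose, _root_.dotProduct_comm v, ← Matrix.dotProduct_mulVec,
    _root_.dotProduct_comm]

/-- `|P v|² ≤ |v|²` -/
theorem pr_contr {P : Matrix m m ℝ} (hP : IsPr P) (v : m → ℝ) :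
    (P *ᵥ v) ⬝ᵥ (P *ᵥ v) ≤ v ⬝ᵥ v := by
  have h1 : (P *ᵥ v) ⬝ᵥ (P *ᵥ v) = v ⬝ᵥ (P *ᵥ v) := by
    rw [move, hP.symm, Matrix.mulVec_mulVec, hP.idem]
  have h2 : 0 ≤ (v - P *ᵥ v) ⬝ᵥ (v - P *ᵥ v) := dot_nn _
  rw [sub_dotProduct, dotProduct_sub, dotProduct_sub, _root_.dotProduct_comm (P *ᵥ v) v] at h2
  linarith

/-- the transpose of a contraction is a contraction -/
theorem op_transpose {A : Matrix m n ℝ} {τ : ℝ}
    (h : ∀ w : m → ℝ, (Aᵀ *ᵥ w) ⬝ᵥ (Aᵀ *ᵥ w) ≤ τ ^ 2 * (w ⬝ᵥ w)) (v : n → ℝ) :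
    (A *ᵥ v) ⬝ᵥ (A *ᵥ v) ≤ τ ^ 2 * (v ⬝ᵥ v) := by
  set a := (A *ᵥ v) ⬝ᵥ (A *ᵥ v) with ha
  have ha0 : 0 ≤ a := dot_nn _
  have h1 : a = v ⬝ᵥ (Aᵀ *ᵥ (A *ᵥ v)) := by rw [ha, move]
  have h2 := h (A *ᵥ v)
  rw [← ha] at h2
  have h3 : (v ⬝ᵥ (Aᵀ *ᵥ (A *ᵥ v))) ^ 2 ≤
      (v ⬝ᵥ v) * ((Aᵀ *ᵥ (A *ᵥ v)) ⬝ᵥ (Aᵀ *ᵥ (A *ᵥ v))) := by
    rw [dot_eq v, dot_eq (Aᵀ *ᵥ (A *ᵥ v))]
    exact Finset.sum_mul_sq_le_sq_mul_sq _ _ _
  rw [← h1] at h3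
  have hv : 0 ≤ v ⬝ᵥ v := dot_nn _
  rcases eq_or_lt_of_le ha0 with h0 | h0
  · rw [← h0]
    positivity
  · have h4 : a * a ≤ τ ^ 2 * (v ⬝ᵥ v) * a := by
      calc a * a = a ^ 2 := by ring
        _ ≤ (v ⬝ᵥ v) * ((Aᵀ *ᵥ (A *ᵥ v)) ⬝ᵥ (Aᵀ *ᵥ (A *ᵥ v))) := h3
        _ ≤ (v ⬝ᵥ v) * (τ ^ 2 * a) := mul_le_mul_of_nonneg_left h2 hv
        _ = _ := by ring
    exact le_of_mul_le_mul_right h4 h0

theorem pr_sum_sq' {P : Matrix m m ℝ} (hP : IsPr P) : ∑ b : m, ∑ l : m, P b l ^ 2 = P.trace := by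
  have h1 : P.trace = (P * Pᵀ).trace := by rw [hP.symm, hP.idem]
  rw [h1, Matrix.trace]
  refine Finset.sum_congr rfl fun b _ => ?_
  rw [Matrix.diag_apply, Matrix.mul_apply]
  refine Finset.sum_congr rfl fun l _ => ?_
  rw [Matrix.transpose_apply, sq]

theorem pr_sub {a b : Matrix m m ℝ} (ha : IsPr a) (hb : IsPr b) (h : b * a = b) :
    IsPr (a - b) := by
  have h' : a * b = b := by
    have := congrArg Matrix.transpose h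
    rwa [transpose_mul, ha.symm, hb.symm] at this
  refine ⟨by rw [transpose_sub, ha.symm, hb.symm], ?_⟩
  rw [Matrix.sub_mul, Matrix.mul_sub, Matrix.mul_sub, ha.idem, hb.idem, h, h']
  abel

/-- `|P A|²_HS ≤ τ² tr P` -/
theorem hs_pr_le {P : Matrix m m ℝ} (hP : IsPr P) {A : Matrix m n ℝ} {τ : ℝ}
    (h : ∀ w : m → ℝ, (Aᵀ *ᵥ w) ⬝ᵥ (Aᵀ *ᵥ w) ≤ τ ^ 2 * (w ⬝ᵥ w)) :
    hs2 (P * A) ≤ τ ^ 2 * P.trace := by
  have e : ∀ l : m, ∑ s : n, (P * A) l s ^ 2 = (Aᵀ *ᵥ P l) ⬝ᵥ (Aᵀ *ᵥ P l) := by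
    intro l
    rw [dot_eq]
    refine Finset.sum_congr rfl fun s _ => ?_
    congr 1
    rw [Matrix.mul_apply]
    simp only [Matrix.mulVec, dotProduct, Matrix.transpose_apply]
    exact Finset.sum_congr rfl fun k _ => mul_comm _ _
  unfold hs2
  calc ∑ l : m, ∑ s : n, (P * A) l s ^ 2 ≤ ∑ l : m, τ ^ 2 * ∑ k : m, P l k ^ 2 := by
        refine Finset.sum_le_sum fun l _ => ?_
        rw [e l, ← dot_eq]
        exact h _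
    _ = τ ^ 2 * P.trace := by rw [← Finset.mul_sum, pr_sum_sq' hP]

end mat

/-- an average over a window of numbers `≤ B` is `≤ B` -/
theorem avg_le (N : ℕ) (a : ℕ → ℝ) {B : ℝ} (hB : 0 ≤ B) (h : ∀ k, a k ≤ B) :
    (1 / (N : ℝ)) * ∑ k ∈ range N, a k ≤ B := by
  rcases Nat.eq_zero_or_pos N with h0 | h0
  · subst h0
    simpa using hB
  · have hN : (0 : ℝ) < N := by exact_mod_cast h0
    calc (1 / (N : ℝ)) * ∑ k ∈ range N, a k ≤ (1 / (N : ℝ)) * ∑ k ∈ range N, B :=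
          mul_le_mul_of_nonneg_left (Finset.sum_le_sum fun k _ => h k) (by positivity)
      _ = B := by
          rw [Finset.sum_const, card_range, nsmul_eq_mul]
          field_simp

end F4303

section
variable {Q : ℕ} [NeZero Q] {κ lam ν : Type*} [Fintype κ] [DecidableEq κ] [Fintype lam]
  [DecidableEq lam] [Fintype ν] [DecidableEq ν]

open F4303

-- [F4] bounds of the letter rho
theorem RExt.colT {F2 : ZMod Q → ZMod Q → Matrix κ ν ℝ} {M C : ℕ} {τ n : ℝ}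
    {q q' R : ℕ → ZMod Q → ZMod Q → Matrix κ κ ℝ} (h : RExt F2 M C τ n q q' R) (hτ : 0 ≤ τ)
    (hF2 : ∀ x x0 (v : κ → ℝ), ((F2 x x0)ᵀ *ᵥ v) ⬝ᵥ ((F2 x x0)ᵀ *ᵥ v) ≤ τ ^ 2 * (v ⬝ᵥ v))
    (m N : ℕ) (p x : ZMod Q) (c : ℝ) :
    ColB (fun x0 x => (c • (R m x (-x0 - x) * F2 x x0))ᵀ) N (|c| * τ) p x := by
  intro v
  have hv : 0 ≤ ∑ s : κ, v s ^ 2 := Finset.sum_nonneg fun _ _ => sq_nonneg _
  refine avg_le N _ (by positivity) fun k => ?_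
  set x0 := p + (k : ZMod Q) with hx0
  have e : ∑ l : ν, (∑ s : κ, (c • (R m x (-x0 - x) * F2 x x0))ᵀ l s * v s) ^ 2 =
      c ^ 2 * (((F2 x x0)ᵀ *ᵥ (R m x (-x0 - x) *ᵥ v)) ⬝ᵥ
        ((F2 x x0)ᵀ *ᵥ (R m x (-x0 - x) *ᵥ v))) := by
    have e1 : ∀ l : ν, ∑ s : κ, (c • (R m x (-x0 - x) * F2 x x0))ᵀ l s * v s =
        c * ((F2 x x0)ᵀ *ᵥ (R m x (-x0 - x) *ᵥ v)) l := by
      intro l
      have e2 : (F2 x x0)ᵀ *ᵥ (R m x (-x0 - x) *ᵥ v) =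
          (R m x (-x0 - x) * F2 x x0)ᵀ *ᵥ v := by
        rw [transpose_mul, (h.pr m x _).symm, Matrix.mulVec_mulVec]
      rw [e2]
      simp only [Matrix.mulVec, dotProduct, Matrix.transpose_apply, Matrix.smul_apply, smul_eq_mul,
        Finset.mul_sum]
      exact Finset.sum_congr rfl fun s _ => by ring
    rw [dot_eq, Finset.mul_sum]
    refine Finset.sum_congr rfl fun l _ => ?_
    rw [e1]
    ring
  simp only []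
  rw [e]
  calc c ^ 2 * _ ≤ c ^ 2 * (τ ^ 2 * ((R m x (-x0 - x) *ᵥ v) ⬝ᵥ (R m x (-x0 - x) *ᵥ v))) :=
        mul_le_mul_of_nonneg_left (hF2 _ _ _) (sq_nonneg _)
    _ ≤ c ^ 2 * (τ ^ 2 * (v ⬝ᵥ v)) :=
        mul_le_mul_of_nonneg_left (mul_le_mul_of_nonneg_left (pr_contr (h.pr m x _) v)
          (sq_nonneg _)) (sq_nonneg _)
    _ = (|c| * τ) ^ 2 * ∑ s : κ, v s ^ 2 := by
        rw [dot_eq, mul_pow, sq_abs]
        ring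

theorem RExt.col {F2 : ZMod Q → ZMod Q → Matrix κ ν ℝ} {M C : ℕ} {τ n : ℝ}
    {q q' R : ℕ → ZMod Q → ZMod Q → Matrix κ κ ℝ} (h : RExt F2 M C τ n q q' R) (hτ : 0 ≤ τ)
    (hF2 : ∀ x x0 (v : κ → ℝ), ((F2 x x0)ᵀ *ᵥ v) ⬝ᵥ ((F2 x x0)ᵀ *ᵥ v) ≤ τ ^ 2 * (v ⬝ᵥ v))
    (m N : ℕ) (p x0 : ZMod Q) (c : ℝ) :
    ColB (fun x x0 => c • (R m x (-x0 - x) * F2 x x0)) N (|c| * τ) p x0 := by
  intro v
  have hv : 0 ≤ ∑ s : ν, v s ^ 2 := Finset.sum_nonneg fun _ _ => sq_nonneg _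
  refine avg_le N _ (by positivity) fun k => ?_
  set x := p + (k : ZMod Q) with hx
  have e : ∑ l : κ, (∑ s : ν, (c • (R m x (-x0 - x) * F2 x x0)) l s * v s) ^ 2 =
      c ^ 2 * ((R m x (-x0 - x) *ᵥ (F2 x x0 *ᵥ v)) ⬝ᵥ (R m x (-x0 - x) *ᵥ (F2 x x0 *ᵥ v))) := by
    have e1 : ∀ l : κ, ∑ s : ν, (c • (R m x (-x0 - x) * F2 x x0)) l s * v s =
        c * (R m x (-x0 - x) *ᵥ (F2 x x0 *ᵥ v)) l := by
      intro l
      rw [Matrix.mulVec_mulVec]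
      simp only [Matrix.mulVec, dotProduct, Matrix.smul_apply, smul_eq_mul, Finset.mul_sum]
      exact Finset.sum_congr rfl fun s _ => by ring
    rw [dot_eq, Finset.mul_sum]
    refine Finset.sum_congr rfl fun l _ => ?_
    rw [e1]
    ring
  simp only []
  rw [e]
  calc c ^ 2 * _ ≤ c ^ 2 * ((F2 x x0 *ᵥ v) ⬝ᵥ (F2 x x0 *ᵥ v)) :=
        mul_le_mul_of_nonneg_left (pr_contr (h.pr m x _) _) (sq_nonneg _)
    _ ≤ c ^ 2 * (τ ^ 2 * (v ⬝ᵥ v)) :=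
        mul_le_mul_of_nonneg_left (op_transpose (hF2 x x0) v) (sq_nonneg _)
    _ = (|c| * τ) ^ 2 * ∑ s : ν, v s ^ 2 := by
        rw [dot_eq, mul_pow, sq_abs]
        ring

theorem RExt.pc {F2 : ZMod Q → ZMod Q → Matrix κ ν ℝ} {M C : ℕ} {τ n : ℝ}
    {q q' R : ℕ → ZMod Q → ZMod Q → Matrix κ κ ℝ} (h : RExt F2 M C τ n q q' R) (hQ : 2 ^ M ∣ Q)
    {m : ℕ} (hm : m < M) : PC2 (fun x x0 => R m x (-x0 - x) - R (m + 1) x (-x0 - x)) (2 ^ m) := by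
  intro x x0
  have hQm : 2 ^ m ∣ Q := (pow_dvd_pow 2 hm.le).trans hQ
  obtain ⟨s, hs, hc, he⟩ := cel_bwd hQm (-x0 - x)
  refine ⟨s, hs, hc, fun i hi => ?_⟩
  have h1 := he i hi
  have e : -(x0 - ((2 ^ m : ℕ) : ZMod Q) + (i : ZMod Q)) - x =
      -x0 - x + ((2 ^ m : ℕ) : ZMod Q) - (i : ZMod Q) := by ring
  simp only [e]
  rw [h.cell m hm.le x _ _ h1, h.cell (m + 1) hm x _ _ (cel_succ h1)]

theorem RExt.energy {F2 : ZMod Q → ZMod Q → Matrix κ ν ℝ} {M C : ℕ} {τ n : ℝ}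
    {q q' R : ℕ → ZMod Q → ZMod Q → Matrix κ κ ℝ} (h : RExt F2 M C τ n q q' R) (hτ : 0 ≤ τ)
    (hF2 : ∀ x x0 (v : κ → ℝ), ((F2 x x0)ᵀ *ᵥ v) ⬝ᵥ ((F2 x x0)ᵀ *ᵥ v) ≤ τ ^ 2 * (v ⬝ᵥ v))
    {m : ℕ} (hm : m < M) :
    ∑ x, ∑ x0, hs2 ((R m x (-x0 - x) - R (m + 1) x (-x0 - x)) * F2 x x0) ≤
      τ ^ 2 * ∑ x, ∑ x0, (R m x (-x0 - x) - R (m + 1) x (-x0 - x)).trace := by
  rw [Finset.mul_sum]
  refine Finset.sum_le_sum fun x _ => ?_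
  rw [Finset.mul_sum]
  refine Finset.sum_le_sum fun x0 _ => ?_
  exact hs_pr_le (pr_sub (h.pr m x _) (h.pr (m + 1) x _) (h.mono m hm x _)) (hF2 x x0)

theorem RExt.cnt' {F2 : ZMod Q → ZMod Q → Matrix κ ν ℝ} {M C : ℕ} {τ n : ℝ}
    {q q' R : ℕ → ZMod Q → ZMod Q → Matrix κ κ ℝ} (h : RExt F2 M C τ n q q' R) :
    ∑ m ∈ range M, ∑ x, ∑ x0, (R m x (-x0 - x) - R (m + 1) x (-x0 - x)).trace ≤ n := by
  refine le_trans (le_of_eq ?_) h.cnt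
  rw [Finset.sum_comm]
  refine Finset.sum_congr rfl fun x _ => ?_
  rw [Finset.sum_comm]
  have e1 : ∀ x0 : ZMod Q, ∑ m ∈ range M, (R m x (-x0 - x) - R (m + 1) x (-x0 - x)).trace =
      (R 0 x (-x0 - x)).trace - (R M x (-x0 - x)).trace := by
    intro x0
    simp_rw [Matrix.trace_sub]
    exact Finset.sum_range_sub' (fun m => (R m x (-x0 - x)).trace) M
  simp_rw [e1]
  exact Equiv.sum_comp ((Equiv.neg (ZMod Q)).trans (Equiv.subRight x))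
    (fun z => (R 0 x z).trace - (R M x z).trace)

end

end Crest.Agent.R079.PotL
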