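import Crest.Agent.R079.PLE5_377
import Crest.Agent.R079.PLE2_476
import Crest.Agent.R079.PLE2x_517
import Crest.Agent.R079.PLF4_303

/-! R079, doc 2524 (377), [F3]: existence of the extraction records `Ext`, `RExt`.  helper476. -/

set_option autoImplicit false
set_option linter.unusedVariables false
set_option linter.unusedSectionVars false

namespace Crest.Agent.R079.PotL

open Matrix Finset Crest.Agent.R072
open scoped MatrixOrder

namespace F3476

section mat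

variable {κ lam : Type*} [Fintype κ] [DecidableEq κ] [Fintype lam] [DecidableEq lam]

theorem isPr_one : IsPr (1 : Matrix κ κ ℝ) := ⟨by simp, by simp⟩

theorem isPr_zero : IsPr (0 : Matrix κ κ ℝ) := ⟨by simp, by simp⟩

theorem tr_nn {P : Matrix κ κ ℝ} (hP : IsPr P) : 0 ≤ P.trace := by
  rw [← F4303.pr_sum_sq' hP]
  exact Finset.sum_nonneg fun _ _ => Finset.sum_nonneg fun _ _ => sq_nonneg _

theorem isPr_compl {P : Matrix κ κ ℝ} (hP : IsPr P) : IsPr (1 - P) :=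
  F4303.pr_sub isPr_one hP (Matrix.mul_one _)

theorem mul_swap {a b : Matrix κ κ ℝ} (ha : IsPr a) (hb : IsPr b) (h : a * b = a) : b * a = a := by
  have := congrArg Matrix.transpose h
  rwa [transpose_mul, ha.symm, hb.symm] at this

theorem tr_gram (A : Matrix κ lam ℝ) : (A * Aᵀ).trace = hs2 A := by
  unfold hs2
  rw [Matrix.trace]
  refine Finset.sum_congr rfl fun b _ => ?_
  rw [Matrix.diag_apply, Matrix.mul_apply]
  refine Finset.sum_congr rfl fun l _ => ?_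
  rw [Matrix.transpose_apply, sq]

theorem gram_psd (A : Matrix κ lam ℝ) : (A * Aᵀ).PosSemidef := by
  have h := Matrix.posSemidef_self_mul_conjTranspose A
  rwa [Matrix.conjTranspose_eq_transpose_of_trivial] at h

theorem quad_eq (A : Matrix κ lam ℝ) (v : κ → ℝ) :
    v ⬝ᵥ ((A * Aᵀ) *ᵥ v) = (Aᵀ *ᵥ v) ⬝ᵥ (Aᵀ *ᵥ v) := by
  rw [F4303.move, Matrix.mulVec_mulVec, Matrix.transpose_transpose]

theorem op_le_hs (A : Matrix κ lam ℝ) (v : κ → ℝ) :
    (Aᵀ *ᵥ v) ⬝ᵥ (Aᵀ *ᵥ v) ≤ hs2 A * (v ⬝ᵥ v) := by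
  rw [F4303.dot_eq, F4303.dot_eq]
  unfold hs2
  rw [Finset.sum_comm, Finset.sum_mul]
  refine Finset.sum_le_sum fun s _ => ?_
  have e : (Aᵀ *ᵥ v) s = ∑ l, A l s * v l := by
    simp only [Matrix.mulVec, dotProduct, Matrix.transpose_apply]
  rw [e]
  exact Finset.sum_mul_sq_le_sq_mul_sq _ _ _

end mat

end F3476

section
variable {Q : ℕ} [NeZero Q] {κ lam ν : Type*} [Fintype κ] [DecidableEq κ] [Fintype lam]
  [DecidableEq lam] [Fintype ν] [DecidableEq ν]

open F3476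

theorem exists_ext (F : ZMod Q → ZMod Q → Matrix κ lam ℝ) {M : ℕ} (hQ : 2 ^ M ∣ Q) {δ : ℝ}
    (hδ : 0 < δ) : ∃ q : ℕ → ZMod Q → ZMod Q → Matrix κ κ ℝ,
      Ext F M δ ((∑ x, ∑ y, hs2 (F x y)) / δ) q ∧
      ∑ x, ∑ y, (1 - q 0 x y).trace ≤ (∑ x, ∑ y, hs2 (F x y)) / δ := by
  have H := fun x : ZMod Q => exists_cuc hQ (fun y => F x y * (F x y)ᵀ) (fun y => gram_psd _) hδ
  choose q h1 h2 h3 h4 h5 using H
  have key : ∑ x, ∑ y, (1 - q x 0 y).trace ≤ (∑ x, ∑ y, hs2 (F x y)) / δ := by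
    rw [le_div_iff₀ hδ, Finset.sum_mul]
    refine Finset.sum_le_sum fun x _ => ?_
    have := h5 x
    simp only [tr_gram] at this
    linarith
  refine ⟨fun m x y => q x m y, ⟨fun m x y => h1 x m y, fun m hm x y y' h => h2 x m hm y y' h,
    fun m hm x y => h3 x m hm y, fun m hm x y v => h4 x m hm y v, ?_⟩, key⟩
  refine le_trans ?_ key
  refine Finset.sum_le_sum fun x _ => Finset.sum_le_sum fun y _ => ?_
  have h0 := tr_nn (isPr_compl (h1 x M y))
  rw [Matrix.trace_sub] at h0 ⊢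
  show (q x M y).trace - (q x 0 y).trace ≤ _
  linarith

theorem ext_one (F : ZMod Q → ZMod Q → Matrix κ lam ℝ) {M : ℕ} (hQ : 2 ^ M ∣ Q) {δ : ℝ}
    (hδ : ∀ x y, hs2 (F x y) ≤ δ) : Ext F M δ 0 (fun _ _ _ => (1 : Matrix κ κ ℝ)) := by
  refine ⟨fun _ _ _ => isPr_one, fun _ _ _ _ _ _ => rfl, fun _ _ _ _ => Matrix.mul_one _, ?_, ?_⟩
  · intro m hm x y v
    have hv : 0 ≤ v ⬝ᵥ v := F4303.dot_nn v
    have hd : 2 ^ m ∣ Q := (pow_dvd_pow 2 hm).trans hQ
    have hc := card_cel hd y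
    calc ∑ y' with cel m y' = cel m y, v ⬝ᵥ ((1 * (F x y' * (F x y')ᵀ) * 1) *ᵥ v)
        ≤ ∑ y' with cel m y' = cel m y, δ * (v ⬝ᵥ v) := by
          refine Finset.sum_le_sum fun y' _ => ?_
          rw [Matrix.one_mul, Matrix.mul_one, quad_eq]
          exact (op_le_hs _ _).trans (mul_le_mul_of_nonneg_right (hδ x y') hv)
      _ = 2 ^ m * δ * (v ⬝ᵥ v) := by
          rw [Finset.sum_const, hc, nsmul_eq_mul]
          push_cast
          ring
  · simp

theorem ext_zero (F : ZMod Q → ZMod Q → Matrix κ lam ℝ) {M : ℕ} {δ : ℝ} (hδ : 0 ≤ δ) :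
    Ext F M δ 0 (fun _ _ _ => (0 : Matrix κ κ ℝ)) := by
  refine ⟨fun _ _ _ => isPr_zero, fun _ _ _ _ _ _ => rfl, fun _ _ _ _ => Matrix.zero_mul _,
    ?_, ?_⟩
  · intro m hm x y v
    have hv : 0 ≤ v ⬝ᵥ v := F4303.dot_nn v
    simp only [Matrix.zero_mul, Matrix.zero_mulVec, dotProduct_zero, Finset.sum_const_zero]
    positivity
  · simp

theorem exists_rext {F F' : ZMod Q → ZMod Q → Matrix κ lam ℝ} (F2 : ZMod Q → ZMod Q → Matrix κ ν ℝ)
    {M : ℕ} (hQ : 2 ^ M ∣ Q) (C : ℕ) {τ δ n δ' n' a : ℝ} (hτ : 0 ≤ τ)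
    (hF2 : ∀ x x0 (v : κ → ℝ), ((F2 x x0)ᵀ *ᵥ v) ⬝ᵥ ((F2 x x0)ᵀ *ᵥ v) ≤ τ ^ 2 * (v ⬝ᵥ v))
    {q q' : ℕ → ZMod Q → ZMod Q → Matrix κ κ ℝ} (h : Ext F M δ n q) (h' : Ext F' M δ' n' q')
    (ha : ∑ x, ∑ y, (1 - q 0 x y).trace ≤ a) (ha' : ∑ x, ∑ y, (1 - q' 0 x y).trace ≤ a) :
    ∃ R, RExt F2 M C τ ((2 * C + 1) * (2 * a)) q q' R := by
  have H := fun x : ZMod Q => exists_nbr (ι := Bool) hQ C
    (fun b m z => bif b then 1 - q m x z else 1 - q' m x z)
    (fun b m z => by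
      cases b
      · exact isPr_compl (h'.pr m x z)
      · exact isPr_compl (h.pr m x z))
    (fun b m hm z z' hz => by
      cases b
      · simp only [cond_false]
        rw [h'.cell m hm x z z' hz]
      · simp only [cond_true]
        rw [h.cell m hm x z z' hz])
    (fun b m hm z => by
      cases b
      · simp only [cond_false]
        have e := mul_swap (h'.pr m x z) (h'.pr (m + 1) x z) (h'.mono m hm x z)
        rw [Matrix.sub_mul, Matrix.mul_sub, Matrix.mul_sub, e]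
        simp
      · simp only [cond_true]
        have e := mul_swap (h.pr m x z) (h.pr (m + 1) x z) (h.mono m hm x z)
        rw [Matrix.sub_mul, Matrix.mul_sub, Matrix.mul_sub, e]
        simp)
  choose R h1 h2 h3 h4 h5 using H
  have key : ∑ x, ∑ z, (R x 0 z).trace ≤ (2 * C + 1) * (2 * a) := by
    calc ∑ x, ∑ z, (R x 0 z).trace
        ≤ ∑ x, (2 * (C : ℝ) + 1) * (∑ z, (1 - q 0 x z).trace + ∑ z, (1 - q' 0 x z).trace) := by
          refine Finset.sum_le_sum fun x _ => ?_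
          have := h5 x
          simpa only [Fintype.sum_bool, cond_true, cond_false] using this
      _ = (2 * C + 1) * (∑ x, ∑ z, (1 - q 0 x z).trace + ∑ x, ∑ z, (1 - q' 0 x z).trace) := by
          rw [← Finset.mul_sum, Finset.sum_add_distrib]
      _ ≤ (2 * C + 1) * (2 * a) := by
          refine mul_le_mul_of_nonneg_left (by linarith) (by positivity)
  refine ⟨fun m x z => R x m z, ⟨fun m x z => h1 x m z, fun m hm x z z' hz => h2 x m hm z z' hz,
    fun m hm x z => h3 x m hm z, ?_, ?_, ?_⟩⟩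
  · intro m hm x z t ht
    have e1 := h4 x true m hm z t ht
    have e2 := h4 x false m hm z t ht
    simp only [cond_true, cond_false] at e1 e2
    show (q m x (z + (t : ZMod Q)) - q' m x (z + (t : ZMod Q))) * R x m z = _
    have e3 : q m x (z + (t : ZMod Q)) - q' m x (z + (t : ZMod Q)) =
        (1 - q' m x (z + (t : ZMod Q))) - (1 - q m x (z + (t : ZMod Q))) := by abel
    rw [e3, Matrix.sub_mul, e1, e2]
  · calc ∑ x, ∑ x0, hs2 (R x 0 (-x0 - x) * F2 x x0)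
        ≤ ∑ x, ∑ x0, τ ^ 2 * (R x 0 (-x0 - x)).trace :=
          Finset.sum_le_sum fun x _ => Finset.sum_le_sum fun x0 _ =>
            F4303.hs_pr_le (h1 x 0 _) (hF2 x x0)
      _ = ∑ x, τ ^ 2 * ∑ z, (R x 0 z).trace := by
          refine Finset.sum_congr rfl fun x _ => ?_
          rw [← Finset.mul_sum]
          congr 1
          exact Fintype.sum_equiv ((Equiv.neg (ZMod Q)).trans (Equiv.subRight x)) _ _
            (fun x0 => by simp)
      _ = τ ^ 2 * ∑ x, ∑ z, (R x 0 z).trace := by rw [← Finset.mul_sum]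
      _ ≤ τ ^ 2 * ((2 * C + 1) * (2 * a)) := mul_le_mul_of_nonneg_left key (sq_nonneg _)
  · refine le_trans ?_ key
    refine Finset.sum_le_sum fun x _ => Finset.sum_le_sum fun z _ => ?_
    have h0 := tr_nn (h1 x M z)
    show (R x 0 z).trace - (R x M z).trace ≤ _
    linarith

theorem rext_one (F2 : ZMod Q → ZMod Q → Matrix κ ν ℝ) (M C : ℕ) {τ n : ℝ} (hn : 0 ≤ n)
    (h : ∑ x, ∑ x0, hs2 (F2 x x0) ≤ τ ^ 2 * n) (q q' : ℕ → ZMod Q → ZMod Q → Matrix κ κ ℝ) :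
    RExt F2 M C τ n q q' (fun _ _ _ => (1 : Matrix κ κ ℝ)) := by
  refine ⟨fun _ _ _ => isPr_one, fun _ _ _ _ _ _ => rfl, fun _ _ _ _ => Matrix.mul_one _,
    fun _ _ _ _ _ _ => Matrix.mul_one _, ?_, ?_⟩
  · simpa only [Matrix.one_mul] using h
  · simpa using hn

end
end Crest.Agent.R079.PotL
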