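import Crest.Agent.R079.PLEdef_377

/-! R079, labelled corner (doc 2524 of 377), [F5a]: mirror symmetry and linearity of the labelled box
form.  helper653. -/

set_option autoImplicit false
set_option linter.unusedVariables false
set_option linter.unusedSectionVars false

namespace Crest.Agent.R079.PotL

open Matrix Finset Crest.Agent.R072
open scoped MatrixOrder

section
variable {Q : ℕ} [NeZero Q] {κ0 κ1 κ2 : Type*} [Fintype κ0] [DecidableEq κ0]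
  [Fintype κ1] [DecidableEq κ1] [Fintype κ2] [DecidableEq κ2]

theorem LboxL_mirror (F0 : ZMod Q → ZMod Q → Matrix κ0 κ1 ℝ)
    (F1 : ZMod Q → ZMod Q → Matrix κ1 κ2 ℝ) (F2 : ZMod Q → ZMod Q → Matrix κ2 κ0 ℝ)
    (N : ℕ) (p0 p1 p2 : ZMod Q) :
    LboxL F0 F1 F2 N p0 p1 p2 = LboxL (fun x y => (F1 y x)ᵀ) (fun x y => (F0 y x)ᵀ)
      (fun x y => (F2 y x)ᵀ) N p2 p1 p0 := by
  unfold LboxL
  congr 1
  rw [Finset.sum_comm]
  rw [Finset.sum_congr rfl fun i1 _ => Finset.sum_comm]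
  rw [Finset.sum_comm]
  refine Finset.sum_congr rfl fun i2 _ => Finset.sum_congr rfl fun i1 _ =>
    Finset.sum_congr rfl fun i0 _ => ?_
  have h : ∀ (A : Matrix κ0 κ1 ℝ) (B : Matrix κ1 κ2 ℝ) (C : Matrix κ2 κ0 ℝ),
      (Bᵀ * Aᵀ * Cᵀ).trace = (A * B * C).trace := by
    intro A B C
    rw [← transpose_mul, ← transpose_mul, trace_transpose, trace_mul_comm]
  rw [h]
  ring

theorem LboxL_mirror_sum (F0 : ZMod Q → ZMod Q → Matrix κ0 κ1 ℝ)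
    (F1 : ZMod Q → ZMod Q → Matrix κ1 κ2 ℝ) (F2 : ZMod Q → ZMod Q → Matrix κ2 κ0 ℝ)
    (N : ℕ) (n : ZMod Q) :
    ∑ p0 : ZMod Q, ∑ p1 : ZMod Q, |LboxL F0 F1 F2 N p0 p1 (n - p0 - p1)| =
      ∑ p0 : ZMod Q, ∑ p1 : ZMod Q, |LboxL (fun x y => (F1 y x)ᵀ) (fun x y => (F0 y x)ᵀ)
        (fun x y => (F2 y x)ᵀ) N p0 p1 (n - p0 - p1)| := by
  rw [Finset.sum_comm]
  rw [Finset.sum_comm (s := (Finset.univ : Finset (ZMod Q))) (t := (Finset.univ : Finset (ZMod Q)))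
    (f := fun p0 p1 => |LboxL (fun x y => (F1 y x)ᵀ) (fun x y => (F0 y x)ᵀ)
        (fun x y => (F2 y x)ᵀ) N p0 p1 (n - p0 - p1)|)]
  refine Finset.sum_congr rfl fun p1 _ => ?_
  refine Fintype.sum_equiv (Equiv.subLeft (n - p1)) _ _ fun p0 => ?_
  rw [LboxL_mirror, Equiv.subLeft_apply]
  have e1 : n - p0 - p1 = n - p1 - p0 := by ring
  have e2 : n - (n - p1 - p0) - p1 = p0 := by ring
  rw [e2, e1]

theorem LboxL_sub0 (F0 F0' : ZMod Q → ZMod Q → Matrix κ0 κ1 ℝ)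
    (F1 : ZMod Q → ZMod Q → Matrix κ1 κ2 ℝ) (F2 : ZMod Q → ZMod Q → Matrix κ2 κ0 ℝ)
    (N : ℕ) (p0 p1 p2 : ZMod Q) :
    LboxL (fun x y => F0 x y - F0' x y) F1 F2 N p0 p1 p2 =
      LboxL F0 F1 F2 N p0 p1 p2 - LboxL F0' F1 F2 N p0 p1 p2 := by
  unfold LboxL
  simp only [Matrix.sub_mul, trace_sub, mul_sub, Finset.sum_sub_distrib]

theorem LboxL_sub1 (F0 : ZMod Q → ZMod Q → Matrix κ0 κ1 ℝ)
    (F1 F1' : ZMod Q → ZMod Q → Matrix κ1 κ2 ℝ) (F2 : ZMod Q → ZMod Q → Matrix κ2 κ0 ℝ)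
    (N : ℕ) (p0 p1 p2 : ZMod Q) :
    LboxL F0 (fun x y => F1 x y - F1' x y) F2 N p0 p1 p2 =
      LboxL F0 F1 F2 N p0 p1 p2 - LboxL F0 F1' F2 N p0 p1 p2 := by
  unfold LboxL
  simp only [Matrix.mul_sub, Matrix.sub_mul, trace_sub, mul_sub, Finset.sum_sub_distrib]

theorem LboxL_sub2 (F0 : ZMod Q → ZMod Q → Matrix κ0 κ1 ℝ)
    (F1 : ZMod Q → ZMod Q → Matrix κ1 κ2 ℝ) (F2 F2' : ZMod Q → ZMod Q → Matrix κ2 κ0 ℝ)
    (N : ℕ) (p0 p1 p2 : ZMod Q) :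
    LboxL F0 F1 (fun x y => F2 x y - F2' x y) N p0 p1 p2 =
      LboxL F0 F1 F2 N p0 p1 p2 - LboxL F0 F1 F2' N p0 p1 p2 := by
  unfold LboxL
  simp only [Matrix.mul_sub, Matrix.sub_mul, trace_sub, mul_sub, Finset.sum_sub_distrib]

end
end Crest.Agent.R079.PotL
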