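import Crest.Agent.R079.PLE5_377

/-! R079, labelled corner in the LINE model: [F5b] `LboxL_insert`, `box_nbr` of doc 2524 (377).
helper517. -/

set_option autoImplicit false
set_option linter.unusedVariables false
set_option linter.unusedSectionVars false

namespace Crest.Agent.R079.PotL

open Matrix Finset Crest.Agent.R072
open scoped MatrixOrder

section
variable {Q : ℕ} [NeZero Q] {κ0 κ1 κ2 : Type*} [Fintype κ0] [DecidableEq κ0]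
  [Fintype κ1] [DecidableEq κ1] [Fintype κ2] [DecidableEq κ2]

/-- letters differ by factors `a b c` and a projection that is invisible inside the box -/
theorem LboxL_insert (F0 : ZMod Q → ZMod Q → Matrix κ0 κ1 ℝ)
    (F1 : ZMod Q → ZMod Q → Matrix κ1 κ2 ℝ) (F2 : ZMod Q → ZMod Q → Matrix κ2 κ0 ℝ)
    (S : ZMod Q → ZMod Q → Matrix κ2 κ2 ℝ) (R : ZMod Q → ZMod Q → Matrix κ2 κ2 ℝ)
    (N : ℕ) (p0 p1 p2 : ZMod Q) (a b c : ℝ) (habc : a * b * c = 1)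
    (h : ∀ i0 i1 i2 : Fin (N + N), S (p2 + ((i2 : ℕ) : ZMod Q)) (p1 + ((i1 : ℕ) : ZMod Q)) *
      R (p2 + ((i2 : ℕ) : ZMod Q)) (-(p0 + ((i0 : ℕ) : ZMod Q)) - (p2 + ((i2 : ℕ) : ZMod Q))) =
        S (p2 + ((i2 : ℕ) : ZMod Q)) (p1 + ((i1 : ℕ) : ZMod Q))) :
    LboxL (fun x y => a • F0 x y) (fun x y => b • (F1 x y * S y x))
      (fun x y => c • (R x (-y - x) * F2 x y)) N p0 p1 p2 =
      LboxL F0 (fun x y => F1 x y * S y x) F2 N p0 p1 p2 := by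
  unfold LboxL
  congr 1
  refine Finset.sum_congr rfl fun i0 _ => Finset.sum_congr rfl fun i1 _ =>
    Finset.sum_congr rfl fun i2 _ => ?_
  congr 1
  set x0 := p0 + ((i0 : ℕ) : ZMod Q)
  set x1 := p1 + ((i1 : ℕ) : ZMod Q)
  set x2 := p2 + ((i2 : ℕ) : ZMod Q)
  have hS : S x2 x1 * R x2 (-x0 - x2) = S x2 x1 := h i0 i1 i2
  have e : (a • F0 x0 x1) * (b • (F1 x1 x2 * S x2 x1)) * (c • (R x2 (-x0 - x2) * F2 x2 x0)) =
      F0 x0 x1 * (F1 x1 x2 * S x2 x1) * F2 x2 x0 := by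
    simp only [Matrix.smul_mul, Matrix.mul_smul, smul_smul]
    have e1 : F0 x0 x1 * (F1 x1 x2 * S x2 x1) * (R x2 (-x0 - x2) * F2 x2 x0) =
        F0 x0 x1 * (F1 x1 x2 * (S x2 x1 * R x2 (-x0 - x2))) * F2 x2 x0 := by
      simp only [Matrix.mul_assoc]
    rw [e1, hS, show c * (b * a) = a * b * c by ring, habc, one_smul]
  rw [e]

/-- the window: `x1 = z + t`, `|t| ≤ C 2^(m+1)` inside a box of half side `2^m` and block `l` -/
theorem box_nbr {m : ℕ} (l : ℤ) (i : ℕ) (hi : i < 2 ^ m) (i0 i1 i2 : Fin (2 ^ m + 2 ^ m))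
    (p0 p1 : ZMod Q) :
    ∃ t : ℤ, |t| ≤ (l.natAbs + 4 : ℕ) * 2 ^ (m + 1) ∧
      p1 + ((i1 : ℕ) : ZMod Q) = -(p0 + ((i0 : ℕ) : ZMod Q)) -
        (((l : ZMod Q) * ((2 ^ m : ℕ) : ZMod Q) + (i : ZMod Q)) - p0 - p1 +
          ((i2 : ℕ) : ZMod Q)) + (t : ZMod Q) := by
  refine ⟨(i0 : ℕ) + (i1 : ℕ) + (i2 : ℕ) + i + l * 2 ^ m, ?_, ?_⟩
  · have h0 : ((i0 : ℕ) : ℤ) ≤ 2 * 2 ^ m := by
      have := i0.isLt
      have h2 : ((i0 : ℕ) : ℤ) < ((2 ^ m + 2 ^ m : ℕ) : ℤ) := by exact_mod_cast this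
      push_cast at h2
      linarith
    have h1 : ((i1 : ℕ) : ℤ) ≤ 2 * 2 ^ m := by
      have := i1.isLt
      have h2 : ((i1 : ℕ) : ℤ) < ((2 ^ m + 2 ^ m : ℕ) : ℤ) := by exact_mod_cast this
      push_cast at h2
      linarith
    have h2 : ((i2 : ℕ) : ℤ) ≤ 2 * 2 ^ m := by
      have := i2.isLt
      have h2 : ((i2 : ℕ) : ℤ) < ((2 ^ m + 2 ^ m : ℕ) : ℤ) := by exact_mod_cast this
      push_cast at h2
      linarith
    have h3 : ((i : ℕ) : ℤ) ≤ 2 ^ m := by exact_mod_cast hi.le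
    have hp : (0 : ℤ) ≤ 2 ^ m := by positivity
    have hl : |l * 2 ^ m| = (l.natAbs : ℤ) * 2 ^ m := by
      rw [abs_mul, abs_of_nonneg hp, Int.natCast_natAbs]
    have hsum : |((i0 : ℕ) : ℤ) + (i1 : ℕ) + (i2 : ℕ) + i| ≤ 8 * 2 ^ m := by
      rw [abs_of_nonneg (by positivity)]
      linarith
    calc |((i0 : ℕ) : ℤ) + (i1 : ℕ) + (i2 : ℕ) + i + l * 2 ^ m|
        ≤ |((i0 : ℕ) : ℤ) + (i1 : ℕ) + (i2 : ℕ) + i| + |l * 2 ^ m| := abs_add_le _ _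
      _ ≤ 8 * 2 ^ m + (l.natAbs : ℤ) * 2 ^ m := by rw [hl]; linarith
      _ ≤ ((l.natAbs + 4 : ℕ) : ℤ) * 2 ^ (m + 1) := by
        push_cast
        rw [pow_succ]
        have : (0 : ℤ) ≤ (l.natAbs : ℤ) * 2 ^ m := by positivity
        push_cast at this
        linarith
  · push_cast
    ring
end

end Crest.Agent.R079.PotL
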