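import Crest.Agent.R079.PLE3L_664
import Crest.Agent.R079.PLE3R_396
import Crest.Agent.R079.PLE4a_664
import Crest.Agent.R079.PLF1_664
import Crest.Agent.R079.PLF2_396
import Crest.Agent.R079.PLF4_303
import Crest.Agent.R079.PLF5a_653
import Crest.Agent.R079.PLF5b_517

/-! R079, labelled corner in the LINE model, F6: one word.  helper377. -/

set_option autoImplicit false
set_option linter.unusedVariables false
set_option linter.unusedSectionVars false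

namespace Crest.Agent.R079.PotL

open Matrix Finset Crest.Agent.R072
open scoped MatrixOrder

local notation "rt" => CFC.sqrt

section small

variable {κ lam : Type*} [Fintype κ] [DecidableEq κ] [Fintype lam] [DecidableEq lam]

theorem op_tr (A : Matrix κ lam ℝ) {K : ℝ}
    (h : ∀ v, (Aᵀ *ᵥ v) ⬝ᵥ (Aᵀ *ᵥ v) ≤ K ^ 2 * (v ⬝ᵥ v)) (v : lam → ℝ) :
    (A *ᵥ v) ⬝ᵥ (A *ᵥ v) ≤ K ^ 2 * (v ⬝ᵥ v) := by
  set w := A *ᵥ v with hw
  have h1 := h w
  have e : w ⬝ᵥ w = v ⬝ᵥ (Aᵀ *ᵥ w) := by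
    conv_lhs => lhs; rw [hw]
    rw [Matrix.mulVec_transpose, dotProduct_comm, Matrix.dotProduct_mulVec, dotProduct_comm]
  have h2 := Finset.sum_mul_sq_le_sq_mul_sq (Finset.univ : Finset lam) v (Aᵀ *ᵥ w)
  have hv := dot_self_nonneg v
  have hw0 := dot_self_nonneg w
  have h3 : (w ⬝ᵥ w) * (w ⬝ᵥ w) ≤ (K ^ 2 * (v ⬝ᵥ v)) * (w ⬝ᵥ w) := by
    calc (w ⬝ᵥ w) * (w ⬝ᵥ w) = (v ⬝ᵥ (Aᵀ *ᵥ w)) ^ 2 := by rw [← e]; ring
      _ ≤ (∑ i, v i ^ 2) * ∑ i, (Aᵀ *ᵥ w) i ^ 2 := h2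
      _ = (v ⬝ᵥ v) * ((Aᵀ *ᵥ w) ⬝ᵥ (Aᵀ *ᵥ w)) := by simp only [dotProduct, sq]
      _ ≤ (v ⬝ᵥ v) * (K ^ 2 * (w ⬝ᵥ w)) := mul_le_mul_of_nonneg_left h1 hv
      _ = _ := by ring
  rcases eq_or_lt_of_le hw0 with h0 | h0
  · rw [← h0]; positivity
  · exact le_of_mul_le_mul_right h3 h0

theorem hs2_smul (c : ℝ) (A : Matrix κ lam ℝ) : hs2 (c • A) = c ^ 2 * hs2 A := by
  unfold hs2
  rw [Finset.mul_sum]
  refine Finset.sum_congr rfl fun l _ => ?_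
  rw [Finset.mul_sum]
  refine Finset.sum_congr rfl fun s _ => ?_
  rw [Matrix.smul_apply, smul_eq_mul]
  ring

theorem hs2_eq_trace (A : Matrix κ lam ℝ) : hs2 A = (Aᵀ * A).trace := by
  unfold hs2
  rw [Matrix.trace, Finset.sum_comm]
  refine Finset.sum_congr rfl fun s _ => ?_
  rw [Matrix.diag_apply, Matrix.mul_apply]
  refine Finset.sum_congr rfl fun l _ => ?_
  rw [Matrix.transpose_apply, sq]

theorem hs2_pr_le {P : Matrix κ κ ℝ} (hP : IsPr P) (A : Matrix κ lam ℝ) :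
    hs2 (P * A) ≤ hs2 A := by
  have h1 : hs2 ((1 - P) * A) = hs2 A - hs2 (P * A) := by
    rw [hs2_eq_trace, hs2_eq_trace, hs2_eq_trace, transpose_mul, transpose_mul, transpose_sub,
      transpose_one, hP.symm]
    have e1 : Aᵀ * (1 - P) * ((1 - P) * A) = Aᵀ * A - Aᵀ * P * (P * A) := by
      have : (1 - P) * (1 - P) = 1 - P := by
        rw [Matrix.sub_mul, Matrix.mul_sub, Matrix.mul_sub, Matrix.one_mul, Matrix.mul_one,
          Matrix.one_mul, hP.idem, sub_self, sub_zero]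
      calc Aᵀ * (1 - P) * ((1 - P) * A) = Aᵀ * ((1 - P) * (1 - P)) * A := by
            simp only [Matrix.mul_assoc]
        _ = Aᵀ * (1 - P) * A := by rw [this]
        _ = Aᵀ * A - Aᵀ * P * A := by rw [Matrix.mul_sub, Matrix.mul_one, Matrix.sub_mul]
        _ = Aᵀ * A - Aᵀ * (P * P) * A := by rw [hP.idem]
        _ = _ := by simp only [Matrix.mul_assoc]
    rw [e1, trace_sub]
  have := hs2_nonneg ((1 - P) * A)
  linarith

theorem hs2_sub_le (A B : Matrix κ lam ℝ) : hs2 (A - B) ≤ 2 * hs2 A + 2 * hs2 B := by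
  unfold hs2
  simp_rw [Finset.mul_sum]
  rw [← Finset.sum_add_distrib]
  refine Finset.sum_le_sum fun l _ => ?_
  rw [← Finset.sum_add_distrib]
  refine Finset.sum_le_sum fun s _ => ?_
  rw [Matrix.sub_apply]
  nlinarith [sq_nonneg (A l s + B l s)]

end small

section trp

variable {Q : ℕ} [NeZero Q] {α β : Type*} [Fintype α] [DecidableEq α] [Fintype β] [DecidableEq β]

theorem TrP_L {dg : Prop} (X D : ZMod Q → ZMod Q → Matrix β α ℝ)
    (π : ZMod Q → ZMod Q → Matrix β β ℝ)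
    (hπ : ∀ x y, IsPr (π x y)) (hD : ∀ x y, π x y * D x y = D x y) {L N : ℕ} (hL : 0 < L)
    (hN : 0 < N) (hpc : PC2 π L) {μ K KD : ℝ} (hμ : 0 < μ) (hKD : 0 ≤ KD)
    (hK : ∀ q y, ColB (fun x y => (X y x)ᵀ) N K q y)
    (hE : ∑ x, ∑ y, hs2 (D x y) ≤ KD * ∑ x, ∑ y, (π x y).trace) :
    TrP dg X D N μ (μ / 2 * (K ^ 2 * ((N + 2 * L : ℝ) / L) + KD) *
      ∑ x, ∑ y, (π x y).trace) := by
  intro M hM h1 h2
  have h := costL X D π hπ hD hL hN hpc M hM (μ := μ) (K := K) (KD := √KD) (θ := 1 / μ)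
    (by positivity) h1 hK (by rw [Real.sq_sqrt hKD]; exact hE)
  refine h.trans (le_of_eq ?_)
  rw [Real.sq_sqrt hKD]
  congr 1
  field_simp

theorem TrP_R (X D : ZMod Q → ZMod Q → Matrix β α ℝ)
    (π : ZMod Q → ZMod Q → Matrix α α ℝ)
    (hπ : ∀ x y, IsPr (π x y)) (hD : ∀ x y, D x y * π x y = D x y) {L N : ℕ} (hL : 0 < L)
    (hN : 0 < N) (hpc : PC1 π L) {μ K KD : ℝ} (hμ : 0 < μ) (hKD : 0 ≤ KD)
    (hK : ∀ q y, ColB X N K q y)
    (hE : ∑ x, ∑ y, hs2 (D x y) ≤ KD * ∑ x, ∑ y, (π x y).trace) :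
    TrP True X D N μ (μ / 2 * (K ^ 2 * ((N + 2 * L : ℝ) / L) + KD) *
      ∑ x, ∑ y, (π x y).trace) := by
  intro M hM h1 h2
  have h := costR X D π hπ hD hL hN hpc M hM (ξ := K) (K := μ) (KD := √KD) (θ := 1 / μ)
    (by positivity) (fun p q v => bm_op_col X hN hK q p v) (h2 trivial)
    (by rw [Real.sq_sqrt hKD]; exact hE)
  refine h.trans (le_of_eq ?_)
  rw [Real.sq_sqrt hKD]
  congr 1
  field_simp

end trp

section letters

variable {Q : ℕ} [NeZero Q] {κ lam ν : Type*} [Fintype κ] [DecidableEq κ] [Fintype lam]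
  [DecidableEq lam] [Fintype ν] [DecidableEq ν]

/-- compressed letter `c (q - q') F` -/
def DL (c : ℝ) (q q' : ℕ → ZMod Q → ZMod Q → Matrix κ κ ℝ) (F : ZMod Q → ZMod Q → Matrix κ lam ℝ)
    (m : ℕ) (x y : ZMod Q) : Matrix κ lam ℝ := c • ((q m x y - q' m x y) * F x y)

/-- the op-small letter with its projection -/
def PL (c : ℝ) (R : ℕ → ZMod Q → ZMod Q → Matrix κ κ ℝ) (F2 : ZMod Q → ZMod Q → Matrix κ ν ℝ)
    (m : ℕ) (x y : ZMod Q) : Matrix κ ν ℝ := c • (R m x (-y - x) * F2 x y)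

variable {F : ZMod Q → ZMod Q → Matrix κ lam ℝ} {M : ℕ} {δ n n' : ℝ}
  {q q' : ℕ → ZMod Q → ZMod Q → Matrix κ κ ℝ}

theorem DL_colT (h : Ext F M δ n q) (h' : Ext F M δ n' q') (hQ : 2 ^ M ∣ Q) (hδ : 0 ≤ δ)
    {m : ℕ} (hm : m < M) (j : ℕ) {c w : ℝ} (hw : w = |c| * √δ) (p x : ZMod Q) :
    ColB (fun y x => (DL c q q' F (m + 1) x y)ᵀ) (2 ^ (m + j)) (4 * w) p x := by
  have h1 := Ext.colT2 h h' hQ hδ hδ hm j p x c
  have e : |c| * √(8 * (δ + δ)) = 4 * w := by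
    have : 8 * (δ + δ) = 4 ^ 2 * δ := by ring
    rw [this, Real.sqrt_mul (by norm_num), Real.sqrt_sq (by norm_num), hw]
    ring
  rw [e] at h1
  exact h1

theorem move_eq (c : ℝ) (q q' : ℕ → ZMod Q → ZMod Q → Matrix κ κ ℝ)
    (F : ZMod Q → ZMod Q → Matrix κ lam ℝ) (m : ℕ) (x y : ZMod Q) :
    DL c q q' F (m + 1) x y - DL c q q' F m x y =
      c • ((q (m + 1) x y - q m x y) * F x y) + (-c) • ((q' (m + 1) x y - q' m x y) * F x y) := by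
  unfold DL
  rw [← smul_sub, neg_smul, ← sub_eq_add_neg, ← smul_sub, ← Matrix.sub_mul, ← Matrix.sub_mul]
  congr 2
  abel

/-- constant of the box geometry -/
def Fk (k : ℕ) : ℝ := 2 ^ k + 2

theorem geo_le {m j k : ℕ} (hj : j ≤ k) :
    (((2 ^ (m + j) : ℕ) : ℝ) + 2 * ((2 ^ m : ℕ) : ℝ)) / ((2 ^ m : ℕ) : ℝ) ≤ Fk k := by
  have hp : (0 : ℝ) < 2 ^ m := by positivity
  push_cast
  rw [div_le_iff₀ hp, pow_add, Fk]
  have h1 : (2 : ℝ) ^ j ≤ 2 ^ k := pow_le_pow_right₀ (by norm_num) hj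
  nlinarith

theorem Fk_pos (k : ℕ) : 0 < Fk k := by unfold Fk; positivity

theorem tr_move_nonneg (h : Ext F M δ n q) {m : ℕ} (hm : m < M) :
    0 ≤ ∑ x, ∑ y, (q (m + 1) x y - q m x y).trace := by
  refine Finset.sum_nonneg fun x _ => Finset.sum_nonneg fun y _ => ?_
  have hp := IsPr.sub (h.pr (m + 1) x y) (h.pr m x y) (h.mono m hm x y)
  have := hs2_nonneg (q (m + 1) x y - q m x y)
  rwa [hs2_eq_trace, hp.symm, hp.idem] at this

/-- trace price of one piece, row side -/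
theorem piece_L {dg : Prop} (h : Ext F M δ n q) (hQ : 2 ^ M ∣ Q) (hδ : 0 ≤ δ)
    {m : ℕ} (hm : m < M) {j k : ℕ} (hj : j ≤ k) {c w μ : ℝ} (hw : w ^ 2 = c ^ 2 * δ) (hμ : 0 < μ)
    (X : ZMod Q → ZMod Q → Matrix κ lam ℝ)
    (hX : ∀ p x, ColB (fun y x => (X x y)ᵀ) (2 ^ (m + j)) (4 * w) p x) :
    TrP dg X (fun x y => c • ((q (m + 1) x y - q m x y) * F x y)) (2 ^ (m + j)) μ
      (μ / 2 * w ^ 2 * (16 * Fk k + 2) * ∑ x, ∑ y, (q (m + 1) x y - q m x y).trace) := by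
  have hpr : ∀ x y, IsPr (q (m + 1) x y - q m x y) := fun x y =>
    IsPr.sub (h.pr (m + 1) x y) (h.pr m x y) (h.mono m hm x y)
  have ht := tr_move_nonneg h hm
  refine (TrP_L X _ (fun x y => q (m + 1) x y - q m x y) hpr ?_ (L := 2 ^ m) (by positivity)
    (by positivity) (h.pc hQ hm) (μ := μ) (K := 4 * w) (KD := 2 * w ^ 2) hμ (by positivity) hX
    ?_).mono ?_
  · intro x y
    rw [Matrix.mul_smul, ← Matrix.mul_assoc, (hpr x y).idem]
  · simp_rw [hs2_smul, ← Finset.mul_sum]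
    have := mul_le_mul_of_nonneg_left (h.energy hQ hδ hm) (sq_nonneg c)
    calc _ ≤ _ := this
      _ = _ := by rw [hw]; ring
  · refine mul_le_mul_of_nonneg_right ?_ ht
    have hg := geo_le (m := m) hj
    have : (4 * w) ^ 2 * ((((2 ^ (m + j) : ℕ) : ℝ) + 2 * ((2 ^ m : ℕ) : ℝ)) / ((2 ^ m : ℕ) : ℝ)) ≤
        (4 * w) ^ 2 * Fk k := mul_le_mul_of_nonneg_left hg (sq_nonneg _)
    have h2 := mul_le_mul_of_nonneg_left (add_le_add this (le_refl (2 * w ^ 2)))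
      (by positivity : 0 ≤ μ / 2)
    refine le_trans h2 (le_of_eq ?_)
    ring

/-- trace price of one piece, column side -/
theorem piece_R (h : Ext F M δ n q) (hQ : 2 ^ M ∣ Q) (hδ : 0 ≤ δ)
    {m : ℕ} (hm : m < M) {j k : ℕ} (hj : j ≤ k) {c w μ : ℝ} (hw : w ^ 2 = c ^ 2 * δ) (hμ : 0 < μ)
    (X : ZMod Q → ZMod Q → Matrix lam κ ℝ)
    (hX : ∀ p x, ColB X (2 ^ (m + j)) (4 * w) p x) :
    TrP True X (fun y x => (c • ((q (m + 1) x y - q m x y) * F x y))ᵀ) (2 ^ (m + j)) μ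
      (μ / 2 * w ^ 2 * (16 * Fk k + 2) * ∑ x, ∑ y, (q (m + 1) x y - q m x y).trace) := by
  have hpr : ∀ x y, IsPr (q (m + 1) x y - q m x y) := fun x y =>
    IsPr.sub (h.pr (m + 1) x y) (h.pr m x y) (h.mono m hm x y)
  have ht := tr_move_nonneg h hm
  have hsw : ∑ y, ∑ x, (q (m + 1) x y - q m x y).trace =
      ∑ x, ∑ y, (q (m + 1) x y - q m x y).trace := Finset.sum_comm
  refine (TrP_R X _ (fun y x => q (m + 1) x y - q m x y) (fun y x => hpr x y) ?_ (L := 2 ^ m)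
    (by positivity) (by positivity) (h.pc hQ hm) (μ := μ) (K := 4 * w) (KD := 2 * w ^ 2) hμ
    (by positivity) hX ?_).mono ?_
  · intro y x
    rw [Matrix.transpose_smul, Matrix.transpose_mul, (hpr x y).symm, Matrix.smul_mul,
      Matrix.mul_assoc, (hpr x y).idem]
  · rw [Finset.sum_comm, hsw]
    simp_rw [hs2_transpose, hs2_smul, ← Finset.mul_sum]
    have := mul_le_mul_of_nonneg_left (h.energy hQ hδ hm) (sq_nonneg c)
    calc _ ≤ _ := this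
      _ = _ := by rw [hw]; ring
  · rw [hsw]
    refine mul_le_mul_of_nonneg_right ?_ ht
    have hg := geo_le (m := m) hj
    have : (4 * w) ^ 2 * ((((2 ^ (m + j) : ℕ) : ℝ) + 2 * ((2 ^ m : ℕ) : ℝ)) / ((2 ^ m : ℕ) : ℝ)) ≤
        (4 * w) ^ 2 * Fk k := mul_le_mul_of_nonneg_left hg (sq_nonneg _)
    have h2 := mul_le_mul_of_nonneg_left (add_le_add this (le_refl (2 * w ^ 2)))
      (by positivity : 0 ≤ μ / 2)
    refine le_trans h2 (le_of_eq ?_)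
    ring

theorem DL_priceL {dg : Prop} (h : Ext F M δ n q) (h' : Ext F M δ n' q') (hQ : 2 ^ M ∣ Q)
    (hδ : 0 ≤ δ) {m : ℕ} (hm : m < M) {j k : ℕ} (hj : j ≤ k) {c w μ : ℝ} (hw : w = |c| * √δ)
    (hμ : 0 < μ) :
    TrP dg (DL c q q' F (m + 1)) (fun x y => DL c q q' F (m + 1) x y - DL c q q' F m x y)
      (2 ^ (m + j)) μ (μ / 2 * w ^ 2 * (16 * Fk k + 2) *
        (∑ x, ∑ y, (q (m + 1) x y - q m x y).trace +
          ∑ x, ∑ y, (q' (m + 1) x y - q' m x y).trace)) := by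
  have hw2 : w ^ 2 = c ^ 2 * δ := by rw [hw, mul_pow, sq_abs, Real.sq_sqrt hδ]
  have hw3 : w ^ 2 = (-c) ^ 2 * δ := by rw [hw2]; ring
  have hc := fun p x => DL_colT h h' hQ hδ hm j hw p x
  have h1 := piece_L (dg := dg) h hQ hδ hm hj hw2 hμ (DL c q q' F (m + 1)) hc
  have h2 := piece_L (dg := dg) h' hQ hδ hm hj hw3 hμ (DL c q q' F (m + 1)) hc
  have h3 := h1.add h2
  rw [← mul_add] at h3
  simp only [move_eq]
  exact h3

theorem DL_priceR (h : Ext F M δ n q) (h' : Ext F M δ n' q') (hQ : 2 ^ M ∣ Q)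
    (hδ : 0 ≤ δ) {m : ℕ} (hm : m < M) {j k : ℕ} (hj : j ≤ k) {c w μ : ℝ} (hw : w = |c| * √δ)
    (hμ : 0 < μ) :
    TrP True (fun y x => (DL c q q' F (m + 1) x y)ᵀ)
      (fun y x => (DL c q q' F (m + 1) x y)ᵀ - (DL c q q' F m x y)ᵀ)
      (2 ^ (m + j)) μ (μ / 2 * w ^ 2 * (16 * Fk k + 2) *
        (∑ x, ∑ y, (q (m + 1) x y - q m x y).trace +
          ∑ x, ∑ y, (q' (m + 1) x y - q' m x y).trace)) := by
  have hw2 : w ^ 2 = c ^ 2 * δ := by rw [hw, mul_pow, sq_abs, Real.sq_sqrt hδ]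
  have hw3 : w ^ 2 = (-c) ^ 2 * δ := by rw [hw2]; ring
  have hc := fun p x => DL_colT h h' hQ hδ hm j hw p x
  have h1 := piece_R h hQ hδ hm hj hw2 hμ (fun y x => (DL c q q' F (m + 1) x y)ᵀ) hc
  have h2 := piece_R h' hQ hδ hm hj hw3 hμ (fun y x => (DL c q q' F (m + 1) x y)ᵀ) hc
  have h3 := h1.add h2
  rw [← mul_add] at h3
  have e : (fun y x => (DL c q q' F (m + 1) x y)ᵀ - (DL c q q' F m x y)ᵀ) =
      (fun y x => (c • ((q (m + 1) x y - q m x y) * F x y))ᵀ +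
        (-c • ((q' (m + 1) x y - q' m x y) * F x y))ᵀ) := by
    funext y x
    rw [← transpose_sub, move_eq, transpose_add]
  rw [e]
  exact h3

theorem DL_op (h : Ext F M δ n q) (h' : Ext F M δ n' q') (hQ : 2 ^ M ∣ Q)
    (hδ : 0 ≤ δ) {m : ℕ} (hm : m < M) (j : ℕ) {c w : ℝ} (hw : w = |c| * √δ) :
    OpB False (DL c q q' F (m + 1)) (2 ^ (m + j)) (4 * w) :=
  OpB.of_row (by positivity) (fun p x => DL_colT h h' hQ hδ hm j hw p x)

theorem DLt_op (h : Ext F M δ n q) (h' : Ext F M δ n' q') (hQ : 2 ^ M ∣ Q)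
    (hδ : 0 ≤ δ) {m : ℕ} (hm : m < M) (j : ℕ) {c w : ℝ} (hw : w = |c| * √δ) :
    OpB True (fun y x => (DL c q q' F (m + 1) x y)ᵀ) (2 ^ (m + j)) (4 * w) :=
  OpB.of_col (by positivity) (fun p x => DL_colT h h' hQ hδ hm j hw p x)

/-- leaf energy of a compressed letter, both orientations -/
theorem DL_leaf (h : Ext F M δ n q) (h' : Ext F M δ n' q') (hδ : 0 ≤ δ) {c w : ℝ}
    (hw : w = |c| * √δ) :
    EW (phiP lam) (DL c q q' F 0) 1 1 ≤ 8 * w * c ^ 2 * ∑ x, ∑ y, hs2 (F x y) ∧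
    EW (phiP κ) (fun y x => (DL c q q' F 0 x y)ᵀ) 1 1 ≤
      8 * w * c ^ 2 * ∑ x, ∑ y, hs2 (F x y) := by
  have hw0 : 0 ≤ w := by rw [hw]; positivity
  have hw2 : w ^ 2 = c ^ 2 * δ := by rw [hw, mul_pow, sq_abs, Real.sq_sqrt hδ]
  have hT : ∀ x y (v : κ → ℝ), ((DL c q q' F 0 x y)ᵀ *ᵥ v) ⬝ᵥ ((DL c q q' F 0 x y)ᵀ *ᵥ v) ≤
      (2 * w) ^ 2 * (v ⬝ᵥ v) := by
    intro x y v
    have h1 := h.leaf x y v
    have h2 := h'.leaf x y v
    set a := (q 0 x y * F x y)ᵀ *ᵥ v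
    set b := (q' 0 x y * F x y)ᵀ *ᵥ v
    have e : (DL c q q' F 0 x y)ᵀ *ᵥ v = c • (a - b) := by
      unfold DL
      rw [transpose_smul, Matrix.sub_mul, transpose_sub, Matrix.smul_mulVec, Matrix.sub_mulVec]
    have e2 : (c • (a - b)) ⬝ᵥ (c • (a - b)) ≤ c ^ 2 * (2 * (a ⬝ᵥ a) + 2 * (b ⬝ᵥ b)) := by
      rw [smul_dotProduct, dotProduct_smul, smul_eq_mul, smul_eq_mul, ← mul_assoc, ← sq]
      refine mul_le_mul_of_nonneg_left ?_ (sq_nonneg c)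
      simp only [dotProduct, Finset.mul_sum, ← Finset.sum_add_distrib]
      refine Finset.sum_le_sum fun i _ => ?_
      rw [Pi.sub_apply]
      nlinarith [sq_nonneg (a i + b i)]
    rw [e]
    refine e2.trans ?_
    have hc : 0 ≤ c ^ 2 := sq_nonneg c
    calc c ^ 2 * (2 * (a ⬝ᵥ a) + 2 * (b ⬝ᵥ b)) ≤
          c ^ 2 * (2 * (δ * (v ⬝ᵥ v)) + 2 * (δ * (v ⬝ᵥ v))) :=
          mul_le_mul_of_nonneg_left (by linarith) hc
      _ = 4 * (c ^ 2 * δ) * (v ⬝ᵥ v) := by ring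
      _ = _ := by rw [← hw2]; ring
  have hs : ∀ x y, hs2 (DL c q q' F 0 x y) ≤ 4 * c ^ 2 * hs2 (F x y) := by
    intro x y
    unfold DL
    rw [hs2_smul, Matrix.sub_mul]
    have h1 := hs2_sub_le (q 0 x y * F x y) (q' 0 x y * F x y)
    have h2 := hs2_pr_le (h.pr 0 x y) (F x y)
    have h3 := hs2_pr_le (h'.pr 0 x y) (F x y)
    calc c ^ 2 * _ ≤ c ^ 2 * (4 * hs2 (F x y)) :=
          mul_le_mul_of_nonneg_left (by linarith) (sq_nonneg c)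
      _ = _ := by ring
  have h2w : (0 : ℝ) ≤ 2 * w := by positivity
  constructor
  · unfold EW
    rw [Finset.sum_comm, Finset.mul_sum]
    refine Finset.sum_le_sum fun x _ => ?_
    rw [Finset.mul_sum]
    refine Finset.sum_le_sum fun y _ => ?_
    have h1 := leaf_phi (DL c q q' F 0) x y h2w (fun v => op_tr _ (hT x y) v)
    refine h1.trans ?_
    calc 2 * w * hs2 (DL c q q' F 0 x y) ≤ 2 * w * (4 * c ^ 2 * hs2 (F x y)) :=
          mul_le_mul_of_nonneg_left (hs x y) h2w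
      _ = _ := by ring
  · unfold EW
    rw [Finset.mul_sum]
    refine Finset.sum_le_sum fun x _ => ?_
    rw [Finset.mul_sum]
    refine Finset.sum_le_sum fun y _ => ?_
    have h1 := leaf_phi (fun y x => (DL c q q' F 0 x y)ᵀ) y x h2w (fun v => hT x y v)
    refine h1.trans ?_
    simp only [hs2_transpose]
    calc 2 * w * hs2 (DL c q q' F 0 x y) ≤ 2 * w * (4 * c ^ 2 * hs2 (F x y)) :=
          mul_le_mul_of_nonneg_left (hs x y) h2w
      _ = _ := by ring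

end letters

section small_letter

variable {Q : ℕ} [NeZero Q] {κ ν : Type*} [Fintype κ] [DecidableEq κ] [Fintype ν] [DecidableEq ν]
  {F2 : ZMod Q → ZMod Q → Matrix κ ν ℝ} {M C : ℕ} {τ n : ℝ}
  {q q' R : ℕ → ZMod Q → ZMod Q → Matrix κ κ ℝ}

theorem PL_op (h : RExt F2 M C τ n q q' R) (hτ : 0 ≤ τ)
    (hF2 : ∀ x x0 (v : κ → ℝ), ((F2 x x0)ᵀ *ᵥ v) ⬝ᵥ ((F2 x x0)ᵀ *ᵥ v) ≤ τ ^ 2 * (v ⬝ᵥ v))
    (m : ℕ) {N : ℕ} (hN : 0 < N) (c : ℝ) : OpB True (PL c R F2 m) N (|c| * τ) :=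
  OpB.of_col hN (fun p x => h.col hτ hF2 m N p x c)

theorem PLt_op (h : RExt F2 M C τ n q q' R) (hτ : 0 ≤ τ)
    (hF2 : ∀ x x0 (v : κ → ℝ), ((F2 x x0)ᵀ *ᵥ v) ⬝ᵥ ((F2 x x0)ᵀ *ᵥ v) ≤ τ ^ 2 * (v ⬝ᵥ v))
    (m : ℕ) {N : ℕ} (hN : 0 < N) (c : ℝ) :
    OpB True (fun y x => (PL c R F2 m x y)ᵀ) N (|c| * τ) :=
  OpB.of_col hN (fun p x => h.colT hτ hF2 m N p x c)

theorem moveP_eq (c : ℝ) (R : ℕ → ZMod Q → ZMod Q → Matrix κ κ ℝ)
    (F2 : ZMod Q → ZMod Q → Matrix κ ν ℝ) (m : ℕ) (x y : ZMod Q) :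
    PL c R F2 (m + 1) x y - PL c R F2 m x y =
      (-c) • ((R m x (-y - x) - R (m + 1) x (-y - x)) * F2 x y) := by
  unfold PL
  rw [neg_smul, ← smul_neg, ← smul_sub, ← Matrix.sub_mul, ← Matrix.neg_mul, neg_sub]

theorem PL_prsub (h : RExt F2 M C τ n q q' R) {m : ℕ} (hm : m < M) (x z : ZMod Q) :
    IsPr (R m x z - R (m + 1) x z) :=
  IsPr.sub (h.pr m x z) (h.pr (m + 1) x z) (h.mono m hm x z)

theorem PL_trnn (h : RExt F2 M C τ n q q' R) {m : ℕ} (hm : m < M) :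
    0 ≤ ∑ x, ∑ x0, (R m x (-x0 - x) - R (m + 1) x (-x0 - x)).trace := by
  refine Finset.sum_nonneg fun x _ => Finset.sum_nonneg fun y _ => ?_
  have hp := PL_prsub h hm x (-y - x)
  have := hs2_nonneg (R m x (-y - x) - R (m + 1) x (-y - x))
  rwa [hs2_eq_trace, hp.symm, hp.idem] at this

theorem PL_priceL {dg : Prop} (h : RExt F2 M C τ n q q' R) (hQ : 2 ^ M ∣ Q) (hτ : 0 ≤ τ)
    (hF2 : ∀ x x0 (v : κ → ℝ), ((F2 x x0)ᵀ *ᵥ v) ⬝ᵥ ((F2 x x0)ᵀ *ᵥ v) ≤ τ ^ 2 * (v ⬝ᵥ v))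
    {m : ℕ} (hm : m < M) {j k : ℕ} (hj : j ≤ k) {c w μ : ℝ} (hw : w = |c| * τ) (hμ : 0 < μ) :
    TrP dg (PL c R F2 (m + 1)) (fun x y => PL c R F2 (m + 1) x y - PL c R F2 m x y)
      (2 ^ (m + j)) μ (μ / 2 * w ^ 2 * (16 * Fk k + 2) *
        ∑ x, ∑ x0, (R m x (-x0 - x) - R (m + 1) x (-x0 - x)).trace) := by
  have hw2 : w ^ 2 = c ^ 2 * τ ^ 2 := by rw [hw, mul_pow, sq_abs]
  have ht := PL_trnn h hm
  simp only [moveP_eq]
  refine (TrP_L (PL c R F2 (m + 1)) _ (fun x y => R m x (-y - x) - R (m + 1) x (-y - x))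
    (fun x y => PL_prsub h hm x _) ?_ (L := 2 ^ m) (by positivity)
    (by positivity) (h.pc hQ hm) (μ := μ) (K := w) (KD := w ^ 2) hμ (by positivity) ?_
    ?_).mono ?_
  · intro x y
    rw [Matrix.mul_smul, ← Matrix.mul_assoc, (PL_prsub h hm x _).idem]
  · intro p x
    have := h.colT hτ hF2 (m + 1) (2 ^ (m + j)) p x c
    rw [← hw] at this
    exact this
  · simp_rw [hs2_smul, ← Finset.mul_sum]
    have := mul_le_mul_of_nonneg_left (h.energy hτ hF2 hm) (sq_nonneg (-c))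
    calc _ ≤ _ := this
      _ = _ := by rw [hw2]; ring
  · refine mul_le_mul_of_nonneg_right ?_ ht
    have hg := geo_le (m := m) hj
    have h0 := Fk_pos k
    have : w ^ 2 * ((((2 ^ (m + j) : ℕ) : ℝ) + 2 * ((2 ^ m : ℕ) : ℝ)) / ((2 ^ m : ℕ) : ℝ)) ≤
        w ^ 2 * Fk k := mul_le_mul_of_nonneg_left hg (sq_nonneg _)
    have h3 : w ^ 2 * Fk k + w ^ 2 ≤ w ^ 2 * (16 * Fk k + 2) := by nlinarith [sq_nonneg w]
    calc _ ≤ μ / 2 * (w ^ 2 * Fk k + w ^ 2) :=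
          mul_le_mul_of_nonneg_left (add_le_add this (le_refl (w ^ 2))) (by positivity)
      _ ≤ μ / 2 * (w ^ 2 * (16 * Fk k + 2)) := mul_le_mul_of_nonneg_left h3 (by positivity)
      _ = _ := by ring

theorem PL_priceR (h : RExt F2 M C τ n q q' R) (hQ : 2 ^ M ∣ Q) (hτ : 0 ≤ τ)
    (hF2 : ∀ x x0 (v : κ → ℝ), ((F2 x x0)ᵀ *ᵥ v) ⬝ᵥ ((F2 x x0)ᵀ *ᵥ v) ≤ τ ^ 2 * (v ⬝ᵥ v))
    {m : ℕ} (hm : m < M) {j k : ℕ} (hj : j ≤ k) {c w μ : ℝ} (hw : w = |c| * τ) (hμ : 0 < μ) :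
    TrP True (fun y x => (PL c R F2 (m + 1) x y)ᵀ)
      (fun y x => (PL c R F2 (m + 1) x y)ᵀ - (PL c R F2 m x y)ᵀ)
      (2 ^ (m + j)) μ (μ / 2 * w ^ 2 * (16 * Fk k + 2) *
        ∑ x, ∑ x0, (R m x (-x0 - x) - R (m + 1) x (-x0 - x)).trace) := by
  have hw2 : w ^ 2 = c ^ 2 * τ ^ 2 := by rw [hw, mul_pow, sq_abs]
  have ht := PL_trnn h hm
  have hsw : ∑ x0, ∑ x, (R m x (-x0 - x) - R (m + 1) x (-x0 - x)).trace =
      ∑ x, ∑ x0, (R m x (-x0 - x) - R (m + 1) x (-x0 - x)).trace := Finset.sum_comm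
  have e : (fun y x => (PL c R F2 (m + 1) x y)ᵀ - (PL c R F2 m x y)ᵀ) =
      (fun y x => ((-c) • ((R m x (-y - x) - R (m + 1) x (-y - x)) * F2 x y))ᵀ) := by
    funext y x
    rw [← transpose_sub, moveP_eq]
  rw [e]
  refine (TrP_R (fun y x => (PL c R F2 (m + 1) x y)ᵀ) _
    (fun y x => R m x (-y - x) - R (m + 1) x (-y - x))
    (fun y x => PL_prsub h hm x _) ?_ (L := 2 ^ m) (by positivity)
    (by positivity) (h.pc hQ hm) (μ := μ) (K := w) (KD := w ^ 2) hμ (by positivity) ?_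
    ?_).mono ?_
  · intro y x
    rw [Matrix.transpose_smul, Matrix.transpose_mul, (PL_prsub h hm x _).symm, Matrix.smul_mul,
      Matrix.mul_assoc, (PL_prsub h hm x _).idem]
  · intro p x
    have := h.colT hτ hF2 (m + 1) (2 ^ (m + j)) p x c
    rw [← hw] at this
    exact this
  · rw [Finset.sum_comm, hsw]
    simp_rw [hs2_transpose, hs2_smul, ← Finset.mul_sum]
    have := mul_le_mul_of_nonneg_left (h.energy hτ hF2 hm) (sq_nonneg (-c))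
    calc _ ≤ _ := this
      _ = _ := by rw [hw2]; ring
  · rw [hsw]
    refine mul_le_mul_of_nonneg_right ?_ ht
    have hg := geo_le (m := m) hj
    have h0 := Fk_pos k
    have : w ^ 2 * ((((2 ^ (m + j) : ℕ) : ℝ) + 2 * ((2 ^ m : ℕ) : ℝ)) / ((2 ^ m : ℕ) : ℝ)) ≤
        w ^ 2 * Fk k := mul_le_mul_of_nonneg_left hg (sq_nonneg _)
    have h3 : w ^ 2 * Fk k + w ^ 2 ≤ w ^ 2 * (16 * Fk k + 2) := by nlinarith [sq_nonneg w]
    calc _ ≤ μ / 2 * (w ^ 2 * Fk k + w ^ 2) :=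
          mul_le_mul_of_nonneg_left (add_le_add this (le_refl (w ^ 2))) (by positivity)
      _ ≤ μ / 2 * (w ^ 2 * (16 * Fk k + 2)) := mul_le_mul_of_nonneg_left h3 (by positivity)
      _ = _ := by ring

theorem PL_leaf (h : RExt F2 M C τ n q q' R) (hτ : 0 ≤ τ)
    (hF2 : ∀ x x0 (v : κ → ℝ), ((F2 x x0)ᵀ *ᵥ v) ⬝ᵥ ((F2 x x0)ᵀ *ᵥ v) ≤ τ ^ 2 * (v ⬝ᵥ v))
    {c w : ℝ} (hw : w = |c| * τ) :
    EW (phiP ν) (PL c R F2 0) 1 1 ≤ w ^ 3 * n ∧
    EW (phiP κ) (fun y x => (PL c R F2 0 x y)ᵀ) 1 1 ≤ w ^ 3 * n := by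
  have hw0 : 0 ≤ w := by rw [hw]; positivity
  have hw2 : w ^ 2 = c ^ 2 * τ ^ 2 := by rw [hw, mul_pow, sq_abs]
  have hT : ∀ x y (v : κ → ℝ), ((PL c R F2 0 x y)ᵀ *ᵥ v) ⬝ᵥ ((PL c R F2 0 x y)ᵀ *ᵥ v) ≤
      w ^ 2 * (v ⬝ᵥ v) := by
    intro x y v
    have h1 := hF2 x y (R 0 x (-y - x) *ᵥ v)
    have hR := h.pr 0 x (-y - x)
    have h2 : (R 0 x (-y - x) *ᵥ v) ⬝ᵥ (R 0 x (-y - x) *ᵥ v) ≤ v ⬝ᵥ v := by
      have e1 : (R 0 x (-y - x) *ᵥ v) ⬝ᵥ (R 0 x (-y - x) *ᵥ v) =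
          v ⬝ᵥ (R 0 x (-y - x) *ᵥ v) := by
        rw [Matrix.dotProduct_mulVec, Matrix.vecMul_mulVec, hR.symm, hR.idem, ← Matrix.dotProduct_mulVec]
      have e2 := dot_self_nonneg (v - R 0 x (-y - x) *ᵥ v)
      rw [sub_dotProduct, dotProduct_sub, dotProduct_sub, dotProduct_comm (R 0 x (-y - x) *ᵥ v) v,
        e1] at e2
      linarith
    have e : (PL c R F2 0 x y)ᵀ *ᵥ v = c • ((F2 x y)ᵀ *ᵥ (R 0 x (-y - x) *ᵥ v)) := by
      unfold PL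
      rw [transpose_smul, transpose_mul, hR.symm, Matrix.smul_mulVec, Matrix.mulVec_mulVec]
    rw [e, smul_dotProduct, dotProduct_smul, smul_eq_mul, smul_eq_mul, ← mul_assoc, ← sq, hw2]
    have hc : 0 ≤ c ^ 2 := sq_nonneg c
    have ht : 0 ≤ τ ^ 2 := sq_nonneg τ
    calc c ^ 2 * _ ≤ c ^ 2 * (τ ^ 2 * (v ⬝ᵥ v)) :=
          mul_le_mul_of_nonneg_left (h1.trans (mul_le_mul_of_nonneg_left h2 ht)) hc
      _ = _ := by ring
  have hsum : ∑ x, ∑ y, w * hs2 (PL c R F2 0 x y) ≤ w ^ 3 * n := by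
    unfold PL
    simp_rw [hs2_smul, ← mul_assoc, ← Finset.mul_sum]
    have := mul_le_mul_of_nonneg_left h.leaf (by positivity : 0 ≤ w * c ^ 2)
    calc _ ≤ _ := this
      _ = w * (c ^ 2 * τ ^ 2) * n := by ring
      _ = _ := by rw [← hw2]; ring
  constructor
  · refine le_trans ?_ hsum
    unfold EW
    rw [Finset.sum_comm]
    exact Finset.sum_le_sum fun x _ => Finset.sum_le_sum fun y _ =>
      leaf_phi (PL c R F2 0) x y hw0 (fun v => op_tr _ (hT x y) v)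
  · refine le_trans ?_ hsum
    unfold EW
    refine Finset.sum_le_sum fun x _ => Finset.sum_le_sum fun y _ => ?_
    have h1 := leaf_phi (fun y x => (PL c R F2 0 x y)ᵀ) y x hw0 (fun v => hT x y v)
    simp only [hs2_transpose] at h1
    exact h1

end small_letter

section word

variable {Q : ℕ} [NeZero Q] {κ0 κ1 κ2 : Type*} [Fintype κ0] [DecidableEq κ0]
  [Fintype κ1] [DecidableEq κ1] [Fintype κ2] [DecidableEq κ2]

theorem tele_cnt {κ lam : Type*} [Fintype κ] [DecidableEq κ] [Fintype lam] [DecidableEq lam]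
    {F : ZMod Q → ZMod Q → Matrix κ lam ℝ} {M : ℕ} {δ n : ℝ}
    {q : ℕ → ZMod Q → ZMod Q → Matrix κ κ ℝ} (h : Ext F M δ n q) :
    ∑ m ∈ range M, ∑ x, ∑ y, (q (m + 1) x y - q m x y).trace ≤ n := by
  refine le_trans (le_of_eq ?_) h.cnt
  rw [Finset.sum_comm]
  refine Finset.sum_congr rfl fun x _ => ?_
  rw [Finset.sum_comm]
  refine Finset.sum_congr rfl fun y _ => ?_
  simp_rw [trace_sub]
  exact Finset.sum_range_sub (fun m => (q m x y).trace) M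

theorem bl_congr {f g : ZMod Q → ℝ} {N : ℕ} {l : ℤ}
    (h : ∀ i ∈ range N, f ((l : ZMod Q) * (N : ZMod Q) + (i : ZMod Q)) =
      g ((l : ZMod Q) * (N : ZMod Q) + (i : ZMod Q))) : bl f N l = bl g N l := by
  unfold bl
  rw [Finset.sum_congr rfl h]

theorem box_letters (F0 : ZMod Q → ZMod Q → Matrix κ0 κ1 ℝ)
    (F1 : ZMod Q → ZMod Q → Matrix κ1 κ2 ℝ) (F2 : ZMod Q → ZMod Q → Matrix κ2 κ0 ℝ)
    {M : ℕ} {l : ℤ} {n τ a b c : ℝ} (habc : a * b * c = 1)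
    {qA qA' : ℕ → ZMod Q → ZMod Q → Matrix κ0 κ0 ℝ}
    {qB qB' R : ℕ → ZMod Q → ZMod Q → Matrix κ2 κ2 ℝ}
    (hB : ∀ m x y, IsPr (qB m x y)) (hB' : ∀ m x y, IsPr (qB' m x y))
    (hR : RExt F2 M (l.natAbs + 4) τ n qB qB' R) {m : ℕ} (hm : m + 1 ≤ M) {i : ℕ}
    (hi : i < 2 ^ m) (p0 p1 : ZMod Q) :
    LboxL (fun x y => (qA (m + 1) x y - qA' (m + 1) x y) * F0 x y)
      (fun x y => F1 x y * (qB (m + 1) y x - qB' (m + 1) y x)) F2 (2 ^ m) p0 p1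
        (((l : ZMod Q) * ((2 ^ m : ℕ) : ZMod Q) + (i : ZMod Q)) - p0 - p1) =
    LboxL (DL a qA qA' F0 (m + 1))
      (fun x y => (DL b qB qB' (fun x y => (F1 y x)ᵀ) (m + 1) y x)ᵀ) (PL c R F2 (m + 1)) (2 ^ m)
        p0 p1 (((l : ZMod Q) * ((2 ^ m : ℕ) : ZMod Q) + (i : ZMod Q)) - p0 - p1) := by
  have h1 := LboxL_insert (fun x y => (qA (m + 1) x y - qA' (m + 1) x y) * F0 x y) F1 F2
    (fun x y => qB (m + 1) x y - qB' (m + 1) x y) (R (m + 1)) (2 ^ m) p0 p1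
    (((l : ZMod Q) * ((2 ^ m : ℕ) : ZMod Q) + (i : ZMod Q)) - p0 - p1) a b c habc (by
      intro i0 i1 i2
      obtain ⟨t, ht, he⟩ := box_nbr l i hi i0 i1 i2 p0 p1
      have h2 := hR.nbr (m + 1) hm
        (((l : ZMod Q) * ((2 ^ m : ℕ) : ZMod Q) + (i : ZMod Q)) - p0 - p1 +
          ((i2 : ℕ) : ZMod Q))
        (-(p0 + ((i0 : ℕ) : ZMod Q)) -
          (((l : ZMod Q) * ((2 ^ m : ℕ) : ZMod Q) + (i : ZMod Q)) - p0 - p1 +
            ((i2 : ℕ) : ZMod Q))) t ht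
      rw [← he] at h2
      exact h2)
  rw [← h1]
  have e1 : (fun x y => b • (F1 x y * (qB (m + 1) y x - qB' (m + 1) y x))) =
      (fun x y => (DL b qB qB' (fun x y => (F1 y x)ᵀ) (m + 1) y x)ᵀ) := by
    funext x y
    simp only [DL]
    rw [transpose_smul, transpose_mul, transpose_transpose, transpose_sub,
      (hB (m + 1) y x).symm, (hB' (m + 1) y x).symm]
  rw [e1]
  rfl

/-- constant of one word -/
noncomputable def Cw (k : ℕ) : ℝ :=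
  (Real.pi / 2) * ((8 + 64 * k) * 16 + (12 + 192 * k) * (6 * (16 * Fk k + 2)))

set_option maxHeartbeats 1600000 in
/-- **one word**: two compressed letters, op-small third letter with its low rank projection -/
theorem word_sum (F0 : ZMod Q → ZMod Q → Matrix κ0 κ1 ℝ)
    (F1 : ZMod Q → ZMod Q → Matrix κ1 κ2 ℝ) (F2 : ZMod Q → ZMod Q → Matrix κ2 κ0 ℝ)
    {M : ℕ} (hQ : 2 ^ M ∣ Q) (k : ℕ) (l : ℤ) (hk : 2 * |l| + 20 ≤ 2 ^ k)
    {δA δB nA nA' nB nB' nR τ : ℝ} (hδA : 0 < δA) (hδB : 0 < δB) (hτ : 0 < τ)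
    {qA qA' : ℕ → ZMod Q → ZMod Q → Matrix κ0 κ0 ℝ}
    (hA : Ext F0 M δA nA qA) (hA' : Ext F0 M δA nA' qA')
    {qB qB' R : ℕ → ZMod Q → ZMod Q → Matrix κ2 κ2 ℝ}
    (hB : Ext (fun x y => (F1 y x)ᵀ) M δB nB qB) (hB' : Ext (fun x y => (F1 y x)ᵀ) M δB nB' qB')
    (hR : RExt F2 M (l.natAbs + 4) τ nR qB qB' R)
    (hF2 : ∀ x x0 (v : κ2 → ℝ), ((F2 x x0)ᵀ *ᵥ v) ⬝ᵥ ((F2 x x0)ᵀ *ᵥ v) ≤ τ ^ 2 * (v ⬝ᵥ v)) :
    ∑ m ∈ range M, bl (fun n => ∑ p0 : ZMod Q, ∑ p1 : ZMod Q,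
        |LboxL (fun x y => (qA (m + 1) x y - qA' (m + 1) x y) * F0 x y)
          (fun x y => F1 x y * (qB (m + 1) y x - qB' (m + 1) y x)) F2 (2 ^ m) p0 p1
            (n - p0 - p1)|) (2 ^ m) l ≤
      Cw k * (τ * √δA * √δB) * ((∑ x, ∑ y, hs2 (F0 x y)) / δA + (∑ x, ∑ y, hs2 (F1 x y)) / δB +
        nA + nA' + nB + nB' + nR) := by
  set W3 : ℝ := τ * √δA * √δB with hW3
  have hsA : 0 < √δA := Real.sqrt_pos.2 hδA
  have hsB : 0 < √δB := Real.sqrt_pos.2 hδB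
  have hW3p : 0 < W3 := by positivity
  set w : ℝ := W3 ^ ((1 : ℝ) / 3) with hw
  have hwp : 0 < w := Real.rpow_pos_of_pos hW3p _
  have hw3 : w ^ 3 = W3 := by
    rw [hw, ← Real.rpow_natCast, ← Real.rpow_mul hW3p.le]
    norm_num
  set a : ℝ := w / √δA with ha
  set b : ℝ := w / √δB with hb
  set c : ℝ := w / τ with hc
  have hap : 0 < a := by positivity
  have hbp : 0 < b := by positivity
  have hcp : 0 < c := by positivity
  have wa : w = |a| * √δA := by rw [abs_of_pos hap, ha]; field_simp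
  have wb : w = |b| * √δB := by rw [abs_of_pos hbp, hb]; field_simp
  have wc : w = |c| * τ := by rw [abs_of_pos hcp, hc]; field_simp
  have habc : a * b * c = 1 := by
    rw [ha, hb, hc]
    have : w / √δA * (w / √δB) * (w / τ) = w ^ 3 / (τ * √δA * √δB) := by field_simp
    rw [this, hw3, hW3]
    exact div_self (by positivity)
  have wa2 : w * a ^ 2 = W3 / δA := by
    rw [ha, div_pow, Real.sq_sqrt hδA.le, ← hw3]; ring
  have wb2 : w * b ^ 2 = W3 / δB := by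
    rw [hb, div_pow, Real.sq_sqrt hδB.le, ← hw3]; ring
  set G : ZMod Q → ZMod Q → Matrix κ2 κ1 ℝ := fun x y => (F1 y x)ᵀ with hG
  set A := DL a qA qA' F0 with hAdef
  set B : ℕ → ZMod Q → ZMod Q → Matrix κ1 κ2 ℝ := fun m x y => (DL b qB qB' G m y x)ᵀ with hBdef
  set P := PL c R F2 with hPdef
  -- the letters of the box sum
  have hlet : ∀ m ∈ range M, bl (fun n => ∑ p0 : ZMod Q, ∑ p1 : ZMod Q,
        |LboxL (fun x y => (qA (m + 1) x y - qA' (m + 1) x y) * F0 x y)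
          (fun x y => F1 x y * (qB (m + 1) y x - qB' (m + 1) y x)) F2 (2 ^ m) p0 p1
            (n - p0 - p1)|) (2 ^ m) l =
      bl (fun n => ∑ p0 : ZMod Q, ∑ p1 : ZMod Q,
        |LboxL (A (m + 1)) (B (m + 1)) (P (m + 1)) (2 ^ (0 + m)) p0 p1 (n - p0 - p1)|)
          (2 ^ (0 + m)) l := by
    intro m hm
    rw [zero_add]
    refine bl_congr fun i hi => ?_
    refine Finset.sum_congr rfl fun p0 _ => Finset.sum_congr rfl fun p1 _ => ?_
    exact congrArg abs (box_letters F0 F1 F2 habc hB.pr hB'.pr hR (Finset.mem_range.1 hm)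
      (Finset.mem_range.1 hi) p0 p1)
  rw [Finset.sum_congr rfl hlet]
  refine (box_sum_from A B P k 0 M l hk).trans ?_
  -- prices
  set μ : ℝ := 6 * w with hμ
  have hμp : 0 < μ := by positivity
  set Pc : ℝ := μ / 2 * w ^ 2 * (16 * Fk k + 2) with hPc
  have hFk := Fk_pos k
  have hPcp : 0 ≤ Pc := by positivity
  set tA : ℕ → ℝ := fun m => ∑ x, ∑ y, (qA (m + 1) x y - qA m x y).trace +
    ∑ x, ∑ y, (qA' (m + 1) x y - qA' m x y).trace with htA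
  set tB : ℕ → ℝ := fun m => ∑ x, ∑ y, (qB (m + 1) x y - qB m x y).trace +
    ∑ x, ∑ y, (qB' (m + 1) x y - qB' m x y).trace with htB
  set tR : ℕ → ℝ := fun m => ∑ x, ∑ x0, (R m x (-x0 - x) - R (m + 1) x (-x0 - x)).trace with htR
  have sA : ∑ m ∈ range M, tA m ≤ nA + nA' := by
    rw [htA, Finset.sum_add_distrib]
    exact add_le_add (tele_cnt hA) (tele_cnt hA')
  have sB : ∑ m ∈ range M, tB m ≤ nB + nB' := by
    rw [htB, Finset.sum_add_distrib]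
    exact add_le_add (tele_cnt hB) (tele_cnt hB')
  have sR : ∑ m ∈ range M, tR m ≤ nR := hR.cnt'
  have nnA : 0 ≤ nA := le_trans (Finset.sum_nonneg fun m hm => tr_move_nonneg hA
    (Finset.mem_range.1 hm)) (tele_cnt hA)
  have nnA' : 0 ≤ nA' := le_trans (Finset.sum_nonneg fun m hm => tr_move_nonneg hA'
    (Finset.mem_range.1 hm)) (tele_cnt hA')
  have nnB : 0 ≤ nB := le_trans (Finset.sum_nonneg fun m hm => tr_move_nonneg hB
    (Finset.mem_range.1 hm)) (tele_cnt hB)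
  have nnB' : 0 ≤ nB' := le_trans (Finset.sum_nonneg fun m hm => tr_move_nonneg hB'
    (Finset.mem_range.1 hm)) (tele_cnt hB')
  have nnR : 0 ≤ nR := le_trans (Finset.sum_nonneg fun m hm => PL_trnn hR
    (Finset.mem_range.1 hm)) sR
  -- vertex 1
  have v1 := MSf_price (dg := False) A (DL b qB qB' G) k M (KX := 4 * w) (KZ := 4 * w) (μ := μ)
    (fun m => Pc * tA m) (fun m => Pc * tB m) (by rw [hμ]; nlinarith [sq_nonneg w])
    (fun m hm j _ => DL_op hA hA' hQ hδA.le (Finset.mem_range.1 hm) j wa)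
    (fun m hm j _ => DL_op hB hB' hQ hδB.le (Finset.mem_range.1 hm) j wb)
    (fun m hm j hj => DL_priceL hA hA' hQ hδA.le (Finset.mem_range.1 hm) hj wa hμp)
    (fun m hm j hj => DL_priceL hB hB' hQ hδB.le (Finset.mem_range.1 hm) hj wb hμp)
  -- vertex 2
  have v2 := MSf_price (dg := True) B (fun m x y => (P m y x)ᵀ) k M (KX := 4 * w) (KZ := w)
    (μ := μ) (fun m => Pc * tB m) (fun m => Pc * tR m) (by rw [hμ]; nlinarith [sq_nonneg w])
    (fun m hm j _ => DLt_op hB hB' hQ hδB.le (Finset.mem_range.1 hm) j wb)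
    (fun m hm j _ => by
      have := PLt_op hR hτ.le hF2 (m + 1) (N := 2 ^ (m + j)) (by positivity) c
      rw [← wc] at this
      exact this)
    (fun m hm j hj => DL_priceR hB hB' hQ hδB.le (Finset.mem_range.1 hm) hj wb hμp)
    (fun m hm j hj => PL_priceR hR hQ hτ.le hF2 (Finset.mem_range.1 hm) hj wc hμp)
  -- vertex 0
  have v0 := MSf_price (dg := True) P (fun m x y => (A m y x)ᵀ) k M (KX := w) (KZ := 4 * w)
    (μ := μ) (fun m => Pc * tR m) (fun m => Pc * tA m) (by rw [hμ]; nlinarith [sq_nonneg w])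
    (fun m hm j _ => by
      have := PL_op hR hτ.le hF2 (m + 1) (N := 2 ^ (m + j)) (by positivity) c
      rw [← wc] at this
      exact this)
    (fun m hm j _ => DLt_op hA hA' hQ hδA.le (Finset.mem_range.1 hm) j wa)
    (fun m hm j hj => PL_priceL hR hQ hτ.le hF2 (Finset.mem_range.1 hm) hj wc hμp)
    (fun m hm j hj => DL_priceR hA hA' hQ hδA.le (Finset.mem_range.1 hm) hj wa hμp)
  have eB : (fun (m : ℕ) (x y : ZMod Q) => (B m y x)ᵀ) = DL b qB qB' G := by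
    funext m x y
    exact transpose_transpose _
  rw [eB]
  -- leaf energies
  obtain ⟨lA1, lA2⟩ := DL_leaf hA hA' hδA.le wa
  obtain ⟨lB1, lB2⟩ := DL_leaf hB hB' hδB.le wb
  obtain ⟨lP1, lP2⟩ := PL_leaf hR hτ.le hF2 wc
  have sG : ∑ x, ∑ y, hs2 (G x y) = ∑ x, ∑ y, hs2 (F1 x y) := by
    simp only [hG, hs2_transpose]
    rw [Finset.sum_comm]
  set a2 := ∑ x, ∑ y, hs2 (F0 x y) with ha2
  set b2 := ∑ x, ∑ y, hs2 (F1 x y) with hb2
  have ha20 : 0 ≤ a2 := Finset.sum_nonneg fun _ _ => Finset.sum_nonneg fun _ _ => hs2_nonneg _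
  have hb20 : 0 ≤ b2 := Finset.sum_nonneg fun _ _ => Finset.sum_nonneg fun _ _ => hs2_nonneg _
  have qA2 : 8 * w * a ^ 2 * a2 = 8 * W3 * (a2 / δA) := by
    have : 8 * w * a ^ 2 * a2 = 8 * (w * a ^ 2) * a2 := by ring
    rw [this, wa2]; ring
  have qB2 : 8 * w * b ^ 2 * b2 = 8 * W3 * (b2 / δB) := by
    have : 8 * w * b ^ 2 * b2 = 8 * (w * b ^ 2) * b2 := by ring
    rw [this, wb2]; ring
  rw [sG, qB2] at lB1 lB2
  rw [qA2] at lA1 lA2
  rw [hw3] at lP1 lP2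
  have E1 : EE (phiP κ1) (A 0) (DL b qB qB' G 0) 1 ≤ 8 * W3 * (a2 / δA) + 8 * W3 * (b2 / δB) :=
    add_le_add lA1 lB1
  have E2 : EE (phiP κ2) (B 0) (fun x y => (P 0 y x)ᵀ) 1 ≤ 8 * W3 * (b2 / δB) + W3 * nR :=
    add_le_add lB2 lP2
  have E0 : EE (phiP κ0) (P 0) (fun x y => (A 0 y x)ᵀ) 1 ≤ W3 * nR + 8 * W3 * (a2 / δA) :=
    add_le_add lP1 lA2
  have S1 : ∑ m ∈ range M, (Pc * tA m + Pc * tB m) ≤ Pc * (nA + nA' + nB + nB') := by
    rw [Finset.sum_add_distrib, ← Finset.mul_sum, ← Finset.mul_sum, ← mul_add]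
    exact mul_le_mul_of_nonneg_left (by linarith) hPcp
  have S2 : ∑ m ∈ range M, (Pc * tB m + Pc * tR m) ≤ Pc * (nB + nB' + nR) := by
    rw [Finset.sum_add_distrib, ← Finset.mul_sum, ← Finset.mul_sum, ← mul_add]
    exact mul_le_mul_of_nonneg_left (by linarith) hPcp
  have S0 : ∑ m ∈ range M, (Pc * tR m + Pc * tA m) ≤ Pc * (nA + nA' + nR) := by
    rw [Finset.sum_add_distrib, ← Finset.mul_sum, ← Finset.mul_sum, ← mul_add]
    exact mul_le_mul_of_nonneg_left (by linarith) hPcp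
  have hk0 : (0 : ℝ) ≤ k := Nat.cast_nonneg k
  set T : ℝ := a2 / δA + b2 / δB + nA + nA' + nB + nB' + nR with hT
  have ta : 0 ≤ a2 / δA := by positivity
  have tb : 0 ≤ b2 / δB := by positivity
  have hE : EE (phiP κ1) (A 0) (DL b qB qB' G 0) 1 + EE (phiP κ2) (B 0) (fun x y => (P 0 y x)ᵀ) 1 +
      EE (phiP κ0) (P 0) (fun x y => (A 0 y x)ᵀ) 1 ≤ 16 * (W3 * T) := by
    have h1 : W3 * (a2 / δA) + W3 * (b2 / δB) + W3 * nR ≤ W3 * T := by
      rw [← mul_add, ← mul_add]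
      exact mul_le_mul_of_nonneg_left (by rw [hT]; linarith) hW3p.le
    have h2 : 0 ≤ W3 * nR := by positivity
    linarith
  have hPc2 : Pc = 3 * W3 * (16 * Fk k + 2) := by
    rw [hPc, hμ, ← hw3]; ring
  have hS : ∑ m ∈ range M, (Pc * tA m + Pc * tB m) + ∑ m ∈ range M, (Pc * tB m + Pc * tR m) +
      ∑ m ∈ range M, (Pc * tR m + Pc * tA m) ≤ 6 * (16 * Fk k + 2) * (W3 * T) := by
    have h1 : Pc * (nA + nA' + nB + nB') + Pc * (nB + nB' + nR) + Pc * (nA + nA' + nR) ≤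
        2 * Pc * T := by
      have : Pc * (nA + nA' + nB + nB') + Pc * (nB + nB' + nR) + Pc * (nA + nA' + nR) =
          2 * Pc * (nA + nA' + nB + nB' + nR) := by ring
      rw [this]
      exact mul_le_mul_of_nonneg_left (by rw [hT]; linarith) (by positivity)
    have h2 : 2 * Pc * T = 6 * (16 * Fk k + 2) * (W3 * T) := by rw [hPc2]; ring
    linarith
  have hc1 : (0 : ℝ) ≤ 8 + 64 * k := by positivity
  have hc2 : (0 : ℝ) ≤ 12 + 192 * k := by positivity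
  have m1 := mul_le_mul_of_nonneg_left hE hc1
  have m2 := mul_le_mul_of_nonneg_left hS hc2
  have fin : MSf A (DL b qB qB' G) k 0 M + MSf B (fun m x y => (P m y x)ᵀ) k 0 M +
      MSf P (fun m x y => (A m y x)ᵀ) k 0 M ≤
      ((8 + 64 * k) * 16 + (12 + 192 * k) * (6 * (16 * Fk k + 2))) * (W3 * T) := by
    calc _ ≤ (8 + 64 * (k : ℝ)) * (EE (phiP κ1) (A 0) (DL b qB qB' G 0) 1 +
          EE (phiP κ2) (B 0) (fun x y => (P 0 y x)ᵀ) 1 +
          EE (phiP κ0) (P 0) (fun x y => (A 0 y x)ᵀ) 1) +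
        (12 + 192 * (k : ℝ)) * (∑ m ∈ range M, (Pc * tA m + Pc * tB m) +
          ∑ m ∈ range M, (Pc * tB m + Pc * tR m) +
          ∑ m ∈ range M, (Pc * tR m + Pc * tA m)) := by
          linarith [v1, v2, v0]
      _ ≤ (8 + 64 * (k : ℝ)) * (16 * (W3 * T)) +
          (12 + 192 * (k : ℝ)) * (6 * (16 * Fk k + 2) * (W3 * T)) := add_le_add m1 m2
      _ = _ := by ring
  have hpi : (0 : ℝ) ≤ Real.pi / 2 := by positivity
  refine (mul_le_mul_of_nonneg_left fin hpi).trans (le_of_eq ?_)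
  unfold Cw
  ring

end word

end Crest.Agent.R079.PotL
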