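import Crest.Agent.R079.PLF6_377
import Crest.Agent.R079.PLF3_476

/-! R079, labelled corner `(oo-,2+,2+)` in the LINE model, F7: level sum (`cornerL`).
helper377. -/

set_option autoImplicit false
set_option linter.unusedVariables false
set_option linter.unusedSectionVars false

namespace Crest.Agent.R079.PotL

open Matrix Finset Crest.Agent.R072
open scoped MatrixOrder

section

variable {Q : ℕ} [NeZero Q] {κ lam : Type*} [Fintype κ] [DecidableEq κ] [Fintype lam]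
  [DecidableEq lam]

theorem Ext.up {F : ZMod Q → ZMod Q → Matrix κ lam ℝ} {M : ℕ} {δ δ' n n' : ℝ}
    {q : ℕ → ZMod Q → ZMod Q → Matrix κ κ ℝ} (h : Ext F M δ n q) (hd : δ ≤ δ') (hn : n ≤ n') :
    Ext F M δ' n' q :=
  ⟨h.pr, h.cell, h.mono, fun m hm x y v => (h.bnd m hm x y v).trans
    (mul_le_mul_of_nonneg_right (mul_le_mul_of_nonneg_left hd (by positivity))
      (dot_self_nonneg v)), h.cnt.trans hn⟩

/-- the ladder of compressions of one letter, `q 0 = 1` -/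
theorem ladder (F : ZMod Q → ZMod Q → Matrix κ lam ℝ) {M : ℕ} (hQ : 2 ^ M ∣ Q) {a r : ℝ}
    (hr : 0 < r) (ha : 0 < a) (hs : ∑ x, ∑ y, hs2 (F x y) ≤ a) (h0 : ∀ x y, hs2 (F x y) ≤ a / r) :
    ∃ q : ℕ → ℕ → ZMod Q → ZMod Q → Matrix κ κ ℝ, q 0 = (fun _ _ _ => 1) ∧
      ∀ i, Ext F M (a / (r * 2 ^ i)) (r * 2 ^ i) (q i) ∧
        ∑ x, ∑ y, (1 - q i 0 x y).trace ≤ r * 2 ^ i := by
  classical
  have hr' : ∀ i : ℕ, 0 < r * 2 ^ i := fun i => by positivity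
  have h1 : ∀ i, ∃ q : ℕ → ZMod Q → ZMod Q → Matrix κ κ ℝ,
      Ext F M (a / (r * 2 ^ i)) (r * 2 ^ i) q ∧
        ∑ x, ∑ y, (1 - q 0 x y).trace ≤ r * 2 ^ i := by
    intro i
    obtain ⟨q, hq, hc⟩ := exists_ext F hQ (δ := a / (r * 2 ^ i)) (div_pos ha (hr' i))
    have hb : (∑ x, ∑ y, hs2 (F x y)) / (a / (r * 2 ^ i)) ≤ r * 2 ^ i := by
      rw [div_le_iff₀ (div_pos ha (hr' i))]
      refine hs.trans (le_of_eq ?_)
      field_simp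
    exact ⟨q, hq.up le_rfl hb, hc.trans hb⟩
  choose q hq using h1
  refine ⟨fun i => if i = 0 then (fun _ _ _ => 1) else q i, by simp, fun i => ?_⟩
  by_cases hi : i = 0
  · subst hi
    have h2 := ext_one F hQ (δ := a / (r * 2 ^ 0)) (by simpa using h0)
    refine ⟨?_, ?_⟩
    · simp only [if_true]
      exact h2.up le_rfl (hr' 0).le
    · simp only [if_true, sub_self, Matrix.trace_zero, Finset.sum_const_zero]
      exact (hr' 0).le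
  · simp only [if_neg hi]
    exact hq i

theorem sum_hs2_tr (F : ZMod Q → ZMod Q → Matrix κ lam ℝ) :
    ∑ x, ∑ y, hs2 ((F y x)ᵀ) = ∑ x, ∑ y, hs2 (F x y) := by
  rw [Finset.sum_comm]
  refine Finset.sum_congr rfl fun x _ => Finset.sum_congr rfl fun y _ => ?_
  unfold hs2
  rw [Finset.sum_comm]
  rfl

end

section

variable {Q : ℕ} [NeZero Q] {κ0 κ1 κ2 : Type*} [Fintype κ0] [DecidableEq κ0]
  [Fintype κ1] [DecidableEq κ1] [Fintype κ2] [DecidableEq κ2]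

/-- box sum of a word with letters `A m`, `B m` (moving) and `F2` -/
noncomputable def SW (A : ℕ → ZMod Q → ZMod Q → Matrix κ0 κ1 ℝ)
    (B : ℕ → ZMod Q → ZMod Q → Matrix κ1 κ2 ℝ) (F2 : ZMod Q → ZMod Q → Matrix κ2 κ0 ℝ)
    (M : ℕ) (l : ℤ) : ℝ :=
  ∑ m ∈ range M, bl (fun n => ∑ p0 : ZMod Q, ∑ p1 : ZMod Q,
    |LboxL (A (m + 1)) (B (m + 1)) F2 (2 ^ m) p0 p1 (n - p0 - p1)|) (2 ^ m) l

theorem SW_le3 {A A1 A2 A3 : ℕ → ZMod Q → ZMod Q → Matrix κ0 κ1 ℝ}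
    {B B1 B2 B3 : ℕ → ZMod Q → ZMod Q → Matrix κ1 κ2 ℝ}
    {F2 : ZMod Q → ZMod Q → Matrix κ2 κ0 ℝ} {M : ℕ} {l : ℤ}
    (h : ∀ m N p0 p1 p2, LboxL (A m) (B m) F2 N p0 p1 p2 =
      LboxL (A1 m) (B1 m) F2 N p0 p1 p2 + LboxL (A2 m) (B2 m) F2 N p0 p1 p2 +
        LboxL (A3 m) (B3 m) F2 N p0 p1 p2) :
    SW A B F2 M l ≤ SW A1 B1 F2 M l + SW A2 B2 F2 M l + SW A3 B3 F2 M l := by
  unfold SW
  rw [← Finset.sum_add_distrib, ← Finset.sum_add_distrib]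
  refine Finset.sum_le_sum fun m _ => ?_
  rw [← bl_add, ← bl_add]
  refine bl_mono (fun n => ?_) _ _
  rw [← Finset.sum_add_distrib, ← Finset.sum_add_distrib]
  refine Finset.sum_le_sum fun p0 _ => ?_
  rw [← Finset.sum_add_distrib, ← Finset.sum_add_distrib]
  refine Finset.sum_le_sum fun p1 _ => ?_
  rw [h]
  exact abs_add_three _ _ _

theorem SW_mirror (A : ℕ → ZMod Q → ZMod Q → Matrix κ0 κ1 ℝ)
    (B : ℕ → ZMod Q → ZMod Q → Matrix κ1 κ2 ℝ) (F2 : ZMod Q → ZMod Q → Matrix κ2 κ0 ℝ)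
    (M : ℕ) (l : ℤ) :
    SW A B F2 M l = SW (fun m x y => (B m y x)ᵀ) (fun m x y => (A m y x)ᵀ)
      (fun x y => (F2 y x)ᵀ) M l := by
  unfold SW
  refine Finset.sum_congr rfl fun m _ => ?_
  congr 1
  funext n
  exact LboxL_mirror_sum (A (m + 1)) (B (m + 1)) F2 (2 ^ m) n

/-- constant of one word -/
noncomputable def Ck (k : ℕ) (l : ℤ) : ℝ := Cw k * (44 + 8 * (l.natAbs : ℝ))

theorem Cw_nonneg (k : ℕ) : 0 ≤ Cw k := by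
  unfold Cw
  have := Fk_pos k
  have := Real.pi_pos
  positivity

theorem Ck_nonneg (k : ℕ) (l : ℤ) : 0 ≤ Ck k l := mul_nonneg (Cw_nonneg k) (by positivity)

theorem word_fin {F0 : ZMod Q → ZMod Q → Matrix κ0 κ1 ℝ}
    {F1 : ZMod Q → ZMod Q → Matrix κ1 κ2 ℝ} {k : ℕ} {l : ℤ}
    {a2 b2 r τ n X : ℝ} (ha2 : 0 < a2) (hb2 : 0 < b2) (hr : 0 < r) (hτ : 0 < τ)
    (hA : ∑ x, ∑ y, hs2 (F0 x y) ≤ a2) (hB : ∑ x, ∑ y, hs2 (F1 x y) ≤ b2)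
    (hX : X ≤ Cw k * (τ * √(a2 / r) * √(b2 / r)) * ((∑ x, ∑ y, hs2 (F0 x y)) / (a2 / r) +
      (∑ x, ∑ y, hs2 (F1 x y)) / (b2 / r) + n)) (hn : n ≤ (42 + 8 * (l.natAbs : ℝ)) * r) :
    X ≤ Ck k l * (τ * √a2 * √b2) := by
  have h1 : (∑ x, ∑ y, hs2 (F0 x y)) / (a2 / r) ≤ r := by
    rw [div_le_iff₀ (by positivity)]
    calc _ ≤ a2 := hA
      _ = r * (a2 / r) := by field_simp
  have h2 : (∑ x, ∑ y, hs2 (F1 x y)) / (b2 / r) ≤ r := by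
    rw [div_le_iff₀ (by positivity)]
    calc _ ≤ b2 := hB
      _ = r * (b2 / r) := by field_simp
  have h3 : τ * √(a2 / r) * √(b2 / r) = τ * √a2 * √b2 / r := by
    rw [Real.sqrt_div ha2.le, Real.sqrt_div hb2.le]
    have : √r * √r = r := Real.mul_self_sqrt hr.le
    have hs : 0 < √r := Real.sqrt_pos.2 hr
    field_simp
    rw [Real.sq_sqrt hr.le]
  refine hX.trans ?_
  rw [h3]
  have h0 : 0 ≤ Cw k * (τ * √a2 * √b2 / r) := mul_nonneg (Cw_nonneg k) (by positivity)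
  calc _ ≤ Cw k * (τ * √a2 * √b2 / r) * (r + r + (42 + 8 * (l.natAbs : ℝ)) * r) :=
        mul_le_mul_of_nonneg_left (by linarith) h0
    _ = _ := by unfold Ck; field_simp; ring

theorem word_I (F0 : ZMod Q → ZMod Q → Matrix κ0 κ1 ℝ)
    (F1 : ZMod Q → ZMod Q → Matrix κ1 κ2 ℝ) (F2 : ZMod Q → ZMod Q → Matrix κ2 κ0 ℝ)
    {M : ℕ} (hQ : 2 ^ M ∣ Q) (k : ℕ) (l : ℤ) (hk : 2 * |l| + 20 ≤ 2 ^ k)
    {a2 b2 r τ : ℝ} (ha2 : 0 < a2) (hb2 : 0 < b2) (hr : 0 < r) (hτ : 0 < τ)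
    (hA : ∑ x, ∑ y, hs2 (F0 x y) ≤ a2) (hB : ∑ x, ∑ y, hs2 (F1 x y) ≤ b2)
    {q : ℕ → ZMod Q → ZMod Q → Matrix κ0 κ0 ℝ} (hq : Ext F0 M (a2 / r) (2 * r) q)
    {p p' : ℕ → ZMod Q → ZMod Q → Matrix κ2 κ2 ℝ}
    (hp : Ext (fun x y => (F1 y x)ᵀ) M (b2 / r) r p)
    (hp' : Ext (fun x y => (F1 y x)ᵀ) M (b2 / r) (2 * r) p')
    (cp : ∑ x, ∑ y, (1 - p 0 x y).trace ≤ 2 * r) (cp' : ∑ x, ∑ y, (1 - p' 0 x y).trace ≤ 2 * r)
    (hF2 : ∀ x x0 (v : κ2 → ℝ), ((F2 x x0)ᵀ *ᵥ v) ⬝ᵥ ((F2 x x0)ᵀ *ᵥ v) ≤ τ ^ 2 * (v ⬝ᵥ v)) :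
    SW (fun m x y => q m x y * F0 x y) (fun m x y => F1 x y * (p m y x - p' m y x)) F2 M l ≤
      Ck k l * (τ * √a2 * √b2) := by
  obtain ⟨R, hR⟩ := exists_rext F2 hQ (l.natAbs + 4) hτ.le hF2 hp hp' cp cp'
  have hz := ext_zero F0 (M := M) (δ := a2 / r) (by positivity)
  have h := word_sum F0 F1 F2 hQ k l hk (by positivity : 0 < a2 / r) (by positivity : 0 < b2 / r)
    hτ hq hz hp hp' hR hF2
  simp only [sub_zero] at h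
  refine word_fin (n := 2 * r + 0 + r + 2 * r + (2 * ((l.natAbs + 4 : ℕ) : ℝ) + 1) * (2 * (2 * r)))
    ha2 hb2 hr hτ hA hB ?_ ?_
  · refine h.trans (le_of_eq ?_)
    ring
  · push_cast
    linarith

theorem word_last (F0 : ZMod Q → ZMod Q → Matrix κ0 κ1 ℝ)
    (F1 : ZMod Q → ZMod Q → Matrix κ1 κ2 ℝ) (F2 : ZMod Q → ZMod Q → Matrix κ2 κ0 ℝ)
    {M : ℕ} (hQ : 2 ^ M ∣ Q) (k : ℕ) (l : ℤ) (hk : 2 * |l| + 20 ≤ 2 ^ k)
    {a2 b2 r τ : ℝ} (ha2 : 0 < a2) (hb2 : 0 < b2) (hr : 0 < r) (hτ : 0 < τ)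
    (hA : ∑ x, ∑ y, hs2 (F0 x y) ≤ a2) (hB : ∑ x, ∑ y, hs2 (F1 x y) ≤ b2)
    {q : ℕ → ZMod Q → ZMod Q → Matrix κ0 κ0 ℝ} (hq : Ext F0 M (a2 / r) r q)
    {p : ℕ → ZMod Q → ZMod Q → Matrix κ2 κ2 ℝ}
    (hp : Ext (fun x y => (F1 y x)ᵀ) M (b2 / r) r p)
    (hF2 : ∀ x x0 (v : κ2 → ℝ), ((F2 x x0)ᵀ *ᵥ v) ⬝ᵥ ((F2 x x0)ᵀ *ᵥ v) ≤ τ ^ 2 * (v ⬝ᵥ v))
    (hJ : ∑ x, ∑ y, hs2 (F2 x y) ≤ τ ^ 2 * r) :
    SW (fun m x y => q m x y * F0 x y) (fun m x y => F1 x y * p m y x) F2 M l ≤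
      Ck k l * (τ * √a2 * √b2) := by
  have hz := ext_zero F0 (M := M) (δ := a2 / r) (by positivity)
  have hz' := ext_zero (fun x y => (F1 y x)ᵀ) (M := M) (δ := b2 / r) (by positivity)
  have hR := rext_one F2 M (l.natAbs + 4) hr.le hJ p (fun _ _ _ => 0)
  have h := word_sum F0 F1 F2 hQ k l hk (by positivity : 0 < a2 / r) (by positivity : 0 < b2 / r)
    hτ hq hz hp hz' hR hF2
  simp only [sub_zero] at h
  refine word_fin (n := r + 0 + r + 0 + r) ha2 hb2 hr hτ hA hB ?_ ?_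
  · refine h.trans (le_of_eq ?_)
    ring
  · have : 0 ≤ (l.natAbs : ℝ) * r := by positivity
    linarith

theorem word_II (F0 : ZMod Q → ZMod Q → Matrix κ0 κ1 ℝ)
    (F1 : ZMod Q → ZMod Q → Matrix κ1 κ2 ℝ) (F2 : ZMod Q → ZMod Q → Matrix κ2 κ0 ℝ)
    {M : ℕ} (hQ : 2 ^ M ∣ Q) (k : ℕ) (l : ℤ) (hk : 2 * |l| + 20 ≤ 2 ^ k)
    {a2 b2 r τ : ℝ} (ha2 : 0 < a2) (hb2 : 0 < b2) (hr : 0 < r) (hτ : 0 < τ)
    (hA : ∑ x, ∑ y, hs2 (F0 x y) ≤ a2) (hB : ∑ x, ∑ y, hs2 (F1 x y) ≤ b2)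
    {q q' : ℕ → ZMod Q → ZMod Q → Matrix κ0 κ0 ℝ}
    (hq : Ext F0 M (a2 / r) r q) (hq' : Ext F0 M (a2 / r) (2 * r) q')
    (cq : ∑ x, ∑ y, (1 - q 0 x y).trace ≤ 2 * r) (cq' : ∑ x, ∑ y, (1 - q' 0 x y).trace ≤ 2 * r)
    {p : ℕ → ZMod Q → ZMod Q → Matrix κ2 κ2 ℝ}
    (hp : Ext (fun x y => (F1 y x)ᵀ) M (b2 / r) (2 * r) p)
    (hF2 : ∀ x x0 (v : κ2 → ℝ), ((F2 x x0)ᵀ *ᵥ v) ⬝ᵥ ((F2 x x0)ᵀ *ᵥ v) ≤ τ ^ 2 * (v ⬝ᵥ v)) :
    SW (fun m x y => (q m x y - q' m x y) * F0 x y) (fun m x y => F1 x y * p m y x) F2 M l ≤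
      Ck k l * (τ * √a2 * √b2) := by
  have h := word_I (fun x y => (F1 y x)ᵀ) (fun x y => (F0 y x)ᵀ) (fun x y => (F2 y x)ᵀ) hQ k l hk
    hb2 ha2 hr hτ (by rw [sum_hs2_tr]; exact hB) (by rw [sum_hs2_tr]; exact hA) hp
    (p := q) (p' := q') hq hq' cq cq' (fun x x0 v => op_tr _ (hF2 x0 x) v)
  rw [SW_mirror]
  refine le_trans (le_of_eq ?_) (h.trans (le_of_eq (by ring)))
  unfold SW
  refine Finset.sum_congr rfl fun m _ => ?_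
  have e1 : (fun x y : ZMod Q => (F1 y x * p (m + 1) x y)ᵀ) =
      fun x y => p (m + 1) x y * (F1 y x)ᵀ := by
    funext x y
    rw [transpose_mul, (hp.pr (m + 1) x y).symm]
  have e2 : (fun x y : ZMod Q => ((q (m + 1) y x - q' (m + 1) y x) * F0 y x)ᵀ) =
      fun x y => (F0 y x)ᵀ * (q (m + 1) y x - q' (m + 1) y x) := by
    funext x y
    rw [transpose_mul, transpose_sub, (hq.pr (m + 1) y x).symm, (hq'.pr (m + 1) y x).symm]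
  simp only [e1, e2]

/-- **the labelled corner `(oo-,2+,2+)` in the line model.**  `J` = number of dyadic levels between
`r` (`hs2 F0 ≤ a2 / r`, `hs2 F1 ≤ b2 / r` pointwise) and `|F2|² / τ²`. -/
theorem cornerL (F0 : ZMod Q → ZMod Q → Matrix κ0 κ1 ℝ)
    (F1 : ZMod Q → ZMod Q → Matrix κ1 κ2 ℝ) (F2 : ZMod Q → ZMod Q → Matrix κ2 κ0 ℝ)
    {M : ℕ} (hQ : 2 ^ M ∣ Q) (k : ℕ) (l : ℤ) (hk : 2 * |l| + 20 ≤ 2 ^ k) (J : ℕ)
    {a2 b2 r τ : ℝ} (ha2 : 0 < a2) (hb2 : 0 < b2) (hr : 0 < r) (hτ : 0 < τ)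
    (hA : ∑ x, ∑ y, hs2 (F0 x y) ≤ a2) (hB : ∑ x, ∑ y, hs2 (F1 x y) ≤ b2)
    (hA0 : ∀ x y, hs2 (F0 x y) ≤ a2 / r) (hB0 : ∀ x y, hs2 (F1 x y) ≤ b2 / r)
    (hF2 : ∀ x x0 (v : κ2 → ℝ), ((F2 x x0)ᵀ *ᵥ v) ⬝ᵥ ((F2 x x0)ᵀ *ᵥ v) ≤ τ ^ 2 * (v ⬝ᵥ v))
    (hJ : ∑ x, ∑ y, hs2 (F2 x y) ≤ τ ^ 2 * (r * 2 ^ J)) :
    ∑ m ∈ range M, bl (fun n => ∑ p0 : ZMod Q, ∑ p1 : ZMod Q,
        |LboxL F0 F1 F2 (2 ^ m) p0 p1 (n - p0 - p1)|) (2 ^ m) l ≤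
      (2 * J + 1) * Ck k l * (τ * √a2 * √b2) := by
  classical
  have hr' : ∀ i : ℕ, 0 < r * 2 ^ i := fun i => by positivity
  obtain ⟨q, q0, hq⟩ := ladder F0 hQ hr ha2 hA hA0
  obtain ⟨p, p0, hp⟩ := ladder (fun x y => (F1 y x)ᵀ) hQ hr hb2 (by rw [sum_hs2_tr]; exact hB)
    (fun x y => by
      have e : hs2 ((F1 y x)ᵀ) = hs2 (F1 y x) := by
        unfold hs2
        rw [Finset.sum_comm]
        rfl
      rw [e]
      exact hB0 y x)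
  set K : ℝ := Ck k l * (τ * √a2 * √b2) with hK
  set X : ℕ → ℝ := fun i => SW (fun m x y => q i m x y * F0 x y)
    (fun m x y => F1 x y * p i m y x) F2 M l with hX
  have hstep : ∀ i, X i ≤ K + K + X (i + 1) := by
    intro i
    have e2 : r * 2 ^ (i + 1) = 2 * (r * 2 ^ i) := by ring
    have ri := hr' i
    have hdiv : ∀ {a : ℝ}, 0 < a → a / (r * 2 ^ (i + 1)) ≤ a / (r * 2 ^ i) := by
      intro a ha
      apply div_le_div_of_nonneg_left ha.le ri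
      rw [e2]; linarith
    have w1 := word_I F0 F1 F2 hQ k l hk ha2 hb2 ri hτ hA hB
      ((hq i).1.up le_rfl (by linarith)) (hp i).1
      ((hp (i + 1)).1.up (hdiv hb2) e2.le) (by have := (hp i).2; linarith)
      (by have := (hp (i + 1)).2; rw [e2] at this; exact this) hF2
    have w2 := word_II F0 F1 F2 hQ k l hk ha2 hb2 ri hτ hA hB (hq i).1
      ((hq (i + 1)).1.up (hdiv ha2) e2.le) (by have := (hq i).2; linarith)
      (by have := (hq (i + 1)).2; rw [e2] at this; exact this)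
      ((hp (i + 1)).1.up (hdiv hb2) e2.le) hF2
    refine (SW_le3 (A := fun m x y => q i m x y * F0 x y)
      (B := fun m x y => F1 x y * p i m y x)
      (A1 := fun m x y => q i m x y * F0 x y)
      (B1 := fun m x y => F1 x y * (p i m y x - p (i + 1) m y x))
      (A2 := fun m x y => (q i m x y - q (i + 1) m x y) * F0 x y)
      (B2 := fun m x y => F1 x y * p (i + 1) m y x)
      (A3 := fun m x y => q (i + 1) m x y * F0 x y)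
      (B3 := fun m x y => F1 x y * p (i + 1) m y x) ?_).trans
      (add_le_add (add_le_add w1 w2) le_rfl)
    intro m N p0 p1 p2
    have l1 := LboxL_sub1 (fun x y => q i m x y * F0 x y) (fun x y => F1 x y * p i m y x)
      (fun x y => F1 x y * p (i + 1) m y x) F2 N p0 p1 p2
    have l2 := LboxL_sub0 (fun x y => q i m x y * F0 x y) (fun x y => q (i + 1) m x y * F0 x y)
      (fun x y => F1 x y * p (i + 1) m y x) F2 N p0 p1 p2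
    simp only [← Matrix.mul_sub] at l1
    simp only [← Matrix.sub_mul] at l2
    rw [l1, l2]
    ring
  have hlast : X J ≤ K :=
    word_last F0 F1 F2 hQ k l hk ha2 hb2 (hr' J) hτ hA hB (hq J).1 (hp J).1 hF2 hJ
  have hind : ∀ i, X 0 ≤ 2 * i * K + X i := by
    intro i
    induction i with
    | zero => simp
    | succ i ih =>
      have := hstep i
      push_cast
      linarith
  have h0 : X 0 = ∑ m ∈ range M, bl (fun n => ∑ p0 : ZMod Q, ∑ p1 : ZMod Q,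
        |LboxL F0 F1 F2 (2 ^ m) p0 p1 (n - p0 - p1)|) (2 ^ m) l := by
    simp only [hX, SW, q0, p0, Matrix.one_mul, Matrix.mul_one]
  rw [← h0]
  calc X 0 ≤ 2 * J * K + X J := hind J
    _ ≤ 2 * J * K + K := by linarith
    _ = _ := by rw [hK]; ring

end

end Crest.Agent.R079.PotL
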