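import Crest.Agent.R079.PLMove_931
import Crest.Agent.R079.PathBox_378

/-! R079, LABELLED lattice potentials: the log-det potential with labels is a `Good` pair with
constant `1` (label version of helper378's `PotLD_378`).  helper945. -/

set_option autoImplicit false
set_option linter.unusedVariables false
set_option linter.unusedSectionVars false

namespace Crest.Agent.R079.PotL

open Matrix Finset Crest.Agent.R072 Crest.Agent.R079.LD Crest.Agent.R079.Path
  Crest.Agent.R072.Nd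
open scoped MatrixOrder

section inst

variable {α : Type*} [Fintype α] [DecidableEq α]

/-- the log-det pair at threshold `t`, with labels -/
noncomputable def potLD (α : Type*) [Fintype α] [DecidableEq α] (t : ℝ) : TPot α where
  F := fun _ M => LD t M
  E := fun _ M => LD (t / 2) M

theorem LD_pinch {t : ℝ} (ht : 0 < t) (r : ℕ)
    {M : Matrix (Fin (r + r) × α) (Fin (r + r) × α) ℝ} (hM : M.PosSemidef) :
    LD t (M + diagonal (hsL r α) * M * diagonal (hsL r α)) =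
      LD t (blkA r M) + LD t (blkB r M) := by
  have hA : (blkA r M).PosSemidef := (hM.submatrix _).smul (by norm_num)
  have hB : (blkB r M).PosSemidef := (hM.submatrix _).smul (by norm_num)
  have e : (M + diagonal (hsL r α) * M * diagonal (hsL r α)).submatrix (eqL r α) (eqL r α) =
      fromBlocks (blkA r M) 0 0 (blkB r M) := by
    ext i j
    rcases i with ⟨i, s⟩ | ⟨i, s⟩ <;> rcases j with ⟨j, t⟩ | ⟨j, t⟩ <;>
      simp [hsL, hsgn, diagonal_mul, mul_diagonal, two_mul, eqL_inl, eqL_inr, blkA, blkB]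
  rw [← LD_submatrix t (eqL r α), e, LD_fromBlocks ht hA.nonneg hB.nonneg]

theorem hsL_symm (r : ℕ) (α : Type*) [DecidableEq α] :
    (diagonal (hsL r α))ᵀ = diagonal (hsL r α) := diagonal_transpose _

theorem hsL_sq (r : ℕ) (α : Type*) [Fintype α] [DecidableEq α] :
    diagonal (hsL r α) * diagonal (hsL r α) = 1 := by
  rw [diagonal_mul_diagonal, ← diagonal_one]
  congr 1
  ext i
  exact hsL_mul_self r i

/-- the pinching gain dominates `tr g(M) U g(M) U` -/
theorem gam_LD_ge {t : ℝ} (ht : 0 < t) (r : ℕ)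
    {M : Matrix (Fin (r + r) × α) (Fin (r + r) × α) ℝ} (hM : M.PosSemidef) :
    trace (gt t M * gt t (diagonal (hsL r α) * M * diagonal (hsL r α))) ≤
      gam (fun _ M => LD t M) r M := by
  have hU : 0 ≤ diagonal (hsL r α) * M * diagonal (hsL r α) :=
    sandwich_nonneg (hsL_symm r α) hM.nonneg
  have h := LD_superadd_gap ht hM.nonneg hU
  rw [LD_pinch ht r hM, LD_conj (hsL_sq r α)] at h
  show _ ≤ LD t (blkA r M) + LD t (blkB r M) - 2 * LD t M
  linarith

theorem goodPot_LD {t : ℝ} (ht : 0 < t) : GoodPot (α := α) (fun _ M => LD t M) where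
  nonneg := fun r M hM => LD_nonneg ht hM.nonneg
  supp := fun r Z hZ => by
    refine ⟨{ toFun := fun Y => trace (gt t Z * (t⁻¹ • Y))
              map_add' := fun Y Y' => by rw [smul_add, mul_add, trace_add]
              map_smul' := fun a Y => by
                rw [smul_comm, mul_smul_comm, trace_smul, RingHom.id_apply] }, ?_⟩
    intro X hX
    have h := bregLD_nonneg ht hZ.nonneg hX.nonneg
    unfold bregLD at h
    show LD t Z + trace (gt t Z * (t⁻¹ • (X - Z))) ≤ LD t X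
    linarith
  split := fun r M hM => by
    refine le_trans ?_ (gam_LD_ge ht r hM)
    have hU : 0 ≤ diagonal (hsL r α) * M * diagonal (hsL r α) :=
      sandwich_nonneg (hsL_symm r α) hM.nonneg
    exact frob_trace_mul_nonneg (gm_nonneg (inv_smul_nonneg ht hM.nonneg))
      (gm_nonneg (inv_smul_nonneg ht hU))

/-- the labelled log-det pair is good, constant `1` -/
theorem instLD {t : ℝ} (ht : 0 < t) : Good (potLD α t) 1 where
  c0 := zero_le_one
  F := goodPot_LD ht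
  E := goodPot_LD (half_pos ht)
  mixed := fun r a₁ a₂ b₁ b₂ ha1 ha2 hb1 hb2 => by
    rw [one_mul]
    exact LD_mixed_le ht ha1.nonneg ha2.nonneg hb1.nonneg hb2.nonneg

theorem En_le_gam {N : ℕ} {M : Matrix (Fin (N + N) × α) (Fin (N + N) × α) ℝ}
    (hM : M.PosSemidef) :
    En (diagonal (hsL N α)) M ≤ gam (potLD α 1).F N M := by
  have h1 := En_le_LD1 (hsL_symm N α) (hsL_sq N α) hM.nonneg
  have h2 := LD_pinch one_pos N hM
  rw [Pot.LD_one, Pot.LD_one, Pot.LD_one] at h2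
  show _ ≤ LD 1 (blkA N M) + LD 1 (blkB N M) - 2 * LD 1 M
  rw [Pot.LD_one, Pot.LD_one, Pot.LD_one]
  linarith

end inst

section path

variable {Q : ℕ} [NeZero Q] {κ0 κ1 κ2 : Type*} [Fintype κ0] [DecidableEq κ0]
  [Fintype κ1] [DecidableEq κ1] [Fintype κ2] [DecidableEq κ2]

/-- transposed labelled function -/
def tr {β α : Type*} (F : ZMod Q → ZMod Q → Matrix β α ℝ) : ZMod Q → ZMod Q → Matrix α β ℝ :=
  fun u v => (F v u)ᵀ

/-- the three joint pinching gains of a labelled box at parameters `x, y, z` -/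
noncomputable def gams (F0 : ZMod Q → ZMod Q → Matrix κ0 κ1 ℝ)
    (F1 : ZMod Q → ZMod Q → Matrix κ1 κ2 ℝ) (F2 : ZMod Q → ZMod Q → Matrix κ2 κ0 ℝ)
    (N : ℕ) (p0 p1 p2 : ZMod Q) (x y z : ℝ) : ℝ :=
  gam (potLD κ0 1).F N (x • abar (tr F0) (N + N) (N + N) p1 p0 +
      z • abar F2 (N + N) (N + N) p2 p0) +
  gam (potLD κ1 1).F N (y • abar (tr F1) (N + N) (N + N) p2 p1 +
      x • abar F0 (N + N) (N + N) p0 p1) +
  gam (potLD κ2 1).F N (z • abar (tr F2) (N + N) (N + N) p0 p2 +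
      y • abar F1 (N + N) (N + N) p1 p2)

theorem EE_le_gams (F0 : ZMod Q → ZMod Q → Matrix κ0 κ1 ℝ)
    (F1 : ZMod Q → ZMod Q → Matrix κ1 κ2 ℝ) (F2 : ZMod Q → ZMod Q → Matrix κ2 κ0 ℝ)
    (N : ℕ) (p0 p1 p2 : ZMod Q)
    {x y z : ℝ} (hx : 0 ≤ x) (hy : 0 ≤ y) (hz : 0 ≤ z) :
    Path.EE (diagonal (hsL N κ0)) (diagonal (hsL N κ1)) (diagonal (hsL N κ2))
      (bm F0 (N + N) p0 p1) (bm F1 (N + N) p1 p2) (bm F2 (N + N) p2 p0) x y z ≤
      gams F0 F1 F2 N p0 p1 p2 x y z := by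
  unfold Path.EE gams
  have h3 := En_le_gam (N := N) (Matrix.nonneg_iff_posSemidef.mp
    (Pv_nonneg hx hz (bm F0 (N + N) p0 p1) (bm F2 (N + N) p2 p0)))
  have h4 := En_le_gam (N := N) (Matrix.nonneg_iff_posSemidef.mp
    (Pv_nonneg hy hx (bm F1 (N + N) p1 p2) (bm F0 (N + N) p0 p1)))
  have h2 := En_le_gam (N := N) (Matrix.nonneg_iff_posSemidef.mp
    (Pv_nonneg hz hy (bm F2 (N + N) p2 p0) (bm F1 (N + N) p1 p2)))
  have e3 : Pv x z (bm F0 (N + N) p0 p1) (bm F2 (N + N) p2 p0) =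
      x • abar (tr F0) (N + N) (N + N) p1 p0 + z • abar F2 (N + N) (N + N) p2 p0 := by
    unfold Pv
    rw [bm_mul_transpose, transpose_mul_bm]
    rfl
  have e4 : Pv y x (bm F1 (N + N) p1 p2) (bm F0 (N + N) p0 p1) =
      y • abar (tr F1) (N + N) (N + N) p2 p1 + x • abar F0 (N + N) (N + N) p0 p1 := by
    unfold Pv
    rw [bm_mul_transpose, transpose_mul_bm]
    rfl
  have e2 : Pv z y (bm F2 (N + N) p2 p0) (bm F1 (N + N) p1 p2) =
      z • abar (tr F2) (N + N) (N + N) p0 p2 + y • abar F1 (N + N) (N + N) p1 p2 := by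
    unfold Pv
    rw [bm_mul_transpose, transpose_mul_bm]
    rfl
  rw [← e3, ← e4, ← e2]
  linarith

/-- **(PN) with labels**: path bound for a finite family of labelled boxes (functions, sides and
corners may depend on the box), with weights. -/
theorem LboxL_path {ι : Type*} (S : Finset ι) (w : ι → ℝ) (hw : ∀ i ∈ S, 0 ≤ w i)
    (F0 : ι → ZMod Q → ZMod Q → Matrix κ0 κ1 ℝ) (F1 : ι → ZMod Q → ZMod Q → Matrix κ1 κ2 ℝ)
    (F2 : ι → ZMod Q → ZMod Q → Matrix κ2 κ0 ℝ) (N : ι → ℕ)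
    (p0 p1 p2 : ι → ZMod Q) {x y z : ℤ → ℝ} (hp : PathSeq x y z) (B : ℝ)
    (hB : ∀ J : ℕ, ∑ j ∈ Finset.Ico (-(J : ℤ)) J, (√(x j) * √(y j) * √(z j))⁻¹ *
      ∑ i ∈ S, w i * gams (F0 i) (F1 i) (F2 i) (N i) (p0 i) (p1 i) (p2 i) (x j) (y j) (z j) ≤ B) :
    ∑ i ∈ S, w i * |LboxL (F0 i) (F1 i) (F2 i) (N i) (p0 i) (p1 i) (p2 i)| ≤ 76800 * B := by

  set T : ι → ℤ → ℝ := fun i j => Tt (diagonal (hsL (N i) κ0)) (diagonal (hsL (N i) κ1))
    (diagonal (hsL (N i) κ2)) (bm (F0 i) (N i + N i) (p0 i) (p1 i))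
    (bm (F1 i) (N i + N i) (p1 i) (p2 i))
    (bm (F2 i) (N i + N i) (p2 i) (p0 i)) (x j) (y j) (z j) with hT
  set L : ι → ℝ := fun i => LboxL (F0 i) (F1 i) (F2 i) (N i) (p0 i) (p1 i) (p2 i) with hL
  have hbot : ∀ i ∈ S, Filter.Tendsto (fun J : ℕ => T i (-(J : ℤ))) Filter.atTop
      (nhds (L i)) := by
    intro i hi
    have h := Tt_tendsto (l := Filter.atBot) (diagonal (hsL (N i) κ0)) (diagonal (hsL (N i) κ1))
      (diagonal (hsL (N i) κ2)) (bm (F0 i) (N i + N i) (p0 i) (p1 i))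
      (bm (F1 i) (N i + N i) (p1 i) (p2 i))
      (bm (F2 i) (N i + N i) (p2 i) (p0 i)) hp.xbot hp.ybot hp.zbot (fun j => (hp.xpos j).le)
      (fun j => (hp.ypos j).le) (fun j => (hp.zpos j).le)
    rw [← LboxL_eq_trace] at h
    exact h.comp (Filter.tendsto_neg_atTop_atBot.comp tendsto_natCast_atTop_atTop)
  have htop : ∀ i ∈ S, Filter.Tendsto (fun J : ℕ => |T i (J : ℤ)|) Filter.atTop (nhds 0) := by
    intro i hi
    refine squeeze_zero (g := fun J : ℕ => (√(x J * y J * z J))⁻¹ *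
      (√(Fintype.card (Fin (N i + N i) × κ0)) * √(Fintype.card (Fin (N i + N i) × κ2)))) ?_ ?_ ?_
    · intro J; exact abs_nonneg _
    · intro J
      have h := Tt_tail (hsL_symm (N i) κ0) (hsL_symm (N i) κ1) (hsL_symm (N i) κ2)
        (hsL_sq (N i) κ0) (hsL_sq (N i) κ1) (hsL_sq (N i) κ2)
        (bm (F0 i) (N i + N i) (p0 i) (p1 i))
        (bm (F1 i) (N i + N i) (p1 i) (p2 i)) (bm (F2 i) (N i + N i) (p2 i) (p0 i)) (hp.xpos J)
        (hp.ypos J) (hp.zpos J)
      rw [Real.sqrt_mul (mul_pos (hp.xpos J) (hp.ypos J)).le, Real.sqrt_mul (hp.xpos J).le]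
      exact h
    · have h1 : Filter.Tendsto (fun J : ℕ => √(x J * y J * z J)) Filter.atTop Filter.atTop :=
        Real.tendsto_sqrt_atTop.comp (hp.top.comp tendsto_natCast_atTop_atTop)
      simpa using h1.inv_tendsto_atTop.mul_const
        (√(Fintype.card (Fin (N i + N i) × κ0) : ℝ) * √(Fintype.card (Fin (N i + N i) × κ2) : ℝ))
  have hmain : ∀ J : ℕ, ∑ i ∈ S, w i * |T i (-(J : ℤ))| ≤
      ∑ i ∈ S, w i * |T i (J : ℤ)| + 76800 * B := by
    intro J
    have h1 : ∀ i ∈ S, w i * |T i (-(J : ℤ))| ≤ w i * |T i (J : ℤ)| + 76800 *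
        ∑ j ∈ Finset.Ico (-(J : ℤ)) J, (√(x j) * √(y j) * √(z j))⁻¹ *
          (w i * gams (F0 i) (F1 i) (F2 i) (N i) (p0 i) (p1 i) (p2 i) (x j) (y j) (z j)) := by
      intro i hi
      have h2 := Tt_telescope (hsL_symm (N i) κ0) (hsL_symm (N i) κ1) (hsL_symm (N i) κ2)
        (hsL_sq (N i) κ0) (hsL_sq (N i) κ1) (hsL_sq (N i) κ2)
        (bm (F0 i) (N i + N i) (p0 i) (p1 i))
        (bm (F1 i) (N i + N i) (p1 i) (p2 i)) (bm (F2 i) (N i + N i) (p2 i) (p0 i)) hp J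
      have h3 : ∑ j ∈ Finset.Ico (-(J : ℤ)) J, (√(x j) * √(y j) * √(z j))⁻¹ *
          Path.EE (diagonal (hsL (N i) κ0)) (diagonal (hsL (N i) κ1)) (diagonal (hsL (N i) κ2))
            (bm (F0 i) (N i + N i) (p0 i) (p1 i)) (bm (F1 i) (N i + N i) (p1 i) (p2 i))
            (bm (F2 i) (N i + N i) (p2 i) (p0 i)) (x j) (y j) (z j) ≤
          ∑ j ∈ Finset.Ico (-(J : ℤ)) J, (√(x j) * √(y j) * √(z j))⁻¹ *
            gams (F0 i) (F1 i) (F2 i) (N i) (p0 i) (p1 i) (p2 i) (x j) (y j) (z j) := by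
        refine Finset.sum_le_sum fun j _ => mul_le_mul_of_nonneg_left
          (EE_le_gams _ _ _ _ _ _ _ (hp.xpos j).le (hp.ypos j).le (hp.zpos j).le)
          (by positivity)
      have h4 : w i * |T i (-(J : ℤ))| ≤ w i * (|T i (J : ℤ)| + 76800 *
          ∑ j ∈ Finset.Ico (-(J : ℤ)) J, (√(x j) * √(y j) * √(z j))⁻¹ *
            gams (F0 i) (F1 i) (F2 i) (N i) (p0 i) (p1 i) (p2 i) (x j) (y j) (z j)) := by
        refine mul_le_mul_of_nonneg_left (h2.trans ?_) (hw i hi)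
        linarith
      refine h4.trans (le_of_eq ?_)
      rw [mul_add]
      congr 1
      rw [mul_left_comm, Finset.mul_sum]
      congr 1
      refine Finset.sum_congr rfl fun j _ => ?_
      ring
    refine (Finset.sum_le_sum h1).trans ?_
    rw [Finset.sum_add_distrib, ← Finset.mul_sum, Finset.sum_comm]
    have h5 := hB J
    have h6 : ∑ j ∈ Finset.Ico (-(J : ℤ)) J, ∑ i ∈ S, (√(x j) * √(y j) * √(z j))⁻¹ *
          (w i * gams (F0 i) (F1 i) (F2 i) (N i) (p0 i) (p1 i) (p2 i) (x j) (y j) (z j)) =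
        ∑ j ∈ Finset.Ico (-(J : ℤ)) J, (√(x j) * √(y j) * √(z j))⁻¹ *
      ∑ i ∈ S, w i * gams (F0 i) (F1 i) (F2 i) (N i) (p0 i) (p1 i) (p2 i) (x j) (y j) (z j) := by
      refine Finset.sum_congr rfl fun j _ => ?_
      rw [Finset.mul_sum]
    rw [h6]
    linarith
  have hlim1 : Filter.Tendsto (fun J : ℕ => ∑ i ∈ S, w i * |T i (-(J : ℤ))|) Filter.atTop
      (nhds (∑ i ∈ S, w i * |L i|)) :=
    tendsto_finsetSum _ fun i hi => ((hbot i hi).abs).const_mul _
  have hlim2 : Filter.Tendsto (fun J : ℕ => ∑ i ∈ S, w i * |T i (J : ℤ)| + 76800 * B)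
      Filter.atTop (nhds (∑ i ∈ S, w i * 0 + 76800 * B)) :=
    (tendsto_finsetSum _ fun i hi => (htop i hi).const_mul _).add_const _
  have h := le_of_tendsto_of_tendsto' hlim1 hlim2 hmain
  simpa using h

end path

end Crest.Agent.R079.PotL
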