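import Crest.Agent.R079.PLDefs_931

/-! R079, LABELLED lattice potentials, (PL1): one scale estimate for an abstract pair of trace
potentials on boxes with LABELS (functions with values in `Matrix β α ℝ`).  Label version of
helper491's `PotLat_491` (proofs copied).  helper931. -/

set_option autoImplicit false
set_option linter.unusedVariables false
set_option linter.unusedSectionVars false

namespace Crest.Agent.R079.PotL

open Matrix Finset Crest.Agent.R072
open Crest.Agent.R072.Lattice (sum_sub_left' sum_add_right' sum_shift sum_range_mul_aux)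
open scoped MatrixOrder

variable {Q : ℕ} [NeZero Q] {α β γ : Type*} [Fintype α] [DecidableEq α] [Fintype β] [Fintype γ]

theorem W_nonneg {P : TPot α} (h : GoodPot P.F) (X : ZMod Q → ZMod Q → Matrix β α ℝ)
    (Z : ZMod Q → ZMod Q → Matrix γ α ℝ) (a r : ℕ) (n : ZMod Q) :
    0 ≤ W P X Z a r n :=
  Finset.sum_nonneg fun _ _ => Finset.sum_nonneg fun _ _ =>
    h.nonneg _ _ (abar_add_posSemidef _ _ _ _ _ _ _ _)

theorem EW_nonneg {P : TPot α} (h : GoodPot P.E) (X : ZMod Q → ZMod Q → Matrix β α ℝ) (a r : ℕ) :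
    0 ≤ EW P X a r :=
  Finset.sum_nonneg fun _ _ => Finset.sum_nonneg fun _ _ => h.nonneg _ _ (abar_posSemidef _ _ _ _ _)

theorem EE_nonneg {P : TPot α} (h : GoodPot P.E) (X : ZMod Q → ZMod Q → Matrix β α ℝ)
    (Z : ZMod Q → ZMod Q → Matrix γ α ℝ) (N : ℕ) :
    0 ≤ EE P X Z N := add_nonneg (EW_nonneg h _ _ _) (EW_nonneg h _ _ _)

theorem GW_nonneg {P : TPot α} (h : GoodPot P.F) (X : ZMod Q → ZMod Q → Matrix β α ℝ)
    (Z : ZMod Q → ZMod Q → Matrix γ α ℝ) (N : ℕ) (n : ZMod Q) :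
    0 ≤ GW P X Z N n :=
  Finset.sum_nonneg fun _ _ => Finset.sum_nonneg fun _ _ =>
    h.split _ _ (abar_add_posSemidef _ _ _ _ _ _ _ _)

theorem bl_nonneg {f : ZMod Q → ℝ} (h : ∀ n, 0 ≤ f n) (N : ℕ) (l : ℤ) : 0 ≤ bl f N l :=
  mul_nonneg (by positivity) (Finset.sum_nonneg fun _ _ => h _)

theorem Vb_nonneg {P : TPot α} (h : GoodPot P.F) (X : ZMod Q → ZMod Q → Matrix β α ℝ)
    (Z : ZMod Q → ZMod Q → Matrix γ α ℝ) (N : ℕ) :
    0 ≤ Vb P X Z N := bl_nonneg (fun n => W_nonneg h X Z N N n) N _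

/-- (C1) -/
theorem W_double_a {P : TPot α} (hF : GoodPot P.F) (X : ZMod Q → ZMod Q → Matrix β α ℝ)
    (Z : ZMod Q → ZMod Q → Matrix γ α ℝ) {a r : ℕ}
    (ha : 0 < a) (n : ZMod Q) :
    W P X Z (a + a) r n ≤ W P X Z a r (n + a) := by
  have key : ∀ p q : ZMod Q, P.F r (abar X (a + a) r q p + abar Z (a + a) r (n - p - q) p) ≤
      (1 / 2) * P.F r (abar X a r q p + abar Z a r (n + a - p - q) p) +
      (1 / 2) * P.F r (abar X a r (q + a) p + abar Z a r (n + a - p - (q + a)) p) := by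
    intro p q
    have e : abar X (a + a) r q p + abar Z (a + a) r (n - p - q) p =
        (1 / 2 : ℝ) • ((abar X a r q p + abar Z a r (n + a - p - q) p) +
          (abar X a r (q + a) p + abar Z a r (n + a - p - (q + a)) p)) := by
      rw [abar_double X ha, abar_double Z ha, ← smul_add]
      congr 1
      have e1 : n + a - p - q = n - p - q + a := by ring
      have e2 : n + a - p - (q + a) = n - p - q := by ring
      rw [e1, e2]
      abel
    rw [e]
    exact hF.mid r _ _ (abar_add_posSemidef X Z a r q p (n + a - p - q) p)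
      (abar_add_posSemidef X Z a r (q + a) p (n + a - p - (q + a)) p)
  unfold W
  refine Finset.sum_le_sum fun p _ => ?_
  refine (Finset.sum_le_sum fun q _ => key p q).trans ?_
  rw [Finset.sum_add_distrib, ← Finset.mul_sum, ← Finset.mul_sum,
    sum_add_right' (fun q => P.F r (abar X a r q p + abar Z a r (n + a - p - q) p)) a]
  linarith

theorem gam_abar (G : (r : ℕ) → Matrix (Fin r × α) (Fin r × α) ℝ → ℝ) (X : ZMod Q → ZMod Q → Matrix β α ℝ)
    (Z : ZMod Q → ZMod Q → Matrix γ α ℝ)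
    {a r : ℕ} (hr : 0 < r) (q q' p : ZMod Q) :
    gam G r (abar X a (r + r) q p + abar Z a (r + r) q' p) =
      G r (abar X a r q p + abar Z a r q' p) +
      G r (abar X a r q (p + r) + abar Z a r q' (p + r)) -
      2 * G (r + r) (abar X a (r + r) q p + abar Z a (r + r) q' p) := by
  have e1 : (2 : ℝ) • (abar X a (r + r) q p + abar Z a (r + r) q' p).submatrix
      (Prod.map (Fin.castAdd r) id) (Prod.map (Fin.castAdd r) id) =
        abar X a r q p + abar Z a r q' p := by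
    rw [Matrix.submatrix_add, Pi.add_apply, Pi.add_apply, smul_add, abar_submatrix_castAdd X hr,
      abar_submatrix_castAdd Z hr]
  have e2 : (2 : ℝ) • (abar X a (r + r) q p + abar Z a (r + r) q' p).submatrix
      (Prod.map (Fin.natAdd r) id) (Prod.map (Fin.natAdd r) id) =
        abar X a r q (p + r) + abar Z a r q' (p + r) := by
    rw [Matrix.submatrix_add, Pi.add_apply, Pi.add_apply, smul_add, abar_submatrix_natAdd X hr,
      abar_submatrix_natAdd Z hr]
  unfold gam blkA blkB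
  rw [e1, e2]

theorem gam_abar_single (G : (r : ℕ) → Matrix (Fin r × α) (Fin r × α) ℝ → ℝ) (X : ZMod Q → ZMod Q → Matrix β α ℝ)
    {a r : ℕ} (hr : 0 < r) (q p : ZMod Q) :
    gam G r (abar X a (r + r) q p) =
      G r (abar X a r q p) + G r (abar X a r q (p + r)) - 2 * G (r + r) (abar X a (r + r) q p) := by
  unfold gam blkA blkB
  rw [abar_submatrix_castAdd X hr, abar_submatrix_natAdd X hr]

/-- (C2) -/
theorem GW_eq (P : TPot α) (X : ZMod Q → ZMod Q → Matrix β α ℝ)
    (Z : ZMod Q → ZMod Q → Matrix γ α ℝ) {N : ℕ} (hN : 0 < N) (n : ZMod Q) :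
    GW P X Z N n = W P X Z (N + N) N n + W P X Z (N + N) N (n + N) -
      2 * W P X Z (N + N) (N + N) n := by
  unfold GW W
  simp only [gam_abar P.F X Z hN, Finset.sum_sub_distrib, Finset.sum_add_distrib, Finset.mul_sum]
  congr 2
  rw [← sum_add_right' (fun p => ∑ q : ZMod Q, P.F N (abar X (N + N) N q p +
    abar Z (N + N) N (n + N - p - q) p)) N]
  refine Finset.sum_congr rfl fun p _ => Finset.sum_congr rfl fun q _ => ?_
  have e : n + N - (p + N) - q = n - p - q := by ring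
  rw [e]

theorem GW_le {P : TPot α} (hF : GoodPot P.F) (X : ZMod Q → ZMod Q → Matrix β α ℝ)
    (Z : ZMod Q → ZMod Q → Matrix γ α ℝ) {N : ℕ} (hN : 0 < N)
    (n : ZMod Q) :
    GW P X Z N n ≤ W P X Z N N (n + N) + W P X Z N N (n + 2 * N) -
      2 * W P X Z (N + N) (N + N) n := by
  have h1 := GW_eq P X Z hN n
  have h2 := W_double_a hF X Z (a := N) (r := N) hN n
  have h3 := W_double_a hF X Z (a := N) (r := N) hN (n + N)
  have e : n + N + N = n + 2 * (N : ZMod Q) := by ring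
  rw [e] at h3
  linarith

theorem EW_double_a {P : TPot α} (hE : GoodPot P.E) (X : ZMod Q → ZMod Q → Matrix β α ℝ) {a r : ℕ}
    (ha : 0 < a) : EW P X (a + a) r ≤ EW P X a r := by
  unfold EW
  refine Finset.sum_le_sum fun p _ => ?_
  have key : ∀ q : ZMod Q, P.E r (abar X (a + a) r q p) ≤ (1 / 2) * P.E r (abar X a r q p) +
      (1 / 2) * P.E r (abar X a r (q + a) p) := by
    intro q
    rw [abar_double X ha]
    exact hE.mid r _ _ (abar_posSemidef X a r q p) (abar_posSemidef X a r (q + a) p)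
  refine (Finset.sum_le_sum fun q _ => key q).trans ?_
  rw [Finset.sum_add_distrib, ← Finset.mul_sum, ← Finset.mul_sum,
    sum_add_right' (fun q => P.E r (abar X a r q p)) a]
  linarith

theorem EW_double_r {P : TPot α} (hE : GoodPot P.E) (X : ZMod Q → ZMod Q → Matrix β α ℝ) {a r : ℕ}
    (hr : 0 < r) : EW P X a (r + r) ≤ EW P X a r := by
  have key : ∀ p q : ZMod Q, P.E (r + r) (abar X a (r + r) q p) ≤
      (1 / 2) * P.E r (abar X a r q p) + (1 / 2) * P.E r (abar X a r q (p + r)) := by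
    intro p q
    have h1 := hE.split r _ (abar_posSemidef X a (r + r) q p)
    rw [gam_abar_single P.E X hr] at h1
    linarith
  unfold EW
  refine (Finset.sum_le_sum fun p _ => Finset.sum_le_sum fun q _ => key p q).trans ?_
  simp only [Finset.sum_add_distrib, ← Finset.mul_sum]
  rw [sum_add_right' (fun p => ∑ q : ZMod Q, P.E r (abar X a r q p)) r]
  linarith

theorem EW_pow_r {P : TPot α} (hE : GoodPot P.E) (X : ZMod Q → ZMod Q → Matrix β α ℝ) {a r : ℕ}
    (hr : 0 < r) (κ : ℕ) : EW P X a (2 ^ κ * r) ≤ EW P X a r := by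
  induction κ with
  | zero => simp
  | succ κ ih =>
    have h := EW_double_r hE X (a := a) (r := 2 ^ κ * r) (by positivity)
    have e : 2 ^ (κ + 1) * r = 2 ^ κ * r + 2 ^ κ * r := by ring
    rw [e]
    exact h.trans ih

theorem EW_pow {P : TPot α} (hE : GoodPot P.E) (X : ZMod Q → ZMod Q → Matrix β α ℝ) {N : ℕ}
    (hN : 0 < N) (κ : ℕ) : EW P X (2 ^ κ * N) (2 ^ κ * N) ≤ EW P X N N := by
  induction κ with
  | zero => simp
  | succ κ ih =>
    have e : 2 ^ (κ + 1) * N = 2 ^ κ * N + 2 ^ κ * N := by ring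
    rw [e]
    exact ((EW_double_r hE X (by positivity)).trans (EW_double_a hE X (by positivity))).trans ih

/-! ### Bregman remainder of an abstract potential -/

section breg

variable {G : (r : ℕ) → Matrix (Fin r × α) (Fin r × α) ℝ → ℝ}

/-- supporting functional -/
noncomputable def spf (h : GoodPot G) (r : ℕ) (Z : Matrix (Fin r × α) (Fin r × α) ℝ)
    (hZ : Z.PosSemidef) : Matrix (Fin r × α) (Fin r × α) ℝ →ₗ[ℝ] ℝ := Classical.choose (h.supp r Z hZ)

/-- Bregman remainder at `Z` -/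
noncomputable def bz (h : GoodPot G) (r : ℕ) (Z : Matrix (Fin r × α) (Fin r × α) ℝ)
    (hZ : Z.PosSemidef) (X : Matrix (Fin r × α) (Fin r × α) ℝ) : ℝ :=
  G r X - G r Z - spf h r Z hZ (X - Z)

theorem bz_nonneg (h : GoodPot G) {r : ℕ} {Z : Matrix (Fin r × α) (Fin r × α) ℝ}
    (hZ : Z.PosSemidef) {X : Matrix (Fin r × α) (Fin r × α) ℝ} (hX : X.PosSemidef) :
    0 ≤ bz h r Z hZ X := by
  have := Classical.choose_spec (h.supp r Z hZ) X hX
  unfold bz spf
  linarith

theorem mgap_le_bz (h : GoodPot G) {r : ℕ} {Z : Matrix (Fin r × α) (Fin r × α) ℝ}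
    (hZ : Z.PosSemidef) {X Y : Matrix (Fin r × α) (Fin r × α) ℝ} (hX : X.PosSemidef)
    (hY : Y.PosSemidef) : mgap G r X Y ≤ bz h r Z hZ X + bz h r Z hZ Y := by
  have h1 := bz_nonneg h hZ (X := (1 / 2 : ℝ) • (X + Y)) ((hX.add hY).smul (by norm_num))
  have e : spf h r Z hZ (X - Z) + spf h r Z hZ (Y - Z) =
      2 * spf h r Z hZ ((1 / 2 : ℝ) • (X + Y) - Z) := by
    rw [← map_add, ← smul_eq_mul, ← map_smul]
    congr 1
    rw [smul_sub, smul_smul]
    norm_num
    rw [two_smul]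
    abel
  unfold bz at h1 ⊢
  unfold mgap
  linarith

theorem bz_mid_le (h : GoodPot G) {r : ℕ} {Z : Matrix (Fin r × α) (Fin r × α) ℝ}
    (hZ : Z.PosSemidef) {X Y : Matrix (Fin r × α) (Fin r × α) ℝ} (hX : X.PosSemidef)
    (hY : Y.PosSemidef) :
    bz h r Z hZ ((1 / 2 : ℝ) • (X + Y)) ≤ (bz h r Z hZ X + bz h r Z hZ Y) / 2 := by
  have h1 := h.mid r X Y hX hY
  have e : spf h r Z hZ (X - Z) + spf h r Z hZ (Y - Z) =
      2 * spf h r Z hZ ((1 / 2 : ℝ) • (X + Y) - Z) := by
    rw [← map_add, ← smul_eq_mul, ← map_smul]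
    congr 1
    rw [smul_sub, smul_smul]
    norm_num
    rw [two_smul]
    abel
  unfold bz
  linarith

theorem sum_bz_avg (h : GoodPot G) {r K : ℕ} (hK : 0 < K) (x : ℕ → Matrix (Fin r × α) (Fin r × α) ℝ)
    {Z : Matrix (Fin r × α) (Fin r × α) ℝ} (hZ : Z.PosSemidef)
    (hz : Z = (1 / (K : ℝ)) • ∑ i ∈ range K, x i) :
    ∑ i ∈ range K, bz h r Z hZ (x i) = ∑ i ∈ range K, G r (x i) - K * G r Z := by
  have hK' : (K : ℝ) ≠ 0 := by positivity
  unfold bz
  rw [Finset.sum_sub_distrib, Finset.sum_sub_distrib, ← map_sum, Finset.sum_sub_distrib,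
    Finset.sum_const, Finset.card_range, Finset.sum_const, Finset.card_range]
  have e : ∑ i ∈ range K, x i - K • Z = 0 := by
    rw [hz, ← Nat.cast_smul_eq_nsmul ℝ, smul_smul, mul_one_div_cancel hK', one_smul, sub_self]
  rw [e, map_zero, nsmul_eq_mul]
  ring

theorem mgap_comm (G : (r : ℕ) → Matrix (Fin r × α) (Fin r × α) ℝ → ℝ) (r : ℕ)
    (X Y : Matrix (Fin r × α) (Fin r × α) ℝ) : mgap G r X Y = mgap G r Y X := by
  unfold mgap
  rw [add_comm X Y]
  ring

end breg

/-! ### shifts -/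

section shift

variable {G : (r : ℕ) → Matrix (Fin r × α) (Fin r × α) ℝ → ℝ}

/-- Bregman remainder of the `i`-th block, summed over all positions -/
noncomputable def SB (h : GoodPot G) (X : ZMod Q → ZMod Q → Matrix β α ℝ) (K N r : ℕ) (p : ZMod Q) (i : ℕ) :
    ℝ :=
  ∑ q : ZMod Q, bz h r (abar X (K * N) r q p) (abar_posSemidef X (K * N) r q p)
    (abar X N r (q + (i : ZMod Q) * N) p)

theorem SB_nonneg (h : GoodPot G) (X : ZMod Q → ZMod Q → Matrix β α ℝ) (K N r : ℕ) (p : ZMod Q) (i : ℕ) :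
    0 ≤ SB h X K N r p i :=
  Finset.sum_nonneg fun q _ => bz_nonneg h _ (abar_posSemidef X _ _ _ _)

theorem sum_SB (h : GoodPot G) (X : ZMod Q → ZMod Q → Matrix β α ℝ) {K N r : ℕ} (hK : 0 < K) (hN : 0 < N)
    (p : ZMod Q) :
    ∑ i ∈ range K, SB h X K N r p i =
      K * (∑ q : ZMod Q, G r (abar X N r q p) - ∑ q : ZMod Q, G r (abar X (K * N) r q p)) := by
  unfold SB
  rw [Finset.sum_comm]
  have h1 : ∀ q : ZMod Q, ∑ i ∈ range K,
      bz h r (abar X (K * N) r q p) (abar_posSemidef X (K * N) r q p)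
        (abar X N r (q + (i : ZMod Q) * N) p) =
      ∑ i ∈ range K, G r (abar X N r (q + (i : ZMod Q) * N) p) -
        K * G r (abar X (K * N) r q p) := by
    intro q
    exact sum_bz_avg h hK (fun i => abar X N r (q + (i : ZMod Q) * N) p) _ (abar_mul X hK hN q p)
  rw [Finset.sum_congr rfl fun q _ => h1 q, Finset.sum_sub_distrib, Finset.sum_comm,
    ← Finset.mul_sum]
  have h2 : ∀ i ∈ range K, ∑ q : ZMod Q, G r (abar X N r (q + (i : ZMod Q) * N) p) =
      ∑ q : ZMod Q, G r (abar X N r q p) := fun i _ =>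
    sum_shift (fun q => G r (abar X N r q p)) ((i : ZMod Q) * N)
  rw [Finset.sum_congr rfl h2, Finset.sum_const, Finset.card_range, nsmul_eq_mul]
  ring

theorem sum_SB_shift_le (h : GoodPot G) (X : ZMod Q → ZMod Q → Matrix β α ℝ) (K N r : ℕ) (p : ZMod Q)
    (L c : ℕ) (hL : L + c ≤ K) :
    ∑ i ∈ range L, SB h X K N r p (i + c) ≤ ∑ i ∈ range K, SB h X K N r p i := by
  have h1 : ∑ i ∈ range L, SB h X K N r p (i + c) =
      ∑ i ∈ Finset.Ico c (L + c), SB h X K N r p i := by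
    rw [Finset.sum_Ico_eq_sum_range]
    simp [add_comm]
  rw [h1]
  apply Finset.sum_le_sum_of_subset_of_nonneg
  · intro i hi
    rw [Finset.mem_Ico] at hi
    exact Finset.mem_range.2 (by omega)
  · intro i _ _
    exact SB_nonneg h X K N r p i

theorem gap_shift_nat (h : GoodPot G) (X : ZMod Q → ZMod Q → Matrix β α ℝ) {N r : ℕ} (hN : 0 < N)
    (s K : ℕ) (hK : 0 < K) (hs : 2 * s ≤ K) (p : ZMod Q) :
    ∑ q : ZMod Q, mgap G r (abar X N r q p) (abar X N r (q + (s : ZMod Q) * N) p) ≤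
      4 * (∑ q : ZMod Q, G r (abar X N r q p) - ∑ q : ZMod Q, G r (abar X (K * N) r q p)) := by
  set S := ∑ q : ZMod Q, mgap G r (abar X N r q p) (abar X N r (q + (s : ZMod Q) * N) p) with hG
  set D := ∑ q : ZMod Q, G r (abar X N r q p) - ∑ q : ZMod Q, G r (abar X (K * N) r q p) with hD
  have hsum : ∑ i ∈ range K, SB h X K N r p i = K * D := sum_SB h X hK hN p
  have hD0 : 0 ≤ D := by
    have h1 : 0 ≤ ∑ i ∈ range K, SB h X K N r p i :=
      Finset.sum_nonneg fun i _ => SB_nonneg h X K N r p i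
    rw [hsum] at h1
    have : (0 : ℝ) < K := by exact_mod_cast hK
    exact nonneg_of_mul_nonneg_right h1 this
  have hi : ∀ i : ℕ, S ≤ SB h X K N r p i + SB h X K N r p (i + s) := by
    intro i
    have e1 : S = ∑ q : ZMod Q, mgap G r (abar X N r (q + (i : ZMod Q) * N) p)
        (abar X N r (q + ((i + s : ℕ) : ZMod Q) * N) p) := by
      rw [hG, ← sum_shift _ ((i : ZMod Q) * (N : ZMod Q))]
      refine Finset.sum_congr rfl fun q _ => ?_
      have : q + (i : ZMod Q) * N + (s : ZMod Q) * N = q + ((i + s : ℕ) : ZMod Q) * N := by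
        push_cast; ring
      rw [this]
    rw [e1]
    unfold SB
    rw [← Finset.sum_add_distrib]
    exact Finset.sum_le_sum fun q _ => mgap_le_bz h _ (abar_posSemidef X _ _ _ _)
      (abar_posSemidef X _ _ _ _)
  have hsum2 : ((K - s : ℕ) : ℝ) * S ≤ 2 * (K * D) := by
    have h1 : ∑ _i ∈ range (K - s), S ≤
        ∑ i ∈ range (K - s), (SB h X K N r p i + SB h X K N r p (i + s)) :=
      Finset.sum_le_sum fun i _ => hi i
    rw [Finset.sum_const, Finset.card_range, nsmul_eq_mul, Finset.sum_add_distrib] at h1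
    have h2 := sum_SB_shift_le h X K N r p (K - s) 0 (by omega)
    have h3 := sum_SB_shift_le h X K N r p (K - s) s (by omega)
    simp only [add_zero] at h2
    rw [hsum] at h2 h3
    linarith
  have hKs : (K : ℝ) ≤ 2 * ((K - s : ℕ) : ℝ) := by
    have : K ≤ 2 * (K - s) := by omega
    exact_mod_cast this
  have hpos : (0 : ℝ) < ((K - s : ℕ) : ℝ) := by
    have : 0 < K - s := by omega
    exact_mod_cast this
  have h5 : ((K - s : ℕ) : ℝ) * S ≤ ((K - s : ℕ) : ℝ) * (4 * D) := by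
    nlinarith
  exact le_of_mul_le_mul_left h5 hpos

theorem gap_shift_two_nat (h : GoodPot G) (X : ZMod Q → ZMod Q → Matrix β α ℝ) {N r : ℕ} (hN : 0 < N)
    (s K : ℕ) (hs : 2 * (s + 1) ≤ K) (p : ZMod Q) :
    ∑ q : ZMod Q, mgap G r (abar X (N + N) r q p) (abar X (N + N) r (q + (s : ZMod Q) * N) p) ≤
      4 * (∑ q : ZMod Q, G r (abar X N r q p) - ∑ q : ZMod Q, G r (abar X (K * N) r q p)) := by
  have hK : 0 < K := by omega
  set S := ∑ q : ZMod Q, mgap G r (abar X (N + N) r q p)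
    (abar X (N + N) r (q + (s : ZMod Q) * N) p) with hG
  set D := ∑ q : ZMod Q, G r (abar X N r q p) - ∑ q : ZMod Q, G r (abar X (K * N) r q p) with hD
  have hsum : ∑ i ∈ range K, SB h X K N r p i = K * D := sum_SB h X hK hN p
  have hD0 : 0 ≤ D := by
    have h1 : 0 ≤ ∑ i ∈ range K, SB h X K N r p i :=
      Finset.sum_nonneg fun i _ => SB_nonneg h X K N r p i
    rw [hsum] at h1
    have : (0 : ℝ) < K := by exact_mod_cast hK
    exact nonneg_of_mul_nonneg_right h1 this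
  have hb : ∀ (q : ZMod Q) (i : ℕ),
      bz h r (abar X (K * N) r q p) (abar_posSemidef X (K * N) r q p)
        (abar X (N + N) r (q + (i : ZMod Q) * N) p) ≤
      (bz h r (abar X (K * N) r q p) (abar_posSemidef X (K * N) r q p)
          (abar X N r (q + (i : ZMod Q) * N) p) +
        bz h r (abar X (K * N) r q p) (abar_posSemidef X (K * N) r q p)
          (abar X N r (q + ((i + 1 : ℕ) : ZMod Q) * N) p)) / 2 := by
    intro q i
    rw [abar_two X hN]
    have : q + (i : ZMod Q) * N + N = q + ((i + 1 : ℕ) : ZMod Q) * N := by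
      push_cast; ring
    rw [this]
    exact bz_mid_le h _ (abar_posSemidef X _ _ _ _) (abar_posSemidef X _ _ _ _)
  have hi : ∀ i : ℕ, S ≤ (SB h X K N r p i + SB h X K N r p (i + 1)) / 2 +
      (SB h X K N r p (i + s) + SB h X K N r p (i + (s + 1))) / 2 := by
    intro i
    have e1 : S = ∑ q : ZMod Q, mgap G r (abar X (N + N) r (q + (i : ZMod Q) * N) p)
        (abar X (N + N) r (q + ((i + s : ℕ) : ZMod Q) * N) p) := by
      rw [hG, ← sum_shift _ ((i : ZMod Q) * (N : ZMod Q))]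
      refine Finset.sum_congr rfl fun q _ => ?_
      have : q + (i : ZMod Q) * N + (s : ZMod Q) * N = q + ((i + s : ℕ) : ZMod Q) * N := by
        push_cast; ring
      rw [this]
    have e2 : (SB h X K N r p i + SB h X K N r p (i + 1)) / 2 +
        (SB h X K N r p (i + s) + SB h X K N r p (i + (s + 1))) / 2 =
        ∑ q : ZMod Q,
          ((bz h r (abar X (K * N) r q p) (abar_posSemidef X (K * N) r q p)
              (abar X N r (q + (i : ZMod Q) * N) p) +
            bz h r (abar X (K * N) r q p) (abar_posSemidef X (K * N) r q p)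
              (abar X N r (q + ((i + 1 : ℕ) : ZMod Q) * N) p)) / 2 +
          (bz h r (abar X (K * N) r q p) (abar_posSemidef X (K * N) r q p)
              (abar X N r (q + ((i + s : ℕ) : ZMod Q) * N) p) +
            bz h r (abar X (K * N) r q p) (abar_posSemidef X (K * N) r q p)
              (abar X N r (q + ((i + s + 1 : ℕ) : ZMod Q) * N) p)) / 2) := by
      unfold SB
      rw [← add_assoc i s 1]
      rw [Finset.sum_add_distrib, ← Finset.sum_div, ← Finset.sum_div, Finset.sum_add_distrib,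
        Finset.sum_add_distrib]
    rw [e1, e2]
    refine Finset.sum_le_sum fun q _ => ?_
    refine (mgap_le_bz h (abar_posSemidef X (K * N) r q p) (abar_posSemidef X _ _ _ _)
      (abar_posSemidef X _ _ _ _)).trans ?_
    exact add_le_add (hb q i) (hb q (i + s))
  have hsum2 : ((K - (s + 1) : ℕ) : ℝ) * S ≤ 2 * (K * D) := by
    have h1 : ∑ _i ∈ range (K - (s + 1)), S ≤
        ∑ i ∈ range (K - (s + 1)), ((SB h X K N r p i + SB h X K N r p (i + 1)) / 2 +
          (SB h X K N r p (i + s) + SB h X K N r p (i + (s + 1))) / 2) :=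
      Finset.sum_le_sum fun i _ => hi i
    rw [Finset.sum_const, Finset.card_range, nsmul_eq_mul, Finset.sum_add_distrib,
      ← Finset.sum_div, ← Finset.sum_div, Finset.sum_add_distrib, Finset.sum_add_distrib] at h1
    have h2 := sum_SB_shift_le h X K N r p (K - (s + 1)) 0 (by omega)
    have h3 := sum_SB_shift_le h X K N r p (K - (s + 1)) 1 (by omega)
    have h4 := sum_SB_shift_le h X K N r p (K - (s + 1)) s (by omega)
    have h5 := sum_SB_shift_le h X K N r p (K - (s + 1)) (s + 1) (by omega)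
    simp only [add_zero] at h2
    rw [hsum] at h2 h3 h4 h5
    linarith
  have hKs : (K : ℝ) ≤ 2 * ((K - (s + 1) : ℕ) : ℝ) := by
    have : K ≤ 2 * (K - (s + 1)) := by omega
    exact_mod_cast this
  have hpos : (0 : ℝ) < ((K - (s + 1) : ℕ) : ℝ) := by
    have : 0 < K - (s + 1) := by omega
    exact_mod_cast this
  have h5 : ((K - (s + 1) : ℕ) : ℝ) * S ≤ ((K - (s + 1) : ℕ) : ℝ) * (4 * D) := by
    nlinarith
  exact le_of_mul_le_mul_left h5 hpos

end shift

/-- (SL) for `N`-averages -/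
theorem gap_shift {P : TPot α} (h : GoodPot P.E) (X : ZMod Q → ZMod Q → Matrix β α ℝ) {N r : ℕ}
    (hN : 0 < N) (s : ℤ) (K : ℕ) (hK : 0 < K) (hs : 2 * |s| ≤ K) :
    ∑ p : ZMod Q, ∑ q : ZMod Q,
      mgap P.E r (abar X N r q p) (abar X N r (q + (s : ZMod Q) * N) p) ≤
      4 * (EW P X N r - EW P X (K * N) r) := by
  have hs' : 2 * s.natAbs ≤ K := by
    have : ((s.natAbs : ℕ) : ℤ) = |s| := Int.natCast_natAbs s
    omega
  unfold EW
  rw [← Finset.sum_sub_distrib, Finset.mul_sum]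
  refine Finset.sum_le_sum fun p _ => ?_
  refine le_trans (le_of_eq ?_) (gap_shift_nat h X hN s.natAbs K hK hs' p)
  rcases Int.natAbs_eq s with h' | h'
  · rw [h']; simp
  · rw [← sum_shift (fun q => mgap P.E r (abar X N r q p) (abar X N r (q + (s : ZMod Q) * N) p))
      ((s.natAbs : ZMod Q) * N)]
    refine Finset.sum_congr rfl fun q _ => ?_
    have e : q + (s.natAbs : ZMod Q) * N + (s : ZMod Q) * N = q := by
      have : (s : ZMod Q) = -((s.natAbs : ℕ) : ZMod Q) := by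
        have h2 : (s : ZMod Q) = ((-(s.natAbs : ℤ) : ℤ) : ZMod Q) := congrArg _ h'
        rw [h2, Int.cast_neg, Int.cast_natCast]
      rw [this]; ring
    rw [e, mgap_comm]

/-- (SL) for `2N`-averages with shifts in `N ℤ` -/
theorem gap_shift_two {P : TPot α} (h : GoodPot P.E) (X : ZMod Q → ZMod Q → Matrix β α ℝ) {N r : ℕ}
    (hN : 0 < N) (s : ℤ) (K : ℕ) (hs : 2 * (|s| + 1) ≤ K) :
    ∑ p : ZMod Q, ∑ q : ZMod Q,
      mgap P.E r (abar X (N + N) r q p) (abar X (N + N) r (q + (s : ZMod Q) * N) p) ≤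
      4 * (EW P X N r - EW P X (K * N) r) := by
  have hs' : 2 * (s.natAbs + 1) ≤ K := by
    have : ((s.natAbs : ℕ) : ℤ) = |s| := Int.natCast_natAbs s
    omega
  unfold EW
  rw [← Finset.sum_sub_distrib, Finset.mul_sum]
  refine Finset.sum_le_sum fun p _ => ?_
  refine le_trans (le_of_eq ?_) (gap_shift_two_nat h X hN s.natAbs K hs' p)
  rcases Int.natAbs_eq s with h' | h'
  · rw [h']; simp
  · rw [← sum_shift (fun q => mgap P.E r (abar X (N + N) r q p)
      (abar X (N + N) r (q + (s : ZMod Q) * N) p)) ((s.natAbs : ZMod Q) * N)]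
    refine Finset.sum_congr rfl fun q _ => ?_
    have e : q + (s.natAbs : ZMod Q) * N + (s : ZMod Q) * N = q := by
      have : (s : ZMod Q) = -((s.natAbs : ℕ) : ZMod Q) := by
        have h2 : (s : ZMod Q) = ((-(s.natAbs : ℤ) : ℤ) : ZMod Q) := congrArg _ h'
        rw [h2, Int.cast_neg, Int.cast_natCast]
      rw [this]; ring
    rw [e, mgap_comm]

/-- general mixed difference estimate for `W` -/
theorem W_mixed_gen {P : TPot α} {c : ℝ} (h : Good P c) (X : ZMod Q → ZMod Q → Matrix β α ℝ)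
    (Z : ZMod Q → ZMod Q → Matrix γ α ℝ) (a r : ℕ)
    (n u v : ZMod Q) (ex ez : ℝ)
    (hX : ∑ p : ZMod Q, ∑ q : ZMod Q, mgap P.E r (abar X a r q p) (abar X a r (q + u) p) ≤ 4 * ex)
    (hZ : ∑ p : ZMod Q, ∑ q : ZMod Q, mgap P.E r (abar Z a r q p) (abar Z a r (q + v) p) ≤
      4 * ez) :
    |W P X Z a r n + W P X Z a r (n + (u + v)) - W P X Z a r (n + u) - W P X Z a r (n + v)| ≤
      4 * c * (ex + ez) := by
  have e00 : W P X Z a r n = ∑ p : ZMod Q, ∑ q : ZMod Q,
      P.F r (abar X a r q p + abar Z a r (n - p - q) p) := rfl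
  have e11 : W P X Z a r (n + (u + v)) = ∑ p : ZMod Q, ∑ q : ZMod Q,
      P.F r (abar X a r (q + u) p + abar Z a r (n - p - q + v) p) := by
    unfold W
    refine Finset.sum_congr rfl fun p _ => ?_
    rw [← sum_shift _ u]
    refine Finset.sum_congr rfl fun q _ => ?_
    have : n + (u + v) - p - (q + u) = n - p - q + v := by ring
    rw [this]
  have e10 : W P X Z a r (n + u) = ∑ p : ZMod Q, ∑ q : ZMod Q,
      P.F r (abar X a r (q + u) p + abar Z a r (n - p - q) p) := by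
    unfold W
    refine Finset.sum_congr rfl fun p _ => ?_
    rw [← sum_shift _ u]
    refine Finset.sum_congr rfl fun q _ => ?_
    have : n + u - p - (q + u) = n - p - q := by ring
    rw [this]
  have e01 : W P X Z a r (n + v) = ∑ p : ZMod Q, ∑ q : ZMod Q,
      P.F r (abar X a r q p + abar Z a r (n - p - q + v) p) := by
    unfold W
    refine Finset.sum_congr rfl fun p _ => Finset.sum_congr rfl fun q _ => ?_
    have : n + v - p - q = n - p - q + v := by ring
    rw [this]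
  have hZ' : ∑ p : ZMod Q, ∑ q : ZMod Q,
      mgap P.E r (abar Z a r (n - p - q) p) (abar Z a r (n - p - q + v) p) ≤ 4 * ez := by
    refine le_trans (le_of_eq ?_) hZ
    refine Finset.sum_congr rfl fun p _ => ?_
    exact Equiv.sum_comp (Equiv.subLeft (n - p))
      (fun q => mgap P.E r (abar Z a r q p) (abar Z a r (q + v) p))
  have hup : ∀ p q : ZMod Q,
      |P.F r (abar X a r q p + abar Z a r (n - p - q) p) +
        P.F r (abar X a r (q + u) p + abar Z a r (n - p - q + v) p) -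
        P.F r (abar X a r (q + u) p + abar Z a r (n - p - q) p) -
        P.F r (abar X a r q p + abar Z a r (n - p - q + v) p)| ≤
      c * (mgap P.E r (abar X a r q p) (abar X a r (q + u) p) +
        mgap P.E r (abar Z a r (n - p - q) p) (abar Z a r (n - p - q + v) p)) := by
    intro p q
    have h1 := h.mixed r _ _ _ _ (abar_posSemidef X a r q p) (abar_posSemidef X a r (q + u) p)
      (abar_posSemidef Z a r (n - p - q) p) (abar_posSemidef Z a r (n - p - q + v) p)
    rw [abs_le] at h1 ⊢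
    constructor <;> linarith [h1.1, h1.2]
  rw [e00, e11, e10, e01]
  simp only [← Finset.sum_add_distrib, ← Finset.sum_sub_distrib]
  calc _ ≤ ∑ p : ZMod Q, ∑ q : ZMod Q,
      |P.F r (abar X a r q p + abar Z a r (n - p - q) p) +
        P.F r (abar X a r (q + u) p + abar Z a r (n - p - q + v) p) -
        P.F r (abar X a r (q + u) p + abar Z a r (n - p - q) p) -
        P.F r (abar X a r q p + abar Z a r (n - p - q + v) p)| :=
        (Finset.abs_sum_le_sum_abs _ _).trans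
          (Finset.sum_le_sum fun p _ => Finset.abs_sum_le_sum_abs _ _)
    _ ≤ ∑ p : ZMod Q, ∑ q : ZMod Q,
      c * (mgap P.E r (abar X a r q p) (abar X a r (q + u) p) +
        mgap P.E r (abar Z a r (n - p - q) p) (abar Z a r (n - p - q + v) p)) :=
        Finset.sum_le_sum fun p _ => Finset.sum_le_sum fun q _ => hup p q
    _ = c * (∑ p : ZMod Q, ∑ q : ZMod Q, mgap P.E r (abar X a r q p) (abar X a r (q + u) p) +
        ∑ p : ZMod Q, ∑ q : ZMod Q,
          mgap P.E r (abar Z a r (n - p - q) p) (abar Z a r (n - p - q + v) p)) := by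
        simp only [← Finset.mul_sum, Finset.sum_add_distrib]
    _ ≤ c * (4 * ex + 4 * ez) := mul_le_mul_of_nonneg_left (add_le_add hX hZ') h.c0
    _ = 4 * c * (ex + ez) := by ring

/-- (C4) for `N`-averages -/
theorem W_mixed {P : TPot α} {c : ℝ} (h : Good P c) (X : ZMod Q → ZMod Q → Matrix β α ℝ)
    (Z : ZMod Q → ZMod Q → Matrix γ α ℝ) {N r : ℕ}
    (hN : 0 < N) (n : ZMod Q)
    (s t : ℤ) (K : ℕ) (hK : 0 < K) (hs : 2 * |s| ≤ K) (ht : 2 * |t| ≤ K) :
    |W P X Z N r n + W P X Z N r (n + (s + t : ℤ) * N) - W P X Z N r (n + (s : ZMod Q) * N) -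
        W P X Z N r (n + (t : ZMod Q) * N)| ≤
      4 * c * (EW P X N r - EW P X (K * N) r + (EW P Z N r - EW P Z (K * N) r)) := by
  have h := W_mixed_gen h X Z N r n ((s : ZMod Q) * N) ((t : ZMod Q) * N) _ _
    (gap_shift h.E X hN s K hK hs) (gap_shift h.E Z hN t K hK ht)
  have e : ((s + t : ℤ) : ZMod Q) * N = (s : ZMod Q) * N + (t : ZMod Q) * N := by
    push_cast; ring
  rw [e]
  exact h

/-- (C4) for `2N`-averages -/
theorem W_mixed_two {P : TPot α} {c : ℝ} (h : Good P c) (X : ZMod Q → ZMod Q → Matrix β α ℝ)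
    (Z : ZMod Q → ZMod Q → Matrix γ α ℝ) {N r : ℕ}
    (hN : 0 < N) (n : ZMod Q)
    (s t : ℤ) (K : ℕ) (hs : 2 * (|s| + 1) ≤ K) (ht : 2 * (|t| + 1) ≤ K) :
    |W P X Z (N + N) r n + W P X Z (N + N) r (n + (s + t : ℤ) * N) -
        W P X Z (N + N) r (n + (s : ZMod Q) * N) - W P X Z (N + N) r (n + (t : ZMod Q) * N)| ≤
      4 * c * (EW P X N r - EW P X (K * N) r + (EW P Z N r - EW P Z (K * N) r)) := by
  have h := W_mixed_gen h X Z (N + N) r n ((s : ZMod Q) * N) ((t : ZMod Q) * N) _ _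
    (gap_shift_two h.E X hN s K hs) (gap_shift_two h.E Z hN t K ht)
  have e : ((s + t : ℤ) : ZMod Q) * N = (s : ZMod Q) * N + (t : ZMod Q) * N := by
    push_cast; ring
  rw [e]
  exact h

/-- pointwise (unaveraged) form of the one scale estimate -/
theorem gap_pot_pt {P : TPot α} {c : ℝ} (h : Good P c) (X : ZMod Q → ZMod Q → Matrix β α ℝ)
    (Z : ZMod Q → ZMod Q → Matrix γ α ℝ) (m κ : ℕ)
    (l : ℤ) (hκ : 2 * |l| + 20 ≤ 2 ^ κ) (i : ZMod Q) :
    GW P X Z (2 ^ m) ((l : ZMod Q) * ((2 ^ m : ℕ) : ZMod Q) + i) ≤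
      4 * W P X Z (2 ^ m) (2 ^ m) (((-2 : ℤ) : ZMod Q) * ((2 ^ m : ℕ) : ZMod Q) + i) -
      2 * (W P X Z (2 ^ (m + 1)) (2 ^ (m + 1))
            (((-4 : ℤ) : ZMod Q) * ((2 ^ m : ℕ) : ZMod Q) + i) +
          W P X Z (2 ^ (m + 1)) (2 ^ (m + 1))
            (((-3 : ℤ) : ZMod Q) * ((2 ^ m : ℕ) : ZMod Q) + i)) +
      16 * c * (EE P X Z (2 ^ m) - EE P X Z (2 ^ (m + κ))) := by
  have hc0 := h.c0
  set N : ℕ := 2 ^ m with hNdef
  have hN : 0 < N := by positivity
  have hN2 : (2 : ℕ) ^ (m + 1) = N + N := by rw [hNdef]; ring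
  have hNK : (2 : ℕ) ^ (m + κ) = 2 ^ κ * N := by rw [hNdef]; ring
  rw [hN2, hNK]
  set K : ℕ := 2 ^ κ with hKdef
  have hK : 0 < K := by positivity
  have hκ' : 2 * |l| + 20 ≤ (K : ℤ) := by rw [hKdef]; exact_mod_cast hκ
  have hl1 := le_abs_self l
  have hl2 := neg_abs_le l
  have h1 := GW_le h.F X Z hN ((l : ZMod Q) * (N : ZMod Q) + i)
  have h2 := GW_le h.F X Z hN (((-7 - l : ℤ) : ZMod Q) * (N : ZMod Q) + i)
  have h2' := GW_nonneg h.F X Z N (((-7 - l : ℤ) : ZMod Q) * (N : ZMod Q) + i)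
  set DX := EW P X N N - EW P X (K * N) (K * N) with hDX
  set DZ := EW P Z N N - EW P Z (K * N) (K * N) with hDZ
  have hKN : 0 < K * N := by positivity
  have hEKX : EW P X (K * N) (K * N) ≤ EW P X (K * N) N := EW_pow_r h.E X hN κ
  have hEKZ : EW P Z (K * N) (K * N) ≤ EW P Z (K * N) N := EW_pow_r h.E Z hN κ
  have hκ1 : 1 ≤ κ := by
    rcases Nat.eq_zero_or_pos κ with h | h
    · exfalso
      have h3 : K = 1 := by rw [hKdef, h]; norm_num
      rw [h3] at hκ'
      push_cast at hκ'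
      have := abs_nonneg l
      omega
    · exact h
  have hEK2X : EW P X (K * N) (K * N) ≤ EW P X (K * N) (N + N) := by
    have h3 := EW_pow_r h.E X (a := K * N) (r := N + N) (by omega) (κ - 1)
    have e : 2 ^ (κ - 1) * (N + N) = K * N := by
      rw [hKdef, ← two_mul, ← mul_assoc, ← pow_succ, Nat.sub_add_cancel hκ1]
    rwa [e] at h3
  have hEK2Z : EW P Z (K * N) (K * N) ≤ EW P Z (K * N) (N + N) := by
    have h3 := EW_pow_r h.E Z (a := K * N) (r := N + N) (by omega) (κ - 1)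
    have e : 2 ^ (κ - 1) * (N + N) = K * N := by
      rw [hKdef, ← two_mul, ← mul_assoc, ← pow_succ, Nat.sub_add_cancel hκ1]
    rwa [e] at h3
  have hE2X : EW P X N (N + N) ≤ EW P X N N := EW_double_r h.E X hN
  have hE2Z : EW P Z N (N + N) ≤ EW P Z N N := EW_double_r h.E Z hN
  -- N-scale comparison
  have hA : ∀ j : ℤ, |j| ≤ |l| + 2 →
      W P X Z N N ((j : ZMod Q) * N + i) + W P X Z N N (((-4 - j : ℤ) : ZMod Q) * N + i) ≤
        2 * W P X Z N N (((-2 : ℤ) : ZMod Q) * N + i) + 4 * c * (DX + DZ) := by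
    intro j hj
    have hj1 := le_abs_self j
    have hj2 := neg_abs_le j
    have h3 := W_mixed h X Z (r := N) hN (((-2 : ℤ) : ZMod Q) * N + i) (j + 2) (-2 - j) K hK
      (by rcases abs_cases (j + 2) with h | h <;> omega)
      (by rcases abs_cases (-2 - j) with h | h <;> omega)
    have e1 : ((-2 : ℤ) : ZMod Q) * N + i + ((j + 2 + (-2 - j) : ℤ) : ZMod Q) * N =
        ((-2 : ℤ) : ZMod Q) * N + i := by
      push_cast; ring
    have e2 : ((-2 : ℤ) : ZMod Q) * N + i + ((j + 2 : ℤ) : ZMod Q) * N =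
        (j : ZMod Q) * N + i := by
      push_cast; ring
    have e3 : ((-2 : ℤ) : ZMod Q) * N + i + ((-2 - j : ℤ) : ZMod Q) * N =
        ((-4 - j : ℤ) : ZMod Q) * N + i := by
      push_cast; ring
    rw [e1, e2, e3] at h3
    have h4 := (abs_le.1 h3).1
    have h5 := hEKX
    have h6 := hEKZ
    have h7 : 4 * c * (EW P X N N - EW P X (K * N) N + (EW P Z N N - EW P Z (K * N) N)) ≤
        4 * c * (DX + DZ) := mul_le_mul_of_nonneg_left (by linarith) (by linarith)
    linarith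
  -- 2N-scale comparison
  have hB : W P X Z (N + N) (N + N) (((-4 : ℤ) : ZMod Q) * N + i) +
        W P X Z (N + N) (N + N) (((-3 : ℤ) : ZMod Q) * N + i) - 4 * c * (DX + DZ) ≤
      W P X Z (N + N) (N + N) ((l : ZMod Q) * N + i) +
        W P X Z (N + N) (N + N) (((-7 - l : ℤ) : ZMod Q) * N + i) := by
    have h3 := W_mixed_two h X Z hN (r := N + N) (((-4 : ℤ) : ZMod Q) * N + i)
      (l + 4) (-3 - l) K
      (by rcases abs_cases (l + 4) with h | h <;> omega)
      (by rcases abs_cases (-3 - l) with h | h <;> omega)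
    have e1 : ((-4 : ℤ) : ZMod Q) * N + i + ((l + 4 + (-3 - l) : ℤ) : ZMod Q) * N =
        ((-3 : ℤ) : ZMod Q) * N + i := by
      push_cast; ring
    have e2 : ((-4 : ℤ) : ZMod Q) * N + i + ((l + 4 : ℤ) : ZMod Q) * N =
        (l : ZMod Q) * N + i := by
      push_cast; ring
    have e3 : ((-4 : ℤ) : ZMod Q) * N + i + ((-3 - l : ℤ) : ZMod Q) * N =
        ((-7 - l : ℤ) : ZMod Q) * N + i := by
      push_cast; ring
    rw [e1, e2, e3] at h3
    have h4 := (abs_le.1 h3).2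
    have h5 := hEK2X
    have h6 := hEK2Z
    have h7 := hE2X
    have h8 := hE2Z
    have h9 : 4 * c * (EW P X N (N + N) - EW P X (K * N) (N + N) +
        (EW P Z N (N + N) - EW P Z (K * N) (N + N))) ≤ 4 * c * (DX + DZ) :=
      mul_le_mul_of_nonneg_left (by linarith) (by linarith)
    linarith
  have hA1 := hA (l + 1) (by rcases abs_cases (l + 1) with h | h <;> omega)
  have hA2 := hA (l + 2) (by rcases abs_cases (l + 2) with h | h <;> omega)
  have f1 : ((l + 1 : ℤ) : ZMod Q) * N + i = (l : ZMod Q) * N + i + N := by push_cast; ring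
  have f2 : ((-4 - (l + 1) : ℤ) : ZMod Q) * N + i =
      ((-7 - l : ℤ) : ZMod Q) * N + i + 2 * N := by push_cast; ring
  have f3 : ((l + 2 : ℤ) : ZMod Q) * N + i = (l : ZMod Q) * N + i + 2 * N := by push_cast; ring
  have f4 : ((-4 - (l + 2) : ℤ) : ZMod Q) * N + i =
      ((-7 - l : ℤ) : ZMod Q) * N + i + N := by push_cast; ring
  rw [f1, f2] at hA1
  rw [f3, f4] at hA2
  have hEE : EE P X Z N - EE P X Z (K * N) = DX + DZ := by
    unfold EE; rw [hDX, hDZ]; ring
  rw [hEE]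
  linarith

theorem Vb_double (P : TPot α) (X : ZMod Q → ZMod Q → Matrix β α ℝ)
    (Z : ZMod Q → ZMod Q → Matrix γ α ℝ) {N : ℕ} (hN : 0 < N) :
    (1 / (N : ℝ)) * ∑ i ∈ range N,
      (W P X Z (N + N) (N + N) (((-4 : ℤ) : ZMod Q) * (N : ZMod Q) + (i : ZMod Q)) +
        W P X Z (N + N) (N + N) (((-3 : ℤ) : ZMod Q) * (N : ZMod Q) + (i : ZMod Q))) =
      2 * Vb P X Z (N + N) := by
  have hN' : (N : ℝ) ≠ 0 := by positivity
  unfold Vb bl
  rw [Finset.sum_range_add, Finset.sum_add_distrib]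
  have h1 : ∀ i ∈ range N,
      W P X Z (N + N) (N + N) (((-2 : ℤ) : ZMod Q) * ((N + N : ℕ) : ZMod Q) + (i : ZMod Q)) =
      W P X Z (N + N) (N + N) (((-4 : ℤ) : ZMod Q) * (N : ZMod Q) + (i : ZMod Q)) := by
    intro i _
    congr 1
    push_cast; ring
  have h2 : ∀ i ∈ range N,
      W P X Z (N + N) (N + N) (((-2 : ℤ) : ZMod Q) * ((N + N : ℕ) : ZMod Q) +
        ((N + i : ℕ) : ZMod Q)) =
      W P X Z (N + N) (N + N) (((-3 : ℤ) : ZMod Q) * (N : ZMod Q) + (i : ZMod Q)) := by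
    intro i _
    congr 1
    push_cast; ring
  rw [Finset.sum_congr rfl h1, Finset.sum_congr rfl h2]
  have h3 : (1 / ((N + N : ℕ) : ℝ)) = (1 / 2) * (1 / (N : ℝ)) := by
    push_cast
    field_simp
    norm_num
  rw [h3]
  ring

/-- (PL1), constant 16 -/
theorem gap_pot {P : TPot α} {c : ℝ} (h : Good P c) (X : ZMod Q → ZMod Q → Matrix β α ℝ)
    (Z : ZMod Q → ZMod Q → Matrix γ α ℝ) (m κ : ℕ)
    (l : ℤ) (hκ : 2 * |l| + 20 ≤ 2 ^ κ) :
    bl (GW P X Z (2 ^ m)) (2 ^ m) l ≤
      4 * (Vb P X Z (2 ^ m) - Vb P X Z (2 ^ (m + 1))) +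
        16 * c * (EE P X Z (2 ^ m) - EE P X Z (2 ^ (m + κ))) := by
  have hN : 0 < 2 ^ m := by positivity
  have hN' : ((2 ^ m : ℕ) : ℝ) ≠ 0 := by positivity
  have hV := Vb_double P X Z hN
  have e2 : (2 : ℕ) ^ m + 2 ^ m = 2 ^ (m + 1) := by ring
  rw [e2] at hV
  set D := EE P X Z (2 ^ m) - EE P X Z (2 ^ (m + κ)) with hD
  have h1 : bl (GW P X Z (2 ^ m)) (2 ^ m) l ≤ (1 / ((2 ^ m : ℕ) : ℝ)) *
      ∑ i ∈ range (2 ^ m), (4 * W P X Z (2 ^ m) (2 ^ m)
          (((-2 : ℤ) : ZMod Q) * ((2 ^ m : ℕ) : ZMod Q) + (i : ZMod Q)) -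
        2 * (W P X Z (2 ^ (m + 1)) (2 ^ (m + 1))
            (((-4 : ℤ) : ZMod Q) * ((2 ^ m : ℕ) : ZMod Q) + (i : ZMod Q)) +
          W P X Z (2 ^ (m + 1)) (2 ^ (m + 1))
            (((-3 : ℤ) : ZMod Q) * ((2 ^ m : ℕ) : ZMod Q) + (i : ZMod Q))) +
        16 * c * D) := by
    unfold bl
    refine mul_le_mul_of_nonneg_left (Finset.sum_le_sum fun i _ => ?_) (by positivity)
    exact gap_pot_pt h X Z m κ l hκ (i : ZMod Q)
  refine h1.trans (le_of_eq ?_)
  rw [Finset.sum_add_distrib, Finset.sum_sub_distrib, ← Finset.mul_sum, ← Finset.mul_sum,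
    Finset.sum_const, Finset.card_range, nsmul_eq_mul, mul_add, mul_sub]
  have h2 : (1 / ((2 ^ m : ℕ) : ℝ)) * (2 * ∑ i ∈ range (2 ^ m),
      (W P X Z (2 ^ (m + 1)) (2 ^ (m + 1))
            (((-4 : ℤ) : ZMod Q) * ((2 ^ m : ℕ) : ZMod Q) + (i : ZMod Q)) +
          W P X Z (2 ^ (m + 1)) (2 ^ (m + 1))
            (((-3 : ℤ) : ZMod Q) * ((2 ^ m : ℕ) : ZMod Q) + (i : ZMod Q)))) =
      2 * (2 * Vb P X Z (2 ^ (m + 1))) := by
    rw [← hV]; ring
  have h3 : (1 / ((2 ^ m : ℕ) : ℝ)) * (((2 ^ m : ℕ) : ℝ) * (16 * c * D)) = 16 * c * D := by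
    field_simp
  have h4 : (1 / ((2 ^ m : ℕ) : ℝ)) * (4 * ∑ i ∈ range (2 ^ m), W P X Z (2 ^ m) (2 ^ m)
          (((-2 : ℤ) : ZMod Q) * ((2 ^ m : ℕ) : ZMod Q) + (i : ZMod Q))) =
      4 * Vb P X Z (2 ^ m) := by
    unfold Vb bl; ring
  rw [h2, h3, h4]
  ring


end Crest.Agent.R079.PotL
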