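import Crest.Agent.R079.PLLat_931

/-! R079, LABELLED lattice potentials, (PL2): summation over the scales, functions with LABELS (functions with values in `Matrix β α ℝ`).  Label version of
helper491's `PotMask_491` (proofs copied).  helper931. -/

set_option autoImplicit false
set_option linter.unusedVariables false
set_option linter.unusedSectionVars false

namespace Crest.Agent.R079.PotL

open Matrix Finset Crest.Agent.R072
open Crest.Agent.R072.Lattice (sum_sub_left' sum_add_right' sum_shift sum_range_mul_aux)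
open scoped MatrixOrder

variable {Q : ℕ} [NeZero Q] {α β γ : Type*} [Fintype α] [DecidableEq α] [Fintype β] [Fintype γ]

/-- telescoping along the diagonal -/
theorem tele_diag (v : ℕ → ℕ → ℝ) (M : ℕ) :
    ∑ m ∈ range M, (v (m + 1) m - v (m + 1) (m + 1)) =
      ∑ m ∈ range M, (v (m + 1) m - v m m) + v 0 0 - v M M := by
  induction M with
  | zero => simp
  | succ M ih =>
    rw [Finset.sum_range_succ, ih, Finset.sum_range_succ]
    ring

theorem tele_diag_kappa (e : ℕ → ℕ → ℝ) (κ M : ℕ) :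
    ∑ m ∈ range M, (e (m + 1) m - e (m + 1) (m + κ)) =
      ∑ j ∈ range κ, (∑ m ∈ range M, (e (m + 1) (m + j) - e m (m + j)) + e 0 j - e M (M + j)) := by
  have h1 : ∀ m : ℕ, e (m + 1) m - e (m + 1) (m + κ) =
      ∑ j ∈ range κ, (e (m + 1) (m + j) - e (m + 1) (m + (j + 1))) := by
    intro m
    rw [Finset.sum_range_sub' (fun j => e (m + 1) (m + j)) κ, add_zero]
  simp only [h1]
  rw [Finset.sum_comm]
  refine Finset.sum_congr rfl fun j _ => ?_
  have h2 := tele_diag (fun a b => e a (b + j)) M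
  simp only [zero_add] at h2
  rw [← h2]
  refine Finset.sum_congr rfl fun m _ => ?_
  have e1 : m + (j + 1) = m + 1 + j := by ring
  rw [e1]

theorem EE_pow_le {P : TPot α} (hE : GoodPot P.E) (X : ZMod Q → ZMod Q → Matrix β α ℝ)
    (Z : ZMod Q → ZMod Q → Matrix γ α ℝ) (j : ℕ) :
    EE P X Z (2 ^ j) ≤ EE P X Z 1 := by
  have h1 := EW_pow hE X (N := 1) one_pos j
  have h2 := EW_pow hE Z (N := 1) one_pos j
  rw [mul_one] at h1 h2
  unfold EE
  linarith

/-- (PL2), constant 16 -/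
theorem mask_sum {P : TPot α} {c : ℝ} (h : Good P c) (X : ℕ → ZMod Q → ZMod Q → Matrix β α ℝ)
    (Z : ℕ → ZMod Q → ZMod Q → Matrix γ α ℝ) (κ M : ℕ)
    (l : ℤ) (hκ : 2 * |l| + 20 ≤ 2 ^ κ) :
    ∑ m ∈ range M, bl (GW P (X (m + 1)) (Z (m + 1)) (2 ^ m)) (2 ^ m) l ≤
      4 * ∑ m ∈ range M, (Vb P (X (m + 1)) (Z (m + 1)) (2 ^ m) - Vb P (X m) (Z m) (2 ^ m)) +
      16 * c * ∑ j ∈ range κ, ∑ m ∈ range M,
        (EE P (X (m + 1)) (Z (m + 1)) (2 ^ (m + j)) - EE P (X m) (Z m) (2 ^ (m + j))) +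
      4 * Vb P (X 0) (Z 0) 1 + 16 * c * κ * EE P (X 0) (Z 0) 1 := by
  have hc := h.c0
  have h1 := Finset.sum_le_sum fun m (_ : m ∈ range M) =>
    gap_pot h (X (m + 1)) (Z (m + 1)) m κ l hκ
  refine h1.trans ?_
  rw [Finset.sum_add_distrib, ← Finset.mul_sum, ← Finset.mul_sum]
  have hv := tele_diag (fun a b => Vb P (X a) (Z a) (2 ^ b)) M
  have he := tele_diag_kappa (fun a b => EE P (X a) (Z a) (2 ^ b)) κ M
  rw [Finset.sum_sub_distrib (s := range κ), Finset.sum_add_distrib (s := range κ)] at he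
  rw [hv, he]
  have hV0 := Vb_nonneg h.F (X M) (Z M) (2 ^ M)
  have hE0 : 0 ≤ ∑ j ∈ range κ, EE P (X M) (Z M) (2 ^ (M + j)) :=
    Finset.sum_nonneg fun j _ => EE_nonneg h.E _ _ _
  have hE1 : ∑ j ∈ range κ, EE P (X 0) (Z 0) (2 ^ j) ≤ κ * EE P (X 0) (Z 0) 1 := by
    refine (Finset.sum_le_sum fun j _ => EE_pow_le h.E (X 0) (Z 0) j).trans (le_of_eq ?_)
    rw [Finset.sum_const, Finset.card_range, nsmul_eq_mul]
  have h2 : 16 * c * (∑ j ∈ range κ, EE P (X 0) (Z 0) (2 ^ j)) ≤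
      16 * c * (κ * EE P (X 0) (Z 0) 1) := mul_le_mul_of_nonneg_left hE1 (by linarith)
  have h3 : 0 ≤ 16 * c * ∑ j ∈ range κ, EE P (X M) (Z M) (2 ^ (M + j)) :=
    mul_nonneg (by linarith) hE0
  rw [pow_zero]
  have h4 : 16 * c * (∑ j ∈ range κ, ∑ m ∈ range M,
        (EE P (X (m + 1)) (Z (m + 1)) (2 ^ (m + j)) - EE P (X m) (Z m) (2 ^ (m + j))) +
      ∑ j ∈ range κ, EE P (X 0) (Z 0) (2 ^ j) -
        ∑ j ∈ range κ, EE P (X M) (Z M) (2 ^ (M + j))) =
      16 * c * (∑ j ∈ range κ, ∑ m ∈ range M,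
        (EE P (X (m + 1)) (Z (m + 1)) (2 ^ (m + j)) - EE P (X m) (Z m) (2 ^ (m + j)))) +
      16 * c * (∑ j ∈ range κ, EE P (X 0) (Z 0) (2 ^ j)) -
        16 * c * ∑ j ∈ range κ, EE P (X M) (Z M) (2 ^ (M + j)) := by ring
  rw [h4]
  have h5 : 16 * c * κ * EE P (X 0) (Z 0) 1 = 16 * c * (κ * EE P (X 0) (Z 0) 1) := by ring
  rw [h5]
  linarith


end Crest.Agent.R079.PotL
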