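import Crest.Agent.R079.PLCost_931

/-! R079, LABELLED line potentials: summation from a leaf scale `2^m0` and the MOVING WORD
(three letters with labels, letters change with the scale, price = leaf `S₃` energies + L1-variation
of the moving letters).  helper931. -/

set_option autoImplicit false
set_option linter.unusedVariables false
set_option linter.unusedSectionVars false

namespace Crest.Agent.R079.PotL

open Matrix Finset Crest.Agent.R072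
open scoped MatrixOrder

section sum

variable {Q : ℕ} [NeZero Q] {α β γ : Type*} [Fintype α] [DecidableEq α] [Fintype β]
  [DecidableEq β] [Fintype γ] [DecidableEq γ]

theorem EE_pow_from {P : TPot α} (hE : GoodPot P.E) (X : ZMod Q → ZMod Q → Matrix β α ℝ)
    (Z : ZMod Q → ZMod Q → Matrix γ α ℝ) (m0 j : ℕ) :
    EE P X Z (2 ^ (m0 + j)) ≤ EE P X Z (2 ^ m0) := by
  have hp : 0 < 2 ^ m0 := by positivity
  have h1 := EW_pow hE X (N := 2 ^ m0) hp j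
  have h2 := EW_pow hE Z (N := 2 ^ m0) hp j
  have e : 2 ^ (m0 + j) = 2 ^ j * 2 ^ m0 := by ring
  unfold EE
  rw [e]
  linarith

/-- (PL2) from a leaf scale -/
theorem mask_sum_from {P : TPot α} {c : ℝ} (h : Good P c)
    (X : ℕ → ZMod Q → ZMod Q → Matrix β α ℝ)
    (Z : ℕ → ZMod Q → ZMod Q → Matrix γ α ℝ) (κ m0 M : ℕ)
    (l : ℤ) (hκ : 2 * |l| + 20 ≤ 2 ^ κ) :
    ∑ m ∈ range M, bl (GW P (X (m + 1)) (Z (m + 1)) (2 ^ (m0 + m))) (2 ^ (m0 + m)) l ≤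
      4 * ∑ m ∈ range M, (Vb P (X (m + 1)) (Z (m + 1)) (2 ^ (m0 + m)) -
        Vb P (X m) (Z m) (2 ^ (m0 + m))) +
      16 * c * ∑ j ∈ range κ, ∑ m ∈ range M,
        (EE P (X (m + 1)) (Z (m + 1)) (2 ^ (m0 + m + j)) -
          EE P (X m) (Z m) (2 ^ (m0 + m + j))) +
      4 * Vb P (X 0) (Z 0) (2 ^ m0) + 16 * c * κ * EE P (X 0) (Z 0) (2 ^ m0) := by
  have hc := h.c0
  have h1 := Finset.sum_le_sum fun m (_ : m ∈ range M) =>
    gap_pot h (X (m + 1)) (Z (m + 1)) (m0 + m) κ l hκ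
  refine h1.trans ?_
  rw [Finset.sum_add_distrib, ← Finset.mul_sum, ← Finset.mul_sum]
  have hv := tele_diag (fun a b => Vb P (X a) (Z a) (2 ^ (m0 + b))) M
  have he := tele_diag_kappa (fun a b => EE P (X a) (Z a) (2 ^ (m0 + b))) κ M
  simp only [← add_assoc] at hv he
  rw [Finset.sum_sub_distrib (s := range κ), Finset.sum_add_distrib (s := range κ)] at he
  rw [hv, he]
  have hV0 := Vb_nonneg h.F (X M) (Z M) (2 ^ (m0 + M))
  have hE0 : 0 ≤ ∑ j ∈ range κ, EE P (X M) (Z M) (2 ^ (m0 + M + j)) :=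
    Finset.sum_nonneg fun j _ => EE_nonneg h.E _ _ _
  have hE1 : ∑ j ∈ range κ, EE P (X 0) (Z 0) (2 ^ (m0 + j)) ≤ κ * EE P (X 0) (Z 0) (2 ^ m0) := by
    refine (Finset.sum_le_sum fun j _ => EE_pow_from h.E (X 0) (Z 0) m0 j).trans (le_of_eq ?_)
    rw [Finset.sum_const, Finset.card_range, nsmul_eq_mul]
  have h2 : 16 * c * (∑ j ∈ range κ, EE P (X 0) (Z 0) (2 ^ (m0 + j))) ≤
      16 * c * (κ * EE P (X 0) (Z 0) (2 ^ m0)) := mul_le_mul_of_nonneg_left hE1 (by linarith)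
  have h3 : 0 ≤ 16 * c * ∑ j ∈ range κ, EE P (X M) (Z M) (2 ^ (m0 + M + j)) :=
    mul_nonneg (by linarith) hE0
  simp only [add_zero]
  have h4 : 16 * c * (∑ j ∈ range κ, ∑ m ∈ range M,
        (EE P (X (m + 1)) (Z (m + 1)) (2 ^ (m0 + m + j)) - EE P (X m) (Z m) (2 ^ (m0 + m + j))) +
      ∑ j ∈ range κ, EE P (X 0) (Z 0) (2 ^ (m0 + j)) -
        ∑ j ∈ range κ, EE P (X M) (Z M) (2 ^ (m0 + M + j))) =
      16 * c * (∑ j ∈ range κ, ∑ m ∈ range M,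
        (EE P (X (m + 1)) (Z (m + 1)) (2 ^ (m0 + m + j)) - EE P (X m) (Z m) (2 ^ (m0 + m + j)))) +
      16 * c * (∑ j ∈ range κ, EE P (X 0) (Z 0) (2 ^ (m0 + j))) -
        16 * c * ∑ j ∈ range κ, EE P (X M) (Z M) (2 ^ (m0 + M + j)) := by ring
  rw [h4]
  have h5 : 16 * c * κ * EE P (X 0) (Z 0) (2 ^ m0) = 16 * c * (κ * EE P (X 0) (Z 0) (2 ^ m0)) := by
    ring
  rw [h5]
  linarith

/-- right hand side of `mask_sum_from` for `tr M^{3/2}` -/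
noncomputable def MSf (X : ℕ → ZMod Q → ZMod Q → Matrix β α ℝ)
    (Z : ℕ → ZMod Q → ZMod Q → Matrix γ α ℝ) (k m0 M : ℕ) : ℝ :=
  4 * ∑ m ∈ range M, (Vb (phiP α) (X (m + 1)) (Z (m + 1)) (2 ^ (m0 + m)) -
      Vb (phiP α) (X m) (Z m) (2 ^ (m0 + m))) +
    64 * ∑ j ∈ range k, ∑ m ∈ range M,
      (EE (phiP α) (X (m + 1)) (Z (m + 1)) (2 ^ (m0 + m + j)) -
        EE (phiP α) (X m) (Z m) (2 ^ (m0 + m + j))) +
    4 * Vb (phiP α) (X 0) (Z 0) (2 ^ m0) + 64 * k * EE (phiP α) (X 0) (Z 0) (2 ^ m0)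

theorem mask_sum_from_phi (X : ℕ → ZMod Q → ZMod Q → Matrix β α ℝ)
    (Z : ℕ → ZMod Q → ZMod Q → Matrix γ α ℝ) (k m0 M : ℕ)
    (l : ℤ) (hk : 2 * |l| + 20 ≤ 2 ^ k) :
    ∑ m ∈ range M, bl (GW (phiP α) (X (m + 1)) (Z (m + 1)) (2 ^ (m0 + m))) (2 ^ (m0 + m)) l ≤
      MSf X Z k m0 M := by
  refine (mask_sum_from good_phiP X Z k m0 M l hk).trans (le_of_eq ?_)
  unfold MSf
  ring

/-- joint potential `≤ 2 ×` own potentials -/
theorem W_le_EE (X : ZMod Q → ZMod Q → Matrix β α ℝ) (Z : ZMod Q → ZMod Q → Matrix γ α ℝ)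
    (N : ℕ) (n : ZMod Q) : W (phiP α) X Z N N n ≤ 2 * EE (phiP α) X Z N := by
  unfold W EE EW
  have h1 : ∀ p q : ZMod Q, (phiP α).F N (abar X N N q p + abar Z N N (n - p - q) p) ≤
      2 * (phiP α).E N (abar X N N q p) + 2 * (phiP α).E N (abar Z N N (n - p - q) p) := by
    intro p q
    have h := phi_add_le (abar_posSemidef X N N q p) (abar_posSemidef Z N N (n - p - q) p)
    have h2 : Real.sqrt 2 ≤ 2 := by
      rw [Real.sqrt_le_left (by norm_num)]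
      norm_num
    have h3 : 0 ≤ phi (abar X N N q p) + phi (abar Z N N (n - p - q) p) :=
      add_nonneg (phi_nonneg (abar_posSemidef _ _ _ _ _)) (phi_nonneg (abar_posSemidef _ _ _ _ _))
    simp only [phiP]
    nlinarith
  refine (Finset.sum_le_sum fun p _ => Finset.sum_le_sum fun q _ => h1 p q).trans (le_of_eq ?_)
  simp_rw [Finset.sum_add_distrib, ← Finset.mul_sum]
  have e3 : ∑ p : ZMod Q, ∑ q : ZMod Q, (phiP α).E N (abar Z N N (n - p - q) p) =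
      ∑ p : ZMod Q, ∑ q : ZMod Q, (phiP α).E N (abar Z N N q p) := by
    refine Finset.sum_congr rfl fun p _ => ?_
    rw [← Equiv.sum_comp (Equiv.subLeft (n - p)) (fun q => (phiP α).E N (abar Z N N q p))]
    rfl
  rw [e3]
  ring

theorem Vb_le_EE (X : ZMod Q → ZMod Q → Matrix β α ℝ) (Z : ZMod Q → ZMod Q → Matrix γ α ℝ)
    {N : ℕ} (hN : 0 < N) : Vb (phiP α) X Z N ≤ 2 * EE (phiP α) X Z N := by
  unfold Vb
  refine (bl_mono (fun n => W_le_EE X Z N n) _ _).trans (le_of_eq ?_)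
  exact bl_const _ hN _

/-- **price of moving letters** -/
theorem MSf_le (X : ℕ → ZMod Q → ZMod Q → Matrix β α ℝ)
    (Z : ℕ → ZMod Q → ZMod Q → Matrix γ α ℝ) (k m0 M : ℕ) {R R' K K₁ K₂ : ℝ} (hR0 : 0 ≤ R)
    (hR'0 : 0 ≤ R') (hK₁ : 0 ≤ K₁) (hK₂ : 0 ≤ K₂) (hK0 : 0 ≤ K) (hKK : K₁ ^ 2 + K₂ ^ 2 ≤ K ^ 2)
    (h : ∀ m ∈ range M, UB (X (m + 1)) (Z (m + 1)) (X m) (Z m) (2 ^ (m0 + m)) R R' K₁ K₂) :
    MSf X Z k m0 M ≤ (8 + 64 * k) * EE (phiP α) (X 0) (Z 0) (2 ^ m0) +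
      (12 + 192 * k) * K * (R * ∑ m ∈ range M, dist1 (X (m + 1)) (X m) +
        R' * ∑ m ∈ range M, dist1 (Z (m + 1)) (Z m)) := by
  have h0 := Vb_le_EE (X 0) (Z 0) (N := 2 ^ m0) (by positivity)
  have h1 : ∑ m ∈ range M, (Vb (phiP α) (X (m + 1)) (Z (m + 1)) (2 ^ (m0 + m)) -
      Vb (phiP α) (X m) (Z m) (2 ^ (m0 + m))) ≤
      ∑ m ∈ range M, (3 * R * K * dist1 (X (m + 1)) (X m) +
        3 * R' * K * dist1 (Z (m + 1)) (Z m)) :=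
    Finset.sum_le_sum fun m hm => Vb_cost _ _ _ _ (by positivity) hR0 hR'0 hK0 hKK (h m hm)
  have h2 : ∑ j ∈ range k, ∑ m ∈ range M,
      (EE (phiP α) (X (m + 1)) (Z (m + 1)) (2 ^ (m0 + m + j)) -
        EE (phiP α) (X m) (Z m) (2 ^ (m0 + m + j))) ≤
      ∑ j ∈ range k, ∑ m ∈ range M, (3 * R * K * dist1 (X (m + 1)) (X m) +
        3 * R' * K * dist1 (Z (m + 1)) (Z m)) :=
    Finset.sum_le_sum fun j _ => Finset.sum_le_sum fun m hm =>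
      EE_cost _ _ _ _ (by positivity) hR0 hR'0 hK₁ hK₂ hK0 hKK ((h m hm).pow j)
  rw [Finset.sum_const, Finset.card_range, nsmul_eq_mul] at h2
  have e : ∑ m ∈ range M, (3 * R * K * dist1 (X (m + 1)) (X m) +
        3 * R' * K * dist1 (Z (m + 1)) (Z m)) =
      3 * K * (R * ∑ m ∈ range M, dist1 (X (m + 1)) (X m) +
        R' * ∑ m ∈ range M, dist1 (Z (m + 1)) (Z m)) := by
    rw [Finset.sum_add_distrib, ← Finset.mul_sum, ← Finset.mul_sum]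
    ring
  rw [e] at h1 h2
  unfold MSf
  nlinarith

theorem MSf_static (X : ZMod Q → ZMod Q → Matrix β α ℝ)
    (Z : ZMod Q → ZMod Q → Matrix γ α ℝ) (k m0 M : ℕ) :
    MSf (fun _ => X) (fun _ => Z) k m0 M ≤ (8 + 64 * k) * EE (phiP α) X Z (2 ^ m0) := by
  have h0 := Vb_le_EE X Z (N := 2 ^ m0) (by positivity)
  unfold MSf
  simp only [sub_self, Finset.sum_const_zero, mul_zero, zero_add]
  linarith

end sum

section final

variable {Q : ℕ} [NeZero Q] {κ0 κ1 κ2 : Type*} [Fintype κ0] [DecidableEq κ0]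
  [Fintype κ1] [DecidableEq κ1] [Fintype κ2] [DecidableEq κ2]

/-- the labelled three-letter line sum from a leaf scale -/
theorem box_sum_from (F0 : ℕ → ZMod Q → ZMod Q → Matrix κ0 κ1 ℝ)
    (F1 : ℕ → ZMod Q → ZMod Q → Matrix κ1 κ2 ℝ) (F2 : ℕ → ZMod Q → ZMod Q → Matrix κ2 κ0 ℝ)
    (k m0 M : ℕ) (l : ℤ) (hk : 2 * |l| + 20 ≤ 2 ^ k) :
    ∑ m ∈ range M, bl (fun n => ∑ p0 : ZMod Q, ∑ p1 : ZMod Q,
        |LboxL (F0 (m + 1)) (F1 (m + 1)) (F2 (m + 1)) (2 ^ (m0 + m)) p0 p1 (n - p0 - p1)|)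
          (2 ^ (m0 + m)) l ≤
      (Real.pi / 2) *
        (MSf F0 (fun m x y => (F1 m y x)ᵀ) k m0 M + MSf F1 (fun m x y => (F2 m y x)ᵀ) k m0 M +
          MSf F2 (fun m x y => (F0 m y x)ᵀ) k m0 M) := by
  have h1 := mask_sum_from_phi F0 (fun m x y => (F1 m y x)ᵀ) k m0 M l hk
  have h2 := mask_sum_from_phi F1 (fun m x y => (F2 m y x)ᵀ) k m0 M l hk
  have h3 := mask_sum_from_phi F2 (fun m x y => (F0 m y x)ᵀ) k m0 M l hk
  have h0 : ∀ m ∈ range M, bl (fun n => ∑ p0 : ZMod Q, ∑ p1 : ZMod Q,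
        |LboxL (F0 (m + 1)) (F1 (m + 1)) (F2 (m + 1)) (2 ^ (m0 + m)) p0 p1 (n - p0 - p1)|)
          (2 ^ (m0 + m)) l ≤
      (Real.pi / 2) *
        (bl (GW (phiP κ1) (F0 (m + 1)) (fun x y => (F1 (m + 1) y x)ᵀ) (2 ^ (m0 + m)))
            (2 ^ (m0 + m)) l +
          bl (GW (phiP κ2) (F1 (m + 1)) (fun x y => (F2 (m + 1) y x)ᵀ) (2 ^ (m0 + m)))
            (2 ^ (m0 + m)) l +
          bl (GW (phiP κ0) (F2 (m + 1)) (fun x y => (F0 (m + 1) y x)ᵀ) (2 ^ (m0 + m)))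
            (2 ^ (m0 + m)) l) := by
    intro m _
    rw [← bl_add, ← bl_add, ← bl_const_mul]
    exact bl_mono (fun n => LboxL_le _ _ _ _ n) _ _
  refine (Finset.sum_le_sum h0).trans ?_
  rw [← Finset.mul_sum, Finset.sum_add_distrib, Finset.sum_add_distrib]
  refine mul_le_mul_of_nonneg_left ?_ (by positivity)
  linarith

/-- **THE MOVING WORD.**  `F0` moves with the scale, `F1, F2` are static.  Price: leaf `S₃` energies
at side `2^m0` and the `L¹` variation of `F0`, weighted by (row HS norm) × (operator norm of the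
diagonal block) at both vertices of `F0`.  All positions, block `l` of offsets, absolute values at
every box, constants do not see the labels, `Q`, `M`, `m0`. -/
theorem moving_word (F0 : ℕ → ZMod Q → ZMod Q → Matrix κ0 κ1 ℝ)
    (F1 : ZMod Q → ZMod Q → Matrix κ1 κ2 ℝ) (F2 : ZMod Q → ZMod Q → Matrix κ2 κ0 ℝ)
    (k m0 M : ℕ) (l : ℤ) (hk : 2 * |l| + 20 ≤ 2 ^ k)
    {R₁ R₀ K₁ K₁' L₁ K₀ K₀' L₀ : ℝ} (hR₁ : 0 ≤ R₁) (hR₀ : 0 ≤ R₀) (hK₁ : 0 ≤ K₁) (hK₁' : 0 ≤ K₁')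
    (hL₁ : 0 ≤ L₁) (hK₀ : 0 ≤ K₀) (hK₀' : 0 ≤ K₀') (hL₀ : 0 ≤ L₀)
    (hKL₁ : K₁ ^ 2 + K₁' ^ 2 ≤ L₁ ^ 2) (hKL₀ : K₀ ^ 2 + K₀' ^ 2 ≤ L₀ ^ 2)
    (h1 : ∀ m ∈ range M, ∀ x p, RowB (F0 (m + 1)) (2 ^ (m0 + m)) R₁ x p)
    (h2 : ∀ m ∈ range M, ∀ q y, ColB (F0 (m + 1)) (2 ^ (m0 + m)) K₁ q y)
    (h3 : ∀ m ∈ range M, ∀ q y, ColB (fun x y => (F1 y x)ᵀ) (2 ^ (m0 + m)) K₁' q y)
    (g1 : ∀ m ∈ range M, ∀ x p, RowB (fun x y => (F0 (m + 1) y x)ᵀ) (2 ^ (m0 + m)) R₀ x p)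
    (g2 : ∀ m ∈ range M, ∀ q y, ColB (fun x y => (F0 (m + 1) y x)ᵀ) (2 ^ (m0 + m)) K₀ q y)
    (g3 : ∀ m ∈ range M, ∀ q y, ColB F2 (2 ^ (m0 + m)) K₀' q y) :
    ∑ m ∈ range M, bl (fun n => ∑ p0 : ZMod Q, ∑ p1 : ZMod Q,
        |LboxL (F0 (m + 1)) F1 F2 (2 ^ (m0 + m)) p0 p1 (n - p0 - p1)|) (2 ^ (m0 + m)) l ≤
      (Real.pi / 2) * ((8 + 64 * k) *
        (EE (phiP κ1) (F0 0) (fun x y => (F1 y x)ᵀ) (2 ^ m0) +
          EE (phiP κ2) F1 (fun x y => (F2 y x)ᵀ) (2 ^ m0) +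
          EE (phiP κ0) F2 (fun x y => (F0 0 y x)ᵀ) (2 ^ m0)) +
        (12 + 192 * k) * (R₁ * L₁ + R₀ * L₀) *
          ∑ m ∈ range M, dist1 (F0 (m + 1)) (F0 m)) := by
  refine (box_sum_from F0 (fun _ => F1) (fun _ => F2) k m0 M l hk).trans ?_
  refine mul_le_mul_of_nonneg_left ?_ (by positivity)
  have a1 := MSf_le F0 (fun _ x y => (F1 y x)ᵀ) k m0 M hR₁ le_rfl hK₁ hK₁' hL₁ hKL₁
    (fun m hm => ⟨fun _ => h1 m hm, fun h => absurd rfl h, h2 m hm, h3 m hm⟩)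
  have a2 := MSf_static F1 (fun x y => (F2 y x)ᵀ) k m0 M
  have a3 := MSf_le (fun _ => F2) (fun m x y => (F0 m y x)ᵀ) k m0 M le_rfl hR₀ hK₀' hK₀ hL₀
    (by rw [add_comm]; exact hKL₀)
    (fun m hm => ⟨fun h => absurd rfl h, fun _ => g1 m hm, g3 m hm, g2 m hm⟩)
  simp only [dist1_self, dist1_transpose, Finset.sum_const_zero, mul_zero, zero_add,
    add_zero] at a1 a3
  nlinarith

end final

end Crest.Agent.R079.PotL
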