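import Mathlib

/-! R079 (helper242): RANDOM SIGNS.  Labelled kernels are averages of unlabelled ones.
`chaos`: `E_ω ‖∑_z X_ω(z) conj X'_ω(z)‖² ≤ ‖labelled product‖² + 2 (diagonal)`. -/

set_option autoImplicit false
set_option linter.unusedSectionVars false

namespace Crest.Agent.R079.Sgn

open Finset

/-- sign -/
noncomputable def sb (b : Bool) : ℝ := if b then 1 else -1

lemma sb_mul_self (b : Bool) : sb b * sb b = 1 := by
  unfold sb; split_ifs <;> norm_num

lemma sb_not (b : Bool) : sb (!b) = - sb b := by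
  cases b <;> simp [sb]

section gen

variable {α : Type*} [Fintype α] [DecidableEq α]

/-- number of sign vectors -/
noncomputable def Cn (α : Type*) [Fintype α] [DecidableEq α] : ℝ := (Fintype.card (α → Bool) : ℝ)

lemma Cn_pos : 0 < Cn α := by
  unfold Cn
  exact_mod_cast Fintype.card_pos

/-- flip of the sign `e` -/
def flip (e : α) : Equiv.Perm (α → Bool) where
  toFun ω := Function.update ω e (!(ω e))
  invFun ω := Function.update ω e (!(ω e))
  left_inv ω := by simp
  right_inv ω := by simp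

lemma flip_same (e : α) (ω : α → Bool) : sb (flip e ω e) = - sb (ω e) := by
  simp [flip, sb_not]

lemma flip_ne {e a : α} (h : a ≠ e) (ω : α → Bool) : sb (flip e ω a) = sb (ω a) := by
  simp [flip, Function.update_of_ne h]

lemma sum_zero_of_flip (e : α) (f : (α → Bool) → ℝ) (h : ∀ ω, f (flip e ω) = - f ω) :
    ∑ ω, f ω = 0 := by
  have h1 : ∑ ω, f (flip e ω) = ∑ ω, f ω := Equiv.sum_comp (flip e) f
  rw [Finset.sum_congr rfl fun ω _ => h ω, Finset.sum_neg_distrib] at h1
  linarith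

lemma m2 {a b : α} (h : a ≠ b) : ∑ ω : α → Bool, sb (ω a) * sb (ω b) = 0 := by
  refine sum_zero_of_flip a _ fun ω => ?_
  rw [flip_same, flip_ne h.symm]; ring

lemma sum_one : ∑ _ω : α → Bool, (1 : ℝ) = Cn α := by
  simp [Cn, Finset.card_univ]

lemma m4 {a b c d : α} (h1 : a ≠ b) (h2 : c ≠ d) :
    ∑ ω : α → Bool, (sb (ω a) * sb (ω b)) * (sb (ω c) * sb (ω d)) =
      if (a = c ∧ b = d) ∨ (a = d ∧ b = c) then Cn α else 0 := by
  by_cases hac : a = c
  · subst hac
    by_cases hbd : b = d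
    · subst hbd
      rw [if_pos (Or.inl ⟨rfl, rfl⟩), ← sum_one]
      refine Finset.sum_congr rfl fun ω _ => ?_
      have := sb_mul_self (ω a)
      have h' := sb_mul_self (ω b)
      linear_combination (sb (ω b) * sb (ω b)) * this + h'
    · rw [if_neg (by
        rintro (⟨_, h⟩ | ⟨h, h'⟩)
        · exact hbd h
        · exact h1 h'.symm)]
      refine sum_zero_of_flip b _ fun ω => ?_
      rw [flip_ne h1, flip_same, flip_ne (Ne.symm hbd)]; ring
  · by_cases had : a = d
    · subst had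
      by_cases hbc : b = c
      · subst hbc
        rw [if_pos (Or.inr ⟨rfl, rfl⟩), ← sum_one]
        refine Finset.sum_congr rfl fun ω _ => ?_
        have := sb_mul_self (ω a)
        have h' := sb_mul_self (ω b)
        linear_combination (sb (ω b) * sb (ω b)) * this + h'
      · rw [if_neg (by
          rintro (⟨h, _⟩ | ⟨_, h⟩)
          · exact hac h
          · exact hbc h)]
        refine sum_zero_of_flip b _ fun ω => ?_
        rw [flip_ne h1, flip_same, flip_ne (Ne.symm hbc)]; ring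
    · rw [if_neg (by
        rintro (⟨h, _⟩ | ⟨h, _⟩)
        · exact hac h
        · exact had h)]
      refine sum_zero_of_flip a _ fun ω => ?_
      rw [flip_same, flip_ne h1.symm, flip_ne (Ne.symm hac), flip_ne (Ne.symm had)]; ring

lemma norm_sum_sq {ι : Type*} (s : Finset ι) (r : ι → ℝ) (z : ι → ℂ) :
    ‖∑ i ∈ s, (r i : ℂ) * z i‖ ^ 2 =
      ∑ i ∈ s, ∑ j ∈ s, (r i * r j) * (z i * (starRingEnd ℂ) (z j)).re := by
  rw [← Complex.normSq_eq_norm_sq]
  have h : (Complex.normSq (∑ i ∈ s, (r i : ℂ) * z i) : ℂ) =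
      ∑ i ∈ s, ∑ j ∈ s, ((r i * r j : ℝ) : ℂ) * (z i * (starRingEnd ℂ) (z j)) := by
    rw [← Complex.mul_conj, map_sum, Finset.sum_mul_sum]
    refine Finset.sum_congr rfl fun i _ => Finset.sum_congr rfl fun j _ => ?_
    rw [map_mul, Complex.conj_ofReal]
    push_cast; ring
  have h2 := congrArg Complex.re h
  rw [Complex.ofReal_re] at h2
  rw [h2, Complex.re_sum]
  refine Finset.sum_congr rfl fun i _ => ?_
  rw [Complex.re_sum]
  refine Finset.sum_congr rfl fun j _ => ?_
  rw [Complex.re_ofReal_mul]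

/-- second moment of a chaos of order two -/
theorem chaos_gen (c : α → α → ℂ) :
    ∑ ω : α → Bool, ‖∑ P : α × α, ((sb (ω P.1) * sb (ω P.2) : ℝ) : ℂ) * c P.1 P.2‖ ^ 2 ≤
      Cn α * (‖∑ a, c a a‖ ^ 2 + 2 * ∑ P : α × α, ‖c P.1 P.2‖ ^ 2) := by
  have h1 : ∀ ω : α → Bool,
      ‖∑ P : α × α, ((sb (ω P.1) * sb (ω P.2) : ℝ) : ℂ) * c P.1 P.2‖ ^ 2 =
      ∑ P : α × α, ∑ P' : α × α, ((sb (ω P.1) * sb (ω P.2)) * (sb (ω P'.1) * sb (ω P'.2))) *
        (c P.1 P.2 * (starRingEnd ℂ) (c P'.1 P'.2)).re := fun ω => norm_sum_sq _ _ _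
  rw [Finset.sum_congr rfl fun ω _ => h1 ω, Finset.sum_comm]
  have h2 : ∀ P : α × α, ∑ ω : α → Bool, ∑ P' : α × α,
      ((sb (ω P.1) * sb (ω P.2)) * (sb (ω P'.1) * sb (ω P'.2))) *
        (c P.1 P.2 * (starRingEnd ℂ) (c P'.1 P'.2)).re =
      ∑ P' : α × α, (∑ ω : α → Bool, (sb (ω P.1) * sb (ω P.2)) * (sb (ω P'.1) * sb (ω P'.2))) *
        (c P.1 P.2 * (starRingEnd ℂ) (c P'.1 P'.2)).re := by
    intro P
    rw [Finset.sum_comm]
    refine Finset.sum_congr rfl fun P' _ => ?_
    rw [Finset.sum_mul]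
  rw [Finset.sum_congr rfl fun P _ => h2 P]
  -- the Gram matrix of the chaos
  have hG : ∀ P P' : α × α,
      (∑ ω : α → Bool, (sb (ω P.1) * sb (ω P.2)) * (sb (ω P'.1) * sb (ω P'.2))) =
      (if P.1 = P.2 ∧ P'.1 = P'.2 then Cn α else 0) +
      (if P.1 ≠ P.2 ∧ P' = P then Cn α else 0) +
      (if P.1 ≠ P.2 ∧ P' = (P.2, P.1) then Cn α else 0) := by
    rintro ⟨a, b⟩ ⟨c', d⟩
    simp only [Prod.mk.injEq]
    by_cases hab : a = b
    · subst hab
      by_cases hcd : c' = d
      · subst hcd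
        simp only [ne_eq, not_true_eq_false, false_and, if_false, and_self, if_true, add_zero]
        rw [← sum_one]
        refine Finset.sum_congr rfl fun ω _ => ?_
        rw [sb_mul_self, sb_mul_self, one_mul]
      · have e0 : (if a = a ∧ c' = d then Cn α else 0) = 0 := if_neg (fun h => hcd h.2)
        have e1 : (if a ≠ a ∧ c' = a ∧ d = a then Cn α else 0) = 0 := if_neg (fun h => h.1 rfl)
        rw [e0, e1]
        have : ∀ ω : α → Bool, (sb (ω a) * sb (ω a)) * (sb (ω c') * sb (ω d)) =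
            sb (ω c') * sb (ω d) := fun ω => by rw [sb_mul_self, one_mul]
        rw [Finset.sum_congr rfl fun ω _ => this ω, m2 hcd]
        simp
    · by_cases hcd : c' = d
      · subst hcd
        have : ∀ ω : α → Bool, (sb (ω a) * sb (ω b)) * (sb (ω c') * sb (ω c')) =
            sb (ω a) * sb (ω b) := fun ω => by rw [sb_mul_self, mul_one]
        rw [Finset.sum_congr rfl fun ω _ => this ω, m2 hab, if_neg (fun h => hab h.1), if_neg,
          if_neg]
        · simp
        · rintro ⟨_, h, h'⟩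
          exact hab (h'.symm.trans h)
        · rintro ⟨_, h, h'⟩
          exact hab (h.symm.trans h')
      · rw [m4 hab hcd]
        have e0 : (if a = b ∧ c' = d then Cn α else 0) = 0 := if_neg (fun h => hab h.1)
        rw [e0, zero_add]
        by_cases h1 : a = c' ∧ b = d
        · have e1 : (if a ≠ b ∧ c' = a ∧ d = b then Cn α else 0) = Cn α :=
            if_pos ⟨hab, h1.1.symm, h1.2.symm⟩
          have e2 : (if a ≠ b ∧ c' = b ∧ d = a then Cn α else 0) = 0 :=
            if_neg (fun h => hab (h1.1.trans h.2.1))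
          rw [if_pos (Or.inl h1), e1, e2, add_zero]
        · have e1 : (if a ≠ b ∧ c' = a ∧ d = b then Cn α else 0) = 0 :=
            if_neg (fun h => h1 ⟨h.2.1.symm, h.2.2.symm⟩)
          rw [e1, zero_add]
          by_cases h2 : a = d ∧ b = c'
          · have e2 : (if a ≠ b ∧ c' = b ∧ d = a then Cn α else 0) = Cn α :=
              if_pos ⟨hab, h2.2.symm, h2.1.symm⟩
            rw [if_pos (Or.inr h2), e2]
          · have e2 : (if a ≠ b ∧ c' = b ∧ d = a then Cn α else 0) = 0 :=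
              if_neg (fun h => h2 ⟨h.2.2.symm, h.2.1.symm⟩)
            rw [if_neg (fun h => h.elim h1 h2), e2]
  have h3 : ∀ P : α × α, ∑ P' : α × α,
      (∑ ω : α → Bool, (sb (ω P.1) * sb (ω P.2)) * (sb (ω P'.1) * sb (ω P'.2))) *
        (c P.1 P.2 * (starRingEnd ℂ) (c P'.1 P'.2)).re ≤
      (if P.1 = P.2 then Cn α * (c P.1 P.2 * (starRingEnd ℂ) (∑ a, c a a)).re else 0) +
        Cn α * (‖c P.1 P.2‖ ^ 2 + (‖c P.1 P.2‖ ^ 2 + ‖c P.2 P.1‖ ^ 2) / 2) := by
    intro P
    have hC := (Cn_pos (α := α)).le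
    rw [Finset.sum_congr rfl fun P' _ => by rw [hG P P']]
    simp only [add_mul]
    rw [Finset.sum_add_distrib, Finset.sum_add_distrib]
    have e1 : ∑ P' : α × α, (if P.1 = P.2 ∧ P'.1 = P'.2 then Cn α else 0) *
        (c P.1 P.2 * (starRingEnd ℂ) (c P'.1 P'.2)).re =
        if P.1 = P.2 then Cn α * (c P.1 P.2 * (starRingEnd ℂ) (∑ a, c a a)).re else 0 := by
      by_cases hP : P.1 = P.2
      · rw [if_pos hP]
        simp only [hP, true_and]
        rw [map_sum, Finset.mul_sum, Complex.re_sum, Finset.mul_sum, Fintype.sum_prod_type]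
        refine Finset.sum_congr rfl fun a _ => ?_
        rw [Finset.sum_eq_single a]
        · simp
        · intro b _ hb
          rw [if_neg (fun h => hb h.symm), zero_mul]
        · intro h; exact absurd (Finset.mem_univ _) h
      · rw [if_neg hP]
        refine Finset.sum_eq_zero fun P' _ => ?_
        rw [if_neg (fun h => hP h.1), zero_mul]
    have e2 : ∑ P' : α × α, (if P.1 ≠ P.2 ∧ P' = P then Cn α else 0) *
        (c P.1 P.2 * (starRingEnd ℂ) (c P'.1 P'.2)).re ≤ Cn α * ‖c P.1 P.2‖ ^ 2 := by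
      rw [Finset.sum_eq_single P]
      · have : (c P.1 P.2 * (starRingEnd ℂ) (c P.1 P.2)).re = ‖c P.1 P.2‖ ^ 2 := by
          rw [Complex.mul_conj, Complex.ofReal_re, Complex.normSq_eq_norm_sq]
        rw [this]
        split_ifs
        · exact le_rfl
        · rw [zero_mul]; positivity
      · intro P' _ h
        rw [if_neg (fun h' => h h'.2), zero_mul]
      · intro h; exact absurd (Finset.mem_univ _) h
    have e3 : ∑ P' : α × α, (if P.1 ≠ P.2 ∧ P' = (P.2, P.1) then Cn α else 0) *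
        (c P.1 P.2 * (starRingEnd ℂ) (c P'.1 P'.2)).re ≤
        Cn α * ((‖c P.1 P.2‖ ^ 2 + ‖c P.2 P.1‖ ^ 2) / 2) := by
      rw [Finset.sum_eq_single (P.2, P.1)]
      · have : (c P.1 P.2 * (starRingEnd ℂ) (c P.2 P.1)).re ≤
            (‖c P.1 P.2‖ ^ 2 + ‖c P.2 P.1‖ ^ 2) / 2 := by
          refine (Complex.re_le_norm _).trans ?_
          rw [norm_mul, RCLike.norm_conj]
          nlinarith [sq_nonneg (‖c P.1 P.2‖ - ‖c P.2 P.1‖)]
        split_ifs
        · exact mul_le_mul_of_nonneg_left this hC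
        · rw [zero_mul]; positivity
      · intro P' _ h
        rw [if_neg (fun h' => h h'.2), zero_mul]
      · intro h; exact absurd (Finset.mem_univ _) h
    rw [e1, mul_add]
    linarith
  refine (Finset.sum_le_sum fun P _ => h3 P).trans ?_
  rw [Finset.sum_add_distrib]
  have h4 : ∑ P : α × α, (if P.1 = P.2 then
      Cn α * (c P.1 P.2 * (starRingEnd ℂ) (∑ a, c a a)).re else 0) = Cn α * ‖∑ a, c a a‖ ^ 2 := by
    rw [Fintype.sum_prod_type]
    have : ∀ a, ∑ b, (if (a, b).1 = (a, b).2 then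
        Cn α * (c (a, b).1 (a, b).2 * (starRingEnd ℂ) (∑ a, c a a)).re else 0) =
        Cn α * (c a a * (starRingEnd ℂ) (∑ a, c a a)).re := by
      intro a
      rw [Finset.sum_eq_single a]
      · simp
      · intro b _ hb
        rw [if_neg (fun h => hb h.symm)]
      · intro h; exact absurd (Finset.mem_univ _) h
    rw [Finset.sum_congr rfl fun a _ => this a, ← Finset.mul_sum, ← Complex.re_sum,
      ← Finset.sum_mul, Complex.mul_conj, Complex.ofReal_re, Complex.normSq_eq_norm_sq]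
  have h5 : ∑ P : α × α, Cn α * (‖c P.1 P.2‖ ^ 2 + (‖c P.1 P.2‖ ^ 2 + ‖c P.2 P.1‖ ^ 2) / 2) =
      Cn α * (2 * ∑ P : α × α, ‖c P.1 P.2‖ ^ 2) := by
    rw [← Finset.mul_sum, Finset.sum_add_distrib, ← Finset.sum_div, Finset.sum_add_distrib]
    have : ∑ P : α × α, ‖c P.2 P.1‖ ^ 2 = ∑ P : α × α, ‖c P.1 P.2‖ ^ 2 :=
      Equiv.sum_comp (Equiv.prodComm α α) (fun P => ‖c P.1 P.2‖ ^ 2)
    rw [this]
    ring
  rw [h4, h5, mul_add]

end gen

section lab

variable {τ κ : Type*} [Fintype τ] [DecidableEq τ] [Fintype κ] [DecidableEq κ]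

/-- **order two chaos with independent rows** -/
theorem chaos (x x' : τ → κ → ℂ) :
    ∑ ω : τ × κ → Bool, ‖∑ z, (∑ k, (sb (ω (z, k)) : ℂ) * x z k) *
        (starRingEnd ℂ) (∑ k, (sb (ω (z, k)) : ℂ) * x' z k)‖ ^ 2 ≤
      Cn (τ × κ) * (‖∑ z, ∑ k, x z k * (starRingEnd ℂ) (x' z k)‖ ^ 2 +
        2 * ∑ z, (∑ k, ‖x z k‖ ^ 2) * ∑ k, ‖x' z k‖ ^ 2) := by
  set c : τ × κ → τ × κ → ℂ := fun a b => if a.1 = b.1 then x a.1 a.2 * (starRingEnd ℂ) (x' b.1 b.2)
    else 0 with hc
  have h1 : ∀ ω : τ × κ → Bool, ∑ z, (∑ k, (sb (ω (z, k)) : ℂ) * x z k) *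
        (starRingEnd ℂ) (∑ k, (sb (ω (z, k)) : ℂ) * x' z k) =
      ∑ P : (τ × κ) × (τ × κ), ((sb (ω P.1) * sb (ω P.2) : ℝ) : ℂ) * c P.1 P.2 := by
    intro ω
    rw [Fintype.sum_prod_type, Fintype.sum_prod_type]
    refine Finset.sum_congr rfl fun z _ => ?_
    rw [map_sum, Finset.sum_mul_sum]
    refine Finset.sum_congr rfl fun k _ => ?_
    rw [Fintype.sum_prod_type, Finset.sum_eq_single z]
    · refine Finset.sum_congr rfl fun k' _ => ?_
      simp only [hc, if_true]
      rw [map_mul, Complex.conj_ofReal]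
      push_cast; ring
    · intro z' _ hz
      refine Finset.sum_eq_zero fun k' _ => ?_
      simp only [hc]
      rw [if_neg (fun h => hz h.symm), mul_zero]
    · intro h; exact absurd (Finset.mem_univ _) h
  rw [Finset.sum_congr rfl fun ω _ => by rw [h1 ω]]
  refine (chaos_gen c).trans (mul_le_mul_of_nonneg_left ?_ Cn_pos.le)
  have h2 : ∑ a : τ × κ, c a a = ∑ z, ∑ k, x z k * (starRingEnd ℂ) (x' z k) := by
    rw [Fintype.sum_prod_type]
    simp [hc]
  have h3 : ∑ P : (τ × κ) × (τ × κ), ‖c P.1 P.2‖ ^ 2 =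
      ∑ z, (∑ k, ‖x z k‖ ^ 2) * ∑ k, ‖x' z k‖ ^ 2 := by
    rw [Fintype.sum_prod_type, Fintype.sum_prod_type]
    refine Finset.sum_congr rfl fun z _ => ?_
    rw [Finset.sum_mul_sum]
    refine Finset.sum_congr rfl fun k _ => ?_
    rw [Fintype.sum_prod_type, Finset.sum_eq_single z]
    · refine Finset.sum_congr rfl fun k' _ => ?_
      simp only [hc, if_true]
      rw [norm_mul, RCLike.norm_conj, mul_pow]
    · intro z' _ hz
      refine Finset.sum_eq_zero fun k' _ => ?_
      simp only [hc]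
      rw [if_neg (fun h => hz h.symm), norm_zero]
      norm_num
    · intro h; exact absurd (Finset.mem_univ _) h
  rw [h2, h3]

/-- second moment of a linear form -/
theorem lin (x : κ → ℂ) (z : τ) :
    ∑ ω : τ × κ → Bool, ‖∑ k, (sb (ω (z, k)) : ℂ) * x k‖ ^ 2 = Cn (τ × κ) * ∑ k, ‖x k‖ ^ 2 := by
  rw [Finset.sum_congr rfl fun ω _ => norm_sum_sq univ (fun k => sb (ω (z, k))) x,
    Finset.sum_comm, Finset.mul_sum]
  refine Finset.sum_congr rfl fun k _ => ?_
  rw [Finset.sum_comm, Finset.sum_eq_single k]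
  · rw [← Finset.sum_mul]
    have : ∑ ω : τ × κ → Bool, sb (ω (z, k)) * sb (ω (z, k)) = Cn (τ × κ) := by
      rw [← sum_one]
      exact Finset.sum_congr rfl fun ω _ => sb_mul_self _
    rw [this, Complex.mul_conj, Complex.ofReal_re, Complex.normSq_eq_norm_sq]
  · intro k' _ hk
    rw [← Finset.sum_mul, m2 (fun h => hk (congrArg Prod.snd h).symm), zero_mul]
  · intro h; exact absurd (Finset.mem_univ _) h

/-- mixed second moment: the labelled product -/
theorem prod_avg (x y : κ → ℂ) (z : τ) :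
    ∑ ω : τ × κ → Bool, (∑ k, (sb (ω (z, k)) : ℂ) * x k) * (∑ k, (sb (ω (z, k)) : ℂ) * y k) =
      (Cn (τ × κ) : ℂ) * ∑ k, x k * y k := by
  have h1 : ∀ ω : τ × κ → Bool,
      (∑ k, (sb (ω (z, k)) : ℂ) * x k) * (∑ k, (sb (ω (z, k)) : ℂ) * y k) =
      ∑ k, ∑ k', ((sb (ω (z, k)) * sb (ω (z, k')) : ℝ) : ℂ) * (x k * y k') := by
    intro ω
    rw [Finset.sum_mul_sum]
    refine Finset.sum_congr rfl fun k _ => Finset.sum_congr rfl fun k' _ => ?_
    push_cast; ring
  rw [Finset.sum_congr rfl fun ω _ => h1 ω, Finset.sum_comm, Finset.mul_sum]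
  refine Finset.sum_congr rfl fun k _ => ?_
  rw [Finset.sum_comm, Finset.sum_eq_single k]
  · rw [← Finset.sum_mul, ← Complex.ofReal_sum]
    have : ∑ ω : τ × κ → Bool, sb (ω (z, k)) * sb (ω (z, k)) = Cn (τ × κ) := by
      rw [← sum_one]
      exact Finset.sum_congr rfl fun ω _ => sb_mul_self _
    rw [this]
  · intro k' _ hk
    rw [← Finset.sum_mul, ← Complex.ofReal_sum, m2 (fun h => hk (congrArg Prod.snd h).symm),
      Complex.ofReal_zero, zero_mul]
  · intro h; exact absurd (Finset.mem_univ _) h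

end lab

end Crest.Agent.R079.Sgn
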