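import Crest.Agent.R079.PLTri_945
import Crest.Agent.R079.PathSum_815

/-! R079, LABELLED Tri24 (AL1 of doc 2514): budgets of the labelled `tri_path` in terms of the box
traces `bxL` (= box average of the squared Hilbert-Schmidt norms of the labels) and of the
Schatten-4 block averages `q4L`, arbitrary path with bounded scalar sums (`Bud`), the concrete
(2,4,4), (4,2,4), (4,4,2) paths of `PathSum_815`, masks (letters change with the scale), leaf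
scale `2^m0`, and the static corollaries.  Constants do not see the labels.  helper945. -/

set_option autoImplicit false
set_option linter.unusedVariables false
set_option linter.unusedSectionVars false

namespace Crest.Agent.R079.PotL

open Matrix Finset Crest.Agent.R072 Crest.Agent.R079.LD Crest.Agent.R079.Path
  Crest.Agent.R072.Nd
open Crest.Agent.R079.Pot (Bud sA sB py path244 path424 path442 bud244 bud424 bud442)
open scoped MatrixOrder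

section mat

variable {k : Type*} [Fintype k] [DecidableEq k]

theorem LDt_le_min4 {M : Matrix k k ℝ} (hM : M.PosSemidef) {c : ℝ}
    (hc : 0 ≤ c) : LD 1 (c • M) ≤ min (c * trace M) (c ^ 2 * trace (M * M)) := by
  have hcM : (c • M).PosSemidef := hM.smul hc
  have h1 := LD_le_trace one_pos hcM.nonneg
  have h2 := LD_le_sq one_pos hcM.nonneg
  rw [trace_smul, smul_eq_mul] at h1
  rw [Matrix.smul_mul, Matrix.mul_smul, smul_smul, trace_smul, smul_eq_mul] at h2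
  rw [inv_one, one_mul] at h1
  rw [inv_one, one_pow, one_mul] at h2
  rw [sq]
  exact le_min h1 h2

theorem LDh_le_min4 {M : Matrix k k ℝ} (hM : M.PosSemidef) {c : ℝ}
    (hc : 0 ≤ c) : LD (1 / 2) (c • M) ≤ 4 * min (c * trace M) (c ^ 2 * trace (M * M)) := by
  have hcM : (c • M).PosSemidef := hM.smul hc
  have h1 := LD_le_trace (t := 1 / 2) (by norm_num) hcM.nonneg
  have h2 := LD_le_sq (t := 1 / 2) (by norm_num) hcM.nonneg
  have h0 : 0 ≤ trace (c • M) := hcM.trace_nonneg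
  rw [trace_smul, smul_eq_mul] at h1 h0
  rw [Matrix.smul_mul, Matrix.mul_smul, smul_smul, trace_smul, smul_eq_mul] at h2
  rw [mul_min_of_nonneg _ _ (by norm_num : (0 : ℝ) ≤ 4), sq c]
  refine le_min ?_ ?_
  · refine h1.trans ?_
    rw [show ((1 / 2 : ℝ))⁻¹ = 2 by norm_num]
    linarith
  · refine h2.trans ?_
    rw [show ((1 / 2 : ℝ))⁻¹ ^ 2 = 4 by norm_num]

theorem trace_sq_nonneg {M : Matrix k k ℝ} (hM : M.PosSemidef) :
    0 ≤ trace (M * M) := by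
  have h : M * M = Mᴴ * M := by rw [hM.1.eq]
  rw [h]
  exact (posSemidef_conjTranspose_mul_self M).trace_nonneg

/-- one joint potential -/
theorem bud_joint {w c d : ℤ → ℝ} {S T : ℝ → ℝ → ℝ} (hw : ∀ j, 0 ≤ w j) (hc0 : ∀ j, 0 ≤ c j)
    (hd0 : ∀ j, 0 ≤ d j) (hc : Bud w c S) (hd : Bud w d T)
    (U V : Matrix k k ℝ) (hU : U.PosSemidef) (hV : V.PosSemidef) {α α4 β β4 : ℝ}
    (ha : trace U = α) (ha4 : trace (U * U) = α4) (hb : trace V = β) (hb4 : trace (V * V) = β4)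
    (J : ℕ) :
    ∑ j ∈ Finset.Ico (-(J : ℤ)) J, w j * LD 1 (c j • U + d j • V) ≤
      2 * (S α α4 + T β β4) := by
  have hα : 0 ≤ α := ha ▸ hU.trace_nonneg
  have hβ : 0 ≤ β := hb ▸ hV.trace_nonneg
  have hα4 : 0 ≤ α4 := ha4 ▸ trace_sq_nonneg hU
  have hβ4 : 0 ≤ β4 := hb4 ▸ trace_sq_nonneg hV
  have h1 : ∀ j, w j * LD 1 (c j • U + d j • V) ≤
      2 * (w j * min (c j * α) (c j ^ 2 * α4) + w j * min (d j * β) (d j ^ 2 * β4)) := by
    intro j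
    have h2 := LD_add_le one_pos (hU.smul (hc0 j)).nonneg (hV.smul (hd0 j)).nonneg
    have h3 := LDt_le_min4 hU (hc0 j)
    have h4 := LDt_le_min4 hV (hd0 j)
    rw [ha, ha4] at h3
    rw [hb, hb4] at h4
    calc w j * LD 1 (c j • U + d j • V)
        ≤ w j * (2 * (min (c j * α) (c j ^ 2 * α4) + min (d j * β) (d j ^ 2 * β4))) :=
          mul_le_mul_of_nonneg_left (by linarith) (hw j)
      _ = _ := by ring
  refine (Finset.sum_le_sum fun j _ => h1 j).trans ?_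
  rw [← Finset.mul_sum, Finset.sum_add_distrib]
  have h5 := hc α α4 hα hα4 J
  have h6 := hd β β4 hβ hβ4 J
  linarith

/-- one own potential -/
theorem bud_own {w c : ℤ → ℝ} {S : ℝ → ℝ → ℝ} (hw : ∀ j, 0 ≤ w j) (hc0 : ∀ j, 0 ≤ c j)
    (hc : Bud w c S) (U : Matrix k k ℝ) (hU : U.PosSemidef) {α α4 : ℝ}
    (ha : trace U = α) (ha4 : trace (U * U) = α4) (J : ℕ) :
    ∑ j ∈ Finset.Ico (-(J : ℤ)) J, w j * LD (1 / 2) (c j • U) ≤ 4 * S α α4 := by
  have hα : 0 ≤ α := ha ▸ hU.trace_nonneg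
  have hα4 : 0 ≤ α4 := ha4 ▸ trace_sq_nonneg hU
  have h1 : ∀ j, w j * LD (1 / 2) (c j • U) ≤
      4 * (w j * min (c j * α) (c j ^ 2 * α4)) := by
    intro j
    have h3 := LDh_le_min4 hU (hc0 j)
    rw [ha, ha4] at h3
    calc w j * LD (1 / 2) (c j • U) ≤ w j * (4 * min (c j * α) (c j ^ 2 * α4)) :=
          mul_le_mul_of_nonneg_left h3 (hw j)
      _ = _ := by ring
  refine (Finset.sum_le_sum fun j _ => h1 j).trans ?_
  rw [← Finset.mul_sum]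
  have h5 := hc α α4 hα hα4 J
  linarith

end mat

section lab

variable {Q : ℕ} [NeZero Q] {α β : Type*} [Fintype α] [DecidableEq α] [Fintype β]
  [DecidableEq β]

/-- box average of the squared Hilbert-Schmidt norms of the labels over
`[q, q+N) × [p, p+N)` -/
noncomputable def bxL (X : ZMod Q → ZMod Q → Matrix β α ℝ) (N : ℕ) (q p : ZMod Q) : ℝ :=
  (1 / (N : ℝ) ^ 2) * ∑ i ∈ range N, ∑ j ∈ range N,
    hs2 (X (q + (i : ZMod Q)) (p + (j : ZMod Q)))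

/-- fourth power of the normalised Schatten-4 norm of the labelled box
`[q, q+a) × [p, p+a)` -/
noncomputable def q4L (F : ZMod Q → ZMod Q → Matrix β α ℝ) (a : ℕ) (q p : ZMod Q) : ℝ :=
  trace (abar F a a q p * abar F a a q p)

theorem trace_abar (X : ZMod Q → ZMod Q → Matrix β α ℝ) (N : ℕ) (q p : ZMod Q) :
    trace (abar X N N q p) = bxL X N q p := by
  have e0 : ∀ j : Fin N × α, (abar X N N q p).diag j = (1 / ((N : ℝ) * N)) *
      ∑ i ∈ range N, ∑ l : β, X (q + (i : ZMod Q)) (p + ((j.1 : ℕ) : ZMod Q)) l j.2 *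
        X (q + (i : ZMod Q)) (p + ((j.1 : ℕ) : ZMod Q)) l j.2 := fun j => rfl
  unfold bxL hs2 trace
  rw [Finset.sum_congr rfl fun j _ => e0 j, ← Finset.mul_sum, Fintype.sum_prod_type]
  congr 1
  · rw [sq]
  · have e1 : ∀ j : Fin N, ∑ s : α, ∑ i ∈ range N, ∑ l : β,
        X (q + (i : ZMod Q)) (p + ((j : ℕ) : ZMod Q)) l s *
          X (q + (i : ZMod Q)) (p + ((j : ℕ) : ZMod Q)) l s =
        ∑ i ∈ range N, ∑ l : β, ∑ s : α,
          X (q + (i : ZMod Q)) (p + ((j : ℕ) : ZMod Q)) l s ^ 2 := by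
      intro j
      rw [Finset.sum_comm]
      refine Finset.sum_congr rfl fun i _ => ?_
      rw [Finset.sum_comm]
      refine Finset.sum_congr rfl fun l _ => Finset.sum_congr rfl fun s _ => ?_
      rw [sq]
    rw [Finset.sum_congr rfl fun j _ => e1 j, Finset.sum_comm]
    refine Finset.sum_congr rfl fun i _ => ?_
    rw [Finset.sum_range]

theorem bxL_tr (X : ZMod Q → ZMod Q → Matrix β α ℝ) (N : ℕ) (q p : ZMod Q) :
    bxL (tr X) N p q = bxL X N q p := by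
  unfold bxL tr
  rw [Finset.sum_comm]
  simp only [hs2_transpose]

theorem trace_abar_tr (X : ZMod Q → ZMod Q → Matrix β α ℝ) (N : ℕ) (q p : ZMod Q) :
    trace (abar (tr X) N N p q) = bxL X N q p := by
  rw [trace_abar, bxL_tr]

theorem bxL_nonneg (X : ZMod Q → ZMod Q → Matrix β α ℝ) (N : ℕ) (q p : ZMod Q) :
    0 ≤ bxL X N q p :=
  mul_nonneg (by positivity) (Finset.sum_nonneg fun _ _ => Finset.sum_nonneg fun _ _ =>
    hs2_nonneg _)

theorem q4L_nonneg (F : ZMod Q → ZMod Q → Matrix β α ℝ) (a : ℕ) (q p : ZMod Q) :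
    0 ≤ q4L F a q p :=
  trace_sq_nonneg (abar_posSemidef _ _ _ _ _)

theorem q4L_tr (F : ZMod Q → ZMod Q → Matrix β α ℝ) (a : ℕ) (q p : ZMod Q) :
    q4L (tr F) a p q = q4L F a q p := by
  have h1 : abar (tr F) a a p q = bm F a q p * (bm F a q p)ᵀ := (bm_mul_transpose F a q p).symm
  have h2 : abar F a a q p = (bm F a q p)ᵀ * bm F a q p := (transpose_mul_bm F a q p).symm
  unfold q4L
  rw [h1, h2, Matrix.mul_assoc, trace_mul_comm]
  simp only [Matrix.mul_assoc]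

/-- budget of the own potentials -/
theorem bud_JE {w c : ℤ → ℝ} {S : ℝ → ℝ → ℝ} (hw : ∀ j, 0 ≤ w j) (hc0 : ∀ j, 0 ≤ c j)
    (hc : Bud w c S) (F : ZMod Q → ZMod Q → Matrix β α ℝ) (a : ℕ) (q p : ZMod Q) (J : ℕ) :
    ∑ j ∈ Finset.Ico (-(J : ℤ)) J, w j * JE F a q p (c j) ≤
      8 * S (bxL F a q p) (q4L F a q p) := by
  have h1 := bud_own hw hc0 hc (abar F a a q p) (abar_posSemidef _ _ _ _ _)
    (trace_abar F a q p) rfl J
  have h2 := bud_own hw hc0 hc (abar (tr F) a a p q) (abar_posSemidef _ _ _ _ _)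
    (trace_abar_tr F a q p) (q4L_tr F a q p) J
  have e : ∑ j ∈ Finset.Ico (-(J : ℤ)) J, w j * JE F a q p (c j) =
      ∑ j ∈ Finset.Ico (-(J : ℤ)) J, w j * LD (1 / 2) (c j • abar F a a q p) +
      ∑ j ∈ Finset.Ico (-(J : ℤ)) J, w j * LD (1 / 2) (c j • abar (tr F) a a p q) := by
    rw [← Finset.sum_add_distrib]
    refine Finset.sum_congr rfl fun j _ => ?_
    unfold JE
    ring
  rw [e]
  simp only [q4L] at h1 h2 ⊢
  linarith

end lab

section tri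

variable {Q : ℕ} [NeZero Q] {κ0 κ1 κ2 α β : Type*} [Fintype κ0] [DecidableEq κ0]
  [Fintype κ1] [DecidableEq κ1] [Fintype κ2] [DecidableEq κ2] [Fintype α] [DecidableEq α]
  [Fintype β] [DecidableEq β]

/-- budget of the joint potentials -/
theorem bud_JV {x y z : ℤ → ℝ} (hp : PathSeq x y z) {SA SB SC : ℝ → ℝ → ℝ}
    (hA : Bud (fun j => (√(x j) * √(y j) * √(z j))⁻¹) x SA)
    (hB : Bud (fun j => (√(x j) * √(y j) * √(z j))⁻¹) y SB)
    (hC : Bud (fun j => (√(x j) * √(y j) * √(z j))⁻¹) z SC)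
    (F0 : ZMod Q → ZMod Q → Matrix κ0 κ1 ℝ)
    (F1 : ZMod Q → ZMod Q → Matrix κ1 κ2 ℝ) (F2 : ZMod Q → ZMod Q → Matrix κ2 κ0 ℝ)
    (N : ℕ) (p0 p1 p2 : ZMod Q) (J : ℕ) :
    ∑ j ∈ Finset.Ico (-(J : ℤ)) J, (√(x j) * √(y j) * √(z j))⁻¹ *
      JV F0 F1 F2 N p0 p1 p2 (x j) (y j) (z j) ≤
    4 * (SA (bxL F0 N p0 p1) (q4L F0 N p0 p1) + SB (bxL F1 N p1 p2) (q4L F1 N p1 p2) +
      SC (bxL F2 N p2 p0) (q4L F2 N p2 p0)) := by
  have hw : ∀ j, 0 ≤ (fun j => (√(x j) * √(y j) * √(z j))⁻¹) j := fun j => by positivity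
  have hx := fun j => (hp.xpos j).le
  have hy := fun j => (hp.ypos j).le
  have hz := fun j => (hp.zpos j).le
  have h1 := bud_joint hw hx hz hA hC (abar (tr F0) N N p1 p0) (abar F2 N N p2 p0)
    (abar_posSemidef _ _ _ _ _) (abar_posSemidef _ _ _ _ _) (trace_abar_tr F0 N p0 p1)
    (q4L_tr F0 N p0 p1) (trace_abar F2 N p2 p0) rfl J
  have h2 := bud_joint hw hx hy hA hB (abar F0 N N p0 p1) (abar (tr F1) N N p2 p1)
    (abar_posSemidef _ _ _ _ _) (abar_posSemidef _ _ _ _ _) (trace_abar F0 N p0 p1) rfl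
    (trace_abar_tr F1 N p1 p2) (q4L_tr F1 N p1 p2) J
  have h3 := bud_joint hw hy hz hB hC (abar F1 N N p1 p2) (abar (tr F2) N N p0 p2)
    (abar_posSemidef _ _ _ _ _) (abar_posSemidef _ _ _ _ _) (trace_abar F1 N p1 p2) rfl
    (trace_abar_tr F2 N p2 p0) (q4L_tr F2 N p2 p0) J
  have e : ∑ j ∈ Finset.Ico (-(J : ℤ)) J, (√(x j) * √(y j) * √(z j))⁻¹ *
      JV F0 F1 F2 N p0 p1 p2 (x j) (y j) (z j) =
      ∑ j ∈ Finset.Ico (-(J : ℤ)) J, (√(x j) * √(y j) * √(z j))⁻¹ *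
        LD 1 (x j • abar (tr F0) N N p1 p0 + z j • abar F2 N N p2 p0) +
      ∑ j ∈ Finset.Ico (-(J : ℤ)) J, (√(x j) * √(y j) * √(z j))⁻¹ *
        LD 1 (x j • abar F0 N N p0 p1 + y j • abar (tr F1) N N p2 p1) +
      ∑ j ∈ Finset.Ico (-(J : ℤ)) J, (√(x j) * √(y j) * √(z j))⁻¹ *
        LD 1 (y j • abar F1 N N p1 p2 + z j • abar (tr F2) N N p0 p2) := by
    rw [← Finset.sum_add_distrib, ← Finset.sum_add_distrib]
    refine Finset.sum_congr rfl fun j _ => ?_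
    unfold JV
    ring
  rw [e]
  simp only [q4L] at h1 h2 h3 ⊢
  linarith

open Classical in
/-- **(TRI) with labels**, budgets in terms of `bxL` and `q4L`, arbitrary path, masks, leaf scale -/
theorem tri_bud (A : ℕ → ZMod Q → ZMod Q → Matrix κ0 κ1 ℝ)
    (B : ℕ → ZMod Q → ZMod Q → Matrix κ1 κ2 ℝ) (C : ℕ → ZMod Q → ZMod Q → Matrix κ2 κ0 ℝ)
    (κ m0 M : ℕ) (l : ℤ)
    (hκ : 2 * |l| + 20 ≤ 2 ^ κ) {x y z : ℤ → ℝ} (hp : PathSeq x y z) {SA SB SC : ℝ → ℝ → ℝ}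
    (hA : Bud (fun j => (√(x j) * √(y j) * √(z j))⁻¹) x SA)
    (hB : Bud (fun j => (√(x j) * √(y j) * √(z j))⁻¹) y SB)
    (hC : Bud (fun j => (√(x j) * √(y j) * √(z j))⁻¹) z SC) :
    ∑ m ∈ range M, bl (fun n => ∑ p0 : ZMod Q, ∑ p1 : ZMod Q,
      |LboxL (A (m + 1)) (B (m + 1)) (C (m + 1)) (2 ^ (m0 + m)) p0 p1 (n - p0 - p1)|)
        (2 ^ (m0 + m)) l ≤
    76800 * (4 * ∑ m ∈ range M, bl (fun n => ∑ p0 : ZMod Q, ∑ p1 : ZMod Q,
      if Any3 (A (m + 1)) (A m) (B (m + 1)) (B m) (C (m + 1)) (C m) (2 ^ (m0 + m)) p0 p1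
        (n - p0 - p1)
      then 4 * (SA (bxL (A (m + 1)) (2 ^ (m0 + m)) p0 p1) (q4L (A (m + 1)) (2 ^ (m0 + m)) p0 p1) +
        SB (bxL (B (m + 1)) (2 ^ (m0 + m)) p1 (n - p0 - p1))
          (q4L (B (m + 1)) (2 ^ (m0 + m)) p1 (n - p0 - p1)) +
        SC (bxL (C (m + 1)) (2 ^ (m0 + m)) (n - p0 - p1) p0)
          (q4L (C (m + 1)) (2 ^ (m0 + m)) (n - p0 - p1) p0))
      else 0) (2 ^ (m0 + m)) (-2) +
    16 * ∑ k ∈ range κ, ∑ m ∈ range M,
      ((∑ q : ZMod Q, ∑ p : ZMod Q, if Sees (A (m + 1)) (A m) (2 ^ (m0 + m + k)) q p then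
        8 * SA (bxL (A (m + 1)) (2 ^ (m0 + m + k)) q p) (q4L (A (m + 1)) (2 ^ (m0 + m + k)) q p)
        else 0) +
      (∑ q : ZMod Q, ∑ p : ZMod Q, if Sees (B (m + 1)) (B m) (2 ^ (m0 + m + k)) q p then
        8 * SB (bxL (B (m + 1)) (2 ^ (m0 + m + k)) q p) (q4L (B (m + 1)) (2 ^ (m0 + m + k)) q p)
        else 0) +
      (∑ q : ZMod Q, ∑ p : ZMod Q, if Sees (C (m + 1)) (C m) (2 ^ (m0 + m + k)) q p then
        8 * SC (bxL (C (m + 1)) (2 ^ (m0 + m + k)) q p) (q4L (C (m + 1)) (2 ^ (m0 + m + k)) q p)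
        else 0)) +
    (8 + 16 * κ) *
      ((∑ q : ZMod Q, ∑ p : ZMod Q, 8 * SA (bxL (A 0) (2 ^ m0) q p) (q4L (A 0) (2 ^ m0) q p)) +
      (∑ q : ZMod Q, ∑ p : ZMod Q, 8 * SB (bxL (B 0) (2 ^ m0) q p) (q4L (B 0) (2 ^ m0) q p)) +
      (∑ q : ZMod Q, ∑ p : ZMod Q, 8 * SC (bxL (C 0) (2 ^ m0) q p) (q4L (C 0) (2 ^ m0) q p)))) := by
  have hw : ∀ j, 0 ≤ (fun j => (√(x j) * √(y j) * √(z j))⁻¹) j := fun j => by positivity
  exact tri_path A B C κ m0 M l hκ hp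
    (fun m p0 p1 p2 => 4 * (SA (bxL (A (m + 1)) (2 ^ (m0 + m)) p0 p1)
          (q4L (A (m + 1)) (2 ^ (m0 + m)) p0 p1) +
        SB (bxL (B (m + 1)) (2 ^ (m0 + m)) p1 p2) (q4L (B (m + 1)) (2 ^ (m0 + m)) p1 p2) +
        SC (bxL (C (m + 1)) (2 ^ (m0 + m)) p2 p0) (q4L (C (m + 1)) (2 ^ (m0 + m)) p2 p0)))
    (fun m k q p => 8 * SA (bxL (A (m + 1)) (2 ^ (m0 + m + k)) q p)
      (q4L (A (m + 1)) (2 ^ (m0 + m + k)) q p))
    (fun m k q p => 8 * SB (bxL (B (m + 1)) (2 ^ (m0 + m + k)) q p)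
      (q4L (B (m + 1)) (2 ^ (m0 + m + k)) q p))
    (fun m k q p => 8 * SC (bxL (C (m + 1)) (2 ^ (m0 + m + k)) q p)
      (q4L (C (m + 1)) (2 ^ (m0 + m + k)) q p))
    (fun q p => 8 * SA (bxL (A 0) (2 ^ m0) q p) (q4L (A 0) (2 ^ m0) q p))
    (fun q p => 8 * SB (bxL (B 0) (2 ^ m0) q p) (q4L (B 0) (2 ^ m0) q p))
    (fun q p => 8 * SC (bxL (C 0) (2 ^ m0) q p) (q4L (C 0) (2 ^ m0) q p))
    (fun m _ p0 p1 p2 _ J => bud_JV hp hA hB hC _ _ _ _ _ _ _ J)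
    (fun m _ k _ q p _ J => bud_JE hw (fun j => (hp.xpos j).le) hA _ _ _ _ J)
    (fun m _ k _ q p _ J => bud_JE hw (fun j => (hp.ypos j).le) hB _ _ _ _ J)
    (fun m _ k _ q p _ J => bud_JE hw (fun j => (hp.zpos j).le) hC _ _ _ _ J)
    (fun q p J => bud_JE hw (fun j => (hp.xpos j).le) hA _ _ _ _ J)
    (fun q p J => bud_JE hw (fun j => (hp.ypos j).le) hB _ _ _ _ J)
    (fun q p J => bud_JE hw (fun j => (hp.zpos j).le) hC _ _ _ _ J)

theorem not_sees_self {β α : Type*} (X : ZMod Q → ZMod Q → Matrix β α ℝ) (a : ℕ)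
    (q p : ZMod Q) : ¬ Sees X X a q p := by
  intro h
  obtain ⟨i, j, _, _, hne⟩ := h
  exact hne rfl

/-- **static letters**: only the leaf is paid -/
theorem tri_static (A : ZMod Q → ZMod Q → Matrix κ0 κ1 ℝ)
    (B : ZMod Q → ZMod Q → Matrix κ1 κ2 ℝ) (C : ZMod Q → ZMod Q → Matrix κ2 κ0 ℝ)
    (κ m0 M : ℕ) (l : ℤ)
    (hκ : 2 * |l| + 20 ≤ 2 ^ κ) {x y z : ℤ → ℝ} (hp : PathSeq x y z) {SA SB SC : ℝ → ℝ → ℝ}
    (hA : Bud (fun j => (√(x j) * √(y j) * √(z j))⁻¹) x SA)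
    (hB : Bud (fun j => (√(x j) * √(y j) * √(z j))⁻¹) y SB)
    (hC : Bud (fun j => (√(x j) * √(y j) * √(z j))⁻¹) z SC) :
    ∑ m ∈ range M, bl (fun n => ∑ p0 : ZMod Q, ∑ p1 : ZMod Q,
      |LboxL A B C (2 ^ (m0 + m)) p0 p1 (n - p0 - p1)|) (2 ^ (m0 + m)) l ≤
    76800 * (8 * (8 + 16 * κ)) * ∑ q : ZMod Q, ∑ p : ZMod Q,
      (SA (bxL A (2 ^ m0) q p) (q4L A (2 ^ m0) q p) +
        SB (bxL B (2 ^ m0) q p) (q4L B (2 ^ m0) q p) +
        SC (bxL C (2 ^ m0) q p) (q4L C (2 ^ m0) q p)) := by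
  classical
  have h := tri_bud (fun _ => A) (fun _ => B) (fun _ => C) κ m0 M l hκ hp hA hB hC
  have hs0 := fun a q p => not_sees_self A a q p
  have hs1 := fun a q p => not_sees_self B a q p
  have hs2' := fun a q p => not_sees_self C a q p
  have hn : ∀ (N : ℕ) (p0 p1 p2 : ZMod Q), ¬ Any3 A A B B C C N p0 p1 p2 := by
    intro N p0 p1 p2 h
    rcases h with h | h | h
    · exact hs0 _ _ _ h
    · exact hs1 _ _ _ h
    · exact hs2' _ _ _ h
  simp only [hn, hs0, hs1, hs2', if_false, Finset.sum_const_zero, add_zero, mul_zero] at h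
  have hb0 : ∀ N : ℕ, bl (fun _ : ZMod Q => (0 : ℝ)) N (-2) = 0 := by
    intro N
    unfold bl
    simp
  simp only [hb0, Finset.sum_const_zero, mul_zero, zero_add] at h
  refine h.trans (le_of_eq ?_)
  simp only [← Finset.mul_sum, Finset.sum_add_distrib]
  ring

end tri

end Crest.Agent.R079.PotL
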