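import Crest.Agent.R079.PLLD_945

/-! R079, LABELLED TRI (AL1 of doc 2514): the sum over the scales `2^m0, ..., 2^(m0+M-1)` of the
labelled triangular box forms, letters change with the scale (masks): `LboxL_path` + `mask_sum_from`
+ touch lemmas.  Label version of helper378's `Tri_378`.  helper945. -/

set_option autoImplicit false
set_option linter.unusedVariables false
set_option linter.unusedSectionVars false

namespace Crest.Agent.R079.PotL

open Matrix Finset Crest.Agent.R072 Crest.Agent.R079.LD Crest.Agent.R079.Path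
  Crest.Agent.R072.Nd
open scoped MatrixOrder

section touch

variable {Q : ℕ} [NeZero Q] {α β γ : Type*} [Fintype α] [DecidableEq α] [Fintype β] [Fintype γ]

/-- the box `[q, q+a) × [p, p+a)` sees a difference of `X` and `X'` -/
def Sees {β α : Type*} (X X' : ZMod Q → ZMod Q → Matrix β α ℝ) (a : ℕ) (q p : ZMod Q) : Prop :=
  ∃ i j : ℕ, i < a ∧ j < a ∧ X (q + (i : ZMod Q)) (p + (j : ZMod Q)) ≠
    X' (q + (i : ZMod Q)) (p + (j : ZMod Q))

/-- a box which sees no difference has the same averaged matrix -/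
theorem abar_congr {X X' : ZMod Q → ZMod Q → Matrix β α ℝ} {a : ℕ} {q p : ZMod Q}
    (h : ¬ Sees X X' a q p) : abar X a a q p = abar X' a a q p := by
  have h1 : ∀ i j : ℕ, i < a → j < a → X (q + (i : ZMod Q)) (p + (j : ZMod Q)) =
      X' (q + (i : ZMod Q)) (p + (j : ZMod Q)) := by
    intro i j hi hj
    by_contra hne
    exact h ⟨i, j, hi, hj, hne⟩
  ext j j'
  unfold abar
  congr 1
  refine Finset.sum_congr rfl fun i hi => ?_
  rw [h1 i j.1 (Finset.mem_range.1 hi) j.1.2, h1 i j'.1 (Finset.mem_range.1 hi) j'.1.2]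

/-- (PL3) -/
theorem touchW {P : TPot α} (hF : GoodPot P.F) (X X' : ZMod Q → ZMod Q → Matrix β α ℝ)
    (Z Z' : ZMod Q → ZMod Q → Matrix γ α ℝ) (N : ℕ)
    (n : ZMod Q) (D : Finset (ZMod Q × ZMod Q))
    (hD : ∀ p q, (Sees X X' N q p ∨ Sees Z Z' N (n - p - q) p) → (q, p) ∈ D) :
    W P X Z N N n - W P X' Z' N N n ≤ ∑ z ∈ D,
      P.F N (abar X N N z.1 z.2 + abar Z N N (n - z.2 - z.1) z.2) := by
  unfold W
  rw [← Finset.sum_sub_distrib]
  simp only [← Finset.sum_sub_distrib]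
  rw [Finset.sum_comm, ← Finset.sum_product']
  rw [Finset.univ_product_univ]
  have hsub : D ⊆ (Finset.univ : Finset (ZMod Q × ZMod Q)) := Finset.subset_univ _
  rw [← Finset.sum_subset hsub ?_]
  · refine Finset.sum_le_sum fun z _ => ?_
    have := hF.nonneg N (abar X' N N z.1 z.2 + abar Z' N N (n - z.2 - z.1) z.2)
      (abar_add_posSemidef _ _ _ _ _ _ _ _)
    linarith
  · intro z _ hz
    have h1 : ¬ (Sees X X' N z.1 z.2 ∨ Sees Z Z' N (n - z.2 - z.1) z.2) := fun h => hz (hD _ _ h)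
    rw [not_or] at h1
    rw [abar_congr h1.1, abar_congr h1.2, sub_self]

theorem touchV {P : TPot α} (hF : GoodPot P.F) (X X' : ZMod Q → ZMod Q → Matrix β α ℝ)
    (Z Z' : ZMod Q → ZMod Q → Matrix γ α ℝ) (N : ℕ) (D : ZMod Q → Finset (ZMod Q × ZMod Q))
    (hD : ∀ n p q, (Sees X X' N q p ∨ Sees Z Z' N (n - p - q) p) → (q, p) ∈ D n) :
    Vb P X Z N - Vb P X' Z' N ≤ bl (fun n => ∑ z ∈ D n,
        P.F N (abar X N N z.1 z.2 + abar Z N N (n - z.2 - z.1) z.2)) N (-2) := by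
  unfold Vb bl
  rw [← mul_sub, ← Finset.sum_sub_distrib]
  refine mul_le_mul_of_nonneg_left (Finset.sum_le_sum fun i _ => ?_) (by positivity)
  exact touchW hF X X' Z Z' N _ _ (hD _)

theorem touchE {P : TPot α} (hE : GoodPot P.E) (X X' : ZMod Q → ZMod Q → Matrix β α ℝ) (N : ℕ)
    (D : Finset (ZMod Q × ZMod Q)) (hD : ∀ p q, Sees X X' N q p → (q, p) ∈ D) :
    EW P X N N - EW P X' N N ≤ ∑ z ∈ D, P.E N (abar X N N z.1 z.2) := by
  unfold EW
  rw [← Finset.sum_sub_distrib]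
  simp only [← Finset.sum_sub_distrib]
  rw [Finset.sum_comm, ← Finset.sum_product']
  rw [Finset.univ_product_univ]
  have hsub : D ⊆ (Finset.univ : Finset (ZMod Q × ZMod Q)) := Finset.subset_univ _
  rw [← Finset.sum_subset hsub ?_]
  · refine Finset.sum_le_sum fun z _ => ?_
    have := hE.nonneg N (abar X' N N z.1 z.2) (abar_posSemidef _ _ _ _ _)
    linarith
  · intro z _ hz
    have h1 : ¬ Sees X X' N z.1 z.2 := fun h => hz (hD _ _ h)
    rw [abar_congr h1, sub_self]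

/-- scaled function -/
def sc {β α : Type*} (c : ℝ) (F : ZMod Q → ZMod Q → Matrix β α ℝ) :
    ZMod Q → ZMod Q → Matrix β α ℝ := fun u v => c • F u v

theorem sees_sc {β α : Type*} {c : ℝ} {X X' : ZMod Q → ZMod Q → Matrix β α ℝ} {a : ℕ}
    {q p : ZMod Q} (h : Sees (sc c X) (sc c X') a q p) : Sees X X' a q p := by
  obtain ⟨i, j, hi, hj, hne⟩ := h
  refine ⟨i, j, hi, hj, fun h => hne ?_⟩
  unfold sc
  rw [h]

theorem sees_tr {β α : Type*} {X X' : ZMod Q → ZMod Q → Matrix β α ℝ} {a : ℕ} {q p : ZMod Q}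
    (h : Sees (tr X) (tr X') a q p) : Sees X X' a p q := by
  obtain ⟨i, j, hi, hj, hne⟩ := h
  refine ⟨j, i, hj, hi, fun h => hne ?_⟩
  unfold tr
  rw [h]

theorem abar_sc {x : ℝ} (hx : 0 ≤ x) (X : ZMod Q → ZMod Q → Matrix β α ℝ) (a r : ℕ)
    (q p : ZMod Q) :
    abar (sc √x X) a r q p = x • abar X a r q p := by
  ext j j'
  simp only [abar, sc, Matrix.smul_apply, smul_eq_mul]
  have hs : ∑ i ∈ range a, ∑ l : β, √x * X (q + (i : ZMod Q)) (p + ((j.1 : ℕ) : ZMod Q)) l j.2 *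
      (√x * X (q + (i : ZMod Q)) (p + ((j'.1 : ℕ) : ZMod Q)) l j'.2) =
      x * ∑ i ∈ range a, ∑ l : β, X (q + (i : ZMod Q)) (p + ((j.1 : ℕ) : ZMod Q)) l j.2 *
      X (q + (i : ZMod Q)) (p + ((j'.1 : ℕ) : ZMod Q)) l j'.2 := by
    rw [Finset.mul_sum]
    refine Finset.sum_congr rfl fun i _ => ?_
    rw [Finset.mul_sum]
    refine Finset.sum_congr rfl fun l _ => ?_
    have := Real.mul_self_sqrt hx
    linear_combination (X (q + (i : ZMod Q)) (p + ((j.1 : ℕ) : ZMod Q)) l j.2 *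
        X (q + (i : ZMod Q)) (p + ((j'.1 : ℕ) : ZMod Q)) l j'.2) * this
  rw [hs]
  ring

theorem bl_sum {ι : Type*} (s : Finset ι) (f : ι → ZMod Q → ℝ) (N : ℕ) (l : ℤ) :
    bl (fun n => ∑ j ∈ s, f j n) N l = ∑ j ∈ s, bl (f j) N l := by
  unfold bl
  rw [Finset.sum_comm, Finset.mul_sum]

/-- reindexing `p0 ↦ p2 = n - p0 - p1` -/
theorem sum_third (n : ZMod Q) (g : ZMod Q → ZMod Q → ZMod Q → ℝ) :
    ∑ p0 : ZMod Q, ∑ p1 : ZMod Q, g p0 p1 (n - p0 - p1) =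
      ∑ p2 : ZMod Q, ∑ p1 : ZMod Q, g (n - p2 - p1) p1 p2 := by
  rw [Finset.sum_comm]
  rw [Finset.sum_comm (s := (Finset.univ : Finset (ZMod Q))) (t := (Finset.univ : Finset (ZMod Q)))
    (f := fun p2 p1 => g (n - p2 - p1) p1 p2)]
  refine Finset.sum_congr rfl fun p1 _ => ?_
  refine Fintype.sum_equiv ((Equiv.subLeft n).trans (Equiv.subRight p1)) _ _ fun p0 => ?_
  simp only [Equiv.trans_apply, Equiv.subLeft_apply, Equiv.subRight_apply]
  have : n - (n - p0 - p1) - p1 = p0 := by ring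
  rw [this]

end touch

section tri

variable {Q : ℕ} [NeZero Q] {κ0 κ1 κ2 α β : Type*} [Fintype κ0] [DecidableEq κ0]
  [Fintype κ1] [DecidableEq κ1] [Fintype κ2] [DecidableEq κ2] [Fintype α] [DecidableEq α]
  [Fintype β] [DecidableEq β]

theorem sum_gams_eq (F0 : ZMod Q → ZMod Q → Matrix κ0 κ1 ℝ)
    (F1 : ZMod Q → ZMod Q → Matrix κ1 κ2 ℝ) (F2 : ZMod Q → ZMod Q → Matrix κ2 κ0 ℝ)
    (N : ℕ) (n : ZMod Q) {x y z : ℝ} (hx : 0 ≤ x) (hy : 0 ≤ y) (hz : 0 ≤ z) :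
    ∑ p0 : ZMod Q, ∑ p1 : ZMod Q, gams F0 F1 F2 N p0 p1 (n - p0 - p1) x y z =
      GW (potLD κ0 1) (sc √x (tr F0)) (sc √z F2) N n +
      GW (potLD κ1 1) (sc √x F0) (sc √y (tr F1)) N n +
      GW (potLD κ2 1) (sc √y F1) (sc √z (tr F2)) N n := by
  have h1 : GW (potLD κ0 1) (sc √x (tr F0)) (sc √z F2) N n = ∑ p0 : ZMod Q, ∑ p1 : ZMod Q,
      gam (potLD κ0 1).F N (x • abar (tr F0) (N + N) (N + N) p1 p0 +
        z • abar F2 (N + N) (N + N) (n - p0 - p1) p0) := by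
    unfold GW
    refine Finset.sum_congr rfl fun p _ => Finset.sum_congr rfl fun q _ => ?_
    rw [abar_sc hx, abar_sc hz]
  have h2 : GW (potLD κ1 1) (sc √x F0) (sc √y (tr F1)) N n = ∑ p0 : ZMod Q, ∑ p1 : ZMod Q,
      gam (potLD κ1 1).F N (y • abar (tr F1) (N + N) (N + N) (n - p0 - p1) p1 +
        x • abar F0 (N + N) (N + N) p0 p1) := by
    unfold GW
    rw [Finset.sum_comm]
    refine Finset.sum_congr rfl fun q _ => Finset.sum_congr rfl fun p _ => ?_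
    rw [abar_sc hx, abar_sc hy, add_comm, show n - p - q = n - q - p by ring]
  have h3 : GW (potLD κ2 1) (sc √y F1) (sc √z (tr F2)) N n = ∑ p0 : ZMod Q, ∑ p1 : ZMod Q,
      gam (potLD κ2 1).F N (z • abar (tr F2) (N + N) (N + N) p0 (n - p0 - p1) +
        y • abar F1 (N + N) (N + N) p1 (n - p0 - p1)) := by
    rw [sum_third n (fun p0 p1 p2 => gam (potLD κ2 1).F N
      (z • abar (tr F2) (N + N) (N + N) p0 p2 +
        y • abar F1 (N + N) (N + N) p1 p2))]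
    unfold GW
    refine Finset.sum_congr rfl fun p _ => Finset.sum_congr rfl fun q _ => ?_
    rw [abar_sc hy, abar_sc hz, add_comm]
  rw [h1, h2, h3, ← Finset.sum_add_distrib, ← Finset.sum_add_distrib]
  refine Finset.sum_congr rfl fun p0 _ => ?_
  rw [← Finset.sum_add_distrib, ← Finset.sum_add_distrib]
  rfl

/-- joint potentials of a labelled box of side `N` at parameters `x, y, z` -/
noncomputable def JV (F0 : ZMod Q → ZMod Q → Matrix κ0 κ1 ℝ)
    (F1 : ZMod Q → ZMod Q → Matrix κ1 κ2 ℝ) (F2 : ZMod Q → ZMod Q → Matrix κ2 κ0 ℝ)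
    (N : ℕ) (p0 p1 p2 : ZMod Q) (x y z : ℝ) : ℝ :=
  LD 1 (x • abar (tr F0) N N p1 p0 + z • abar F2 N N p2 p0) +
  LD 1 (x • abar F0 N N p0 p1 + y • abar (tr F1) N N p2 p1) +
  LD 1 (y • abar F1 N N p1 p2 + z • abar (tr F2) N N p0 p2)

/-- own potentials of a labelled box of side `a` at parameter `x` -/
noncomputable def JE (F : ZMod Q → ZMod Q → Matrix β α ℝ) (a : ℕ) (q p : ZMod Q) (x : ℝ) : ℝ :=
  LD (1 / 2) (x • abar F a a q p) + LD (1 / 2) (x • abar (tr F) a a p q)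

/-- the box `(p0,p1,p2)` of side `N` sees a change -/
def Any3 (A A' : ZMod Q → ZMod Q → Matrix κ0 κ1 ℝ) (B B' : ZMod Q → ZMod Q → Matrix κ1 κ2 ℝ)
    (C C' : ZMod Q → ZMod Q → Matrix κ2 κ0 ℝ) (N : ℕ) (p0 p1 p2 : ZMod Q) : Prop :=
  Sees A A' N p0 p1 ∨ Sees B B' N p1 p2 ∨ Sees C C' N p2 p0

open Classical in
/-- change of the reference potentials of the three vertices -/
theorem vb_change (A A' : ZMod Q → ZMod Q → Matrix κ0 κ1 ℝ)
    (B B' : ZMod Q → ZMod Q → Matrix κ1 κ2 ℝ)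
    (C C' : ZMod Q → ZMod Q → Matrix κ2 κ0 ℝ) (N : ℕ) {x y z : ℝ}
    (hx : 0 ≤ x) (hy : 0 ≤ y) (hz : 0 ≤ z) :
    (Vb (potLD κ0 1) (sc √x (tr A)) (sc √z C) N -
        Vb (potLD κ0 1) (sc √x (tr A')) (sc √z C') N) +
    (Vb (potLD κ1 1) (sc √x A) (sc √y (tr B)) N -
        Vb (potLD κ1 1) (sc √x A') (sc √y (tr B')) N) +
    (Vb (potLD κ2 1) (sc √y B) (sc √z (tr C)) N -
        Vb (potLD κ2 1) (sc √y B') (sc √z (tr C')) N) ≤
    bl (fun n => ∑ p0 : ZMod Q, ∑ p1 : ZMod Q,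
      if Any3 A A' B B' C C' N p0 p1 (n - p0 - p1) then
        JV A B C N p0 p1 (n - p0 - p1) x y z else 0) N (-2) := by
  have h1 := touchV (P := potLD κ0 1) (instLD one_pos).F (sc √x (tr A)) (sc √x (tr A'))
    (sc √z C) (sc √z C') N
    (fun n => Finset.univ.filter fun w => Any3 A A' B B' C C' N w.2 w.1 (n - w.2 - w.1)) (by
      intro n p q h
      rw [Finset.mem_filter]
      refine ⟨Finset.mem_univ _, ?_⟩
      rcases h with h | h
      · exact Or.inl (sees_tr (sees_sc h))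
      · exact Or.inr (Or.inr (sees_sc h)))
  have h2 := touchV (P := potLD κ1 1) (instLD one_pos).F (sc √x A) (sc √x A') (sc √y (tr B))
    (sc √y (tr B')) N
    (fun n => Finset.univ.filter fun w => Any3 A A' B B' C C' N w.1 w.2 (n - w.2 - w.1)) (by
      intro n p q h
      rw [Finset.mem_filter]
      refine ⟨Finset.mem_univ _, ?_⟩
      rcases h with h | h
      · exact Or.inl (sees_sc h)
      · exact Or.inr (Or.inl (sees_tr (sees_sc h))))
  have h3 := touchV (P := potLD κ2 1) (instLD one_pos).F (sc √y B) (sc √y B') (sc √z (tr C))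
    (sc √z (tr C')) N
    (fun n => Finset.univ.filter fun w => Any3 A A' B B' C C' N (n - w.2 - w.1) w.1 w.2) (by
      intro n p q h
      rw [Finset.mem_filter]
      refine ⟨Finset.mem_univ _, ?_⟩
      rcases h with h | h
      · exact Or.inr (Or.inl (sees_sc h))
      · exact Or.inr (Or.inr (sees_tr (sees_sc h))))
  refine (add_le_add (add_le_add h1 h2) h3).trans (le_of_eq ?_)
  rw [← bl_add, ← bl_add]
  congr 1
  funext n
  have e1 : ∑ w ∈ (Finset.univ.filter fun w : ZMod Q × ZMod Q =>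
        Any3 A A' B B' C C' N w.2 w.1 (n - w.2 - w.1)),
      (potLD κ0 1).F N (abar (sc √x (tr A)) N N w.1 w.2 +
        abar (sc √z C) N N (n - w.2 - w.1) w.2) =
      ∑ p0 : ZMod Q, ∑ p1 : ZMod Q, if Any3 A A' B B' C C' N p0 p1 (n - p0 - p1) then
        LD 1 (x • abar (tr A) N N p1 p0 + z • abar C N N (n - p0 - p1) p0) else 0 := by
    rw [Finset.sum_filter, Fintype.sum_prod_type, Finset.sum_comm]
    refine Finset.sum_congr rfl fun p0 _ => Finset.sum_congr rfl fun p1 _ => ?_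
    simp only [abar_sc hx, abar_sc hz]
    rfl
  have e2 : ∑ w ∈ (Finset.univ.filter fun w : ZMod Q × ZMod Q =>
        Any3 A A' B B' C C' N w.1 w.2 (n - w.2 - w.1)),
      (potLD κ1 1).F N (abar (sc √x A) N N w.1 w.2 +
        abar (sc √y (tr B)) N N (n - w.2 - w.1) w.2) =
      ∑ p0 : ZMod Q, ∑ p1 : ZMod Q, if Any3 A A' B B' C C' N p0 p1 (n - p0 - p1) then
        LD 1 (x • abar A N N p0 p1 + y • abar (tr B) N N (n - p0 - p1) p1) else 0 := by
    rw [Finset.sum_filter, Fintype.sum_prod_type]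
    refine Finset.sum_congr rfl fun p0 _ => Finset.sum_congr rfl fun p1 _ => ?_
    simp only [abar_sc hx, abar_sc hy]
    rw [show n - p1 - p0 = n - p0 - p1 by ring]
    rfl
  have e3 : ∑ w ∈ (Finset.univ.filter fun w : ZMod Q × ZMod Q =>
        Any3 A A' B B' C C' N (n - w.2 - w.1) w.1 w.2),
      (potLD κ2 1).F N (abar (sc √y B) N N w.1 w.2 +
        abar (sc √z (tr C)) N N (n - w.2 - w.1) w.2) =
      ∑ p0 : ZMod Q, ∑ p1 : ZMod Q, if Any3 A A' B B' C C' N p0 p1 (n - p0 - p1) then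
        LD 1 (y • abar B N N p1 (n - p0 - p1) + z • abar (tr C) N N p0 (n - p0 - p1)) else 0 := by
    rw [sum_third n (fun p0 p1 p2 => if Any3 A A' B B' C C' N p0 p1 p2 then
        LD 1 (y • abar B N N p1 p2 + z • abar (tr C) N N p0 p2) else 0)]
    rw [Finset.sum_filter, Fintype.sum_prod_type, Finset.sum_comm]
    refine Finset.sum_congr rfl fun p2 _ => Finset.sum_congr rfl fun p1 _ => ?_
    simp only [abar_sc hy, abar_sc hz]
    rfl
  rw [e1, e2, e3, ← Finset.sum_add_distrib, ← Finset.sum_add_distrib]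
  refine Finset.sum_congr rfl fun p0 _ => ?_
  rw [← Finset.sum_add_distrib, ← Finset.sum_add_distrib]
  refine Finset.sum_congr rfl fun p1 _ => ?_
  by_cases h : Any3 A A' B B' C C' N p0 p1 (n - p0 - p1)
  · simp only [h, if_true]
    rfl
  · simp only [h, if_false, add_zero]

open Classical in
/-- change of the own potentials of one function -/
theorem ew_change (A A' : ZMod Q → ZMod Q → Matrix β α ℝ) (a : ℕ) {x : ℝ} (hx : 0 ≤ x) :
    (EW (potLD β 1) (sc √x (tr A)) a a - EW (potLD β 1) (sc √x (tr A')) a a) +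
    (EW (potLD α 1) (sc √x A) a a - EW (potLD α 1) (sc √x A') a a) ≤
    ∑ q : ZMod Q, ∑ p : ZMod Q, if Sees A A' a q p then JE A a q p x else 0 := by
  have h1 := touchE (P := potLD β 1) (instLD one_pos).E (sc √x (tr A)) (sc √x (tr A')) a
    (Finset.univ.filter fun w => Sees A A' a w.2 w.1) (by
      intro p q h
      rw [Finset.mem_filter]
      exact ⟨Finset.mem_univ _, sees_tr (sees_sc h)⟩)
  have h2 := touchE (P := potLD α 1) (instLD one_pos).E (sc √x A) (sc √x A') a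
    (Finset.univ.filter fun w => Sees A A' a w.1 w.2) (by
      intro p q h
      rw [Finset.mem_filter]
      exact ⟨Finset.mem_univ _, sees_sc h⟩)
  refine (add_le_add h1 h2).trans (le_of_eq ?_)
  rw [Finset.sum_filter, Finset.sum_filter, Fintype.sum_prod_type, Fintype.sum_prod_type,
    Finset.sum_comm, ← Finset.sum_add_distrib]
  refine Finset.sum_congr rfl fun q _ => ?_
  rw [← Finset.sum_add_distrib]
  refine Finset.sum_congr rfl fun p _ => ?_
  by_cases h : Sees A A' a q p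
  · simp only [h, if_true, abar_sc hx]
    unfold JE
    rw [add_comm]
    rfl
  · simp only [h, if_false, add_zero]

/-- joint potential `≤ 2 ×` own potentials (log-det) -/
theorem W_le_EE_LD (X : ZMod Q → ZMod Q → Matrix β α ℝ) (Z : ZMod Q → ZMod Q → Matrix κ0 α ℝ)
    (N : ℕ) (n : ZMod Q) : W (potLD α 1) X Z N N n ≤ 2 * EE (potLD α 1) X Z N := by
  unfold W EE EW
  have h1 : ∀ p q : ZMod Q, (potLD α 1).F N (abar X N N q p + abar Z N N (n - p - q) p) ≤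
      2 * (potLD α 1).E N (abar X N N q p) + 2 * (potLD α 1).E N (abar Z N N (n - p - q) p) := by
    intro p q
    have h := LD_add_le one_pos (abar_posSemidef X N N q p).nonneg
      (abar_posSemidef Z N N (n - p - q) p).nonneg
    have h2 : ∀ M : Matrix (Fin N × α) (Fin N × α) ℝ, M.PosSemidef → LD 1 M ≤ LD (1 / 2) M := by
      intro M hM
      rw [LD_half_eq]
      refine LD_mono one_pos hM.nonneg ?_
      rw [two_smul]
      exact le_add_of_nonneg_right hM.nonneg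
    have h3 := h2 _ (abar_posSemidef X N N q p)
    have h4 := h2 _ (abar_posSemidef Z N N (n - p - q) p)
    show LD 1 _ ≤ 2 * LD (1 / 2) _ + 2 * LD (1 / 2) _
    linarith
  refine (Finset.sum_le_sum fun p _ => Finset.sum_le_sum fun q _ => h1 p q).trans (le_of_eq ?_)
  simp_rw [Finset.sum_add_distrib, ← Finset.mul_sum]
  have e3 : ∑ p : ZMod Q, ∑ q : ZMod Q, (potLD α 1).E N (abar Z N N (n - p - q) p) =
      ∑ p : ZMod Q, ∑ q : ZMod Q, (potLD α 1).E N (abar Z N N q p) := by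
    refine Finset.sum_congr rfl fun p _ => ?_
    rw [← Equiv.sum_comp (Equiv.subLeft (n - p)) (fun q => (potLD α 1).E N (abar Z N N q p))]
    rfl
  rw [e3]
  ring

theorem Vb_le_EE_LD (X : ZMod Q → ZMod Q → Matrix β α ℝ) (Z : ZMod Q → ZMod Q → Matrix κ0 α ℝ)
    {N : ℕ} (hN : 0 < N) : Vb (potLD α 1) X Z N ≤ 2 * EE (potLD α 1) X Z N := by
  unfold Vb
  refine (bl_mono (fun n => W_le_EE_LD X Z N n) _ _).trans (le_of_eq ?_)
  exact bl_const _ hN _

/-- own potentials summed over all positions -/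
theorem ew_eq (A : ZMod Q → ZMod Q → Matrix β α ℝ) (a : ℕ) {x : ℝ} (hx : 0 ≤ x) :
    EW (potLD β 1) (sc √x (tr A)) a a + EW (potLD α 1) (sc √x A) a a =
    ∑ q : ZMod Q, ∑ p : ZMod Q, JE A a q p x := by
  unfold EW
  rw [Finset.sum_comm (f := fun p q => (potLD α 1).E a (abar (sc √x A) a a q p)),
    ← Finset.sum_add_distrib]
  refine Finset.sum_congr rfl fun q _ => ?_
  rw [← Finset.sum_add_distrib]
  refine Finset.sum_congr rfl fun p _ => ?_
  simp only [abar_sc hx]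
  unfold JE
  rw [add_comm]
  rfl

open Classical in
/-- the three vertices together, at fixed parameters, from the leaf scale `2^m0` -/
theorem mask_three (A : ℕ → ZMod Q → ZMod Q → Matrix κ0 κ1 ℝ)
    (B : ℕ → ZMod Q → ZMod Q → Matrix κ1 κ2 ℝ) (C : ℕ → ZMod Q → ZMod Q → Matrix κ2 κ0 ℝ)
    (κ m0 M : ℕ) (l : ℤ)
    (hκ : 2 * |l| + 20 ≤ 2 ^ κ) {x y z : ℝ} (hx : 0 ≤ x) (hy : 0 ≤ y) (hz : 0 ≤ z) :
    ∑ m ∈ range M, bl (fun n => ∑ p0 : ZMod Q, ∑ p1 : ZMod Q,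
      gams (A (m + 1)) (B (m + 1)) (C (m + 1)) (2 ^ (m0 + m)) p0 p1 (n - p0 - p1) x y z)
        (2 ^ (m0 + m)) l ≤
    4 * ∑ m ∈ range M, bl (fun n => ∑ p0 : ZMod Q, ∑ p1 : ZMod Q,
      if Any3 (A (m + 1)) (A m) (B (m + 1)) (B m) (C (m + 1)) (C m) (2 ^ (m0 + m)) p0 p1
        (n - p0 - p1)
      then JV (A (m + 1)) (B (m + 1)) (C (m + 1)) (2 ^ (m0 + m)) p0 p1 (n - p0 - p1) x y z
      else 0) (2 ^ (m0 + m)) (-2) +
    16 * ∑ k ∈ range κ, ∑ m ∈ range M,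
      ((∑ q : ZMod Q, ∑ p : ZMod Q, if Sees (A (m + 1)) (A m) (2 ^ (m0 + m + k)) q p then
        JE (A (m + 1)) (2 ^ (m0 + m + k)) q p x else 0) +
      (∑ q : ZMod Q, ∑ p : ZMod Q, if Sees (B (m + 1)) (B m) (2 ^ (m0 + m + k)) q p then
        JE (B (m + 1)) (2 ^ (m0 + m + k)) q p y else 0) +
      (∑ q : ZMod Q, ∑ p : ZMod Q, if Sees (C (m + 1)) (C m) (2 ^ (m0 + m + k)) q p then
        JE (C (m + 1)) (2 ^ (m0 + m + k)) q p z else 0)) +
    (8 + 16 * κ) * ((∑ q : ZMod Q, ∑ p : ZMod Q, JE (A 0) (2 ^ m0) q p x) +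
      (∑ q : ZMod Q, ∑ p : ZMod Q, JE (B 0) (2 ^ m0) q p y) +
      (∑ q : ZMod Q, ∑ p : ZMod Q, JE (C 0) (2 ^ m0) q p z)) := by
  have h1 := mask_sum_from (instLD (α := κ0) (t := 1) one_pos) (fun m => sc √x (tr (A m)))
    (fun m => sc √z (C m)) κ m0 M l hκ
  have h2 := mask_sum_from (instLD (α := κ1) (t := 1) one_pos) (fun m => sc √x (A m))
    (fun m => sc √y (tr (B m))) κ m0 M l hκ
  have h3 := mask_sum_from (instLD (α := κ2) (t := 1) one_pos) (fun m => sc √y (B m))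
    (fun m => sc √z (tr (C m))) κ m0 M l hκ
  simp only [mul_one] at h1 h2 h3
  have hL : ∀ m : ℕ, bl (fun n => ∑ p0 : ZMod Q, ∑ p1 : ZMod Q,
      gams (A (m + 1)) (B (m + 1)) (C (m + 1)) (2 ^ (m0 + m)) p0 p1 (n - p0 - p1) x y z)
        (2 ^ (m0 + m)) l =
      bl (GW (potLD κ0 1) (sc √x (tr (A (m + 1)))) (sc √z (C (m + 1))) (2 ^ (m0 + m)))
        (2 ^ (m0 + m)) l +
      bl (GW (potLD κ1 1) (sc √x (A (m + 1))) (sc √y (tr (B (m + 1)))) (2 ^ (m0 + m)))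
        (2 ^ (m0 + m)) l +
      bl (GW (potLD κ2 1) (sc √y (B (m + 1))) (sc √z (tr (C (m + 1)))) (2 ^ (m0 + m)))
        (2 ^ (m0 + m)) l := by
    intro m
    rw [← bl_add, ← bl_add]
    congr 1
    funext n
    exact sum_gams_eq _ _ _ _ _ hx hy hz
  simp only [hL]
  rw [Finset.sum_add_distrib, Finset.sum_add_distrib]
  refine (add_le_add (add_le_add h1 h2) h3).trans ?_
  have hV := Finset.sum_le_sum fun m (_ : m ∈ range M) =>
    vb_change (A (m + 1)) (A m) (B (m + 1)) (B m) (C (m + 1)) (C m) (2 ^ (m0 + m))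
      hx hy hz
  have hE : ∑ k ∈ range κ, ∑ m ∈ range M,
      ((EE (potLD κ0 1) (sc √x (tr (A (m + 1)))) (sc √z (C (m + 1))) (2 ^ (m0 + m + k)) -
        EE (potLD κ0 1) (sc √x (tr (A m))) (sc √z (C m)) (2 ^ (m0 + m + k))) +
      (EE (potLD κ1 1) (sc √x (A (m + 1))) (sc √y (tr (B (m + 1)))) (2 ^ (m0 + m + k)) -
        EE (potLD κ1 1) (sc √x (A m)) (sc √y (tr (B m))) (2 ^ (m0 + m + k))) +
      (EE (potLD κ2 1) (sc √y (B (m + 1))) (sc √z (tr (C (m + 1)))) (2 ^ (m0 + m + k)) -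
        EE (potLD κ2 1) (sc √y (B m)) (sc √z (tr (C m))) (2 ^ (m0 + m + k)))) ≤
      ∑ k ∈ range κ, ∑ m ∈ range M,
      ((∑ q : ZMod Q, ∑ p : ZMod Q, if Sees (A (m + 1)) (A m) (2 ^ (m0 + m + k)) q p then
        JE (A (m + 1)) (2 ^ (m0 + m + k)) q p x else 0) +
      (∑ q : ZMod Q, ∑ p : ZMod Q, if Sees (B (m + 1)) (B m) (2 ^ (m0 + m + k)) q p then
        JE (B (m + 1)) (2 ^ (m0 + m + k)) q p y else 0) +
      (∑ q : ZMod Q, ∑ p : ZMod Q, if Sees (C (m + 1)) (C m) (2 ^ (m0 + m + k)) q p then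
        JE (C (m + 1)) (2 ^ (m0 + m + k)) q p z else 0)) := by
    refine Finset.sum_le_sum fun k _ => Finset.sum_le_sum fun m _ => ?_
    have a1 := ew_change (A (m + 1)) (A m) (2 ^ (m0 + m + k)) hx
    have a2 := ew_change (B (m + 1)) (B m) (2 ^ (m0 + m + k)) hy
    have a3 := ew_change (C (m + 1)) (C m) (2 ^ (m0 + m + k)) hz
    unfold EE
    linarith
  have v1 := Vb_le_EE_LD (sc √x (tr (A 0))) (sc √z (C 0)) (N := 2 ^ m0) (by positivity)
  have v2 := Vb_le_EE_LD (sc √x (A 0)) (sc √y (tr (B 0))) (N := 2 ^ m0) (by positivity)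
  have v3 := Vb_le_EE_LD (sc √y (B 0)) (sc √z (tr (C 0))) (N := 2 ^ m0) (by positivity)
  have w1 := ew_eq (A 0) (2 ^ m0) hx
  have w2 := ew_eq (B 0) (2 ^ m0) hy
  have w3 := ew_eq (C 0) (2 ^ m0) hz
  rw [← w1, ← w2, ← w3]
  simp only [Finset.sum_add_distrib] at hV hE ⊢
  unfold EE at v1 v2 v3

  have t1 : 16 * (κ : ℝ) * EE (potLD κ0 1) (sc √x (tr (A 0))) (sc √z (C 0)) (2 ^ m0) =
      16 * (κ : ℝ) * EW (potLD κ0 1) (sc √x (tr (A 0))) (2 ^ m0) (2 ^ m0) +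
      16 * (κ : ℝ) * EW (potLD κ0 1) (sc √z (C 0)) (2 ^ m0) (2 ^ m0) := by
    unfold EE; ring
  have t2 : 16 * (κ : ℝ) * EE (potLD κ1 1) (sc √x (A 0)) (sc √y (tr (B 0))) (2 ^ m0) =
      16 * (κ : ℝ) * EW (potLD κ1 1) (sc √x (A 0)) (2 ^ m0) (2 ^ m0) +
      16 * (κ : ℝ) * EW (potLD κ1 1) (sc √y (tr (B 0))) (2 ^ m0) (2 ^ m0) := by
    unfold EE; ring
  have t3 : 16 * (κ : ℝ) * EE (potLD κ2 1) (sc √y (B 0)) (sc √z (tr (C 0))) (2 ^ m0) =
      16 * (κ : ℝ) * EW (potLD κ2 1) (sc √y (B 0)) (2 ^ m0) (2 ^ m0) +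
      16 * (κ : ℝ) * EW (potLD κ2 1) (sc √z (tr (C 0))) (2 ^ m0) (2 ^ m0) := by
    unfold EE; ring
  rw [t1, t2, t3]
  linarith

/-- the boxes of all scales `< M` and all offsets of the block `l` -/
noncomputable def idx (Q : ℕ) [NeZero Q] (m0 M : ℕ) : Finset (Σ _ : ℕ, ℕ × ZMod Q × ZMod Q) :=
  (range M).sigma fun m => (range (2 ^ (m0 + m))) ×ˢ (Finset.univ ×ˢ Finset.univ)

theorem sum_idx (m0 M : ℕ) (l : ℤ) (f : ℕ → ZMod Q → ZMod Q → ZMod Q → ℝ) :
    ∑ i ∈ idx Q m0 M, (1 / ((2 ^ (m0 + i.1) : ℕ) : ℝ)) * f i.1 i.2.2.1 i.2.2.2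
      ((l : ZMod Q) * ((2 ^ (m0 + i.1) : ℕ) : ZMod Q) + (i.2.1 : ZMod Q) - i.2.2.1 - i.2.2.2) =
    ∑ m ∈ range M, bl (fun n => ∑ p0 : ZMod Q, ∑ p1 : ZMod Q, f m p0 p1 (n - p0 - p1))
      (2 ^ (m0 + m)) l := by
  unfold idx
  rw [Finset.sum_sigma]
  refine Finset.sum_congr rfl fun m _ => ?_
  unfold bl
  rw [Finset.sum_product, Finset.mul_sum]
  refine Finset.sum_congr rfl fun i _ => ?_
  rw [Finset.sum_product, Finset.mul_sum]
  refine Finset.sum_congr rfl fun p0 _ => ?_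
  rw [Finset.mul_sum]

open Classical in
/-- **(TRI) with labels**, arbitrary path, letters change with the scale, leaf scale `2^m0`,
abstract budgets of the boxes which see a change and of the leaf boxes -/
theorem tri_path (A : ℕ → ZMod Q → ZMod Q → Matrix κ0 κ1 ℝ)
    (B : ℕ → ZMod Q → ZMod Q → Matrix κ1 κ2 ℝ) (C : ℕ → ZMod Q → ZMod Q → Matrix κ2 κ0 ℝ)
    (κ m0 M : ℕ) (l : ℤ)
    (hκ : 2 * |l| + 20 ≤ 2 ^ κ) {x y z : ℤ → ℝ} (hp : PathSeq x y z)
    (GV : ℕ → ZMod Q → ZMod Q → ZMod Q → ℝ) (GA GB GC : ℕ → ℕ → ZMod Q → ZMod Q → ℝ)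
    (LA LB LC : ZMod Q → ZMod Q → ℝ)
    (hV : ∀ m ∈ range M, ∀ p0 p1 p2 : ZMod Q,
      Any3 (A (m + 1)) (A m) (B (m + 1)) (B m) (C (m + 1)) (C m) (2 ^ (m0 + m)) p0 p1 p2 →
      ∀ J : ℕ, ∑ j ∈ Finset.Ico (-(J : ℤ)) J, (√(x j) * √(y j) * √(z j))⁻¹ *
        JV (A (m + 1)) (B (m + 1)) (C (m + 1)) (2 ^ (m0 + m)) p0 p1 p2 (x j) (y j) (z j) ≤
      GV m p0 p1 p2)
    (hGA : ∀ m ∈ range M, ∀ k ∈ range κ, ∀ q p : ZMod Q,
      Sees (A (m + 1)) (A m) (2 ^ (m0 + m + k)) q p → ∀ J : ℕ,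
      ∑ j ∈ Finset.Ico (-(J : ℤ)) J, (√(x j) * √(y j) * √(z j))⁻¹ *
        JE (A (m + 1)) (2 ^ (m0 + m + k)) q p (x j) ≤ GA m k q p)
    (hGB : ∀ m ∈ range M, ∀ k ∈ range κ, ∀ q p : ZMod Q,
      Sees (B (m + 1)) (B m) (2 ^ (m0 + m + k)) q p → ∀ J : ℕ,
      ∑ j ∈ Finset.Ico (-(J : ℤ)) J, (√(x j) * √(y j) * √(z j))⁻¹ *
        JE (B (m + 1)) (2 ^ (m0 + m + k)) q p (y j) ≤ GB m k q p)
    (hGC : ∀ m ∈ range M, ∀ k ∈ range κ, ∀ q p : ZMod Q,
      Sees (C (m + 1)) (C m) (2 ^ (m0 + m + k)) q p → ∀ J : ℕ,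
      ∑ j ∈ Finset.Ico (-(J : ℤ)) J, (√(x j) * √(y j) * √(z j))⁻¹ *
        JE (C (m + 1)) (2 ^ (m0 + m + k)) q p (z j) ≤ GC m k q p)
    (hLA : ∀ q p : ZMod Q, ∀ J : ℕ, ∑ j ∈ Finset.Ico (-(J : ℤ)) J,
      (√(x j) * √(y j) * √(z j))⁻¹ * JE (A 0) (2 ^ m0) q p (x j) ≤ LA q p)
    (hLB : ∀ q p : ZMod Q, ∀ J : ℕ, ∑ j ∈ Finset.Ico (-(J : ℤ)) J,
      (√(x j) * √(y j) * √(z j))⁻¹ * JE (B 0) (2 ^ m0) q p (y j) ≤ LB q p)
    (hLC : ∀ q p : ZMod Q, ∀ J : ℕ, ∑ j ∈ Finset.Ico (-(J : ℤ)) J,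
      (√(x j) * √(y j) * √(z j))⁻¹ * JE (C 0) (2 ^ m0) q p (z j) ≤ LC q p) :
    ∑ m ∈ range M, bl (fun n => ∑ p0 : ZMod Q, ∑ p1 : ZMod Q,
      |LboxL (A (m + 1)) (B (m + 1)) (C (m + 1)) (2 ^ (m0 + m)) p0 p1 (n - p0 - p1)|)
        (2 ^ (m0 + m)) l ≤
    76800 * (4 * ∑ m ∈ range M, bl (fun n => ∑ p0 : ZMod Q, ∑ p1 : ZMod Q,
      if Any3 (A (m + 1)) (A m) (B (m + 1)) (B m) (C (m + 1)) (C m) (2 ^ (m0 + m)) p0 p1
        (n - p0 - p1)
      then GV m p0 p1 (n - p0 - p1) else 0) (2 ^ (m0 + m)) (-2) +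
    16 * ∑ k ∈ range κ, ∑ m ∈ range M,
      ((∑ q : ZMod Q, ∑ p : ZMod Q, if Sees (A (m + 1)) (A m) (2 ^ (m0 + m + k)) q p then
        GA m k q p else 0) +
      (∑ q : ZMod Q, ∑ p : ZMod Q, if Sees (B (m + 1)) (B m) (2 ^ (m0 + m + k)) q p then
        GB m k q p else 0) +
      (∑ q : ZMod Q, ∑ p : ZMod Q, if Sees (C (m + 1)) (C m) (2 ^ (m0 + m + k)) q p then
        GC m k q p else 0)) +
    (8 + 16 * κ) * ((∑ q : ZMod Q, ∑ p : ZMod Q, LA q p) +
      (∑ q : ZMod Q, ∑ p : ZMod Q, LB q p) + (∑ q : ZMod Q, ∑ p : ZMod Q, LC q p))) := by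
  rw [← sum_idx m0 M l (fun m p0 p1 p2 =>
    |LboxL (A (m + 1)) (B (m + 1)) (C (m + 1)) (2 ^ (m0 + m)) p0 p1 p2|)]
  refine LboxL_path (idx Q m0 M) (fun i => 1 / ((2 ^ (m0 + i.1) : ℕ) : ℝ))
    (fun i _ => by positivity)
    (fun i => A (i.1 + 1)) (fun i => B (i.1 + 1)) (fun i => C (i.1 + 1))
    (fun i => 2 ^ (m0 + i.1)) (fun i => i.2.2.1) (fun i => i.2.2.2)
    (fun i => (l : ZMod Q) * ((2 ^ (m0 + i.1) : ℕ) : ZMod Q) + (i.2.1 : ZMod Q) - i.2.2.1 -
      i.2.2.2) hp _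
    fun J => ?_
  set w : ℤ → ℝ := fun j => (√(x j) * √(y j) * √(z j))⁻¹ with hw
  have hw0 : ∀ j, 0 ≤ w j := fun j => by positivity
  have h1 : ∀ j ∈ Finset.Ico (-(J : ℤ)) J, (√(x j) * √(y j) * √(z j))⁻¹ *
      ∑ i ∈ idx Q m0 M, 1 / ((2 ^ (m0 + i.1) : ℕ) : ℝ) *
        gams (A (i.1 + 1)) (B (i.1 + 1)) (C (i.1 + 1))
        (2 ^ (m0 + i.1)) i.2.2.1 i.2.2.2
        ((l : ZMod Q) * ((2 ^ (m0 + i.1) : ℕ) : ZMod Q) + (i.2.1 : ZMod Q) - i.2.2.1 - i.2.2.2)
        (x j) (y j) (z j) ≤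
      4 * ∑ m ∈ range M, bl (fun n => ∑ p0 : ZMod Q, ∑ p1 : ZMod Q,
      if Any3 (A (m + 1)) (A m) (B (m + 1)) (B m) (C (m + 1)) (C m) (2 ^ (m0 + m)) p0 p1
        (n - p0 - p1)
      then w j * JV (A (m + 1)) (B (m + 1)) (C (m + 1)) (2 ^ (m0 + m)) p0 p1 (n - p0 - p1)
        (x j) (y j) (z j)
      else 0) (2 ^ (m0 + m)) (-2) +
      16 * ∑ k ∈ range κ, ∑ m ∈ range M,
      ((∑ q : ZMod Q, ∑ p : ZMod Q, if Sees (A (m + 1)) (A m) (2 ^ (m0 + m + k)) q p then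
        w j * JE (A (m + 1)) (2 ^ (m0 + m + k)) q p (x j) else 0) +
      (∑ q : ZMod Q, ∑ p : ZMod Q, if Sees (B (m + 1)) (B m) (2 ^ (m0 + m + k)) q p then
        w j * JE (B (m + 1)) (2 ^ (m0 + m + k)) q p (y j) else 0) +
      (∑ q : ZMod Q, ∑ p : ZMod Q, if Sees (C (m + 1)) (C m) (2 ^ (m0 + m + k)) q p then
        w j * JE (C (m + 1)) (2 ^ (m0 + m + k)) q p (z j) else 0)) +
      (8 + 16 * κ) * ((∑ q : ZMod Q, ∑ p : ZMod Q, w j * JE (A 0) (2 ^ m0) q p (x j)) +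
      (∑ q : ZMod Q, ∑ p : ZMod Q, w j * JE (B 0) (2 ^ m0) q p (y j)) +
      (∑ q : ZMod Q, ∑ p : ZMod Q, w j * JE (C 0) (2 ^ m0) q p (z j))) := by
    intro j _
    rw [sum_idx m0 M l (fun m p0 p1 p2 =>
      gams (A (m + 1)) (B (m + 1)) (C (m + 1)) (2 ^ (m0 + m)) p0 p1 p2 (x j) (y j) (z j))]
    have h := mul_le_mul_of_nonneg_left (mask_three A B C κ m0 M l hκ (hp.xpos j).le
      (hp.ypos j).le (hp.zpos j).le) (hw0 j)
    refine h.trans (le_of_eq ?_)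
    rw [mul_add, mul_add, mul_left_comm, mul_left_comm (w j) 16, mul_left_comm (w j) (8 + _)]
    refine congrArg₂ (· + ·) (congrArg₂ (· + ·) ?_ ?_) ?_
    · congr 1
      rw [Finset.mul_sum]
      refine Finset.sum_congr rfl fun m _ => ?_
      rw [← bl_const_mul]
      congr 1
      funext n
      rw [Finset.mul_sum]
      refine Finset.sum_congr rfl fun p0 _ => ?_
      rw [Finset.mul_sum]
      refine Finset.sum_congr rfl fun p1 _ => ?_
      rw [mul_ite, mul_zero]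
    · congr 1
      rw [Finset.mul_sum]
      refine Finset.sum_congr rfl fun k _ => ?_
      rw [Finset.mul_sum]
      refine Finset.sum_congr rfl fun m _ => ?_
      rw [mul_add, mul_add]
      refine congrArg₂ (· + ·) (congrArg₂ (· + ·) ?_ ?_) ?_
      all_goals
        rw [Finset.mul_sum]
        refine Finset.sum_congr rfl fun p0 _ => ?_
        rw [Finset.mul_sum]
        refine Finset.sum_congr rfl fun p1 _ => ?_
        rw [mul_ite, mul_zero]
    · congr 1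
      rw [mul_add, mul_add]
      refine congrArg₂ (· + ·) (congrArg₂ (· + ·) ?_ ?_) ?_
      all_goals
        rw [Finset.mul_sum]
        refine Finset.sum_congr rfl fun p0 _ => ?_
        rw [Finset.mul_sum]
  refine (Finset.sum_le_sum h1).trans ?_
  rw [Finset.sum_add_distrib, Finset.sum_add_distrib, ← Finset.mul_sum, ← Finset.mul_sum,
    ← Finset.mul_sum]
  refine add_le_add (add_le_add (mul_le_mul_of_nonneg_left ?_ (by norm_num))
    (mul_le_mul_of_nonneg_left ?_ (by norm_num))) (mul_le_mul_of_nonneg_left ?_ (by positivity))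
  · rw [Finset.sum_comm]
    refine Finset.sum_le_sum fun m hm => ?_
    rw [← bl_sum]
    refine bl_mono (fun n => ?_) _ _
    rw [Finset.sum_comm]
    refine Finset.sum_le_sum fun p0 _ => ?_
    rw [Finset.sum_comm]
    refine Finset.sum_le_sum fun p1 _ => ?_
    by_cases h : Any3 (A (m + 1)) (A m) (B (m + 1)) (B m) (C (m + 1)) (C m) (2 ^ (m0 + m)) p0 p1
      (n - p0 - p1)
    · simp only [h, if_true]
      exact hV m hm _ _ _ h J
    · simp only [h, if_false, Finset.sum_const_zero, le_refl]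
  · rw [Finset.sum_comm]
    refine Finset.sum_le_sum fun k hk => ?_
    rw [Finset.sum_comm]
    refine Finset.sum_le_sum fun m hm => ?_
    rw [Finset.sum_add_distrib, Finset.sum_add_distrib]
    refine add_le_add (add_le_add ?_ ?_) ?_
    · rw [Finset.sum_comm]
      refine Finset.sum_le_sum fun q _ => ?_
      rw [Finset.sum_comm]
      refine Finset.sum_le_sum fun p _ => ?_
      by_cases h : Sees (A (m + 1)) (A m) (2 ^ (m0 + m + k)) q p
      · simp only [h, if_true]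
        exact hGA m hm k hk _ _ h J
      · simp only [h, if_false, Finset.sum_const_zero, le_refl]
    · rw [Finset.sum_comm]
      refine Finset.sum_le_sum fun q _ => ?_
      rw [Finset.sum_comm]
      refine Finset.sum_le_sum fun p _ => ?_
      by_cases h : Sees (B (m + 1)) (B m) (2 ^ (m0 + m + k)) q p
      · simp only [h, if_true]
        exact hGB m hm k hk _ _ h J
      · simp only [h, if_false, Finset.sum_const_zero, le_refl]
    · rw [Finset.sum_comm]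
      refine Finset.sum_le_sum fun q _ => ?_
      rw [Finset.sum_comm]
      refine Finset.sum_le_sum fun p _ => ?_
      by_cases h : Sees (C (m + 1)) (C m) (2 ^ (m0 + m + k)) q p
      · simp only [h, if_true]
        exact hGC m hm k hk _ _ h J
      · simp only [h, if_false, Finset.sum_const_zero, le_refl]
  · rw [Finset.sum_add_distrib, Finset.sum_add_distrib]
    refine add_le_add (add_le_add ?_ ?_) ?_
    · rw [Finset.sum_comm]
      refine Finset.sum_le_sum fun q _ => ?_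
      rw [Finset.sum_comm]
      exact Finset.sum_le_sum fun p _ => hLA q p J
    · rw [Finset.sum_comm]
      refine Finset.sum_le_sum fun q _ => ?_
      rw [Finset.sum_comm]
      exact Finset.sum_le_sum fun p _ => hLB q p J
    · rw [Finset.sum_comm]
      refine Finset.sum_le_sum fun q _ => ?_
      rw [Finset.sum_comm]
      exact Finset.sum_le_sum fun p _ => hLC q p J

end tri

end Crest.Agent.R079.PotL
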