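import Crest.Agent.R079.TWin2_903

/-! R079, doc 2531 (787), PREDICTABLE WINDOWS (helper590).

`bel R D p` = mass of `D` below `p`.  `pred_windows`: node function `D ≥ 0` with Carleson constant `S`,
deviation `dev K p` of the data frozen at `K` whose leaf energy is paid by the drift inside the window:
partition into full windows, `≤ 2 + 20 (1+A) S/θ` tops below every node, such that `dev K p ≤ θ` at
all nodes and either the window is one node or the path sums of `D` (both ends included) are `≤ θ`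
(hence the drift below EVERY node of the window is `≤ θ`). -/

set_option autoImplicit false

namespace Crest.Agent.R079.PWin

open Finset Crest.Agent.R079.Grid Crest.Agent.R079.Growth Crest.Agent.R079.QRed
  Crest.Agent.R079.Qe292 Crest.Agent.R079.Qh249 Crest.Agent.R079.TWin

open Classical in
/-- mass of `D` below `p` -/
noncomputable def bel (R : Finset Nd) (D : Nd → ℝ) (p : Nd) : ℝ :=
  ∑ q ∈ R.filter (fun q => iv q ⊆ iv p), len q * D q

/-- own value plus the values of the children which lie in `R` -/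
noncomputable def Dp (R : Finset Nd) (D : Nd → ℝ) : Nd → ℝ
  | (0, l) => D (0, l)
  | (m + 1, l) => D (m + 1, l) + ((R : Set Nd).indicator D (m, 2 * l)
      + (R : Set Nd).indicator D (m, 2 * l + 1))

theorem bel_nonneg {R : Finset Nd} {D : Nd → ℝ} (hD : ∀ p, 0 ≤ D p) (p : Nd) : 0 ≤ bel R D p :=
  Finset.sum_nonneg fun q _ => mul_nonneg (Growth.len_pos q).le (hD q)

theorem ind_nonneg {R : Finset Nd} {D : Nd → ℝ} (hD : ∀ p, 0 ≤ D p) (p : Nd) :
    0 ≤ (R : Set Nd).indicator D p := Set.indicator_nonneg (fun q _ => hD q) p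

theorem Dp_ge {R : Finset Nd} {D : Nd → ℝ} (hD : ∀ p, 0 ≤ D p) : ∀ p, D p ≤ Dp R D p
  | (0, l) => le_refl _
  | (m + 1, l) => by
    have h1 := ind_nonneg (R := R) hD (m, 2 * l)
    have h2 := ind_nonneg (R := R) hD (m, 2 * l + 1)
    show D (m + 1, l) ≤ D (m + 1, l) + _
    linarith

theorem Dp_nonneg {R : Finset Nd} {D : Nd → ℝ} (hD : ∀ p, 0 ≤ D p) (p : Nd) : 0 ≤ Dp R D p :=
  (hD p).trans (Dp_ge hD p)

theorem bel_child {R : Finset Nd} {D : Nd → ℝ} (hD : ∀ p, 0 ≤ D p) (c : ℤ) (hc : c = 0 ∨ c = 1)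
    (p : Nd) (f : Nd → ℝ) (hf0 : ∀ l, f (0, l) = 0)
    (hf : ∀ m l, f (m + 1, l) = (R : Set Nd).indicator D (m, 2 * l + c)) :
    bel R f p ≤ 2 * bel R D p := by
  classical
  unfold bel
  set F := R.filter (fun q => iv q ⊆ iv p) with hF
  -- nodes with a child in `R`
  set G := F.filter (fun q => 1 ≤ q.1 ∧ (q.1 - 1, 2 * q.2 + c) ∈ R) with hG
  have e1 : ∑ q ∈ F, len q * f q = ∑ q ∈ G, len q * f q := by
    symm
    refine Finset.sum_subset (Finset.filter_subset _ _) ?_
    intro q hq hqG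
    rcases q with ⟨m, l⟩
    cases m with
    | zero => rw [hf0, mul_zero]
    | succ m =>
      rw [hf, Set.indicator_of_notMem, mul_zero]
      intro h
      refine hqG (Finset.mem_filter.2 ⟨hq, by simp, ?_⟩)
      simpa using h
  rw [e1]
  have e2 : ∑ q ∈ G, len q * f q
      = ∑ q ∈ G, 2 * (len (q.1 - 1, 2 * q.2 + c) * D (q.1 - 1, 2 * q.2 + c)) := by
    refine Finset.sum_congr rfl fun q hq => ?_
    obtain ⟨_, h1, h2⟩ := Finset.mem_filter.1 hq
    rcases q with ⟨m, l⟩
    cases m with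
    | zero => simp at h1
    | succ m =>
      have h3 : (m, 2 * l + c) ∈ (R : Set Nd) := by simpa using h2
      rw [hf, Set.indicator_of_mem h3, len_ch m l (2 * l + c)]
      simp only [Nat.add_sub_cancel]
      ring
  rw [e2, ← Finset.mul_sum]
  refine mul_le_mul_of_nonneg_left ?_ (by norm_num)
  have e3 : ∑ q ∈ G, len (q.1 - 1, 2 * q.2 + c) * D (q.1 - 1, 2 * q.2 + c)
      = ∑ q ∈ G.image (fun q : Nd => ((q.1 - 1, 2 * q.2 + c) : Nd)), len q * D q := by
    rw [Finset.sum_image]
    intro q hq q' hq' h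
    have h1 := (Finset.mem_filter.1 (by exact_mod_cast hq : q ∈ G)).2.1
    have h1' := (Finset.mem_filter.1 (by exact_mod_cast hq' : q' ∈ G)).2.1
    have h2 := congrArg Prod.fst h
    have h3 := congrArg Prod.snd h
    simp only at h2 h3
    refine Prod.ext (by omega) (by omega)
  rw [e3]
  refine Finset.sum_le_sum_of_subset_of_nonneg ?_ fun q _ _ =>
    mul_nonneg (Growth.len_pos q).le (hD q)
  intro q hq
  obtain ⟨q', hq', rfl⟩ := Finset.mem_image.1 hq
  obtain ⟨h0, h1, h2⟩ := Finset.mem_filter.1 hq'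
  refine Finset.mem_filter.2 ⟨h2, ?_⟩
  refine subset_trans ?_ (Finset.mem_filter.1 h0).2
  rcases q' with ⟨m, l⟩
  cases m with
  | zero => simp at h1
  | succ m =>
    simp only [Nat.add_sub_cancel]
    rcases hc with rfl | rfl
    · rw [add_zero]; exact sub_ch0 m l
    · exact sub_ch1 m l

theorem bel_Dp {R : Finset Nd} {D : Nd → ℝ} (hD : ∀ p, 0 ≤ D p) (p : Nd) :
    bel R (Dp R D) p ≤ 5 * bel R D p := by
  let f0 : Nd → ℝ := fun q => match q with
    | (0, _) => 0
    | (m + 1, l) => (R : Set Nd).indicator D (m, 2 * l + 0)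
  let f1 : Nd → ℝ := fun q => match q with
    | (0, _) => 0
    | (m + 1, l) => (R : Set Nd).indicator D (m, 2 * l + 1)
  have h0 := bel_child hD 0 (Or.inl rfl) p f0 (fun _ => rfl) (fun _ _ => rfl)
  have h1 := bel_child hD 1 (Or.inr rfl) p f1 (fun _ => rfl) (fun _ _ => rfl)
  have e : bel R (Dp R D) p = bel R D p + (bel R f0 p + bel R f1 p) := by
    unfold bel
    rw [← Finset.sum_add_distrib, ← Finset.sum_add_distrib]
    refine Finset.sum_congr rfl fun q _ => ?_
    rcases q with ⟨m, l⟩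
    cases m with
    | zero =>
      show len (0, l) * D (0, l) = len (0, l) * D (0, l) + (len (0, l) * 0 + len (0, l) * 0)
      ring
    | succ m =>
      show len (m + 1, l) * (D (m + 1, l) + ((R : Set Nd).indicator D (m, 2 * l)
        + (R : Set Nd).indicator D (m, 2 * l + 1))) = len (m + 1, l) * D (m + 1, l)
        + (len (m + 1, l) * (R : Set Nd).indicator D (m, 2 * l + 0)
          + len (m + 1, l) * (R : Set Nd).indicator D (m, 2 * l + 1))
      rw [add_zero]
      ring
  linarith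

/-- decomposition of the mass below a node -/
theorem bel_node {X : Finset Nd} (E : Nd → ℝ) {m : ℕ} {l : ℤ} (hX : (m + 1, l) ∈ X) :
    bel X E (m + 1, l) = len (m + 1, l) * E (m + 1, l)
        + (bel X E (m, 2 * l) + bel X E (m, 2 * l + 1)) := by
  classical
  unfold bel
  have hd : Disjoint (X.filter (fun q => iv q ⊆ iv (m, 2 * l)))
      (X.filter (fun q => iv q ⊆ iv (m, 2 * l + 1))) := by
    rw [Finset.disjoint_left]
    intro q hq hq'
    obtain ⟨y, hy⟩ := iv_nonempty q
    exact Finset.disjoint_left.1 (disj_ch m l) ((Finset.mem_filter.1 hq).2 hy)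
      ((Finset.mem_filter.1 hq').2 hy)
  rw [← Finset.sum_union hd]
  have hnot : ((m + 1, l) : Nd) ∉ (X.filter (fun q => iv q ⊆ iv (m, 2 * l))) ∪
      (X.filter (fun q => iv q ⊆ iv (m, 2 * l + 1))) := by
    rw [Finset.mem_union]
    rintro (h | h)
    · have := Qe292.iv_level (Finset.mem_filter.1 h).2
      simp only at this
      omega
    · have := Qe292.iv_level (Finset.mem_filter.1 h).2
      simp only at this
      omega
  rw [← Finset.sum_insert (f := fun q => len q * E q) hnot]
  refine Finset.sum_congr ?_ fun _ _ => rfl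
  ext q
  rw [Finset.mem_insert, Finset.mem_union, Finset.mem_filter, Finset.mem_filter,
    Finset.mem_filter]
  constructor
  · rintro ⟨hq, hs⟩
    by_cases hne : q = (m + 1, l)
    · exact Or.inl hne
    · right
      have hlev : q.1 < m + 1 := by
        rcases (Growth.iv_level hs).lt_or_eq with h | h
        · exact h
        · exact absurd (iv_eq_of_level hs h.symm.le).symm hne
      obtain ⟨z, hz⟩ := iv_nonempty q
      have hzp := hs hz
      rw [iv_ch, Finset.mem_union] at hzp
      rcases hzp with h | h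
      · left
        refine ⟨hq, sub_of_level hz h ?_⟩
        simp only
        omega
      · right
        refine ⟨hq, sub_of_level hz h ?_⟩
        simp only
        omega
  · rintro (rfl | h | h)
    · exact ⟨hX, subset_rfl⟩
    · exact ⟨h.1, h.2.trans (sub_ch0 m l)⟩
    · exact ⟨h.1, h.2.trans (sub_ch1 m l)⟩

/-- the mass below a leaf -/
theorem bel_leaf {R : Finset Nd} (D : Nd → ℝ) {p : Nd} (hp : p ∈ lf R) :
    bel R D p = len p * D p := by
  classical
  unfold bel
  have : R.filter (fun q => iv q ⊆ iv p) = {p} := by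
    ext q
    rw [Finset.mem_filter, Finset.mem_singleton]
    constructor
    · rintro ⟨h1, h2⟩
      exact (mem_lf.1 hp).2 q h1 h2
    · rintro rfl
      exact ⟨(mem_lf.1 hp).1, subset_rfl⟩
  rw [this, Finset.sum_singleton]

/-- Carleson bound from a supermartingale -/
theorem carleson_super {R : Finset Nd} {J : Nd} (hR : Full R J) {D Φ : Nd → ℝ}
    (h0 : ∀ p, 0 ≤ Φ p)
    (hd : ∀ (m : ℕ) (l : ℤ), (m + 1, l) ∈ R →
      D (m + 1, l) ≤ Φ (m + 1, l) - (Φ (m, 2 * l) + Φ (m, 2 * l + 1)) / 2)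
    (hd0 : ∀ l : ℤ, (0, l) ∈ R → D (0, l) ≤ Φ (0, l)) :
    ∀ p ∈ R, bel R D p ≤ len p * Φ p := by
  have hle : ∀ p ∈ R, D p ≤ Φ p := by
    intro p hp
    rcases p with ⟨m, l⟩
    cases m with
    | zero => exact hd0 l hp
    | succ m =>
      have h1 := hd m l hp
      have h2 := h0 (m, 2 * l)
      have h3 := h0 (m, 2 * l + 1)
      linarith
  refine full_ind hR (fun p hp => ?_) fun m l hp hnl h0' h1' e0 e1 => ?_
  · rw [bel_leaf D hp]
    exact mul_le_mul_of_nonneg_left (hle p (mem_lf.1 hp).1) (Growth.len_pos p).le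
  · rw [bel_node D hp]
    have hl0 : len (m + 1, l) = 2 * len (m, 2 * l) := len_ch m l _
    have hl1 : len (m, 2 * l + 1) = len (m, 2 * l) := rfl
    rw [hl1] at e1
    rw [hl0]
    have h2 := mul_le_mul_of_nonneg_left (hd m l hp) (Growth.len_pos (m, 2 * l)).le
    nlinarith

/-- Carleson bound from a bounded submartingale -/
theorem carleson_sub {R : Finset Nd} {J : Nd} (hR : Full R J) {D Φ : Nd → ℝ} {S : ℝ}
    (h0 : ∀ p, 0 ≤ Φ p) (hS : ∀ p, Φ p ≤ S)
    (hd : ∀ (m : ℕ) (l : ℤ), (m + 1, l) ∈ R →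
      D (m + 1, l) ≤ (Φ (m, 2 * l) + Φ (m, 2 * l + 1)) / 2 - Φ (m + 1, l))
    (hd0 : ∀ l : ℤ, (0, l) ∈ R → D (0, l) ≤ S - Φ (0, l)) :
    ∀ p ∈ R, bel R D p ≤ S * len p := by
  intro p hp
  have h1 := carleson_super hR (D := D) (Φ := fun q => S - Φ q)
    (fun q => by linarith [hS q]) (fun m l h => by linarith [hd m l h]) hd0 p hp
  have h2 := mul_nonneg (Growth.len_pos p).le (h0 p)
  nlinarith

/-- mass of the inner nodes = leaf integral of the accumulated drift -/
theorem SL_acc_eq {W : Finset Nd} {I : Nd} (hW : Full W I) (E : Nd → ℝ) :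
    ∀ p ∈ W, SL W p (acc E p) = bel (W \ lf W) E p := by
  classical
  refine full_ind hW (fun p hp => ?_) fun m l hp hnl h0 h1 e0 e1 => ?_
  · rw [SL_leaf hp, acc_self, mul_zero]
    unfold bel
    symm
    refine Finset.sum_eq_zero fun q hq => ?_
    exfalso
    obtain ⟨h1, h2⟩ := Finset.mem_filter.1 hq
    obtain ⟨h3, h4⟩ := Finset.mem_sdiff.1 h1
    rw [(mem_lf.1 hp).2 q h3 h2] at h4
    exact h4 hp
  · have hA := SL_acc_ch hW E (m := m) (l := l) (l' := 2 * l) (by omega) (sub_ch0 m l) h0 (fun _ => 0)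
    have hB := SL_acc_ch hW E (m := m) (l := l) (l' := 2 * l + 1) (by omega) (sub_ch1 m l) h1
      (fun _ => 0)
    simp only [zero_add] at hA hB
    rw [SL_node hW hnl h0 h1]
    have hA' : SL W (m, 2 * l) (acc E (m + 1, l)) = SL W (m, 2 * l) (acc E (m, 2 * l))
      + len (m, 2 * l) * E (m + 1, l) := hA
    have hB' : SL W (m, 2 * l + 1) (acc E (m + 1, l)) = SL W (m, 2 * l + 1) (acc E (m, 2 * l + 1))
      + len (m, 2 * l + 1) * E (m + 1, l) := hB
    rw [hA', hB', e0, e1]
    have hl0 : len (m + 1, l) = 2 * len (m, 2 * l) := len_ch m l _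
    have hl1 : len (m, 2 * l + 1) = len (m, 2 * l) := rfl
    have e : bel (W \ lf W) E (m + 1, l) = len (m + 1, l) * E (m + 1, l)
        + (bel (W \ lf W) E (m, 2 * l) + bel (W \ lf W) E (m, 2 * l + 1)) :=
      bel_node E (Finset.mem_sdiff.2 ⟨hp, hnl⟩)
    rw [e, hl1, hl0]
    ring

/-- masses below the leaves and of the inner nodes are disjoint -/
theorem bel_split {R W : Finset Nd} {I : Nd} (hW : Full W I) (hWR : W ⊆ R) {E : Nd → ℝ}
    (hE : ∀ p, 0 ≤ E p) :
    ∑ L ∈ lf W, bel R E L + bel (W \ lf W) E I ≤ bel R E I := by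
  classical
  unfold bel
  have hd : ∀ L ∈ lf W, ∀ L' ∈ lf W, L ≠ L' → Disjoint (R.filter (fun q => iv q ⊆ iv L))
      (R.filter (fun q => iv q ⊆ iv L')) := by
    intro L hL L' hL' hne
    rw [Finset.disjoint_left]
    intro q hq hq'
    obtain ⟨y, hy⟩ := iv_nonempty q
    have h1 := leaf_below hW hL (mem_lf.1 hL').1 ((Finset.mem_filter.1 hq).2 hy)
      ((Finset.mem_filter.1 hq').2 hy)
    exact hne ((mem_lf.1 hL').2 L (mem_lf.1 hL).1 h1)
  rw [← Finset.sum_biUnion (fun L hL L' hL' hne => hd L (by exact_mod_cast hL) L'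
    (by exact_mod_cast hL') hne)]
  have hdd : Disjoint ((lf W).biUnion fun L => R.filter (fun q => iv q ⊆ iv L))
      ((W \ lf W).filter (fun q => iv q ⊆ iv I)) := by
    rw [Finset.disjoint_left]
    intro q hq hq'
    obtain ⟨L, hL, hqL⟩ := Finset.mem_biUnion.1 hq
    obtain ⟨h1, h2⟩ := Finset.mem_sdiff.1 (Finset.mem_filter.1 hq').1
    rw [(mem_lf.1 hL).2 q h1 (Finset.mem_filter.1 hqL).2] at h2
    exact h2 hL
  rw [← Finset.sum_union hdd]
  refine Finset.sum_le_sum_of_subset_of_nonneg ?_ fun q _ _ =>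
    mul_nonneg (Growth.len_pos q).le (hE q)
  intro q hq
  rcases Finset.mem_union.1 hq with h | h
  · obtain ⟨L, hL, hqL⟩ := Finset.mem_biUnion.1 h
    exact Finset.mem_filter.2 ⟨(Finset.mem_filter.1 hqL).1,
      (Finset.mem_filter.1 hqL).2.trans (hW.reg.1 L (mem_lf.1 hL).1)⟩
  · exact Finset.mem_filter.2 ⟨hWR (Finset.mem_sdiff.1 (Finset.mem_filter.1 h).1).1,
      (Finset.mem_filter.1 h).2⟩

theorem SL_top {W : Finset Nd} {I : Nd} (hW : Full W I) (F : Nd → ℝ) :
    ∑ L ∈ lf W, len L * F L = SL W I F := by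
  classical
  unfold SL
  refine Finset.sum_congr ?_ fun _ _ => rfl
  symm
  exact Finset.filter_true_of_mem fun L hL => hW.reg.1 L (mem_lf.1 hL).1

/-- path sums with the own value, from `Dp` -/
theorem acc_Dp {R : Finset Nd} {D : Nd → ℝ} (hD : ∀ p, 0 ≤ D p) {K p : Nd} (hp : p ∈ R)
    (hpK : iv p ⊆ iv K) (hne : p ≠ K) : acc D K p + D p ≤ acc (Dp R D) K p := by
  classical
  obtain ⟨j, hj⟩ := Qe292.iv_sub_iff.1 hpK
  have hj0 : j ≠ 0 := by
    rintro rfl
    exact hne (by rw [hj]; simp)
  have hK1 : K.1 = p.1 + j := by rw [hj]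
  have e1 : K.1 - p.1 = (j - 1) + 1 := by omega
  unfold acc
  rw [e1, Finset.sum_range_succ', Finset.sum_range_succ']
  have h1 : ∑ k ∈ range (j - 1), D (p.1 + (k + 1) + 1, p.2 / 2 ^ (k + 1 + 1))
      ≤ ∑ k ∈ range (j - 1), Dp R D (p.1 + (k + 1) + 1, p.2 / 2 ^ (k + 1 + 1)) :=
    Finset.sum_le_sum fun k _ => Dp_ge hD _
  have h2 : D (p.1 + 0 + 1, p.2 / 2 ^ (0 + 1)) + D p ≤ Dp R D (p.1 + 0 + 1, p.2 / 2 ^ (0 + 1)) := by
    have hpR : p ∈ (R : Set Nd) := hp
    rw [add_zero, zero_add, pow_one]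
    have g0 := ind_nonneg (R := R) hD (p.1, 2 * (p.2 / 2))
    have g1 := ind_nonneg (R := R) hD (p.1, 2 * (p.2 / 2) + 1)
    show D (p.1 + 1, p.2 / 2) + D p ≤ D (p.1 + 1, p.2 / 2)
      + ((R : Set Nd).indicator D (p.1, 2 * (p.2 / 2))
        + (R : Set Nd).indicator D (p.1, 2 * (p.2 / 2) + 1))
    rcases Int.emod_two_eq_zero_or_one p.2 with h | h
    · have e : ((p.1, 2 * (p.2 / 2)) : Nd) = p := Prod.ext rfl (by simp only; omega)
      rw [e, Set.indicator_of_mem hpR]
      rw [e] at g0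
      linarith
    · have e : ((p.1, 2 * (p.2 / 2) + 1) : Nd) = p := Prod.ext rfl (by simp only; omega)
      rw [e, Set.indicator_of_mem hpR]
      rw [e] at g1
      linarith
  linarith

/-- drift below a node from path sums -/
theorem bel_of_path {W : Finset Nd} {K : Nd} (hW : Full W K) {D : Nd → ℝ} (hD : ∀ p, 0 ≤ D p)
    {θ : ℝ} (h : ∀ p ∈ W, acc D K p + D p ≤ θ) : ∀ p ∈ W, bel W D p ≤ θ * len p := by
  classical
  intro p hp
  have h1 : bel W D p = bel (W \ lf W) D p + ∑ L ∈ (lf W).filter (fun L => iv L ⊆ iv p), len L * D L := by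
    unfold bel
    rw [← Finset.sum_union]
    · refine Finset.sum_congr ?_ fun _ _ => rfl
      ext q
      rw [Finset.mem_union, Finset.mem_filter, Finset.mem_filter, Finset.mem_filter,
        Finset.mem_sdiff]
      constructor
      · rintro ⟨h1, h2⟩
        by_cases h3 : q ∈ lf W
        · exact Or.inr ⟨h3, h2⟩
        · exact Or.inl ⟨⟨h1, h3⟩, h2⟩
      · rintro (h | h)
        · exact ⟨h.1.1, h.2⟩
        · exact ⟨(mem_lf.1 h.1).1, h.2⟩
    · rw [Finset.disjoint_left]
      intro q hq hq'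
      exact (Finset.mem_sdiff.1 (Finset.mem_filter.1 hq).1).2 (Finset.mem_filter.1 hq').1
  have h2 : bel W D p = SL W p (fun L => acc D p L + D L) := by
    rw [h1, ← SL_acc_eq hW D p hp, SL_add]
    rfl
  rw [h2]
  calc SL W p (fun L => acc D p L + D L) ≤ SL W p (fun _ => θ) := by
        refine SL_mono fun L hL hLp => ?_
        have h3 := h L (mem_lf.1 hL).1
        have h4 := acc_trans D hLp (hW.reg.1 p hp)
        have h5 := acc_nonneg hD K p
        linarith
    _ = θ * len p := by rw [SL_const hW θ p hp]; ring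

/-- **PREDICTABLE WINDOWS** -/
theorem pred_windows {R : Finset Nd} {J : Nd} (hR : Full R J) {D : Nd → ℝ} {dev : Nd → Nd → ℝ}
    {S A θ : ℝ} (hθ : 0 < θ) (hA : 0 ≤ A) (hD : ∀ p, 0 ≤ D p)
    (hS : ∀ p ∈ R, bel R D p ≤ S * len p) (hdev : ∀ I p, 0 ≤ dev I p) (hdevI : ∀ I, dev I I = 0)
    (hen : ∀ I ∈ R, ∀ W : Finset Nd, Full W I → W ⊆ R →
      ∑ L ∈ lf W, len L * dev I L ≤ A * bel (W \ lf W) D I + θ / 8 * len I) :
    ∃ (T : Finset Nd) (W : Nd → Finset Nd), Part R T W (2 + 20 * (1 + A) * S / θ) ∧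
      ∀ K ∈ T, (∀ p ∈ W K, dev K p ≤ θ) ∧
        (W K = {K} ∨ ∀ p ∈ W K, acc D K p + D p ≤ θ ∧ bel (W K) D p ≤ θ * len p) := by
  classical
  set E := Dp R D with hE
  have hE0 : ∀ p, 0 ≤ E p := Dp_nonneg hD
  have hED : ∀ p, D p ≤ E p := Dp_ge hD
  have hbelE : ∀ p ∈ R, bel R E p ≤ 5 * S * len p := by
    intro p hp
    have h1 := bel_Dp (R := R) hD p
    have h2 := hS p hp
    linarith
  obtain ⟨T, W, hPart, hgood⟩ := exists_part (g := fun I p => acc E I p + dev I p) hR
    (P := fun p => (1 + A) * bel R E p / len p) (P₀ := (1 + A) * (5 * S)) hθ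
    (fun p _ => div_nonneg (mul_nonneg (by linarith) (bel_nonneg hE0 p)) (Growth.len_pos p).le)
    (fun p hp => by
      rw [div_le_iff₀ (Growth.len_pos p)]
      have := mul_le_mul_of_nonneg_left (hbelE p hp) (by linarith : 0 ≤ 1 + A)
      linarith)
    (fun I p => add_nonneg (acc_nonneg hE0 I p) (hdev I p))
    (fun I => by simp only [acc_self, hdevI I, add_zero]; exact hθ.le)
    (by
      intro I hI V hV hVR
      have h1 : ∑ p ∈ lf V, len p * (acc E I p + dev I p + (1 + A) * bel R E p / len p)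
          = SL V I (acc E I) + ∑ p ∈ lf V, len p * dev I p
            + (1 + A) * ∑ p ∈ lf V, bel R E p := by
        rw [← SL_top hV, Finset.mul_sum, ← Finset.sum_add_distrib, ← Finset.sum_add_distrib]
        refine Finset.sum_congr rfl fun p _ => ?_
        have := (Growth.len_pos p).ne'
        field_simp
      rw [h1, SL_acc_eq hV E I hV.top]
      have h2 := hen I hI V hV hVR
      have h3 := bel_split hV hVR hE0
      have h4 : bel (V \ lf V) D I ≤ bel (V \ lf V) E I :=
        Finset.sum_le_sum fun q _ => mul_le_mul_of_nonneg_left (hED q) (Growth.len_pos q).le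
      have h5 := mul_le_mul_of_nonneg_left h3 (by linarith : 0 ≤ 1 + A)
      have h6 := mul_le_mul_of_nonneg_left h4 hA
      have h7 : len I * ((1 + A) * bel R E I / len I + θ / 4)
          = (1 + A) * bel R E I + θ / 4 * len I := by
        have := (Growth.len_pos I).ne'
        field_simp
      rw [h7]
      have h8 := mul_pos hθ (Growth.len_pos I)
      nlinarith)
  refine ⟨T, W, ?_, ?_⟩
  · have e : 2 + 4 * ((1 + A) * (5 * S)) / θ = 2 + 20 * (1 + A) * S / θ := by ring
    rw [← e]
    exact hPart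
  · intro K hK
    have hKW := hPart.full K hK
    have hg := hgood K hK
    refine ⟨fun p hp => ?_, ?_⟩
    · have h1 := hg p hp
      have h2 := acc_nonneg hE0 K p
      linarith
    · by_cases hsing : W K = {K}
      · exact Or.inl hsing
      · right
        have hpath : ∀ p ∈ W K, acc D K p + D p ≤ θ := by
          intro p hp
          by_cases hpK : p = K
          · subst hpK
            rw [acc_self, zero_add]
            -- a child of the top
            have hnl : p ∉ lf (W p) := by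
              intro hl
              refine hsing (Finset.eq_singleton_iff_unique_mem.2 ⟨hp, fun q hq => ?_⟩)
              exact (mem_lf.1 hl).2 q hq (hKW.reg.1 q hq)
            obtain ⟨m, l, he, h0, h1⟩ := children_mem hKW hp hnl
            have h2 := hg _ h0
            have h3 : acc E (m + 1, l) (m, 2 * l) = E (m + 1, l) :=
              acc_par E m l (2 * l) (by omega)
            rw [he] at h2 ⊢
            rw [h3] at h2
            have h4 := hED (m + 1, l)
            have h5 := hdev (m + 1, l) (m, 2 * l)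
            linarith
          · have h1 := acc_Dp (R := R) hD (hPart.wsub K hK hp) (hKW.reg.1 p hp) hpK
            have h2 := hg p hp
            have h3 := hdev K p
            linarith
        intro p hp
        exact ⟨hpath p hp, bel_of_path hKW hD hpath p hp⟩

end Crest.Agent.R079.PWin
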