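import Crest.Agent.R079.TFin3_351

/-! R079, REC v3: GRADED dictionaries by reparametrisation (helper351).

`grade D μ j t = D j (t ^ μ j)`.  The nontrivial rule (A) is needed only for pairs (frozen `i`,
killer `m`) with `m < i`; for `i < m` only the trivial kill (frozen at `s`, killer of level
`s ^ (1 + δ)`).  `Analytic4 → L0.Target`. -/

set_option autoImplicit false

namespace Crest.Agent.R079.TRecw

open Finset Crest.Agent.R079.Grid Crest.Agent.R079.Growth Crest.Agent.R079.QRed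
open Crest.Agent.R079.TRec

/-- reparametrised dictionary -/
def grade (D : Dict) (μ : Fin 4 → ℝ) : Dict := fun j t => D j (t ^ μ j)

/-- **RULE (A), NONTRIVIAL PAIRS** `m < i` (killer slot below the frozen slot): frozen at `t ^ (1 + e)`,
killer of level `t` -/
def RuleNT (D : Dict) (k q3 c0 e t0 K : ℝ) : Prop :=
  ∀ (N : ℕ) (B : ℝ), 0 ≤ B → BN k q3 N B → ∀ t, 0 < t → t ≤ t0 → ∀ bb ε, Adm bb ε → ∀ W I,
    Full W I → I.1 ≤ N → ∀ F, nrm k q3 W F →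
    ∀ i m : Fin 4, m < i → i ≠ 3 → Fz D i (t ^ (1 + e)) 1 I (F i) →
      (∀ p ∈ W, Lv D m t 1 p (F m)) → ‖TR bb ε W F‖ ≤ K * (1 + B) * t ^ c0 * len I

/-- **TRIVIAL KILL**, pairs `i < m`: frozen at `s`, killer of level `s ^ (1 + δ)` (finer) -/
def RuleTr (D : Dict) (k q3 c0 δ t0 K : ℝ) : Prop :=
  ∀ (N : ℕ) (B : ℝ), 0 ≤ B → BN k q3 N B → ∀ s, 0 < s → s ≤ t0 → ∀ bb ε, Adm bb ε → ∀ W I,
    Full W I → I.1 ≤ N → ∀ F, nrm k q3 W F →
    ∀ i m : Fin 4, i < m → m ≠ 3 → Fz D i s 1 I (F i) →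
      (∀ p ∈ W, Lv D m (s ^ (1 + δ)) 1 p (F m)) → ‖TR bb ε W F‖ ≤ K * (1 + B) * s ^ c0 * len I

/-- exponents `μ 0 < μ 1 < μ 2 = 1` -/
noncomputable def gm (ρ : ℝ) (j : Fin 4) : ℝ := if j = 0 then ρ ^ (-(2 : ℝ)) else
  if j = 1 then ρ ^ (-(1 : ℝ)) else 1

section gm
variable {ρ : ℝ}

lemma gm_le (h1 : 1 ≤ ρ) (j : Fin 4) : gm ρ j ≤ 1 := by
  unfold gm
  split_ifs
  · exact Real.rpow_le_one_of_one_le_of_nonpos h1 (by norm_num)
  · exact Real.rpow_le_one_of_one_le_of_nonpos h1 (by norm_num)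
  · exact le_rfl

lemma gm_half (h1 : 1 ≤ ρ) (h2 : ρ ^ 2 ≤ 2) (j : Fin 4) : 1 / 2 ≤ gm ρ j := by
  have h0 : 0 < ρ := by linarith
  have e2 : ρ ^ (-(2 : ℝ)) = (ρ ^ 2)⁻¹ := by
    rw [Real.rpow_neg h0.le, Real.rpow_two]
  have e1 : ρ ^ (-(1 : ℝ)) = ρ⁻¹ := by rw [Real.rpow_neg h0.le, Real.rpow_one]
  unfold gm
  split_ifs
  · rw [e2, one_div]
    exact inv_anti₀ (by positivity) h2
  · rw [e1, one_div]
    exact inv_anti₀ h0 (by nlinarith)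
  · norm_num

/-- `m < i ≤ 2`: `μ i ≤ ρ² μ m` -/
lemma gm_ratio_up (h1 : 1 ≤ ρ) {i m : Fin 4} (him : m < i) (hi : i ≠ 3) :
    gm ρ i ≤ ρ ^ 2 * gm ρ m := by
  have h0 : 0 < ρ := by linarith
  have e2 : ρ ^ (-(2 : ℝ)) = (ρ ^ 2)⁻¹ := by
    rw [Real.rpow_neg h0.le, Real.rpow_two]
  have e1 : ρ ^ (-(1 : ℝ)) = ρ⁻¹ := by rw [Real.rpow_neg h0.le, Real.rpow_one]
  have hρ2 : 1 ≤ ρ ^ 2 := one_le_pow₀ h1
  have a1 : ρ ^ 2 * (ρ ^ 2)⁻¹ = 1 := mul_inv_cancel₀ (by positivity)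
  have a2 : ρ ^ 2 * ρ⁻¹ = ρ := by field_simp
  have a3 : ρ⁻¹ ≤ 1 := inv_le_one_of_one_le₀ h1
  fin_cases i <;> fin_cases m <;> simp_all [gm]

/-- `i < m ≤ 2`: `ρ μ i ≤ μ m` -/
lemma gm_ratio_dn (h1 : 1 ≤ ρ) {i m : Fin 4} (him : i < m) (hm : m ≠ 3) :
    ρ * gm ρ i ≤ gm ρ m := by
  have h0 : 0 < ρ := by linarith
  have e2 : ρ ^ (-(2 : ℝ)) = (ρ ^ 2)⁻¹ := by
    rw [Real.rpow_neg h0.le, Real.rpow_two]
  have e1 : ρ ^ (-(1 : ℝ)) = ρ⁻¹ := by rw [Real.rpow_neg h0.le, Real.rpow_one]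
  have a1 : ρ * (ρ ^ 2)⁻¹ = ρ⁻¹ := by field_simp
  have a2 : ρ * ρ⁻¹ = 1 := mul_inv_cancel₀ h0.ne'
  have a3 : ρ⁻¹ ≤ 1 := inv_le_one_of_one_le₀ h1
  fin_cases i <;> fin_cases m <;> simp_all [gm]

end gm

/-- the graded dictionary is admissible -/
theorem dic_grade {D : Dict} (hD : TRec.Dic D 0) {ρ : ℝ} (h1 : 1 ≤ ρ) (h2 : ρ ^ 2 ≤ 2) :
    Dic (grade D (gm ρ)) 0 := by
  have hμ := gm_half h1 h2
  have hμ1 := gm_le h1
  refine ⟨?_, ?_, ?_, ?_⟩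
  · intro j t ht ht1 φ hφ y
    have ht' : 0 < t ^ gm ρ j := Real.rpow_pos_of_pos ht _
    have h := hD.sup j (t ^ gm ρ j) ht'
      (Real.rpow_le_one ht.le ht1 (by have := hμ j; linarith)) φ hφ y
    refine h.trans ?_
    rw [← Real.rpow_mul ht.le]
    refine Real.rpow_le_rpow_of_exponent_ge ht ht1 ?_
    have hsx : 0 ≤ sx 0 j := by
      unfold sx
      split_ifs <;> norm_num
    have := mul_le_mul_of_nonneg_right (hμ1 j) hsx
    linarith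
  · intro j s t hs hst ht φ hφ
    have hj : 0 ≤ gm ρ j := by have := hμ j; linarith
    exact hD.mono j (s ^ gm ρ j) (t ^ gm ρ j) (Real.rpow_pos_of_pos hs _)
      (Real.rpow_le_rpow hs.le hst hj) (Real.rpow_le_one (hs.le.trans hst) ht hj) φ hφ
  · intro j t φ hφ
    exact hD.conj j _ φ hφ
  · intro j hj t ht ht1 y
    refine ⟨t ^ gm ρ j, Real.rpow_pos_of_pos ht _,
      Real.rpow_le_rpow_of_exponent_ge ht ht1 (hμ j), ?_⟩
    exact hD.pt j hj (t ^ gm ρ j) (Real.rpow_pos_of_pos ht _)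
      (Real.rpow_le_one ht.le ht1 (by have := hμ j; linarith)) y

/-- **rule (A) for the graded dictionary** -/
theorem ruleA2_grade {D : Dict} (hD : TRec.Dic D 0) {k q3 c0 e δ ρ e' t0 K : ℝ} (h1 : 1 ≤ ρ)
    (h2 : ρ ^ 2 ≤ 2) (hc0 : 0 ≤ c0) (ht0 : 0 < t0) (ht01 : t0 ≤ 1) (hK : 0 ≤ K) (he' : 0 ≤ e') (hδ : 0 ≤ δ)
    (hup : ρ ^ 2 * (1 + e') ≤ 1 + e) (hdn : (1 + δ) * (1 + e') ≤ ρ)
    (hN : RuleNT D k q3 c0 e t0 K) (hT : RuleTr D k q3 c0 δ t0 K) :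
    RuleA2 (grade D (gm ρ)) k q3 (c0 / 2) e' (t0 ^ 2) K := by
  intro N B hB hBN t ht htt bb ε hε W I hW hI F hF i m him hi hm hf hl
  have hμ := gm_half h1 h2
  have hμ1 := gm_le h1
  have ht02 : t0 ^ 2 ≤ 1 := pow_le_one₀ ht0.le ht01
  have ht1 : t ≤ 1 := htt.trans ht02
  have hpow : ∀ x : ℝ, 1 / 2 ≤ x → t ^ x ≤ t0 := by
    intro x hx
    have e1 : t ^ x ≤ t ^ (1 / 2 : ℝ) := Real.rpow_le_rpow_of_exponent_ge ht ht1 hx
    have e2 : t ^ (1 / 2 : ℝ) ≤ (t0 ^ 2) ^ (1 / 2 : ℝ) :=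
      Real.rpow_le_rpow ht.le htt (by norm_num)
    have e3 : (t0 ^ 2) ^ (1 / 2 : ℝ) = t0 := by
      rw [← Real.rpow_natCast, ← Real.rpow_mul ht0.le]
      norm_num
    linarith
  have hle : 0 ≤ len I := (Growth.len_pos I).le
  have hKB : 0 ≤ K * (1 + B) := mul_nonneg hK (by linarith)
  have hf' : Fz D i ((t ^ (1 + e')) ^ gm ρ i) 1 I (F i) := hf
  have hl' : ∀ p ∈ W, Lv D m (t ^ gm ρ m) 1 p (F m) := hl
  rw [← Real.rpow_mul ht.le] at hf'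
  have hfin : ∀ x : ℝ, 1 / 2 ≤ x → K * (1 + B) * (t ^ x) ^ c0 * len I ≤
      K * (1 + B) * t ^ (c0 / 2) * len I := by
    intro x hx
    refine mul_le_mul_of_nonneg_right (mul_le_mul_of_nonneg_left ?_ hKB) hle
    rw [← Real.rpow_mul ht.le]
    refine Real.rpow_le_rpow_of_exponent_ge ht ht1 ?_
    nlinarith
  rcases lt_or_gt_of_ne him with h | h
  · -- i < m : trivial kill
    have hs0 : 0 < t ^ ((1 + e') * gm ρ i) := Real.rpow_pos_of_pos ht _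
    have hx : 1 / 2 ≤ (1 + e') * gm ρ i := by
      have := hμ i
      nlinarith
    have hr := gm_ratio_dn h1 h hm
    have hlev : ∀ p ∈ W, Lv D m ((t ^ ((1 + e') * gm ρ i)) ^ (1 + δ)) 1 p (F m) := by
      intro p hp
      rw [← Real.rpow_mul ht.le]
      refine Crest.Agent.R079.TRec.S351.Lv_mono hD (Real.rpow_pos_of_pos ht _) ?_ ?_ zero_le_one (hl' p hp)
      · refine Real.rpow_le_rpow_of_exponent_ge ht ht1 ?_
        have h3 := mul_le_mul_of_nonneg_right hdn (by have := hμ i; linarith : 0 ≤ gm ρ i)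
        nlinarith
      · refine Real.rpow_le_one ht.le ht1 ?_
        have h3 : 0 ≤ gm ρ i := by have := hμ i; linarith
        positivity
    exact (hT N B hB hBN _ hs0 (hpow _ hx) bb ε hε W I hW hI F hF i m h hm hf' hlev).trans
      (hfin _ hx)
  · -- m < i : nontrivial
    have hs0 : 0 < t ^ gm ρ m := Real.rpow_pos_of_pos ht _
    have hx : 1 / 2 ≤ gm ρ m := hμ m
    have hr := gm_ratio_up h1 h hi
    have hfz : Fz D i ((t ^ gm ρ m) ^ (1 + e)) 1 I (F i) := by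
      rw [← Real.rpow_mul ht.le]
      refine Crest.Agent.R079.TRec.S351.Fz_mono hD (Real.rpow_pos_of_pos ht _) ?_ ?_ hf'
      · refine Real.rpow_le_rpow_of_exponent_ge ht ht1 ?_
        have h3 := mul_le_mul_of_nonneg_right hup (by have := hμ m; linarith : 0 ≤ gm ρ m)
        have h4 := mul_le_mul_of_nonneg_left hr (by linarith : 0 ≤ 1 + e')
        nlinarith
      · refine Real.rpow_le_one ht.le ht1 ?_
        have := hμ i
        nlinarith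
    exact (hN N B hB hBN _ hs0 (hpow _ hx) bb ε hε W I hW hI F hF i m h hi hfz hl').trans
      (hfin _ hx)

/-- **rule (S) for the graded dictionary** -/
theorem ruleS_grade {D : Dict} (hD : TRec.Dic D 0) {k q3 cS CS s1 e ρ e' t0 K : ℝ} (h1 : 1 ≤ ρ)
    (h2 : ρ ^ 2 ≤ 2) (hcS : 0 ≤ cS) (hCS : 0 ≤ CS) (hs1 : 0 ≤ s1) (ht0 : 0 < t0) (ht01 : t0 ≤ 1)
    (hK : 0 ≤ K) (he : 0 ≤ e) (hee : e' ≤ e) (he' : 0 ≤ e')
    (hS : RuleS D k q3 cS CS s1 e t0 K) :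
    RuleS (grade D (gm ρ)) k q3 (cS / 2) CS s1 e' (t0 ^ 2) K := by
  intro N B hB hBN t ht htt bb W I hW hI m hm P G X E hP hG hf hX hl hE
  have hμ := gm_half h1 h2
  have hμ1 := gm_le h1
  have ht02 : t0 ^ 2 ≤ 1 := pow_le_one₀ ht0.le ht01
  have ht1 : t ≤ 1 := htt.trans ht02
  have hu0 : 0 < t ^ gm ρ m := Real.rpow_pos_of_pos ht _
  have hu1 : t ^ gm ρ m ≤ 1 := Real.rpow_le_one ht.le ht1 (by have := hμ m; linarith)
  have hut0 : t ^ gm ρ m ≤ t0 := by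
    have e1 : t ^ gm ρ m ≤ t ^ (1 / 2 : ℝ) := Real.rpow_le_rpow_of_exponent_ge ht ht1 (hμ m)
    have e2 : t ^ (1 / 2 : ℝ) ≤ (t0 ^ 2) ^ (1 / 2 : ℝ) :=
      Real.rpow_le_rpow ht.le htt (by norm_num)
    have e3 : (t0 ^ 2) ^ (1 / 2 : ℝ) = t0 := by
      rw [← Real.rpow_natCast, ← Real.rpow_mul ht0.le]
      norm_num
    linarith
  have hf' : Fz D m ((t ^ (1 + e')) ^ gm ρ m) 1 I P := hf
  have hfz : Fz D m ((t ^ gm ρ m) ^ (1 + e)) 1 I P := by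
    rw [← Real.rpow_mul ht.le] at hf' ⊢
    refine Crest.Agent.R079.TRec.S351.Fz_mono hD (Real.rpow_pos_of_pos ht _) ?_ ?_ hf'
    · refine Real.rpow_le_rpow_of_exponent_ge ht ht1 ?_
      have := hμ m
      nlinarith
    · refine Real.rpow_le_one ht.le ht1 ?_
      have := hμ m
      positivity
  have hE' : ∀ p ∈ W, av p E ≤ (t ^ gm ρ m) ^ s1 := by
    intro p hp
    refine (hE p hp).trans ?_
    rw [← Real.rpow_mul ht.le]
    refine Real.rpow_le_rpow_of_exponent_ge ht ht1 ?_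
    have := mul_le_mul_of_nonneg_right (hμ1 m) hs1
    linarith
  obtain ⟨T, hT1, hT2, hT3⟩ := hS N B hB hBN _ hu0 hut0 bb W I hW hI m hm P G X E hP hG hfz hX hl hE'
  refine ⟨T, hT1, hT2.mono ?_, ?_⟩
  · refine mul_le_mul_of_nonneg_left ?_ hK
    rw [← Real.rpow_mul ht.le]
    refine Real.rpow_le_rpow_of_exponent_ge ht ht1 ?_
    have := mul_le_mul_of_nonneg_right (hμ1 m) hCS
    linarith
  · intro I' hI' W' J hW' hs F hFm hF3 hFj ε hε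
    refine (hT3 I' hI' W' J hW' hs F hFm hF3 hFj ε hε).trans ?_
    refine mul_le_mul_of_nonneg_right (mul_le_mul_of_nonneg_left ?_
      (mul_nonneg hK (by linarith))) (Growth.len_pos J).le
    rw [← Real.rpow_mul ht.le]
    refine Real.rpow_le_rpow_of_exponent_ge ht ht1 ?_
    have := mul_le_mul_of_nonneg_right (hμ m) hcS
    linarith

/-- frozen letters at a fixed parameter -/
theorem frzBd_grade {D : Dict} {k q3 ρ : ℝ} (h1 : 1 ≤ ρ) (h2 : ρ ^ 2 ≤ 2) (hF : FrzBd D k q3) :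
    FrzBd (grade D (gm ρ)) k q3 := by
  intro t ht ht1
  have hμ := gm_half h1 h2
  choose K hK0 hK using fun i : Fin 4 => hF (t ^ gm ρ i) (Real.rpow_pos_of_pos ht _)
    (Real.rpow_le_one ht.le ht1 (by have := hμ i; linarith))
  refine ⟨∑ i, K i, Finset.sum_nonneg fun i _ => hK0 i, ?_⟩
  intro bb ε hε W I hW F hn i hi hf
  refine (hK i bb ε hε W I hW F hn i hi hf).trans ?_
  exact mul_le_mul_of_nonneg_right
    (Finset.single_le_sum (f := K) (fun i _ => hK0 i) (Finset.mem_univ i)) (Growth.len_pos I).le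

/-- **what the analysis has to deliver, v4 (graded)**: the nontrivial rule (A) only for `m < i` -/
def Analytic4 : Prop :=
  ∃ (D : Dict) (k q3 c0 cS CS s1 e e' δ ρ c1 bt κ t0 K : ℝ) (K0 : ℕ),
    Ok2 k q3 (c0 / 2) (cS / 2) CS s1 e' c1 bt κ K0 ∧ 1 ≤ ρ ∧ ρ ^ 2 ≤ 2 ∧ 0 ≤ δ ∧
    ρ ^ 2 * (1 + e') ≤ 1 + e ∧ (1 + δ) * (1 + e') ≤ ρ ∧ 0 ≤ c0 ∧ 0 ≤ cS ∧ 0 ≤ s1 ∧
    0 < t0 ∧ t0 ≤ 1 ∧ 0 ≤ K ∧ TRec.Dic D 0 ∧ RuleNT D k q3 c0 e t0 K ∧
    RuleTr D k q3 c0 δ t0 K ∧ RuleS D k q3 cS CS s1 e t0 K ∧ FrzBd D k q3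

/-- **`S0106` from the graded analytic input** -/
theorem target_of_analytic4 (hA : Analytic4) : L0.Target := by
  obtain ⟨D, k, q3, c0, cS, CS, s1, e, e', δ, ρ, c1, bt, κ, t0, K, K0, ok, h1, h2, hδ, hup, hdn,
    hc0, hcS, hs1, ht0, ht01, hK, hD, hN, hT, hS, hF⟩ := hA
  have he' := ok.e0
  have hee : e' ≤ e := by
    have : 1 ≤ ρ ^ 2 := one_le_pow₀ h1
    nlinarith
  exact target_of_analytic3 ⟨grade D (gm ρ), k, q3, c0 / 2, cS / 2, CS, s1, e', c1, bt, κ, t0 ^ 2,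
    K, K0, ok, by positivity, hK, dic_grade hD h1 h2,
    ruleA2_grade hD h1 h2 hc0 ht0 ht01 hK he'.le hδ hup hdn hN hT,
    ruleS_grade hD h1 h2 hcS ok.CS0 hs1 ht0 ht01 hK (he'.le.trans hee) hee he'.le hS,
    frzBd_grade h1 h2 hF⟩

end Crest.Agent.R079.TRecw
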