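import Crest.Agent.R079.AsmP_734
import Crest.Agent.R079.TGr_351

/-! R079: ALL PARAMETERS of the graded input `Analytic4` (helper351's `TGr_351`) are chosen here (helper734).

ORDER.  `c_NT` (gain of the nontrivial rule (A), pairs `m < i`) does not depend on `e`; the gain of the
trivial kill `RuleTr` at `δ = e / 16` DOES depend on `e`; so `c0 = min`, `c1 < c0`, `s1 ≤ c1 / 4` are chosen
AFTER `e`.  Hence the static rule (S) is needed in the order `∀ e ≤ e2, ∀ s1 > 0, ∃ cS CS` (this is what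
Step II gives: the mass `t^(-(1+e))` enters it only polynomially); the order `∀ s1, ∃ e2` of
`TRec.analytic2_of'` would be circular for graded dictionaries.

* `analytic4_of`  : `Dic`, `FrzBd`, `RuleNT`, `RuleTr`, `RuleS` => `Analytic4`;
* `ruleNT_exists` : Step I (graded weights) + Step II for the pairs `m < i` => `RuleNT`;
* `target_of_steps` : everything => `L0.Target` (= `S0106`). -/

set_option autoImplicit false

namespace Crest.Agent.R079.Par4734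

open Finset Crest.Agent.R079.Grid Crest.Agent.R079.Growth Crest.Agent.R079.QRed
open Crest.Agent.R079.TRec Crest.Agent.R079.TRecw
open Crest.Agent.R079.AsmA844 Crest.Agent.R079.AsmG734 Crest.Agent.R079.AsmP734

theorem ruleNT_mono {D : Dict} {k q3 c0 e t0 K c0' t0' K' : ℝ} (h : RuleNT D k q3 c0 e t0 K)
    (ht : t0' ≤ t0) (ht1 : t0' ≤ 1) (hc : c0' ≤ c0) (hK0 : 0 ≤ K) (hK : K ≤ K') :
    RuleNT D k q3 c0' e t0' K' := by
  intro N B hB hBN t h0 h1 bb ε hA W I hW hI F hF i m him hi hfz hlv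
  have h2 := h N B hB hBN t h0 (h1.trans ht) bb ε hA W I hW hI F hF i m him hi hfz hlv
  refine h2.trans (mul_le_mul_of_nonneg_right ?_ (Growth.len_pos I).le)
  have h3 : t ^ c0 ≤ t ^ c0' := Real.rpow_le_rpow_of_exponent_ge h0 (h1.trans ht1) hc
  have h4 : 0 ≤ t ^ c0 := Real.rpow_nonneg h0.le _
  calc K * (1 + B) * t ^ c0 ≤ K' * (1 + B) * t ^ c0 :=
        mul_le_mul_of_nonneg_right (mul_le_mul_of_nonneg_right hK (by linarith)) h4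
    _ ≤ K' * (1 + B) * t ^ c0' :=
        mul_le_mul_of_nonneg_left h3 (mul_nonneg (hK0.trans hK) (by linarith))

theorem ruleTr_mono {D : Dict} {k q3 c0 δ t0 K c0' t0' K' : ℝ} (h : RuleTr D k q3 c0 δ t0 K)
    (ht : t0' ≤ t0) (ht1 : t0' ≤ 1) (hc : c0' ≤ c0) (hK0 : 0 ≤ K) (hK : K ≤ K') :
    RuleTr D k q3 c0' δ t0' K' := by
  intro N B hB hBN t h0 h1 bb ε hA W I hW hI F hF i m him hm hfz hlv
  have h2 := h N B hB hBN t h0 (h1.trans ht) bb ε hA W I hW hI F hF i m him hm hfz hlv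
  refine h2.trans (mul_le_mul_of_nonneg_right ?_ (Growth.len_pos I).le)
  have h3 : t ^ c0 ≤ t ^ c0' := Real.rpow_le_rpow_of_exponent_ge h0 (h1.trans ht1) hc
  have h4 : 0 ≤ t ^ c0 := Real.rpow_nonneg h0.le _
  calc K * (1 + B) * t ^ c0 ≤ K' * (1 + B) * t ^ c0 :=
        mul_le_mul_of_nonneg_right (mul_le_mul_of_nonneg_right hK (by linarith)) h4
    _ ≤ K' * (1 + B) * t ^ c0' :=
        mul_le_mul_of_nonneg_left h3 (mul_nonneg (hK0.trans hK) (by linarith))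

/-- admissible parameters, `e` given -/
theorem ok2_fix {q3 c0 e : ℝ} (hq3 : 2 < q3) (hc0 : 0 < c0) (he : 0 < e) (he1 : e ≤ 1)
    {Q : ℝ → ℝ → ℝ → Prop}
    (hS : ∀ s1 : ℝ, 0 < s1 → ∃ cS CS : ℝ, 0 < cS ∧ 0 ≤ CS ∧ Q s1 cS CS) :
    ∃ s1 cS CS : ℝ, 0 < s1 ∧ 0 < cS ∧ 0 ≤ CS ∧ Q s1 cS CS ∧
      ∃ (c1 bt κ km : ℝ) (K0 : ℕ), 0 < km ∧ ∀ k, 0 < k → k ≤ km →
        Ok2 k q3 c0 cS CS s1 e c1 bt κ K0 := by
  set c1 : ℝ := min 1 (c0 / 4) with hc1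
  have hc1p : 0 < c1 := lt_min one_pos (by positivity)
  have hc11 : c1 ≤ 1 := min_le_left _ _
  have hc1c : c1 ≤ c0 / 4 := min_le_right _ _
  obtain ⟨cS, CS, hcS, hCS, hQ⟩ := hS (c1 / 4) (by positivity)
  refine ⟨c1 / 4, cS, CS, by positivity, hcS, hCS, hQ, ?_⟩
  have hq0 : 0 < q3 := by linarith
  set M : ℝ := min (min (c0 / 2) cS) (min (c1 / 4) (c1 / q3)) with hM
  have hMp : 0 < M := by
    refine lt_min (lt_min (by positivity) hcS) (lt_min (by positivity) (by positivity))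
  have hM1 : M ≤ c0 / 2 := (min_le_left _ _).trans (min_le_left _ _)
  have hM2 : M ≤ cS := (min_le_left _ _).trans (min_le_right _ _)
  have hM3 : M ≤ c1 / 4 := (min_le_right _ _).trans (min_le_left _ _)
  have hM4 : M ≤ c1 / q3 := (min_le_right _ _).trans (min_le_right _ _)
  obtain ⟨K0, hK0⟩ := exists_nat_ge ((CS + 6) / (c1 / 2))
  have hK0' : CS + 6 ≤ K0 * (c1 / 2) := by
    rw [div_le_iff₀ (by positivity)] at hK0; exact hK0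
  have hsum : M / 2 + 20 * (e * M / 80) ≤ M := by nlinarith
  refine ⟨c1, M / 2, e * M / 80, min (1 / 80) (e * M / 80 / (40 * (K0 + 1))), K0,
    lt_min (by norm_num) (by positivity), fun k hk hkm => ?_⟩
  have hk1 : k ≤ 1 / 80 := hkm.trans (min_le_left _ _)
  have hk2 : k ≤ e * M / 80 / (40 * (K0 + 1)) := hkm.trans (min_le_right _ _)
  have hKp : (0 : ℝ) < 40 * ((K0 : ℝ) + 1) := by positivity
  rw [le_div_iff₀ hKp] at hk2
  exact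
    { k0 := hk, k1 := hk1, kκ := by linarith, hq3 := hq3, e0 := he, e1 := he1, c10 := hc1p,
      c11 := hc11, bt0 := by positivity, CS0 := hCS,
      hA := by nlinarith,
      hS := hsum.trans hM2, hs := le_rfl, hC := hsum.trans hM3, hC3 := hsum.trans hM4,
      hK := hK0', hk := by nlinarith }

/-- **`Analytic4` from the rules with free small parameters** -/
theorem analytic4_of {q3 : ℝ} (hq3 : 2 < q3) (D : ℝ → ℝ → Dict)
    (hD : ∀ e k, 0 < e → 0 < k → k ≤ 1 / 80 → TRec.Dic (D e k) 0)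
    (hF : ∀ e k, 0 < e → 0 < k → k ≤ 1 / 80 → FrzBd (D e k) k q3)
    (hN : ∃ c0 e1 : ℝ, 0 < c0 ∧ 0 < e1 ∧ ∀ e, 0 < e → e ≤ e1 → ∃ k1 : ℝ, 0 < k1 ∧
      ∀ k, 0 < k → k ≤ k1 → ∃ t0 K : ℝ, 0 < t0 ∧ 0 ≤ K ∧ RuleNT (D e k) k q3 c0 e t0 K)
    (hT : ∃ e3 : ℝ, 0 < e3 ∧ ∀ e, 0 < e → e ≤ e3 → ∀ δ, 0 < δ → ∃ c0 k3 : ℝ, 0 < c0 ∧ 0 < k3 ∧
      ∀ k, 0 < k → k ≤ k3 → ∃ t0 K : ℝ, 0 < t0 ∧ 0 ≤ K ∧ RuleTr (D e k) k q3 c0 δ t0 K)
    (hS : ∃ e2 : ℝ, 0 < e2 ∧ ∀ e, 0 < e → e ≤ e2 → ∀ s1, 0 < s1 → ∃ cS CS k2 : ℝ,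
      0 < cS ∧ 0 ≤ CS ∧ 0 < k2 ∧ ∀ k, 0 < k → k ≤ k2 →
        ∃ t0 K : ℝ, 0 < t0 ∧ 0 ≤ K ∧ RuleS (D e k) k q3 cS CS s1 e t0 K) : Analytic4 := by
  obtain ⟨cN, e1, hcN, he1, hN⟩ := hN
  obtain ⟨e3, he3, hT⟩ := hT
  obtain ⟨e2, he2, hS⟩ := hS
  set e : ℝ := min 1 (min e1 (min e2 e3)) with he
  have hep : 0 < e := lt_min one_pos (lt_min he1 (lt_min he2 he3))
  have hel : e ≤ 1 := min_le_left _ _
  have hee1 : e ≤ e1 := (min_le_right _ _).trans (min_le_left _ _)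
  have hee2 : e ≤ e2 := (min_le_right _ _).trans ((min_le_right _ _).trans (min_le_left _ _))
  have hee3 : e ≤ e3 := (min_le_right _ _).trans ((min_le_right _ _).trans (min_le_right _ _))
  obtain ⟨k1, hk1, hN⟩ := hN e hep hee1
  obtain ⟨cT, k3, hcT, hk3, hT⟩ := hT e hep hee3 (e / 16) (by positivity)
  set c0 : ℝ := min cN cT with hc0
  have hc0p : 0 < c0 := lt_min hcN hcT
  obtain ⟨s1, cS', CS, hs1, hcS', hCS, hQ, c1, bt, κ, km, K0, hkm, hok⟩ :=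
    ok2_fix (q3 := q3) (c0 := c0 / 2) (e := e / 8) hq3 (by positivity) (by positivity)
      (by linarith) (Q := fun s1 x CS => ∃ k2 : ℝ, 0 < k2 ∧ ∀ k, 0 < k → k ≤ k2 →
        ∃ t0 K : ℝ, 0 < t0 ∧ 0 ≤ K ∧ RuleS (D e k) k q3 (2 * x) CS s1 e t0 K)
      (fun s1 hs1 => by
        obtain ⟨cS, CS, k2, hcS, hCS, hk2, h⟩ := hS e hep hee2 s1 hs1
        refine ⟨cS / 2, CS, by positivity, hCS, k2, hk2, fun k hk hkk => ?_⟩
        have e1 : 2 * (cS / 2) = cS := by ring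
        rw [e1]
        exact h k hk hkk)
  obtain ⟨k2, hk2, hQ⟩ := hQ
  set k : ℝ := min (min k1 k2) (min k3 km) with hk
  have hkp : 0 < k := lt_min (lt_min hk1 hk2) (lt_min hk3 hkm)
  obtain ⟨t1, K1, ht1, hK1, hN⟩ := hN k hkp ((min_le_left _ _).trans (min_le_left _ _))
  obtain ⟨t2, K2, ht2, hK2, hQ⟩ := hQ k hkp ((min_le_left _ _).trans (min_le_right _ _))
  obtain ⟨t3, K3, ht3, hK3, hT⟩ := hT k hkp ((min_le_right _ _).trans (min_le_left _ _))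
  have ok := hok k hkp ((min_le_right _ _).trans (min_le_right _ _))
  set tt : ℝ := min 1 (min t1 (min t2 t3)) with htt
  have http : 0 < tt := lt_min one_pos (lt_min ht1 (lt_min ht2 ht3))
  have htt1 : tt ≤ 1 := min_le_left _ _
  have ha : tt ≤ t1 := (min_le_right _ _).trans (min_le_left _ _)
  have hb : tt ≤ t2 := (min_le_right _ _).trans ((min_le_right _ _).trans (min_le_left _ _))
  have hc : tt ≤ t3 := (min_le_right _ _).trans ((min_le_right _ _).trans (min_le_right _ _))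
  have e2' : 2 * cS' / 2 = cS' := by ring
  have q1 : e ^ 2 ≤ e := by nlinarith
  have q2 : e ^ 3 ≤ e := by
    have : e ^ 3 = e * e ^ 2 := by ring
    rw [this]
    nlinarith
  have r1 : (1 + e / 4) ^ 2 ≤ 2 := by nlinarith
  have r2 : (1 + e / 4) ^ 2 * (1 + e / 8) ≤ 1 + e := by
    have : (1 + e / 4) ^ 2 * (1 + e / 8) = 1 + 5 * e / 8 + e ^ 2 / 8 + e ^ 3 / 128 := by ring
    rw [this]
    linarith
  have r3 : (1 + e / 16) * (1 + e / 8) ≤ 1 + e / 4 := by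
    have : (1 + e / 16) * (1 + e / 8) = 1 + 3 * e / 16 + e ^ 2 / 128 := by ring
    rw [this]
    linarith
  refine ⟨D e k, k, q3, c0, 2 * cS', CS, s1, e, e / 8, e / 16, 1 + e / 4, c1, bt, κ, tt,
    K1 + K2 + K3, K0, ?_, by linarith, r1, by positivity, r2, r3, hc0p.le, by positivity, hs1.le, http, htt1, by positivity,
    hD e k hep hkp ok.k1, ?_, ?_, ?_, hF e k hep hkp ok.k1⟩
  · rw [e2']
    exact ok
  · exact ruleNT_mono hN ha htt1 (min_le_left _ _) hK1 (by linarith)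
  · exact ruleTr_mono hT hc htt1 (min_le_right _ _) hK3 (by linarith)
  · exact hQ.mono hb (by linarith)

theorem ruleNT_of_pairs {D : Dict} {k q3 c0 e t0 K : ℝ}
    (h : ∀ i m : Fin 4, m < i → i ≠ 3 → PairA D k q3 c0 e t0 K i m) :
    RuleNT D k q3 c0 e t0 K :=
  fun N B hB hBN t ht htt bb ε hA W I hW hI F hF i m him hi =>
    h i m him hi N B hB hBN t ht htt bb ε hA W I hW hI F hF

/-- **`RuleNT` from Step I (graded weights) and Step II for the pairs `m < i`** -/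
theorem ruleNT_exists {q3 : ℝ} (hq3 : 2 < q3) (D : ℝ → ℝ → Dict)
    (hG : ∃ c1 C g ys : ℝ, 0 < c1 ∧ 0 < C ∧ 0 < g ∧ 0 < ys ∧ ∀ y, 0 < y → y ≤ ys →
      ∃ e1 : ℝ, 0 < e1 ∧ ∀ e, 0 < e → e ≤ e1 → ∃ k1 : ℝ, 0 < k1 ∧ ∀ k, 0 < k → k ≤ k1 →
        ∃ t0 K : ℝ, 0 < t0 ∧ 0 ≤ K ∧ ∀ i m : Fin 4, m < i → i ≠ 3 →
          GenP (D e k) k q3 e c1 (C * y) (g * y) t0 K i m)
    (hS : ∃ cS CS e2 : ℝ, 0 < cS ∧ 0 < e2 ∧ ∀ e, 0 < e → e ≤ e2 → ∃ k2 : ℝ, 0 < k2 ∧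
      ∀ k, 0 < k → k ≤ k2 → ∃ t0 K : ℝ, 0 < t0 ∧ 0 ≤ K ∧ ∀ i m : Fin 4, m < i → i ≠ 3 →
        StatP (D e k) k q3 e cS CS t0 K i m) :
    ∃ c0 e1 : ℝ, 0 < c0 ∧ 0 < e1 ∧ ∀ e, 0 < e → e ≤ e1 → ∃ k1 : ℝ, 0 < k1 ∧
      ∀ k, 0 < k → k ≤ k1 → ∃ t0 K : ℝ, 0 < t0 ∧ 0 ≤ K ∧ RuleNT (D e k) k q3 c0 e t0 K := by
  obtain ⟨c1, C, g, ys, hc1, hC, hg, hys, hG⟩ := hG
  obtain ⟨cS, CS, e2, hcS, he2, hS⟩ := hS
  obtain ⟨n, y, c0, hc0, hy, hyy, n1, n2, n3⟩ := exists_weights (CS := CS) hc1 hC hg hys hcS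
  obtain ⟨e1, he1, hG⟩ := unif_small (n := n) fun j hj => hG (y j) (hy j) (hyy j hj)
  refine ⟨c0, min e1 e2, hc0, lt_min he1 he2, fun e he hee => ?_⟩
  obtain ⟨k1, hk1, hG⟩ := unif_small (n := n) fun j hj => hG e he (hee.trans (min_le_left _ _)) j hj
  obtain ⟨k2, hk2, hS⟩ := hS e he (hee.trans (min_le_right _ _))
  refine ⟨min (min k1 k2) (q3 - 2), lt_min (lt_min hk1 hk2) (by linarith), fun k hk hkk => ?_⟩
  have hkq : 2 + k ≤ q3 := by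
    have := hkk.trans (min_le_right _ _)
    linarith
  obtain ⟨t1, K1, ht1, ht11, hK1, hG⟩ := unif_tK (n := n)
    (Q := fun j t K => ∀ i m : Fin 4, m < i → i ≠ 3 →
      GenP (D e k) k q3 e c1 (C * y j) (g * y j) t K i m)
    (fun j t K t' K' h h1 h2 i m him hi => genP_mono (h i m him hi) h1 h2)
    (fun j hj => hG k hk (hkk.trans ((min_le_left _ _).trans (min_le_left _ _))) j hj)
  obtain ⟨t2, K2, ht2, hK2, hS⟩ := hS k hk (hkk.trans ((min_le_left _ _).trans (min_le_right _ _)))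
  refine ⟨min t1 t2, _, lt_min ht1 ht2, ?_, ruleNT_of_pairs fun i m him hi =>
    pairA_graded (K := max K1 K2) him.ne' hi
    (fun h => by
      subst h
      exact absurd him (not_lt.2 (Fin.le_last i))) hk hkq
    ((min_le_left _ _).trans ht11) (hK1.trans (le_max_left _ _))
    (fun j => (mul_pos hC (hy j)).le) n n1 n2 n3
    (fun j hj => genP_mono (hG j hj i m him hi) (min_le_left _ _) (le_max_left _ _))
    (statP_mono (hS i m him hi) (min_le_right _ _) (le_max_right _ _))⟩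
  have : (0 : ℝ) ≤ max K1 K2 := (zero_le_one.trans hK1).trans (le_max_left _ _)
  positivity

/-- **`S0106` FROM THE STEPS, ALL PARAMETERS CHOSEN**: dictionary, frozen letters, Step I (`hG`) and
Step II (`hSt`) for the pairs `m < i`, trivial kill (`hT`), static rule (`hS`). -/
theorem target_of_steps {q3 : ℝ} (hq3 : 2 < q3) (D : ℝ → ℝ → Dict)
    (hD : ∀ e k, 0 < e → 0 < k → k ≤ 1 / 80 → TRec.Dic (D e k) 0)
    (hF : ∀ e k, 0 < e → 0 < k → k ≤ 1 / 80 → FrzBd (D e k) k q3)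
    (hG : ∃ c1 C g ys : ℝ, 0 < c1 ∧ 0 < C ∧ 0 < g ∧ 0 < ys ∧ ∀ y, 0 < y → y ≤ ys →
      ∃ e1 : ℝ, 0 < e1 ∧ ∀ e, 0 < e → e ≤ e1 → ∃ k1 : ℝ, 0 < k1 ∧ ∀ k, 0 < k → k ≤ k1 →
        ∃ t0 K : ℝ, 0 < t0 ∧ 0 ≤ K ∧ ∀ i m : Fin 4, m < i → i ≠ 3 →
          GenP (D e k) k q3 e c1 (C * y) (g * y) t0 K i m)
    (hSt : ∃ cS CS e2 : ℝ, 0 < cS ∧ 0 < e2 ∧ ∀ e, 0 < e → e ≤ e2 → ∃ k2 : ℝ, 0 < k2 ∧
      ∀ k, 0 < k → k ≤ k2 → ∃ t0 K : ℝ, 0 < t0 ∧ 0 ≤ K ∧ ∀ i m : Fin 4, m < i → i ≠ 3 →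
        StatP (D e k) k q3 e cS CS t0 K i m)
    (hT : ∃ e3 : ℝ, 0 < e3 ∧ ∀ e, 0 < e → e ≤ e3 → ∀ δ, 0 < δ → ∃ c0 k3 : ℝ, 0 < c0 ∧ 0 < k3 ∧
      ∀ k, 0 < k → k ≤ k3 → ∃ t0 K : ℝ, 0 < t0 ∧ 0 ≤ K ∧ RuleTr (D e k) k q3 c0 δ t0 K)
    (hS : ∃ e2 : ℝ, 0 < e2 ∧ ∀ e, 0 < e → e ≤ e2 → ∀ s1, 0 < s1 → ∃ cS CS k2 : ℝ,
      0 < cS ∧ 0 ≤ CS ∧ 0 < k2 ∧ ∀ k, 0 < k → k ≤ k2 →
        ∃ t0 K : ℝ, 0 < t0 ∧ 0 ≤ K ∧ RuleS (D e k) k q3 cS CS s1 e t0 K) : L0.Target :=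
  target_of_analytic4 (analytic4_of hq3 D hD hF (ruleNT_exists hq3 D hG hSt) hT hS)

end Crest.Agent.R079.Par4734
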