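import Crest.Agent.R079.Tr_230
import Crest.Agent.R079.EWG_990

/-! R079 Step II, labels of the main kernel: the periodised kernel `Per` of `LK_990` at a point of the
plane is the sum over the plane translates, and for `M w z z' = ∑ d_l u_l(w,z) v_l(w,z')` on the edge `0`
it is `∑_{(τ,l)} d_l al(τ,l;z) be(τ,l;z')`.  helper530. -/

set_option autoImplicit false

namespace Crest.Agent.R079.PerT530

open Finset Crest.Agent.R079.Grid Crest.Agent.R079.Glue Crest.Agent.R079.Tr230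
  Crest.Agent.R079.LK990 Crest.Agent.R079.EWG990

/-- **the periodised kernel is the sum over the plane translates** -/
theorem per_translates (j : Fin 4) (T : Fin 3 → Finset ℤ) (Φ : ℤ → ℤ → ℤ → ℤ → ℂ)
    (Z S : Finset (ℤ × ℤ × ℤ)) (hS : Sh j T Z ⊆ S) (hS0 : ∀ s ∈ S, cfz j s = 0)
    {z : ℤ × ℤ × ℤ} (hz : z ∈ Z) (t : ℤ) :
    Per j T Φ (cfz j z) t = ∑ s ∈ S,
      if z.1 + s.1 ∈ T 0 ∧ z.2.1 + s.2.1 ∈ T 1 ∧ z.2.2 + s.2.2 ∈ T 2 then
        Φ (t - (z.1 + s.1) - (z.2.1 + s.2.1) - (z.2.2 + s.2.2)) (z.1 + s.1) (z.2.1 + s.2.1)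
          (z.2.2 + s.2.2) else 0 := by
  have h0 : Per j T Φ (cfz j z) t = ∑ w ∈ (T 0 ×ˢ T 1 ×ˢ T 2).filter (fun w => cfz j w = cfz j z),
      Φ (t - w.1 - w.2.1 - w.2.2) w.1 w.2.1 w.2.2 := by
    unfold Per
    rw [Finset.sum_filter, Finset.sum_product]
    refine Finset.sum_congr rfl fun z0 _ => ?_
    rw [Finset.sum_product]
    rfl
  rw [h0, ← Finset.sum_filter]
  refine Finset.sum_bij' (fun w _ => w - z) (fun s _ => z + s) ?_ ?_ ?_ ?_ ?_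
  · intro w hw
    rw [Finset.mem_filter] at hw
    have hc : cfz j (w - z) = 0 := by rw [cfz_sub, hw.2, sub_self]
    rw [Finset.mem_filter]
    refine ⟨hS ?_, ?_⟩
    · unfold Sh
      rw [Finset.mem_filter]
      refine ⟨Finset.mem_image.2 ⟨(w, z), Finset.mem_product.2 ⟨hw.1, hz⟩, rfl⟩, hc⟩
    · have h1 := hw.1
      simp only [Finset.mem_product] at h1
      simpa using h1
  · intro s hs
    rw [Finset.mem_filter] at hs ⊢
    refine ⟨?_, ?_⟩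
    · simp only [Finset.mem_product, Prod.fst_add, Prod.snd_add]
      exact hs.2
    · rw [cfz_add, hS0 s hs.1, add_zero]
  · intro w _
    show z + (w - z) = w
    abel
  · intro s _
    show z + s - z = s
    abel
  · intro w _
    have e0 : z.1 + (w - z).1 = w.1 := by simp
    have e1 : z.2.1 + (w - z).2.1 = w.2.1 := by simp
    have e2 : z.2.2 + (w - z).2.2 = w.2.2 := by simp
    rw [e0, e1, e2]

/-- label letter on the `z`-side (edges `0` and `2`) -/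
noncomputable def al (T : Fin 3 → Finset ℤ) (g : Fin 3 → ℤ → ℤ → ℂ) (u : ℤ → ℤ → ℂ) (r : ℤ)
    (s : ℤ × ℤ × ℤ) (z : ℤ) : ℂ :=
  kT (T 2) (T 0) (g 2) s.2.2 (z + s.1) * u (r - (s.1 + s.2.1 + s.2.2)) (z + s.1)

/-- label letter on the `z'`-side (edges `0` and `1`) -/
noncomputable def be (T : Fin 3 → Finset ℤ) (g : Fin 3 → ℤ → ℤ → ℂ) (v : ℤ → ℤ → ℂ) (r : ℤ)
    (s : ℤ × ℤ × ℤ) (z' : ℤ) : ℂ :=
  kT (T 1) (T 2) (g 1) (z' + s.2.1) s.2.2 * v (r - (s.1 + s.2.1 + s.2.2)) (z' + s.2.1)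

/-- **LABELS OF THE MAIN KERNEL** (edge `0`; slots `a = j.succAbove 0`, `b = j.succAbove 1`, static
letter in the slot `j.succAbove 2`): point `x_j = r, x_a = z, x_b = z', x_m = 0` -/
theorem main_labels (j : Fin 4) (T : Fin 3 → Finset ℤ) (g : Fin 3 → ℤ → ℤ → ℂ) {n : ℕ}
    (u v : Fin n → ℤ → ℤ → ℂ) (d : Fin n → ℂ) (Z S : Finset (ℤ × ℤ × ℤ)) (hS : Sh j T Z ⊆ S)
    (hS0 : ∀ s ∈ S, cfz j s = 0) (r z z' : ℤ) (hz : (z, z', 0) ∈ Z) :
    Per j T (PhiW (upk g 0 (fun w x x' => ∑ l, d l * (u l w x * v l w x'))))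
      (cf j 0 * z + cf j 1 * z') (r + z + z') =
      ∑ s ∈ S, ∑ l, d l * (al T g (u l) r s z * be T g (v l) r s z') := by
  have e : cf j 0 * z + cf j 1 * z' = cfz j (z, z', 0) := by simp [cfz]
  rw [e, per_translates j T _ Z S hS hS0 hz]
  refine Finset.sum_congr rfl fun s _ => ?_
  have ew : r + z + z' - (z + s.1) - (z' + s.2.1) - s.2.2 =
      r - (s.1 + s.2.1 + s.2.2) := by ring
  simp only [zero_add]
  rw [ew]
  by_cases h : z + s.1 ∈ T 0 ∧ z' + s.2.1 ∈ T 1 ∧ s.2.2 ∈ T 2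
  · rw [if_pos h]
    have hP : PhiW (upk g 0 (fun w x x' => ∑ l, d l * (u l w x * v l w x')))
        (r - (s.1 + s.2.1 + s.2.2)) (z + s.1) (z' + s.2.1) s.2.2 =
        (∑ l, d l * (u l (r - (s.1 + s.2.1 + s.2.2)) (z + s.1) *
          v l (r - (s.1 + s.2.1 + s.2.2)) (z' + s.2.1))) *
          g 1 (z' + s.2.1) s.2.2 * g 2 s.2.2 (z + s.1) := by
      unfold PhiW upk
      rw [if_pos rfl, if_neg (show ¬ ((1 : Fin 3) = 0) by decide),
        if_neg (show ¬ ((2 : Fin 3) = 0) by decide)]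
    rw [hP, Finset.sum_mul, Finset.sum_mul]
    refine Finset.sum_congr rfl fun l _ => ?_
    unfold al be kT
    rw [if_pos ⟨h.2.2, h.1⟩, if_pos ⟨h.2.1, h.2.2⟩]
    ring
  · rw [if_neg h]
    symm
    refine Finset.sum_eq_zero fun l _ => ?_
    simp only [al, be, kT]
    by_cases h1 : s.2.2 ∈ T 2 ∧ z + s.1 ∈ T 0
    · have h2 : ¬ (z' + s.2.1 ∈ T 1 ∧ s.2.2 ∈ T 2) := fun hc => h ⟨h1.2, hc.1, hc.2⟩
      rw [if_neg h2]
      ring
    · rw [if_neg h1]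
      ring

/-- labels are square summable: `∑_τ |al|² ≤ ∑ |g 2|²` when `|u| ≤ 1` -/
theorem sum_al_le {j : Fin 4} (T : Fin 3 → Finset ℤ) (g : Fin 3 → ℤ → ℤ → ℂ) (u : ℤ → ℤ → ℂ)
    (hu : ∀ w z, ‖u w z‖ ≤ 1) (r : ℤ) {S : Finset (ℤ × ℤ × ℤ)} (hS0 : ∀ s ∈ S, cfz j s = 0) (z : ℤ) :
    ∑ s ∈ S, ‖al T g u r s z‖ ^ 2 ≤ ∑ x ∈ T 2, ∑ x' ∈ T 0, ‖g 2 x x'‖ ^ 2 := by
  have h := price20 (j := j) hS0 (T 2) (T 0) (g 2) 2 (by norm_num) 0 z
  refine le_trans (Finset.sum_le_sum fun s _ => ?_) h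
  unfold al
  rw [norm_mul, mul_pow, zero_add]
  exact mul_le_of_le_one_right (by positivity) (pow_le_one₀ (norm_nonneg _) (hu _ _))

theorem sum_be_le {j : Fin 4} (T : Fin 3 → Finset ℤ) (g : Fin 3 → ℤ → ℤ → ℂ) (v : ℤ → ℤ → ℂ)
    (hv : ∀ w z, ‖v w z‖ ≤ 1) (r : ℤ) {S : Finset (ℤ × ℤ × ℤ)} (hS0 : ∀ s ∈ S, cfz j s = 0)
    (z' : ℤ) :
    ∑ s ∈ S, ‖be T g v r s z'‖ ^ 2 ≤ ∑ x ∈ T 1, ∑ x' ∈ T 2, ‖g 1 x x'‖ ^ 2 := by
  have h := price12 (j := j) hS0 (T 1) (T 2) (g 1) 2 (by norm_num) z' 0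
  refine le_trans (Finset.sum_le_sum fun s _ => ?_) h
  unfold be
  rw [norm_mul, mul_pow, zero_add]
  exact mul_le_of_le_one_right (by positivity) (pow_le_one₀ (norm_nonneg _) (hv _ _))

end Crest.Agent.R079.PerT530
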