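import Mathlib

/-! R079 Step I (59's 28031 (2)), abstract: nested convex sets, metric projections, the STRONG FORM
of the increase of the penalised minimum.  helper440. -/

set_option autoImplicit false

namespace Crest.Agent.R079.Proj440

open Finset

section pj

variable {E : Type*} [NormedAddCommGroup E] [InnerProductSpace ℝ E]

local notation "⟪" x ", " y "⟫" => inner ℝ x y

/-- `P` is the metric projection on `K` -/
structure IsPj (K : Set E) (P : E → E) : Prop where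
  mem : ∀ A, P A ∈ K
  obt : ∀ A, ∀ y ∈ K, ⟪A - P A, y - P A⟫ ≤ 0

variable {K K' : Set E} {P P' : E → E}

theorem exists_pj [CompleteSpace E] (hK : Convex ℝ K) (hc : IsClosed K) (hn : K.Nonempty) :
    ∃ P : E → E, IsPj K P := by
  have h : ∀ A : E, ∃ v ∈ K, ∀ w ∈ K, ⟪A - v, w - v⟫ ≤ 0 := by
    intro A
    obtain ⟨v, hv, h1⟩ := exists_norm_eq_iInf_of_complete_convex hn hc.isComplete hK A
    exact ⟨v, hv, (norm_eq_iInf_iff_real_inner_le_zero hK hv).1 h1⟩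
  choose P h1 h2 using h
  exact ⟨P, h1, h2⟩

theorem obt_sq (h : IsPj K P) (A : E) {y : E} (hy : y ∈ K) :
    ‖A - P A‖ ^ 2 + ‖P A - y‖ ^ 2 ≤ ‖A - y‖ ^ 2 := by
  have h1 := h.obt A y hy
  have h2 := norm_sub_sq_real (A - P A) (y - P A)
  have e : A - P A - (y - P A) = A - y := by abel
  rw [e] at h2
  rw [norm_sub_rev (P A) y]
  linarith

/-- the projection is the nearest point -/
theorem dist_le (h : IsPj K P) (A : E) {y : E} (hy : y ∈ K) : ‖A - P A‖ ^ 2 ≤ ‖A - y‖ ^ 2 := by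
  have := obt_sq h A hy
  have := sq_nonneg ‖P A - y‖
  linarith

/-- **projection inequality**: `K' ⊆ K`, `dist_{K'}² - dist_K² ≥ |P' A - P A|²` -/
theorem nested (h : IsPj K P) (h' : IsPj K' P') (hs : K' ⊆ K) (A : E) :
    ‖A - P A‖ ^ 2 + ‖P' A - P A‖ ^ 2 ≤ ‖A - P' A‖ ^ 2 := by
  have := obt_sq h A (hs (h'.mem A))
  rw [norm_sub_rev (P' A) (P A)]
  exact this

/-- firm nonexpansiveness -/
theorem firm (h : IsPj K P) (A B : E) :
    ‖P A - P B‖ ^ 2 + ‖(A - P A) - (B - P B)‖ ^ 2 ≤ ‖A - B‖ ^ 2 := by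
  have h1 := h.obt A _ (h.mem B)
  have h2 := h.obt B _ (h.mem A)
  have e : A - B = ((A - P A) - (B - P B)) + (P A - P B) := by abel
  have h3 := norm_add_sq_real ((A - P A) - (B - P B)) (P A - P B)
  rw [← e] at h3
  have e1 : ⟪(A - P A) - (B - P B), P A - P B⟫
      = -⟪A - P A, P B - P A⟫ - ⟪B - P B, P A - P B⟫ := by
    rw [inner_sub_left, ← inner_neg_right, neg_sub]
  rw [e1] at h3
  linarith

theorem lip (h : IsPj K P) (A B : E) : ‖P A - P B‖ ≤ ‖A - B‖ := by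
  have h1 := firm h A B
  have h2 : ‖P A - P B‖ ^ 2 ≤ ‖A - B‖ ^ 2 := by
    have := sq_nonneg ‖(A - P A) - (B - P B)‖
    linarith
  exact le_of_sq_le_sq h2 (norm_nonneg _)

theorem lip_res (h : IsPj K P) (A B : E) : ‖(A - P A) - (B - P B)‖ ≤ ‖A - B‖ := by
  have h1 := firm h A B
  have h2 : ‖(A - P A) - (B - P B)‖ ^ 2 ≤ ‖A - B‖ ^ 2 := by
    have := sq_nonneg ‖P A - P B‖
    linarith
  exact le_of_sq_le_sq h2 (norm_nonneg _)

/-- strong convexity of `dist²` with gradient `2 (A - P A)` -/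
theorem strong (h : IsPj K P) (A B : E) :
    ‖A - P A‖ ^ 2 + 2 * ⟪A - P A, B - A⟫ + ‖(B - P B) - (A - P A)‖ ^ 2 ≤ ‖B - P B‖ ^ 2 := by
  have h1 := h.obt A _ (h.mem B)
  have h3 := norm_add_sq_real (A - P A) ((B - P B) - (A - P A))
  have e : (A - P A) + ((B - P B) - (A - P A)) = B - P B := by abel
  rw [e] at h3
  have e2 : (B - P B) - (A - P A) = (B - A) - (P B - P A) := by abel
  have e1 : ⟪A - P A, (B - P B) - (A - P A)⟫ = ⟪A - P A, B - A⟫ - ⟪A - P A, P B - P A⟫ := by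
    rw [e2, inner_sub_right]
  rw [e1] at h3
  linarith

end pj

/-! ### the penalised functional -/

section fnl

variable {G : Type*} [NormedAddCommGroup G] [InnerProductSpace ℝ G]
  {ι : Type*} {E : ι → Type*} [∀ i, NormedAddCommGroup (E i)] [∀ i, InnerProductSpace ℝ (E i)]

local notation "⟪" x ", " y "⟫" => inner ℝ x y

/-- `|X - g|² + Σ c_i dist(T_i g, K_i)²` -/
noncomputable def Fv (s : Finset ι) (c : ι → ℝ) (T : ∀ i, G →ₗ[ℝ] E i) (P : ∀ i, E i → E i) (X g : G) : ℝ :=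
  ‖X - g‖ ^ 2 + ∑ i ∈ s, c i * ‖T i g - P i (T i g)‖ ^ 2

variable {s : Finset ι} {c : ι → ℝ} {T : ∀ i, G →ₗ[ℝ] E i} {P P' : ∀ i, E i → E i}
  {K K' : ∀ i, Set (E i)} {W : Set G} {X g₀ : G}

/-- variational inequality at a minimiser over a convex set `W` of walls -/
theorem el_le (hc : ∀ i ∈ s, 0 ≤ c i) (hP : ∀ i ∈ s, IsPj (K i) (P i)) (hW : Convex ℝ W)
    (h0 : g₀ ∈ W) (hmin : ∀ g ∈ W, Fv s c T P X g₀ ≤ Fv s c T P X g) {g : G} (hg : g ∈ W) :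
    ⟪X - g₀, g - g₀⟫ ≤ ∑ i ∈ s, c i * ⟪T i g₀ - P i (T i g₀), T i (g - g₀)⟫ := by
  set h := g - g₀ with hh
  set D := ∑ i ∈ s, c i * ⟪T i g₀ - P i (T i g₀), T i h⟫ with hD
  set Q := ‖h‖ ^ 2 + 2 * ∑ i ∈ s, c i * ‖T i h‖ ^ 2 with hQ
  have hQ0 : 0 ≤ Q := by
    rw [hQ]
    have : 0 ≤ ∑ i ∈ s, c i * ‖T i h‖ ^ 2 :=
      Finset.sum_nonneg fun i hi => mul_nonneg (hc i hi) (sq_nonneg _)
    have := sq_nonneg ‖h‖
    linarith
  -- the inequality on the segment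
  have key : ∀ t : ℝ, 0 < t → t ≤ 1 → 2 * (⟪X - g₀, h⟫ - D) ≤ t * Q := by
    intro t ht ht1
    have hm : g₀ + t • h ∈ W := by
      have := hW h0 hg (by linarith : (0 : ℝ) ≤ 1 - t) ht.le (by ring)
      have e : (1 - t) • g₀ + t • g = g₀ + t • h := by
        rw [hh, sub_smul, one_smul, smul_sub]
        abel
      rwa [e] at this
    have h1 := hmin _ hm
    unfold Fv at h1
    have h2 : ‖X - (g₀ + t • h)‖ ^ 2 = ‖X - g₀‖ ^ 2 - 2 * (t * ⟪X - g₀, h⟫) + t ^ 2 * ‖h‖ ^ 2 := by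
      rw [← sub_sub, norm_sub_sq_real, inner_smul_right, norm_smul, mul_pow, Real.norm_eq_abs,
        sq_abs]
    have h3 : ∀ i ∈ s, c i * ‖T i (g₀ + t • h) - P i (T i (g₀ + t • h))‖ ^ 2
        ≤ c i * ‖T i g₀ - P i (T i g₀)‖ ^ 2
          + 2 * t * (c i * ⟪T i g₀ - P i (T i g₀), T i h⟫) + 2 * t ^ 2 * (c i * ‖T i h‖ ^ 2) := by
      intro i hi
      set A := T i g₀ with hA
      set B := T i (g₀ + t • h) with hB
      have eB : B = A + t • T i h := by rw [hB, hA, map_add, map_smul]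
      have s1 := strong (hP i hi) B A
      have s2 : ⟪B - P i B, A - B⟫ = -(t * ⟪B - P i B, T i h⟫) := by
        have : A - B = -(t • T i h) := by rw [eB]; abel
        rw [this, inner_neg_right, inner_smul_right]
      rw [s2] at s1
      have s3 : ⟪B - P i B, T i h⟫ ≤ ⟪A - P i A, T i h⟫ + t * ‖T i h‖ ^ 2 := by
        have a1 : ⟪B - P i B, T i h⟫ = ⟪A - P i A, T i h⟫ + ⟪(B - P i B) - (A - P i A), T i h⟫ := by
          rw [← inner_add_left]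
          congr 1
          abel
        have a2 := real_inner_le_norm ((B - P i B) - (A - P i A)) (T i h)
        have a3 := lip_res (hP i hi) B A
        have a4 : ‖B - A‖ = t * ‖T i h‖ := by
          rw [eB, add_sub_cancel_left, norm_smul, Real.norm_eq_abs, abs_of_pos ht]
        rw [a4] at a3
        have a5 : ‖(B - P i B) - (A - P i A)‖ * ‖T i h‖ ≤ t * ‖T i h‖ * ‖T i h‖ :=
          mul_le_mul_of_nonneg_right a3 (norm_nonneg _)
        rw [a1]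
        nlinarith [a2, a5]
      have s4 : ‖B - P i B‖ ^ 2 ≤ ‖A - P i A‖ ^ 2 + 2 * (t * (⟪A - P i A, T i h⟫ + t * ‖T i h‖ ^ 2)) := by
        have s5 := sq_nonneg ‖(A - P i A) - (B - P i B)‖
        have s6 := mul_le_mul_of_nonneg_left s3 ht.le
        linarith
      have s7 := mul_le_mul_of_nonneg_left s4 (hc i hi)
      calc c i * ‖B - P i B‖ ^ 2 ≤ _ := s7
        _ = _ := by ring
    have h4 := Finset.sum_le_sum h3
    rw [Finset.sum_add_distrib, Finset.sum_add_distrib, ← Finset.mul_sum, ← Finset.mul_sum] at h4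
    have h5 : 0 ≤ t * (t * Q - 2 * (⟪X - g₀, h⟫ - D)) := by
      rw [h2] at h1
      rw [hQ, hD]
      nlinarith [h1, h4]
    have h6 := nonneg_of_mul_nonneg_right h5 ht
    linarith
  -- let `t → 0`
  by_contra hcon
  push Not at hcon
  set a := ⟪X - g₀, h⟫ - D with ha
  have ha0 : 0 < a := by rw [ha]; linarith
  have hq1 : 0 < Q + a := by linarith
  have h7 := key (a / (Q + a)) (by positivity) (by rw [div_le_one hq1]; linarith)
  have h8 : a / (Q + a) * Q ≤ a := by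
    rw [div_mul_eq_mul_div, div_le_iff₀ hq1]
    nlinarith
  linarith

/-- **strong form, fixed sets**: for every `g ∈ W`,
`F(g) ≥ F(g₀) + |g - g₀|² + Σ c_i |r_i (T_i g) - r_i (T_i g₀)|²` -/
theorem strong_form (hc : ∀ i ∈ s, 0 ≤ c i) (hP : ∀ i ∈ s, IsPj (K i) (P i)) (hW : Convex ℝ W)
    (h0 : g₀ ∈ W) (hmin : ∀ g ∈ W, Fv s c T P X g₀ ≤ Fv s c T P X g) {g : G} (hg : g ∈ W) :
    Fv s c T P X g₀ + ‖g - g₀‖ ^ 2
        + ∑ i ∈ s, c i * ‖(T i g - P i (T i g)) - (T i g₀ - P i (T i g₀))‖ ^ 2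
      ≤ Fv s c T P X g := by
  have h1 := el_le hc hP hW h0 hmin hg
  have h2 : ‖X - g‖ ^ 2 = ‖X - g₀‖ ^ 2 - 2 * ⟪X - g₀, g - g₀⟫ + ‖g - g₀‖ ^ 2 := by
    have e : X - g = (X - g₀) - (g - g₀) := by abel
    rw [e, norm_sub_sq_real]
  have h3 : ∀ i ∈ s, c i * ‖T i g₀ - P i (T i g₀)‖ ^ 2
      + 2 * (c i * ⟪T i g₀ - P i (T i g₀), T i (g - g₀)⟫)
      + c i * ‖(T i g - P i (T i g)) - (T i g₀ - P i (T i g₀))‖ ^ 2
        ≤ c i * ‖T i g - P i (T i g)‖ ^ 2 := by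
    intro i hi
    have := mul_le_mul_of_nonneg_left (strong (hP i hi) (T i g₀) (T i g)) (hc i hi)
    rw [map_sub]
    linarith
  have h4 := Finset.sum_le_sum h3
  rw [Finset.sum_add_distrib, Finset.sum_add_distrib, ← Finset.mul_sum] at h4
  unfold Fv
  linarith

/-- **STRONG FORM (2)**: coarse data `P, K, W` with minimiser `g₀`, fine data `P', K' ⊆ K, W' ⊆ W`
with minimiser `g₁`: the increase of the minimum controls `|g₁ - g₀|²`, the change of the coarse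
residuals and the change of the projections. -/
theorem strong_nested {W' : Set G} {g₁ : G} (hc : ∀ i ∈ s, 0 ≤ c i)
    (hP : ∀ i ∈ s, IsPj (K i) (P i)) (hP' : ∀ i ∈ s, IsPj (K' i) (P' i))
    (hs : ∀ i ∈ s, K' i ⊆ K i) (hW : Convex ℝ W) (hWW : W' ⊆ W)
    (h0 : g₀ ∈ W) (hmin : ∀ g ∈ W, Fv s c T P X g₀ ≤ Fv s c T P X g) (h1 : g₁ ∈ W') :
    Fv s c T P X g₀ + ‖g₁ - g₀‖ ^ 2
        + ∑ i ∈ s, c i * ‖(T i g₁ - P i (T i g₁)) - (T i g₀ - P i (T i g₀))‖ ^ 2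
        + ∑ i ∈ s, c i * ‖P' i (T i g₁) - P i (T i g₁)‖ ^ 2
      ≤ Fv s c T P' X g₁ := by
  have h2 := strong_form hc hP hW h0 hmin (hWW h1)
  have h3 : ∀ i ∈ s, c i * ‖T i g₁ - P i (T i g₁)‖ ^ 2 + c i * ‖P' i (T i g₁) - P i (T i g₁)‖ ^ 2
      ≤ c i * ‖T i g₁ - P' i (T i g₁)‖ ^ 2 := by
    intro i hi
    have := mul_le_mul_of_nonneg_left (nested (hP i hi) (hP' i hi) (hs i hi) (T i g₁)) (hc i hi)
    linarith
  have h4 := Finset.sum_le_sum h3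
  rw [Finset.sum_add_distrib] at h4
  unfold Fv at h2 ⊢
  linarith

/-- residuals move by at most twice the increase: the combined residual variation of one step -/
theorem res_step {W' : Set G} {g₁ : G} (hc : ∀ i ∈ s, 0 ≤ c i)
    (hP : ∀ i ∈ s, IsPj (K i) (P i)) (hP' : ∀ i ∈ s, IsPj (K' i) (P' i))
    (hs : ∀ i ∈ s, K' i ⊆ K i) (hW : Convex ℝ W) (hWW : W' ⊆ W)
    (h0 : g₀ ∈ W) (hmin : ∀ g ∈ W, Fv s c T P X g₀ ≤ Fv s c T P X g) (h1 : g₁ ∈ W') :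
    ∑ i ∈ s, c i * ‖(T i g₁ - P' i (T i g₁)) - (T i g₀ - P i (T i g₀))‖ ^ 2
      ≤ 2 * (Fv s c T P' X g₁ - Fv s c T P X g₀) := by
  have h2 := strong_nested hc hP hP' hs hW hWW h0 hmin h1
  have h3 : ∀ i ∈ s, c i * ‖(T i g₁ - P' i (T i g₁)) - (T i g₀ - P i (T i g₀))‖ ^ 2
      ≤ 2 * (c i * ‖(T i g₁ - P i (T i g₁)) - (T i g₀ - P i (T i g₀))‖ ^ 2
        + c i * ‖P' i (T i g₁) - P i (T i g₁)‖ ^ 2) := by
    intro i hi
    set a := (T i g₁ - P i (T i g₁)) - (T i g₀ - P i (T i g₀))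
    set b := P' i (T i g₁) - P i (T i g₁)
    have e : (T i g₁ - P' i (T i g₁)) - (T i g₀ - P i (T i g₀)) = a - b := by
      simp only [a, b]; abel
    rw [e]
    have h4 := norm_sub_sq_real a b
    have h5 := norm_add_sq_real a b
    have h6 := sq_nonneg ‖a + b‖
    have h7 : ‖a - b‖ ^ 2 ≤ 2 * (‖a‖ ^ 2 + ‖b‖ ^ 2) := by linarith
    have h8 := mul_le_mul_of_nonneg_left h7 (hc i hi)
    linarith
  have h4 := Finset.sum_le_sum h3
  rw [← Finset.mul_sum, Finset.sum_add_distrib] at h4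
  have h5 := sq_nonneg ‖g₁ - g₀‖
  linarith

/-- the projections move by `≤ 2 (increase) + 2 Σ c_i |T_i (g₁ - g₀)|²` -/
theorem proj_step {W' : Set G} {g₁ : G} {B : ℝ} (hc : ∀ i ∈ s, 0 ≤ c i)
    (hP : ∀ i ∈ s, IsPj (K i) (P i)) (hP' : ∀ i ∈ s, IsPj (K' i) (P' i))
    (hs : ∀ i ∈ s, K' i ⊆ K i) (hW : Convex ℝ W) (hWW : W' ⊆ W)
    (h0 : g₀ ∈ W) (hmin : ∀ g ∈ W, Fv s c T P X g₀ ≤ Fv s c T P X g) (h1 : g₁ ∈ W')
    (hB0 : 0 ≤ B) (hB : ∀ g, ∑ i ∈ s, c i * ‖T i g‖ ^ 2 ≤ B * ‖g‖ ^ 2) :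
    ∑ i ∈ s, c i * ‖P' i (T i g₁) - P i (T i g₀)‖ ^ 2
      ≤ 2 * (1 + B) * (Fv s c T P' X g₁ - Fv s c T P X g₀) := by
  have h2 := strong_nested hc hP hP' hs hW hWW h0 hmin h1
  have hr : 0 ≤ ∑ i ∈ s, c i * ‖(T i g₁ - P i (T i g₁)) - (T i g₀ - P i (T i g₀))‖ ^ 2 :=
    Finset.sum_nonneg fun i hi => mul_nonneg (hc i hi) (sq_nonneg _)
  have hq : 0 ≤ ∑ i ∈ s, c i * ‖P' i (T i g₁) - P i (T i g₁)‖ ^ 2 :=
    Finset.sum_nonneg fun i hi => mul_nonneg (hc i hi) (sq_nonneg _)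
  have h3 : ∀ i ∈ s, c i * ‖P' i (T i g₁) - P i (T i g₀)‖ ^ 2
      ≤ 2 * (c i * ‖P' i (T i g₁) - P i (T i g₁)‖ ^ 2 + c i * ‖T i (g₁ - g₀)‖ ^ 2) := by
    intro i hi
    set a := P' i (T i g₁) - P i (T i g₁)
    set b := P i (T i g₁) - P i (T i g₀)
    have e : P' i (T i g₁) - P i (T i g₀) = a + b := by
      simp only [a, b]; abel
    rw [e]
    have h4 := norm_sub_sq_real a b
    have h5 := norm_add_sq_real a b
    have h6 := sq_nonneg ‖a - b‖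
    have h7 : ‖a + b‖ ^ 2 ≤ 2 * (‖a‖ ^ 2 + ‖b‖ ^ 2) := by linarith
    have h8 : ‖b‖ ≤ ‖T i (g₁ - g₀)‖ := by
      rw [map_sub]
      exact lip (hP i hi) _ _
    have h9 : ‖b‖ ^ 2 ≤ ‖T i (g₁ - g₀)‖ ^ 2 := pow_le_pow_left₀ (norm_nonneg _) h8 2
    have h10 : ‖a + b‖ ^ 2 ≤ 2 * (‖a‖ ^ 2 + ‖T i (g₁ - g₀)‖ ^ 2) := by linarith
    have h11 := mul_le_mul_of_nonneg_left h10 (hc i hi)
    linarith
  have h4 := Finset.sum_le_sum h3
  rw [← Finset.mul_sum, Finset.sum_add_distrib] at h4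
  have h5 := hB (g₁ - g₀)
  have h6 : ‖g₁ - g₀‖ ^ 2 ≤ Fv s c T P' X g₁ - Fv s c T P X g₀ := by linarith
  have h7 := mul_le_mul_of_nonneg_left h6 hB0
  nlinarith [h4, h5, h6, h7]

/-- size of the residuals at the minimiser -/
theorem res_le (hmin : ∀ g ∈ W, Fv s c T P X g₀ ≤ Fv s c T P X g)
    (hz : (0 : G) ∈ W) (hP0 : ∀ i ∈ s, P i 0 = 0) : Fv s c T P X g₀ ≤ ‖X‖ ^ 2 := by
  have h1 := hmin 0 hz
  have h2 : Fv s c T P X 0 = ‖X‖ ^ 2 := by
    unfold Fv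
    rw [sub_zero, Finset.sum_eq_zero, add_zero]
    intro i hi
    rw [map_zero, hP0 i hi, sub_zero, norm_zero]
    ring
  rw [h2] at h1
  exact h1

theorem pj_zero {E : Type*} [NormedAddCommGroup E] [InnerProductSpace ℝ E] {K : Set E}
    {P : E → E} (h : IsPj K P) (hz : (0 : E) ∈ K) : P 0 = 0 := by
  have h1 := obt_sq h 0 hz
  simp only [zero_sub, norm_neg, sub_zero, norm_zero] at h1
  have h2 : ‖P 0‖ ^ 2 = 0 := le_antisymm (by nlinarith [sq_nonneg ‖P 0‖]) (sq_nonneg _)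
  exact norm_eq_zero.1 (pow_eq_zero_iff (two_ne_zero) |>.1 h2)

/-- **QUADRATIC VARIATION** of the residuals along a chain of nested data:
`Σ_k Σ_i c_i |R_{k+1,i} - R_{k,i}|² ≤ 2 (F_n - F_0)`. -/
theorem quad_var {Kk : ℕ → ∀ i, Set (E i)} {Pk : ℕ → ∀ i, E i → E i} {Wk : ℕ → Set G}
    {gk : ℕ → G} (n : ℕ) (hc : ∀ i ∈ s, 0 ≤ c i)
    (hP : ∀ k, ∀ i ∈ s, IsPj (Kk k i) (Pk k i))
    (hs : ∀ k, ∀ i ∈ s, Kk (k + 1) i ⊆ Kk k i) (hW : ∀ k, Convex ℝ (Wk k))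
    (hWW : ∀ k, Wk (k + 1) ⊆ Wk k) (h0 : ∀ k, gk k ∈ Wk k)
    (hmin : ∀ k, ∀ g ∈ Wk k, Fv s c T (Pk k) X (gk k) ≤ Fv s c T (Pk k) X g) :
    ∑ k ∈ Finset.range n, ∑ i ∈ s, c i * ‖(T i (gk (k + 1)) - Pk (k + 1) i (T i (gk (k + 1))))
        - (T i (gk k) - Pk k i (T i (gk k)))‖ ^ 2
      ≤ 2 * (Fv s c T (Pk n) X (gk n) - Fv s c T (Pk 0) X (gk 0)) := by
  induction n with
  | zero => simp
  | succ n ih =>
    rw [Finset.sum_range_succ]
    have := res_step (W' := Wk (n + 1)) hc (hP n) (hP (n + 1)) (hs n) (hW n) (hWW n) (h0 n)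
      (hmin n) (h0 (n + 1))
    linarith

/-- variation of the minimisers along a chain -/
theorem quad_var_g {Kk : ℕ → ∀ i, Set (E i)} {Pk : ℕ → ∀ i, E i → E i} {Wk : ℕ → Set G}
    {gk : ℕ → G} (n : ℕ) (hc : ∀ i ∈ s, 0 ≤ c i)
    (hP : ∀ k, ∀ i ∈ s, IsPj (Kk k i) (Pk k i))
    (hs : ∀ k, ∀ i ∈ s, Kk (k + 1) i ⊆ Kk k i) (hW : ∀ k, Convex ℝ (Wk k))
    (hWW : ∀ k, Wk (k + 1) ⊆ Wk k) (h0 : ∀ k, gk k ∈ Wk k)
    (hmin : ∀ k, ∀ g ∈ Wk k, Fv s c T (Pk k) X (gk k) ≤ Fv s c T (Pk k) X g) :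
    ∑ k ∈ Finset.range n, ‖gk (k + 1) - gk k‖ ^ 2
      ≤ Fv s c T (Pk n) X (gk n) - Fv s c T (Pk 0) X (gk 0) := by
  induction n with
  | zero => simp
  | succ n ih =>
    rw [Finset.sum_range_succ]
    have h2 := strong_nested (W' := Wk (n + 1)) hc (hP n) (hP (n + 1)) (hs n) (hW n) (hWW n) (h0 n)
      (hmin n) (h0 (n + 1))
    have hr : 0 ≤ ∑ i ∈ s, c i * ‖(T i (gk (n + 1)) - Pk n i (T i (gk (n + 1))))
        - (T i (gk n) - Pk n i (T i (gk n)))‖ ^ 2 :=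
      Finset.sum_nonneg fun i hi => mul_nonneg (hc i hi) (sq_nonneg _)
    have hq : 0 ≤ ∑ i ∈ s, c i * ‖Pk (n + 1) i (T i (gk (n + 1))) - Pk n i (T i (gk (n + 1)))‖ ^ 2 :=
      Finset.sum_nonneg fun i hi => mul_nonneg (hc i hi) (sq_nonneg _)
    linarith

/-- midpoint convexity of the functional, with the quadratic gain -/
theorem Fv_mid (hc : ∀ i ∈ s, 0 ≤ c i) (hK : ∀ i ∈ s, Convex ℝ (K i))
    (hP : ∀ i ∈ s, IsPj (K i) (P i)) (g g' : G) :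
    Fv s c T P X ((2⁻¹ : ℝ) • (g + g')) + (1 / 4) * ‖g - g'‖ ^ 2
      ≤ (Fv s c T P X g + Fv s c T P X g') / 2 := by
  have h1 : ‖X - (2⁻¹ : ℝ) • (g + g')‖ ^ 2 + (1 / 4) * ‖g - g'‖ ^ 2
      = (‖X - g‖ ^ 2 + ‖X - g'‖ ^ 2) / 2 := by
    have e1 : (X - g) + (X - g') = (2 : ℝ) • (X - (2⁻¹ : ℝ) • (g + g')) := by
      rw [smul_sub, smul_smul, mul_inv_cancel₀ (two_ne_zero), one_smul, two_smul]
      abel
    have e2 : (X - g) - (X - g') = -(g - g') := by abel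
    have h2 := parallelogram_law_with_norm ℝ (X - g) (X - g')
    rw [e1, e2, norm_neg, norm_smul, Real.norm_eq_abs, abs_of_pos (by norm_num : (0 : ℝ) < 2)] at h2
    nlinarith [h2]
  have h3 : ∀ i ∈ s, c i * ‖T i ((2⁻¹ : ℝ) • (g + g')) - P i (T i ((2⁻¹ : ℝ) • (g + g')))‖ ^ 2
      ≤ (c i * ‖T i g - P i (T i g)‖ ^ 2 + c i * ‖T i g' - P i (T i g')‖ ^ 2) / 2 := by
    intro i hi
    have hm : (2⁻¹ : ℝ) • (P i (T i g)) + (2⁻¹ : ℝ) • (P i (T i g')) ∈ K i :=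
      hK i hi ((hP i hi).mem _) ((hP i hi).mem _) (by norm_num) (by norm_num) (by norm_num)
    have h4 := dist_le (hP i hi) (T i ((2⁻¹ : ℝ) • (g + g'))) hm
    have e : T i ((2⁻¹ : ℝ) • (g + g')) - ((2⁻¹ : ℝ) • (P i (T i g)) + (2⁻¹ : ℝ) • (P i (T i g')))
        = (2⁻¹ : ℝ) • ((T i g - P i (T i g)) + (T i g' - P i (T i g'))) := by
      rw [map_smul, map_add, ← smul_add, ← smul_sub]
      congr 1
      abel
    rw [e, norm_smul, mul_pow] at h4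
    set a := T i g - P i (T i g)
    set b := T i g' - P i (T i g')
    have h5 := norm_sub_sq_real a b
    have h6 := norm_add_sq_real a b
    have h7 := sq_nonneg ‖a - b‖
    have h8 : ‖(2⁻¹ : ℝ)‖ ^ 2 = 1 / 4 := by norm_num
    rw [h8] at h4
    have h9 : ‖T i ((2⁻¹ : ℝ) • (g + g')) - P i (T i ((2⁻¹ : ℝ) • (g + g')))‖ ^ 2
        ≤ (‖a‖ ^ 2 + ‖b‖ ^ 2) / 2 := by linarith
    have h10 := mul_le_mul_of_nonneg_left h9 (hc i hi)
    linarith
  have h4 := Finset.sum_le_sum h3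
  rw [← Finset.sum_div, Finset.sum_add_distrib] at h4
  unfold Fv
  linarith

/-- existence of the minimiser over a closed convex set of walls -/
theorem exists_min [CompleteSpace G] (hc : ∀ i ∈ s, 0 ≤ c i) (hK : ∀ i ∈ s, Convex ℝ (K i))
    (hP : ∀ i ∈ s, IsPj (K i) (P i)) (hT : ∀ i ∈ s, Continuous (T i)) (hW : Convex ℝ W)
    (hWc : IsClosed W) (hWn : W.Nonempty) (X : G) :
    ∃ g₀ ∈ W, ∀ g ∈ W, Fv s c T P X g₀ ≤ Fv s c T P X g := by
  have hF0 : ∀ g, 0 ≤ Fv s c T P X g := fun g =>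
    add_nonneg (sq_nonneg _) (Finset.sum_nonneg fun i hi => mul_nonneg (hc i hi) (sq_nonneg _))
  have hFc : Continuous (fun g => Fv s c T P X g) := by
    unfold Fv
    refine ((continuous_const.sub continuous_id).norm.pow 2).add (continuous_finsetSum _ fun i hi => ?_)
    have hPc : Continuous (P i) := by
      refine LipschitzWith.continuous (K := 1) (LipschitzWith.of_dist_le_mul fun a b => ?_)
      rw [dist_eq_norm, dist_eq_norm, NNReal.coe_one, one_mul]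
      exact lip (hP i hi) a b
    exact continuous_const.mul (((hT i hi).sub (hPc.comp (hT i hi))).norm.pow 2)
  set S := (fun g => Fv s c T P X g) '' W with hS
  have hSn : S.Nonempty := hWn.image _
  have hSb : BddBelow S := ⟨0, by rintro _ ⟨g, -, rfl⟩; exact hF0 g⟩
  set m := sInf S with hm
  have hml : ∀ g ∈ W, m ≤ Fv s c T P X g := fun g hg => csInf_le hSb ⟨g, hg, rfl⟩
  have hex : ∀ n : ℕ, ∃ g ∈ W, Fv s c T P X g < m + 1 / ((n : ℝ) + 1) := by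
    intro n
    have hlt : m < m + 1 / ((n : ℝ) + 1) := by
      have : (0 : ℝ) < 1 / ((n : ℝ) + 1) := by positivity
      linarith
    obtain ⟨_, ⟨g, hg, rfl⟩, h⟩ := exists_lt_of_csInf_lt hSn hlt
    exact ⟨g, hg, h⟩
  choose u hu hul using hex
  have hcau : CauchySeq u := by
    rw [Metric.cauchySeq_iff']
    intro ε hε
    obtain ⟨N, hN⟩ := exists_nat_gt (4 / ε ^ 2)
    refine ⟨N, fun n hn => ?_⟩
    rw [dist_eq_norm]
    have h1 := Fv_mid (X := X) (T := T) hc hK hP (u n) (u N)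
    have hmid : (2⁻¹ : ℝ) • (u n + u N) ∈ W := by
      have := hW (hu n) (hu N) (by norm_num : (0 : ℝ) ≤ 2⁻¹) (by norm_num : (0 : ℝ) ≤ 2⁻¹)
        (by norm_num)
      rwa [← smul_add] at this
    have h2 := hml _ hmid
    have h3 := hul n
    have h4 := hul N
    have hNpos : (0 : ℝ) < N := lt_trans (by positivity) hN
    have h5 : 1 / ((n : ℝ) + 1) ≤ 1 / ((N : ℝ) + 1) := by
      apply one_div_le_one_div_of_le (by positivity)
      have : (N : ℝ) ≤ n := by exact_mod_cast hn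
      linarith
    have h6 : 1 / ((N : ℝ) + 1) < ε ^ 2 / 4 := by
      rw [div_lt_div_iff₀ (by positivity) (by norm_num)]
      rw [div_lt_iff₀ (by positivity)] at hN
      nlinarith
    have h7 : ‖u n - u N‖ ^ 2 < ε ^ 2 := by linarith
    exact lt_of_pow_lt_pow_left₀ 2 hε.le h7
  obtain ⟨g₀, hg⟩ := cauchySeq_tendsto_of_complete hcau
  refine ⟨g₀, hWc.mem_of_tendsto hg (Filter.Eventually.of_forall hu), ?_⟩
  have hlim : Filter.Tendsto (fun n => Fv s c T P X (u n)) Filter.atTop (nhds (Fv s c T P X g₀)) :=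
    (hFc.tendsto g₀).comp hg
  have hlim2 : Filter.Tendsto (fun n : ℕ => m + 1 / ((n : ℝ) + 1)) Filter.atTop (nhds m) := by
    have := (tendsto_one_div_add_atTop_nhds_zero_nat (𝕜 := ℝ)).const_add m
    simpa using this
  have hle : Fv s c T P X g₀ ≤ m :=
    le_of_tendsto_of_tendsto' hlim hlim2 fun n => (hul n).le
  exact fun g hg' => hle.trans (hml g hg')

end fnl

end Crest.Agent.R079.Proj440
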