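import Crest.Agent.R079.Prox_250

/-! R079 (doc 2531, (II.1)): gluing of the block minimisers, `R₁ × R₂` blocks, and the drift
inequality of the functional `min_G |C - G|^2 + L Tr |G|^4`. -/

set_option autoImplicit false
set_option linter.unusedSectionVars false
set_option linter.unusedVariables false

namespace Crest.Agent.R079.Prox

open Finset Matrix

variable {𝕜 : Type*} [RCLike 𝕜] {m n : Type*} [Fintype m] [Fintype n]

theorem hs2_sum_le {ι : Type*} (s : Finset ι) (A : ι → Matrix m n 𝕜) :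
    hs2 (∑ a ∈ s, A a) ≤ (s.card : ℝ) * ∑ a ∈ s, hs2 (A a) := by
  unfold hs2
  have h : ∀ i j, ‖(∑ a ∈ s, A a) i j‖ ^ 2 ≤ (s.card : ℝ) * ∑ a ∈ s, ‖A a i j‖ ^ 2 := by
    intro i j
    rw [Matrix.sum_apply]
    calc ‖∑ a ∈ s, A a i j‖ ^ 2 ≤ (∑ a ∈ s, ‖A a i j‖) ^ 2 :=
          pow_le_pow_left₀ (norm_nonneg _) (norm_sum_le _ _) 2
      _ ≤ (s.card : ℝ) * ∑ a ∈ s, ‖A a i j‖ ^ 2 := sq_sum_le_card_mul_sum_sq
  calc ∑ i, ∑ j, ‖(∑ a ∈ s, A a) i j‖ ^ 2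
      ≤ ∑ i, ∑ j, (s.card : ℝ) * ∑ a ∈ s, ‖A a i j‖ ^ 2 :=
        sum_le_sum fun i _ => sum_le_sum fun j _ => h i j
    _ = (s.card : ℝ) * ∑ a ∈ s, ∑ i, ∑ j, ‖A a i j‖ ^ 2 := by
        have s1 : ∀ i : m, ∑ j : n, ∑ a ∈ s, ‖A a i j‖ ^ 2 = ∑ a ∈ s, ∑ j : n, ‖A a i j‖ ^ 2 :=
          fun i => sum_comm
        have s2 : ∑ i : m, ∑ a ∈ s, ∑ j : n, ‖A a i j‖ ^ 2 =
            ∑ a ∈ s, ∑ i : m, ∑ j : n, ‖A a i j‖ ^ 2 := sum_comm
        simp only [← mul_sum]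
        rw [← s2]
        congr 1
        exact sum_congr rfl fun i _ => s1 i

/-- orthogonal rows / columns: `Tr |∑ A_b|^4 ≤ card * ∑ Tr |A_b|^4` -/
theorem q4_sum_le_of_mul_conj {ι : Type*} [DecidableEq ι] (s : Finset ι) (A : ι → Matrix m n 𝕜)
    (h : ∀ a ∈ s, ∀ b ∈ s, a ≠ b → A a * (A b)ᴴ = 0) :
    q4 (∑ a ∈ s, A a) ≤ (s.card : ℝ) * ∑ a ∈ s, q4 (A a) := by
  have e : (∑ a ∈ s, A a) * (∑ a ∈ s, A a)ᴴ = ∑ a ∈ s, A a * (A a)ᴴ := by
    rw [Matrix.conjTranspose_sum, Matrix.sum_mul]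
    refine sum_congr rfl fun a ha => ?_
    rw [Matrix.mul_sum]
    exact sum_eq_single a (fun b hb hba => h a ha b hb (Ne.symm hba)) (fun h' => absurd ha h')
  rw [q4_eq', e]
  refine (hs2_sum_le s _).trans (le_of_eq ?_)
  congr 1
  exact sum_congr rfl fun a _ => (q4_eq' (A a)).symm

theorem q4_sum_le_of_conj_mul {ι : Type*} [DecidableEq ι] (s : Finset ι) (A : ι → Matrix m n 𝕜)
    (h : ∀ a ∈ s, ∀ b ∈ s, a ≠ b → (A a)ᴴ * (A b) = 0) :
    q4 (∑ a ∈ s, A a) ≤ (s.card : ℝ) * ∑ a ∈ s, q4 (A a) := by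
  have e : (∑ a ∈ s, A a)ᴴ * (∑ a ∈ s, A a) = ∑ a ∈ s, (A a)ᴴ * A a := by
    rw [Matrix.conjTranspose_sum, Matrix.sum_mul]
    refine sum_congr rfl fun a ha => ?_
    rw [Matrix.mul_sum]
    exact sum_eq_single a (fun b hb hba => h a ha b hb (Ne.symm hba)) (fun h' => absurd ha h')
  unfold q4
  rw [e]
  exact hs2_sum_le s _

variable {κ₁ κ₂ : Type*} [Fintype κ₁] [Fintype κ₂] [DecidableEq κ₁] [DecidableEq κ₂]

/-- the part of `G` on the colour block `(a, b)` -/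
def cb (P : m → κ₁) (Q : n → κ₂) (a : κ₁) (b : κ₂) (G : Matrix m n 𝕜) : Matrix m n 𝕜 :=
  fun i j => if P i = a ∧ Q j = b then G i j else 0

omit [Fintype m] [Fintype n] in
theorem sum_cb (P : m → κ₁) (Q : n → κ₂) (G : Matrix m n 𝕜) :
    ∑ a, ∑ b, cb P Q a b G = G := by
  ext i j
  simp only [Matrix.sum_apply, cb]
  rw [sum_eq_single (P i), sum_eq_single (Q j)]
  · simp
  · intro b _ hb
    rw [if_neg (fun h => hb h.2.symm)]
  · intro h; exact absurd (mem_univ _) h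
  · intro a _ ha
    exact sum_eq_zero fun b _ => if_neg (fun h => ha h.1.symm)
  · intro h; exact absurd (mem_univ _) h

/-- a matrix supported in the block `(a,b)` -/
def Sup (P : m → κ₁) (Q : n → κ₂) (a : κ₁) (b : κ₂) (G : Matrix m n 𝕜) : Prop :=
  ∀ i j, ¬ (P i = a ∧ Q j = b) → G i j = 0

omit [Fintype m] [Fintype n] [Fintype κ₁] [Fintype κ₂] in
theorem Sup.cb (P : m → κ₁) (Q : n → κ₂) (a : κ₁) (b : κ₂) (G : Matrix m n 𝕜) :
    Sup P Q a b (cb P Q a b G) := fun i j h => if_neg h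

/-- **R₁ x R₂ gluing** for a family of matrices supported in the colour blocks -/
theorem q4_glue_sup (P : m → κ₁) (Q : n → κ₂) (G : κ₁ → κ₂ → Matrix m n 𝕜)
    (hG : ∀ a b, Sup P Q a b (G a b)) :
    q4 (∑ a, ∑ b, G a b) ≤
      ((Fintype.card κ₁ : ℝ) * (Fintype.card κ₂ : ℝ)) * ∑ a, ∑ b, q4 (G a b) := by
  have h1 : ∀ a ∈ (univ : Finset κ₁), ∀ a' ∈ (univ : Finset κ₁), a ≠ a' →
      (∑ b, G a b)ᴴ * (∑ b, G a' b) = 0 := by
    intro a _ a' _ haa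
    ext i j
    rw [Matrix.mul_apply]
    apply sum_eq_zero
    intro k _
    rw [Matrix.conjTranspose_apply, Matrix.sum_apply, Matrix.sum_apply]
    by_cases hk : P k = a
    · have : ∑ b, G a' b k j = 0 := sum_eq_zero fun b _ => hG a' b k j
        (fun h => haa (hk.symm.trans h.1))
      rw [this, mul_zero]
    · have : ∑ b, G a b k i = 0 := sum_eq_zero fun b _ => hG a b k i (fun h => hk h.1)
      rw [this, star_zero, zero_mul]
  have h2 : ∀ a : κ₁, ∀ b ∈ (univ : Finset κ₂), ∀ b' ∈ (univ : Finset κ₂), b ≠ b' →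
      G a b * (G a b')ᴴ = 0 := by
    intro a b _ b' _ hbb
    ext i j
    rw [Matrix.mul_apply]
    apply sum_eq_zero
    intro k _
    rw [Matrix.conjTranspose_apply]
    by_cases hk : Q k = b
    · rw [hG a b' j k (fun h => hbb (hk.symm.trans h.2)), star_zero, mul_zero]
    · rw [hG a b i k (fun h => hk h.2), zero_mul]
  have k1 := q4_sum_le_of_conj_mul univ (fun a => ∑ b, G a b) h1
  have k2 : ∀ a, q4 (∑ b, G a b) ≤ (Fintype.card κ₂ : ℝ) * ∑ b, q4 (G a b) := by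
    intro a
    have := q4_sum_le_of_mul_conj univ (fun b => G a b) (h2 a)
    simpa using this
  rw [card_univ] at k1
  refine k1.trans ?_
  rw [mul_assoc]
  refine mul_le_mul_of_nonneg_left ?_ (Nat.cast_nonneg _)
  rw [mul_sum]
  exact sum_le_sum fun a _ => k2 a

theorem q4_glueR (P : m → κ₁) (Q : n → κ₂) (G : Matrix m n 𝕜) :
    q4 G ≤ ((Fintype.card κ₁ : ℝ) * (Fintype.card κ₂ : ℝ)) * ∑ a, ∑ b, q4 (cb P Q a b G) := by
  have := q4_glue_sup P Q (fun a b => cb P Q a b G) (fun a b => Sup.cb P Q a b G)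
  rwa [sum_cb] at this

/-- disjoint supports: the Hilbert-Schmidt norm is additive -/
theorem hs2_sum_sup (P : m → κ₁) (Q : n → κ₂) (G : κ₁ → κ₂ → Matrix m n 𝕜)
    (hG : ∀ a b, Sup P Q a b (G a b)) : hs2 (∑ a, ∑ b, G a b) = ∑ a, ∑ b, hs2 (G a b) := by
  have e : ∀ i j, (∑ a, ∑ b, G a b) i j = G (P i) (Q j) i j := by
    intro i j
    simp only [Matrix.sum_apply]
    rw [sum_eq_single (P i), sum_eq_single (Q j)]
    · intro b _ hb
      exact hG _ _ _ _ (fun h => hb h.2.symm)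
    · intro h; exact absurd (mem_univ _) h
    · intro a _ ha
      exact sum_eq_zero fun b _ => hG _ _ _ _ (fun h => ha h.1.symm)
    · intro h; exact absurd (mem_univ _) h
  have e2 : ∀ i j, ∑ a, ∑ b, ‖G a b i j‖ ^ 2 = ‖G (P i) (Q j) i j‖ ^ 2 := by
    intro i j
    rw [sum_eq_single (P i), sum_eq_single (Q j)]
    · intro b _ hb
      rw [hG _ _ _ _ (fun h => hb h.2.symm)]; simp
    · intro h; exact absurd (mem_univ _) h
    · intro a _ ha
      refine sum_eq_zero fun b _ => ?_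
      rw [hG _ _ _ _ (fun h => ha h.1.symm)]; simp
    · intro h; exact absurd (mem_univ _) h
  unfold hs2
  calc ∑ i, ∑ j, ‖(∑ a, ∑ b, G a b) i j‖ ^ 2 = ∑ i, ∑ j, ∑ a, ∑ b, ‖G a b i j‖ ^ 2 := by
        refine sum_congr rfl fun i _ => sum_congr rfl fun j _ => ?_
        rw [e, e2]
    _ = ∑ a, ∑ b, ∑ i, ∑ j, ‖G a b i j‖ ^ 2 := by
        have s1 : ∀ i : m, ∑ j : n, ∑ a : κ₁, ∑ b : κ₂, ‖G a b i j‖ ^ 2 =
            ∑ a : κ₁, ∑ b : κ₂, ∑ j : n, ‖G a b i j‖ ^ 2 := by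
          intro i
          rw [sum_comm]
          refine sum_congr rfl fun a _ => ?_
          rw [sum_comm]
        rw [sum_congr rfl fun i _ => s1 i, sum_comm]
        refine sum_congr rfl fun a _ => ?_
        rw [sum_comm]

/-- the minimiser of a matrix supported in a block is supported in that block -/
theorem IsProx.sup {P : m → κ₁} {Q : n → κ₂} {a : κ₁} {b : κ₂} {C : Matrix m n 𝕜} {L : ℝ}
    {G : Matrix m n 𝕜} (h : IsProx C L G) (hL : 0 ≤ L) (hC : Sup P Q a b C) : Sup P Q a b G := by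
  intro i j hij
  by_cases hi : P i = a
  · have hj : ¬ Q j = b := fun hj => hij ⟨hi, hj⟩
    have h1 := h.col hL j
    have h2 : ∑ i, ‖C i j‖ ^ 2 = 0 := by
      refine sum_eq_zero fun i _ => ?_
      rw [hC i j (fun hh => hj hh.2)]; simp
    rw [h2] at h1
    have h3 : 0 ≤ 4 * L * ∑ k, ‖(Gᴴ * G) k j‖ ^ 2 := by positivity
    have h4 : ‖G i j‖ ^ 2 ≤ ∑ i, ‖G i j‖ ^ 2 :=
      single_le_sum (f := fun i => ‖G i j‖ ^ 2) (fun _ _ => sq_nonneg _) (mem_univ i)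
    have h5 : ‖G i j‖ ^ 2 ≤ 0 := by linarith
    have h6 : ‖G i j‖ = 0 := by
      have := sq_nonneg ‖G i j‖
      exact pow_eq_zero_iff (two_ne_zero) |>.mp (le_antisymm h5 this)
    exact norm_eq_zero.mp h6
  · have h1 := h.row hL i
    have h2 : ∑ j, ‖C i j‖ ^ 2 = 0 := by
      refine sum_eq_zero fun j _ => ?_
      rw [hC i j (fun hh => hi hh.1)]; simp
    rw [h2] at h1
    have h3 : 0 ≤ 4 * L * ∑ k, ‖(G * Gᴴ) i k‖ ^ 2 := by positivity
    have h4 : ‖G i j‖ ^ 2 ≤ ∑ j, ‖G i j‖ ^ 2 :=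
      single_le_sum (f := fun j => ‖G i j‖ ^ 2) (fun _ _ => sq_nonneg _) (mem_univ j)
    have h5 : ‖G i j‖ ^ 2 ≤ 0 := by linarith
    have h6 : ‖G i j‖ = 0 := by
      have := sq_nonneg ‖G i j‖
      exact pow_eq_zero_iff (two_ne_zero) |>.mp (le_antisymm h5 this)
    exact norm_eq_zero.mp h6

omit [Fintype m] [Fintype n] [Fintype κ₁] [Fintype κ₂] in
theorem Sup.sub {P : m → κ₁} {Q : n → κ₂} {a : κ₁} {b : κ₂} {C G : Matrix m n 𝕜}
    (hC : Sup P Q a b C) (hG : Sup P Q a b G) : Sup P Q a b (C - G) := by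
  intro i j h
  rw [Matrix.sub_apply, hC i j h, hG i j h, sub_zero]

/-- **COMPETITION**: ANY family of block matrices glued competes at the parent. `L' = R₁ R₂ L` is the
penalty of the blocks (box normalisation: `L / N²` at side `N`). -/
theorem val_glue (P : m → κ₁) (Q : n → κ₂) (C : Matrix m n 𝕜) {L : ℝ} (hL : 0 ≤ L)
    (G : κ₁ → κ₂ → Matrix m n 𝕜) (hG : ∀ a b, Sup P Q a b (G a b)) :
    val C L (∑ a, ∑ b, G a b) ≤
      ∑ a, ∑ b, val (cb P Q a b C) ((Fintype.card κ₁ : ℝ) * (Fintype.card κ₂ : ℝ) * L) (G a b) := by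
  have h1 : hs2 (C - ∑ a, ∑ b, G a b) = ∑ a, ∑ b, hs2 (cb P Q a b C - G a b) := by
    rw [← hs2_sum_sup P Q _ (fun a b => (Sup.cb P Q a b C).sub (hG a b))]
    congr 1
    simp only [sum_sub_distrib]
    rw [sum_cb]
  have h2 := mul_le_mul_of_nonneg_left (q4_glue_sup P Q G hG) hL
  unfold val
  rw [h1]
  simp only [sum_add_distrib]
  refine add_le_add le_rfl (h2.trans (le_of_eq ?_))
  simp only [mul_sum]
  refine sum_congr rfl fun a _ => sum_congr rfl fun b _ => ?_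
  ring

/-- **DRIFT**: `J_parent + |glued - G_parent|² ≤ ∑ J_blocks` -/
theorem glue_drift (P : m → κ₁) (Q : n → κ₂) (C : Matrix m n 𝕜) {L : ℝ} (hL : 0 ≤ L)
    {G₀ : Matrix m n 𝕜} (h₀ : IsProx C L G₀) (G : κ₁ → κ₂ → Matrix m n 𝕜)
    (hG : ∀ a b, IsProx (cb P Q a b C) ((Fintype.card κ₁ : ℝ) * (Fintype.card κ₂ : ℝ) * L) (G a b)) :
    val C L G₀ + hs2 (∑ a, ∑ b, G a b - G₀) ≤
      ∑ a, ∑ b, val (cb P Q a b C) ((Fintype.card κ₁ : ℝ) * (Fintype.card κ₂ : ℝ) * L) (G a b) := by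
  have hL' : 0 ≤ (Fintype.card κ₁ : ℝ) * (Fintype.card κ₂ : ℝ) * L := by positivity
  refine (h₀.strong hL _).trans ?_
  exact val_glue P Q C hL G (fun a b => (hG a b).sup hL' (Sup.cb P Q a b C))

end Crest.Agent.R079.Prox
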