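import Mathlib

/-! R079 (doc 2531, (II.1) and Step I): the matrix prox of the quartic penalty,
`val C L G = |C - G|_HS^2 + L * Tr |G|^4`, over any `RCLike` field.
Existence, Euler-Lagrange `C - G = 2 L G Gᴴ G`, strong convexity, rows / columns of the minimiser and
of the two factors of `Psi = 2 L G Gᴴ G`, block (gluing) inequalities for `Tr |G|^4`. -/

set_option autoImplicit false

namespace Crest.Agent.R079.Prox

open Finset Matrix

variable {𝕜 : Type*} [RCLike 𝕜] {m n : Type*} [Fintype m] [Fintype n]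

/-- Hilbert-Schmidt norm squared -/
noncomputable def hs2 {m n : Type*} [Fintype m] [Fintype n] (A : Matrix m n 𝕜) : ℝ :=
  ∑ i, ∑ j, ‖A i j‖ ^ 2

/-- real inner product of matrices -/
noncomputable def ip {m n : Type*} [Fintype m] [Fintype n] (A B : Matrix m n 𝕜) : ℝ :=
  RCLike.re (Aᴴ * B).trace

/-- `Tr |A|^4` -/
noncomputable def q4 (A : Matrix m n 𝕜) : ℝ := hs2 (Aᴴ * A)

theorem hs2_nonneg (A : Matrix m n 𝕜) : 0 ≤ hs2 A :=
  sum_nonneg fun _ _ => sum_nonneg fun _ _ => sq_nonneg _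

theorem q4_nonneg (A : Matrix m n 𝕜) : 0 ≤ q4 A := hs2_nonneg _

theorem ip_eq (A B : Matrix m n 𝕜) :
    ip A B = ∑ i, ∑ j, RCLike.re ((starRingEnd 𝕜) (A i j) * B i j) := by
  unfold ip
  rw [Matrix.trace, map_sum]
  simp only [Matrix.diag_apply, Matrix.mul_apply, Matrix.conjTranspose_apply, map_sum,
    RCLike.star_def]
  rw [sum_comm]

theorem hs2_eq (A : Matrix m n 𝕜) : hs2 A = ip A A := by
  rw [ip_eq]
  refine sum_congr rfl fun i _ => sum_congr rfl fun j _ => ?_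
  rw [RCLike.conj_mul, ← RCLike.ofReal_pow, RCLike.ofReal_re]

theorem ip_comm (A B : Matrix m n 𝕜) : ip A B = ip B A := by
  rw [ip_eq, ip_eq]
  refine sum_congr rfl fun i _ => sum_congr rfl fun j _ => ?_
  rw [← RCLike.conj_re]
  simp [mul_comm]

theorem ip_add_right (A B C : Matrix m n 𝕜) : ip A (B + C) = ip A B + ip A C := by
  simp [ip, Matrix.mul_add]

theorem ip_add_left (A B C : Matrix m n 𝕜) : ip (A + B) C = ip A C + ip B C := by
  simp [ip, Matrix.add_mul]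

theorem ip_sub_left (A B C : Matrix m n 𝕜) : ip (A - B) C = ip A C - ip B C := by
  simp [ip, Matrix.sub_mul]

theorem ip_sub_right (A B C : Matrix m n 𝕜) : ip A (B - C) = ip A B - ip A C := by
  simp [ip, Matrix.mul_sub]

theorem ip_smul_right (r : ℝ) (A B : Matrix m n 𝕜) : ip A (r • B) = r * ip A B := by
  rw [ip_eq, ip_eq, mul_sum]
  refine sum_congr rfl fun i _ => ?_
  rw [mul_sum]
  refine sum_congr rfl fun j _ => ?_
  rw [Matrix.smul_apply, mul_smul_comm, RCLike.smul_re]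

theorem ip_smul_left (r : ℝ) (A B : Matrix m n 𝕜) : ip (r • A) B = r * ip A B := by
  rw [ip_comm, ip_smul_right, ip_comm]

theorem hs2_add (A B : Matrix m n 𝕜) : hs2 (A + B) = hs2 A + 2 * ip A B + hs2 B := by
  rw [hs2_eq, hs2_eq, hs2_eq, ip_add_left, ip_add_right, ip_add_right, ip_comm B A]; ring

theorem hs2_sub (A B : Matrix m n 𝕜) : hs2 (A - B) = hs2 A - 2 * ip A B + hs2 B := by
  rw [hs2_eq, hs2_eq, hs2_eq, ip_sub_left, ip_sub_right, ip_sub_right, ip_comm B A]; ring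

theorem hs2_smul (r : ℝ) (A : Matrix m n 𝕜) : hs2 (r • A) = r ^ 2 * hs2 A := by
  rw [hs2_eq, hs2_eq, ip_smul_left, ip_smul_right]; ring

theorem hs2_neg (A : Matrix m n 𝕜) : hs2 (-A) = hs2 A := by simp [hs2]

theorem hs2_zero : hs2 (0 : Matrix m n 𝕜) = 0 := by simp [hs2]

theorem hs2_add_le (A B : Matrix m n 𝕜) : hs2 (A + B) ≤ 2 * (hs2 A + hs2 B) := by
  have h := hs2_nonneg (A - B)
  rw [hs2_sub] at h
  rw [hs2_add]; linarith

theorem eq_zero_of_hs2 {A : Matrix m n 𝕜} (h : hs2 A ≤ 0) : A = 0 := by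
  have h0 : hs2 A = 0 := le_antisymm h (hs2_nonneg A)
  unfold hs2 at h0
  rw [sum_eq_zero_iff_of_nonneg (fun _ _ => sum_nonneg fun _ _ => sq_nonneg _)] at h0
  ext i j
  have h1 := h0 i (mem_univ i)
  rw [sum_eq_zero_iff_of_nonneg (fun _ _ => sq_nonneg _)] at h1
  have h2 := h1 j (mem_univ j)
  simpa using h2

theorem hs2_conjTranspose (A : Matrix m n 𝕜) : hs2 Aᴴ = hs2 A := by
  unfold hs2
  rw [sum_comm]
  simp [Matrix.conjTranspose_apply]

theorem q4_zero : q4 (0 : Matrix m n 𝕜) = 0 := by simp [q4, hs2]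

theorem q4_eq' (A : Matrix m n 𝕜) : q4 A = hs2 (A * Aᴴ) := by
  unfold q4
  rw [hs2_eq, hs2_eq, ip, ip]
  congr 1
  simp only [Matrix.conjTranspose_mul, Matrix.conjTranspose_conjTranspose]
  calc (Aᴴ * A * (Aᴴ * A)).trace = (Aᴴ * (A * Aᴴ * A)).trace := by simp only [Matrix.mul_assoc]
    _ = ((A * Aᴴ * A) * Aᴴ).trace := Matrix.trace_mul_comm _ _
    _ = (A * Aᴴ * (A * Aᴴ)).trace := by simp only [Matrix.mul_assoc]

theorem q4_conjTranspose (A : Matrix m n 𝕜) : q4 Aᴴ = q4 A := by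
  rw [q4_eq' A]; simp [q4]

/-- the functional -/
noncomputable def val (C : Matrix m n 𝕜) (L : ℝ) (G : Matrix m n 𝕜) : ℝ :=
  hs2 (C - G) + L * q4 G

/-- `G` minimises `val C L` -/
def IsProx (C : Matrix m n 𝕜) (L : ℝ) (G : Matrix m n 𝕜) : Prop := ∀ G', val C L G ≤ val C L G'

theorem ip_gram (G H : Matrix m n 𝕜) :
    ip (Gᴴ * G) (Gᴴ * H + Hᴴ * G) = 2 * ip (G * Gᴴ * G) H := by
  rw [ip_add_right]
  have h1 : ip (Gᴴ * G) (Gᴴ * H) = ip (G * Gᴴ * G) H := by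
    unfold ip
    congr 2
    simp only [Matrix.conjTranspose_mul, Matrix.conjTranspose_conjTranspose, Matrix.mul_assoc]
  have h2 : ip (Gᴴ * G) (Hᴴ * G) = ip (G * Gᴴ * G) H := by
    rw [ip_comm (G * Gᴴ * G) H]
    unfold ip
    congr 1
    simp only [Matrix.conjTranspose_mul, Matrix.conjTranspose_conjTranspose]
    rw [Matrix.trace_mul_comm]
    simp only [Matrix.mul_assoc]
  rw [h1, h2]; ring

theorem ip_gram2 (G H : Matrix m n 𝕜) : ip (Gᴴ * G) (Hᴴ * H) = hs2 (H * Gᴴ) := by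
  rw [hs2_eq]
  unfold ip
  congr 1
  simp only [Matrix.conjTranspose_mul, Matrix.conjTranspose_conjTranspose]
  calc (Gᴴ * G * (Hᴴ * H)).trace = (Gᴴ * (G * (Hᴴ * H))).trace := by rw [Matrix.mul_assoc]
    _ = ((G * (Hᴴ * H)) * Gᴴ).trace := Matrix.trace_mul_comm _ _
    _ = (G * Hᴴ * (H * Gᴴ)).trace := by simp only [Matrix.mul_assoc]

theorem q4_add (G H : Matrix m n 𝕜) :
    q4 (G + H) = q4 G + 4 * ip (G * Gᴴ * G) H + 2 * hs2 (H * Gᴴ) +
      hs2 (Gᴴ * H + Hᴴ * G + Hᴴ * H) := by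
  unfold q4
  have e : (G + H)ᴴ * (G + H) = Gᴴ * G + (Gᴴ * H + Hᴴ * G + Hᴴ * H) := by
    rw [Matrix.conjTranspose_add, Matrix.add_mul, Matrix.mul_add, Matrix.mul_add]
    abel
  rw [e, hs2_add, ip_add_right, ip_gram, ip_gram2]
  ring

theorem val_add (C : Matrix m n 𝕜) (L : ℝ) (G H : Matrix m n 𝕜) :
    val C L (G + H) = val C L G + 2 * ip ((2 * L) • (G * Gᴴ * G) - (C - G)) H + hs2 H +
      L * (2 * hs2 (H * Gᴴ) + hs2 (Gᴴ * H + Hᴴ * G + Hᴴ * H)) := by
  unfold val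
  have e : C - (G + H) = (C - G) - H := by abel
  rw [e, hs2_sub (C - G) H, q4_add, ip_sub_left ((2 * L) • (G * Gᴴ * G)) (C - G) H, ip_smul_left]
  ring

/-- **Euler-Lagrange** -/
theorem IsProx.el {C : Matrix m n 𝕜} {L : ℝ} {G : Matrix m n 𝕜} (h : IsProx C L G) (hL : 0 ≤ L) :
    C - G = (2 * L) • (G * Gᴴ * G) := by
  set W := (2 * L) • (G * Gᴴ * G) - (C - G) with hW
  suffices hs : hs2 W ≤ 0 by
    have := eq_zero_of_hs2 hs
    rw [hW, sub_eq_zero] at this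
    exact this.symm
  set B := Gᴴ * W + Wᴴ * G with hB
  set D := Wᴴ * W with hD
  set K := hs2 W + L * (2 * hs2 (W * Gᴴ) + 2 * (hs2 B + hs2 D)) with hK
  have hK0 : 0 ≤ K := by
    have := hs2_nonneg W; have := hs2_nonneg (W * Gᴴ); have := hs2_nonneg B
    have := hs2_nonneg D
    positivity
  have key : ∀ ε : ℝ, 0 < ε → ε ≤ 1 → hs2 W ≤ ε * K / 2 := by
    intro ε he he1
    have h1 := h (G + (-ε) • W)
    rw [val_add, ← hW, ip_smul_right, ← hs2_eq, hs2_smul] at h1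
    have e1 : ((-ε) • W * Gᴴ) = (-ε) • (W * Gᴴ) := by rw [Matrix.smul_mul]
    have e2 : Gᴴ * ((-ε) • W) + ((-ε) • W)ᴴ * G + ((-ε) • W)ᴴ * ((-ε) • W)
        = (-ε) • B + (ε ^ 2) • D := by
      rw [hB, hD, Matrix.conjTranspose_smul, Matrix.mul_smul, Matrix.smul_mul, Matrix.smul_mul,
        Matrix.mul_smul, smul_smul, smul_add]
      simp only [star_trivial]
      congr 2
      ring
    rw [e1, e2, hs2_smul] at h1
    have h2 := hs2_add_le ((-ε) • B) ((ε ^ 2) • D)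
    rw [hs2_smul, hs2_smul] at h2
    have hD0 := hs2_nonneg D
    have hB0 := hs2_nonneg B
    have h3 : (ε ^ 2) ^ 2 * hs2 D ≤ ε ^ 2 * hs2 D := by
      apply mul_le_mul_of_nonneg_right _ hD0
      have : ε ^ 2 ≤ 1 := by nlinarith
      nlinarith [sq_nonneg ε]
    have h4 : L * hs2 ((-ε) • B + (ε ^ 2) • D) ≤ L * (2 * (ε ^ 2 * hs2 B + ε ^ 2 * hs2 D)) := by
      apply mul_le_mul_of_nonneg_left _ hL
      have : (-ε) ^ 2 = ε ^ 2 := by ring
      rw [this] at h2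
      linarith
    have h5 : 2 * ε * hs2 W ≤ ε ^ 2 * K := by
      rw [hK]
      nlinarith [h1, h4]
    have h6 : ε * (hs2 W) ≤ ε * (ε * K / 2) := by nlinarith
    exact le_of_mul_le_mul_left h6 he
  by_contra hc
  rw [not_le] at hc
  obtain ⟨ε, he, he1, hlt⟩ : ∃ ε : ℝ, 0 < ε ∧ ε ≤ 1 ∧ ε * K / 2 < hs2 W := by
    refine ⟨min 1 (hs2 W / (K + 1)), lt_min one_pos (div_pos hc (by linarith)), min_le_left _ _, ?_⟩
    have h1 : min 1 (hs2 W / (K + 1)) ≤ hs2 W / (K + 1) := min_le_right _ _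
    have h2 : min 1 (hs2 W / (K + 1)) * K ≤ hs2 W / (K + 1) * K :=
      mul_le_mul_of_nonneg_right h1 hK0
    have h3 : hs2 W / (K + 1) * K ≤ hs2 W := by
      rw [div_mul_eq_mul_div, div_le_iff₀ (by linarith)]
      nlinarith
    linarith
  linarith [key ε he he1]

/-- **strong convexity** at the minimiser -/
theorem IsProx.strong {C : Matrix m n 𝕜} {L : ℝ} {G : Matrix m n 𝕜} (h : IsProx C L G)
    (hL : 0 ≤ L) (G' : Matrix m n 𝕜) : val C L G + hs2 (G' - G) ≤ val C L G' := by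
  have e := h.el hL
  have h1 := val_add C L G (G' - G)
  rw [add_sub_cancel, e, sub_self] at h1
  have h2 : ip (0 : Matrix m n 𝕜) (G' - G) = 0 := by simp [ip]
  rw [h2] at h1
  have h3 := hs2_nonneg ((G' - G) * Gᴴ)
  have h4 := hs2_nonneg (Gᴴ * (G' - G) + (G' - G)ᴴ * G + (G' - G)ᴴ * (G' - G))
  have h5 : 0 ≤ L * (2 * hs2 ((G' - G) * Gᴴ) +
      hs2 (Gᴴ * (G' - G) + (G' - G)ᴴ * G + (G' - G)ᴴ * (G' - G))) := by positivity
  linarith

theorem IsProx.le {C : Matrix m n 𝕜} {L : ℝ} {G : Matrix m n 𝕜} (h : IsProx C L G) :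
    hs2 (C - G) + L * q4 G ≤ hs2 C := by
  have := h 0
  simpa [val, q4_zero] using this

/-- two minimisers coincide -/
theorem IsProx.unique {C : Matrix m n 𝕜} {L : ℝ} {G G' : Matrix m n 𝕜} (h : IsProx C L G)
    (h' : IsProx C L G') (hL : 0 ≤ L) : G' = G := by
  have h1 := h.strong hL G'
  have h2 := h' G
  have : G' - G = 0 := eq_zero_of_hs2 (by linarith)
  exact sub_eq_zero.mp this

/-- **existence** -/
theorem exists_prox (C : Matrix m n 𝕜) {L : ℝ} (hL : 0 ≤ L) : ∃ G, IsProx C L G := by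
  classical
  have hc : Continuous fun G : Matrix m n 𝕜 => hs2 (C - G) := by
    unfold hs2; fun_prop
  have hq : Continuous fun G : Matrix m n 𝕜 => q4 G := by
    unfold q4 hs2; fun_prop
  have hv : Continuous fun G : Matrix m n 𝕜 => val C L G := by
    unfold val; exact hc.add (continuous_const.mul hq)
  set R : ℝ := Real.sqrt (hs2 C) with hR
  set S : Set (Matrix m n 𝕜) := {G | hs2 (C - G) ≤ hs2 C} with hS
  have hSc : IsClosed S := isClosed_le hc continuous_const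
  have hsub : S ⊆ Set.pi Set.univ fun i => Set.pi Set.univ fun j =>
      Metric.closedBall (C i j) R := by
    intro G hG i _ j _
    rw [Metric.mem_closedBall, dist_comm, dist_eq_norm, hR]
    apply Real.le_sqrt_of_sq_le
    refine le_trans ?_ hG
    have h1 : ‖(C - G) i j‖ ^ 2 ≤ ∑ j, ‖(C - G) i j‖ ^ 2 :=
      single_le_sum (f := fun j => ‖(C - G) i j‖ ^ 2) (fun _ _ => sq_nonneg _) (mem_univ j)
    have h2 : ∑ j, ‖(C - G) i j‖ ^ 2 ≤ hs2 (C - G) :=
      single_le_sum (f := fun i => ∑ j, ‖(C - G) i j‖ ^ 2)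
        (fun _ _ => sum_nonneg fun _ _ => sq_nonneg _) (mem_univ i)
    exact h1.trans h2
  have hK : IsCompact S := by
    refine IsCompact.of_isClosed_subset ?_ hSc hsub
    exact isCompact_univ_pi fun i => isCompact_univ_pi fun j => isCompact_closedBall _ _
  have h0 : (0 : Matrix m n 𝕜) ∈ S := by simp [hS]
  obtain ⟨G, hG, hmin⟩ := hK.exists_isMinOn ⟨0, h0⟩ hv.continuousOn
  refine ⟨G, fun G' => ?_⟩
  by_cases h : G' ∈ S
  · exact hmin h
  · have h1 : hs2 C < hs2 (C - G') := not_le.mp h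
    have h2 : val C L G ≤ val C L 0 := hmin h0
    have h3 : val C L 0 = hs2 C := by simp [val, q4_zero]
    have h4 : hs2 (C - G') ≤ val C L G' := by
      unfold val
      have := mul_nonneg hL (q4_nonneg G')
      linarith
    linarith

/-- row identity for `C = G + r G Gᴴ G` -/
theorem row_of_el {C G : Matrix m n 𝕜} {r : ℝ} (e : C - G = r • (G * Gᴴ * G))
    (i : m) : ∑ j, ‖G i j‖ ^ 2 + 2 * r * ∑ k, ‖(G * Gᴴ) i k‖ ^ 2 ≤ ∑ j, ‖C i j‖ ^ 2 := by
  set Y := G * Gᴴ with hY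
  have hC : C = G + r • (Y * G) := by
    rw [← e]; abel
  have h1 : ∀ j, ‖C i j‖ ^ 2 = ‖G i j‖ ^ 2 +
      2 * r * RCLike.re ((Y * G) i j * (starRingEnd 𝕜) (G i j)) + r ^ 2 * ‖(Y * G) i j‖ ^ 2 := by
    intro j
    have e1 : C i j = G i j + (r : 𝕜) * (Y * G) i j := by
      rw [hC, Matrix.add_apply, Matrix.smul_apply, RCLike.real_smul_eq_coe_mul]
    have e2 : ∀ z w : 𝕜, ‖z + w‖ ^ 2 = ‖z‖ ^ 2 + 2 * RCLike.re (w * (starRingEnd 𝕜) z) + ‖w‖ ^ 2 := by
      intro z w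
      have a1 : ∀ x : 𝕜, ‖x‖ ^ 2 = RCLike.re (x * (starRingEnd 𝕜) x) := by
        intro x
        rw [RCLike.mul_conj, ← RCLike.ofReal_pow, RCLike.ofReal_re]
      rw [a1, a1 z, a1 w]
      have a2 : RCLike.re (z * (starRingEnd 𝕜) w) = RCLike.re (w * (starRingEnd 𝕜) z) := by
        rw [← RCLike.conj_re]; simp [mul_comm]
      simp only [map_add, add_mul, mul_add, a2]
      ring
    rw [e1, e2, norm_mul, mul_pow, mul_assoc ((r : ℝ) : 𝕜), RCLike.re_ofReal_mul,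
      RCLike.norm_ofReal, sq_abs]
    ring
  have h2 : ∑ j, RCLike.re ((Y * G) i j * (starRingEnd 𝕜) (G i j)) = ∑ k, ‖Y i k‖ ^ 2 := by
    have b1 : ∑ j, (Y * G) i j * (starRingEnd 𝕜) (G i j) = (Y * G * Gᴴ) i i := by
      rw [Matrix.mul_apply]
      rfl
    have b2 : Y * G * Gᴴ = Y * Yᴴ := by
      rw [Matrix.mul_assoc, ← hY]
      congr 1
      rw [hY, Matrix.conjTranspose_mul, Matrix.conjTranspose_conjTranspose]
    rw [← map_sum, b1, b2, Matrix.mul_apply, map_sum]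
    refine sum_congr rfl fun k _ => ?_
    rw [Matrix.conjTranspose_apply, RCLike.star_def, RCLike.mul_conj, ← RCLike.ofReal_pow,
      RCLike.ofReal_re]
  have h3 : ∑ j, ‖C i j‖ ^ 2 = ∑ j, ‖G i j‖ ^ 2 + 2 * r * ∑ k, ‖Y i k‖ ^ 2 +
      r ^ 2 * ∑ j, ‖(Y * G) i j‖ ^ 2 := by
    rw [sum_congr rfl fun j _ => h1 j, sum_add_distrib, sum_add_distrib, ← mul_sum, ← mul_sum, h2]
  have h4 : 0 ≤ r ^ 2 * ∑ j, ‖(Y * G) i j‖ ^ 2 := by positivity
  linarith

/-- **rows of the prox**, with the row of `G Gᴴ` -/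
theorem IsProx.row {C : Matrix m n 𝕜} {L : ℝ} {G : Matrix m n 𝕜} (h : IsProx C L G) (hL : 0 ≤ L)
    (i : m) : ∑ j, ‖G i j‖ ^ 2 + 4 * L * ∑ k, ‖(G * Gᴴ) i k‖ ^ 2 ≤ ∑ j, ‖C i j‖ ^ 2 := by
  have := row_of_el (h.el hL) i
  linarith

/-- **columns of the prox**, with the column of `Gᴴ G` -/
theorem IsProx.col {C : Matrix m n 𝕜} {L : ℝ} {G : Matrix m n 𝕜} (h : IsProx C L G) (hL : 0 ≤ L)
    (j : n) : ∑ i, ‖G i j‖ ^ 2 + 4 * L * ∑ k, ‖(Gᴴ * G) k j‖ ^ 2 ≤ ∑ i, ‖C i j‖ ^ 2 := by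
  have e : Cᴴ - Gᴴ = (2 * L) • (Gᴴ * Gᴴᴴ * Gᴴ) := by
    have := congrArg Matrix.conjTranspose (h.el hL)
    rw [Matrix.conjTranspose_sub, Matrix.conjTranspose_smul, star_trivial] at this
    rw [this]
    simp only [Matrix.conjTranspose_mul, Matrix.conjTranspose_conjTranspose, Matrix.mul_assoc]
  have h1 := row_of_el e j
  have h2 : ∀ k, ‖(Gᴴ * Gᴴᴴ) j k‖ = ‖(Gᴴ * G) k j‖ := by
    intro k
    have : (Gᴴ * G) k j = star ((Gᴴ * G) j k) := by
      rw [← Matrix.conjTranspose_apply, Matrix.conjTranspose_mul,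
        Matrix.conjTranspose_conjTranspose]
    rw [this, norm_star, Matrix.conjTranspose_conjTranspose]
  simp only [Matrix.conjTranspose_apply, norm_star, h2] at h1
  linarith

/-- `Psi = C - G` factorised: `Psi i j = ∑ k, U i k * V k j` with `|U i|² ≤ 2 L |C i|²` (rows) and
`|V j|² ≤ (1/2) |C j|²` (columns) -/
theorem IsProx.factor {C : Matrix m n 𝕜} {L : ℝ} {G : Matrix m n 𝕜} (h : IsProx C L G)
    (hL : 0 ≤ L) : ∃ (U : Matrix m n 𝕜) (V : Matrix n n 𝕜), C - G = U * V ∧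
      (∀ i, ∑ k, ‖U i k‖ ^ 2 ≤ 2 * L * ∑ j, ‖C i j‖ ^ 2) ∧
      (∀ j, ∑ k, ‖V k j‖ ^ 2 ≤ (1 / 2) * ∑ i, ‖C i j‖ ^ 2) := by
  set s := Real.sqrt (2 * L) with hs
  have hs2 : s ^ 2 = 2 * L := Real.sq_sqrt (by positivity)
  refine ⟨s • G, s • (Gᴴ * G), ?_, fun i => ?_, fun j => ?_⟩
  · rw [h.el hL, Matrix.smul_mul, Matrix.mul_smul, smul_smul, ← Matrix.mul_assoc]
    congr 1
    rw [← hs2]; ring
  · have h1 := h.row hL i
    have h2 : 0 ≤ 4 * L * ∑ k, ‖(G * Gᴴ) i k‖ ^ 2 := by positivity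
    have h3 : ∀ k, ‖(s • G) i k‖ ^ 2 = 2 * L * ‖G i k‖ ^ 2 := by
      intro k
      rw [Matrix.smul_apply, norm_smul, mul_pow, Real.norm_eq_abs, sq_abs, hs2]
    rw [sum_congr rfl fun k _ => h3 k, ← mul_sum]
    exact mul_le_mul_of_nonneg_left (by linarith) (by positivity)
  · have h1 := h.col hL j
    have h2 : 0 ≤ ∑ i, ‖G i j‖ ^ 2 := by positivity
    have h3 : ∀ k, ‖(s • (Gᴴ * G)) k j‖ ^ 2 = 2 * L * ‖(Gᴴ * G) k j‖ ^ 2 := by
      intro k
      rw [Matrix.smul_apply, norm_smul, mul_pow, Real.norm_eq_abs, sq_abs, hs2]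
    rw [sum_congr rfl fun k _ => h3 k, ← mul_sum]
    linarith

/-- gluing along columns -/
theorem q4_add_le_of_mul_conj {A B : Matrix m n 𝕜} (h : A * Bᴴ = 0) :
    q4 (A + B) ≤ 2 * (q4 A + q4 B) := by
  have h' : B * Aᴴ = 0 := by
    have := congrArg Matrix.conjTranspose h
    simpa using this
  rw [q4_eq', q4_eq' A, q4_eq' B]
  have e : (A + B) * (A + B)ᴴ = A * Aᴴ + B * Bᴴ := by
    rw [Matrix.conjTranspose_add, Matrix.add_mul, Matrix.mul_add, Matrix.mul_add, h, h']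
    simp
  rw [e]
  exact hs2_add_le _ _

/-- gluing along rows -/
theorem q4_add_le_of_conj_mul {A B : Matrix m n 𝕜} (h : Aᴴ * B = 0) :
    q4 (A + B) ≤ 2 * (q4 A + q4 B) := by
  have h' : Bᴴ * A = 0 := by
    have := congrArg Matrix.conjTranspose h
    simpa using this
  unfold q4
  have e : (A + B)ᴴ * (A + B) = Aᴴ * A + Bᴴ * B := by
    rw [Matrix.conjTranspose_add, Matrix.add_mul, Matrix.mul_add, Matrix.mul_add, h, h']
    simp
  rw [e]
  exact hs2_add_le _ _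

/-- the part of `G` on the block `P × Q` -/
def blk (P : m → Prop) (Q : n → Prop) [DecidablePred P] [DecidablePred Q] (G : Matrix m n 𝕜) :
    Matrix m n 𝕜 := fun i j => if P i ∧ Q j then G i j else 0

/-- **2 x 2 gluing**: `Tr |G|^4 ≤ 4 ∑_blocks Tr |G_b|^4` -/
theorem q4_glue (P : m → Prop) (Q : n → Prop) [DecidablePred P] [DecidablePred Q]
    (G : Matrix m n 𝕜) :
    q4 G ≤ 4 * (q4 (blk P Q G) + q4 (blk P (fun j => ¬ Q j) G) +
      q4 (blk (fun i => ¬ P i) Q G) + q4 (blk (fun i => ¬ P i) (fun j => ¬ Q j) G)) := by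
  set A := blk P Q G
  set B := blk P (fun j => ¬ Q j) G
  set C := blk (fun i => ¬ P i) Q G
  set D := blk (fun i => ¬ P i) (fun j => ¬ Q j) G
  have e : G = (A + B) + (C + D) := by
    ext i j
    simp only [A, B, C, D, blk, Matrix.add_apply]
    by_cases h1 : P i <;> by_cases h2 : Q j <;> simp [h1, h2]
  have h1 : (A + B)ᴴ * (C + D) = 0 := by
    ext i j
    rw [Matrix.mul_apply]
    apply sum_eq_zero
    intro k _
    simp only [A, B, C, D, blk, Matrix.conjTranspose_apply, Matrix.add_apply]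
    by_cases h1 : P k <;> simp [h1]
  have h2 : A * Bᴴ = 0 := by
    ext i j
    rw [Matrix.mul_apply]
    apply sum_eq_zero
    intro k _
    simp only [A, B, blk, Matrix.conjTranspose_apply]
    by_cases h1 : Q k <;> simp [h1]
  have h3 : C * Dᴴ = 0 := by
    ext i j
    rw [Matrix.mul_apply]
    apply sum_eq_zero
    intro k _
    simp only [C, D, blk, Matrix.conjTranspose_apply]
    by_cases h1 : Q k <;> simp [h1]
  have k1 := q4_add_le_of_conj_mul h1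
  have k2 := q4_add_le_of_mul_conj h2
  have k3 := q4_add_le_of_mul_conj h3
  rw [← e] at k1
  linarith

end Crest.Agent.R079.Prox
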