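import Mathlib

/-! R079 (helper300): the ABSTRACT CAPTURE with QUARTIC label penalty (doc 2474 [2] of helper663).

Label matrices `c : Matrix ι κ ℝ`, a symmetric PSD form `M : Matrix (ι × κ) (ι × κ) ℝ`, a vector `A`.
`Phi A M τ k c = 2⟨A,c⟩ - ⟨c,Mc⟩ - τ|c|² - k Q4 c`, `Q4 c = |c cᵀ|²_HS`.  Everything is polynomial.

* `exists_cap`      : a maximiser exists (`IsCap`);
* `IsCap.stat`      : stationarity;
* `IsCap.strong`    : `Phi c' ≤ Phi c - ⟨c'-c,(M+τ)(c'-c)⟩`;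
* `Del_nonneg`, `Del_le` : `0 ≤ Del c d ≤ 2|cᵀd|² + 8|c dᵀ|² + 2 Q4 d`;
* `IsCap.child`     : the exact child identity;
* `IsCap.size`      : `τ|c|² + k Q4 c ≤ b`;
* `op_le`           : `|cᵀx|⁴ ≤ Q4 c |x|⁴`, `|c y|⁴ ≤ Q4 c |y|⁴`;
* `step`            : averaging over the children. -/

set_option autoImplicit false
set_option linter.unusedSectionVars false

open Finset

namespace Crest.Agent.R079.QCap

variable {ι κ : Type*} [Fintype ι] [Fintype κ]

/-- Hilbert–Schmidt inner product -/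
noncomputable def ip (c d : Matrix ι κ ℝ) : ℝ := ∑ i, ∑ j, c i j * d i j

/-- HS norm square -/
noncomputable def nq (c : Matrix ι κ ℝ) : ℝ := ∑ i, ∑ j, c i j ^ 2

/-- the form `⟨c, M d⟩` -/
noncomputable def fm (M : Matrix (ι × κ) (ι × κ) ℝ) (c d : Matrix ι κ ℝ) : ℝ :=
  ∑ p : ι × κ, ∑ q : ι × κ, c p.1 p.2 * M p q * d q.1 q.2

/-- `c dᵀ` -/
noncomputable def rr (c d : Matrix ι κ ℝ) (i i' : ι) : ℝ := ∑ j, c i j * d i' j

/-- `cᵀ d` -/
noncomputable def ll (c d : Matrix ι κ ℝ) (j j' : κ) : ℝ := ∑ i, c i j * d i j'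

/-- `|c dᵀ|²` -/
noncomputable def rq (c d : Matrix ι κ ℝ) : ℝ := ∑ i, ∑ i', rr c d i i' ^ 2

/-- `|cᵀ d|²` -/
noncomputable def lq (c d : Matrix ι κ ℝ) : ℝ := ∑ j, ∑ j', ll c d j j' ^ 2

/-- quartic penalty `tr (c cᵀ)²` -/
noncomputable def Q4 (c : Matrix ι κ ℝ) : ℝ := rq c c

/-- derivative of the quartic penalty: `DQ c d = 2 ⟨c cᵀ, c dᵀ + d cᵀ⟩` -/
noncomputable def DQ (c d : Matrix ι κ ℝ) : ℝ :=
  2 * ∑ i, ∑ i', rr c c i i' * (rr c d i i' + rr d c i i')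

/-- Bregman remainder of the quartic penalty -/
noncomputable def Del (c d : Matrix ι κ ℝ) : ℝ := Q4 (c + d) - Q4 c - DQ c d

/-! ### algebra -/

lemma rr_add_left (c d e : Matrix ι κ ℝ) (i i' : ι) :
    rr (c + d) e i i' = rr c e i i' + rr d e i i' := by
  unfold rr
  rw [← sum_add_distrib]
  refine sum_congr rfl fun j _ => ?_
  rw [Matrix.add_apply]; ring

lemma rr_add_right (c d e : Matrix ι κ ℝ) (i i' : ι) :
    rr c (d + e) i i' = rr c d i i' + rr c e i i' := by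
  unfold rr
  rw [← sum_add_distrib]
  refine sum_congr rfl fun j _ => ?_
  rw [Matrix.add_apply]; ring

lemma rr_smul_left (t : ℝ) (c d : Matrix ι κ ℝ) (i i' : ι) :
    rr (t • c) d i i' = t * rr c d i i' := by
  unfold rr
  rw [mul_sum]
  refine sum_congr rfl fun j _ => ?_
  rw [Matrix.smul_apply, smul_eq_mul]; ring

lemma rr_smul_right (t : ℝ) (c d : Matrix ι κ ℝ) (i i' : ι) :
    rr c (t • d) i i' = t * rr c d i i' := by
  unfold rr
  rw [mul_sum]
  refine sum_congr rfl fun j _ => ?_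
  rw [Matrix.smul_apply, smul_eq_mul]; ring

lemma rr_symm (c d : Matrix ι κ ℝ) (i i' : ι) : rr c d i i' = rr d c i' i := by
  unfold rr
  exact sum_congr rfl fun j _ => mul_comm _ _

lemma rq_symm (c d : Matrix ι κ ℝ) : rq c d = rq d c := by
  unfold rq
  rw [sum_comm]
  refine sum_congr rfl fun i _ => sum_congr rfl fun i' _ => ?_
  rw [rr_symm c d]

lemma rq_nonneg (c d : Matrix ι κ ℝ) : 0 ≤ rq c d :=
  sum_nonneg fun _ _ => sum_nonneg fun _ _ => sq_nonneg _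

lemma lq_nonneg (c d : Matrix ι κ ℝ) : 0 ≤ lq c d :=
  sum_nonneg fun _ _ => sum_nonneg fun _ _ => sq_nonneg _

lemma Q4_nonneg (c : Matrix ι κ ℝ) : 0 ≤ Q4 c := rq_nonneg c c

lemma nq_nonneg (c : Matrix ι κ ℝ) : 0 ≤ nq c :=
  sum_nonneg fun _ _ => sum_nonneg fun _ _ => sq_nonneg _

/-- `⟨c cᵀ, d dᵀ⟩ = |cᵀ d|²` -/
lemma gram_pair (c d : Matrix ι κ ℝ) :
    ∑ i, ∑ i', rr c c i i' * rr d d i i' = lq c d := by
  unfold lq rr ll
  have h : ∀ i i' : ι, (∑ j, c i j * c i' j) * ∑ j, d i j * d i' j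
      = ∑ j, ∑ j', (c i j * d i j') * (c i' j * d i' j') := by
    intro i i'
    rw [sum_mul_sum]
    refine sum_congr rfl fun j _ => sum_congr rfl fun j' _ => ?_
    ring
  simp only [h]
  have h2 : ∀ j j' : κ, (∑ i, c i j * d i j') ^ 2
      = ∑ i, ∑ i', (c i j * d i j') * (c i' j * d i' j') := by
    intro j j'
    rw [sq, sum_mul_sum]
  simp only [h2]
  calc ∑ i, ∑ i', ∑ j, ∑ j', (c i j * d i j') * (c i' j * d i' j')
      = ∑ i, ∑ j, ∑ i', ∑ j', (c i j * d i j') * (c i' j * d i' j') := by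
        refine sum_congr rfl fun i _ => ?_
        rw [sum_comm]
    _ = ∑ j, ∑ i, ∑ i', ∑ j', (c i j * d i j') * (c i' j * d i' j') := by
        rw [sum_comm]
    _ = ∑ j, ∑ i, ∑ j', ∑ i', (c i j * d i j') * (c i' j * d i' j') := by
        refine sum_congr rfl fun j _ => sum_congr rfl fun i _ => ?_
        rw [sum_comm]
    _ = ∑ j, ∑ j', ∑ i, ∑ i', (c i j * d i j') * (c i' j * d i' j') := by
        refine sum_congr rfl fun j _ => ?_
        rw [sum_comm]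

/-- exact form of the Bregman remainder -/
lemma Del_eq (c d : Matrix ι κ ℝ) :
    Del c d = 2 * lq c d +
      ∑ i, ∑ i', (rr c d i i' + rr d c i i' + rr d d i i') ^ 2 := by
  unfold Del Q4 DQ rq
  rw [← gram_pair c d]
  rw [mul_sum, mul_sum, ← sum_sub_distrib, ← sum_sub_distrib, ← sum_add_distrib]
  refine sum_congr rfl fun i _ => ?_
  rw [mul_sum, mul_sum, ← sum_sub_distrib, ← sum_sub_distrib, ← sum_add_distrib]
  refine sum_congr rfl fun i' _ => ?_
  rw [rr_add_left, rr_add_right, rr_add_right]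
  ring

lemma Del_nonneg (c d : Matrix ι κ ℝ) : 0 ≤ Del c d := by
  rw [Del_eq]
  have h1 := lq_nonneg c d
  have h2 : 0 ≤ ∑ i, ∑ i', (rr c d i i' + rr d c i i' + rr d d i i') ^ 2 :=
    sum_nonneg fun _ _ => sum_nonneg fun _ _ => sq_nonneg _
  linarith

lemma Del_le (c d : Matrix ι κ ℝ) :
    Del c d ≤ 2 * lq c d + 8 * rq c d + 2 * Q4 d := by
  rw [Del_eq]
  have h : ∑ i, ∑ i', (rr c d i i' + rr d c i i' + rr d d i i') ^ 2 ≤
      4 * rq c d + 4 * rq d c + 2 * rq d d := by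
    unfold rq
    rw [mul_sum, mul_sum, mul_sum, ← sum_add_distrib, ← sum_add_distrib]
    refine sum_le_sum fun i _ => ?_
    rw [mul_sum, mul_sum, mul_sum, ← sum_add_distrib, ← sum_add_distrib]
    refine sum_le_sum fun i' _ => ?_
    nlinarith [sq_nonneg (rr c d i i' - rr d c i i'),
      sq_nonneg (rr c d i i' + rr d c i i' - rr d d i i')]
  rw [rq_symm d c] at h
  unfold Q4
  linarith

lemma DQ_smul (t : ℝ) (c d : Matrix ι κ ℝ) : DQ c (t • d) = t * DQ c d := by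
  have h : ∀ i i' : ι, rr c c i i' * (rr c (t • d) i i' + rr (t • d) c i i')
      = t * (rr c c i i' * (rr c d i i' + rr d c i i')) := by
    intro i i'
    rw [rr_smul_right, rr_smul_left]
    ring
  unfold DQ
  simp only [h, ← mul_sum]
  ring

lemma lq_smul (t : ℝ) (c d : Matrix ι κ ℝ) : lq c (t • d) = t ^ 2 * lq c d := by
  unfold lq ll
  rw [mul_sum]
  refine sum_congr rfl fun j _ => ?_
  rw [mul_sum]
  refine sum_congr rfl fun j' _ => ?_
  rw [← mul_pow, mul_sum]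
  congr 1
  refine sum_congr rfl fun i _ => ?_
  rw [Matrix.smul_apply, smul_eq_mul]; ring

lemma rq_smul (t : ℝ) (c d : Matrix ι κ ℝ) : rq c (t • d) = t ^ 2 * rq c d := by
  unfold rq
  rw [mul_sum]
  refine sum_congr rfl fun i _ => ?_
  rw [mul_sum]
  refine sum_congr rfl fun i' _ => ?_
  rw [rr_smul_right, mul_pow]

lemma Q4_smul (t : ℝ) (c : Matrix ι κ ℝ) : Q4 (t • c) = t ^ 4 * Q4 c := by
  unfold Q4
  rw [rq_smul, rq_symm, rq_smul]
  ring

lemma ip_add_right (c d e : Matrix ι κ ℝ) : ip c (d + e) = ip c d + ip c e := by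
  unfold ip
  rw [← sum_add_distrib]
  refine sum_congr rfl fun i _ => ?_
  rw [← sum_add_distrib]
  refine sum_congr rfl fun j _ => ?_
  rw [Matrix.add_apply]; ring

lemma ip_smul_right (t : ℝ) (c d : Matrix ι κ ℝ) : ip c (t • d) = t * ip c d := by
  unfold ip
  rw [mul_sum]
  refine sum_congr rfl fun i _ => ?_
  rw [mul_sum]
  refine sum_congr rfl fun j _ => ?_
  rw [Matrix.smul_apply, smul_eq_mul]; ring

lemma ip_comm (c d : Matrix ι κ ℝ) : ip c d = ip d c := by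
  unfold ip
  exact sum_congr rfl fun i _ => sum_congr rfl fun j _ => mul_comm _ _

lemma ip_self (c : Matrix ι κ ℝ) : ip c c = nq c := by
  unfold ip nq
  exact sum_congr rfl fun i _ => sum_congr rfl fun j _ => (sq _).symm

lemma ip_sub_left (c d e : Matrix ι κ ℝ) : ip (c - d) e = ip c e - ip d e := by
  unfold ip
  rw [← sum_sub_distrib]
  refine sum_congr rfl fun i _ => ?_
  rw [← sum_sub_distrib]
  refine sum_congr rfl fun j _ => ?_
  rw [Matrix.sub_apply]; ring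

lemma nq_add (c d : Matrix ι κ ℝ) : nq (c + d) = nq c + 2 * ip c d + nq d := by
  unfold nq ip
  rw [mul_sum, ← sum_add_distrib, ← sum_add_distrib]
  refine sum_congr rfl fun i _ => ?_
  rw [mul_sum, ← sum_add_distrib, ← sum_add_distrib]
  refine sum_congr rfl fun j _ => ?_
  rw [Matrix.add_apply]; ring

lemma nq_smul (t : ℝ) (c : Matrix ι κ ℝ) : nq (t • c) = t ^ 2 * nq c := by
  unfold nq
  rw [mul_sum]
  refine sum_congr rfl fun i _ => ?_
  rw [mul_sum]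
  refine sum_congr rfl fun j _ => ?_
  rw [Matrix.smul_apply, smul_eq_mul]; ring

lemma fm_add_right (M : Matrix (ι × κ) (ι × κ) ℝ) (c d e : Matrix ι κ ℝ) :
    fm M c (d + e) = fm M c d + fm M c e := by
  unfold fm
  rw [← sum_add_distrib]
  refine sum_congr rfl fun i _ => ?_
  rw [← sum_add_distrib]
  refine sum_congr rfl fun j _ => ?_
  rw [Matrix.add_apply]; ring

lemma fm_add_left (M : Matrix (ι × κ) (ι × κ) ℝ) (c d e : Matrix ι κ ℝ) :
    fm M (c + d) e = fm M c e + fm M d e := by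
  unfold fm
  rw [← sum_add_distrib]
  refine sum_congr rfl fun i _ => ?_
  rw [← sum_add_distrib]
  refine sum_congr rfl fun j _ => ?_
  rw [Matrix.add_apply]; ring

lemma fm_smul_right (M : Matrix (ι × κ) (ι × κ) ℝ) (t : ℝ) (c d : Matrix ι κ ℝ) :
    fm M c (t • d) = t * fm M c d := by
  unfold fm
  rw [mul_sum]
  refine sum_congr rfl fun i _ => ?_
  rw [mul_sum]
  refine sum_congr rfl fun j _ => ?_
  rw [Matrix.smul_apply, smul_eq_mul]; ring

lemma fm_smul_left (M : Matrix (ι × κ) (ι × κ) ℝ) (t : ℝ) (c d : Matrix ι κ ℝ) :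
    fm M (t • c) d = t * fm M c d := by
  unfold fm
  rw [mul_sum]
  refine sum_congr rfl fun i _ => ?_
  rw [mul_sum]
  refine sum_congr rfl fun j _ => ?_
  rw [Matrix.smul_apply, smul_eq_mul]; ring

lemma fm_sub (M N : Matrix (ι × κ) (ι × κ) ℝ) (c d : Matrix ι κ ℝ) :
    fm (M - N) c d = fm M c d - fm N c d := by
  unfold fm
  rw [← sum_sub_distrib]
  refine sum_congr rfl fun i _ => ?_
  rw [← sum_sub_distrib]
  refine sum_congr rfl fun j _ => ?_
  rw [Matrix.sub_apply]; ring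

/-- symmetric nonnegative form -/
structure PSD (M : Matrix (ι × κ) (ι × κ) ℝ) : Prop where
  symm : ∀ p q, M p q = M q p
  nonneg : ∀ c : Matrix ι κ ℝ, 0 ≤ fm M c c

lemma PSD.fm_comm {M : Matrix (ι × κ) (ι × κ) ℝ} (h : PSD M) (c d : Matrix ι κ ℝ) :
    fm M c d = fm M d c := by
  unfold fm
  rw [sum_comm]
  refine sum_congr rfl fun q _ => sum_congr rfl fun p _ => ?_
  rw [h.symm p q]; ring

/-- the PSD matrix `w wᵀ` -/
lemma PSD.vecMul (w : ι × κ → ℝ) : PSD (Matrix.of fun p q => w p * w q) := by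
  refine ⟨fun p q => by simp [mul_comm], fun c => ?_⟩
  have : fm (Matrix.of fun p q => w p * w q) c c = (∑ p : ι × κ, c p.1 p.2 * w p) ^ 2 := by
    unfold fm
    rw [sq, sum_mul_sum]
    refine sum_congr rfl fun p _ => sum_congr rfl fun q _ => ?_
    simp only [Matrix.of_apply]
    ring
  rw [this]
  exact sq_nonneg _

lemma fm_sum {α : Type*} (s : Finset α) (r : α → ℝ) (M : α → Matrix (ι × κ) (ι × κ) ℝ)
    (c d : Matrix ι κ ℝ) : fm (∑ a ∈ s, r a • M a) c d = ∑ a ∈ s, r a * fm (M a) c d := by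
  have h : ∀ p q : ι × κ, c p.1 p.2 * (∑ a ∈ s, r a • M a) p q * d q.1 q.2
      = ∑ a ∈ s, r a * (c p.1 p.2 * M a p q * d q.1 q.2) := by
    intro p q
    rw [Matrix.sum_apply, mul_sum, sum_mul]
    refine sum_congr rfl fun a _ => ?_
    rw [Matrix.smul_apply, smul_eq_mul]; ring
  unfold fm
  simp only [h, mul_sum]
  calc ∑ p : ι × κ, ∑ q : ι × κ, ∑ a ∈ s, r a * (c p.1 p.2 * M a p q * d q.1 q.2)
      = ∑ p : ι × κ, ∑ a ∈ s, ∑ q : ι × κ, r a * (c p.1 p.2 * M a p q * d q.1 q.2) :=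
        sum_congr rfl fun p _ => sum_comm
    _ = ∑ a ∈ s, ∑ p : ι × κ, ∑ q : ι × κ, r a * (c p.1 p.2 * M a p q * d q.1 q.2) := sum_comm

lemma PSD.sum {α : Type*} (s : Finset α) (r : α → ℝ) (M : α → Matrix (ι × κ) (ι × κ) ℝ)
    (hr : ∀ a ∈ s, 0 ≤ r a) (h : ∀ a ∈ s, PSD (M a)) : PSD (∑ a ∈ s, r a • M a) := by
  refine ⟨fun p q => ?_, fun c => ?_⟩
  · rw [Matrix.sum_apply, Matrix.sum_apply]
    refine sum_congr rfl fun a ha => ?_
    rw [Matrix.smul_apply, Matrix.smul_apply, (h a ha).symm p q]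
  · rw [fm_sum]
    exact sum_nonneg fun a ha => mul_nonneg (hr a ha) ((h a ha).nonneg c)

/-! ### the functional -/

/-- the capture functional -/
noncomputable def Phi (A : Matrix ι κ ℝ) (M : Matrix (ι × κ) (ι × κ) ℝ) (τ k : ℝ)
    (c : Matrix ι κ ℝ) : ℝ := 2 * ip A c - fm M c c - τ * nq c - k * Q4 c

/-- `c` is a maximiser -/
def IsCap (A : Matrix ι κ ℝ) (M : Matrix (ι × κ) (ι × κ) ℝ) (τ k : ℝ) (c : Matrix ι κ ℝ) : Prop :=
  ∀ c', Phi A M τ k c' ≤ Phi A M τ k c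

/-- general expansion -/
lemma Phi_add {M : Matrix (ι × κ) (ι × κ) ℝ} (hM : PSD M) (A : Matrix ι κ ℝ) (τ k : ℝ)
    (c d : Matrix ι κ ℝ) :
    Phi A M τ k (c + d) = Phi A M τ k c
      + (2 * ip A d - 2 * fm M c d - 2 * τ * ip c d - k * DQ c d)
      - fm M d d - τ * nq d - k * Del c d := by
  unfold Phi Del
  rw [ip_add_right, fm_add_right, fm_add_left, fm_add_left, nq_add, hM.fm_comm d c]
  ring

lemma Phi_zero (A : Matrix ι κ ℝ) (M : Matrix (ι × κ) (ι × κ) ℝ) (τ k : ℝ) :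
    Phi A M τ k 0 = 0 := by
  unfold Phi ip fm nq Q4 rq rr
  simp

lemma continuous_Phi (A : Matrix ι κ ℝ) (M : Matrix (ι × κ) (ι × κ) ℝ) (τ k : ℝ) :
    Continuous (Phi A M τ k) := by
  unfold Phi ip fm nq Q4 rq rr
  fun_prop

lemma ip_le (A c : Matrix ι κ ℝ) (τ : ℝ) (hτ : 0 < τ) :
    2 * ip A c ≤ 2 / τ * nq A + τ / 2 * nq c := by
  unfold ip nq
  rw [mul_sum, mul_sum, mul_sum, ← sum_add_distrib]
  refine sum_le_sum fun i _ => ?_
  rw [mul_sum, mul_sum, mul_sum, ← sum_add_distrib]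
  refine sum_le_sum fun j _ => ?_
  have h : 0 ≤ (2 * A i j - τ * c i j) ^ 2 := sq_nonneg _
  have e : 2 / τ * A i j ^ 2 + τ / 2 * c i j ^ 2 - 2 * (A i j * c i j) =
      (2 * A i j - τ * c i j) ^ 2 / (2 * τ) := by
    field_simp
    ring
  have h2 : 0 ≤ (2 * A i j - τ * c i j) ^ 2 / (2 * τ) := by positivity
  linarith

/-- a maximiser exists -/
theorem exists_cap (A : Matrix ι κ ℝ) {M : Matrix (ι × κ) (ι × κ) ℝ} (hM : PSD M) {τ k : ℝ}
    (hτ : 0 < τ) (hk : 0 ≤ k) : ∃ c, IsCap A M τ k c := by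
  set R : ℝ := 4 / τ ^ 2 * nq A + 1 with hR
  have hR0 : 0 ≤ R := by have := nq_nonneg A; positivity
  set K : Set (Matrix ι κ ℝ) := {c | nq c ≤ R} with hK
  have hclosed : IsClosed K := by
    refine isClosed_le ?_ continuous_const
    unfold nq
    fun_prop
  have hbd : K ⊆ Set.pi Set.univ fun _ : ι => Set.pi Set.univ fun _ : κ =>
      Set.Icc (-(R + 1)) (R + 1) := by
    intro c hc i _ j _
    have h1 : c i j ^ 2 ≤ nq c := by
      unfold nq
      calc c i j ^ 2 ≤ ∑ j', c i j' ^ 2 :=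
            single_le_sum (f := fun j' => c i j' ^ 2) (fun _ _ => sq_nonneg _) (mem_univ j)
        _ ≤ _ := single_le_sum (f := fun i' => ∑ j', c i' j' ^ 2)
            (fun _ _ => sum_nonneg fun _ _ => sq_nonneg _) (mem_univ i)
    have h2 : c i j ^ 2 ≤ (R + 1) ^ 2 := by
      have : nq c ≤ R := hc
      nlinarith
    exact abs_le.mp (abs_le_of_sq_le_sq h2 (by linarith))
  have hcomp : IsCompact K := by
    refine IsCompact.of_isClosed_subset ?_ hclosed hbd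
    exact isCompact_univ_pi fun _ => isCompact_univ_pi fun _ => isCompact_Icc
  have hne : K.Nonempty := ⟨0, by
    show nq (0 : Matrix ι κ ℝ) ≤ R
    have : nq (0 : Matrix ι κ ℝ) = 0 := by unfold nq; simp
    rw [this]; exact hR0⟩
  obtain ⟨c, hcK, hc⟩ := hcomp.exists_isMaxOn hne (continuous_Phi A M τ k).continuousOn
  refine ⟨c, fun c' => ?_⟩
  by_cases h : c' ∈ K
  · exact hc h
  · have h0 : Phi A M τ k 0 ≤ Phi A M τ k c := hc (by
      show nq (0 : Matrix ι κ ℝ) ≤ R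
      have : nq (0 : Matrix ι κ ℝ) = 0 := by unfold nq; simp
      rw [this]; exact hR0)
    rw [Phi_zero] at h0
    refine le_trans ?_ h0
    have h1 : R < nq c' := not_le.mp h
    unfold Phi
    have h2 := ip_le A c' τ hτ
    have h3 := hM.nonneg c'
    have h4 := mul_nonneg hk (Q4_nonneg c')
    have h5 : 2 / τ * nq A ≤ τ / 2 * nq c' := by
      have e : 2 / τ * nq A = τ / 2 * (4 / τ ^ 2 * nq A) := by
        field_simp
        ring
      rw [e]
      refine mul_le_mul_of_nonneg_left ?_ (by positivity)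
      linarith
    have h6 : τ / 2 * nq c' + τ / 2 * nq c' = τ * nq c' := by ring
    linarith

/-- stationarity -/
theorem IsCap.stat {A : Matrix ι κ ℝ} {M : Matrix (ι × κ) (ι × κ) ℝ} (hM : PSD M) {τ k : ℝ}
    (hk : 0 ≤ k) (hτ : 0 ≤ τ) {c : Matrix ι κ ℝ} (h : IsCap A M τ k c) (d : Matrix ι κ ℝ) :
    2 * ip A d - 2 * fm M c d - 2 * τ * ip c d - k * DQ c d = 0 := by
  set L := 2 * ip A d - 2 * fm M c d - 2 * τ * ip c d - k * DQ c d with hL
  set K1 : ℝ := fm M d d + τ * nq d + k * (2 * lq c d + 8 * rq c d + 2 * Q4 d) with hK1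
  have hK1n : 0 ≤ K1 := by
    have h1 := hM.nonneg d
    have h2 := mul_nonneg hτ (nq_nonneg d)
    have h3 := lq_nonneg c d
    have h4 := rq_nonneg c d
    have h5 := Q4_nonneg d
    have h6 : 0 ≤ k * (2 * lq c d + 8 * rq c d + 2 * Q4 d) := mul_nonneg hk (by linarith)
    linarith
  have key : ∀ t : ℝ, |t| ≤ 1 → t * L ≤ t ^ 2 * K1 := by
    intro t ht
    have h1 := h (c + t • d)
    rw [Phi_add hM, ip_smul_right, ip_smul_right, fm_smul_right, DQ_smul, fm_smul_right,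
      fm_smul_left, nq_smul] at h1
    have h2 := Del_le c (t • d)
    rw [lq_smul, rq_smul, Q4_smul] at h2
    have ht2 : t ^ 2 ≤ 1 := by
      have := sq_le_one_iff_abs_le_one t |>.mpr ht
      exact this
    have h3 : t ^ 4 * Q4 d ≤ t ^ 2 * Q4 d := by
      refine mul_le_mul_of_nonneg_right ?_ (Q4_nonneg d)
      nlinarith [sq_nonneg t]
    have h4 : k * Del c (t • d) ≤ k * (t ^ 2 * (2 * lq c d + 8 * rq c d + 2 * Q4 d)) := by
      refine mul_le_mul_of_nonneg_left ?_ hk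
      linarith
    have e1 : t ^ 2 * K1 = t * (t * fm M d d) + τ * (t ^ 2 * nq d)
        + k * (t ^ 2 * (2 * lq c d + 8 * rq c d + 2 * Q4 d)) := by
      rw [hK1]; ring
    have e2 : t * L = 2 * (t * ip A d) - 2 * (t * fm M c d) - 2 * τ * (t * ip c d)
        - k * (t * DQ c d) := by
      rw [hL]; ring
    rw [e1, e2]
    linarith
  by_contra hne
  rcases lt_or_gt_of_ne hne with hneg | hpos
  · -- L < 0: take t = -min 1 (-L/(2(K1+1)))
    set s : ℝ := min 1 (-L / (2 * (K1 + 1))) with hs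
    have hs0 : 0 < s := lt_min one_pos (div_pos (by linarith) (by linarith))
    have hs1 : s ≤ 1 := min_le_left _ _
    have hs2 : s * (2 * (K1 + 1)) ≤ -L := by
      have : s ≤ -L / (2 * (K1 + 1)) := min_le_right _ _
      rwa [le_div_iff₀ (by linarith)] at this
    have h1 := key (-s) (by rw [abs_neg, abs_of_pos hs0]; exact hs1)
    nlinarith
  · set s : ℝ := min 1 (L / (2 * (K1 + 1))) with hs
    have hs0 : 0 < s := lt_min one_pos (div_pos (by linarith) (by linarith))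
    have hs1 : s ≤ 1 := min_le_left _ _
    have hs2 : s * (2 * (K1 + 1)) ≤ L := by
      have : s ≤ L / (2 * (K1 + 1)) := min_le_right _ _
      rwa [le_div_iff₀ (by linarith)] at this
    have h1 := key s (by rw [abs_of_pos hs0]; exact hs1)
    nlinarith

/-- strong concavity at the maximiser -/
theorem IsCap.strong {A : Matrix ι κ ℝ} {M : Matrix (ι × κ) (ι × κ) ℝ} (hM : PSD M) {τ k : ℝ}
    (hk : 0 ≤ k) (hτ : 0 ≤ τ) {c : Matrix ι κ ℝ} (h : IsCap A M τ k c) (d : Matrix ι κ ℝ) :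
    Phi A M τ k (c + d) + fm M d d + τ * nq d ≤ Phi A M τ k c := by
  rw [Phi_add hM, h.stat hM hk hτ d]
  have := mul_nonneg hk (Del_nonneg c d)
  linarith

/-- the child identity: data `(A', M')` at the child, `c` captured at the parent `(A, M)` -/
theorem IsCap.child {A A' : Matrix ι κ ℝ} {M M' : Matrix (ι × κ) (ι × κ) ℝ} (hM : PSD M)
    (hM' : PSD M') {τ k : ℝ} (hk : 0 ≤ k) (hτ : 0 ≤ τ) {c : Matrix ι κ ℝ} (h : IsCap A M τ k c)
    (d : Matrix ι κ ℝ) :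
    Phi A' M' τ k (c + d) = Phi A' M' τ k c + 2 * (ip (A' - A) d - fm (M' - M) c d)
      - fm M' d d - τ * nq d - k * Del c d := by
  rw [Phi_add hM' A' τ k c d, ip_sub_left, fm_sub]
  have := h.stat hM hk hτ d
  linarith

/-- size of the captured letter -/
theorem IsCap.size {A : Matrix ι κ ℝ} {M : Matrix (ι × κ) (ι × κ) ℝ} {τ k b : ℝ}
    {c : Matrix ι κ ℝ} (h : IsCap A M τ k c) (hb : 2 * ip A c - fm M c c ≤ b) :
    τ * nq c + k * Q4 c ≤ b := by
  have h0 := h 0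
  rw [Phi_zero] at h0
  unfold Phi at h0
  linarith

theorem IsCap.nonneg {A : Matrix ι κ ℝ} {M : Matrix (ι × κ) (ι × κ) ℝ} {τ k : ℝ}
    {c : Matrix ι κ ℝ} (h : IsCap A M τ k c) : 0 ≤ Phi A M τ k c := by
  have h0 := h 0
  rwa [Phi_zero] at h0

/-- `Φ ≤ b` -/
theorem Phi_le {A : Matrix ι κ ℝ} {M : Matrix (ι × κ) (ι × κ) ℝ} {τ k b : ℝ}
    (hk : 0 ≤ k) (hτ : 0 ≤ τ)
    {c : Matrix ι κ ℝ} (hb : 2 * ip A c - fm M c c ≤ b) : Phi A M τ k c ≤ b := by
  unfold Phi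
  have h1 := mul_nonneg hτ (nq_nonneg c)
  have h2 := mul_nonneg hk (Q4_nonneg c)
  linarith

/-! ### label operator norms -/

/-- `|cᵀ x|² ` -/
noncomputable def lv (c : Matrix ι κ ℝ) (x : ι → ℝ) : ℝ := ∑ j, (∑ i, c i j * x i) ^ 2

/-- `|c y|²` -/
noncomputable def rv (c : Matrix ι κ ℝ) (y : κ → ℝ) : ℝ := ∑ i, (∑ j, c i j * y j) ^ 2

lemma lv_eq (c : Matrix ι κ ℝ) (x : ι → ℝ) :
    lv c x = ∑ i, ∑ i', rr c c i i' * (x i * x i') := by
  unfold lv rr
  have h : ∀ j : κ, (∑ i, c i j * x i) ^ 2 = ∑ i, ∑ i', (c i j * c i' j) * (x i * x i') := by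
    intro j
    rw [sq, sum_mul_sum]
    refine sum_congr rfl fun i _ => sum_congr rfl fun i' _ => ?_
    ring
  simp only [h, sum_mul]
  rw [sum_comm]
  refine sum_congr rfl fun i _ => ?_
  rw [sum_comm]

/-- `|cᵀ x|⁴ ≤ Q4 c · |x|⁴` -/
theorem lv_le (c : Matrix ι κ ℝ) (x : ι → ℝ) :
    lv c x ^ 2 ≤ Q4 c * (∑ i, x i ^ 2) ^ 2 := by
  rw [lv_eq]
  have h1 : (∑ i, ∑ i', rr c c i i' * (x i * x i')) =
      ∑ p : ι × ι, rr c c p.1 p.2 * (x p.1 * x p.2) := by
    rw [Fintype.sum_prod_type]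
  have h2 : Q4 c = ∑ p : ι × ι, rr c c p.1 p.2 ^ 2 := by
    unfold Q4 rq
    rw [Fintype.sum_prod_type]
  have h3 : (∑ i, x i ^ 2) ^ 2 = ∑ p : ι × ι, (x p.1 * x p.2) ^ 2 := by
    rw [sq, sum_mul_sum, Fintype.sum_prod_type]
    refine sum_congr rfl fun i _ => sum_congr rfl fun i' _ => ?_
    ring
  rw [h1, h2, h3]
  exact sum_mul_sq_le_sq_mul_sq _ _ _

/-- `|c cᵀ|² = |cᵀ c|²` -/
lemma Q4_eq_lq (c : Matrix ι κ ℝ) : Q4 c = lq c c := by
  rw [← gram_pair c c]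
  unfold Q4 rq
  exact sum_congr rfl fun i _ => sum_congr rfl fun i' _ => sq _

lemma rv_eq (c : Matrix ι κ ℝ) (y : κ → ℝ) :
    rv c y = ∑ j, ∑ j', ll c c j j' * (y j * y j') := by
  unfold rv ll
  have h : ∀ i : ι, (∑ j, c i j * y j) ^ 2 = ∑ j, ∑ j', (c i j * c i j') * (y j * y j') := by
    intro i
    rw [sq, sum_mul_sum]
    refine sum_congr rfl fun i _ => sum_congr rfl fun i' _ => ?_
    ring
  simp only [h, sum_mul]
  rw [sum_comm]
  refine sum_congr rfl fun i _ => ?_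
  rw [sum_comm]

/-- `|c y|⁴ ≤ Q4 c · |y|⁴` -/
theorem rv_le (c : Matrix ι κ ℝ) (y : κ → ℝ) :
    rv c y ^ 2 ≤ Q4 c * (∑ j, y j ^ 2) ^ 2 := by
  rw [rv_eq, Q4_eq_lq]
  have h1 : (∑ i, ∑ i', ll c c i i' * (y i * y i')) =
      ∑ p : κ × κ, ll c c p.1 p.2 * (y p.1 * y p.2) := by
    rw [Fintype.sum_prod_type]
  have h2 : lq c c = ∑ p : κ × κ, ll c c p.1 p.2 ^ 2 := by
    unfold lq
    rw [Fintype.sum_prod_type]
  have h3 : (∑ i, y i ^ 2) ^ 2 = ∑ p : κ × κ, (y p.1 * y p.2) ^ 2 := by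
    rw [sq, sum_mul_sum, Fintype.sum_prod_type]
    refine sum_congr rfl fun i _ => sum_congr rfl fun i' _ => ?_
    ring
  rw [h1, h2, h3]
  exact sum_mul_sq_le_sq_mul_sq _ _ _

/-! ### averaging over the children -/

/-- data at the children `q ∈ s` with weights `r q`, averaging to the parent. -/
theorem step {α : Type*} (s : Finset α) (r : α → ℝ) (hr : ∀ q ∈ s, 0 ≤ r q)
    (hr1 : ∑ q ∈ s, r q = 1)
    {A : Matrix ι κ ℝ} {M : Matrix (ι × κ) (ι × κ) ℝ} (A' : α → Matrix ι κ ℝ)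
    (M' : α → Matrix (ι × κ) (ι × κ) ℝ) (hA : ∀ d, ∑ q ∈ s, r q * ip (A' q) d = ip A d)
    (hMM : ∀ c d, ∑ q ∈ s, r q * fm (M' q) c d = fm M c d) (hM' : ∀ q ∈ s, PSD (M' q))
    {τ k : ℝ} (hk : 0 ≤ k) (hτ : 0 ≤ τ) (c : Matrix ι κ ℝ) (c' : α → Matrix ι κ ℝ)
    (hc' : ∀ q ∈ s, IsCap (A' q) (M' q) τ k (c' q)) :
    Phi A M τ k c + ∑ q ∈ s, r q * (fm (M' q) (c' q - c) (c' q - c) + τ * nq (c' q - c)) ≤
      ∑ q ∈ s, r q * Phi (A' q) (M' q) τ k (c' q) := by
  have e1 : Phi A M τ k c = ∑ q ∈ s, r q * Phi (A' q) (M' q) τ k c := by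
    unfold Phi
    have : ∀ q, r q * (2 * ip (A' q) c - fm (M' q) c c - τ * nq c - k * Q4 c)
        = 2 * (r q * ip (A' q) c) - r q * fm (M' q) c c - r q * (τ * nq c + k * Q4 c) := by
      intro q; ring
    simp only [this]
    rw [sum_sub_distrib, sum_sub_distrib, ← mul_sum, hA, hMM, ← sum_mul, hr1]
    ring
  rw [e1, ← sum_add_distrib]
  refine sum_le_sum fun q hq => ?_
  rw [← mul_add]
  refine mul_le_mul_of_nonneg_left ?_ (hr q hq)
  have h := (hc' q hq).strong (hM' q hq) hk hτ (c - c' q)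
  have e2 : c' q + (c - c' q) = c := by abel
  have e3 : c - c' q = (-1 : ℝ) • (c' q - c) := by
    rw [neg_one_smul, neg_sub]
  rw [e2, e3, fm_smul_left, fm_smul_right, nq_smul] at h
  linarith

end Crest.Agent.R079.QCap
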