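import Crest.Agent.R079.Qb_247
import Crest.Agent.R079.Frozen_569

/-! R079, leaf (Qb) unconditionally (helper247): the frozen atom theorem is proved in
`Frozen_569`. -/

set_option autoImplicit false

namespace Crest.Agent.R079.QRed

/-- **(Qb)** -/
theorem qb : Qb := qb_of_frozenAtom Crest.Agent.R079.Glue.frozenAtom

end Crest.Agent.R079.QRed
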