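import Crest.Agent.R079.QDefs_248
import Crest.Agent.R079.Max_292
import Crest.Agent.R079.GrowthG1_215
import Crest.Agent.R079.Qe_292

/-! R079, leaf (Qh) of `QDefs_248` (helper249): the leaves of a full region below a node `p` of it
partition `iv p`. -/

set_option autoImplicit false

namespace Crest.Agent.R079.Qh249

open Finset Crest.Agent.R079.Grid Crest.Agent.R079.Growth Crest.Agent.R079.QRed

lemma mem_iv {p : Nd} {y : ℤ} : y ∈ iv p ↔ y / 2 ^ (p.1 + 7) = p.2 := by
  unfold iv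
  exact L0e.mem_dI

lemma mem_lf {R : Finset Nd} {p : Nd} : p ∈ lf R ↔ p ∈ R ∧ ∀ q ∈ R, iv q ⊆ iv p → q = p := by
  unfold lf
  rw [Finset.mem_filter]

/-- two nodes meeting at `y`, comparison by level -/
lemma sub_of_level {p q : Nd} {y : ℤ} (hp : y ∈ iv p) (hq : y ∈ iv q) (h : p.1 ≤ q.1) :
    iv p ⊆ iv q := by
  rcases iv_nest hp hq with h1 | h1
  · exact h1
  · have := iv_eq_of_level h1 h
    rw [this]

/-- a node with `y` in its interval which has a proper node below it has a child in the region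
whose interval contains `y` -/
lemma child_mem {W : Finset Nd} {I : Nd} (hW : Full W I) {L q : Nd} (hL : L ∈ W) (hq : q ∈ W)
    (hqL : iv q ⊆ iv L) (hne : q ≠ L) {y : ℤ} (hy : y ∈ iv L) :
    ∃ c ∈ W, y ∈ iv c ∧ c.1 < L.1 := by
  -- level of `q` is smaller
  have hlev : q.1 < L.1 := by
    rcases (Growth.iv_level hqL).lt_or_eq with h | h
    · exact h
    · exact absurd (iv_eq_of_level hqL h.symm.le).symm hne
  obtain ⟨m, hm⟩ : ∃ m, L.1 = m + 1 := ⟨L.1 - 1, by omega⟩
  have hLe : L = (m + 1, L.2) := Prod.ext hm rfl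
  -- the child of `L` that contains the left endpoint of `q`
  obtain ⟨z, hz⟩ := iv_nonempty q
  have hzL := hqL hz
  rw [mem_iv, hm] at hzL
  have hchild : ∀ w : ℤ, w / 2 ^ (m + 1 + 7) = L.2 →
      w ∈ iv (m, 2 * L.2) ∨ w ∈ iv (m, 2 * L.2 + 1) := by
    intro w hw
    rw [show m + 1 + 7 = m + 7 + 1 by omega, ← L0e.ediv_pow_pow, pow_one] at hw
    rw [mem_iv, mem_iv]
    simp only
    omega
  have hsubL : ∀ l : ℤ, l / 2 = L.2 → iv (m, l) ⊆ iv L := by
    intro l hl
    rw [hLe]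
    have := L0e.dI_sub (m + 7) 1 l
    rw [pow_one, hl] at this
    exact this
  have hup : ∀ c : Nd, c.1 = m → z ∈ iv c → iv c ⊆ iv L → c ∈ W := by
    intro c hc hzc hcL
    refine hW.reg.2 q hq c (sub_of_level hz hzc (by omega)) (hcL.trans (hW.reg.1 L hL))
  have h1 : (m, 2 * L.2) ∈ W ∨ (m, 2 * L.2 + 1) ∈ W := by
    rcases hchild z hzL with h | h
    · exact Or.inl (hup _ rfl h (hsubL _ (by omega)))
    · exact Or.inr (hup _ rfl h (hsubL _ (by omega)))
  have hb := hW.bin m L.2 (hLe ▸ hL)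
  have h2 : (m, 2 * L.2) ∈ W ∧ (m, 2 * L.2 + 1) ∈ W := by tauto
  have hyL := hy
  rw [mem_iv, hm] at hyL
  rcases hchild y hyL with h | h
  · exact ⟨_, h2.1, h, by simp only; omega⟩
  · exact ⟨_, h2.2, h, by simp only; omega⟩

/-- **(Qh)** -/
theorem qh : Qh := by
  classical
  intro W I hW p hp
  refine ⟨fun L hL => ?_, fun y hy => ?_⟩
  · rw [mem_lf] at hL
    refine ⟨hL.1, ?_⟩
    by_cases hd : Disjoint (iv L) (iv p)
    · exact Or.inr hd
    · left
      rw [Finset.not_disjoint_iff] at hd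
      obtain ⟨y, h1, h2⟩ := hd
      rcases iv_nest h1 h2 with h | h
      · exact h
      · rw [hL.2 p hp h]
  · obtain ⟨L, hL, hmin⟩ := Finset.exists_min_image (W.filter (fun q => y ∈ iv q)) (fun q => q.1)
      ⟨p, Finset.mem_filter.2 ⟨hp, hy⟩⟩
    rw [Finset.mem_filter] at hL
    have hLlf : L ∈ lf W := by
      rw [mem_lf]
      refine ⟨hL.1, fun q hq hqL => ?_⟩
      by_contra hne
      obtain ⟨c, hc, hyc, hlt⟩ := child_mem hW hL.1 hq hqL hne hL.2
      have := hmin c (Finset.mem_filter.2 ⟨hc, hyc⟩)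
      omega
    refine ⟨L, hLlf, ?_, hL.2, fun L' hL' hy' => ?_⟩
    · exact sub_of_level hL.2 hy (hmin p (Finset.mem_filter.2 ⟨hp, hy⟩))
    · rw [mem_lf] at hL' hLlf
      rcases iv_nest hL.2 hy' with h | h
      · exact (hL'.2 L hL.1 h).symm
      · exact hLlf.2 L' hL'.1 h

end Crest.Agent.R079.Qh249
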