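import Mathlib

/-! R079, S2.line_plug (doc 2531, Step II), helper442: the COUNTING lemma after `GlueK.sum_norm_Lbox_kerF_le`.
Positions `p` (three coordinates `pm pb pc`, jointly injective on `P`), offsets `v i < 2N`,
frozen variables `w = v + n - pb - pc - pm`, `z = pm + i`.  The average over the offsets costs nothing:
constant `1`. -/

set_option autoImplicit false

namespace Crest.Agent.R079.Rear442

open Finset

/-- Cauchy-Schwarz on an antidiagonal -/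
theorem diag_cs (Pb Pc : Finset ℤ) (c : ℤ) (b a : ℤ → ℝ) :
    ∑ x ∈ Pb, ∑ y ∈ Pc, (if x + y = c then b x * a y else 0) ≤
      Real.sqrt (∑ x ∈ Pb, b x ^ 2) * Real.sqrt (∑ y ∈ Pc, a y ^ 2) := by
  classical
  rw [← Finset.sum_product', ← Finset.sum_filter]
  refine (Real.sum_mul_le_sqrt_mul_sqrt _ (fun q : ℤ × ℤ => b q.1) (fun q => a q.2)).trans ?_
  refine mul_le_mul (Real.sqrt_le_sqrt ?_) (Real.sqrt_le_sqrt ?_) (Real.sqrt_nonneg _)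
    (Real.sqrt_nonneg _)
  · have hinj : Set.InjOn (fun q : ℤ × ℤ => q.1)
        (((Pb ×ˢ Pc).filter (fun q => q.1 + q.2 = c) : Finset (ℤ × ℤ)) : Set (ℤ × ℤ)) := by
      intro q hq q' hq' h
      simp only [coe_filter, mem_product, Set.mem_ofPred_eq] at hq hq'
      refine Prod.ext h ?_
      have h' : q.1 = q'.1 := h
      omega
    rw [← Finset.sum_image (f := fun x => b x ^ 2) (g := fun q : ℤ × ℤ => q.1) hinj]
    refine Finset.sum_le_sum_of_subset_of_nonneg ?_ (fun _ _ _ => sq_nonneg _)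
    intro x hx
    obtain ⟨q, hq, rfl⟩ := Finset.mem_image.1 hx
    exact (Finset.mem_product.1 (Finset.mem_filter.1 hq).1).1
  · have hinj : Set.InjOn (fun q : ℤ × ℤ => q.2)
        (((Pb ×ˢ Pc).filter (fun q => q.1 + q.2 = c) : Finset (ℤ × ℤ)) : Set (ℤ × ℤ)) := by
      intro q hq q' hq' h
      simp only [coe_filter, mem_product, Set.mem_ofPred_eq] at hq hq'
      refine Prod.ext ?_ h
      have h' : q.2 = q'.2 := h
      omega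
    rw [← Finset.sum_image (f := fun x => a x ^ 2) (g := fun q : ℤ × ℤ => q.2) hinj]
    refine Finset.sum_le_sum_of_subset_of_nonneg ?_ (fun _ _ _ => sq_nonneg _)
    intro x hx
    obtain ⟨q, hq, rfl⟩ := Finset.mem_image.1 hx
    exact (Finset.mem_product.1 (Finset.mem_filter.1 hq).1).2

section
variable {ι : Type*} (P : Finset ι) (pm pb pc : ι → ℤ)

/-- one pair of offsets `(v, i)` -/
theorem rear1 (hinj : ∀ p ∈ P, ∀ p' ∈ P, pm p = pm p' → pb p = pb p' → pc p = pc p' → p = p')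
    (n v i : ℤ) (β α : ℤ → ℤ → ℤ → ℝ) (hβ : ∀ w z p, 0 ≤ β w z p) (hα : ∀ w z p, 0 ≤ α w z p)
    (Ws Zs Pb Pc : Finset ℤ)
    (hW : ∀ p ∈ P, v + n - pb p - pc p - pm p ∈ Ws) (hZ : ∀ p ∈ P, pm p + i ∈ Zs)
    (hPb : ∀ p ∈ P, pb p ∈ Pb) (hPc : ∀ p ∈ P, pc p ∈ Pc) :
    ∑ p ∈ P, β (v + n - pb p - pc p - pm p) (pm p + i) (pb p) *
        α (v + n - pb p - pc p - pm p) (pm p + i) (pc p) ≤
      ∑ w ∈ Ws, ∑ z ∈ Zs, Real.sqrt (∑ x ∈ Pb, β w z x ^ 2) * Real.sqrt (∑ y ∈ Pc, α w z y ^ 2) := by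
  classical
  set φ : ι → (ℤ × ℤ) × (ℤ × ℤ) :=
    fun p => ((v + n - pb p - pc p - pm p, pm p + i), (pb p, pc p)) with hφ
  have hφi : Set.InjOn φ (P : Set ι) := by
    intro p hp p' hp' h
    have h1 := congrArg (fun q => q.1.2) h
    have h2 := congrArg (fun q => q.2.1) h
    have h3 := congrArg (fun q => q.2.2) h
    simp only [hφ] at h1 h2 h3
    exact hinj p (Finset.mem_coe.1 hp) p' (Finset.mem_coe.1 hp') (by omega) h2 h3
  set g : (ℤ × ℤ) × (ℤ × ℤ) → ℝ := fun q =>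
    if q.2.1 + q.2.2 = v + n + i - q.1.1 - q.1.2 then β q.1.1 q.1.2 q.2.1 * α q.1.1 q.1.2 q.2.2
    else 0 with hg
  have hg0 : ∀ q, 0 ≤ g q := by
    intro q
    simp only [hg]
    split_ifs
    · exact mul_nonneg (hβ _ _ _) (hα _ _ _)
    · exact le_rfl
  have h1 : ∑ p ∈ P, β (v + n - pb p - pc p - pm p) (pm p + i) (pb p) *
      α (v + n - pb p - pc p - pm p) (pm p + i) (pc p) = ∑ q ∈ P.image φ, g q := by
    rw [Finset.sum_image hφi]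
    refine Finset.sum_congr rfl fun p _ => ?_
    simp only [hg, hφ]
    rw [if_pos (by ring)]
  rw [h1]
  have h2 : ∑ q ∈ P.image φ, g q ≤ ∑ q ∈ (Ws ×ˢ Zs) ×ˢ (Pb ×ˢ Pc), g q := by
    refine Finset.sum_le_sum_of_subset_of_nonneg ?_ (fun q _ _ => hg0 q)
    intro q hq
    obtain ⟨p, hp, rfl⟩ := Finset.mem_image.1 hq
    simp only [hφ, Finset.mem_product]
    exact ⟨⟨hW p hp, hZ p hp⟩, hPb p hp, hPc p hp⟩
  refine h2.trans ?_
  rw [Finset.sum_product, Finset.sum_product]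
  refine Finset.sum_le_sum fun w _ => Finset.sum_le_sum fun z _ => ?_
  rw [Finset.sum_product]
  exact diag_cs Pb Pc (v + n + i - w - z) (β w z) (α w z)

/-- **the counting lemma** -/
theorem rear (hinj : ∀ p ∈ P, ∀ p' ∈ P, pm p = pm p' → pb p = pb p' → pc p = pc p' → p = p')
    (N : ℕ) (n : ℤ) (β α : ℤ → ℤ → ℤ → ℝ) (hβ : ∀ w z p, 0 ≤ β w z p) (hα : ∀ w z p, 0 ≤ α w z p)
    (Ws Zs Pb Pc : Finset ℤ)
    (hW : ∀ p ∈ P, ∀ v : Fin (N + N), ((v : ℕ) : ℤ) + n - pb p - pc p - pm p ∈ Ws)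
    (hZ : ∀ p ∈ P, ∀ i : Fin (N + N), pm p + ((i : ℕ) : ℤ) ∈ Zs)
    (hPb : ∀ p ∈ P, pb p ∈ Pb) (hPc : ∀ p ∈ P, pc p ∈ Pc) :
    ∑ p ∈ P, (1 / ((N : ℝ) + N)) * ∑ v : Fin (N + N), (1 / ((N : ℝ) + N)) * ∑ i : Fin (N + N),
      β (((v : ℕ) : ℤ) + n - pb p - pc p - pm p) (pm p + ((i : ℕ) : ℤ)) (pb p) *
        α (((v : ℕ) : ℤ) + n - pb p - pc p - pm p) (pm p + ((i : ℕ) : ℤ)) (pc p) ≤
      ∑ w ∈ Ws, ∑ z ∈ Zs, Real.sqrt (∑ x ∈ Pb, β w z x ^ 2) * Real.sqrt (∑ y ∈ Pc, α w z y ^ 2) := by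
  classical
  set S : ℝ := ∑ w ∈ Ws, ∑ z ∈ Zs,
    Real.sqrt (∑ x ∈ Pb, β w z x ^ 2) * Real.sqrt (∑ y ∈ Pc, α w z y ^ 2) with hS
  have hS0 : 0 ≤ S := Finset.sum_nonneg fun w _ => Finset.sum_nonneg fun z _ =>
    mul_nonneg (Real.sqrt_nonneg _) (Real.sqrt_nonneg _)
  have e : ∑ p ∈ P, (1 / ((N : ℝ) + N)) * ∑ v : Fin (N + N), (1 / ((N : ℝ) + N)) *
      ∑ i : Fin (N + N),
      β (((v : ℕ) : ℤ) + n - pb p - pc p - pm p) (pm p + ((i : ℕ) : ℤ)) (pb p) *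
        α (((v : ℕ) : ℤ) + n - pb p - pc p - pm p) (pm p + ((i : ℕ) : ℤ)) (pc p) =
      (1 / ((N : ℝ) + N)) * ∑ v : Fin (N + N), (1 / ((N : ℝ) + N)) * ∑ i : Fin (N + N), ∑ p ∈ P,
      β (((v : ℕ) : ℤ) + n - pb p - pc p - pm p) (pm p + ((i : ℕ) : ℤ)) (pb p) *
        α (((v : ℕ) : ℤ) + n - pb p - pc p - pm p) (pm p + ((i : ℕ) : ℤ)) (pc p) := by
    rw [← Finset.mul_sum, Finset.sum_comm]
    congr 1
    refine Finset.sum_congr rfl fun v _ => ?_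
    rw [← Finset.mul_sum, Finset.sum_comm]
  rw [e]
  rcases Nat.eq_zero_or_pos N with h0 | hN
  · subst h0
    simpa using hS0
  have hN' : (0 : ℝ) < (N : ℝ) + N := by
    have : (0 : ℝ) < N := Nat.cast_pos.2 hN
    linarith
  have hin : ∀ v i : Fin (N + N), ∑ p ∈ P,
      β (((v : ℕ) : ℤ) + n - pb p - pc p - pm p) (pm p + ((i : ℕ) : ℤ)) (pb p) *
        α (((v : ℕ) : ℤ) + n - pb p - pc p - pm p) (pm p + ((i : ℕ) : ℤ)) (pc p) ≤ S := fun v i =>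
    rear1 P pm pb pc hinj n _ _ β α hβ hα Ws Zs Pb Pc (fun p hp => hW p hp v) (fun p hp => hZ p hp i)
      hPb hPc
  have hcard : ∑ _v : Fin (N + N), (1 : ℝ) = (N : ℝ) + N := by
    simp
  calc (1 / ((N : ℝ) + N)) * ∑ v : Fin (N + N), (1 / ((N : ℝ) + N)) * ∑ i : Fin (N + N), ∑ p ∈ P,
      β (((v : ℕ) : ℤ) + n - pb p - pc p - pm p) (pm p + ((i : ℕ) : ℤ)) (pb p) *
        α (((v : ℕ) : ℤ) + n - pb p - pc p - pm p) (pm p + ((i : ℕ) : ℤ)) (pc p)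
      ≤ (1 / ((N : ℝ) + N)) * ∑ _v : Fin (N + N), (1 / ((N : ℝ) + N)) *
          ∑ _i : Fin (N + N), S := by
        refine mul_le_mul_of_nonneg_left (Finset.sum_le_sum fun v _ => ?_) (by positivity)
        exact mul_le_mul_of_nonneg_left (Finset.sum_le_sum fun i _ => hin v i) (by positivity)
    _ = S := by
        simp only [Finset.sum_const, Finset.card_univ, Fintype.card_fin, nsmul_eq_mul]
        push_cast
        field_simp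

/-- Cauchy-Schwarz over the frozen variables -/
theorem frozen_cs (Ws Zs : Finset ℤ) (B A : ℤ → ℤ → ℝ) (hB : ∀ w z, 0 ≤ B w z)
    (hA : ∀ w z, 0 ≤ A w z) :
    ∑ w ∈ Ws, ∑ z ∈ Zs, Real.sqrt (B w z) * Real.sqrt (A w z) ≤
      Real.sqrt (∑ w ∈ Ws, ∑ z ∈ Zs, B w z) * Real.sqrt (∑ w ∈ Ws, ∑ z ∈ Zs, A w z) := by
  classical
  rw [← Finset.sum_product', ← Finset.sum_product', ← Finset.sum_product']
  refine (Real.sum_mul_le_sqrt_mul_sqrt _ (fun q : ℤ × ℤ => Real.sqrt (B q.1 q.2))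
    (fun q => Real.sqrt (A q.1 q.2))).trans (le_of_eq ?_)
  congr 1
  · congr 1
    exact Finset.sum_congr rfl fun q _ => Real.sq_sqrt (hB _ _)
  · congr 1
    exact Finset.sum_congr rfl fun q _ => Real.sq_sqrt (hA _ _)

/-- **final form**: two square sums -/
theorem rear_cs (hinj : ∀ p ∈ P, ∀ p' ∈ P, pm p = pm p' → pb p = pb p' → pc p = pc p' → p = p')
    (N : ℕ) (n : ℤ) (β α : ℤ → ℤ → ℤ → ℝ) (hβ : ∀ w z p, 0 ≤ β w z p) (hα : ∀ w z p, 0 ≤ α w z p)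
    (Ws Zs Pb Pc : Finset ℤ)
    (hW : ∀ p ∈ P, ∀ v : Fin (N + N), ((v : ℕ) : ℤ) + n - pb p - pc p - pm p ∈ Ws)
    (hZ : ∀ p ∈ P, ∀ i : Fin (N + N), pm p + ((i : ℕ) : ℤ) ∈ Zs)
    (hPb : ∀ p ∈ P, pb p ∈ Pb) (hPc : ∀ p ∈ P, pc p ∈ Pc) :
    ∑ p ∈ P, (1 / ((N : ℝ) + N)) * ∑ v : Fin (N + N), (1 / ((N : ℝ) + N)) * ∑ i : Fin (N + N),
      β (((v : ℕ) : ℤ) + n - pb p - pc p - pm p) (pm p + ((i : ℕ) : ℤ)) (pb p) *
        α (((v : ℕ) : ℤ) + n - pb p - pc p - pm p) (pm p + ((i : ℕ) : ℤ)) (pc p) ≤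
      Real.sqrt (∑ w ∈ Ws, ∑ z ∈ Zs, ∑ x ∈ Pb, β w z x ^ 2) *
        Real.sqrt (∑ w ∈ Ws, ∑ z ∈ Zs, ∑ y ∈ Pc, α w z y ^ 2) :=
  (rear P pm pb pc hinj N n β α hβ hα Ws Zs Pb Pc hW hZ hPb hPc).trans
    (frozen_cs Ws Zs _ _ (fun _ _ => Finset.sum_nonneg fun _ _ => sq_nonneg _)
      (fun _ _ => Finset.sum_nonneg fun _ _ => sq_nonneg _))

end

end Crest.Agent.R079.Rear442
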