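import Mathlib

/-!
# REL, abstract part (helper629)

`val Φ X g = ‖X - g‖² + Φ g` for a convex `Φ ≥ 0`.  Minimiser over a closed convex set `K`,
1-strong convexity, Euler-Lagrange equation, and the "glued leaf" form: if `val g ≤ J + η`
then `X = g + (1/2) ∇Φ(g) + e` with `‖e‖² ≤ (1 + L/2) η`.
Everything is model free (real inner product space, finite dimension only for existence).
-/

set_option autoImplicit false

namespace Crest.Agent.R079.Rel629

open scoped RealInnerProductSpace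

variable {E : Type*} [NormedAddCommGroup E] [InnerProductSpace ℝ E]

/-- The REL functional. -/
def val (Φ : E → ℝ) (X g : E) : ℝ := ‖X - g‖ ^ 2 + Φ g

/-- `g` minimises `val Φ X` over `K`. -/
structure IsMin (K : Set E) (Φ : E → ℝ) (X g : E) : Prop where
  mem : g ∈ K
  le : ∀ h ∈ K, val Φ X g ≤ val Φ X h

omit [InnerProductSpace ℝ E] in
theorem val_nonneg {Φ : E → ℝ} (h0 : ∀ x, 0 ≤ Φ x) (X g : E) : 0 ≤ val Φ X g :=
  add_nonneg (sq_nonneg _) (h0 g)

theorem exists_isMin [FiniteDimensional ℝ E] {K : Set E} (hK : IsClosed K) (hne : K.Nonempty)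
    {Φ : E → ℝ} (hc : Continuous Φ) (h0 : ∀ x, 0 ≤ Φ x) (X : E) :
    ∃ g, IsMin K Φ X g := by
  obtain ⟨g0, hg0⟩ := hne
  have hcont : Continuous (fun g => val Φ X g) := by
    unfold val; fun_prop
  set R := Real.sqrt (val Φ X g0) with hR
  have hR0 : 0 ≤ R := Real.sqrt_nonneg _
  have hS : IsCompact (Metric.closedBall X R ∩ K) :=
    (isCompact_closedBall X R).inter_right hK
  have hsq : R ^ 2 = val Φ X g0 := Real.sq_sqrt (val_nonneg h0 X g0)
  have hg0S : g0 ∈ Metric.closedBall X R ∩ K := by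
    refine ⟨?_, hg0⟩
    rw [Metric.mem_closedBall, dist_comm, dist_eq_norm]
    have : ‖X - g0‖ ^ 2 ≤ R ^ 2 := by
      rw [hsq]; unfold val; linarith [h0 g0]
    exact abs_le_of_sq_le_sq' this hR0 |>.2
  obtain ⟨g, hgS, hg⟩ := hS.exists_isMinOn ⟨g0, hg0S⟩ hcont.continuousOn
  refine ⟨g, hgS.2, fun h hh => ?_⟩
  by_cases hb : h ∈ Metric.closedBall X R
  · exact hg ⟨hb, hh⟩
  · have h1 : val Φ X g ≤ val Φ X g0 := hg hg0S
    have h2 : R < ‖X - h‖ := by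
      rw [Metric.mem_closedBall, dist_comm, dist_eq_norm] at hb
      exact not_le.mp hb
    have h3 : R ^ 2 ≤ ‖X - h‖ ^ 2 := by
      exact pow_le_pow_left₀ hR0 h2.le 2
    have h4 : val Φ X h = ‖X - h‖ ^ 2 + Φ h := rfl
    linarith [h0 h]

/-- `‖X - (a + θ (b - a))‖² = (1-θ) ‖X-a‖² + θ ‖X-b‖² - θ (1-θ) ‖b-a‖²`. -/
theorem norm_mix (X a b : E) (θ : ℝ) :
    ‖X - (a + θ • (b - a))‖ ^ 2 =
      (1 - θ) * ‖X - a‖ ^ 2 + θ * ‖X - b‖ ^ 2 - θ * (1 - θ) * ‖b - a‖ ^ 2 := by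
  have e1 : X - (a + θ • (b - a)) = (X - a) - θ • (b - a) := by abel
  have e2 : X - b = (X - a) - (b - a) := by abel
  rw [e1, e2, norm_sub_sq_real (X - a) (θ • (b - a)), norm_sub_sq_real (X - a) (b - a),
    inner_smul_right, norm_smul, mul_pow, Real.norm_eq_abs, sq_abs]
  ring

/-- 1-strong convexity of the functional at a minimiser. -/
theorem IsMin.strong {K : Set E} {Φ : E → ℝ} {X g : E} (hm : IsMin K Φ X g)
    (hconv : ConvexOn ℝ K Φ) {h : E} (hh : h ∈ K) :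
    val Φ X g + ‖h - g‖ ^ 2 ≤ val Φ X h := by
  -- for every θ in (0,1): val g + (1-θ)‖h-g‖² ≤ val h
  have key : ∀ θ : ℝ, 0 < θ → θ < 1 → val Φ X g + (1 - θ) * ‖h - g‖ ^ 2 ≤ val Φ X h := by
    intro θ h0 h1
    have hmem : g + θ • (h - g) ∈ K := by
      have := hconv.1 hm.mem hh (by linarith : (0:ℝ) ≤ 1 - θ) h0.le (by ring)
      have e : (1 - θ) • g + θ • h = g + θ • (h - g) := by
        rw [sub_smul, one_smul, smul_sub]; abel
      rwa [e] at this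
    have h2 := hm.le _ hmem
    have h3 : Φ (g + θ • (h - g)) ≤ (1 - θ) * Φ g + θ * Φ h := by
      have := hconv.2 hm.mem hh (by linarith : (0:ℝ) ≤ 1 - θ) h0.le (by ring)
      have e : (1 - θ) • g + θ • h = g + θ • (h - g) := by
        rw [sub_smul, one_smul, smul_sub]; abel
      rw [e] at this
      simpa [smul_eq_mul] using this
    have h4 := norm_mix X g h θ
    unfold val at h2 ⊢
    rw [h4] at h2
    have h5 : θ * (‖X - g‖ ^ 2 + Φ g + (1 - θ) * ‖h - g‖ ^ 2) ≤ θ * (‖X - h‖ ^ 2 + Φ h) := by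
      nlinarith
    exact le_of_mul_le_mul_left h5 h0
  by_contra hlt
  push Not at hlt
  have hd : 0 < val Φ X g + ‖h - g‖ ^ 2 - val Φ X h := by linarith
  have hn : 0 ≤ ‖h - g‖ ^ 2 := sq_nonneg _
  set D := val Φ X g + ‖h - g‖ ^ 2 - val Φ X h with hD
  -- choose θ small
  have hpos : 0 < ‖h - g‖ ^ 2 + 1 := by linarith
  set θ := min (1 / 2) (D / (2 * (‖h - g‖ ^ 2 + 1))) with hθ
  have hθ0 : 0 < θ := lt_min (by norm_num) (by positivity)
  have hθ1 : θ < 1 := lt_of_le_of_lt (min_le_left _ _) (by norm_num)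
  have := key θ hθ0 hθ1
  have h6 : θ * ‖h - g‖ ^ 2 ≤ D / 2 := by
    have : θ ≤ D / (2 * (‖h - g‖ ^ 2 + 1)) := min_le_right _ _
    calc θ * ‖h - g‖ ^ 2 ≤ D / (2 * (‖h - g‖ ^ 2 + 1)) * (‖h - g‖ ^ 2 + 1) := by
          apply mul_le_mul this (by linarith) hn (by positivity)
      _ = D / 2 := by field_simp
  nlinarith

theorem IsMin.unique {K : Set E} {Φ : E → ℝ} {X g h : E} (hm : IsMin K Φ X g)
    (hm' : IsMin K Φ X h) (hconv : ConvexOn ℝ K Φ) : h = g := by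
  have h1 := hm.strong hconv hm'.mem
  have h2 := hm'.le g hm.mem
  have h3 : ‖h - g‖ ^ 2 ≤ 0 := by linarith
  have h4 : ‖h - g‖ = 0 := by
    have := sq_nonneg ‖h - g‖
    exact pow_eq_zero_iff (two_ne_zero) |>.1 (le_antisymm h3 this)
  exact sub_eq_zero.mp (norm_eq_zero.mp h4)

/-- An almost minimiser is close to the minimiser. -/
theorem IsMin.close {K : Set E} {Φ : E → ℝ} {X g h : E} {η : ℝ} (hm : IsMin K Φ X g)
    (hconv : ConvexOn ℝ K Φ) (hh : h ∈ K) (hη : val Φ X h ≤ val Φ X g + η) :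
    ‖h - g‖ ^ 2 ≤ η := by
  linarith [hm.strong hconv hh]

/-- Variational inequality: the multiplier `2 (X - g) - ∇Φ(g)` lies in the normal cone of `K`. -/
theorem IsMin.normal {K : Set E} {Φ : E → ℝ} {X g G : E} (hK : Convex ℝ K)
    (hm : IsMin K Φ X g) (hG : HasFDerivAt Φ (innerSL ℝ G) g) {h : E} (hh : h ∈ K) :
    ⟪(2 : ℝ) • (X - g) - G, h - g⟫ ≤ 0 := by
  -- one-variable function s ↦ val (g + s (h-g)) has derivative ≥ 0 at 0 from the right
  have hderiv : HasDerivAt (fun s : ℝ => ‖X - (g + s • (h - g))‖ ^ 2 + Φ (g + s • (h - g)))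
      (-(⟪(2 : ℝ) • (X - g) - G, h - g⟫)) 0 := by
    have hline : HasDerivAt (fun s : ℝ => g + s • (h - g)) (h - g) 0 := by
      have := ((hasDerivAt_id (0 : ℝ)).smul_const (h - g)).const_add g
      simpa using this
    have h1 : HasDerivAt (fun s : ℝ => Φ (g + s • (h - g))) (⟪G, h - g⟫) 0 := by
      have hg' : HasFDerivAt Φ (innerSL ℝ G) (g + (0 : ℝ) • (h - g)) := by simpa using hG
      exact hg'.comp_hasDerivAt (0 : ℝ) hline
    have h2 : HasDerivAt (fun s : ℝ => ‖X - (g + s • (h - g))‖ ^ 2)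
        (-(2 * ⟪X - g, h - g⟫)) 0 := by
      have e : (fun s : ℝ => ‖X - (g + s • (h - g))‖ ^ 2) =
          fun s : ℝ => ‖X - g‖ ^ 2 - 2 * s * ⟪X - g, h - g⟫ + s ^ 2 * ‖h - g‖ ^ 2 := by
        funext s
        have e1 : X - (g + s • (h - g)) = (X - g) - s • (h - g) := by abel
        rw [e1, norm_sub_sq_real, inner_smul_right, norm_smul, mul_pow, Real.norm_eq_abs, sq_abs]
        ring
      rw [e]
      have ha : HasDerivAt (fun s : ℝ => 2 * s * ⟪X - g, h - g⟫) (2 * 1 * ⟪X - g, h - g⟫) 0 :=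
        ((hasDerivAt_id (0 : ℝ)).const_mul 2).mul_const _
      have hb : HasDerivAt (fun s : ℝ => s ^ 2 * ‖h - g‖ ^ 2)
          ((2 : ℕ) * (0 : ℝ) ^ (2 - 1) * 1 * ‖h - g‖ ^ 2) 0 :=
        (((hasDerivAt_id (0 : ℝ)).pow 2).mul_const _)
      have hc := ((hasDerivAt_const (0 : ℝ) (‖X - g‖ ^ 2)).sub ha).add hb
      exact hc.congr_deriv (by simp)
    refine (h2.add h1).congr_deriv ?_
    rw [inner_sub_left ((2 : ℝ) • (X - g)) G (h - g), real_inner_smul_left]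
    ring
  -- if the inner product were > 0, val would decrease
  by_contra hcon
  push Not at hcon
  have hneg : -(⟪(2 : ℝ) • (X - g) - G, h - g⟫) < 0 := by linarith
  set f : ℝ → ℝ := fun s : ℝ => ‖X - (g + s • (h - g))‖ ^ 2 + Φ (g + s • (h - g)) with hf
  have hslope := hderiv.tendsto_slope_zero_right
  have hev : ∀ᶠ s in nhdsWithin (0 : ℝ) (Set.Ioi 0), s⁻¹ • (f (0 + s) - f 0) < 0 :=
    hslope.eventually (gt_mem_nhds hneg)
  have hev2 : ∀ᶠ s in nhdsWithin (0 : ℝ) (Set.Ioi 0), s < 1 :=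
    (nhdsWithin_le_nhds) (gt_mem_nhds (by norm_num : (0:ℝ) < 1))
  have hev3 : ∀ᶠ s in nhdsWithin (0 : ℝ) (Set.Ioi 0), (0 : ℝ) < s := self_mem_nhdsWithin
  obtain ⟨s, hs1, hs2, hs3⟩ := (hev.and (hev2.and hev3)).exists
  have hmem : g + s • (h - g) ∈ K := by
    have := hK hm.mem hh (by linarith : (0:ℝ) ≤ 1 - s) hs3.le (by ring)
    have e : (1 - s) • g + s • h = g + s • (h - g) := by
      rw [sub_smul, one_smul, smul_sub]; abel
    rwa [e] at this
  have h5 := hm.le _ hmem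
  have h6 : f 0 ≤ f (0 + s) := by
    simp only [hf, zero_smul, add_zero, zero_add]
    simpa [val] using h5
  have h7 : 0 ≤ s⁻¹ • (f (0 + s) - f 0) := by
    rw [smul_eq_mul]; exact mul_nonneg (inv_nonneg.2 hs3.le) (by linarith)
  linarith

/-- Euler-Lagrange equation without constraint. -/
theorem IsMin.EL {Φ : E → ℝ} {X g G : E} (hm : IsMin Set.univ Φ X g)
    (hG : HasFDerivAt Φ (innerSL ℝ G) g) : X = g + (1 / 2 : ℝ) • G := by
  have h1 := hm.normal convex_univ hG (Set.mem_univ (g + ((2 : ℝ) • (X - g) - G)))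
  rw [add_sub_cancel_left] at h1
  have h2 : (2 : ℝ) • (X - g) - G = 0 := by
    have : ‖(2 : ℝ) • (X - g) - G‖ ^ 2 ≤ 0 := by
      rw [← real_inner_self_eq_norm_sq]; exact h1
    have h3 : ‖(2 : ℝ) • (X - g) - G‖ = 0 := by
      exact pow_eq_zero_iff (two_ne_zero) |>.1 (le_antisymm this (sq_nonneg _))
    exact norm_eq_zero.mp h3
  have h3 : G = (2 : ℝ) • (X - g) := (sub_eq_zero.mp h2).symm
  rw [h3, smul_smul]
  norm_num

/-- Bregman distance. -/
def breg (Φ : E → ℝ) (G : E → E) (h g : E) : ℝ := Φ h - Φ g - ⟪G g, h - g⟫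

/-- Exact Pythagoras at the minimiser. -/
theorem val_eq_of_EL {Φ : E → ℝ} {G : E → E} {X g : E} (hEL : X = g + (1 / 2 : ℝ) • G g) (h : E) :
    val Φ X h = val Φ X g + ‖h - g‖ ^ 2 + breg Φ G h g := by
  unfold val breg
  have e1 : X - g = (1 / 2 : ℝ) • G g := by rw [hEL]; abel
  have e2 : X - h = (1 / 2 : ℝ) • G g - (h - g) := by rw [← e1]; abel
  rw [e2, norm_sub_sq_real, ← e1, inner_smul_left_eq_smul' e1]
  ring
where
  inner_smul_left_eq_smul' {X g : E} {G : E → E} {h : E} (e1 : X - g = (1 / 2 : ℝ) • G g) :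
      ⟪X - g, h - g⟫ = (1 / 2) * ⟪G g, h - g⟫ := by
    rw [e1, inner_smul_left]; simp

/-- **Glued leaf form of REL** (133 22476 (1)): an `η`-minimiser `h` satisfies
`X = h + (1/2) ∇Φ(h) + e` with `‖e‖² ≤ (1 + L/2) η`. -/
theorem glued_leaf {Φ : E → ℝ} {G : E → E} {X g h : E} {L η : ℝ} (hL : 0 ≤ L)
    (hEL : X = g + (1 / 2 : ℝ) • G g)
    (hB : ‖G h - G g‖ ^ 2 ≤ 2 * L * breg Φ G h g) (hB0 : 0 ≤ breg Φ G h g)
    (hη : val Φ X h ≤ val Φ X g + η) :
    ‖X - h - (1 / 2 : ℝ) • G h‖ ^ 2 ≤ (1 + L / 2) * η := by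
  have h1 := val_eq_of_EL (Φ := Φ) hEL h
  have h2 : ‖h - g‖ ^ 2 + breg Φ G h g ≤ η := by linarith
  have e1 : X - h - (1 / 2 : ℝ) • G h = -((h - g) + (1 / 2 : ℝ) • (G h - G g)) := by
    rw [hEL, smul_sub]; abel
  rw [e1, norm_neg]
  have h3 : ‖(h - g) + (1 / 2 : ℝ) • (G h - G g)‖ ≤ ‖h - g‖ + 1 / 2 * ‖G h - G g‖ := by
    refine (norm_add_le _ _).trans ?_
    rw [norm_smul]; norm_num
  have h4 : ‖(h - g) + (1 / 2 : ℝ) • (G h - G g)‖ ^ 2 ≤ (‖h - g‖ + 1 / 2 * ‖G h - G g‖) ^ 2 :=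
    pow_le_pow_left₀ (norm_nonneg _) h3 2
  -- (a + b/2)² ≤ (1 + L/2)(a² + B) with b² ≤ 2 L B
  set a := ‖h - g‖ with ha
  set b := ‖G h - G g‖ with hb
  set B := breg Φ G h g with hBdef
  have ha0 : 0 ≤ a := norm_nonneg _
  have hb0 : 0 ≤ b := norm_nonneg _
  have h5 : (a + 1 / 2 * b) ^ 2 ≤ (1 + L / 2) * (a ^ 2 + B) := by
    rcases eq_or_lt_of_le hL with h0 | h0
    · have : b ^ 2 ≤ 0 := by rw [← h0] at hB; simpa using hB
      have hb' : b = 0 := pow_eq_zero_iff (two_ne_zero) |>.1 (le_antisymm this (sq_nonneg _))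
      rw [hb', ← h0]; nlinarith
    · -- (a + b/2)² = a² + ab + b²/4 ; ab ≤ (L/2) a² + b²/(2L); b²/(2L) ≤ B; b²/4 ≤ (L/2) B
      have h6 : a * b ≤ L / 2 * a ^ 2 + b ^ 2 / (2 * L) := by
        have : 0 ≤ (L * a - b) ^ 2 / (2 * L) := by positivity
        have e : (L * a - b) ^ 2 / (2 * L) = L / 2 * a ^ 2 + b ^ 2 / (2 * L) - a * b := by
          field_simp; ring
        linarith
      have h7 : b ^ 2 / (2 * L) ≤ B := by
        rw [div_le_iff₀ (by positivity)]; linarith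
      have h8 : b ^ 2 / 4 ≤ L / 2 * B := by linarith
      nlinarith
  have h9 : (1 + L / 2) * (a ^ 2 + B) ≤ (1 + L / 2) * η :=
    mul_le_mul_of_nonneg_left h2 (by linarith)
  linarith

/-- Co-coercivity of one convex function with `L`-Lipschitz gradient, in the form needed above. -/
theorem breg_ge_of_smooth {Φ : E → ℝ} {G : E → E} {L : ℝ} (hL : 0 < L)
    (hsub : ∀ x y, Φ x + ⟪G x, y - x⟫ ≤ Φ y)
    (hsm : ∀ x y, Φ y ≤ Φ x + ⟪G x, y - x⟫ + L / 2 * ‖y - x‖ ^ 2) (h g : E) :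
    ‖G h - G g‖ ^ 2 ≤ 2 * L * breg Φ G h g := by
  unfold breg
  -- z = h - (1/L)(G h - G g)
  set z := h - (1 / L) • (G h - G g) with hz
  have h1 := hsub g z
  have h2 := hsm h z
  have e1 : z - h = -((1 / L) • (G h - G g)) := by rw [hz]; abel
  have e2 : z - g = (h - g) - (1 / L) • (G h - G g) := by rw [hz]; abel
  rw [e1] at h2
  rw [e2] at h1
  rw [inner_sub_right, inner_smul_right] at h1
  rw [inner_neg_right, inner_smul_right, norm_neg, norm_smul, Real.norm_eq_abs, mul_pow, sq_abs] at h2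
  have h3 : ⟪G h, G h - G g⟫ - ⟪G g, G h - G g⟫ = ‖G h - G g‖ ^ 2 := by
    rw [← inner_sub_left, real_inner_self_eq_norm_sq]
  have h4 : L / 2 * ((1 / L) ^ 2 * ‖G h - G g‖ ^ 2) = 1 / (2 * L) * ‖G h - G g‖ ^ 2 := by
    field_simp
  rw [h4] at h2
  have h5 : 1 / (2 * L) * ‖G h - G g‖ ^ 2 ≤ Φ h - Φ g - ⟪G g, h - g⟫ := by
    have h6 : 1 / L * ⟪G h, G h - G g⟫ - 1 / L * ⟪G g, G h - G g⟫ = 1 / L * ‖G h - G g‖ ^ 2 := by
      rw [← mul_sub, h3]
    have h7 : 1 / L * ‖G h - G g‖ ^ 2 = 2 * (1 / (2 * L) * ‖G h - G g‖ ^ 2) := by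
      field_simp
    linarith
  have h8 : ‖G h - G g‖ ^ 2 = 2 * L * (1 / (2 * L) * ‖G h - G g‖ ^ 2) := by field_simp
  rw [h8]
  exact mul_le_mul_of_nonneg_left h5 (by positivity)

end Crest.Agent.R079.Rel629
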