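import Crest.Agent.R079.RelW_653

/-! R079, LASSO windows for a node-dependent convex penalty which is SUPER-averaging
(`(Φ child0 g + Φ child1 g)/2 ≤ Φ parent g`; 402's form of doc 2531 Step I).  helper653.

`f p` = near-minimiser of `av p (X - g)^2 + Φ p g`.  Windows with number `≤ 2 + 16 card / δ`; at EVERY
node `p` of the window `W` with top `I`: `av p (f I - gl W f)^2 ≤ 2 δ` (loss-free). -/

set_option autoImplicit false

namespace Crest.Agent.R079.RelS653

open Finset Crest.Agent.R079.Grid Crest.Agent.R079.Growth Crest.Agent.R079.QRed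
  Crest.Agent.R079.Qh249 Crest.Agent.R079.QVar181 Crest.Agent.R079.TWin
  Crest.Agent.R079.RelW653

/-- admissible super-averaging penalty -/
structure PenS (Φ : Nd → Fn → ℝ) : Prop where
  nonneg : ∀ p g, 0 ≤ Φ p g
  loc : ∀ p g g', (∀ y ∈ iv p, g y = g' y) → Φ p g = Φ p g'
  mid : ∀ p g g', Φ p (fun y => (g y + g' y) / 2) ≤ (Φ p g + Φ p g') / 2
  res : ∀ (m : ℕ) (l : ℤ) (g : Fn), (Φ (m, 2 * l) g + Φ (m, 2 * l + 1) g) / 2 ≤ Φ (m + 1, l) g
  zero : ∀ p, Φ p (fun _ => 0) = 0

/-- near-minimisers at all nodes (`η = 0`: minimisers) -/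
structure NMS (Φ : Nd → Fn → ℝ) (X : Fn) (η : ℝ) (f : Nd → Fn) : Prop where
  eta : 0 ≤ η
  le : ∀ p g, vl Φ X p (f p) ≤ vl Φ X p g + η

section facts

variable {Φ : Nd → Fn → ℝ} {X : Fn} {η : ℝ} {f : Nd → Fn}

lemma vl_nonnegS (hP : PenS Φ) (p : Nd) (g : Fn) : 0 ≤ vl Φ X p g :=
  add_nonneg (sq_nonneg _) (hP.nonneg p g)

lemma vl_locS (hP : PenS Φ) (p : Nd) {g g' : Fn} (h : ∀ y ∈ iv p, g y = g' y) :
    vl Φ X p g = vl Φ X p g' := by
  unfold vl
  rw [hP.loc p g g' h, av_congr (p := p) (X := fun y => X y - g y) (Y := fun y => X y - g' y)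
    fun y hy => by rw [h y hy]]

/-- the functional of fixed data decreases under refinement -/
lemma vl_res (hP : PenS Φ) (m : ℕ) (l : ℤ) (g : Fn) :
    (vl Φ X (m, 2 * l) g + vl Φ X (m, 2 * l + 1) g) / 2 ≤ vl Φ X (m + 1, l) g := by
  unfold vl
  rw [av_ch]
  have := hP.res m l g
  linarith

/-- 1-strong convexity with a near-minimiser -/
lemma cmpS (hP : PenS Φ) (h : NMS Φ X η f) (p : Nd) (g : Fn) :
    Jv Φ X f p + (1 / 2) * av p (fun y => f p y - g y) ^ 2 ≤ vl Φ X p g + 2 * η := by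
  have h1 := h.le p (fun y => (f p y + g y) / 2)
  have h2 := av_par p X (f p) g
  have h3 := hP.mid p (f p) g
  unfold Jv
  unfold vl at h1 ⊢
  linarith

lemma Jv_nonnegS (hP : PenS Φ) (p : Nd) : 0 ≤ Jv Φ X f p := vl_nonnegS hP p _

lemma Jv_leS (hP : PenS Φ) (h : NMS Φ X η f) (p : Nd) : Jv Φ X f p ≤ av p X ^ 2 + η := by
  have h1 := h.le p (fun _ => 0)
  have h2 : vl Φ X p (fun _ => 0) = av p X ^ 2 := by
    unfold vl
    rw [hP.zero p]
    simp
  rw [h2] at h1
  exact h1

/-- size of the residual -/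
lemma res_leS (hP : PenS Φ) (h : NMS Φ X η f) (p : Nd) :
    av p (fun y => X y - f p y) ^ 2 ≤ av p X ^ 2 + η := by
  have h1 := Jv_leS hP h p
  unfold Jv vl at h1
  linarith [hP.nonneg p (f p)]

/-- size of the penalty -/
lemma pen_leS (hP : PenS Φ) (h : NMS Φ X η f) (p : Nd) :
    Φ p (f p) ≤ av p X ^ 2 + η := by
  have h1 := Jv_leS hP h p
  unfold Jv vl at h1
  linarith [sq_nonneg (av p (fun y => X y - f p y))]

/-- size of the near-minimiser -/
lemma size_leS (hP : PenS Φ) (h : NMS Φ X η f) (p : Nd) :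
    av p (f p) ^ 2 ≤ 2 * av p X ^ 2 + 4 * η := by
  have h1 := cmpS hP h p (fun _ => 0)
  have h2 : vl Φ X p (fun _ => 0) = av p X ^ 2 := by
    unfold vl
    rw [hP.zero p]
    simp
  rw [h2] at h1
  have h3 := Jv_nonnegS (f := f) (X := X) hP p
  simp only [sub_zero] at h1
  linarith

/-- fixed data seen from the leaves of a window -/
lemma vl_SL (hP : PenS Φ) {W : Finset Nd} {I : Nd} (hW : Full W I) (g : Fn) :
    ∀ p ∈ W, SL W p (fun L => vl Φ X L g) ≤ len p * vl Φ X p g := by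
  refine full_ind hW (fun p hp => ?_) fun m l hp hnl h0 h1 e0 e1 => ?_
  · rw [SL_leaf hp]
  · rw [SL_node hW hnl h0 h1]
    have hg := vl_res (X := X) hP m l g
    have hl0 : len (m + 1, l) = 2 * len (m, 2 * l) := len_ch m l _
    have hl1 : len (m, 2 * l + 1) = len (m, 2 * l) := rfl
    rw [hl1] at e1
    rw [hl0]
    have hpos := Growth.len_pos (m, 2 * l)
    have h2 := mul_le_mul_of_nonneg_left hg hpos.le
    linarith

/-- energy inequality in a window -/
lemma dev_leS (hP : PenS Φ) (h : NMS Φ X η f) {W : Finset Nd} {I : Nd} (hW : Full W I) {p : Nd}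
    (hp : p ∈ W) :
    SL W p (fun L => Jv Φ X f L + (1 / 2) * av L (fun y => f p y - f L y) ^ 2)
      ≤ len p * (Jv Φ X f p + 2 * η) := by
  have h1 : SL W p (fun L => Jv Φ X f L + (1 / 2) * av L (fun y => f p y - f L y) ^ 2)
      ≤ SL W p (fun L => vl Φ X L (f p) + 2 * η) := by
    refine SL_mono fun L _ _ => ?_
    have h2 := cmpS hP h L (f p)
    have h3 : av L (fun y => f L y - f p y) = av L (fun y => f p y - f L y) := by
      unfold av av2
      congr 2
      exact Finset.sum_congr rfl fun y _ => by rw [norm_sub_rev]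
    rw [h3] at h2
    exact h2
  refine h1.trans ?_
  rw [SL_add, SL_const hW _ p hp, mul_add]
  have h2 := vl_SL (X := X) hP hW (f p) p hp
  unfold Jv
  linarith

lemma Drf_nonnegS (hP : PenS Φ) (h : NMS Φ X η f) : ∀ q, 0 ≤ Drf (Jv Φ X f) η q
  | (0, _) => le_refl _
  | (m + 1, l) => by
    have h0 := h.le (m, 2 * l) (f (m + 1, l))
    have h1 := h.le (m, 2 * l + 1) (f (m + 1, l))
    have h2 := vl_res (X := X) hP m l (f (m + 1, l))
    show 0 ≤ Jv Φ X f (m + 1, l) - (Jv Φ X f (m, 2 * l) + Jv Φ X f (m, 2 * l + 1)) / 2 + η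
    unfold Jv
    linarith

/-- admissible window of fineness `δ` -/
def GdS (Φ : Nd → Fn → ℝ) (X : Fn) (η : ℝ) (f : Nd → Fn) (δ : ℝ) (W : Finset Nd) (I : Nd) :
    Prop :=
  ∀ p ∈ W, (1 / 2) * av p (fun y => f I y - f p y) ^ 2 + acc (Drf (Jv Φ X f) η) I p ≤ δ

/-- **top data against the glued leaf data, at EVERY node of the window** -/
theorem av_E_S {W : Finset Nd} {I : Nd} (hP : PenS Φ) (h : NMS Φ X η f) (hW : Full W I)
    {δ : ℝ} (hG : GdS Φ X η f δ W I) {p : Nd} (hp : p ∈ W) :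
    av p (fun y => f I y - gl W f y) ^ 2 ≤ 2 * δ := by
  have hL := Growth.len_pos p
  have h2 : SL W p (fun L => av L (fun y => f I y - f L y) ^ 2)
      = len p * av p (fun y => f I y - gl W f y) ^ 2 := by
    have := av_gl hW (fun L y => f I y - f L y) p hp
    rw [← this]
    rfl
  have h3 : SL W p (fun L => av L (fun y => f I y - f L y) ^ 2) ≤ SL W p (fun _ => 2 * δ) := by
    refine SL_mono fun L hL' _ => ?_
    have h4 := hG L (mem_lf.1 hL').1
    have h5 := acc_nonneg (Drf_nonnegS hP h) I L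
    linarith
  rw [h2, SL_const hW _ p hp] at h3
  exact le_of_mul_le_mul_left h3 hL

lemma acc_leS {W : Finset Nd} {I : Nd} (hP : PenS Φ) (h : NMS Φ X η f) (hW : Full W I)
    {δ : ℝ} (hG : GdS Φ X η f δ W I) {p L : Nd} (hp : p ∈ W) (hL : L ∈ W) (hLp : iv L ⊆ iv p) :
    acc (Drf (Jv Φ X f) η) p L ≤ δ := by
  have h1 := hG L hL
  have h2 := acc_trans (Drf (Jv Φ X f) η) hLp (hW.reg.1 p hp)
  have h3 := acc_nonneg (Drf_nonnegS hP h) I p
  have h4 : 0 ≤ (1 / 2 : ℝ) * av L (fun y => f I y - f L y) ^ 2 := by positivity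
  linarith

/-- **drift of the value below every node of the window** -/
theorem drift_S {W : Finset Nd} {I : Nd} (hP : PenS Φ) (h : NMS Φ X η f) (hW : Full W I)
    {δ : ℝ} (hG : GdS Φ X η f δ W I) {p : Nd} (hp : p ∈ W) :
    len p * Jv Φ X f p ≤ SL W p (Jv Φ X f) + len p * δ := by
  have h3 := le_SL_acc hW (Drf (Jv Φ X f) η) (Jv Φ X f) (fun m l => by
    show _ ≤ Jv Φ X f (m + 1, l) - (Jv Φ X f (m, 2 * l) + Jv Φ X f (m, 2 * l + 1)) / 2 + η
    linarith [h.eta]) p hp
  rw [SL_add] at h3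
  have h4 : SL W p (fun L => acc (Drf (Jv Φ X f) η) p L) ≤ SL W p (fun _ => δ) :=
    SL_mono fun L hL hLp => acc_leS hP h hW hG hp (mem_lf.1 hL).1 hLp
  rw [SL_const hW δ p hp] at h4
  exact h3.trans (by linarith)

/-- **level of the residual** for a gauge (subadditive, positively homogeneous penalty): the residual
`X - f p` has level `≤ Φ/2` at the node, up to the defect -/
theorem lev_S (h : NMS Φ X η f) (hsub : ∀ p g g', Φ p (fun y => g y + g' y) ≤ Φ p g + Φ p g')
    (hhom : ∀ p g (s : ℝ), 0 ≤ s → Φ p (fun y => (s : ℂ) * g y) = s * Φ p g) (p : Nd) (g : Fn)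
    {s : ℝ} (hs : 0 < s) :
    (∑ y ∈ iv p, ((X y - f p y) * (starRingEnd ℂ) (g y)).re) ≤
      len p * (Φ p g / 2 + s * av p g ^ 2 / 2 + η / (2 * s)) := by
  have hL := Growth.len_pos p
  have h1 := h.le p (fun y => f p y + (s : ℂ) * g y)
  have h2 := hsub p (f p) (fun y => (s : ℂ) * g y)
  rw [hhom p g s hs.le] at h2
  unfold vl at h1
  have h3 : len p * av p (fun y => X y - (f p y + (s : ℂ) * g y)) ^ 2
      = len p * av p (fun y => X y - f p y) ^ 2
        - 2 * s * ∑ y ∈ iv p, ((X y - f p y) * (starRingEnd ℂ) (g y)).re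
        + s ^ 2 * (len p * av p g ^ 2) := by
    rw [← sum_av', ← sum_av', ← sum_av', Finset.mul_sum, Finset.mul_sum,
      ← Finset.sum_sub_distrib, ← Finset.sum_add_distrib]
    refine Finset.sum_congr rfl fun y _ => ?_
    rw [← Complex.normSq_eq_norm_sq, ← Complex.normSq_eq_norm_sq, ← Complex.normSq_eq_norm_sq]
    have e : X y - (f p y + (s : ℂ) * g y) = (X y - f p y) + (-s : ℂ) * g y := by ring
    rw [e]
    simp only [Complex.normSq_apply, Complex.add_re, Complex.add_im, Complex.mul_re,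
      Complex.mul_im, Complex.neg_re, Complex.neg_im, Complex.ofReal_re, Complex.ofReal_im,
      Complex.conj_re, Complex.conj_im, Complex.sub_re, Complex.sub_im]
    ring
  have h4 := mul_le_mul_of_nonneg_left h1 hL.le
  have h5 : 2 * s * ∑ y ∈ iv p, ((X y - f p y) * (starRingEnd ℂ) (g y)).re
      ≤ len p * (s * Φ p g + s ^ 2 * av p g ^ 2 + η) := by
    have h6 := mul_le_mul_of_nonneg_left h2 hL.le
    nlinarith [h3, h4, h6]
  have h7 : len p * (Φ p g / 2 + s * av p g ^ 2 / 2 + η / (2 * s))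
      = len p * (s * Φ p g + s ^ 2 * av p g ^ 2 + η) / (2 * s) := by
    field_simp
  rw [h7, le_div_iff₀ (by positivity)]
  linarith

end facts

/-! ### existence -/

/-- near-minimisers exist -/
theorem exists_NMS {Φ : Nd → Fn → ℝ} (hP : PenS Φ) (X : Fn) {η : ℝ}
    (hη : 0 < η) : ∃ f : Nd → Fn, NMS Φ X η f := by
  have hex : ∀ p : Nd, ∃ g : Fn, ∀ g', vl Φ X p g ≤ vl Φ X p g' + η := by
    intro p
    let s : Set ℝ := Set.range (vl Φ X p)
    have hs0 : s.Nonempty := ⟨_, fun _ => 0, rfl⟩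
    have hsb : BddBelow s := ⟨0, by
      rintro r ⟨g, rfl⟩
      exact vl_nonnegS hP p g⟩
    obtain ⟨r, ⟨g, rfl⟩, hr⟩ := Real.lt_sInf_add_pos hs0 hη
    refine ⟨g, fun g' => ?_⟩
    have := csInf_le hsb (⟨g', rfl⟩ : vl Φ X p g' ∈ s)
    linarith
  choose f hf using hex
  exact ⟨f, hη.le, fun p g => hf p g⟩

/-- **LASSO windows (loss-free)** for a finite family -/
theorem exists_lassowin {ι : Type*} [Fintype ι] {R : Finset Nd} {J : Nd} (hR : Full R J)
    (Φ : ι → Nd → Fn → ℝ) (hP : ∀ i, PenS (Φ i)) (X : ι → Fn)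
    (η : ℝ) (hη0 : 0 ≤ η) (f : ι → Nd → Fn) (h : ∀ i, NMS (Φ i) (X i) η (f i))
    (hX : ∀ i, ∀ p ∈ R, av p (X i) ≤ 1) (hη1 : η ≤ 1) {δ : ℝ} (hδ : 0 < δ)
    (hη : Fintype.card ι * (η * (2 + J.1)) ≤ δ / 4) :
    ∃ (S : Finset Nd) (W : Nd → Finset Nd), Part R S W (2 + 16 * Fintype.card ι / δ) ∧
      ∀ T ∈ S, ∀ i, GdS (Φ i) (X i) η (f i) δ (W T) T := by
  classical
  let V : ι → Nd → ℝ := fun i => Jv (Φ i) (X i) (f i)
  let D : ι → Nd → ℝ := fun i => Drf (V i) η
  let g : Nd → Nd → ℝ := fun I p =>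
    ∑ i, ((1 / 2) * av p (fun y => f i I y - f i p y) ^ 2 + acc (D i) I p)
  have hterm : ∀ i I p, 0 ≤ (1 / 2) * av p (fun y => f i I y - f i p y) ^ 2 + acc (D i) I p :=
    fun i I p => add_nonneg (by positivity) (acc_nonneg (Drf_nonnegS (hP i) (h i)) I p)
  have hV0 : ∀ i p, 0 ≤ V i p := fun i p => Jv_nonnegS (hP i) p
  have hV2 : ∀ i, ∀ p ∈ R, V i p ≤ 2 := by
    intro i p hp
    have h1 := Jv_leS (hP i) (h i) p
    have h2 : av p (X i) ^ 2 ≤ 1 := pow_le_one₀ (Growth.av_nonneg p _) (hX i p hp)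
    show Jv (Φ i) (X i) (f i) p ≤ 2
    linarith
  obtain ⟨S, W, hPt, hg⟩ := exists_part hR (g := g) (P := fun p => ∑ i, 2 * V i p)
    (P₀ := 4 * Fintype.card ι) hδ
    (fun p _ => Finset.sum_nonneg fun i _ => mul_nonneg (by norm_num) (hV0 i p))
    (fun p hp => by
      calc ∑ i, 2 * V i p ≤ ∑ _i : ι, (4 : ℝ) :=
            Finset.sum_le_sum fun i _ => by linarith [hV2 i p hp]
        _ = 4 * Fintype.card ι := by
            rw [Finset.sum_const, nsmul_eq_mul, Finset.card_univ]; ring)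
    (fun I p => Finset.sum_nonneg fun i _ => hterm i I p)
    (fun I => by
      have : g I I = 0 := by
        refine Finset.sum_eq_zero fun i _ => ?_
        rw [acc_self, add_zero]
        have : av I (fun y => f i I y - f i I y) = 0 := by
          unfold av av2
          simp
        rw [this]
        ring
      rw [this]
      exact hδ.le)
    (fun I hI W hW hWR => by
      rw [lf_sum_eq' hW]
      have hlen := Growth.len_pos I
      have e1 : SL W I (fun p => g I p + ∑ i, 2 * V i p) =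
          ∑ i, (SL W I (fun L => V i L + (1 / 2) * av L (fun y => f i I y - f i L y) ^ 2) +
            SL W I (fun L => V i L + acc (D i) I L)) := by
        rw [← Finset.sum_congr rfl fun i _ => SL_add W I _ _, ← SL_sum]
        refine SL_congr fun L _ _ => ?_
        simp only [g]
        rw [← Finset.sum_add_distrib]
        exact Finset.sum_congr rfl fun i _ => by ring
      rw [e1]
      have h1 : ∀ i, SL W I (fun L => V i L + (1 / 2) * av L (fun y => f i I y - f i L y) ^ 2) +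
            SL W I (fun L => V i L + acc (D i) I L) ≤
          len I * (2 * V i I + η * (2 + J.1)) := by
        intro i
        have a1 := dev_leS (hP i) (h i) hW hW.top
        have a2 := SL_acc_le hW (D i) (V i) η hη0 (fun m l => le_refl _) I hW.top
        have hlev : (I.1 : ℝ) ≤ J.1 := by
          exact_mod_cast Growth.iv_level (hR.reg.1 I hI)
        have a3 : len I * (η * I.1) ≤ len I * (η * J.1) :=
          mul_le_mul_of_nonneg_left (mul_le_mul_of_nonneg_left hlev hη0) hlen.le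
        have a1' : SL W I (fun L => V i L + (1 / 2) * av L (fun y => f i I y - f i L y) ^ 2)
            ≤ len I * (V i I + 2 * η) := a1
        nlinarith [a1', a2, a3]
      refine (Finset.sum_le_sum fun i _ => h1 i).trans ?_
      rw [← Finset.mul_sum, Finset.sum_add_distrib, Finset.sum_const, nsmul_eq_mul,
        Finset.card_univ]
      refine mul_le_mul_of_nonneg_left ?_ hlen.le
      linarith)
  refine ⟨S, W, ?_, fun T hT i p hp => ?_⟩
  · have e : 4 * (4 * (Fintype.card ι : ℝ)) / δ = 16 * Fintype.card ι / δ := by ring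
    rw [← e]
    exact hPt
  · have h1 := hg T hT p hp
    have h2 : (1 / 2) * av p (fun y => f i T y - f i p y) ^ 2 + acc (D i) T p ≤ g T p :=
      Finset.single_le_sum (f := fun i => (1 / 2) * av p (fun y => f i T y - f i p y) ^ 2 +
        acc (D i) T p) (fun i _ => hterm i T p) (Finset.mem_univ i)
    exact h2.trans h1

/-- everything in one statement, defect arbitrarily small -/
theorem exists_lasso {ι : Type*} [Fintype ι] {R : Finset Nd} {J : Nd} (hR : Full R J)
    (Φ : ι → Nd → Fn → ℝ) (hP : ∀ i, PenS (Φ i)) (X : ι → Fn)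
    (hX : ∀ i, ∀ p ∈ R, av p (X i) ≤ 1) {δ : ℝ} (hδ : 0 < δ) {η₁ : ℝ} (hη₁ : 0 < η₁) :
    ∃ (η : ℝ) (f : ι → Nd → Fn) (S : Finset Nd) (W : Nd → Finset Nd),
      0 < η ∧ η ≤ η₁ ∧ η ≤ 1 ∧ (∀ i, NMS (Φ i) (X i) η (f i)) ∧
      Part R S W (2 + 16 * Fintype.card ι / δ) ∧
      ∀ T ∈ S, ∀ i, GdS (Φ i) (X i) η (f i) δ (W T) T := by
  set c : ℝ := 4 * ((Fintype.card ι : ℝ) + 1) * (2 + J.1) with hc
  have hc0 : 0 < c := by positivity
  set η : ℝ := min (min η₁ 1) (δ / c) with hη
  have h0 : 0 < η := lt_min (lt_min hη₁ one_pos) (div_pos hδ hc0)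
  choose f hf using fun i => exists_NMS (hP i) (X i) h0
  obtain ⟨S, W, h1, h2⟩ := exists_lassowin hR Φ hP X η h0.le f hf hX
    ((min_le_left _ _).trans (min_le_right _ _)) hδ (by
      have h3 : η ≤ δ / c := min_le_right _ _
      rw [le_div_iff₀ hc0, hc] at h3
      have h4 : 0 ≤ η * (2 + (J.1 : ℝ)) := by positivity
      nlinarith)
  exact ⟨η, f, S, W, h0, (min_le_left _ _).trans (min_le_left _ _),
    (min_le_left _ _).trans (min_le_right _ _), hf, h1, h2⟩

end Crest.Agent.R079.RelS653
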