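import Crest.Agent.R079.TWin1_903

/-! R079, doc 2489 (911), section (0), part 2 (helper903): abstract stopping lemma with the number of
windows counted below EVERY node; refinement of a partition into windows. -/

set_option autoImplicit false

namespace Crest.Agent.R079.TWin

open Finset Crest.Agent.R079.Grid Crest.Agent.R079.Growth Crest.Agent.R079.QRed
  Crest.Agent.R079.Qe292

/-- partition of the region `R` into full windows `W K` indexed by their tops `K ∈ S`; total length
of the tops below any node `p` at most `C * len p` -/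
structure Part (R : Finset Nd) (S : Finset Nd) (W : Nd → Finset Nd) (C : ℝ) : Prop where
  sub : S ⊆ R
  full : ∀ K ∈ S, Full (W K) K
  wsub : ∀ K ∈ S, W K ⊆ R
  disj : ∀ K ∈ S, ∀ K' ∈ S, K ≠ K' → Disjoint (W K) (W K')
  cover : ∀ p ∈ R, ∃ K ∈ S, p ∈ W K
  cnt : ∀ p ∈ R, ∑ K ∈ S.filter (fun K => iv K ⊆ iv p), len K ≤ C * len p

/-- disjoint intervals inside `iv p` -/
lemma sum_len_disj (T : Finset Nd) (p : Nd) (hT : ∀ c ∈ T, iv c ⊆ iv p)
    (hd : ∀ c ∈ T, ∀ c' ∈ T, c ≠ c' → Disjoint (iv c) (iv c')) : ∑ c ∈ T, len c ≤ len p := by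
  classical
  have e : ∑ c ∈ T, len c = ((T.biUnion iv).card : ℝ) := by
    rw [Finset.card_biUnion (fun c hc c' hc' hne => hd c hc c' hc' hne)]
    push_cast
    exact Finset.sum_congr rfl fun c _ => (Growth.card_iv c).symm
  rw [e, ← Growth.card_iv p]
  have : T.biUnion iv ⊆ iv p := Finset.biUnion_subset.2 hT
  exact_mod_cast Finset.card_le_card this

lemma disj_or_nest (p q : Nd) : Disjoint (iv p) (iv q) ∨ iv p ⊆ iv q ∨ iv q ⊆ iv p := by
  by_cases h : Disjoint (iv p) (iv q)
  · exact Or.inl h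
  · rw [Finset.not_disjoint_iff] at h
    obtain ⟨y, h1, h2⟩ := h
    exact Or.inr (iv_nest h1 h2)

variable {R : Finset Nd} {g : Nd → Nd → ℝ} {δ : ℝ} {J : Nd}

/-- the set of all tops below `I`, with the count below every node -/
lemma tops2 (hR : Full R J) {P : Nd → ℝ} {P₀ : ℝ} (hδ : 0 < δ) (hP : ∀ p ∈ R, 0 ≤ P p)
    (hP0 : ∀ p ∈ R, P p ≤ P₀) (hg0 : ∀ I p, 0 ≤ g I p)
    (hyp : ∀ I ∈ R, ∀ W : Finset Nd, Full W I → W ⊆ R →
      ∑ p ∈ lf W, len p * (g I p + P p) ≤ len I * (P I + δ / 4)) :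
    ∀ (n : ℕ) (I : Nd), I ∈ R → I.1 < n → ∃ S : Finset Nd, S ⊆ R ∧ (∀ K ∈ S, iv K ⊆ iv I) ∧
      (∀ K ∈ S, ∀ K' ∈ S, K ≠ K' → Disjoint (Wd R g δ K) (Wd R g δ K')) ∧
      (∀ p ∈ R, iv p ⊆ iv I → ∃ K ∈ S, p ∈ Wd R g δ K) ∧
      ∑ K ∈ S, len K ≤ len I * (2 + 4 * P I / δ) ∧
      ∀ p ∈ R, iv p ⊆ iv I →
        ∑ K ∈ S.filter (fun K => iv K ⊆ iv p), len K ≤ len p * (2 + 4 * P₀ / δ) := by
  classical
  intro n
  induction n with
  | zero => intro I _ h; omega
  | succ n ih =>
    intro I hI hn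
    have hPP : ∀ c ∈ R, len c * (2 + 4 * P c / δ) ≤ len c * (2 + 4 * P₀ / δ) := by
      intro c hc
      refine mul_le_mul_of_nonneg_left ?_ (Growth.len_pos c).le
      have : 4 * P c / δ ≤ 4 * P₀ / δ := by
        have := hP0 c hc
        gcongr
      linarith
    have hex : ∀ c : Nd, ∃ S : Finset Nd, c ∈ Tp R g δ I → (S ⊆ R ∧ (∀ K ∈ S, iv K ⊆ iv c) ∧
      (∀ K ∈ S, ∀ K' ∈ S, K ≠ K' → Disjoint (Wd R g δ K) (Wd R g δ K')) ∧
      (∀ p ∈ R, iv p ⊆ iv c → ∃ K ∈ S, p ∈ Wd R g δ K) ∧
      ∑ K ∈ S, len K ≤ len c * (2 + 4 * P c / δ) ∧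
      ∀ p ∈ R, iv p ⊆ iv c →
        ∑ K ∈ S.filter (fun K => iv K ⊆ iv p), len K ≤ len p * (2 + 4 * P₀ / δ)) := by
      intro c
      by_cases hc : c ∈ Tp R g δ I
      · have hl := Tp_level hI hc
        obtain ⟨S, hS⟩ := ih c (mem_Tp.1 hc).1 (by omega)
        exact ⟨S, fun _ => hS⟩
      · exact ⟨∅, fun h => absurd h hc⟩
    choose S hS using hex
    have htot : ∑ K ∈ {I} ∪ (Tp R g δ I).biUnion S, len K ≤ len I * (2 + 4 * P I / δ) := by
      have h1 : ∑ K ∈ {I} ∪ (Tp R g δ I).biUnion S, len K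
          ≤ len I + ∑ K ∈ (Tp R g δ I).biUnion S, len K := by
        have := Finset.sum_union_inter (s₁ := ({I} : Finset Nd))
          (s₂ := (Tp R g δ I).biUnion S) (f := len)
        rw [Finset.sum_singleton] at this
        have h0 : 0 ≤ ∑ K ∈ {I} ∩ (Tp R g δ I).biUnion S, len K :=
          Finset.sum_nonneg fun K _ => (Growth.len_pos K).le
        linarith
      have h2 : ∑ K ∈ (Tp R g δ I).biUnion S, len K ≤ ∑ c ∈ Tp R g δ I, ∑ K ∈ S c, len K := by
        have hd : Set.PairwiseDisjoint (Tp R g δ I : Set Nd) S := by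
          intro c hc c' hc' hne
          rw [Function.onFun, Finset.disjoint_left]
          intro K hK hK'
          exact hne (Tp_disj hR hI (by exact_mod_cast hc) (by exact_mod_cast hc')
            ((hS c (by exact_mod_cast hc)).2.1 K hK)
            ((hS c' (by exact_mod_cast hc')).2.1 K hK'))
        rw [Finset.sum_biUnion hd]
      have h3 : ∑ c ∈ Tp R g δ I, ∑ K ∈ S c, len K
          ≤ ∑ c ∈ Tp R g δ I, len c * (2 + 4 * P c / δ) :=
        Finset.sum_le_sum fun c hc => (hS c hc).2.2.2.2.1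
      have h4 := step hR hδ hP hg0 hyp hI
      linarith
    refine ⟨{I} ∪ (Tp R g δ I).biUnion S, ?_, ?_, ?_, ?_, htot, ?_⟩
    · refine Finset.union_subset (Finset.singleton_subset_iff.2 hI) ?_
      exact Finset.biUnion_subset.2 fun c hc => (hS c hc).1
    · intro K hK
      rcases Finset.mem_union.1 hK with h | h
      · rw [Finset.mem_singleton.1 h]
      · obtain ⟨c, hc, hKc⟩ := Finset.mem_biUnion.1 h
        exact ((hS c hc).2.1 K hKc).trans (mem_Tp.1 hc).2.1
    · -- disjointness
      have hA : ∀ K ∈ (Tp R g δ I).biUnion S, Disjoint (Wd R g δ I) (Wd R g δ K) := by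
        intro K hK
        obtain ⟨c, hc, hKc⟩ := Finset.mem_biUnion.1 hK
        rw [Finset.disjoint_left]
        intro p hpI hpK
        have h1 : iv p ⊆ iv c := (mem_Wd.1 hpK).2.1.trans ((hS c hc).2.1 K hKc)
        exact (mem_Tp.1 hc).2.2.1 (Wd_up hR hI hpI h1 (mem_Tp.1 hc).2.1)
      intro K hK K' hK' hne
      rcases Finset.mem_union.1 hK with h | h <;> rcases Finset.mem_union.1 hK' with h' | h'
      · rw [Finset.mem_singleton.1 h, Finset.mem_singleton.1 h'] at hne
        exact absurd rfl hne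
      · rw [Finset.mem_singleton.1 h]
        exact hA K' h'
      · rw [Finset.mem_singleton.1 h']
        exact (hA K h).symm
      · obtain ⟨c, hc, hKc⟩ := Finset.mem_biUnion.1 h
        obtain ⟨c', hc', hKc'⟩ := Finset.mem_biUnion.1 h'
        by_cases hcc : c = c'
        · subst hcc
          exact (hS c hc).2.2.1 K hKc K' hKc' hne
        · rw [Finset.disjoint_left]
          intro p hp hp'
          exact hcc (Tp_disj hR hI hc hc'
            ((mem_Wd.1 hp).2.1.trans ((hS c hc).2.1 K hKc))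
            ((mem_Wd.1 hp').2.1.trans ((hS c' hc').2.1 K' hKc')))
    · -- cover
      intro p hp hpI
      by_cases hw : p ∈ Wd R g δ I
      · exact ⟨I, Finset.mem_union_left _ (Finset.mem_singleton_self I), hw⟩
      · have hl := Qe292.iv_level hpI
        obtain ⟨c, hc, hpc⟩ := below_top hR hI (I.1 - p.1) p (by omega) hp hpI hw
        obtain ⟨K, hK, hK'⟩ := (hS c hc).2.2.2.1 p hp hpc
        exact ⟨K, Finset.mem_union_right _ (Finset.mem_biUnion.2 ⟨c, hc, hK⟩), hK'⟩
    · -- count below a node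
      intro p hp hpI
      by_cases hpe : p = I
      · refine le_trans (Finset.sum_le_sum_of_subset_of_nonneg (Finset.filter_subset _ _)
          fun K _ _ => (Growth.len_pos K).le) (htot.trans ?_)
        rw [hpe]
        exact hPP I hI
      · have hsub : (({I} ∪ (Tp R g δ I).biUnion S).filter (fun K => iv K ⊆ iv p)) ⊆
            (Tp R g δ I).biUnion (fun c => (S c).filter (fun K => iv K ⊆ iv p)) := by
          intro K hK
          rw [Finset.mem_filter, Finset.mem_union, Finset.mem_singleton] at hK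
          rw [Finset.mem_biUnion]
          rcases hK.1 with h | h
          · exfalso
            rw [h] at hK
            exact hpe (Qe292.iv_antisymm hpI hK.2)
          · obtain ⟨c, hc, hKc⟩ := Finset.mem_biUnion.1 h
            exact ⟨c, hc, Finset.mem_filter.2 ⟨hKc, hK.2⟩⟩
        have h1 : ∑ K ∈ (({I} ∪ (Tp R g δ I).biUnion S).filter (fun K => iv K ⊆ iv p)), len K
            ≤ ∑ c ∈ Tp R g δ I, ∑ K ∈ (S c).filter (fun K => iv K ⊆ iv p), len K := by
          refine (Finset.sum_le_sum_of_subset_of_nonneg hsub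
            fun K _ _ => (Growth.len_pos K).le).trans ?_
          have hd : Set.PairwiseDisjoint (Tp R g δ I : Set Nd)
              (fun c => (S c).filter (fun K => iv K ⊆ iv p)) := by
            intro c hc c' hc' hne
            rw [Function.onFun, Finset.disjoint_left]
            intro K hK hK'
            rw [Finset.mem_filter] at hK hK'
            exact hne (Tp_disj hR hI (by exact_mod_cast hc) (by exact_mod_cast hc')
              ((hS c (by exact_mod_cast hc)).2.1 K hK.1)
              ((hS c' (by exact_mod_cast hc')).2.1 K hK'.1))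
          rw [Finset.sum_biUnion hd]
        by_cases hw : p ∈ Wd R g δ I
        · -- only tops inside `p` matter
          have hzero : ∀ c ∈ Tp R g δ I, ¬ iv c ⊆ iv p →
              ∑ K ∈ (S c).filter (fun K => iv K ⊆ iv p), len K = 0 := by
            intro c hc hcp
            refine Finset.sum_eq_zero fun K hK => ?_
            exfalso
            rw [Finset.mem_filter] at hK
            have hKc := (hS c hc).2.1 K hK.1
            rcases Qe292.sub_total hKc hK.2 with h | h
            · exact hcp h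
            · exact (mem_Tp.1 hc).2.2.1 (Wd_up hR hI hw h (mem_Tp.1 hc).2.1)
          have h2 : ∑ c ∈ Tp R g δ I, ∑ K ∈ (S c).filter (fun K => iv K ⊆ iv p), len K
              ≤ ∑ c ∈ (Tp R g δ I).filter (fun c => iv c ⊆ iv p), len c * (2 + 4 * P₀ / δ) := by
            rw [Finset.sum_filter]
            refine Finset.sum_le_sum fun c hc => ?_
            by_cases hcp : iv c ⊆ iv p
            · rw [if_pos hcp]
              refine (Finset.sum_le_sum_of_subset_of_nonneg (Finset.filter_subset _ _)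
                fun K _ _ => (Growth.len_pos K).le).trans ?_
              exact ((hS c hc).2.2.2.2.1).trans (hPP c (mem_Tp.1 hc).1)
            · rw [if_neg hcp, hzero c hc hcp]
          have h3 : ∑ c ∈ (Tp R g δ I).filter (fun c => iv c ⊆ iv p), len c ≤ len p := by
            refine sum_len_disj _ p (fun c hc => (Finset.mem_filter.1 hc).2) ?_
            intro c hc c' hc' hne
            rw [Finset.disjoint_left]
            intro y hy hy'
            rcases iv_nest hy hy' with h | h
            · exact hne (Tp_disj hR hI (Finset.mem_filter.1 hc).1 (Finset.mem_filter.1 hc').1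
                subset_rfl h)
            · exact hne (Tp_disj hR hI (Finset.mem_filter.1 hc).1 (Finset.mem_filter.1 hc').1
                h subset_rfl)
          rw [← Finset.sum_mul] at h2
          have h4 : 0 ≤ 2 + 4 * P₀ / δ := by
            have : 0 ≤ P₀ := (hP I hI).trans (hP0 I hI)
            positivity
          exact h1.trans (h2.trans (mul_le_mul_of_nonneg_right h3 h4))
        · have hl := Qe292.iv_level hpI
          obtain ⟨c₀, hc₀, hpc⟩ := below_top hR hI (I.1 - p.1) p (by omega) hp hpI hw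
          have h2 : ∑ c ∈ Tp R g δ I, ∑ K ∈ (S c).filter (fun K => iv K ⊆ iv p), len K
              = ∑ K ∈ (S c₀).filter (fun K => iv K ⊆ iv p), len K := by
            refine Finset.sum_eq_single c₀ (fun c hc hne => ?_) fun h => absurd hc₀ h
            refine Finset.sum_eq_zero fun K hK => ?_
            exfalso
            rw [Finset.mem_filter] at hK
            exact hne (Tp_disj hR hI hc hc₀ ((hS c hc).2.1 K hK.1) (hK.2.trans hpc))
          rw [h2] at h1
          exact h1.trans ((hS c₀ hc₀).2.2.2.2.2 p hp hpc)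

/-- **abstract stopping lemma** -/
theorem exists_part (hR : Full R J) {P : Nd → ℝ} {P₀ : ℝ} (hδ : 0 < δ) (hP : ∀ p ∈ R, 0 ≤ P p)
    (hP0 : ∀ p ∈ R, P p ≤ P₀) (hg0 : ∀ I p, 0 ≤ g I p) (hgI : ∀ I, g I I ≤ δ)
    (hyp : ∀ I ∈ R, ∀ W : Finset Nd, Full W I → W ⊆ R →
      ∑ p ∈ lf W, len p * (g I p + P p) ≤ len I * (P I + δ / 4)) :
    ∃ (S : Finset Nd) (W : Nd → Finset Nd), Part R S W (2 + 4 * P₀ / δ) ∧
      ∀ K ∈ S, ∀ p ∈ W K, g K p ≤ δ := by
  obtain ⟨S, hSR, hSJ, hSd, hSc, _, hcnt⟩ := tops2 (g := g) (δ := δ) hR hδ hP hP0 hg0 hyp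
    (J.1 + 1) J hR.top (Nat.lt_succ_self _)
  refine ⟨S, fun K => Wd R g δ K, ⟨hSR, fun K hK => Wd_full hR (hSR hK), fun K _ => Wd_sub,
    hSd, fun p hp => hSc p hp (hR.reg.1 p hp), fun p hp => ?_⟩, fun K _ p hp => Wd_good hgI hp⟩
  have := hcnt p hp (hR.reg.1 p hp)
  linarith

/-- refinement: each window is split again -/
theorem refine_part (hR : Full R J) {S : Finset Nd} {W : Nd → Finset Nd} {C C' : ℝ}
    (hC' : 0 ≤ C') (h : Part R S W C) (T : Nd → Finset Nd) (V : Nd → Nd → Finset Nd)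
    (hT : ∀ K ∈ S, Part (W K) (T K) (V K) C') :
    ∃ (S' : Finset Nd) (W' : Nd → Finset Nd), Part R S' W' (C' * (1 + C)) ∧
      ∀ K' ∈ S', ∃ K ∈ S, K' ∈ T K ∧ W' K' = V K K' ∧ W' K' ⊆ W K := by
  classical
  -- the window of a new top
  have huniq : ∀ K ∈ S, ∀ K₁ ∈ S, ∀ q, q ∈ W K → q ∈ W K₁ → K = K₁ := by
    intro K hK K₁ hK₁ q h1 h2
    by_contra hne
    exact Finset.disjoint_left.1 (h.disj K hK K₁ hK₁ hne) h1 h2
  let mo : Nd → Nd := fun K' => if hex : ∃ K ∈ S, K' ∈ T K then hex.choose else K'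
  have hmo : ∀ K ∈ S, ∀ K' ∈ T K, mo K' = K := by
    intro K hK K' hK'
    have hex : ∃ K ∈ S, K' ∈ T K := ⟨K, hK, hK'⟩
    have e : mo K' = hex.choose := by simp only [mo]; rw [dif_pos hex]
    have hs := hex.choose_spec
    rw [e]
    exact huniq _ hs.1 K hK K' ((hT _ hs.1).sub hs.2) ((hT K hK).sub hK')
  refine ⟨S.biUnion T, fun K' => V (mo K') K', ⟨?_, ?_, ?_, ?_, ?_, ?_⟩, ?_⟩
  · exact Finset.biUnion_subset.2 fun K hK => (hT K hK).sub.trans (h.wsub K hK)
  · intro K' hK'
    obtain ⟨K, hK, hKK⟩ := Finset.mem_biUnion.1 hK'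
    rw [hmo K hK K' hKK]
    exact (hT K hK).full K' hKK
  · intro K' hK'
    obtain ⟨K, hK, hKK⟩ := Finset.mem_biUnion.1 hK'
    rw [hmo K hK K' hKK]
    exact ((hT K hK).wsub K' hKK).trans (h.wsub K hK)
  · intro K' hK' K₁' hK₁' hne
    obtain ⟨K, hK, hKK⟩ := Finset.mem_biUnion.1 hK'
    obtain ⟨K₁, hK₁, hKK₁⟩ := Finset.mem_biUnion.1 hK₁'
    rw [hmo K hK K' hKK, hmo K₁ hK₁ K₁' hKK₁]
    by_cases he : K = K₁
    · subst he
      exact (hT K hK).disj K' hKK K₁' hKK₁ hne
    · exact Finset.disjoint_of_subset_left ((hT K hK).wsub K' hKK)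
        (Finset.disjoint_of_subset_right ((hT K₁ hK₁).wsub K₁' hKK₁) (h.disj K hK K₁ hK₁ he))
  · intro p hp
    obtain ⟨K, hK, hpK⟩ := h.cover p hp
    obtain ⟨K', hK', hpK'⟩ := (hT K hK).cover p hpK
    refine ⟨K', Finset.mem_biUnion.2 ⟨K, hK, hK'⟩, ?_⟩
    rw [hmo K hK K' hK']
    exact hpK'
  · -- count
    intro p hp
    obtain ⟨K₀, hK₀, hpK₀⟩ := h.cover p hp
    have h1 : ∑ K' ∈ (S.biUnion T).filter (fun K' => iv K' ⊆ iv p), len K'
        ≤ ∑ K ∈ S, ∑ K' ∈ (T K).filter (fun K' => iv K' ⊆ iv p), len K' := by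
      rw [Finset.filter_biUnion]
      rw [Finset.sum_biUnion]
      intro K hK K₁ hK₁ hne
      rw [Function.onFun, Finset.disjoint_left]
      intro K' h2 h3
      rw [Finset.mem_filter] at h2 h3
      exact hne (huniq K (by exact_mod_cast hK) K₁ (by exact_mod_cast hK₁) K'
        ((hT K (by exact_mod_cast hK)).sub h2.1) ((hT K₁ (by exact_mod_cast hK₁)).sub h3.1))
    have h2 : ∀ K ∈ S, ∑ K' ∈ (T K).filter (fun K' => iv K' ⊆ iv p), len K' ≤
        (if K = K₀ then C' * len p else 0) + (if iv K ⊆ iv p then C' * len K else 0) := by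
      intro K hK
      have hn1 : 0 ≤ C' * len p := mul_nonneg hC' (Growth.len_pos p).le
      have hn2 : 0 ≤ C' * len K := mul_nonneg hC' (Growth.len_pos K).le
      by_cases hKe : K = K₀
      · subst hKe
        rw [if_pos rfl]
        have h3 := (hT K hK).cnt p hpK₀
        have h4 : 0 ≤ (if iv K ⊆ iv p then C' * len K else 0) := by
          split_ifs
          · exact hn2
          · exact le_refl _
        linarith
      · rw [if_neg hKe, zero_add]
        by_cases hKp : iv K ⊆ iv p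
        · rw [if_pos hKp]
          have h3 := (hT K hK).cnt K (h.full K hK).top
          refine le_trans (Finset.sum_le_sum_of_subset_of_nonneg ?_
            fun K' _ _ => (Growth.len_pos K').le) h3
          intro K' hK'
          rw [Finset.mem_filter] at hK' ⊢
          exact ⟨hK'.1, (h.full K hK).reg.1 K' ((hT K hK).sub hK'.1)⟩
        · rw [if_neg hKp]
          refine le_of_eq (Finset.sum_eq_zero fun K' hK' => ?_)
          exfalso
          rw [Finset.mem_filter] at hK'
          have hKW := (hT K hK).sub hK'.1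
          have hKI := (h.full K hK).reg.1 K' hKW
          rcases Qe292.sub_total hKI hK'.2 with h3 | h3
          · exact hKp h3
          · have hpW : p ∈ W K := (h.full K hK).reg.2 K' hKW p hK'.2 h3
            exact hKe (huniq K hK K₀ hK₀ p hpW hpK₀)
    have h3 := Finset.sum_le_sum h2
    rw [Finset.sum_add_distrib, Finset.sum_ite_eq' S K₀ (fun _ => C' * len p), if_pos hK₀,
      ← Finset.sum_filter, ← Finset.mul_sum] at h3
    have h4 := mul_le_mul_of_nonneg_left (h.cnt p hp) hC'
    calc _ ≤ _ := h1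
      _ ≤ _ := h3
      _ ≤ C' * len p + C' * (C * len p) := by linarith
      _ = C' * (1 + C) * len p := by ring
  · intro K' hK'
    obtain ⟨K, hK, hKK⟩ := Finset.mem_biUnion.1 hK'
    refine ⟨K, hK, hKK, ?_, ?_⟩
    · simp only
      rw [hmo K hK K' hKK]
    · simp only
      rw [hmo K hK K' hKK]
      exact (hT K hK).wsub K' hKK

end Crest.Agent.R079.TWin
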