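import Crest.Agent.R079.TDef_853
import Crest.Agent.R079.TWin2_903

/-! R079, global recursion, [S0] (helper903): windows of a set of tops, restriction of windowed
residuals, common refinement, summation over the windows. -/

set_option autoImplicit false

namespace Crest.Agent.R079.TRec

open Finset Crest.Agent.R079.Grid Crest.Agent.R079.Growth Crest.Agent.R079.QRed

variable {R : Finset Nd} {J : Nd} {T : Finset Nd}

/-! ### the window of a node -/

theorem Wn.unique {I I' p : Nd} (h : Wn T I p) (h' : Wn T I' p) : I = I' :=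
  Qe292.iv_antisymm (h.2.2 I' h'.1 h'.2.1) (h'.2.2 I h.1 h.2.1)

/-- every node of `R` lies in a window -/
theorem Tops.exists_wn (hR : Full R J) (hT : Tops R J T) {p : Nd} (hp : p ∈ R) :
    ∃ I, Wn T I p := by
  classical
  obtain ⟨I, hI, hmin⟩ := Finset.exists_min_image (T.filter (fun I => iv p ⊆ iv I))
    (fun I => I.1) ⟨J, Finset.mem_filter.2 ⟨hT.top, hR.reg.1 p hp⟩⟩
  rw [Finset.mem_filter] at hI
  refine ⟨I, hI.1, hI.2, fun I' hI' hpI' => ?_⟩
  rcases Qe292.sub_total hI.2 hpI' with h | h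
  · exact h
  · have h1 := hmin I' (Finset.mem_filter.2 ⟨hI', hpI'⟩)
    rw [iv_eq_of_level h h1]

theorem Wn.mem_R (hT : Tops R J T) {I p : Nd} (h : Wn T I p) : I ∈ R := hT.sub h.1

/-- a node between `p` and the top of its window is in the same window -/
theorem Wn.up {I p q : Nd} (h : Wn T I p) (h1 : iv p ⊆ iv q) (h2 : iv q ⊆ iv I) : Wn T I q :=
  ⟨h.1, h2, fun I' hI' hq => h.2.2 I' hI' (h1.trans hq)⟩

theorem Wn.self {I p : Nd} (h : Wn T I p) : Wn T I I := ⟨h.1, subset_rfl, fun _ _ h' => h'⟩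

theorem wn_self {I : Nd} (h : I ∈ T) : Wn T I I := ⟨h, subset_rfl, fun _ _ h' => h'⟩

open Classical in
/-- the window with top `I` -/
noncomputable def win (R T : Finset Nd) (I : Nd) : Finset Nd := R.filter (fun p => Wn T I p)

theorem mem_win {I p : Nd} : p ∈ win R T I ↔ p ∈ R ∧ Wn T I p := by
  classical
  unfold win
  rw [Finset.mem_filter]

theorem win_sub {I : Nd} : win R T I ⊆ R := fun _ h => (mem_win.1 h).1

/-- windows are full regions -/
theorem win_full (hR : Full R J) (hT : Tops R J T) {I : Nd} (hI : I ∈ T) :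
    Full (win R T I) I := by
  refine ⟨⟨fun p hp => (mem_win.1 hp).2.2.1, fun p hp q h1 h2 => ?_⟩,
    mem_win.2 ⟨hT.sub hI, wn_self hI⟩, Qe292.bin_of fun c hc hpc => ?_⟩
  · have hp' := mem_win.1 hp
    exact mem_win.2 ⟨hR.reg.2 p hp'.1 q h1 (h2.trans (hR.reg.1 I (hT.sub hI))), hp'.2.up h1 h2⟩
  · -- sibling closed
    have hc' := mem_win.1 hc
    have hp' := mem_win.1 hpc
    have hcI : c ≠ I := by
      rintro rfl
      have := Qe292.iv_level hp'.2.2.1
      simp only [Qe292.par] at this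
      omega
    have hcT : c ∉ T := by
      intro hcT
      exact hcI (Qe292.iv_antisymm hc'.2.2.1 (hc'.2.2.2 c hcT subset_rfl))
    have hsR : Qe292.sib c ∈ R := Qe292.sib_mem hR hc'.1 hp'.1
    have hsib := hT.sib c.1 (c.2 / 2) hp'.1
    have hsT : Qe292.sib c ∉ T := by
      intro hs
      apply hcT
      rcases Int.emod_two_eq_zero_or_one c.2 with h | h
      · have e : c = (c.1, 2 * (c.2 / 2)) := Prod.ext rfl (by simp only; omega)
        have e' : Qe292.sib c = (c.1, 2 * (c.2 / 2) + 1) :=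
          Prod.ext rfl (by simp only [Qe292.sib]; omega)
        rw [e]
        exact hsib.2 (e' ▸ hs)
      · have e : c = (c.1, 2 * (c.2 / 2) + 1) := Prod.ext rfl (by simp only; omega)
        have e' : Qe292.sib c = (c.1, 2 * (c.2 / 2)) :=
          Prod.ext rfl (by simp only [Qe292.sib]; omega)
        rw [e]
        exact hsib.1 (e' ▸ hs)
    have hsp : iv (Qe292.sib c) ⊆ iv (Qe292.par c) := by
      have := Qe292.iv_par (Qe292.sib c)
      rwa [Qe292.par_sib] at this
    refine mem_win.2 ⟨hsR, hp'.2.1, hsp.trans hp'.2.2.1, fun I' hI' hs => ?_⟩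
    have hne : Qe292.sib c ≠ I' := fun h => hsT (h ▸ hI')
    have h1 := Qe292.par_sub hs hne
    rw [Qe292.par_sib] at h1
    exact hp'.2.2.2 I' hI' h1

theorem win_disj {I I' : Nd} (hne : I ≠ I') : Disjoint (win R T I) (win R T I') := by
  rw [Finset.disjoint_left]
  intro p hp hp'
  exact hne ((mem_win.1 hp).2.unique (mem_win.1 hp').2)

/-- sum over the nodes = sum over the windows -/
theorem sum_windows {M : Type*} [AddCommMonoid M] (hR : Full R J) (hT : Tops R J T)
    (F : Nd → M) : ∑ p ∈ R, F p = ∑ I ∈ T, ∑ p ∈ win R T I, F p := by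
  classical
  have e : R = T.biUnion (fun I => win R T I) := by
    ext p
    rw [Finset.mem_biUnion]
    constructor
    · intro hp
      obtain ⟨I, hI⟩ := hT.exists_wn hR hp
      exact ⟨I, hI.1, mem_win.2 ⟨hp, hI⟩⟩
    · rintro ⟨I, _, hp⟩
      exact (mem_win.1 hp).1
  conv_lhs => rw [e]
  rw [Finset.sum_biUnion fun I _ I' _ hne => win_disj hne]

/-- total length of the tops -/
theorem sum_len_tops (hR : Full R J) (hT : Tops R J T) {A : ℝ} (hc : Cnt R T A) :
    ∑ I ∈ T, len I ≤ (1 + A) * len J := by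
  classical
  have h1 := hc J hR.top
  have h2 : T = {J} ∪ T.filter (fun I => iv I ⊂ iv J) := by
    ext I
    rw [Finset.mem_union, Finset.mem_singleton, Finset.mem_filter]
    constructor
    · intro hI
      by_cases h : I = J
      · exact Or.inl h
      · refine Or.inr ⟨hI, ?_⟩
        have hs := hR.reg.1 I (hT.sub hI)
        exact Finset.ssubset_iff_subset_ne.2 ⟨hs, fun he => h (Qe292.iv_antisymm hs he.ge)⟩
    · rintro (rfl | ⟨hI, _⟩)
      · exact hT.top
      · exact hI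
  have h3 : Disjoint ({J} : Finset Nd) (T.filter (fun I => iv I ⊂ iv J)) := by
    rw [Finset.disjoint_singleton_left, Finset.mem_filter]
    rintro ⟨_, h⟩
    exact (ssubset_irrefl _) h
  rw [h2, Finset.sum_union h3, Finset.sum_singleton]
  linarith

/-- `X` is constant on each window -/
theorem Adp.eq {X : Nd → Fn} (hX : Adp R T X) {I p : Nd} (hp : p ∈ win R T I) : X p = X I :=
  hX p (mem_win.1 hp).1 I (mem_win.1 hp).2

/-- moving form over a window = static form -/
theorem TP_win (bb : ℤ) (ε : ℕ → ℤ → ℂ) {Y : Fin 4 → Nd → Fn} (hY : ∀ j, Adp R T (Y j)) (I : Nd) :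
    TP bb ε (win R T I) Y = TR bb ε (win R T I) (fun j => Y j I) := by
  unfold TP TR
  refine Finset.sum_congr rfl fun p hp => ?_
  congr 1
  funext j
  exact (hY j).eq hp

theorem TP_windows (bb : ℤ) (ε : ℕ → ℤ → ℂ) (hR : Full R J) (hT : Tops R J T)
    {Y : Fin 4 → Nd → Fn} (hY : ∀ j, Adp R T (Y j)) :
    TP bb ε R Y = ∑ I ∈ T, TR bb ε (win R T I) (fun j => Y j I) := by
  unfold TP
  rw [sum_windows hR hT]
  exact Finset.sum_congr rfl fun I _ => TP_win bb ε hY I

/-- **summation over the windows** -/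
theorem sum_win (bb : ℤ) (ε : ℕ → ℤ → ℂ) (hR : Full R J) (hT : Tops R J T)
    {Y : Fin 4 → Nd → Fn} (hY : ∀ j, Adp R T (Y j)) {a : ℝ}
    (h : ∀ I ∈ T, ‖TR bb ε (win R T I) (fun j => Y j I)‖ ≤ a * len I) :
    ‖TP bb ε R Y‖ ≤ a * ∑ I ∈ T, len I := by
  rw [TP_windows bb ε hR hT hY, Finset.mul_sum]
  exact (norm_sum_le _ _).trans (Finset.sum_le_sum h)

/-- the same with the count -/
theorem sum_win_cnt (bb : ℤ) (ε : ℕ → ℤ → ℂ) (hR : Full R J) (hT : Tops R J T)
    {Y : Fin 4 → Nd → Fn} (hY : ∀ j, Adp R T (Y j)) {a A : ℝ} (ha : 0 ≤ a) (hc : Cnt R T A)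
    (h : ∀ I ∈ T, ‖TR bb ε (win R T I) (fun j => Y j I)‖ ≤ a * len I) :
    ‖TP bb ε R Y‖ ≤ a * (1 + A) * len J := by
  refine (sum_win bb ε hR hT hY h).trans ?_
  rw [mul_assoc]
  exact mul_le_mul_of_nonneg_left (sum_len_tops hR hT hc) ha

/-- the same for moving forms on the windows (`Y` not adapted) -/
theorem sum_win_TP (bb : ℤ) (ε : ℕ → ℤ → ℂ) (hR : Full R J) (hT : Tops R J T)
    {Y : Fin 4 → Nd → Fn} {a : ℝ}
    (h : ∀ I ∈ T, ‖TP bb ε (win R T I) Y‖ ≤ a * len I) :
    ‖TP bb ε R Y‖ ≤ a * ∑ I ∈ T, len I := by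
  have e : TP bb ε R Y = ∑ I ∈ T, TP bb ε (win R T I) Y := by
    unfold TP
    rw [sum_windows hR hT]
  rw [e, Finset.mul_sum]
  exact (norm_sum_le _ _).trans (Finset.sum_le_sum h)

/-! ### common refinement -/

theorem Tops.union {T' : Finset Nd} (hT : Tops R J T) (hT' : Tops R J T') :
    Tops R J (T ∪ T') := by
  classical
  refine ⟨Finset.union_subset hT.sub hT'.sub, Finset.mem_union_left _ hT.top, fun m l h => ?_⟩
  rw [Finset.mem_union, Finset.mem_union, hT.sib m l h, hT'.sib m l h]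

/-- adapted to a finer set of tops -/
theorem Adp.finer (hR : Full R J) {T' : Finset Nd} (hT : Tops R J T) (hT' : Tops R J T')
    (hs : T ⊆ T') {X : Nd → Fn} (hX : Adp R T X) : Adp R T' X := by
  intro p hp I hI
  obtain ⟨I₀, hI₀⟩ := hT.exists_wn hR hp
  rw [hX p hp I₀ hI₀]
  have h1 : iv I ⊆ iv I₀ := hI.2.2 I₀ (hs hI₀.1) hI₀.2.1
  exact (hX I (hT'.sub hI.1) I₀ (hI₀.up hI.2.1 h1)).symm

/-- static letters are adapted to everything -/
theorem Adp.const (G : Fn) : Adp R T (fun _ => G) := fun _ _ _ _ => rfl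

theorem Adp.map {X : Nd → Fn} (hX : Adp R T X) (φ : Fn → Fn) : Adp R T (fun p => φ (X p)) :=
  fun p hp I hI => by simp only [hX p hp I hI]

theorem Adp.map₂ {X Y : Nd → Fn} (hX : Adp R T X) (hY : Adp R T Y) (φ : Fn → Fn → Fn) :
    Adp R T (fun p => φ (X p) (Y p)) :=
  fun p hp I hI => by simp only [hX p hp I hI, hY p hp I hI]

theorem Cnt.union {T' : Finset Nd} {A A' : ℝ} (h : Cnt R T A) (h' : Cnt R T' A') :
    Cnt R (T ∪ T') (A + A') := by
  classical
  intro p hp
  rw [Finset.filter_union]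
  have h1 := Finset.sum_union_inter (s₁ := T.filter (fun I => iv I ⊂ iv p))
    (s₂ := T'.filter (fun I => iv I ⊂ iv p)) (f := len)
  have h2 : 0 ≤ ∑ I ∈ T.filter (fun I => iv I ⊂ iv p) ∩ T'.filter (fun I => iv I ⊂ iv p), len I :=
    Finset.sum_nonneg fun I _ => (Growth.len_pos I).le
  have h3 := h p hp
  have h4 := h' p hp
  linarith

theorem Cnt.mono {A A' : ℝ} (h : Cnt R T A) (hA : A ≤ A') : Cnt R T A' := fun p hp =>
  (h p hp).trans (mul_le_mul_of_nonneg_right hA (Growth.len_pos p).le)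

/-! ### restriction to a full sub-region -/

open Classical in
/-- tops of the restriction -/
noncomputable def rT (T R' : Finset Nd) (J' : Nd) : Finset Nd :=
  T.filter (fun I => I ∈ R') ∪ {J'}

theorem mem_rT {R' : Finset Nd} {J' I : Nd} : I ∈ rT T R' J' ↔ (I ∈ T ∧ I ∈ R') ∨ I = J' := by
  unfold rT
  rw [Finset.mem_union, Finset.mem_filter, Finset.mem_singleton]

theorem Tops.restrict (hT : Tops R J T) {R' : Finset Nd} {J' : Nd}
    (hR' : Full R' J') (hs : R' ⊆ R) : Tops R' J' (rT T R' J') := by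
  refine ⟨fun I hI => ?_, mem_rT.2 (Or.inr rfl), fun m l h => ?_⟩
  · rcases mem_rT.1 hI with h | h
    · exact h.2
    · rw [h]; exact hR'.top
  · have hlev := Qe292.iv_level (hR'.reg.1 _ h)
    simp only at hlev
    have h0 : (m, 2 * l) ≠ J' := by
      rintro rfl
      simp only at hlev
      omega
    have h1 : (m, 2 * l + 1) ≠ J' := by
      rintro rfl
      simp only at hlev
      omega
    rw [mem_rT, mem_rT, hT.sib m l (hs h), hR'.bin m l h]
    tauto

/-- an element of `T` above `p ∈ R'` is in `R'` or above `J'` -/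
theorem above_or {R' : Finset Nd} {J' : Nd} (hR' : Full R' J') {p I : Nd} (hp : p ∈ R')
    (h : iv p ⊆ iv I) : I ∈ R' ∨ iv J' ⊆ iv I := by
  rcases Qe292.sub_total h (hR'.reg.1 p hp) with h1 | h1
  · exact Or.inl (hR'.reg.2 p hp I h h1)
  · exact Or.inr h1

theorem Adp.restrict (hR : Full R J) (hT : Tops R J T) {R' : Finset Nd} {J' : Nd}
    (hR' : Full R' J') (hs : R' ⊆ R) {X : Nd → Fn} (hX : Adp R T X) :
    Adp R' (rT T R' J') X := by
  intro p hp I hI
  obtain ⟨I₀, hI₀⟩ := hT.exists_wn hR (hs hp)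
  rw [hX p (hs hp) I₀ hI₀]
  have hIR : I ∈ R' := (hT.restrict hR' hs).sub hI.1
  have h1 : iv I ⊆ iv I₀ := by
    rcases above_or hR' hp hI₀.2.1 with h | h
    · exact hI.2.2 I₀ (mem_rT.2 (Or.inl ⟨hI₀.1, h⟩)) hI₀.2.1
    · exact (hR'.reg.1 I hIR).trans h
  exact (hX I (hs hIR) I₀ (hI₀.up hI.2.1 h1)).symm

theorem rT_strict {R' : Finset Nd} {J' : Nd} (hR' : Full R' J') {p I : Nd} (hp : p ∈ R')
    (hI : I ∈ rT T R' J') (h : iv I ⊂ iv p) : I ∈ T ∧ iv I ⊂ iv p := by
  rcases mem_rT.1 hI with h1 | h1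
  · exact ⟨h1.1, h⟩
  · exfalso
    rw [h1] at h
    exact (ssubset_irrefl _) (h.trans_subset (hR'.reg.1 p hp))

theorem Cnt.restrict {R' : Finset Nd} {J' : Nd} (hR' : Full R' J') (hs : R' ⊆ R) {A : ℝ}
    (h : Cnt R T A) : Cnt R' (rT T R' J') A := by
  classical
  intro p hp
  refine le_trans (Finset.sum_le_sum_of_subset_of_nonneg ?_
    fun I _ _ => (Growth.len_pos I).le) (h p (hs hp))
  intro I hI
  rw [Finset.mem_filter] at hI ⊢
  exact rT_strict hR' hp hI.1 hI.2

theorem Sq.restrict {R' : Finset Nd} {J' : Nd} (hR' : Full R' J') (hs : R' ⊆ R) {E : Nd → Fn}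
    {A : ℝ} (h : Sq R T E A) : Sq R' (rT T R' J') E A := by
  classical
  intro p hp
  refine le_trans (Finset.sum_le_sum_of_subset_of_nonneg ?_
    fun I _ _ => Finset.sum_nonneg fun _ _ => sq_nonneg _) (h p (hs hp))
  intro I hI
  rw [Finset.mem_filter] at hI ⊢
  exact rT_strict hR' hp hI.1 hI.2

/-- **restriction of a windowed residual to a full sub-region** -/
theorem WRd.restrict {D : Dict} {k q3 sg c1 C : ℝ} {j : Fin 4} {t : ℝ} {G : Fn}
    {H E X : Nd → Fn} (hR : Full R J) (h : WRd D k q3 sg c1 C j t R J T G H E X)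
    {R' : Finset Nd} {J' : Nd} (hR' : Full R' J') (hs : R' ⊆ R) :
    WRd D k q3 sg c1 C j t R' J' (rT T R' J') G H E X where
  tops := h.tops.restrict hR' hs
  adH := h.adH.restrict hR h.tops hR' hs
  adE := h.adE.restrict hR h.tops hR' hs
  eq := fun p hp => h.eq p (hs hp)
  nrm := fun p hp => h.nrm p (hs hp)
  lev := fun p hp => h.lev p (hs hp)
  frz := fun p hp => h.frz p (hs hp)
  hav := fun p hp => h.hav p (hs hp)
  eav := fun p hp => h.eav p (hs hp)
  hsup := fun p hp => h.hsup p (hs hp)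
  esup := fun p hp => h.esup p (hs hp)
  cnt := h.cnt.restrict hR' hs
  sq := h.sq.restrict hR' hs

/-- the residual itself is adapted (on the nodes of `R`) -/
theorem WRd.adX {D : Dict} {k q3 sg c1 C : ℝ} {j : Fin 4} {t : ℝ} {G : Fn}
    {H E X : Nd → Fn} (h : WRd D k q3 sg c1 C j t R J T G H E X) : Adp R T X := by
  intro p hp I hI
  funext y
  rw [h.eq p hp y, h.eq I (h.tops.sub hI.1) y, h.adH p hp I hI, h.adE p hp I hI]

theorem nrm.restrict {k q3 : ℝ} {F : Fin 4 → Fn} {R' : Finset Nd} (h : TRec.nrm k q3 R F)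
    (hs : R' ⊆ R) : TRec.nrm k q3 R' F := fun j p hp => h j p (hs hp)

/-- a residual seen in ONE window: it is static there -/
theorem WRd.win_eq {D : Dict} {k q3 sg c1 C : ℝ} {j : Fin 4} {t : ℝ} {G : Fn}
    {H E X : Nd → Fn} (h : WRd D k q3 sg c1 C j t R J T G H E X) {I p : Nd}
    (hp : p ∈ win R T I) : X p = X I ∧ H p = H I ∧ E p = E I :=
  ⟨h.adX.eq hp, h.adH.eq hp, h.adE.eq hp⟩

end Crest.Agent.R079.TRec
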