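import Crest.Agent.R079.TDef_853
import Crest.Agent.R079.TS0_903

/-! R079, RECURSION v2 (helper853; 617 26013, 771 26075): slot 3 is NEVER split.  The word
`(E_a, E_b, X_m, F_3)` is killed by `K0` generations in the slots `a, b` + the static rule `RuleS`. -/

set_option autoImplicit false

namespace Crest.Agent.R079.TRec

open Finset Crest.Agent.R079.Grid Crest.Agent.R079.Growth Crest.Agent.R079.QRed

/-- **RULE (A) = MIX**, only slots `0,1,2`: slot `i` frozen at the top, killer `m`, others arbitrary -/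
def RuleA2 (D : Dict) (k q3 c0 e t0 K : ℝ) : Prop :=
  ∀ (N : ℕ) (B : ℝ), 0 ≤ B → BN k q3 N B → ∀ t, 0 < t → t ≤ t0 → ∀ bb ε, Adm bb ε → ∀ W I,
    Full W I → I.1 ≤ N → ∀ F, nrm k q3 W F →
    ∀ i m : Fin 4, i ≠ m → i ≠ 3 → m ≠ 3 → Fz D i (t ^ (1 + e)) 1 I (F i) →
      (∀ p ∈ W, Lv D m t 1 p (F m)) → ‖TR bb ε W F‖ ≤ K * (1 + B) * t ^ c0 * len I

/-- **RULE (S) = STATIC PAIR** (doc 2531, Step II): slot `m` frozen (mass `1` at `t^(1+e)`) AND nice up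
to a small letter `E` (`av ≤ t^s1`), slot `3` arbitrary static; on at most `K t^(-CS)` windows, which
depend only on `(P, G)`, the two other letters being arbitrary. -/
def RuleS (D : Dict) (k q3 cS CS s1 e t0 K : ℝ) : Prop :=
  ∀ (N : ℕ) (B : ℝ), 0 ≤ B → BN k q3 N B → ∀ t, 0 < t → t ≤ t0 → ∀ bb W I, Full W I → I.1 ≤ N →
    ∀ (m : Fin 4), m ≠ 3 → ∀ P G X E : Fn,
    (∀ p ∈ W, aq (2 + k) p P ≤ 1) → (∀ p ∈ W, aq q3 p G ≤ 1) → Fz D m (t ^ (1 + e)) 1 I P →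
    (∀ y ∈ iv I, P y = X y + E y) → (∀ p ∈ W, Lv D m t 1 p X) → (∀ p ∈ W, av p E ≤ t ^ s1) →
    ∃ T : Finset Nd, Tops W I T ∧ Cnt W T (K * t ^ (-CS)) ∧
      ∀ I' ∈ T, ∀ W' J, Full W' J → W' ⊆ win W T I' → ∀ F : Fin 4 → Fn, F m = P → F 3 = G →
        (∀ j, j ≠ m → j ≠ 3 → ∀ p ∈ W', aq (2 + k) p (F j) ≤ 1) → ∀ ε, Adm bb ε →
        ‖TR bb ε W' F‖ ≤ K * (1 + B) * t ^ cS * len J

/-- admissible parameters; `κ` = total loss unit, `K0` = number of generations -/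
structure Ok2 (k q3 c0 cS CS s1 e c1 bt κ : ℝ) (K0 : ℕ) : Prop where
  k0 : 0 < k
  k1 : k ≤ 1 / 80
  kκ : 40 * (K0 + 1) * k ≤ κ
  hq3 : 2 < q3
  e0 : 0 < e
  e1 : e ≤ 1
  c10 : 0 < c1
  c11 : c1 ≤ 1
  bt0 : 0 < bt
  CS0 : 0 ≤ CS
  /-- windows are paid by rule (A) -/
  hA : bt + 20 * κ ≤ c0 - (1 + e) * c1
  /-- static rule -/
  hS : bt + 20 * κ ≤ cS
  /-- smallness of the letter `D_m` -/
  hs : s1 ≤ c1 / 4
  /-- three small letters in the slots `0,1,2` -/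
  hC : bt + 20 * κ ≤ c1 / 4
  hC3 : bt + 20 * κ ≤ c1 / q3
  /-- enough generations -/
  hK : CS + 6 ≤ K0 * (c1 / 2)
  /-- losses of the recursion -/
  hk : 40 * κ ≤ e * bt

/-- two residuals (v2) -/
def TwoLem2 : Prop :=
  ∀ (D : Dict) (k q3 c0 cS CS s1 e c1 bt κ t0 K C : ℝ) (K0 : ℕ),
    Ok2 k q3 c0 cS CS s1 e c1 bt κ K0 → 0 < t0 → t0 ≤ 1 → 0 ≤ K → 1 ≤ C → Dic D 0 →
    RuleA2 D k q3 c0 e t0 K → ∃ K' : ℝ, 0 ≤ K' ∧
    ∀ N B t A, 0 ≤ B → BN k q3 N B → 0 < t → t ≤ t0 → 0 ≤ A →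
      An D k q3 0 c1 C N (t ^ (1 + e)) A →
      Bn D k q3 0 c1 C N (t ^ (1 + e)) t
        (K' * t ^ (-(6 * k)) * A + K' * (1 + B) * t ^ (bt + 10 * κ))

/-- **THE STEP v2** -/
def StepLem2 : Prop :=
  ∃ Cw : ℝ, 1 ≤ Cw ∧ ∀ (D : Dict) (k q3 c0 cS CS s1 e c1 bt κ t0 K C : ℝ) (K0 : ℕ),
    Ok2 k q3 c0 cS CS s1 e c1 bt κ K0 → 0 < t0 → t0 ≤ 1 → 0 ≤ K → Cw ≤ C → Dic D 0 →
    RuleA2 D k q3 c0 e t0 K → RuleS D k q3 cS CS s1 e t0 K → ∃ K' : ℝ, 0 ≤ K' ∧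
    ∀ N B t A, 0 ≤ B → BN k q3 N B → 0 < t → t ≤ t0 → 0 ≤ A →
      An D k q3 0 c1 C N (t ^ (1 + e)) A →
      An D k q3 0 c1 C N t (K' * t ^ (-(20 * κ)) * A + K' * (1 + B) * t ^ bt)

/-- **GOAL of the recursion v2** (`D 3` is irrelevant: take it empty) -/
def RecGoal2 : Prop :=
  ∀ (D : Dict) (k q3 c0 cS CS s1 e c1 bt κ t0 K : ℝ) (K0 : ℕ),
    Ok2 k q3 c0 cS CS s1 e c1 bt κ K0 → 0 < t0 → 0 ≤ K →
    Dic D 0 → RuleA2 D k q3 c0 e t0 K → RuleS D k q3 cS CS s1 e t0 K → FrzBd D k q3 →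
    ∃ B : ℝ, 0 ≤ B ∧ ∀ N, BN k q3 N B

/-- what the analysis has to deliver, v2 -/
def Analytic2 : Prop :=
  ∃ (D : Dict) (k q3 c0 cS CS s1 e c1 bt κ t0 K : ℝ) (K0 : ℕ),
    Ok2 k q3 c0 cS CS s1 e c1 bt κ K0 ∧ 0 < t0 ∧ 0 ≤ K ∧ Dic D 0 ∧
    RuleA2 D k q3 c0 e t0 K ∧ RuleS D k q3 cS CS s1 e t0 K ∧ FrzBd D k q3

/-- old parameters (slot 3 trivial), for `AprLem`, `TopLem` -/
theorem Ok2.ok {k q3 c0 cS CS s1 e c1 bt κ : ℝ} {K0 : ℕ}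
    (h : Ok2 k q3 c0 cS CS s1 e c1 bt κ K0) : Ok k q3 0 c0 (bt + 20 * k) e c1 bt := by
  have hk0 := h.k0
  have hK0 : (0 : ℝ) ≤ K0 := Nat.cast_nonneg _
  have hkκ : k ≤ κ := by
    have h1 := h.kκ
    nlinarith
  have hq3 := h.hq3
  exact { k0 := h.k0, k1 := by have := h.k1; linarith, hq3 := h.hq3, sg0 := le_rfl, sg1 := zero_le_one,
          e0 := h.e0, e1 := h.e1, c10 := h.c10, c11 := h.c11, bt0 := h.bt0,
          hA := by have := h.hA; linarith,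
          h3 := by nlinarith,
          hC := by
            have := h.hC3
            have e1 : (c1 - (1 + e) * 0 * (q3 - 2)) / q3 = c1 / q3 := by ring_nf
            rw [e1]; linarith,
          hk := by have := h.hk; linarith }

end Crest.Agent.R079.TRec
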