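import Crest.Agent.R079.WinB_222
import Crest.Agent.R079.TDfb_853

/-! R079, doc 2531 STEP II: the window bookkeeping of `TRec.RuleS`.  `RuleSP` = `RuleS` with a `Part`
(owner windows `V K`) instead of `Tops` / `Cnt` / `win`.  helper530. -/

set_option autoImplicit false
set_option linter.unusedVariables false

namespace Crest.Agent.R079.Rs530

open Finset Crest.Agent.R079.Grid Crest.Agent.R079.Growth Crest.Agent.R079.QRed
  Crest.Agent.R079.TRec Crest.Agent.R079.TWin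

/-- the `win` windows of the tops of a `Part` are its owner windows -/
theorem win_eq {R : Finset Nd} {J : Nd} (hR : Full R J) {S : Finset Nd} {V : Nd → Finset Nd} {C : ℝ}
    (h : Part R S V C) {K : Nd} (hK : K ∈ S) : win R S K = V K := by
  ext p
  rw [mem_win]
  constructor
  · rintro ⟨hp, hw⟩
    obtain ⟨A, hA, hpA⟩ := h.cover p hp
    have := WinA222.wn_owner h hA hpA hw
    rw [← this]
    exact hpA
  · intro hp
    have hpR := h.wsub K hK hp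
    refine ⟨hpR, ?_⟩
    obtain ⟨I, hI⟩ := WinA222.exists_wn hR (WinA222.tops_of_part hR h) hpR
    have := WinA222.wn_owner h hK hp hI
    rw [this]
    exact hI

/-- `RuleS` with owner windows -/
def RuleSP (D : Dict) (k q3 cS CS s1 e t0 K : ℝ) : Prop :=
  ∀ (N : ℕ) (B : ℝ), 0 ≤ B → BN k q3 N B → ∀ t, 0 < t → t ≤ t0 → ∀ bb W I, Full W I → I.1 ≤ N →
    ∀ (m : Fin 4), m ≠ 3 → ∀ P G X E : Fn,
    (∀ p ∈ W, aq (2 + k) p P ≤ 1) → (∀ p ∈ W, aq q3 p G ≤ 1) → Fz D m (t ^ (1 + e)) 1 I P →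
    (∀ y ∈ iv I, P y = X y + E y) → (∀ p ∈ W, Lv D m t 1 p X) → (∀ p ∈ W, av p E ≤ t ^ s1) →
    ∃ (S : Finset Nd) (V : Nd → Finset Nd), Part W S V (K * t ^ (-CS)) ∧
      ∀ K' ∈ S, ∀ W' J, Full W' J → W' ⊆ V K' → ∀ F : Fin 4 → Fn, F m = P → F 3 = G →
        (∀ j, j ≠ m → j ≠ 3 → ∀ p ∈ W', aq (2 + k) p (F j) ≤ 1) → ∀ ε, Adm bb ε →
        ‖TR bb ε W' F‖ ≤ K * (1 + B) * t ^ cS * len J

theorem ruleS_of_part {D : Dict} {k q3 cS CS s1 e t0 K : ℝ}
    (h : RuleSP D k q3 cS CS s1 e t0 K) : RuleS D k q3 cS CS s1 e t0 K := by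
  intro N B hB hBN t ht ht0 bb W I hW hI m hm P G X E h1 h2 h3 h4 h5 h6
  obtain ⟨S, V, hP, hb⟩ := h N B hB hBN t ht ht0 bb W I hW hI m hm P G X E h1 h2 h3 h4 h5 h6
  refine ⟨S, WinA222.tops_of_part hW hP, WinA222.cnt_of_part hP, ?_⟩
  intro K' hK' W' J hW' hsub F hFm hF3 hF ε hε
  rw [win_eq hW hP hK'] at hsub
  exact hb K' hK' W' J hW' hsub F hFm hF3 hF ε hε

end Crest.Agent.R079.Rs530
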