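import Crest.Agent.R079.WinH_222
import Crest.Agent.R079.WinA_222
import Crest.Agent.R079.GWin_590
import Crest.Agent.R079.LeafV_71

/-! R079, S2 (g5), abstract half (helper863): UNION / REFINEMENT of the static windows and transfer of the
deviation estimates.

* `dev_union`   : finite family of window systems with "deviation from the top ≤ θ i" (any squared
  distance): ONE `Part`, counts add, deviation ≤ `4 θ i` from the NEW tops; the coarse window of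
  each system is returned.
* `dev_refine`  : window systems inside the windows of a first one (product of the counts).
* `mean_tri`, `dav_center`, `Df_tri`, `desc_center` : the instances (222's and 590's forms).
* `gram_union`, `gram_refine` : 222's `gram_windows` for a finite family / inside given windows.
* `GrU`, `GrL` : monotone in the node set, change of the matrix.
* `bad_meas`    : maximal nodes where a submartingale deviation exceeds `δ`: total length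
  `≤ (mean over the leaves) / δ`, summed over any weighted family. -/

set_option autoImplicit false

namespace Crest.Agent.R079.Wc1863

open Finset Crest.Agent.R079.Grid Crest.Agent.R079.Growth Crest.Agent.R079.QRed
  Crest.Agent.R079.Qe292 Crest.Agent.R079.Qh249 Crest.Agent.R079.TWin Crest.Agent.R079.PWin
  Crest.Agent.R079.WinA222

variable {R : Finset Nd} {J : Nd}

/-! ### union -/

/-- **UNION OF A FINITE FAMILY OF WINDOW SYSTEMS** with deviations from the top -/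
theorem dev_union {κ : Type*} (s : Finset κ) (hR : Full R J)
    (T : κ → Finset Nd) (V : κ → Nd → Finset Nd) (c : κ → ℝ)
    (h : ∀ i ∈ s, Part R (T i) (V i) (c i)) (dv : κ → Nd → Nd → ℝ) (θ : κ → ℝ)
    (htri : ∀ i ∈ s, ∀ p K A, dv i p K ≤ 2 * dv i p A + 2 * dv i K A)
    (hdev : ∀ i ∈ s, ∀ A ∈ T i, ∀ p ∈ V i A, dv i p A ≤ θ i) :
    ∃ (S : Finset Nd) (W : Nd → Finset Nd), Part R S W (1 + ∑ i ∈ s, c i) ∧
      (∀ K ∈ S, ∀ i ∈ s, ∀ p ∈ W K, dv i p K ≤ 4 * θ i) ∧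
      (∀ K ∈ S, ∀ i ∈ s, ∃ A ∈ T i, W K ⊆ V i A ∧ K ∈ V i A) ∧ (∀ i ∈ s, T i ⊆ S) := by
  obtain ⟨S, W, hP, hW, hTS, _⟩ := part_family s hR T V c h
  refine ⟨S, W, hP, fun K hK i hi p hp => ?_, hW, hTS⟩
  obtain ⟨A, hA, h1, h2⟩ := hW K hK i hi
  have a1 := hdev i hi A hA p (h1 hp)
  have a2 := hdev i hi A hA K h2
  have a3 := htri i hi p K A
  linarith

/-- a one-node coarse window stays a one-node window -/
theorem single_of_sub {A K : Nd} {W V : Finset Nd} (hV : V = {A}) (hW : W ⊆ V) (hK : K ∈ W) :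
    W = {K} := by
  subst hV
  have h1 : K = A := Finset.mem_singleton.1 (hW hK)
  subst h1
  refine Finset.Subset.antisymm hW ?_
  intro q hq
  rw [Finset.mem_singleton.1 hq]
  exact hK

/-! ### refinement -/

/-- **REFINEMENT** of a window system by systems inside its windows -/
theorem dev_refine (hR : Full R J) {S : Finset Nd} {W : Nd → Finset Nd} {C C' : ℝ}
    (hC' : 0 ≤ C') (h : Part R S W C) (Q : Nd → Nd → Finset Nd → Prop)
    (hT : ∀ K ∈ S, ∃ (T : Finset Nd) (V : Nd → Finset Nd), Part (W K) T V C' ∧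
      ∀ K' ∈ T, Q K K' (V K')) :
    ∃ (S' : Finset Nd) (W' : Nd → Finset Nd), Part R S' W' (C' * (1 + C)) ∧
      ∀ K' ∈ S', ∃ K ∈ S, K' ∈ W K ∧ W' K' ⊆ W K ∧ Q K K' (W' K') := by
  classical
  have hex : ∀ K : Nd, ∃ (T : Finset Nd) (V : Nd → Finset Nd), K ∈ S →
      (Part (W K) T V C' ∧ ∀ K' ∈ T, Q K K' (V K')) := by
    intro K
    by_cases hK : K ∈ S
    · obtain ⟨T, V, h1⟩ := hT K hK
      exact ⟨T, V, fun _ => h1⟩
    · exact ⟨∅, fun _ => ∅, fun h1 => absurd h1 hK⟩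
  choose T V hTV using hex
  obtain ⟨S', W', hP, hW⟩ := refine_part hR hC' h T V fun K hK => (hTV K hK).1
  refine ⟨S', W', hP, fun K' hK' => ?_⟩
  obtain ⟨K, hK, h1, h2, h3⟩ := hW K' hK'
  refine ⟨K, hK, (hTV K hK).1.sub h1, h3, ?_⟩
  rw [h2]
  exact (hTV K hK).2 K' h1

/-! ### 222's form: Hilbert valued means -/

section hilbert

variable {H : Type*} [NormedAddCommGroup H] [InnerProductSpace ℝ H]

omit [InnerProductSpace ℝ H] in
theorem sq_tri (a b c : H) : ‖a - b‖ ^ 2 ≤ 2 * ‖a - c‖ ^ 2 + 2 * ‖b - c‖ ^ 2 := by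
  have e : a - b = (a - c) - (b - c) := by abel
  have h1 : ‖a - b‖ ≤ ‖a - c‖ + ‖b - c‖ := by
    rw [e]
    exact norm_sub_le _ _
  have h2 := norm_nonneg (a - b)
  nlinarith [sq_nonneg (‖a - c‖ - ‖b - c‖), norm_nonneg (a - c), norm_nonneg (b - c)]

theorem mean_tri (f : ℤ → H) (p K A : Nd) :
    ‖WinH222.Mn f p - WinH222.Mn f K‖ ^ 2 ≤ 2 * ‖WinH222.Mn f p - WinH222.Mn f A‖ ^ 2 +
      2 * ‖WinH222.Mn f K - WinH222.Mn f A‖ ^ 2 := sq_tri _ _ _

/-- averages of the look-ahead with another centre -/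
theorem dav_center (f : ℤ → H) (c c' : H) (j : ℕ) : ∀ (k : ℕ) (l : ℤ),
    WinH222.dav (WinH222.pq f c') j k l ≤
      2 * WinH222.dav (WinH222.pq f c) j k l + 2 * ‖c' - c‖ ^ 2 := by
  have h0 : ∀ (k : ℕ) (l : ℤ), WinH222.pq f c' k l ≤ 2 * WinH222.pq f c k l + 2 * ‖c' - c‖ ^ 2 :=
    fun k l => sq_tri _ _ _
  induction j with
  | zero =>
    intro k l
    rw [WinH222.dav_zero, WinH222.dav_zero]
    exact h0 k l
  | succ j ih =>
    intro k l
    cases k with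
    | zero =>
      rw [WinH222.dav_bot, WinH222.dav_bot]
      exact h0 0 l
    | succ k =>
      rw [WinH222.dav_succ, WinH222.dav_succ]
      have h1 := ih k (2 * l)
      have h2 := ih k (2 * l + 1)
      linarith

/-- **GRAM WINDOWS OF A FINITE FAMILY** (222's form), one `Part` -/
theorem gram_union {κ : Type*} (s : Finset κ) (hR : Full R J) (f : κ → ℤ → H) (S θ : κ → ℝ)
    (hθ : ∀ i ∈ s, 0 < θ i) (hf : ∀ i ∈ s, ∀ y, ‖f i y‖ ^ 2 ≤ S i) (k : ℕ) :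
    ∃ (T : Finset Nd) (W : Nd → Finset Nd),
      Part R T W (1 + ∑ i ∈ s, (2 + 40 * ((k + 1) * S i) / θ i)) ∧
      ∀ K ∈ T, ∀ i ∈ s, (∀ p ∈ W K, ‖WinH222.Mn (f i) p - WinH222.Mn (f i) K‖ ^ 2 ≤ 4 * θ i) ∧
        (W K = {K} ∨ ∀ p ∈ W K, ∀ j ≤ k + 1,
          WinH222.dav (WinH222.pq (f i) (WinH222.Mn (f i) K)) j (p.1 + 7) p.2 ≤ 6 * θ i) := by
  classical
  have hex : ∀ i : κ, ∃ (T : Finset Nd) (W : Nd → Finset Nd), i ∈ s →
      (Part R T W (2 + 40 * ((k + 1) * S i) / θ i) ∧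
      ∀ K ∈ T, (∀ p ∈ W K, ‖WinH222.Mn (f i) p - WinH222.Mn (f i) K‖ ^ 2 ≤ θ i) ∧
        (W K = {K} ∨ ∀ p ∈ W K, ∀ j ≤ k + 1,
          WinH222.dav (WinH222.pq (f i) (WinH222.Mn (f i) K)) j (p.1 + 7) p.2 ≤ 2 * θ i)) := by
    intro i
    by_cases hi : i ∈ s
    · obtain ⟨T, W, h⟩ := WinH222.gram_windows hR (f i) (hθ i hi) (hf i hi) k
      exact ⟨T, W, fun _ => h⟩
    · exact ⟨∅, fun _ => ∅, fun h => absurd h hi⟩
  choose T W hTW using hex
  obtain ⟨S', W', hP, hd, hW, _⟩ := dev_union s hR T W _ (fun i hi => (hTW i hi).1)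
    (fun i p K => ‖WinH222.Mn (f i) p - WinH222.Mn (f i) K‖ ^ 2) θ
    (fun i _ p K A => mean_tri (f i) p K A) (fun i hi A hA => ((hTW i hi).2 A hA).1)
  refine ⟨S', W', hP, fun K hK i hi => ⟨hd K hK i hi, ?_⟩⟩
  obtain ⟨A, hA, h1, h2⟩ := hW K hK i hi
  have hK' := (hP.full K hK).top
  rcases ((hTW i hi).2 A hA).2 with h3 | h3
  · exact Or.inl (single_of_sub h3 h1 hK')
  · right
    intro p hp j hj
    have a1 := h3 p (h1 hp) j hj
    have a2 := ((hTW i hi).2 A hA).1 K h2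
    have a3 := dav_center (f i) (WinH222.Mn (f i) A) (WinH222.Mn (f i) K) j (p.1 + 7) p.2
    linarith

/-- **GRAM WINDOWS INSIDE GIVEN WINDOWS** (222's form): the function may depend on the window -/
theorem gram_refine (hR : Full R J) {S : Finset Nd} {W : Nd → Finset Nd} {C : ℝ}
    (h : Part R S W C) (G : Nd → Type*) [∀ K, NormedAddCommGroup (G K)]
    [∀ K, InnerProductSpace ℝ (G K)] (f : (K : Nd) → ℤ → G K) {S₀ θ : ℝ} (hS₀ : 0 ≤ S₀)
    (hθ : 0 < θ) (hf : ∀ K ∈ S, ∀ y, ‖f K y‖ ^ 2 ≤ S₀) (k : ℕ) :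
    ∃ (S' : Finset Nd) (W' : Nd → Finset Nd),
      Part R S' W' ((2 + 40 * ((k + 1) * S₀) / θ) * (1 + C)) ∧
      ∀ K' ∈ S', ∃ K ∈ S, K' ∈ W K ∧ W' K' ⊆ W K ∧
        (∀ p ∈ W' K', ‖WinH222.Mn (f K) p - WinH222.Mn (f K) K'‖ ^ 2 ≤ θ) ∧
        (W' K' = {K'} ∨ ∀ p ∈ W' K', ∀ j ≤ k + 1,
          WinH222.dav (WinH222.pq (f K) (WinH222.Mn (f K) K')) j (p.1 + 7) p.2 ≤ 2 * θ) := by
  refine dev_refine hR (by positivity) h
    (fun K K' V => (∀ p ∈ V, ‖WinH222.Mn (f K) p - WinH222.Mn (f K) K'‖ ^ 2 ≤ θ) ∧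
        (V = {K'} ∨ ∀ p ∈ V, ∀ j ≤ k + 1,
          WinH222.dav (WinH222.pq (f K) (WinH222.Mn (f K) K')) j (p.1 + 7) p.2 ≤ 2 * θ)) ?_
  intro K hK
  exact WinH222.gram_windows (h.full K hK) (f K) hθ (hf K hK) k

end hilbert

/-! ### 590's form: weighted scalar families -/

section scalar

variable {ι : Type*} [Fintype ι] {om : ι → ℝ} {S : ι → Nd → ℂ}

theorem csq_tri (a b c : ℂ) : ‖a - b‖ ^ 2 ≤ 2 * ‖a - c‖ ^ 2 + 2 * ‖b - c‖ ^ 2 := by
  have e : a - b = (a - c) - (b - c) := by ring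
  have h1 : ‖a - b‖ ≤ ‖a - c‖ + ‖b - c‖ := by
    rw [e]
    exact norm_sub_le _ _
  have h2 := norm_nonneg (a - b)
  nlinarith [sq_nonneg (‖a - c‖ - ‖b - c‖), norm_nonneg (a - c), norm_nonneg (b - c)]

theorem Df_tri (hom : ∀ i, 0 ≤ om i) (p K A : Nd) :
    GWin.Df om S p K ≤ 2 * GWin.Df om S p A + 2 * GWin.Df om S K A := by
  unfold GWin.Df
  rw [Finset.mul_sum, Finset.mul_sum, ← Finset.sum_add_distrib]
  refine Finset.sum_le_sum fun i _ => ?_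
  have h := mul_le_mul_of_nonneg_left
    (csq_tri (GWin.Mn (S i) p) (GWin.Mn (S i) K) (GWin.Mn (S i) A)) (hom i)
  linarith

theorem sd_len (j : ℕ) : ∀ p : Nd, j ≤ p.1 → GWin.sd len j p = len p := by
  induction j with
  | zero => intro p _; rw [GWin.sd_zero]
  | succ j ih =>
    intro p hp
    rcases p with ⟨m, l⟩
    cases m with
    | zero => simp at hp
    | succ m =>
      have hjm : j ≤ m := by simpa using hp
      rw [GWin.sd_succ, ih (m, 2 * l) hjm, ih (m, 2 * l + 1) hjm]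
      have hl0 : len (m + 1, l) = 2 * len (m, 2 * l) := len_ch m l _
      have hl1 : len (m, 2 * l + 1) = len (m, 2 * l) := rfl
      rw [hl0, hl1]
      ring

theorem desc_len {j : ℕ} {p : Nd} (hj : j ≤ p.1) : ∑ r ∈ GWin.desc j p, len r = len p := by
  rw [GWin.sum_desc len j p hj, sd_len j p hj]

/-- averages over the descendants with another centre -/
theorem desc_center (hom : ∀ i, 0 ≤ om i) {j : ℕ} {p : Nd} (hj : j ≤ p.1) (K A : Nd) :
    ∑ r ∈ GWin.desc j p, len r * GWin.Df om S r K ≤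
      2 * (∑ r ∈ GWin.desc j p, len r * GWin.Df om S r A) + 2 * GWin.Df om S K A * len p := by
  have h1 : ∀ r ∈ GWin.desc j p, len r * GWin.Df om S r K ≤
      2 * (len r * GWin.Df om S r A) + 2 * GWin.Df om S K A * len r := by
    intro r _
    have h := mul_le_mul_of_nonneg_left (Df_tri (S := S) hom r K A) (Growth.len_pos r).le
    linarith
  refine (Finset.sum_le_sum h1).trans (le_of_eq ?_)
  rw [Finset.sum_add_distrib, ← Finset.mul_sum, ← Finset.mul_sum, desc_len hj]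

/-- **GRAM WINDOWS OF A FINITE FAMILY** (590's form), one `Part` -/
theorem gwin_union {κ : Type*} (s : Finset κ) (hR : Full R J) (om : κ → ι → ℝ)
    (S : κ → ι → Nd → ℂ) (hom : ∀ a ∈ s, ∀ i, 0 ≤ om a i) (hS : ∀ a ∈ s, GWin.Add (S a))
    (S₀ θ : κ → ℝ) (k : ℕ) (hθ : ∀ a ∈ s, 0 < θ a) (hB : ∀ a ∈ s, ∀ p, GWin.En (om a) (S a) p ≤ S₀ a) :
    ∃ (T : Finset Nd) (W : Nd → Finset Nd),
      Part R T W (1 + ∑ a ∈ s, (2 + 40 * (k + 1) * S₀ a / θ a)) ∧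
      ∀ K ∈ T, ∀ a ∈ s, (∀ p ∈ W K, GWin.Df (om a) (S a) p K ≤ 4 * θ a) ∧
        (W K = {K} ∨ ∀ p ∈ W K, ∀ j ≤ k, j ≤ p.1 →
          ∑ r ∈ GWin.desc j p, len r * GWin.Df (om a) (S a) r K ≤ 6 * θ a * len p) := by
  classical
  have hex : ∀ a : κ, ∃ (T : Finset Nd) (W : Nd → Finset Nd), a ∈ s →
      (Part R T W (2 + 40 * (k + 1) * S₀ a / θ a) ∧
      ∀ K ∈ T, (∀ p ∈ W K, GWin.Df (om a) (S a) p K ≤ θ a) ∧
        (W K = {K} ∨ ∀ p ∈ W K, ∀ j ≤ k, j ≤ p.1 →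
          ∑ r ∈ GWin.desc j p, len r * GWin.Df (om a) (S a) r K ≤ 2 * θ a * len p)) := by
    intro a
    by_cases ha : a ∈ s
    · obtain ⟨T, W, h1, h2⟩ := GWin.gram_windows hR (hom a ha) (hS a ha) k (hθ a ha) (hB a ha)
      refine ⟨T, W, fun _ => ⟨h1, fun K hK => ⟨(h2 K hK).1, ?_⟩⟩⟩
      rcases (h2 K hK).2 with h3 | h3
      · exact Or.inl h3
      · exact Or.inr fun p hp => (h3 p hp).2
    · exact ⟨∅, fun _ => ∅, fun h => absurd h ha⟩
  choose T W hTW using hex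
  obtain ⟨S', W', hP, hd, hW, _⟩ := dev_union s hR T W _ (fun a ha => (hTW a ha).1)
    (fun a p K => GWin.Df (om a) (S a) p K) θ
    (fun a ha p K A => Df_tri (hom a ha) p K A) (fun a ha A hA => ((hTW a ha).2 A hA).1)
  refine ⟨S', W', hP, fun K hK a ha => ⟨hd K hK a ha, ?_⟩⟩
  obtain ⟨A, hA, h1, h2⟩ := hW K hK a ha
  have hK' := (hP.full K hK).top
  rcases ((hTW a ha).2 A hA).2 with h3 | h3
  · exact Or.inl (single_of_sub h3 h1 hK')
  · right
    intro p hp j hj hjp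
    have a1 := h3 p (h1 hp) j hj hjp
    have a2 := ((hTW a ha).2 A hA).1 K h2
    have a3 := desc_center (S := S a) (hom a ha) hjp K A
    have a4 := mul_le_mul_of_nonneg_right a2 (Growth.len_pos p).le
    linarith

/-- **GRAM WINDOWS INSIDE GIVEN WINDOWS** (590's form) -/
theorem gwin_refine (hR : Full R J) {S : Finset Nd} {W : Nd → Finset Nd} {C : ℝ}
    (h : Part R S W C) (I : Nd → Type*) [∀ K, Fintype (I K)] (om : (K : Nd) → I K → ℝ)
    (E : (K : Nd) → I K → Nd → ℂ) (hom : ∀ K ∈ S, ∀ i, 0 ≤ om K i)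
    (hE : ∀ K ∈ S, GWin.Add (E K)) {S₀ θ : ℝ} (hS₀ : 0 ≤ S₀) (k : ℕ) (hθ : 0 < θ)
    (hB : ∀ K ∈ S, ∀ p, GWin.En (om K) (E K) p ≤ S₀) :
    ∃ (S' : Finset Nd) (W' : Nd → Finset Nd),
      Part R S' W' ((2 + 40 * (k + 1) * S₀ / θ) * (1 + C)) ∧
      ∀ K' ∈ S', ∃ K ∈ S, K' ∈ W K ∧ W' K' ⊆ W K ∧
        (∀ p ∈ W' K', GWin.Df (om K) (E K) p K' ≤ θ) ∧
        (W' K' = {K'} ∨ ∀ p ∈ W' K', ∀ j ≤ k, j ≤ p.1 →
          ∑ r ∈ GWin.desc j p, len r * GWin.Df (om K) (E K) r K' ≤ 2 * θ * len p) := by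
  refine dev_refine hR (by positivity) h
    (fun K K' V => (∀ p ∈ V, GWin.Df (om K) (E K) p K' ≤ θ) ∧
        (V = {K'} ∨ ∀ p ∈ V, ∀ j ≤ k, j ≤ p.1 →
          ∑ r ∈ GWin.desc j p, len r * GWin.Df (om K) (E K) r K' ≤ 2 * θ * len p)) ?_
  intro K hK
  obtain ⟨T, V, h1, h2⟩ := GWin.gram_windows (h.full K hK) (hom K hK) (hE K hK) k hθ (hB K hK)
  refine ⟨T, V, h1, fun K' hK' => ⟨(h2 K' hK').1, ?_⟩⟩
  rcases (h2 K' hK').2 with h3 | h3
  · exact Or.inl h3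
  · exact Or.inr fun p hp => (h3 p hp).2

end scalar

/-! ### 71's comparison forms -/

section gram

open Matrix Crest.Agent.R079.St2 Crest.Agent.R079.LeafV71
open scoped ComplexOrder MatrixOrder

variable {ι : Type*} [Fintype ι] [DecidableEq ι]

omit [DecidableEq ι] in
theorem GrU.mono {T T' : Finset (ℕ × ℤ)} {v : ℤ → ι → ℂ} {M : Matrix ι ι ℂ} {δ : ℝ}
    (h : GrU T v M δ) (hT : T' ⊆ T) : GrU T' v M δ := fun p hp x => h p (hT hp) x

omit [DecidableEq ι] in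
theorem GrL.mono {T T' : Finset (ℕ × ℤ)} {v : ℤ → ι → ℂ} {M : Matrix ι ι ℂ} {δ : ℝ}
    (h : GrL T v M δ) (hT : T' ⊆ T) : GrL T' v M δ := fun p hp x => h p (hT hp) x

theorem GrU.weaken {T : Finset (ℕ × ℤ)} {v : ℤ → ι → ℂ} {M : Matrix ι ι ℂ} {δ δ' : ℝ}
    (h : GrU T v M δ) (hd : δ ≤ δ') : GrU T v M δ' := fun p hp x => by
  have h1 := h p hp x
  have h2 := mul_le_mul_of_nonneg_right hd (n2_nonneg x)
  linarith

theorem GrL.weaken {T : Finset (ℕ × ℤ)} {v : ℤ → ι → ℂ} {M : Matrix ι ι ℂ} {δ δ' : ℝ}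
    (h : GrL T v M δ) (hd : δ ≤ δ') : GrL T v M δ' := fun p hp x => by
  have h1 := h p hp x
  have h2 := mul_le_mul_of_nonneg_right hd (n2_nonneg x)
  linarith

/-- change of the matrix: from `M` to the Gram of any node `K ∈ T` -/
theorem GrU.top {T : Finset (ℕ × ℤ)} {v : ℤ → ι → ℂ} {M : Matrix ι ι ℂ} {δ δ' : ℝ}
    (h : GrU T v M δ) (h' : GrL T v M δ') {K : ℕ × ℤ} (hK : K ∈ T) :
    GrU T v (gr (dI (K.1 + 7) K.2) (1 / ln K) v) (δ + δ') := fun p hp x => by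
  have h1 := h p hp x
  have h2 := h' K hK x
  have h3 : qf (gr (dI (K.1 + 7) K.2) (1 / ln K) v) x = gf v K x := by
    rw [qf_gr]
    rfl
  rw [h3]
  linarith

theorem GrL.top {T : Finset (ℕ × ℤ)} {v : ℤ → ι → ℂ} {M : Matrix ι ι ℂ} {δ δ' : ℝ}
    (h : GrU T v M δ) (h' : GrL T v M δ') {K : ℕ × ℤ} (hK : K ∈ T) :
    GrL T v (gr (dI (K.1 + 7) K.2) (1 / ln K) v) (δ + δ') := fun p hp x => by
  have h1 := h K hK x
  have h2 := h' p hp x
  have h3 : qf (gr (dI (K.1 + 7) K.2) (1 / ln K) v) x = gf v K x := by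
    rw [qf_gr]
    rfl
  rw [h3]
  linarith

end gram

/-! ### stopping times: a submartingale deviation exceeds `δ` on a small set, per frozen pair -/

section stop

/-- every antichain is below the leaf average -/
theorem antichain_le {W : Finset Nd} {I : Nd} (hW : Full W I) {D : Nd → ℝ} (hD : ∀ p, 0 ≤ D p)
    (hsub : ∀ (m : ℕ) (l : ℤ), (m + 1, l) ∈ W → (m, 2 * l) ∈ W → (m, 2 * l + 1) ∈ W →
      D (m + 1, l) ≤ (D (m, 2 * l) + D (m, 2 * l + 1)) / 2)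
    (P : Finset Nd) (hP : P ⊆ W)
    (hanti : ∀ p ∈ P, ∀ q ∈ P, p ≠ q → Disjoint (iv p) (iv q)) :
    ∑ p ∈ P, len p * D p ≤ ∑ L ∈ lf W, len L * D L := by
  classical
  have key : ∀ p ∈ W, len p * D p ≤ SL W p D := by
    refine full_ind hW (fun p hp => ?_) fun m l hp hnl h0 h1 e0 e1 => ?_
    · rw [SL_leaf hp]
    · rw [SL_node hW hnl h0 h1]
      have hl0 : len (m + 1, l) = 2 * len (m, 2 * l) := len_ch m l _
      have hl1 : len (m, 2 * l + 1) = len (m, 2 * l) := rfl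
      have h2 := mul_le_mul_of_nonneg_left (hsub m l hp h0 h1) (Growth.len_pos (m, 2 * l)).le
      rw [hl1] at e1
      rw [hl0]
      linarith
  calc ∑ p ∈ P, len p * D p ≤ ∑ p ∈ P, SL W p D := Finset.sum_le_sum fun p hp => key p (hP hp)
    _ = ∑ p ∈ P, ∑ L ∈ (lf W).filter (fun L => iv L ⊆ iv p), len L * D L := rfl
    _ = ∑ L ∈ P.biUnion (fun p => (lf W).filter (fun L => iv L ⊆ iv p)), len L * D L := by
        rw [Finset.sum_biUnion]
        intro p hp q hq hne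
        rw [Function.onFun, Finset.disjoint_left]
        intro L hL hL'
        obtain ⟨y, hy⟩ := iv_nonempty L
        exact Finset.disjoint_left.1 (hanti p (by exact_mod_cast hp) q (by exact_mod_cast hq) hne)
          ((Finset.mem_filter.1 hL).2 hy) ((Finset.mem_filter.1 hL').2 hy)
    _ ≤ ∑ L ∈ lf W, len L * D L := by
        refine Finset.sum_le_sum_of_subset_of_nonneg ?_ fun L _ _ =>
          mul_nonneg (Growth.len_pos L).le (hD L)
        intro L hL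
        obtain ⟨p, _, h⟩ := Finset.mem_biUnion.1 hL
        exact (Finset.mem_filter.1 h).1

open Classical in
/-- maximal nodes of `W` where `D` exceeds `δ` -/
noncomputable def MB (W : Finset Nd) (D : Nd → ℝ) (δ : ℝ) : Finset Nd :=
  W.filter (fun p => δ < D p ∧ ∀ q ∈ W, δ < D q → iv p ⊆ iv q → q = p)

open Classical in
/-- good nodes: no bad node above (or equal) -/
noncomputable def Gd (W : Finset Nd) (D : Nd → ℝ) (δ : ℝ) : Finset Nd :=
  W.filter (fun p => ∀ q ∈ W, iv p ⊆ iv q → D q ≤ δ)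

theorem mem_MB {W : Finset Nd} {D : Nd → ℝ} {δ : ℝ} {p : Nd} : p ∈ MB W D δ ↔
    p ∈ W ∧ δ < D p ∧ ∀ q ∈ W, δ < D q → iv p ⊆ iv q → q = p := by
  classical
  exact Finset.mem_filter

theorem mem_Gd {W : Finset Nd} {D : Nd → ℝ} {δ : ℝ} {p : Nd} : p ∈ Gd W D δ ↔
    p ∈ W ∧ ∀ q ∈ W, iv p ⊆ iv q → D q ≤ δ := by
  classical
  exact Finset.mem_filter

theorem Gd_le {W : Finset Nd} {D : Nd → ℝ} {δ : ℝ} {p : Nd} (hp : p ∈ Gd W D δ) : D p ≤ δ :=
  (mem_Gd.1 hp).2 p (mem_Gd.1 hp).1 subset_rfl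

/-- the good nodes form a region: closed upwards in `W` -/
theorem Gd_up {W : Finset Nd} {D : Nd → ℝ} {δ : ℝ} {p q : Nd} (hp : p ∈ Gd W D δ) (hq : q ∈ W)
    (h : iv p ⊆ iv q) : q ∈ Gd W D δ :=
  mem_Gd.2 ⟨hq, fun r hr h' => (mem_Gd.1 hp).2 r hr (h.trans h')⟩

/-- a node is good or lies below exactly one maximal bad node -/
theorem good_or_below {W : Finset Nd} (D : Nd → ℝ) (δ : ℝ) {p : Nd} (hp : p ∈ W) :
    p ∈ Gd W D δ ∨ ∃ q ∈ MB W D δ, iv p ⊆ iv q := by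
  classical
  by_cases h : p ∈ Gd W D δ
  · exact Or.inl h
  · right
    rw [mem_Gd] at h
    push Not at h
    obtain ⟨q, hq, hpq, hDq⟩ := h hp
    -- the highest bad node above `p`
    let B := W.filter (fun q => iv p ⊆ iv q ∧ δ < D q)
    have hB : B.Nonempty := ⟨q, Finset.mem_filter.2 ⟨hq, hpq, hDq⟩⟩
    obtain ⟨r, hr, hmax⟩ := Finset.exists_max_image B (fun q => q.1) hB
    obtain ⟨hrW, hpr, hDr⟩ := Finset.mem_filter.1 hr
    refine ⟨r, mem_MB.2 ⟨hrW, hDr, fun u hu hDu hru => ?_⟩, hpr⟩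
    have hu' : u ∈ B := Finset.mem_filter.2 ⟨hu, hpr.trans hru, hDu⟩
    have h1 := hmax u hu'
    obtain ⟨j, hj⟩ := Qe292.iv_sub_iff.1 hru
    have h2 : u.1 = r.1 + j := by rw [hj]
    have h3 : j = 0 := by
      have h1' : u.1 ≤ r.1 := h1
      omega
    rw [hj, h3]
    simp

theorem MB_disj {W : Finset Nd} {D : Nd → ℝ} {δ : ℝ} :
    ∀ p ∈ MB W D δ, ∀ q ∈ MB W D δ, p ≠ q → Disjoint (iv p) (iv q) := by
  intro p hp q hq hne
  rcases disj_or_nest p q with h | h | h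
  · exact h
  · exact absurd ((mem_MB.1 hp).2.2 q (mem_MB.1 hq).1 (mem_MB.1 hq).2.1 h) (fun e => hne e.symm)
  · exact absurd ((mem_MB.1 hq).2.2 p (mem_MB.1 hp).1 (mem_MB.1 hp).2.1 h) hne

/-- **BAD SET OF ONE FROZEN PAIR** -/
theorem bad_len {W : Finset Nd} {I : Nd} (hW : Full W I) {D : Nd → ℝ} (hD : ∀ p, 0 ≤ D p)
    (hsub : ∀ (m : ℕ) (l : ℤ), (m + 1, l) ∈ W → (m, 2 * l) ∈ W → (m, 2 * l + 1) ∈ W →
      D (m + 1, l) ≤ (D (m, 2 * l) + D (m, 2 * l + 1)) / 2) {δ : ℝ} (hδ : 0 < δ) :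
    ∑ p ∈ MB W D δ, len p ≤ (∑ L ∈ lf W, len L * D L) / δ := by
  rw [le_div_iff₀ hδ, Finset.sum_mul]
  refine le_trans (Finset.sum_le_sum fun p hp => ?_) (antichain_le hW hD hsub (MB W D δ)
    (fun p hp => (mem_MB.1 hp).1) MB_disj)
  exact mul_le_mul_of_nonneg_left (mem_MB.1 hp).2.1.le (Growth.len_pos p).le

/-- **BAD SETS OF A WEIGHTED FAMILY OF FROZEN PAIRS**: uniform closeness of the node Grams on the good
nodes of every pair; the bad nodes have small total weight. -/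
theorem bad_meas {κ : Type*} (s : Finset κ) {W : Finset Nd} {I : Nd} (hW : Full W I)
    (om : κ → ℝ) (hom : ∀ u ∈ s, 0 ≤ om u) (D : κ → Nd → ℝ) (hD : ∀ u ∈ s, ∀ p, 0 ≤ D u p)
    (hsub : ∀ u ∈ s, ∀ (m : ℕ) (l : ℤ), (m + 1, l) ∈ W → (m, 2 * l) ∈ W → (m, 2 * l + 1) ∈ W →
      D u (m + 1, l) ≤ (D u (m, 2 * l) + D u (m, 2 * l + 1)) / 2) {δ θ : ℝ} (hδ : 0 < δ)
    (hθ : ∀ L ∈ lf W, ∑ u ∈ s, om u * D u L ≤ θ) :
    ∑ u ∈ s, om u * ∑ p ∈ MB W (D u) δ, len p ≤ θ / δ * len I := by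
  classical
  have h1 : ∀ u ∈ s, om u * ∑ p ∈ MB W (D u) δ, len p ≤
      om u * ((∑ L ∈ lf W, len L * D u L) / δ) := fun u hu =>
    mul_le_mul_of_nonneg_left (bad_len hW (hD u hu) (hsub u hu) hδ) (hom u hu)
  refine (Finset.sum_le_sum h1).trans ?_
  have h2 : ∑ u ∈ s, om u * ((∑ L ∈ lf W, len L * D u L) / δ) =
      (∑ L ∈ lf W, len L * ∑ u ∈ s, om u * D u L) / δ := by
    rw [Finset.sum_div]
    simp only [Finset.mul_sum, Finset.sum_div]
    rw [Finset.sum_comm]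
    refine Finset.sum_congr rfl fun L _ => Finset.sum_congr rfl fun u _ => ?_
    ring
  rw [h2]
  have h3 : ∑ L ∈ lf W, len L * ∑ u ∈ s, om u * D u L ≤ ∑ L ∈ lf W, len L * θ :=
    Finset.sum_le_sum fun L hL => mul_le_mul_of_nonneg_left (hθ L hL) (Growth.len_pos L).le
  have h4 : ∑ L ∈ lf W, len L * θ = len I * θ := by
    have h5 := SL_const hW θ I hW.top
    unfold SL at h5
    rw [← h5]
    refine Finset.sum_congr ?_ fun _ _ => rfl
    symm
    rw [Finset.filter_eq_self]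
    exact fun L hL => hW.reg.1 L (mem_lf.1 hL).1
  rw [h4] at h3
  calc (∑ L ∈ lf W, len L * ∑ u ∈ s, om u * D u L) / δ ≤ (len I * θ) / δ := by gcongr
    _ = _ := by ring

/-- 590's deviation of one row of the family from a fixed node is a submartingale -/
theorem dev_sub {ι : Type*} {S : ι → Nd → ℂ} (hS : GWin.Add S) {κ : Type*} (s : Finset κ)
    (e : κ → ι) (w : κ → ℝ) (hw : ∀ a ∈ s, 0 ≤ w a) (K : Nd) (m : ℕ) (l : ℤ) :
    ∑ a ∈ s, w a * ‖GWin.Mn (S (e a)) (m + 1, l) - GWin.Mn (S (e a)) K‖ ^ 2 ≤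
      (∑ a ∈ s, w a * ‖GWin.Mn (S (e a)) (m, 2 * l) - GWin.Mn (S (e a)) K‖ ^ 2 +
        ∑ a ∈ s, w a * ‖GWin.Mn (S (e a)) (m, 2 * l + 1) - GWin.Mn (S (e a)) K‖ ^ 2) / 2 := by
  rw [← Finset.sum_add_distrib, Finset.sum_div]
  refine Finset.sum_le_sum fun a ha => ?_
  have h := GWin.par_id (GWin.Mn (S (e a)) (m, 2 * l) - GWin.Mn (S (e a)) K)
    (GWin.Mn (S (e a)) (m, 2 * l + 1) - GWin.Mn (S (e a)) K)
  have e1 : (GWin.Mn (S (e a)) (m, 2 * l) - GWin.Mn (S (e a)) K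
      + (GWin.Mn (S (e a)) (m, 2 * l + 1) - GWin.Mn (S (e a)) K)) / 2
      = GWin.Mn (S (e a)) (m + 1, l) - GWin.Mn (S (e a)) K := by
    rw [GWin.Mn_node hS (e a) m l]
    ring
  rw [e1] at h
  have h2 : ‖GWin.Mn (S (e a)) (m + 1, l) - GWin.Mn (S (e a)) K‖ ^ 2 ≤
      (‖GWin.Mn (S (e a)) (m, 2 * l) - GWin.Mn (S (e a)) K‖ ^ 2 +
        ‖GWin.Mn (S (e a)) (m, 2 * l + 1) - GWin.Mn (S (e a)) K‖ ^ 2) / 2 := by
    have := sq_nonneg ‖(GWin.Mn (S (e a)) (m, 2 * l) - GWin.Mn (S (e a)) K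
      - (GWin.Mn (S (e a)) (m, 2 * l + 1) - GWin.Mn (S (e a)) K)) / 2‖
    linarith
  have h3 := mul_le_mul_of_nonneg_left h2 (hw a ha)
  linarith

end stop

end Crest.Agent.R079.Wc1863
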