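import Crest.Agent.R079.PWin_590

/-! R079, doc 2531 (787), STATIC WINDOWS of a Hilbert-space valued line function (helper222).

`f : ℤ → H` bounded (`‖f y‖² ≤ S`), e.g. `H` = all `(z₀,z₃)`-fibres of `v v*` (Hilbert-Schmidt).  `mean f k l` =
average over the dyadic interval `dI k l` (any length).  `gram_windows`: at most `2 + 40 (k+1) S / θ` windows
such that at EVERY node `p` of a window with top `K` (or one-node window) the averages of all sub-intervals
of `iv p` of generation `≤ k+1` (also below level `0`) agree with `mean` on `K` up to `2 θ` in `L²`.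
`sum_close`: arbitrary intervals inside `iv p`. -/

set_option autoImplicit false

namespace Crest.Agent.R079.WinH222

open Finset Crest.Agent.R079.Grid Crest.Agent.R079.Growth Crest.Agent.R079.QRed
  Crest.Agent.R079.Qe292 Crest.Agent.R079.Qh249 Crest.Agent.R079.TWin Crest.Agent.R079.PWin

variable {H : Type*} [NormedAddCommGroup H] [InnerProductSpace ℝ H]

/-- mean over the dyadic interval `dI k l` -/
noncomputable def mean (f : ℤ → H) (k : ℕ) (l : ℤ) : H := ((2 : ℝ) ^ k)⁻¹ • ∑ y ∈ dI k l, f y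

theorem mean_succ (f : ℤ → H) (k : ℕ) (l : ℤ) :
    mean f (k + 1) l = (1 / 2 : ℝ) • (mean f k (2 * l) + mean f k (2 * l + 1)) := by
  unfold mean
  rw [L0e.dI_succ, Finset.sum_union (L0e.dI_disj (by omega)), ← smul_add, smul_smul]
  congr 1
  rw [pow_succ, mul_inv]
  ring

theorem dI_zero (l : ℤ) : dI 0 l = {l} := by
  ext y
  simp only [dI, pow_zero, mul_one, Finset.mem_Ico, Finset.mem_singleton]
  omega

theorem mean_zero (f : ℤ → H) (l : ℤ) : mean f 0 l = f l := by
  unfold mean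
  rw [dI_zero, Finset.sum_singleton, pow_zero, inv_one, one_smul]

theorem card_dI (k : ℕ) (l : ℤ) : ((dI k l).card : ℝ) = 2 ^ k := by
  unfold dI
  rw [Int.card_Ico]
  have h : (l + 1) * 2 ^ k - l * 2 ^ k = 2 ^ k := by ring
  rw [h]
  have h2 : (((2 : ℤ) ^ k).toNat : ℤ) = 2 ^ k := Int.toNat_of_nonneg (by positivity)
  exact_mod_cast h2

theorem sum_eq_mean (f : ℤ → H) (k : ℕ) (l : ℤ) : ∑ y ∈ dI k l, f y = (2 : ℝ) ^ k • mean f k l := by
  unfold mean
  rw [smul_smul, mul_inv_cancel₀ (by positivity), one_smul]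

/-- average over the sub-intervals of generation `min j k` -/
noncomputable def dav (g : ℕ → ℤ → ℝ) : ℕ → ℕ → ℤ → ℝ
  | 0, k, l => g k l
  | _ + 1, 0, l => g 0 l
  | j + 1, k + 1, l => (dav g j k (2 * l) + dav g j k (2 * l + 1)) / 2

theorem dav_zero (g : ℕ → ℤ → ℝ) (k : ℕ) (l : ℤ) : dav g 0 k l = g k l := by
  cases k <;> rfl

theorem dav_bot (g : ℕ → ℤ → ℝ) (j : ℕ) (l : ℤ) : dav g j 0 l = g 0 l := by
  cases j <;> rfl

theorem dav_succ (g : ℕ → ℤ → ℝ) (j k : ℕ) (l : ℤ) :
    dav g (j + 1) (k + 1) l = (dav g j k (2 * l) + dav g j k (2 * l + 1)) / 2 := rfl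

theorem dav_add (g h : ℕ → ℤ → ℝ) (j : ℕ) : ∀ (k : ℕ) (l : ℤ),
    dav (fun k l => g k l + h k l) j k l = dav g j k l + dav h j k l := by
  induction j with
  | zero => intro k l; simp only [dav_zero]
  | succ j ih =>
    intro k l
    cases k with
    | zero => simp only [dav_bot]
    | succ k => rw [dav_succ, dav_succ, dav_succ, ih, ih]; ring

theorem dav_mart (g : ℕ → ℤ → ℝ) (hg : ∀ k l, g (k + 1) l = (g k (2 * l) + g k (2 * l + 1)) / 2)
    (j : ℕ) : ∀ (k : ℕ) (l : ℤ), dav g j k l = g k l := by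
  induction j with
  | zero => intro k l; rw [dav_zero]
  | succ j ih =>
    intro k l
    cases k with
    | zero => rw [dav_bot]
    | succ k => rw [dav_succ, ih, ih, ← hg]

theorem dav_le (g : ℕ → ℤ → ℝ) {S : ℝ} (hg : ∀ k l, g k l ≤ S) (j : ℕ) :
    ∀ (k : ℕ) (l : ℤ), dav g j k l ≤ S := by
  induction j with
  | zero => intro k l; rw [dav_zero]; exact hg k l
  | succ j ih =>
    intro k l
    cases k with
    | zero => rw [dav_bot]; exact hg 0 l
    | succ k =>
      rw [dav_succ]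
      have h1 := ih k (2 * l)
      have h2 := ih k (2 * l + 1)
      linarith

theorem dav_nonneg (g : ℕ → ℤ → ℝ) (hg : ∀ k l, 0 ≤ g k l) (j : ℕ) :
    ∀ (k : ℕ) (l : ℤ), 0 ≤ dav g j k l := by
  induction j with
  | zero => intro k l; rw [dav_zero]; exact hg k l
  | succ j ih =>
    intro k l
    cases k with
    | zero => rw [dav_bot]; exact hg 0 l
    | succ k =>
      rw [dav_succ]
      have h1 := ih k (2 * l)
      have h2 := ih k (2 * l + 1)
      linarith

/-- a submartingale: deeper averages are larger -/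
theorem dav_mono (g : ℕ → ℤ → ℝ) (hg : ∀ k l, g (k + 1) l ≤ (g k (2 * l) + g k (2 * l + 1)) / 2)
    (j : ℕ) : ∀ (k : ℕ) (l : ℤ), dav g j k l ≤ dav g (j + 1) k l := by
  induction j with
  | zero =>
    intro k l
    cases k with
    | zero => rw [dav_bot, dav_bot]
    | succ k => rw [dav_succ, dav_zero, dav_zero, dav_zero]; exact hg k l
  | succ j ih =>
    intro k l
    cases k with
    | zero => rw [dav_bot, dav_bot]
    | succ k =>
      rw [dav_succ, dav_succ g (j + 1)]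
      have h1 := ih k (2 * l)
      have h2 := ih k (2 * l + 1)
      linarith

theorem dav_mono' (g : ℕ → ℤ → ℝ) (hg : ∀ k l, g (k + 1) l ≤ (g k (2 * l) + g k (2 * l + 1)) / 2)
    {i j : ℕ} (hij : i ≤ j) (k : ℕ) (l : ℤ) : dav g i k l ≤ dav g j k l := by
  obtain ⟨d, rfl⟩ := Nat.exists_eq_add_of_le hij
  clear hij
  induction d with
  | zero => exact le_refl _
  | succ d ih => exact ih.trans (dav_mono g hg (i + d) k l)

/-- square distance to `c` -/
noncomputable def pq (f : ℤ → H) (c : H) (k : ℕ) (l : ℤ) : ℝ := ‖mean f k l - c‖ ^ 2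

theorem half_sq (a b : H) :
    ‖(1 / 2 : ℝ) • (a + b)‖ ^ 2 = (‖a‖ ^ 2 + ‖b‖ ^ 2) / 2 - ‖(1 / 2 : ℝ) • (a - b)‖ ^ 2 := by
  have h := parallelogram_law_with_norm ℝ a b
  rw [norm_smul, norm_smul]
  have e : ‖(1 / 2 : ℝ)‖ = 1 / 2 := by norm_num
  rw [e]
  nlinarith [h]

theorem pq_succ (f : ℤ → H) (c : H) (k : ℕ) (l : ℤ) :
    pq f c (k + 1) l = (pq f c k (2 * l) + pq f c k (2 * l + 1)) / 2 -
      ‖(1 / 2 : ℝ) • (mean f k (2 * l) - mean f k (2 * l + 1))‖ ^ 2 := by
  unfold pq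
  have e : mean f (k + 1) l - c =
      (1 / 2 : ℝ) • ((mean f k (2 * l) - c) + (mean f k (2 * l + 1) - c)) := by
    rw [mean_succ, smul_add, smul_add, smul_sub, smul_sub]
    have : c = (1 / 2 : ℝ) • c + (1 / 2 : ℝ) • c := by rw [← add_smul]; norm_num
    nth_rewrite 1 [this]
    abel
  rw [e, half_sq]
  congr 3
  abel_nf

theorem pq_sub (f : ℤ → H) (c : H) (k : ℕ) (l : ℤ) :
    pq f c (k + 1) l ≤ (pq f c k (2 * l) + pq f c k (2 * l + 1)) / 2 := by
  rw [pq_succ]
  have := sq_nonneg ‖(1 / 2 : ℝ) • (mean f k (2 * l) - mean f k (2 * l + 1))‖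
  linarith

/-- the increment of the averaged square distance does not depend on the centre -/
theorem dav_shift (f : ℤ → H) (c : H) (j k : ℕ) (l : ℤ) :
    dav (pq f c) j k l - pq f c k l = dav (pq f 0) j k l - pq f 0 k l := by
  have h1 : pq f c = fun k l => pq f 0 k l + (‖c‖ ^ 2 - 2 * inner ℝ (mean f k l) c) := by
    funext k l
    unfold pq
    rw [sub_zero, norm_sub_sq_real]
    ring
  have h2 := dav_mart (fun k l => ‖c‖ ^ 2 - 2 * inner ℝ (mean f k l) c) (fun k l => by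
    rw [mean_succ, inner_smul_left, inner_add_left]
    simp only [conj_trivial]
    ring) j k l
  rw [h1, dav_add, h2]
  ring

theorem pq_le (f : ℤ → H) {S : ℝ} (hf : ∀ y, ‖f y‖ ^ 2 ≤ S) (k : ℕ) : ∀ l : ℤ, pq f 0 k l ≤ S := by
  induction k with
  | zero => intro l; unfold pq; rw [mean_zero, sub_zero]; exact hf l
  | succ k ih =>
    intro l
    have h1 := pq_sub f 0 k l
    have h2 := ih (2 * l)
    have h3 := ih (2 * l + 1)
    linarith

/-- mean on a node -/
noncomputable def Mn (f : ℤ → H) (p : Nd) : H := mean f (p.1 + 7) p.2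

/-- look-ahead drift, `k + 1` generations -/
noncomputable def LD (f : ℤ → H) (k : ℕ) (p : Nd) : ℝ :=
  dav (pq f 0) (k + 1) (p.1 + 7) p.2 - pq f 0 (p.1 + 7) p.2

theorem LD_nonneg (f : ℤ → H) (k : ℕ) (p : Nd) : 0 ≤ LD f k p := by
  unfold LD
  have h := dav_mono' (pq f 0) (pq_sub f 0) (Nat.zero_le (k + 1)) (p.1 + 7) p.2
  rw [dav_zero] at h
  linarith

/-- Carleson condition of the look-ahead drift -/
theorem LD_carleson {R : Finset Nd} {J : Nd} (hR : Full R J) (f : ℤ → H) {S : ℝ}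
    (hf : ∀ y, ‖f y‖ ^ 2 ≤ S) (k : ℕ) :
    ∀ p ∈ R, bel R (LD f k) p ≤ (k + 1) * S * len p := by
  have hS0 : ∀ (j n : ℕ) (l : ℤ), dav (pq f 0) j n l ≤ S := fun j n l =>
    dav_le _ (fun n l => pq_le f hf n l) j n l
  have hn0 : ∀ (j n : ℕ) (l : ℤ), 0 ≤ dav (pq f 0) j n l := fun j n l =>
    dav_nonneg _ (fun n l => sq_nonneg _) j n l
  have h1 := carleson_super hR (D := LD f k)
    (Φ := fun p => ∑ j ∈ range (k + 1), (S - dav (pq f 0) j (p.1 + 7) p.2))
    (fun p => Finset.sum_nonneg fun j _ => by linarith [hS0 j (p.1 + 7) p.2])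
    (fun m l _ => by
      simp only
      have e : ∀ j, (dav (pq f 0) j (m + 7) (2 * l) + dav (pq f 0) j (m + 7) (2 * l + 1)) / 2 =
          dav (pq f 0) (j + 1) (m + 1 + 7) l := fun j => by
        rw [show m + 1 + 7 = m + 7 + 1 by omega, dav_succ]
      have e2 : (∑ j ∈ range (k + 1), (S - dav (pq f 0) j (m + 7) (2 * l)) +
          ∑ j ∈ range (k + 1), (S - dav (pq f 0) j (m + 7) (2 * l + 1))) / 2 =
          ∑ j ∈ range (k + 1), (S - dav (pq f 0) (j + 1) (m + 1 + 7) l) := by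
        rw [← Finset.sum_add_distrib, Finset.sum_div]
        refine Finset.sum_congr rfl fun j _ => ?_
        rw [← e j]
        ring
      rw [e2, ← Finset.sum_sub_distrib]
      have e3 : ∀ j ∈ range (k + 1), (S - dav (pq f 0) j (m + 1 + 7) l) -
          (S - dav (pq f 0) (j + 1) (m + 1 + 7) l) =
          dav (pq f 0) (j + 1) (m + 1 + 7) l - dav (pq f 0) j (m + 1 + 7) l := fun j _ => by ring
      rw [Finset.sum_congr rfl e3, Finset.sum_range_sub (fun j => dav (pq f 0) j (m + 1 + 7) l),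
        dav_zero]
      exact le_refl _)
    (fun l _ => by
      simp only [LD]
      have e3 : ∑ j ∈ range (k + 1), (dav (pq f 0) (j + 1) (0 + 7) l - dav (pq f 0) j (0 + 7) l) =
          dav (pq f 0) (k + 1) (0 + 7) l - pq f 0 (0 + 7) l := by
        rw [Finset.sum_range_sub (fun j => dav (pq f 0) j (0 + 7) l), dav_zero]
      rw [← e3]
      refine Finset.sum_le_sum fun j _ => ?_
      have := hS0 (j + 1) (0 + 7) l
      linarith)
  intro p hp
  refine (h1 p hp).trans ?_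
  have h2 : ∑ j ∈ range (k + 1), (S - dav (pq f 0) j (p.1 + 7) p.2) ≤
      ∑ _j ∈ range (k + 1), S :=
    Finset.sum_le_sum fun j _ => by linarith [hn0 j (p.1 + 7) p.2]
  rw [Finset.sum_const, Finset.card_range, nsmul_eq_mul] at h2
  have h3 := mul_le_mul_of_nonneg_left h2 (Growth.len_pos p).le
  push_cast at h3
  linarith

/-- leaf energy of the deviation is paid by the drift inside the window -/
theorem dev_energy {W : Finset Nd} {I : Nd} (hW : Full W I) (f : ℤ → H) (k : ℕ) (c : H) :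
    ∀ p ∈ W, SL W p (fun L => ‖Mn f L - c‖ ^ 2) ≤
      len p * ‖Mn f p - c‖ ^ 2 + bel (W \ lf W) (LD f k) p := by
  refine full_ind hW (fun p hp => ?_) fun m l hp hnl h0 h1 e0 e1 => ?_
  · rw [SL_leaf hp]
    have := bel_nonneg (R := W \ lf W) (LD_nonneg f k) p
    linarith
  · rw [SL_node hW hnl h0 h1, bel_node _ (Finset.mem_sdiff.2 ⟨hp, hnl⟩)]
    have hl0 : len (m + 1, l) = 2 * len (m, 2 * l) := len_ch m l _
    have hl1 : len (m, 2 * l + 1) = len (m, 2 * l) := rfl
    rw [hl1] at e1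
    have hpos := Growth.len_pos (m, 2 * l)
    have h2 := pq_succ f c (m + 7) l
    have h3 := pq_succ f 0 (m + 7) l
    have h4 : ‖(1 / 2 : ℝ) • (mean f (m + 7) (2 * l) - mean f (m + 7) (2 * l + 1))‖ ^ 2 ≤
        LD f k (m + 1, l) := by
      unfold LD
      simp only
      have h5 := dav_mono' (pq f 0) (pq_sub f 0) (Nat.le_add_left 1 k) (m + 1 + 7) l
      have h6 : dav (pq f 0) 1 (m + 1 + 7) l =
          (pq f 0 (m + 7) (2 * l) + pq f 0 (m + 7) (2 * l + 1)) / 2 := by
        rw [show m + 1 + 7 = m + 7 + 1 by omega, dav_succ, dav_zero, dav_zero]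
      have h7 : pq f 0 (m + 1 + 7) l = pq f 0 (m + 7 + 1) l := by
        rw [show m + 1 + 7 = m + 7 + 1 by omega]
      rw [h7]
      linarith
    have h8 : ‖Mn f (m + 1, l) - c‖ ^ 2 = pq f c (m + 7 + 1) l := by
      have : m + 7 + 1 = m + 1 + 7 := by omega
      rw [this]
      rfl
    have h9 : ‖Mn f (m, 2 * l) - c‖ ^ 2 = pq f c (m + 7) (2 * l) := rfl
    have h10 : ‖Mn f (m, 2 * l + 1) - c‖ ^ 2 = pq f c (m + 7) (2 * l + 1) := rfl
    rw [h9] at e0
    rw [h10] at e1
    rw [h8, h2, hl0]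
    have h11 := mul_le_mul_of_nonneg_left h4 hpos.le
    nlinarith [h11, e0, e1]

/-- **STATIC WINDOWS of a bounded `H`-valued line function, with look-ahead** -/
theorem gram_windows {R : Finset Nd} {J : Nd} (hR : Full R J) (f : ℤ → H) {S θ : ℝ} (hθ : 0 < θ)
    (hf : ∀ y, ‖f y‖ ^ 2 ≤ S) (k : ℕ) :
    ∃ (T : Finset Nd) (W : Nd → Finset Nd), Part R T W (2 + 40 * ((k + 1) * S) / θ) ∧
      ∀ K ∈ T, (∀ p ∈ W K, ‖Mn f p - Mn f K‖ ^ 2 ≤ θ) ∧
        (W K = {K} ∨ ∀ p ∈ W K, ∀ j ≤ k + 1,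
          dav (pq f (Mn f K)) j (p.1 + 7) p.2 ≤ 2 * θ) := by
  obtain ⟨T, W, hP, hT⟩ := pred_windows hR (D := LD f k)
    (dev := fun I p => ‖Mn f p - Mn f I‖ ^ 2) (S := (k + 1) * S) (A := 1) hθ zero_le_one
    (LD_nonneg f k) (LD_carleson hR f hf k) (fun I p => sq_nonneg _)
    (fun I => by simp) (fun I hI V hV hVR => by
      have h1 := dev_energy hV f k (Mn f I) I hV.top
      rw [sub_self, norm_zero] at h1
      have h2 : ∑ L ∈ lf V, len L * ‖Mn f L - Mn f I‖ ^ 2 =
          SL V I (fun L => ‖Mn f L - Mn f I‖ ^ 2) := by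
        unfold SL
        have : (lf V).filter (fun L => iv L ⊆ iv I) = lf V := by
          rw [Finset.filter_eq_self]
          exact fun L hL => hV.reg.1 L (mem_lf.1 hL).1
        rw [this]
      rw [h2]
      have h3 := Growth.len_pos I
      have h4 : 0 ≤ θ / 8 * len I := by positivity
      linarith)
  refine ⟨T, W, ?_, fun K hK => ⟨(hT K hK).1, ?_⟩⟩
  · have e : 20 * (1 + 1) * ((k + 1) * S) / θ = 40 * ((k + 1) * S) / θ := by ring
    rw [← e]
    exact hP
  · rcases (hT K hK).2 with h | h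
    · exact Or.inl h
    · refine Or.inr fun p hp j hj => ?_
      have h1 := (h p hp).1
      have h2 := acc_nonneg (LD_nonneg f k) K p
      have h3 := (hT K hK).1 p hp
      have h4 := dav_mono' (pq f (Mn f K)) (pq_sub f _) hj (p.1 + 7) p.2
      have h5 := dav_shift f (Mn f K) (k + 1) (p.1 + 7) p.2
      have h6 : pq f (Mn f K) (p.1 + 7) p.2 = ‖Mn f p - Mn f K‖ ^ 2 := rfl
      have h7 : LD f k p = dav (pq f 0) (k + 1) (p.1 + 7) p.2 - pq f 0 (p.1 + 7) p.2 := rfl
      linarith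

/-! ### arbitrary intervals -/

/-- number of end points of `[a, b)` strictly inside `dI k l` -/
def nb (a b : ℤ) (k : ℕ) (l : ℤ) : ℝ :=
  (if l * 2 ^ k < a ∧ a < (l + 1) * 2 ^ k then 1 else 0) +
    (if l * 2 ^ k < b ∧ b < (l + 1) * 2 ^ k then 1 else 0)

theorem nb_le_two (a b : ℤ) (k : ℕ) (l : ℤ) : nb a b k l ≤ 2 := by
  unfold nb
  split_ifs <;> norm_num

theorem nb_cases (a b : ℤ) (k : ℕ) (l : ℤ) : nb a b k l = 0 ∨ 1 ≤ nb a b k l := by
  unfold nb
  split_ifs <;> norm_num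

theorem one_succ (a : ℤ) (k : ℕ) (l : ℤ) :
    ((if 2 * l * 2 ^ k < a ∧ a < (2 * l + 1) * 2 ^ k then 1 else 0) : ℝ) +
      (if (2 * l + 1) * 2 ^ k < a ∧ a < (2 * l + 1 + 1) * 2 ^ k then 1 else 0) ≤
      if l * 2 ^ (k + 1) < a ∧ a < (l + 1) * 2 ^ (k + 1) then 1 else 0 := by
  have hp : (0 : ℤ) < 2 ^ k := by positivity
  have e1 : l * 2 ^ (k + 1) = 2 * l * 2 ^ k := by ring
  have e2 : (l + 1) * 2 ^ (k + 1) = (2 * l + 1 + 1) * 2 ^ k := by ring
  have e3 : (2 * l + 1) * 2 ^ k = 2 * l * 2 ^ k + 2 ^ k := by ring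
  have e4 : (2 * l + 1 + 1) * 2 ^ k = 2 * l * 2 ^ k + 2 ^ k + 2 ^ k := by ring
  rw [e1, e2, e3, e4]
  generalize (2 : ℤ) * l * 2 ^ k = u at *
  generalize (2 : ℤ) ^ k = v at *
  by_cases h1 : u < a ∧ a < u + v
  · have h2 : ¬ (u + v < a ∧ a < u + v + v) := by omega
    have h3 : u < a ∧ a < u + v + v := by omega
    rw [if_pos h1, if_neg h2, if_pos h3]
    norm_num
  · rw [if_neg h1]
    by_cases h2 : u + v < a ∧ a < u + v + v
    · have h3 : u < a ∧ a < u + v + v := by omega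
      rw [if_pos h2, if_pos h3]
      norm_num
    · rw [if_neg h2]
      split_ifs <;> norm_num

theorem nb_succ (a b : ℤ) (k : ℕ) (l : ℤ) :
    nb a b k (2 * l) + nb a b k (2 * l + 1) ≤ nb a b (k + 1) l := by
  unfold nb
  have h1 := one_succ a k l
  have h2 := one_succ b k l
  linarith

/-- first powers -/
noncomputable def pn (f : ℤ → H) (c : H) (k : ℕ) (l : ℤ) : ℝ := ‖mean f k l - c‖

theorem pn_sub (f : ℤ → H) (c : H) (k : ℕ) (l : ℤ) :
    pn f c (k + 1) l ≤ (pn f c k (2 * l) + pn f c k (2 * l + 1)) / 2 := by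
  unfold pn
  have e : mean f (k + 1) l - c =
      (1 / 2 : ℝ) • ((mean f k (2 * l) - c) + (mean f k (2 * l + 1) - c)) := by
    rw [mean_succ, smul_add, smul_add, smul_sub, smul_sub]
    have : c = (1 / 2 : ℝ) • c + (1 / 2 : ℝ) • c := by rw [← add_smul]; norm_num
    nth_rewrite 1 [this]
    abel
  rw [e, norm_smul]
  have h1 : ‖(1 / 2 : ℝ)‖ = 1 / 2 := by norm_num
  rw [h1]
  have := norm_add_le (mean f k (2 * l) - c) (mean f k (2 * l + 1) - c)
  linarith

theorem dav_pn_sq (f : ℤ → H) (c : H) (j : ℕ) : ∀ (k : ℕ) (l : ℤ),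
    dav (pn f c) j k l ^ 2 ≤ dav (pq f c) j k l := by
  induction j with
  | zero => intro k l; rw [dav_zero, dav_zero]; exact le_refl _
  | succ j ih =>
    intro k l
    cases k with
    | zero => rw [dav_bot, dav_bot]; exact le_refl _
    | succ k =>
      rw [dav_succ, dav_succ]
      have h1 := ih k (2 * l)
      have h2 := ih k (2 * l + 1)
      nlinarith [sq_nonneg (dav (pn f c) j k (2 * l) - dav (pn f c) j k (2 * l + 1))]

/-- sum over an interval inside a dyadic interval, first power form -/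
theorem sum_close_aux (f : ℤ → H) (c : H) {Z : ℝ} (hZ : ∀ y, ‖f y - c‖ ≤ Z) (a b : ℤ) (j : ℕ) :
    ∀ (k : ℕ) (l : ℤ), ‖∑ y ∈ (dI k l).filter (fun y => a ≤ y ∧ y < b), (f y - c)‖ ≤
      2 ^ k * dav (pn f c) j k l + nb a b k l * (2 ^ (k - min j k) * Z) := by
  have hZ0 : 0 ≤ Z := (norm_nonneg _).trans (hZ 0)
  have hnb0 : ∀ k l, 0 ≤ nb a b k l := fun k l => by
    unfold nb
    split_ifs <;> norm_num
  have hfull : ∀ (k : ℕ) (l : ℤ), ‖∑ y ∈ dI k l, (f y - c)‖ = 2 ^ k * pn f c k l := by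
    intro k l
    rw [Finset.sum_sub_distrib, sum_eq_mean, Finset.sum_const, ← Nat.cast_smul_eq_nsmul ℝ, card_dI,
      ← smul_sub, norm_smul]
    unfold pn
    congr 1
    rw [Real.norm_of_nonneg (by positivity)]
  induction j with
  | zero =>
    intro k l
    rw [dav_zero, Nat.zero_min, Nat.sub_zero]
    have hk : (0 : ℝ) < 2 ^ k := by positivity
    have hsub : ‖∑ y ∈ (dI k l).filter (fun y => a ≤ y ∧ y < b), (f y - c)‖ ≤ 2 ^ k * Z := by
      refine (norm_sum_le _ _).trans ((Finset.sum_le_sum fun y _ => hZ y).trans ?_)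
      rw [Finset.sum_const, nsmul_eq_mul]
      refine mul_le_mul_of_nonneg_right ?_ hZ0
      rw [← card_dI k l]
      exact_mod_cast Finset.card_le_card (Finset.filter_subset _ _)
    by_cases h0 : nb a b k l = 0
    · -- full or empty
      have ha : ¬ (l * 2 ^ k < a ∧ a < (l + 1) * 2 ^ k) := by
        intro h
        unfold nb at h0
        rw [if_pos h] at h0
        split_ifs at h0 <;> norm_num at h0
      have hb : ¬ (l * 2 ^ k < b ∧ b < (l + 1) * 2 ^ k) := by
        intro h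
        unfold nb at h0
        rw [if_pos h] at h0
        split_ifs at h0 <;> norm_num at h0
      rw [h0, zero_mul, add_zero]
      by_cases hc : a ≤ l * 2 ^ k ∧ (l + 1) * 2 ^ k ≤ b
      · have e : (dI k l).filter (fun y => a ≤ y ∧ y < b) = dI k l := by
          rw [Finset.filter_eq_self]
          intro y hy
          rw [dI, Finset.mem_Ico] at hy
          exact ⟨hc.1.trans hy.1, lt_of_lt_of_le hy.2 hc.2⟩
        rw [e, hfull]
      · have e : (dI k l).filter (fun y => a ≤ y ∧ y < b) = ∅ := by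
          rw [Finset.filter_eq_empty_iff]
          intro y hy h
          rw [dI, Finset.mem_Ico] at hy
          rcases not_and_or.1 ha with h1 | h1 <;> rcases not_and_or.1 hb with h2 | h2 <;>
            rcases not_and_or.1 hc with h3 | h3 <;> omega
        rw [e, Finset.sum_empty, norm_zero]
        unfold pn
        positivity
    · have h1 : 1 ≤ nb a b k l := (nb_cases a b k l).resolve_left h0
      have h2 : 0 ≤ 2 ^ k * pn f c k l := by unfold pn; positivity
      have h3 : 1 * (2 ^ k * Z) ≤ nb a b k l * (2 ^ k * Z) :=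
        mul_le_mul_of_nonneg_right h1 (by positivity)
      linarith
  | succ j ih =>
    intro k l
    cases k with
    | zero =>
      rw [dav_bot, dI_zero]
      have h1 : ‖∑ y ∈ ({l} : Finset ℤ).filter (fun y => a ≤ y ∧ y < b), (f y - c)‖ ≤
          ‖f l - c‖ := by
        rw [Finset.sum_filter, Finset.sum_singleton]
        split_ifs
        · exact le_refl _
        · rw [norm_zero]; exact norm_nonneg _
      have h2 : pn f c 0 l = ‖f l - c‖ := by unfold pn; rw [mean_zero]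
      have h3 : 0 ≤ nb a b 0 l * (2 ^ (0 - min (j + 1) 0) * Z) :=
        mul_nonneg (hnb0 0 l) (by positivity)
      rw [h2, pow_zero, one_mul]
      linarith
    | succ k =>
      have e : (dI (k + 1) l).filter (fun y => a ≤ y ∧ y < b) =
          (dI k (2 * l)).filter (fun y => a ≤ y ∧ y < b) ∪
            (dI k (2 * l + 1)).filter (fun y => a ≤ y ∧ y < b) := by
        rw [L0e.dI_succ, Finset.filter_union]
      have hd : Disjoint ((dI k (2 * l)).filter (fun y => a ≤ y ∧ y < b))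
          ((dI k (2 * l + 1)).filter (fun y => a ≤ y ∧ y < b)) :=
        Finset.disjoint_filter_filter (L0e.dI_disj (by omega))
      rw [e, Finset.sum_union hd, dav_succ]
      have h1 := ih k (2 * l)
      have h2 := ih k (2 * l + 1)
      have h3 := norm_add_le (∑ y ∈ (dI k (2 * l)).filter (fun y => a ≤ y ∧ y < b), (f y - c))
        (∑ y ∈ (dI k (2 * l + 1)).filter (fun y => a ≤ y ∧ y < b), (f y - c))
      have h4 : k + 1 - min (j + 1) (k + 1) = k - min j k := by omega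
      rw [h4]
      have h5 := nb_succ a b k l
      have h6 : (nb a b k (2 * l) + nb a b k (2 * l + 1)) * (2 ^ (k - min j k) * Z) ≤
          nb a b (k + 1) l * (2 ^ (k - min j k) * Z) :=
        mul_le_mul_of_nonneg_right h5 (by positivity)
      have h7 : (2 : ℝ) ^ (k + 1) = 2 * 2 ^ k := by ring
      rw [h7]
      nlinarith [h1, h2, h3, h6]

/-- **sums over arbitrary intervals inside `dI k l`** (`j ≤ k` generations of look-ahead) -/
theorem sum_close (f : ℤ → H) (c : H) {Z : ℝ} (hZ : ∀ y, ‖f y - c‖ ≤ Z) (a b : ℤ) {j k : ℕ}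
    (hjk : j ≤ k) (l : ℤ) :
    ‖∑ y ∈ (dI k l).filter (fun y => a ≤ y ∧ y < b), (f y - c)‖ ≤
      2 ^ k * (Real.sqrt (dav (pq f c) j k l) + 2 * Z / 2 ^ j) := by
  have hZ0 : 0 ≤ Z := (norm_nonneg _).trans (hZ 0)
  have h1 := sum_close_aux f c hZ a b j k l
  have h2 : dav (pn f c) j k l ≤ Real.sqrt (dav (pq f c) j k l) :=
    Real.le_sqrt_of_sq_le (dav_pn_sq f c j k l)
  have h3 := nb_le_two a b k l
  rw [Nat.min_eq_left hjk] at h1
  have h4 : (2 : ℝ) ^ (k - j) = 2 ^ k / 2 ^ j := by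
    rw [eq_div_iff (by positivity), ← pow_add]
    congr 1
    omega
  rw [h4] at h1
  have h5 : nb a b k l * (2 ^ k / 2 ^ j * Z) ≤ 2 * (2 ^ k / 2 ^ j * Z) :=
    mul_le_mul_of_nonneg_right h3 (by positivity)
  have h6 : (2 : ℝ) ^ k * dav (pn f c) j k l ≤ 2 ^ k * Real.sqrt (dav (pq f c) j k l) :=
    mul_le_mul_of_nonneg_left h2 (by positivity)
  have h7 : 2 * ((2 : ℝ) ^ k / 2 ^ j * Z) = 2 ^ k * (2 * Z / 2 ^ j) := by ring
  rw [mul_add, ← h7]
  linarith

end Crest.Agent.R079.WinH222
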