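import Crest.Agent.R079.WinA_222
import Crest.Agent.R079.Wc1_863
import Crest.Agent.R079.WinH_222
import Crest.Agent.R079.LeafV_71

/-! R079, doc 2531 STEP II, (g5) of helper654: static windows with Gram closeness in the shape
`LeafV71.GrU` / `GrL`, refinement of a given window partition.  helper530. -/

set_option autoImplicit false
set_option linter.unusedSectionVars false

namespace Crest.Agent.R079.Wc530

open Finset Matrix Crest.Agent.R079.Grid Crest.Agent.R079.Growth Crest.Agent.R079.QRed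
  Crest.Agent.R079.Qe292 Crest.Agent.R079.TWin Crest.Agent.R079.St2 Crest.Agent.R079.LeafV71
open Crest.Agent.R079.WinH222 (Mn mean pq dav gram_windows)
open scoped ComplexOrder MatrixOrder

variable {ι : Type*} [Fintype ι] [DecidableEq ι]

/-- `v v*` as a Hilbert vector -/
noncomputable def vv (v : ℤ → ι → ℂ) (y : ℤ) : EuclideanSpace ℂ (ι × ι) :=
  WithLp.toLp 2 (fun ij : ι × ι => v y ij.1 * star (v y ij.2))

theorem vv_sq (v : ℤ → ι → ℂ) (y : ℤ) : ‖vv v y‖ ^ 2 = n2 (v y) ^ 2 := by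
  rw [EuclideanSpace.norm_sq_eq, Fintype.sum_prod_type]
  unfold n2
  rw [sq, Finset.sum_mul_sum]
  refine Finset.sum_congr rfl fun i _ => Finset.sum_congr rfl fun j _ => ?_
  simp only [vv]
  rw [norm_mul, mul_pow, norm_star]

/-- the Gram matrix of the node `p` -/
noncomputable def Gm (v : ℤ → ι → ℂ) (p : ℕ × ℤ) : Matrix ι ι ℂ :=
  gr (dI (p.1 + 7) p.2) (1 / ln p) v

theorem mn_vv (v : ℤ → ι → ℂ) (p : Nd) (ij : ι × ι) : (Mn (vv v) p) ij = Gm v p ij.1 ij.2 := by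
  unfold Mn mean Gm gr ln
  rw [PiLp.smul_apply]
  rw [show ((∑ y ∈ dI (p.1 + 7) p.2, vv v y) : EuclideanSpace ℂ (ι × ι)) ij =
    ∑ y ∈ dI (p.1 + 7) p.2, (vv v y) ij from by
      simp [WithLp.ofLp_sum, Finset.sum_apply]]
  simp only [vv, one_div]
  rw [Complex.real_smul]
  rfl

theorem hs_eq (v : ℤ → ι → ℂ) (p K : Nd) :
    ∑ i, ∑ j, ‖(Gm v p - Gm v K) i j‖ ^ 2 = ‖Mn (vv v) p - Mn (vv v) K‖ ^ 2 := by
  rw [EuclideanSpace.norm_sq_eq, Fintype.sum_prod_type]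
  refine Finset.sum_congr rfl fun i _ => Finset.sum_congr rfl fun j _ => ?_
  rw [PiLp.sub_apply, mn_vv, mn_vv, Matrix.sub_apply]

/-- **ONE LABEL VECTOR: static windows with Gram closeness** -/
theorem gram_part {R : Finset Nd} {J : Nd} (hR : Full R J) (v : ℤ → ι → ℂ) {B θ : ℝ}
    (hθ : 0 < θ) (hB : ∀ y, n2 (v y) ≤ B) (k : ℕ) :
    ∃ (T : Finset Nd) (W : Nd → Finset Nd), Part R T W (2 + 40 * ((k + 1) * B ^ 2) / θ ^ 2) ∧
      ∀ K ∈ T, GrU (W K) v (Gm v K) θ ∧ GrL (W K) v (Gm v K) θ ∧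
        (W K = {K} ∨ ∀ p ∈ W K, ∀ j ≤ k + 1,
          dav (pq (vv v) (Mn (vv v) K)) j (p.1 + 7) p.2 ≤ 2 * θ ^ 2) := by
  have hf : ∀ y, ‖vv v y‖ ^ 2 ≤ B ^ 2 := fun y => by
    rw [vv_sq]
    exact pow_le_pow_left₀ (n2_nonneg _) (hB y) 2
  obtain ⟨T, W, hP, hT⟩ := gram_windows hR (vv v) (θ := θ ^ 2) (by positivity) hf k
  refine ⟨T, W, hP, fun K hK => ?_⟩
  have h := gr_of_hs (T := W K) (v := v) (M := Gm v K) hθ.le (fun p hp => by
    have h1 := (hT K hK).1 p hp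
    rw [← hs_eq] at h1
    exact h1)
  exact ⟨h.1, h.2, (hT K hK).2⟩

theorem Gm_psd (v : ℤ → ι → ℂ) (p : Nd) : (Gm v p).PosSemidef := by
  unfold Gm
  exact gr_posSemidef _ (by unfold ln; positivity) _

/-- **A FINITE FAMILY OF LABEL VECTORS** (residues, gauges): one system of windows -/
theorem gram_family {κ : Type*} (s : Finset κ) {R : Finset Nd} {J : Nd} (hR : Full R J)
    (v : κ → ℤ → ι → ℂ) {B θ : ℝ} (hθ : 0 < θ) (hB : ∀ r ∈ s, ∀ y, n2 (v r y) ≤ B) :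
    ∃ (T : Finset Nd) (W : Nd → Finset Nd), Part R T W (1 + s.card * (2 + 40 * B ^ 2 / θ ^ 2)) ∧
      ∀ K ∈ T, ∀ r ∈ s, ∃ M : Matrix ι ι ℂ, M.PosSemidef ∧ GrU (W K) (v r) M θ ∧
        GrL (W K) (v r) M θ := by
  classical
  have h : ∀ r ∈ s, ∃ (T : Finset Nd) (W : Nd → Finset Nd), Part R T W (2 + 40 * B ^ 2 / θ ^ 2) ∧
      ∀ K ∈ T, GrU (W K) (v r) (Gm (v r) K) θ ∧ GrL (W K) (v r) (Gm (v r) K) θ := by
    intro r hr
    obtain ⟨T, W, hP, hT⟩ := gram_part hR (v r) hθ (hB r hr) 0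
    refine ⟨T, W, ?_, fun K hK => ⟨(hT K hK).1, (hT K hK).2.1⟩⟩
    have e : ((0 : ℕ) : ℝ) + 1 = 1 := by norm_num
    rw [e, one_mul] at hP
    exact hP
  choose! T V hP hG using h
  obtain ⟨S, W, hPS, hW, -, -⟩ := WinA222.part_family s hR T V
    (fun _ => 2 + 40 * B ^ 2 / θ ^ 2) hP
  refine ⟨S, W, ?_, fun K hK r hr => ?_⟩
  · rw [Finset.sum_const, nsmul_eq_mul] at hPS
    exact hPS
  · obtain ⟨A, hA, hWA, -⟩ := hW K hK r hr
    exact ⟨Gm (v r) A, Gm_psd _ _, fun p hp => (hG r hr A hA).1 p (hWA hp),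
      fun p hp => (hG r hr A hA).2 p (hWA hp)⟩

/-- **(g5)**: Gram windows INSIDE given windows (`h`: lasso windows of `LiftW_429`), label type and
label vectors depending on the outer window, finitely many residues `r ∈ s` -/
theorem gram_inside {κ : Type*} (s : Finset κ) {R : Finset Nd} {J : Nd} (hR : Full R J)
    {S : Finset Nd} {W : Nd → Finset Nd} {C : ℝ} (h : Part R S W C)
    (L : Nd → Type*) [∀ K, Fintype (L K)] [∀ K, DecidableEq (L K)]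
    (v : (K : Nd) → κ → ℤ → L K → ℂ) {B θ : ℝ} (hθ : 0 < θ)
    (hB : ∀ K ∈ S, ∀ r ∈ s, ∀ y, n2 (v K r y) ≤ B) :
    ∃ (S' : Finset Nd) (W' : Nd → Finset Nd),
      Part R S' W' ((1 + s.card * (2 + 40 * B ^ 2 / θ ^ 2)) * (1 + C)) ∧
      ∀ K' ∈ S', ∃ K ∈ S, K' ∈ W K ∧ W' K' ⊆ W K ∧ ∀ r ∈ s, ∃ M : Matrix (L K) (L K) ℂ,
        M.PosSemidef ∧ GrU (W' K') (v K r) M θ ∧ GrL (W' K') (v K r) M θ := by
  obtain ⟨S', W', hP, hT⟩ := Wc1863.dev_refine hR (C' := 1 + s.card * (2 + 40 * B ^ 2 / θ ^ 2))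
    (by positivity) h
    (fun K _ V => ∀ r ∈ s, ∃ M : Matrix (L K) (L K) ℂ,
      M.PosSemidef ∧ GrU V (v K r) M θ ∧ GrL V (v K r) M θ)
    (fun K hK => gram_family s (h.full K hK) (v K) hθ (hB K hK))
  exact ⟨S', W', hP, hT⟩

end Crest.Agent.R079.Wc530
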