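import Crest.Agent.R079.Wr_408
import Crest.Agent.R079.Qb_247
import Crest.Agent.R079.Rs_530
import Crest.Agent.R079.Wc_530
import Crest.Agent.R079.Mg_530

/-! R079, doc 2531 STEP II (g4): assembly of ONE window (good nodes: main kernel + error kernel; bad
nodes: one node gain) and passage to `TRec.RuleS`.  helper530. -/

set_option autoImplicit false
set_option linter.unusedVariables false

namespace Crest.Agent.R079.S2D530

open Finset Crest.Agent.R079.Grid Crest.Agent.R079.Growth Crest.Agent.R079.QRed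
  Crest.Agent.R079.TRec Crest.Agent.R079.TWin Crest.Agent.R079.Ero526 Crest.Agent.R079.Cg408
  Crest.Agent.R079.QRed.Qb247

open Classical in
/-- restriction to `iv J` -/
noncomputable def rs (J : Nd) (F : Fin 4 → Fn) : Fin 4 → Fn := fun j y => if y ∈ iv J then F j y else 0

theorem rs_box {bb : ℤ} (hbb : bb = -1 ∨ bb = -7) (F : Fin 4 → Fn) {p J : Nd} (h : iv p ⊆ iv J)
    {x : ℤ} (hx : x ∈ adm p.1 p.2) :
    Lbox (2 ^ p.1) bb F x = Lbox (2 ^ p.1) bb (rs J F) x := by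
  refine Lbox_congr p.1 p.2 bb x hbb hx F (rs J F) ?_
  intro j y hy
  unfold rs
  rw [if_pos (h hy)]

open Classical in
/-- **ONE WINDOW**: the product of the four letters (on the points with all shadows in `iv J`) is a main
kernel plus an error kernel -/
theorem window_split {bb : ℤ} {ε : ℕ → ℤ → ℂ} (hε : Adm bb ε) {W : Finset Nd} {J : Nd}
    (hW : Full W J) (C : ℕ) (F : Fin 4 → Fn) (Ka Kb : ℤ → ℤ → ℂ)
    (hK : ∀ T A, ∏ j, rs J F j (A - sl j * T) = Ka T A + Kb T A) {A1 A2 g : ℝ} (hg : 0 ≤ g)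
    (h1 : ∑ p ∈ W.filter (fun p => ¬ Bad W C p), ∑ x ∈ adm p.1 p.2, ‖LboxG (2 ^ p.1) bb Ka x‖ ≤
      A1 * len J)
    (h2 : ∑ p ∈ W.filter (fun p => ¬ Bad W C p), ∑ x ∈ adm p.1 p.2, ‖LboxG (2 ^ p.1) bb Kb x‖ ≤
      A2 * len J)
    (h3 : ∀ p ∈ W, Bad W C p → ∑ x ∈ adm p.1 p.2, ‖Lbox (2 ^ p.1) bb F x‖ ≤ g * len p) :
    ‖TR bb ε W F‖ ≤ (A1 + A2 + 16 * (2 * (C + 1) + 1) * g) * len J := by
  have e0 := norm_TR_le (bb := bb) hε.2 W F
  have e1 : ∑ p ∈ W, ∑ x ∈ adm p.1 p.2, ‖Lbox (2 ^ p.1) bb F x‖ =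
      ∑ p ∈ W.filter (Bad W C), ∑ x ∈ adm p.1 p.2, ‖Lbox (2 ^ p.1) bb F x‖ +
      ∑ p ∈ W.filter (fun p => ¬ Bad W C p), ∑ x ∈ adm p.1 p.2, ‖Lbox (2 ^ p.1) bb F x‖ :=
    (Finset.sum_filter_add_sum_filter_not _ _ _).symm
  have e2 : ∑ p ∈ W.filter (Bad W C), ∑ x ∈ adm p.1 p.2, ‖Lbox (2 ^ p.1) bb F x‖ ≤
      g * (16 * (2 * (C + 1) + 1) * len J) := by
    calc _ ≤ ∑ p ∈ W.filter (Bad W C), g * len p := Finset.sum_le_sum fun p hp => by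
          obtain ⟨h4, h5⟩ := Finset.mem_filter.1 hp
          exact h3 p h4 h5
      _ = g * ∑ p ∈ W.filter (Bad W C), len p := by rw [Finset.mul_sum]
      _ ≤ _ := mul_le_mul_of_nonneg_left (sum_bad hW C) hg
  have e3 : ∑ p ∈ W.filter (fun p => ¬ Bad W C p), ∑ x ∈ adm p.1 p.2,
      ‖Lbox (2 ^ p.1) bb F x‖ ≤ A1 * len J + A2 * len J := by
    refine le_trans ?_ (add_le_add h1 h2)
    rw [← Finset.sum_add_distrib]
    refine Finset.sum_le_sum fun p hp => ?_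
    rw [← Finset.sum_add_distrib]
    refine Finset.sum_le_sum fun x hx => ?_
    rw [rs_box hε.1 F (hW.reg.1 p (Finset.mem_filter.1 hp).1) hx, Lbox_LboxG,
      show (fun T A => ∏ j, rs J F j (A - sl j * T)) = fun T A => Ka T A + Kb T A from by
        funext T A; exact hK T A, LboxG_add]
    exact norm_add_le _ _
  calc _ ≤ _ := e0
    _ ≤ g * (16 * (2 * (C + 1) + 1) * len J) + (A1 * len J + A2 * len J) := by
        rw [e1]; exact add_le_add e2 e3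
    _ = _ := by ring

open Classical in
/-- **the analytic core of RULE (S)**, one window at a time -/
def CoreS (D : Dict) (k q3 cS CS s1 e t0 K : ℝ) (C : ℕ) : Prop :=
  ∀ (N : ℕ) (B : ℝ), 0 ≤ B → BN k q3 N B → ∀ t, 0 < t → t ≤ t0 → ∀ bb W I, Full W I → I.1 ≤ N →
    ∀ (m : Fin 4), m ≠ 3 → ∀ P G X E : Fn,
    (∀ p ∈ W, aq (2 + k) p P ≤ 1) → (∀ p ∈ W, aq q3 p G ≤ 1) → Fz D m (t ^ (1 + e)) 1 I P →
    (∀ y ∈ iv I, P y = X y + E y) → (∀ p ∈ W, Lv D m t 1 p X) → (∀ p ∈ W, av p E ≤ t ^ s1) →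
    ∃ (S : Finset Nd) (V : Nd → Finset Nd), Part W S V (K * t ^ (-CS)) ∧
      ∀ K' ∈ S, ∀ W' J, Full W' J → W' ⊆ V K' → ∀ F : Fin 4 → Fn, F m = P → F 3 = G →
        (∀ j, j ≠ m → j ≠ 3 → ∀ p ∈ W', aq (2 + k) p (F j) ≤ 1) → (bb = -1 ∨ bb = -7) →
        ∃ Ka Kb : ℤ → ℤ → ℂ, (∀ T A, ∏ j, rs J F j (A - sl j * T) = Ka T A + Kb T A) ∧
          ∑ p ∈ W'.filter (fun p => ¬ Bad W' C p), ∑ x ∈ adm p.1 p.2,
            ‖LboxG (2 ^ p.1) bb Ka x‖ ≤ K * (1 + B) * t ^ cS * len J ∧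
          ∑ p ∈ W'.filter (fun p => ¬ Bad W' C p), ∑ x ∈ adm p.1 p.2,
            ‖LboxG (2 ^ p.1) bb Kb x‖ ≤ K * (1 + B) * t ^ cS * len J ∧
          ∀ p ∈ W', Bad W' C p → ∑ x ∈ adm p.1 p.2, ‖Lbox (2 ^ p.1) bb F x‖ ≤
            K * (1 + B) * t ^ cS * len p

/-- **(g4)**: RULE (S) from its core -/
theorem ruleS_of_core {D : Dict} {k q3 cS CS s1 e t0 K : ℝ} {C : ℕ} (hK : 0 ≤ K)
    (hCS : 0 ≤ CS) (h : CoreS D k q3 cS CS s1 e t0 K C) :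
    RuleS D k q3 cS CS s1 e t0 ((2 + 16 * (2 * (C + 1) + 1)) * K) := by
  refine Rs530.ruleS_of_part ?_
  intro N B hB hBN t ht ht0 bb W I hW hI m hm P G X E h1 h2 h3 h4 h5 h6
  obtain ⟨S, V, hP, hb⟩ := h N B hB hBN t ht ht0 bb W I hW hI m hm P G X E h1 h2 h3 h4 h5 h6
  have hc1 : (1 : ℝ) ≤ 2 + 16 * (2 * ((C : ℝ) + 1) + 1) := by
    have : (0 : ℝ) ≤ C := Nat.cast_nonneg C
    nlinarith
  refine ⟨S, V, WinA222.part_mono hP ?_, ?_⟩
  · have h7 : 0 ≤ K * t ^ (-CS) := mul_nonneg hK (Real.rpow_nonneg ht.le _)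
    calc K * t ^ (-CS) ≤ (2 + 16 * (2 * ((C : ℝ) + 1) + 1)) * (K * t ^ (-CS)) :=
          le_mul_of_one_le_left h7 hc1
      _ = _ := by ring
  · intro K' hK' W' J hW' hsub F hFm hF3 hF ε hε
    obtain ⟨Ka, Kb, e1, e2, e3, e4⟩ := hb K' hK' W' J hW' hsub F hFm hF3 hF hε.1
    have hg : 0 ≤ K * (1 + B) * t ^ cS :=
      mul_nonneg (mul_nonneg hK (by linarith)) (Real.rpow_nonneg ht.le _)
    have h8 := window_split hε hW' C F Ka Kb e1 hg e2 e3 e4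
    refine h8.trans (le_of_eq ?_)
    ring

end Crest.Agent.R079.S2D530
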