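import Crest.Agent.R079.St2M_834
import Crest.Agent.R079.HB_285

/-! R079, doc 2531 STEP II (II.3), FIXED METRIC form (130 / 142 / 530 / 945 / 834): ASSEMBLY.
`K(x_a,x_b) = ⟨w(x_a), v(x_b)⟩` (labels), letters `Yb m (x_a)`, `Ya m (x_b)` changing with the scale
(masks), boxes of ALL positions on `ZMod Q`, one constant metric `M`.  helper530. -/

set_option autoImplicit false
set_option linter.unusedVariables false
set_option linter.unusedSectionVars false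

namespace Crest.Agent.R079.S2fw

open Matrix Finset Crest.Agent.R079.St2 Crest.Agent.R079.HB285
open scoped ComplexOrder MatrixOrder

variable {Q : ℕ} [NeZero Q] {ι : Type*} [Fintype ι] [DecidableEq ι]

/-- `Y v` -/
noncomputable def fa (v : ZMod Q → ι → ℂ) (Y : ZMod Q → ℂ) : ZMod Q → ι → ℂ :=
  fun x i => Y x * v x i

/-- `conj Y w` -/
noncomputable def fb (w : ZMod Q → ι → ℂ) (Y : ZMod Q → ℂ) : ZMod Q → ι → ℂ :=
  fun x i => (starRingEnd ℂ) (Y x) * w x i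

/-- the kernel `⟨w, v⟩` -/
noncomputable def Ker (w v : ZMod Q → ι → ℂ) (x y : ZMod Q) : ℂ := star (w x) ⬝ᵥ v y

/-- half sign -/
noncomputable def sg (m i : ℕ) : ℝ := if i < 2 ^ m then 1 else -1

/-- the bracket: box form of side `2^(m+1)` of `Yb K Ya` at `(pa, pb)` -/
noncomputable def brk (m : ℕ) (K : ZMod Q → ZMod Q → ℂ) (Yb Ya : ZMod Q → ℂ) (pa pb : ZMod Q) : ℂ :=
  ((1 / 2 : ℂ) ^ (m + 1)) ^ 2 * ∑ i ∈ range (2 ^ (m + 1)), ∑ j ∈ range (2 ^ (m + 1)),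
    ((sg m i * sg m j : ℝ) : ℂ) *
      (Yb (pa + (i : ZMod Q)) * K (pa + (i : ZMod Q)) (pb + (j : ZMod Q)) * Ya (pb + (j : ZMod Q)))

theorem hav_eq (m : ℕ) (f : ZMod Q → ι → ℂ) (p : ZMod Q) :
    hav m f p = fun k => (1 / 2 : ℂ) ^ (m + 1) *
      ∑ i ∈ range (2 ^ (m + 1)), ((sg m i : ℝ) : ℂ) * f (p + (i : ZMod Q)) k := by
  funext k
  unfold hav bav
  simp only [Pi.smul_apply, Pi.sub_apply, Finset.sum_apply, Complex.real_smul]
  rw [pow_succ 2 m, mul_two, Finset.sum_range_add]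
  have h1 : ∑ i ∈ range (2 ^ m), ((sg m i : ℝ) : ℂ) * f (p + (i : ZMod Q)) k =
      ∑ i ∈ range (2 ^ m), f (p + (i : ZMod Q)) k :=
    Finset.sum_congr rfl fun i hi => by simp [sg, Finset.mem_range.1 hi]
  have h2 : ∑ i ∈ range (2 ^ m), ((sg m (2 ^ m + i) : ℝ) : ℂ) *
      f (p + ((2 ^ m + i : ℕ) : ZMod Q)) k =
      - ∑ i ∈ range (2 ^ m), f (p + ((2 ^ m : ℕ) : ZMod Q) + (i : ZMod Q)) k := by
    rw [← Finset.sum_neg_distrib]
    refine Finset.sum_congr rfl fun i _ => ?_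
    have : ¬ (2 ^ m + i < 2 ^ m) := by omega
    simp only [sg, this, if_false]
    push_cast
    rw [add_assoc]
    ring
  rw [h1, h2]
  push_cast
  rw [pow_succ]
  ring

/-- **the bracket is an inner product of Haar coefficients** -/
theorem brk_eq (m : ℕ) (w v : ZMod Q → ι → ℂ) (Yb Ya : ZMod Q → ℂ) (pa pb : ZMod Q) :
    brk m (Ker w v) Yb Ya pa pb = star (hav m (fb w Yb) pa) ⬝ᵥ hav m (fa v Ya) pb := by
  have hR : star (hav m (fb w Yb) pa) ⬝ᵥ hav m (fa v Ya) pb =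
      ∑ k : ι, ∑ i ∈ range (2 ^ (m + 1)), ∑ j ∈ range (2 ^ (m + 1)),
        ((1 / 2 : ℂ) ^ (m + 1)) ^ 2 * (((sg m i * sg m j : ℝ) : ℂ) *
          (Yb (pa + (i : ZMod Q)) * (star (w (pa + (i : ZMod Q)) k) * v (pb + (j : ZMod Q)) k) *
            Ya (pb + (j : ZMod Q)))) := by
    rw [hav_eq, hav_eq]
    unfold dotProduct
    refine Finset.sum_congr rfl fun k _ => ?_
    simp only [Pi.star_apply, star_mul', star_sum, fa, fb]
    rw [mul_mul_mul_comm, Finset.sum_mul_sum, Finset.mul_sum]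
    refine Finset.sum_congr rfl fun i _ => ?_
    rw [Finset.mul_sum]
    refine Finset.sum_congr rfl fun j _ => ?_
    have h1 : star ((1 / 2 : ℂ) ^ (m + 1)) = (1 / 2 : ℂ) ^ (m + 1) := by
      simp
    have h2 : star ((starRingEnd ℂ) (Yb (pa + (i : ZMod Q)))) = Yb (pa + (i : ZMod Q)) := by
      simp
    have h3 : star (((sg m i : ℝ) : ℂ)) = ((sg m i : ℝ) : ℂ) := by simp
    rw [h1, h2, h3]
    push_cast
    ring
  rw [hR, Finset.sum_comm]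
  unfold brk Ker dotProduct
  rw [Finset.mul_sum]
  refine Finset.sum_congr rfl fun i _ => ?_
  rw [Finset.sum_comm, Finset.mul_sum]
  refine Finset.sum_congr rfl fun j _ => ?_
  simp only [Pi.star_apply, Finset.mul_sum, Finset.sum_mul]

/-- PSD forms satisfy the parallelogram law -/
theorem par_qf (G : Matrix ι ι ℂ) : Par (fun x : ι → ℂ => qf G x) := by
  intro x y
  have h : ∀ (c : ℝ) (z : ι → ℂ), qf G (c • z) = c ^ 2 * qf G z := by
    intro c z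
    unfold qf
    have e1 : star (c • z) = c • star z := by
      funext i; simp
    rw [e1, mulVec_smul, smul_dotProduct, dotProduct_smul, smul_smul]
    simp only [Complex.real_smul, RCLike.re_to_complex, Complex.re_ofReal_mul]
    ring
  simp only [h]
  unfold qf
  simp only [star_add, star_sub, mulVec_add, mulVec_sub, add_dotProduct, sub_dotProduct,
    dotProduct_add, dotProduct_sub, map_add, map_sub]
  ring

theorem qf_zero (G : Matrix ι ι ℂ) : qf G (0 : ι → ℂ) = 0 := by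
  unfold qf; simp

/-- the box of length `2^m` at `p` sees a change of the letter -/
def See (Y : ℕ → ZMod Q → ℂ) (m : ℕ) (p : ZMod Q) : Prop :=
  ∃ i ∈ range (2 ^ m), Y (m + 1) (p + (i : ZMod Q)) ≠ Y m (p + (i : ZMod Q))

open Classical in
/-- square function with exits for `Y v` -/
theorem exit_a {G : Matrix ι ι ℂ} (hG : G.PosSemidef) (v : ZMod Q → ι → ℂ) (Y : ℕ → ZMod Q → ℂ)
    (hY : Y 0 = 0) (Mx : ℕ) (c : ℕ → ZMod Q → ℝ)
    (hc : ∀ m, m < Mx → ∀ p, See Y m p → qf G (bav m (fa v (Y (m + 1))) p) ≤ c m p) :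
    ∑ m ∈ range Mx, ∑ p : ZMod Q, qf G (hav m (fa v (Y (m + 1))) p) ≤
      ∑ m ∈ range Mx, ∑ p : ZMod Q, if See Y m p then c m p else 0 := by
  have h0 : (fun m => fa v (Y m)) 0 = 0 := by
    funext x i
    simp [fa, hY]
  refine (bessel_exit (fun x : ι → ℂ => qf G x) (par_qf G) (fun x => qf_nonneg hG x)
    (qf_zero G) Mx (fun m => fa v (Y m)) h0).trans ?_
  refine Finset.sum_le_sum fun m hm => Finset.sum_le_sum fun p _ => ?_
  by_cases h : See Y m p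
  · rw [if_pos h]
    split_ifs with h2
    · exact hc m (Finset.mem_range.1 hm) p h
    · exact (qf_nonneg hG _).trans (hc m (Finset.mem_range.1 hm) p h)
  · rw [if_neg h, if_neg]
    rintro ⟨i, hi, hne⟩
    refine h ⟨i, hi, fun he => hne ?_⟩
    funext k
    simp [fa, he]

open Classical in
/-- square function with exits for `conj Y w` -/
theorem exit_b {G : Matrix ι ι ℂ} (hG : G.PosSemidef) (w : ZMod Q → ι → ℂ) (Y : ℕ → ZMod Q → ℂ)
    (hY : Y 0 = 0) (Mx : ℕ) (c : ℕ → ZMod Q → ℝ)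
    (hc : ∀ m, m < Mx → ∀ p, See Y m p → qf G (bav m (fb w (Y (m + 1))) p) ≤ c m p) :
    ∑ m ∈ range Mx, ∑ p : ZMod Q, qf G (hav m (fb w (Y (m + 1))) p) ≤
      ∑ m ∈ range Mx, ∑ p : ZMod Q, if See Y m p then c m p else 0 := by
  have h0 : (fun m => fb w (Y m)) 0 = 0 := by
    funext x i
    simp [fb, hY]
  refine (bessel_exit (fun x : ι → ℂ => qf G x) (par_qf G) (fun x => qf_nonneg hG x)
    (qf_zero G) Mx (fun m => fb w (Y m)) h0).trans ?_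
  refine Finset.sum_le_sum fun m hm => Finset.sum_le_sum fun p _ => ?_
  by_cases h : See Y m p
  · rw [if_pos h]
    split_ifs with h2
    · exact hc m (Finset.mem_range.1 hm) p h
    · exact (qf_nonneg hG _).trans (hc m (Finset.mem_range.1 hm) p h)
  · rw [if_neg h, if_neg]
    rintro ⟨i, hi, hne⟩
    refine h ⟨i, hi, fun he => hne ?_⟩
    funext k
    simp [fb, he]

/-- one scale, positions `(pa x, pb x)`, both injective -/
theorem pair_scale {G : Matrix ι ι ℂ} (hG : G.PosDef) (w v : ZMod Q → ι → ℂ)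
    (Yb Ya : ZMod Q → ℂ) (m : ℕ) {α : Type*} (S : Finset α) (pa pb : α → ZMod Q)
    (ha : Set.InjOn pa S) (hb : Set.InjOn pb S) :
    ∑ x ∈ S, ‖brk m (Ker w v) Yb Ya (pa x) (pb x)‖ ≤
      Real.sqrt (∑ p, qf G (hav m (fb w Yb) p)) * Real.sqrt (∑ p, qf G⁻¹ (hav m (fa v Ya) p)) := by
  have hGi : (G⁻¹).PosSemidef := hG.inv.posSemidef
  have h1 : ∀ x ∈ S, ‖brk m (Ker w v) Yb Ya (pa x) (pb x)‖ ≤
      Real.sqrt (qf G (hav m (fb w Yb) (pa x))) * Real.sqrt (qf G⁻¹ (hav m (fa v Ya) (pb x))) := by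
    intro x _
    rw [brk_eq]
    exact cs_metric' hG _ _
  refine (Finset.sum_le_sum h1).trans ?_
  refine (Real.sum_sqrt_mul_sqrt_le _ (fun x => qf_nonneg hG.posSemidef _)
    (fun x => qf_nonneg hGi _)).trans ?_
  have e1 : ∑ x ∈ S, qf G (hav m (fb w Yb) (pa x)) ≤ ∑ p, qf G (hav m (fb w Yb) p) := by
    rw [← Finset.sum_image (f := fun p => qf G (hav m (fb w Yb) p)) (fun x hx y hy h => ha hx hy h)]
    exact Finset.sum_le_univ_sum_of_nonneg fun p => qf_nonneg hG.posSemidef _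
  have e2 : ∑ x ∈ S, qf G⁻¹ (hav m (fa v Ya) (pb x)) ≤ ∑ p, qf G⁻¹ (hav m (fa v Ya) p) := by
    rw [← Finset.sum_image (f := fun p => qf G⁻¹ (hav m (fa v Ya) p))
      (fun x hx y hy h => hb hx hy h)]
    exact Finset.sum_le_univ_sum_of_nonneg fun p => qf_nonneg hGi _
  exact mul_le_mul (Real.sqrt_le_sqrt e1) (Real.sqrt_le_sqrt e2) (Real.sqrt_nonneg _)
    (Real.sqrt_nonneg _)

open Classical in
/-- **FIXED METRIC SQUARE FUNCTION BOUND**, all scales, masks, averaged offsets `i ∈ I m` -/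
theorem fixed_metric {G : Matrix ι ι ℂ} (hG : G.PosDef) (w v : ZMod Q → ι → ℂ)
    (Yb Ya : ℕ → ZMod Q → ℂ) (hYb : Yb 0 = 0) (hYa : Ya 0 = 0) (Mx : ℕ)
    {κ : Type*} (I : ℕ → Finset κ) (wt : ℕ → κ → ℝ) (hw0 : ∀ m, ∀ i ∈ I m, 0 ≤ wt m i)
    (hw1 : ∀ m, ∑ i ∈ I m, wt m i ≤ 1)
    {α : Type*} (S : ℕ → Finset α) (pa pb : ℕ → κ → α → ZMod Q)
    (ha : ∀ m, m < Mx → ∀ i ∈ I m, Set.InjOn (pa m i) (S m))
    (hb : ∀ m, m < Mx → ∀ i ∈ I m, Set.InjOn (pb m i) (S m))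
    (cb ca : ℕ → ZMod Q → ℝ)
    (hcb : ∀ m, m < Mx → ∀ p, See Yb m p → qf G (bav m (fb w (Yb (m + 1))) p) ≤ cb m p)
    (hca : ∀ m, m < Mx → ∀ p, See Ya m p → qf G⁻¹ (bav m (fa v (Ya (m + 1))) p) ≤ ca m p) :
    ∑ m ∈ range Mx, ∑ i ∈ I m, wt m i *
        ∑ x ∈ S m, ‖brk m (Ker w v) (Yb (m + 1)) (Ya (m + 1)) (pa m i x) (pb m i x)‖ ≤
      Real.sqrt (∑ m ∈ range Mx, ∑ p : ZMod Q, if See Yb m p then cb m p else 0) *
        Real.sqrt (∑ m ∈ range Mx, ∑ p : ZMod Q, if See Ya m p then ca m p else 0) := by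
  have hGi : (G⁻¹).PosSemidef := hG.inv.posSemidef
  set B : ℕ → ℝ := fun m => ∑ p, qf G (hav m (fb w (Yb (m + 1))) p) with hB
  set A : ℕ → ℝ := fun m => ∑ p, qf G⁻¹ (hav m (fa v (Ya (m + 1))) p) with hA
  have hB0 : ∀ m, 0 ≤ B m := fun m => Finset.sum_nonneg fun p _ => qf_nonneg hG.posSemidef _
  have hA0 : ∀ m, 0 ≤ A m := fun m => Finset.sum_nonneg fun p _ => qf_nonneg hGi _
  have h1 : ∀ m ∈ range Mx, ∑ i ∈ I m, wt m i *
        ∑ x ∈ S m, ‖brk m (Ker w v) (Yb (m + 1)) (Ya (m + 1)) (pa m i x) (pb m i x)‖ ≤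
      Real.sqrt (B m) * Real.sqrt (A m) := by
    intro m hm
    have hm' := Finset.mem_range.1 hm
    have h2 : ∀ i ∈ I m, wt m i *
        ∑ x ∈ S m, ‖brk m (Ker w v) (Yb (m + 1)) (Ya (m + 1)) (pa m i x) (pb m i x)‖ ≤
        wt m i * (Real.sqrt (B m) * Real.sqrt (A m)) := fun i hi =>
      mul_le_mul_of_nonneg_left (pair_scale hG w v _ _ m (S m) _ _ (ha m hm' i hi) (hb m hm' i hi))
        (hw0 m i hi)
    refine (Finset.sum_le_sum h2).trans ?_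
    rw [← Finset.sum_mul]
    have h3 : 0 ≤ Real.sqrt (B m) * Real.sqrt (A m) :=
      mul_nonneg (Real.sqrt_nonneg _) (Real.sqrt_nonneg _)
    exact (mul_le_mul_of_nonneg_right (hw1 m) h3).trans (le_of_eq (one_mul _))
  refine (Finset.sum_le_sum h1).trans ?_
  refine (Real.sum_sqrt_mul_sqrt_le _ hB0 hA0).trans ?_
  exact mul_le_mul (Real.sqrt_le_sqrt (exit_b hG.posSemidef w Yb hYb Mx cb hcb))
    (Real.sqrt_le_sqrt (exit_a hGi v Ya hYa Mx ca hca)) (Real.sqrt_nonneg _) (Real.sqrt_nonneg _)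

/-- exit value of `Y v` (Bessel) -/
theorem leaf_a {M : Matrix ι ι ℂ} (hM : M.PosSemidef) {τ δ : ℝ} (hτ : 0 < τ) (hδ : 0 ≤ δ)
    (v : ZMod Q → ι → ℂ) (Y : ZMod Q → ℂ) (m : ℕ) (p : ZMod Q)
    (h : ∀ z : ι → ℂ, (1 / 2 : ℝ) ^ m * ∑ i ∈ range (2 ^ m), ‖star z ⬝ᵥ v (p + (i : ZMod Q))‖ ^ 2 ≤
      qf M z + δ * n2 z) :
    qf (met M τ)⁻¹ (bav m (fa v Y) p) ≤
      (1 + δ / τ) * ((1 / 2 : ℝ) ^ m * ∑ i ∈ range (2 ^ m), ‖Y (p + (i : ZMod Q))‖ ^ 2) := by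
  have h1 := captured (range (2 ^ m)) hM (τ := τ) (δ := δ) (a := (1 / 2 : ℝ) ^ m) hτ hδ
    (by positivity) (fun i : ℕ => Y (p + (i : ZMod Q))) (fun i : ℕ => v (p + (i : ZMod Q))) h
  refine le_trans (le_of_eq ?_) h1
  congr 1
  funext k
  unfold bav wv fa
  simp only [Pi.smul_apply, Finset.sum_apply, Complex.real_smul, Finset.mul_sum]
  refine Finset.sum_congr rfl fun i _ => ?_
  push_cast
  ring

/-- inner product of the averaged `conj Y w` with `v` = averaged kernel -/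
theorem dot_bav_b (w v : ZMod Q → ι → ℂ) (Y : ZMod Q → ℂ) (m : ℕ) (p y : ZMod Q) :
    star (bav m (fb w Y) p) ⬝ᵥ v y = (1 / 2 : ℂ) ^ m *
      ∑ i ∈ range (2 ^ m), Y (p + (i : ZMod Q)) * Ker w v (p + (i : ZMod Q)) y := by
  unfold bav fb Ker dotProduct
  simp only [Pi.star_apply, Pi.smul_apply, Finset.sum_apply, Complex.real_smul, star_mul', star_sum]
  simp only [Finset.mul_sum, Finset.sum_mul]
  rw [Finset.sum_comm]
  refine Finset.sum_congr rfl fun i _ => Finset.sum_congr rfl fun k _ => ?_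
  have h2 : star ((starRingEnd ℂ) (Y (p + (i : ZMod Q)))) = Y (p + (i : ZMod Q)) := by simp
  have h1 : star (((((1 / 2 : ℝ) ^ m : ℝ)) : ℂ)) = (1 / 2 : ℂ) ^ m := by
    rw [RCLike.star_def, Complex.conj_ofReal]; push_cast; rfl
  rw [h1, h2]
  ring

/-- size of the averaged `conj Y w` -/
theorem n2_bav_b (w : ZMod Q → ι → ℂ) (Y : ZMod Q → ℂ) (m : ℕ) (p : ZMod Q) {H : ℝ}
    (hH : ∀ i ∈ range (2 ^ m), n2 (w (p + (i : ZMod Q))) ≤ H) :
    n2 (bav m (fb w Y) p) ≤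
      H * ((1 / 2 : ℝ) ^ m * ∑ i ∈ range (2 ^ m), ‖Y (p + (i : ZMod Q))‖ ^ 2) := by
  have h1 : ∀ k, ‖bav m (fb w Y) p k‖ ^ 2 ≤ (1 / 2 : ℝ) ^ m *
      ∑ i ∈ range (2 ^ m), ‖Y (p + (i : ZMod Q)) * w (p + (i : ZMod Q)) k‖ ^ 2 := by
    intro k
    have e : ‖bav m (fb w Y) p k‖ ≤ (1 / 2 : ℝ) ^ m *
        ∑ i ∈ range (2 ^ m), ‖Y (p + (i : ZMod Q)) * w (p + (i : ZMod Q)) k‖ := by
      unfold bav fb
      simp only [Pi.smul_apply, Finset.sum_apply, Complex.real_smul]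
      rw [norm_mul, Complex.norm_real, Real.norm_of_nonneg (by positivity)]
      refine mul_le_mul_of_nonneg_left ((norm_sum_le _ _).trans (le_of_eq ?_)) (by positivity)
      exact Finset.sum_congr rfl fun i _ => by rw [norm_mul, norm_mul, RCLike.norm_conj]
    have e2 : (∑ i ∈ range (2 ^ m), ‖Y (p + (i : ZMod Q)) * w (p + (i : ZMod Q)) k‖) ^ 2 ≤
        (2 ^ m : ℝ) * ∑ i ∈ range (2 ^ m), ‖Y (p + (i : ZMod Q)) * w (p + (i : ZMod Q)) k‖ ^ 2 := by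
      have := sq_sum_le_card_mul_sum_sq (s := range (2 ^ m))
        (f := fun i : ℕ => ‖Y (p + (i : ZMod Q)) * w (p + (i : ZMod Q)) k‖)
      simpa using this
    calc ‖bav m (fb w Y) p k‖ ^ 2 ≤ ((1 / 2 : ℝ) ^ m *
        ∑ i ∈ range (2 ^ m), ‖Y (p + (i : ZMod Q)) * w (p + (i : ZMod Q)) k‖) ^ 2 :=
          pow_le_pow_left₀ (norm_nonneg _) e 2
      _ = ((1 / 2 : ℝ) ^ m) ^ 2 *
        (∑ i ∈ range (2 ^ m), ‖Y (p + (i : ZMod Q)) * w (p + (i : ZMod Q)) k‖) ^ 2 := by ring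
      _ ≤ ((1 / 2 : ℝ) ^ m) ^ 2 * ((2 ^ m : ℝ) *
        ∑ i ∈ range (2 ^ m), ‖Y (p + (i : ZMod Q)) * w (p + (i : ZMod Q)) k‖ ^ 2) :=
          mul_le_mul_of_nonneg_left e2 (by positivity)
      _ = _ := by
          have : ((1 / 2 : ℝ) ^ m) * (2 ^ m : ℝ) = 1 := by rw [← mul_pow]; norm_num
          rw [sq, mul_assoc, ← mul_assoc ((1 / 2 : ℝ) ^ m) ((2 : ℝ) ^ m), this, one_mul]
  unfold n2
  refine (Finset.sum_le_sum fun k _ => h1 k).trans ?_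
  rw [← Finset.mul_sum, Finset.sum_comm, mul_left_comm]
  refine mul_le_mul_of_nonneg_left ?_ (by positivity)
  rw [Finset.mul_sum]
  refine Finset.sum_le_sum fun i hi => ?_
  have : ∑ k, ‖Y (p + (i : ZMod Q)) * w (p + (i : ZMod Q)) k‖ ^ 2 =
      ‖Y (p + (i : ZMod Q))‖ ^ 2 * n2 (w (p + (i : ZMod Q))) := by
    unfold n2
    rw [Finset.mul_sum]
    exact Finset.sum_congr rfl fun k _ => by rw [norm_mul, mul_pow]
  rw [this, mul_comm]
  exact mul_le_mul_of_nonneg_right (hH i hi) (by positivity)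

/-- exit value of `conj Y w`: compare `M` with the Gram matrix of ANY partner box `y + [0, 2^n)` -/
theorem leaf_b {M : Matrix ι ι ℂ} {τ δ H : ℝ} (hδτ : 0 ≤ δ + τ) (w v : ZMod Q → ι → ℂ)
    (Y : ZMod Q → ℂ) (m n : ℕ) (p y : ZMod Q)
    (h : ∀ z : ι → ℂ, qf M z ≤
      (1 / 2 : ℝ) ^ n * ∑ i ∈ range (2 ^ n), ‖star z ⬝ᵥ v (y + (i : ZMod Q))‖ ^ 2 + δ * n2 z)
    (hH : ∀ i ∈ range (2 ^ m), n2 (w (p + (i : ZMod Q))) ≤ H) :
    qf (met M τ) (bav m (fb w Y) p) ≤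
      (1 / 2 : ℝ) ^ n * ∑ j ∈ range (2 ^ n), ‖(1 / 2 : ℂ) ^ m *
        ∑ i ∈ range (2 ^ m), Y (p + (i : ZMod Q)) * Ker w v (p + (i : ZMod Q)) (y + (j : ZMod Q))‖ ^ 2 +
      (δ + τ) * (H * ((1 / 2 : ℝ) ^ m * ∑ i ∈ range (2 ^ m), ‖Y (p + (i : ZMod Q))‖ ^ 2)) := by
  have h1 := leafB (range (2 ^ n)) (M := M) (τ := τ) (δ := δ) (a := (1 / 2 : ℝ) ^ n)
    (fun i : ℕ => v (y + (i : ZMod Q))) (bav m (fb w Y) p) (h _)
  refine h1.trans (add_le_add (le_of_eq ?_)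
    (mul_le_mul_of_nonneg_left (n2_bav_b w Y m p hH) hδτ))
  congr 1
  exact Finset.sum_congr rfl fun j _ => by rw [dot_bav_b]

open Classical in
/-- **STEP II, FIXED WEIGHT, END FORM**: `δa m p`, `δb m p` = distances of `M` to the Gram matrices of
the exit boxes; `yy m p` = a partner box (for the `x_b` variable) of the exit box `p` (of the `x_a`
variable), of length `2^(nn m)`; `H` = pointwise bound of `|w|²`. -/
theorem fixed_weight {M : Matrix ι ι ℂ} (hM : M.PosSemidef) {τ H : ℝ} (hτ : 0 < τ) (hH0 : 0 ≤ H)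
    (w v : ZMod Q → ι → ℂ)
    (Yb Ya : ℕ → ZMod Q → ℂ) (hYb : Yb 0 = 0) (hYa : Ya 0 = 0) (Mx : ℕ)
    {κ : Type*} (I : ℕ → Finset κ) (wt : ℕ → κ → ℝ) (hw0 : ∀ m, ∀ i ∈ I m, 0 ≤ wt m i)
    (hw1 : ∀ m, ∑ i ∈ I m, wt m i ≤ 1)
    {α : Type*} (S : ℕ → Finset α) (pa pb : ℕ → κ → α → ZMod Q)
    (ha : ∀ m, m < Mx → ∀ i ∈ I m, Set.InjOn (pa m i) (S m))
    (hb : ∀ m, m < Mx → ∀ i ∈ I m, Set.InjOn (pb m i) (S m))
    (δa δb : ℕ → ZMod Q → ℝ) (hδa : ∀ m p, 0 ≤ δa m p) (hδb : ∀ m p, 0 ≤ δb m p)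
    (nn : ℕ → ℕ) (yy : ℕ → ZMod Q → ZMod Q)
    (hA : ∀ m, m < Mx → ∀ p, See Ya m p → ∀ z : ι → ℂ,
      (1 / 2 : ℝ) ^ m * ∑ i ∈ range (2 ^ m), ‖star z ⬝ᵥ v (p + (i : ZMod Q))‖ ^ 2 ≤
        qf M z + δa m p * n2 z)
    (hB : ∀ m, m < Mx → ∀ p, See Yb m p → ∀ z : ι → ℂ, qf M z ≤
      (1 / 2 : ℝ) ^ (nn m) * ∑ i ∈ range (2 ^ (nn m)), ‖star z ⬝ᵥ v (yy m p + (i : ZMod Q))‖ ^ 2 +
        δb m p * n2 z)
    (hW : ∀ m, m < Mx → ∀ p, See Yb m p → ∀ i ∈ range (2 ^ m), n2 (w (p + (i : ZMod Q))) ≤ H) :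
    ∑ m ∈ range Mx, ∑ i ∈ I m, wt m i *
        ∑ x ∈ S m, ‖brk m (Ker w v) (Yb (m + 1)) (Ya (m + 1)) (pa m i x) (pb m i x)‖ ≤
      Real.sqrt (∑ m ∈ range Mx, ∑ p : ZMod Q, if See Yb m p then
        ((1 / 2 : ℝ) ^ (nn m) * ∑ j ∈ range (2 ^ (nn m)), ‖(1 / 2 : ℂ) ^ m *
          ∑ i ∈ range (2 ^ m), Yb (m + 1) (p + (i : ZMod Q)) *
            Ker w v (p + (i : ZMod Q)) (yy m p + (j : ZMod Q))‖ ^ 2 +
          (δb m p + τ) * (H * ((1 / 2 : ℝ) ^ m *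
            ∑ i ∈ range (2 ^ m), ‖Yb (m + 1) (p + (i : ZMod Q))‖ ^ 2))) else 0) *
      Real.sqrt (∑ m ∈ range Mx, ∑ p : ZMod Q, if See Ya m p then
        (1 + δa m p / τ) * ((1 / 2 : ℝ) ^ m *
          ∑ i ∈ range (2 ^ m), ‖Ya (m + 1) (p + (i : ZMod Q))‖ ^ 2) else 0) := by
  refine fixed_metric (met_posDef hM hτ) w v Yb Ya hYb hYa Mx I wt hw0 hw1 S pa pb ha hb
    (fun m p => (1 / 2 : ℝ) ^ (nn m) * ∑ j ∈ range (2 ^ (nn m)), ‖(1 / 2 : ℂ) ^ m *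
          ∑ i ∈ range (2 ^ m), Yb (m + 1) (p + (i : ZMod Q)) *
            Ker w v (p + (i : ZMod Q)) (yy m p + (j : ZMod Q))‖ ^ 2 +
          (δb m p + τ) * (H * ((1 / 2 : ℝ) ^ m *
            ∑ i ∈ range (2 ^ m), ‖Yb (m + 1) (p + (i : ZMod Q))‖ ^ 2)))
    (fun m p => (1 + δa m p / τ) * ((1 / 2 : ℝ) ^ m *
          ∑ i ∈ range (2 ^ m), ‖Ya (m + 1) (p + (i : ZMod Q))‖ ^ 2)) ?_ ?_
  · intro m hm p hp
    exact leaf_b (by have := hδb m p; linarith) w v (Yb (m + 1)) m (nn m) p (yy m p)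
      (hB m hm p hp) (hW m hm p hp)
  · intro m hm p hp
    exact leaf_a hM hτ (hδa m p) v (Ya (m + 1)) m p (hA m hm p hp)

end Crest.Agent.R079.S2fw
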