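import Crest.Agent.R079.S2fw_530
import Crest.Agent.R079.GridDefs_569

/-! R079, doc 2531 STEP II, FIXED METRIC end form over `ℤ` (finitely supported letters), in the letters
of `Grid` (`hsg`, `Fin (N + N)`): transfer of `S2fw_530` from `ZMod Q`.  helper530. -/

set_option autoImplicit false
set_option linter.unusedVariables false
set_option linter.unusedSectionVars false

namespace Crest.Agent.R079.S2fz

open Matrix Finset Crest.Agent.R079.St2 Crest.Agent.R079.HB285 Crest.Agent.R079.S2fw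
open Crest.Agent.R079.Grid (hsg)
open scoped ComplexOrder MatrixOrder

variable {ι : Type*} [Fintype ι] [DecidableEq ι]

/-- the bracket over `ℤ`: box form of side `2N` of `Yb K Ya` at `(pa, pb)` -/
noncomputable def brz (N : ℕ) (K : ℤ → ℤ → ℂ) (Yb Ya : ℤ → ℂ) (pa pb : ℤ) : ℂ :=
  (1 / ((N : ℂ) + N) ^ 2) * ∑ i : Fin (N + N), ∑ j : Fin (N + N),
    ((hsg N i * hsg N j : ℝ) : ℂ) *
      (Yb (pa + ((i : ℕ) : ℤ)) * K (pa + ((i : ℕ) : ℤ)) (pb + ((j : ℕ) : ℤ)) *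
        Ya (pb + ((j : ℕ) : ℤ)))

/-- the box `[p, p + 2^m)` sees a change -/
def SeeZ (Y : ℕ → ℤ → ℂ) (m : ℕ) (p : ℤ) : Prop :=
  ∃ i ∈ range (2 ^ m), Y (m + 1) (p + (i : ℤ)) ≠ Y m (p + (i : ℤ))

/-- lift to `ZMod Q` -/
noncomputable def lf {β : Type*} (Q : ℕ) (f : ℤ → β) : ZMod Q → β := fun x => f x.valMinAbs

theorem lf_cast {β : Type*} {Q : ℕ} [NeZero Q] (f : ℤ → β) {z : ℤ} (h1 : -(Q : ℤ) < z * 2)
    (h2 : z * 2 ≤ Q) : lf Q f (z : ZMod Q) = f z := by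
  unfold lf
  congr 1
  exact (ZMod.valMinAbs_spec _ _).2 ⟨rfl, h1, h2⟩

theorem cast_inj {Q : ℕ} [NeZero Q] {z z' : ℤ} (h1 : -(Q : ℤ) < z * 2) (h2 : z * 2 ≤ Q)
    (h1' : -(Q : ℤ) < z' * 2) (h2' : z' * 2 ≤ Q) (h : (z : ZMod Q) = (z' : ZMod Q)) : z = z' := by
  have e1 := lf_cast (Q := Q) (fun x : ℤ => x) h1 h2
  have e2 := lf_cast (Q := Q) (fun x : ℤ => x) h1' h2'
  rw [← e1, ← e2, h]

/-- bracket transfer -/
theorem brk_lift {Q : ℕ} [NeZero Q] (m : ℕ) (w v : ℤ → ι → ℂ) (Yb Ya : ℤ → ℂ) (pa pb : ℤ)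
    (ha1 : -(Q : ℤ) < pa * 2) (ha2 : (pa + 2 ^ (m + 1)) * 2 ≤ Q)
    (hb1 : -(Q : ℤ) < pb * 2) (hb2 : (pb + 2 ^ (m + 1)) * 2 ≤ Q) :
    brk m (Ker (lf Q w) (lf Q v)) (lf Q Yb) (lf Q Ya) (pa : ZMod Q) (pb : ZMod Q) =
      brz (2 ^ m) (fun x y => star (w x) ⬝ᵥ v y) Yb Ya pa pb := by
  have hN : 2 ^ (m + 1) = 2 ^ m + 2 ^ m := by rw [pow_succ]; ring
  unfold brk brz
  have hc : ((1 / 2 : ℂ) ^ (m + 1)) ^ 2 = 1 / (((2 ^ m : ℕ) : ℂ) + ((2 ^ m : ℕ) : ℂ)) ^ 2 := by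
    have : (((2 ^ m : ℕ) : ℂ) + ((2 ^ m : ℕ) : ℂ)) = 2 ^ (m + 1) := by push_cast; rw [pow_succ]; ring
    rw [this, one_div, inv_pow, one_div, inv_pow]
  rw [hc, hN]
  congr 1
  rw [Finset.sum_range]
  refine Finset.sum_congr rfl fun i _ => ?_
  rw [Finset.sum_range]
  refine Finset.sum_congr rfl fun j _ => ?_
  have hlt : ∀ i : Fin (2 ^ m + 2 ^ m), ((i : ℕ) : ℤ) < 2 ^ (m + 1) := by
    intro i
    have h3 : (i : ℕ) < 2 ^ (m + 1) := lt_of_lt_of_eq i.2 hN.symm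
    exact_mod_cast h3
  have hi := hlt i
  have hj := hlt j
  have hi0 : (0 : ℤ) ≤ ((i : ℕ) : ℤ) := by positivity
  have hj0 : (0 : ℤ) ≤ ((j : ℕ) : ℤ) := by positivity
  have ea : ((pa : ZMod Q) + ((i : ℕ) : ZMod Q)) = ((pa + ((i : ℕ) : ℤ) : ℤ) : ZMod Q) := by
    push_cast; rfl
  have eb : ((pb : ZMod Q) + ((j : ℕ) : ZMod Q)) = ((pb + ((j : ℕ) : ℤ) : ℤ) : ZMod Q) := by
    push_cast; rfl
  rw [ea, eb]
  have l1 : -(Q : ℤ) < (pa + ((i : ℕ) : ℤ)) * 2 := by linarith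
  have l2 : (pa + ((i : ℕ) : ℤ)) * 2 ≤ Q := by linarith
  have l3 : -(Q : ℤ) < (pb + ((j : ℕ) : ℤ)) * 2 := by linarith
  have l4 : (pb + ((j : ℕ) : ℤ)) * 2 ≤ Q := by linarith
  unfold Ker
  rw [lf_cast Yb l1 l2, lf_cast Ya l3 l4, lf_cast w l1 l2, lf_cast v l3 l4]
  rfl

theorem brz_eq_zero_a {N : ℕ} (K : ℤ → ℤ → ℂ) (Yb Ya : ℤ → ℂ) (pa pb : ℤ)
    (h : ∀ j : ℕ, j < N + N → Ya (pb + (j : ℤ)) = 0) : brz N K Yb Ya pa pb = 0 := by
  unfold brz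
  rw [Finset.sum_eq_zero, mul_zero]
  intro i _
  refine Finset.sum_eq_zero fun j _ => ?_
  rw [h j j.2]
  ring

theorem brz_eq_zero_b {N : ℕ} (K : ℤ → ℤ → ℂ) (Yb Ya : ℤ → ℂ) (pa pb : ℤ)
    (h : ∀ j : ℕ, j < N + N → Yb (pa + (j : ℤ)) = 0) : brz N K Yb Ya pa pb = 0 := by
  unfold brz
  rw [Finset.sum_eq_zero, mul_zero]
  intro i _
  refine Finset.sum_eq_zero fun j _ => ?_
  rw [h i i.2]
  ring

/-- see transfer: from `ZMod Q` to `ℤ` -/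
theorem see_lift {Q : ℕ} [NeZero Q] (Y : ℕ → ℤ → ℂ) (m : ℕ) (p : ℤ)
    (h1 : -(Q : ℤ) < p * 2) (h2 : (p + 2 ^ m) * 2 ≤ Q) :
    See (fun k => lf Q (Y k)) m (p : ZMod Q) ↔ SeeZ Y m p := by
  unfold See SeeZ
  refine exists_congr fun i => and_congr_right fun hi => ?_
  have hi' : (i : ℤ) < 2 ^ m := by exact_mod_cast Finset.mem_range.1 hi
  have e : ((p : ZMod Q) + (i : ZMod Q)) = ((p + (i : ℤ) : ℤ) : ZMod Q) := by push_cast; rfl
  have l1 : -(Q : ℤ) < (p + (i : ℤ)) * 2 := by have : (0 : ℤ) ≤ (i : ℤ) := by positivity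
                                               linarith
  have l2 : (p + (i : ℤ)) * 2 ≤ Q := by linarith
  rw [e]
  change lf Q (Y (m + 1)) _ ≠ lf Q (Y m) _ ↔ _
  rw [lf_cast (Y (m + 1)) l1 l2, lf_cast (Y m) l1 l2]

/-- a box which sees a change meets the support -/
theorem see_range {Q : ℕ} [NeZero Q] {L : ℕ} (Y : ℕ → ℤ → ℂ)
    (hY : ∀ m z, (z < -(L : ℤ) ∨ (L : ℤ) ≤ z) → Y m z = 0) (m : ℕ) (x : ZMod Q)
    (hQ : 2 * ((L : ℤ) + 2 ^ m + 2 ^ m) < Q) (h : See (fun k => lf Q (Y k)) m x) :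
    ∃ p ∈ Finset.Ico (-((L : ℤ) + 2 ^ m)) ((L : ℤ)), ((p : ℤ) : ZMod Q) = x := by
  obtain ⟨i, hi, hne⟩ := h
  have hi' : (i : ℤ) < 2 ^ m := by exact_mod_cast Finset.mem_range.1 hi
  have hi0 : (0 : ℤ) ≤ (i : ℤ) := by positivity
  set z : ℤ := (x + (i : ZMod Q)).valMinAbs with hz
  have hz1 : -(L : ℤ) ≤ z ∧ z < L := by
    by_contra hc
    have : z < -(L : ℤ) ∨ (L : ℤ) ≤ z := by
      by_contra h3
      push Not at h3
      exact hc h3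
    apply hne
    change Y (m + 1) z = Y m z
    rw [hY (m + 1) z this, hY m z this]
  refine ⟨z - i, ?_, ?_⟩
  · rw [Finset.mem_Ico]
    constructor <;> linarith [hz1.1, hz1.2]
  · push_cast
    rw [hz, ZMod.coe_valMinAbs]
    ring

open Classical in
/-- sum over `ZMod Q` of an exit cost = sum over `ℤ` -/
theorem sum_see_le {Q : ℕ} [NeZero Q] {L : ℕ} (Y : ℕ → ℤ → ℂ)
    (hY : ∀ m z, (z < -(L : ℤ) ∨ (L : ℤ) ≤ z) → Y m z = 0) (m : ℕ)
    (hQ : 4 * ((L : ℤ) + 2 ^ m + 2 ^ m) < Q) (c : ZMod Q → ℝ) (d : ℤ → ℝ)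
    (hcd : ∀ p ∈ Finset.Ico (-((L : ℤ) + 2 ^ m)) ((L : ℤ)), SeeZ Y m p → c (p : ZMod Q) ≤ d p) :
    (∑ x : ZMod Q, if See (fun k => lf Q (Y k)) m x then c x else 0) ≤
      ∑ p ∈ Finset.Ico (-((L : ℤ) + 2 ^ m)) ((L : ℤ)), if SeeZ Y m p then d p else 0 := by
  have hp0 : (0 : ℤ) < 2 ^ m := by positivity
  have hL0 : (0 : ℤ) ≤ (L : ℤ) := by positivity
  have hinj : Set.InjOn (fun p : ℤ => (p : ZMod Q))
      (Finset.Ico (-((L : ℤ) + 2 ^ m)) ((L : ℤ)) : Finset ℤ) := by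
    intro a ha b hb hab
    have ha' := Finset.mem_Ico.1 (Finset.mem_coe.1 ha)
    have hb' := Finset.mem_Ico.1 (Finset.mem_coe.1 hb)
    exact cast_inj (by linarith [ha'.1]) (by linarith [ha'.2]) (by linarith [hb'.1])
      (by linarith [hb'.2]) hab
  have h1 : (∑ x : ZMod Q, if See (fun k => lf Q (Y k)) m x then c x else 0) =
      ∑ x ∈ (Finset.Ico (-((L : ℤ) + 2 ^ m)) ((L : ℤ))).image (fun p : ℤ => (p : ZMod Q)),
        if See (fun k => lf Q (Y k)) m x then c x else 0 := by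
    symm
    refine Finset.sum_subset (Finset.subset_univ _) fun x _ hx => ?_
    rw [if_neg]
    intro hs
    obtain ⟨p, hp, hpx⟩ := see_range (L := L) Y hY m x (by linarith) hs
    exact hx (Finset.mem_image.2 ⟨p, hp, hpx⟩)
  rw [h1, Finset.sum_image (fun a ha b hb h => hinj ha hb h)]
  refine Finset.sum_le_sum fun p hp => ?_
  have hp' := Finset.mem_Ico.1 hp
  have hiff := see_lift (Q := Q) Y m p (by linarith [hp'.1]) (by linarith [hp'.2])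
  by_cases h : SeeZ Y m p
  · rw [if_pos h, if_pos (hiff.2 h)]
    exact hcd p hp h
  · rw [if_neg h, if_neg (fun h2 => h (hiff.1 h2))]

theorem natAbs_bd (z : ℤ) : z ≤ (z.natAbs : ℤ) ∧ -(z.natAbs : ℤ) ≤ z := by omega

open Classical in
/-- **STEP II, FIXED WEIGHT, END FORM over `ℤ`** (letters supported in `[-L, L)`; no bound depends on
`L`). -/
theorem fixed_weightZ {M : Matrix ι ι ℂ} (hM : M.PosSemidef) {τ H : ℝ} (hτ : 0 < τ) (hH0 : 0 ≤ H)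
    (w v : ℤ → ι → ℂ) (L : ℕ)
    (Yb Ya : ℕ → ℤ → ℂ) (hYb : Yb 0 = 0) (hYa : Ya 0 = 0)
    (hLb : ∀ m z, (z < -(L : ℤ) ∨ (L : ℤ) ≤ z) → Yb m z = 0)
    (hLa : ∀ m z, (z < -(L : ℤ) ∨ (L : ℤ) ≤ z) → Ya m z = 0) (Mx : ℕ)
    {κ : Type*} (I : ℕ → Finset κ) (wt : ℕ → κ → ℝ) (hw0 : ∀ m, ∀ i ∈ I m, 0 ≤ wt m i)
    (hw1 : ∀ m, ∑ i ∈ I m, wt m i ≤ 1)
    {α : Type*} (S : ℕ → Finset α) (pa pb : ℕ → κ → α → ℤ)
    (ha : ∀ m, m < Mx → ∀ i ∈ I m, Set.InjOn (pa m i) (S m))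
    (hb : ∀ m, m < Mx → ∀ i ∈ I m, Set.InjOn (pb m i) (S m))
    (δa δb : ℕ → ℤ → ℝ) (hδa : ∀ m p, 0 ≤ δa m p) (hδb : ∀ m p, 0 ≤ δb m p)
    (nn : ℕ → ℕ) (yy : ℕ → ℤ → ℤ)
    (hA : ∀ m, m < Mx → ∀ p, SeeZ Ya m p → ∀ z : ι → ℂ,
      (1 / 2 : ℝ) ^ m * ∑ i ∈ range (2 ^ m), ‖star z ⬝ᵥ v (p + (i : ℤ))‖ ^ 2 ≤
        qf M z + δa m p * n2 z)
    (hB : ∀ m, m < Mx → ∀ p, SeeZ Yb m p → ∀ z : ι → ℂ, qf M z ≤
      (1 / 2 : ℝ) ^ (nn m) * ∑ i ∈ range (2 ^ (nn m)), ‖star z ⬝ᵥ v (yy m p + (i : ℤ))‖ ^ 2 +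
        δb m p * n2 z)
    (hW : ∀ m, m < Mx → ∀ p, SeeZ Yb m p → ∀ i ∈ range (2 ^ m), n2 (w (p + (i : ℤ))) ≤ H) :
    ∑ m ∈ range Mx, ∑ i ∈ I m, wt m i * ∑ x ∈ S m,
        ‖brz (2 ^ m) (fun x y => star (w x) ⬝ᵥ v y) (Yb (m + 1)) (Ya (m + 1))
          (pa m i x) (pb m i x)‖ ≤
      Real.sqrt (∑ m ∈ range Mx, ∑ p ∈ Finset.Ico (-((L : ℤ) + 2 ^ m)) ((L : ℤ)),
        if SeeZ Yb m p then
        ((1 / 2 : ℝ) ^ (nn m) * ∑ j ∈ range (2 ^ (nn m)), ‖(1 / 2 : ℂ) ^ m *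
          ∑ i ∈ range (2 ^ m), Yb (m + 1) (p + (i : ℤ)) *
            (star (w (p + (i : ℤ))) ⬝ᵥ v (yy m p + (j : ℤ)))‖ ^ 2 +
          (δb m p + τ) * (H * ((1 / 2 : ℝ) ^ m *
            ∑ i ∈ range (2 ^ m), ‖Yb (m + 1) (p + (i : ℤ))‖ ^ 2))) else 0) *
      Real.sqrt (∑ m ∈ range Mx, ∑ p ∈ Finset.Ico (-((L : ℤ) + 2 ^ m)) ((L : ℤ)),
        if SeeZ Ya m p then
        (1 + δa m p / τ) * ((1 / 2 : ℝ) ^ m *
          ∑ i ∈ range (2 ^ m), ‖Ya (m + 1) (p + (i : ℤ))‖ ^ 2) else 0) := by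
  -- the modulus
  set B : ℕ := ∑ m ∈ range Mx, (∑ i ∈ I m, ∑ x ∈ S m, ((pa m i x).natAbs + (pb m i x).natAbs) +
    (∑ p ∈ Finset.Ico (-((L : ℤ) + 2 ^ m)) ((L : ℤ)), (yy m p).natAbs + 2 ^ (nn m))) with hBdef
  set Q : ℕ := 8 * (L + 2 ^ (Mx + 1) + B) + 8 with hQ
  haveI : NeZero Q := ⟨by omega⟩
  have hQZ : (Q : ℤ) = 8 * ((L : ℤ) + 2 ^ (Mx + 1) + (B : ℤ)) + 8 := by rw [hQ]; push_cast; ring
  have hB0 : (0 : ℤ) ≤ (B : ℤ) := by positivity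
  have hL0 : (0 : ℤ) ≤ (L : ℤ) := by positivity
  have hpow : ∀ m, m < Mx → (2 : ℤ) ^ m + 2 ^ m ≤ 2 ^ (Mx + 1) ∧ (0 : ℤ) < 2 ^ m ∧
      (2 : ℤ) ^ (m + 1) ≤ 2 ^ (Mx + 1) := by
    intro m hm
    have h1 : (2 : ℤ) ^ (m + 1) ≤ 2 ^ (Mx + 1) := pow_le_pow_right₀ (by norm_num) (by omega)
    have h2 : (2 : ℤ) ^ (m + 1) = 2 ^ m + 2 ^ m := by rw [pow_succ]; ring
    exact ⟨by linarith, by positivity, h1⟩
  have hbd0 : ∀ m, m < Mx → ∑ i ∈ I m, ∑ x ∈ S m, ((pa m i x).natAbs + (pb m i x).natAbs) +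
    (∑ p ∈ Finset.Ico (-((L : ℤ) + 2 ^ m)) ((L : ℤ)), (yy m p).natAbs + 2 ^ (nn m)) ≤ B := by
    intro m hm
    exact Finset.single_le_sum (f := fun m => ∑ i ∈ I m, ∑ x ∈ S m,
      ((pa m i x).natAbs + (pb m i x).natAbs) +
      (∑ p ∈ Finset.Ico (-((L : ℤ) + 2 ^ m)) ((L : ℤ)), (yy m p).natAbs + 2 ^ (nn m)))
      (fun _ _ => Nat.zero_le _) (Finset.mem_range.2 hm)
  have hbd1 : ∀ m, m < Mx → ∀ i ∈ I m, ∀ x ∈ S m, (pa m i x).natAbs + (pb m i x).natAbs ≤ B := by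
    intro m hm i hi x hx
    have h1 := hbd0 m hm
    have h2 : ∑ x ∈ S m, ((pa m i x).natAbs + (pb m i x).natAbs) ≤
        ∑ i ∈ I m, ∑ x ∈ S m, ((pa m i x).natAbs + (pb m i x).natAbs) :=
      Finset.single_le_sum (f := fun i => ∑ x ∈ S m, ((pa m i x).natAbs + (pb m i x).natAbs))
        (fun _ _ => Nat.zero_le _) hi
    have h3 : (pa m i x).natAbs + (pb m i x).natAbs ≤
        ∑ x ∈ S m, ((pa m i x).natAbs + (pb m i x).natAbs) :=
      Finset.single_le_sum (f := fun x => (pa m i x).natAbs + (pb m i x).natAbs)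
        (fun _ _ => Nat.zero_le _) hx
    exact h3.trans (h2.trans (le_trans (Nat.le_add_right _ _) h1))
  have hbd2 : ∀ m, m < Mx → ∀ p ∈ Finset.Ico (-((L : ℤ) + 2 ^ m)) ((L : ℤ)),
      (yy m p).natAbs + 2 ^ (nn m) ≤ B := by
    intro m hm p hp
    have h1 := hbd0 m hm
    have h2 : (yy m p).natAbs ≤ ∑ p ∈ Finset.Ico (-((L : ℤ) + 2 ^ m)) ((L : ℤ)), (yy m p).natAbs :=
      Finset.single_le_sum (f := fun p => (yy m p).natAbs) (fun _ _ => Nat.zero_le _) hp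
    omega
  -- ranges
  have hra : ∀ m, m < Mx → ∀ i ∈ I m, ∀ x ∈ S m,
      (-(Q : ℤ) < (pa m i x) * 2 ∧ (pa m i x + 2 ^ (m + 1)) * 2 ≤ Q) ∧
      (-(Q : ℤ) < (pb m i x) * 2 ∧ (pb m i x + 2 ^ (m + 1)) * 2 ≤ Q) := by
    intro m hm i hi x hx
    have h1 := hbd1 m hm i hi x hx
    have h2 := natAbs_bd (pa m i x)
    have h3 := natAbs_bd (pb m i x)
    have h4 : (((pa m i x).natAbs : ℤ)) + ((pb m i x).natAbs : ℤ) ≤ B := by exact_mod_cast h1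
    have h5 := (hpow m hm).2.2
    have h6 : (0 : ℤ) ≤ ((pa m i x).natAbs : ℤ) := by positivity
    have h7 : (0 : ℤ) ≤ ((pb m i x).natAbs : ℤ) := by positivity
    have h8 : (0 : ℤ) < 2 ^ (m + 1) := by positivity
    refine ⟨⟨?_, ?_⟩, ⟨?_, ?_⟩⟩ <;> linarith [h2.1, h2.2, h3.1, h3.2]
  have hrp : ∀ m, m < Mx → ∀ p ∈ Finset.Ico (-((L : ℤ) + 2 ^ m)) ((L : ℤ)),
      ∀ i : ℕ, (i : ℤ) < 2 ^ m → -(Q : ℤ) < (p + (i : ℤ)) * 2 ∧ (p + (i : ℤ)) * 2 ≤ Q := by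
    intro m hm p hp i hi
    have hp' := Finset.mem_Ico.1 hp
    have h5 := hpow m hm
    have hi0 : (0 : ℤ) ≤ (i : ℤ) := by positivity
    constructor <;> linarith [hp'.1, hp'.2]
  have hrp0 : ∀ m, m < Mx → ∀ p ∈ Finset.Ico (-((L : ℤ) + 2 ^ m)) ((L : ℤ)),
      -(Q : ℤ) < p * 2 ∧ p * 2 ≤ Q := by
    intro m hm p hp
    have h := hrp m hm p hp 0 (by simpa using (hpow m hm).2.1)
    simpa using h
  have hry : ∀ m, m < Mx → ∀ p ∈ Finset.Ico (-((L : ℤ) + 2 ^ m)) ((L : ℤ)),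
      ∀ i : ℕ, (i : ℤ) < 2 ^ (nn m) →
        -(Q : ℤ) < (yy m p + (i : ℤ)) * 2 ∧ (yy m p + (i : ℤ)) * 2 ≤ Q := by
    intro m hm p hp i hi
    have h1 := hbd2 m hm p hp
    have h2 := natAbs_bd (yy m p)
    have h4 : (((yy m p).natAbs : ℤ)) + 2 ^ (nn m) ≤ B := by exact_mod_cast h1
    have hi0 : (0 : ℤ) ≤ (i : ℤ) := by positivity
    have h5 := hpow m hm
    have h6 : (0 : ℤ) ≤ ((yy m p).natAbs : ℤ) := by positivity
    constructor <;> linarith [h2.1, h2.2]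
  have castadd : ∀ (p : ℤ) (i : ℕ), ((p : ZMod Q) + (i : ZMod Q)) = ((p + (i : ℤ) : ℤ) : ZMod Q) := by
    intro p i; push_cast; rfl
  have hQm : ∀ m, m < Mx → 4 * ((L : ℤ) + 2 ^ m + 2 ^ m) < Q := by
    intro m hm
    have h5 := hpow m hm
    linarith
  have hnat : ∀ {k i : ℕ}, i ∈ range (2 ^ k) → (i : ℤ) < 2 ^ k := by
    intro k i hi
    exact_mod_cast Finset.mem_range.1 hi
  -- apply the ZMod form
  have key := fixed_weight (Q := Q) hM hτ hH0 (lf Q w) (lf Q v) (fun m => lf Q (Yb m))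
    (fun m => lf Q (Ya m)) (by funext x; simp [lf, hYb]) (by funext x; simp [lf, hYa]) Mx I wt hw0 hw1 S
    (fun m i x => ((pa m i x : ℤ) : ZMod Q)) (fun m i x => ((pb m i x : ℤ) : ZMod Q))
    (fun m hm i hi x hx y hy hxy => by
      have h1 := hra m hm i hi x (Finset.mem_coe.1 hx)
      have h2 := hra m hm i hi y (Finset.mem_coe.1 hy)
      have h8 : (0 : ℤ) < 2 ^ (m + 1) := by positivity
      exact ha m hm i hi hx hy (cast_inj h1.1.1 (by linarith [h1.1.2]) h2.1.1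
        (by linarith [h2.1.2]) hxy))
    (fun m hm i hi x hx y hy hxy => by
      have h1 := hra m hm i hi x (Finset.mem_coe.1 hx)
      have h2 := hra m hm i hi y (Finset.mem_coe.1 hy)
      have h8 : (0 : ℤ) < 2 ^ (m + 1) := by positivity
      exact hb m hm i hi hx hy (cast_inj h1.2.1 (by linarith [h1.2.2]) h2.2.1
        (by linarith [h2.2.2]) hxy))
    (fun m x => lf Q (δa m) x) (fun m x => lf Q (δb m) x) (fun m x => hδa m _) (fun m x => hδb m _)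
    nn (fun m x => (((yy m (x.valMinAbs) : ℤ)) : ZMod Q))
    (by
      intro m hm x hx z
      obtain ⟨p, hp, rfl⟩ := see_range (L := L) Ya hLa m x (by
        have := hQm m hm
        have h5 := hpow m hm
        linarith) hx
      have hs : SeeZ Ya m p := (see_lift (Q := Q) Ya m p (hrp0 m hm p hp).1 (by
        have hp' := Finset.mem_Ico.1 hp
        have h5 := hpow m hm
        linarith [hp'.2])).1 hx
      have h := hA m hm p hs z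
      have e1 : lf Q (δa m) (p : ZMod Q) = δa m p := lf_cast _ (hrp0 m hm p hp).1 (hrp0 m hm p hp).2
      rw [e1]
      refine le_trans (le_of_eq ?_) h
      congr 1
      refine Finset.sum_congr rfl fun i hi => ?_
      have hr := hrp m hm p hp i (hnat hi)
      rw [castadd, lf_cast v hr.1 hr.2])
    (by
      intro m hm x hx z
      obtain ⟨p, hp, rfl⟩ := see_range (L := L) Yb hLb m x (by
        have := hQm m hm
        have h5 := hpow m hm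
        linarith) hx
      have hs : SeeZ Yb m p := (see_lift (Q := Q) Yb m p (hrp0 m hm p hp).1 (by
        have hp' := Finset.mem_Ico.1 hp
        have h5 := hpow m hm
        linarith [hp'.2])).1 hx
      have h := hB m hm p hs z
      have e0 : ((p : ZMod Q)).valMinAbs = p :=
        lf_cast (fun x : ℤ => x) (hrp0 m hm p hp).1 (hrp0 m hm p hp).2
      have e1 : lf Q (δb m) (p : ZMod Q) = δb m p := lf_cast _ (hrp0 m hm p hp).1 (hrp0 m hm p hp).2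
      rw [e1, e0]
      refine h.trans (le_of_eq ?_)
      congr 2
      refine Finset.sum_congr rfl fun i hi => ?_
      have hr := hry m hm p hp i (hnat hi)
      rw [castadd, lf_cast v hr.1 hr.2])
    (by
      intro m hm x hx i hi
      obtain ⟨p, hp, rfl⟩ := see_range (L := L) Yb hLb m x (by
        have := hQm m hm
        have h5 := hpow m hm
        linarith) hx
      have hs : SeeZ Yb m p := (see_lift (Q := Q) Yb m p (hrp0 m hm p hp).1 (by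
        have hp' := Finset.mem_Ico.1 hp
        have h5 := hpow m hm
        linarith [hp'.2])).1 hx
      have hr := hrp m hm p hp i (hnat hi)
      rw [castadd, lf_cast w hr.1 hr.2]
      exact hW m hm p hs i hi)
  refine le_trans (le_of_eq ?_) (key.trans (mul_le_mul (Real.sqrt_le_sqrt ?_)
    (Real.sqrt_le_sqrt ?_) (Real.sqrt_nonneg _) (Real.sqrt_nonneg _)))
  · refine Finset.sum_congr rfl fun m hm => Finset.sum_congr rfl fun i hi => ?_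
    congr 1
    refine Finset.sum_congr rfl fun x hx => ?_
    have h1 := hra m (Finset.mem_range.1 hm) i hi x hx
    rw [brk_lift m w v (Yb (m + 1)) (Ya (m + 1)) (pa m i x) (pb m i x) h1.1.1 h1.1.2 h1.2.1 h1.2.2]
  · refine Finset.sum_le_sum fun m hm => ?_
    have hm' := Finset.mem_range.1 hm
    refine sum_see_le Yb hLb m (hQm m hm') _ _ fun p hp hs => le_of_eq ?_
    have e0 : ((p : ZMod Q)).valMinAbs = p :=
      lf_cast (fun x : ℤ => x) (hrp0 m hm' p hp).1 (hrp0 m hm' p hp).2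
    have e1 : lf Q (δb m) (p : ZMod Q) = δb m p :=
      lf_cast _ (hrp0 m hm' p hp).1 (hrp0 m hm' p hp).2
    rw [e0, e1]
    have e2 : ∀ i ∈ range (2 ^ m), lf Q (Yb (m + 1)) ((p : ZMod Q) + (i : ZMod Q)) =
        Yb (m + 1) (p + (i : ℤ)) := by
      intro i hi
      have hr := hrp m hm' p hp i (hnat hi)
      rw [castadd, lf_cast _ hr.1 hr.2]
    congr 1
    · congr 1
      refine Finset.sum_congr rfl fun j hj => ?_
      congr 3
      refine Finset.sum_congr rfl fun i hi => ?_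
      have hr := hrp m hm' p hp i (hnat hi)
      have hr2 := hry m hm' p hp j (hnat hj)
      rw [e2 i hi]
      unfold Ker
      rw [castadd, castadd, lf_cast w hr.1 hr.2, lf_cast v hr2.1 hr2.2]
    · congr 3
      refine Finset.sum_congr rfl fun i hi => ?_
      rw [e2 i hi]
  · refine Finset.sum_le_sum fun m hm => ?_
    have hm' := Finset.mem_range.1 hm
    refine sum_see_le Ya hLa m (hQm m hm') _ _ fun p hp hs => le_of_eq ?_
    have e1 : lf Q (δa m) (p : ZMod Q) = δa m p :=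
      lf_cast _ (hrp0 m hm' p hp).1 (hrp0 m hm' p hp).2
    rw [e1]
    congr 2
    refine Finset.sum_congr rfl fun i hi => ?_
    have hr := hrp m hm' p hp i (hnat hi)
    rw [castadd, lf_cast _ hr.1 hr.2]

end Crest.Agent.R079.S2fz
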