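import Mathlib

/-!
# S4pair_307: the pair norm with three cubes against a killer of arbitrary height

For kernels `P (1,2,3)`, `R (0,1,2)` put, for a pair `(1,1')`,
`NP (2,3) = P (1,2,3) * conj (P (1',2,3))`, `NR (2,0) = R (0,1,2) * conj (R (0,1',2))`.
Then the sum over `(0,3)` of the fourth power of the Schatten 4 norm of `P^3 R^0` is

  `sum over (1,1') of sum over (0,3) of |sum over 2 of NP (2,3) NR (2,0)|^2`
  `<= sum over (1,1') of |NR|_op^2 |NP|_HS^2`,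

`|NR|_op <= (mixed sup-L2 norm of R)^2` with no height (Schur), `|NP|_HS^2 <= La^2 * mass`,
and the pairs `(1,1')` with `|NR|_op > eta` are paid by their number.
All sums are over arbitrary finite sets (`Finset`), all kernels complex and arbitrary.
-/

namespace Crest.Agent.R079.S4pair307

open Finset BigOperators ComplexConjugate

variable {α0 α1 α2 α3 : Type*}

/-- fourth power of the Schatten 4 norm of the matrix `M` on `s1 x s2`
(as a complex number; it is real, see `s4_eq`). -/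
noncomputable def s4 (s1 : Finset α1) (s2 : Finset α2) (M : α1 → α2 → ℂ) : ℂ :=
  ∑ b ∈ s1, ∑ b' ∈ s1, ∑ c ∈ s2, ∑ c' ∈ s2,
    M b c * conj (M b' c) * conj (M b c') * M b' c'

/-- the fourth power of the Schatten 4 norm, as a sum of squares. -/
theorem s4_eq (s1 : Finset α1) (s2 : Finset α2) (M : α1 → α2 → ℂ) :
    s4 s1 s2 M = ((∑ b ∈ s1, ∑ b' ∈ s1, ‖∑ c ∈ s2, M b c * conj (M b' c)‖ ^ 2 : ℝ) : ℂ) := by
  unfold s4
  push_cast
  refine Finset.sum_congr rfl fun b _ => Finset.sum_congr rfl fun b' _ => ?_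
  rw [← Complex.mul_conj', map_sum, Finset.sum_mul_sum]
  refine Finset.sum_congr rfl fun c _ => Finset.sum_congr rfl fun c' _ => ?_
  simp only [map_mul, Complex.conj_conj]
  ring

/-- real form of the fourth power of the Schatten 4 norm. -/
noncomputable def S4 (s1 : Finset α1) (s2 : Finset α2) (M : α1 → α2 → ℂ) : ℝ :=
  ∑ b ∈ s1, ∑ b' ∈ s1, ‖∑ c ∈ s2, M b c * conj (M b' c)‖ ^ 2

/-- the mixed kernel of the pair `(1,1')` of `P`, read as `(2,3)`. -/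
def NP (P : α1 → α2 → α3 → ℂ) (b b' : α1) (c : α2) (d : α3) : ℂ := P b c d * conj (P b' c d)

/-- the mixed kernel of the pair `(1,1')` of `R`, read as `(2,0)`. -/
def NR (R : α0 → α1 → α2 → ℂ) (b b' : α1) (c : α2) (a : α0) : ℂ := R a b c * conj (R a b' c)

/-- **exact identity** for the pair norm. -/
theorem pair_eq (s0 : Finset α0) (s1 : Finset α1) (s2 : Finset α2) (s3 : Finset α3)
    (P : α1 → α2 → α3 → ℂ) (R : α0 → α1 → α2 → ℂ) :
    ∑ a ∈ s0, ∑ d ∈ s3, S4 s1 s2 (fun b c => P b c d * R a b c) =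
      ∑ b ∈ s1, ∑ b' ∈ s1, ∑ d ∈ s3, ∑ a ∈ s0,
        ‖∑ c ∈ s2, NR R b b' c a * NP P b b' c d‖ ^ 2 := by
  unfold S4
  calc ∑ a ∈ s0, ∑ d ∈ s3, ∑ b ∈ s1, ∑ b' ∈ s1,
        ‖∑ c ∈ s2, P b c d * R a b c * conj (P b' c d * R a b' c)‖ ^ 2
      = ∑ a ∈ s0, ∑ b ∈ s1, ∑ b' ∈ s1, ∑ d ∈ s3,
        ‖∑ c ∈ s2, NR R b b' c a * NP P b b' c d‖ ^ 2 := by
        refine Finset.sum_congr rfl fun a _ => ?_
        rw [Finset.sum_comm]
        refine Finset.sum_congr rfl fun b _ => ?_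
        rw [Finset.sum_comm]
        refine Finset.sum_congr rfl fun b' _ => Finset.sum_congr rfl fun d _ => ?_
        congr 2
        refine Finset.sum_congr rfl fun c _ => ?_
        simp only [NR, NP, map_mul]
        ring
    _ = ∑ b ∈ s1, ∑ b' ∈ s1, ∑ d ∈ s3, ∑ a ∈ s0,
        ‖∑ c ∈ s2, NR R b b' c a * NP P b b' c d‖ ^ 2 := by
        rw [Finset.sum_comm]
        refine Finset.sum_congr rfl fun b _ => ?_
        rw [Finset.sum_comm]
        refine Finset.sum_congr rfl fun b' _ => ?_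
        rw [Finset.sum_comm]

/-- `OpB s2 s0 N β`: the kernel `N (2,0)` maps `L2 (s2)` to `L2 (s0)` with norm at most `β`. -/
def OpB (s2 : Finset α2) (s0 : Finset α0) (N : α2 → α0 → ℂ) (β : ℝ) : Prop :=
  ∀ f : α2 → ℂ, ∑ a ∈ s0, ‖∑ c ∈ s2, N c a * f c‖ ^ 2 ≤ β ^ 2 * ∑ c ∈ s2, ‖f c‖ ^ 2

/-- **the pair inequality**: operator norms of the killer pairs, Hilbert-Schmidt norms of the
static pairs. No height of `R`. -/
theorem pair_le (s0 : Finset α0) (s1 : Finset α1) (s2 : Finset α2) (s3 : Finset α3)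
    (P : α1 → α2 → α3 → ℂ) (R : α0 → α1 → α2 → ℂ) (β : α1 → α1 → ℝ)
    (hβ : ∀ b ∈ s1, ∀ b' ∈ s1, OpB s2 s0 (NR R b b') (β b b')) :
    ∑ a ∈ s0, ∑ d ∈ s3, S4 s1 s2 (fun b c => P b c d * R a b c) ≤
      ∑ b ∈ s1, ∑ b' ∈ s1, β b b' ^ 2 * ∑ d ∈ s3, ∑ c ∈ s2, ‖NP P b b' c d‖ ^ 2 := by
  rw [pair_eq]
  refine Finset.sum_le_sum fun b hb => Finset.sum_le_sum fun b' hb' => ?_
  rw [Finset.mul_sum]
  exact Finset.sum_le_sum fun d _ => hβ b hb b' hb' fun c => NP P b b' c d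

/-- **Schur test**: rows and columns of `N` of `L1` norm at most `ρ`. -/
theorem opB_schur (s2 : Finset α2) (s0 : Finset α0) (N : α2 → α0 → ℂ) (ρ σ : ℝ)
    (hρ0 : 0 ≤ ρ)
    (hrow : ∀ a ∈ s0, ∑ c ∈ s2, ‖N c a‖ ≤ ρ) (hcol : ∀ c ∈ s2, ∑ a ∈ s0, ‖N c a‖ ≤ σ)
    (f : α2 → ℂ) :
    ∑ a ∈ s0, ‖∑ c ∈ s2, N c a * f c‖ ^ 2 ≤ ρ * σ * ∑ c ∈ s2, ‖f c‖ ^ 2 := by
  have h1 : ∀ a ∈ s0, ‖∑ c ∈ s2, N c a * f c‖ ^ 2 ≤ ρ * ∑ c ∈ s2, ‖N c a‖ * ‖f c‖ ^ 2 := by
    intro a ha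
    have h2 : ‖∑ c ∈ s2, N c a * f c‖ ≤ ∑ c ∈ s2, ‖N c a‖ * ‖f c‖ := by
      refine (norm_sum_le _ _).trans (le_of_eq ?_)
      exact Finset.sum_congr rfl fun c _ => norm_mul _ _
    have h3 : (∑ c ∈ s2, ‖N c a‖ * ‖f c‖) ^ 2 ≤
        (∑ c ∈ s2, ‖N c a‖) * ∑ c ∈ s2, ‖N c a‖ * ‖f c‖ ^ 2 := by
      refine Finset.sum_sq_le_sum_mul_sum_of_sq_le_mul s2 (fun c _ => norm_nonneg _)
        (fun c _ => by positivity) fun c _ => le_of_eq (by ring)
    calc ‖∑ c ∈ s2, N c a * f c‖ ^ 2 ≤ (∑ c ∈ s2, ‖N c a‖ * ‖f c‖) ^ 2 :=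
          pow_le_pow_left₀ (norm_nonneg _) h2 2
      _ ≤ (∑ c ∈ s2, ‖N c a‖) * ∑ c ∈ s2, ‖N c a‖ * ‖f c‖ ^ 2 := h3
      _ ≤ ρ * ∑ c ∈ s2, ‖N c a‖ * ‖f c‖ ^ 2 :=
          mul_le_mul_of_nonneg_right (hrow a ha) (Finset.sum_nonneg fun c _ => by positivity)
  calc ∑ a ∈ s0, ‖∑ c ∈ s2, N c a * f c‖ ^ 2
      ≤ ∑ a ∈ s0, ρ * ∑ c ∈ s2, ‖N c a‖ * ‖f c‖ ^ 2 := Finset.sum_le_sum h1
    _ = ρ * ∑ c ∈ s2, (∑ a ∈ s0, ‖N c a‖) * ‖f c‖ ^ 2 := by
        rw [← Finset.mul_sum, Finset.sum_comm]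
        simp_rw [Finset.sum_mul]
    _ ≤ ρ * ∑ c ∈ s2, σ * ‖f c‖ ^ 2 := by
        refine mul_le_mul_of_nonneg_left (Finset.sum_le_sum fun c hc => ?_) hρ0
        exact mul_le_mul_of_nonneg_right (hcol c hc) (by positivity)
    _ = ρ * σ * ∑ c ∈ s2, ‖f c‖ ^ 2 := by rw [← Finset.mul_sum]; ring

/-- Cauchy-Schwarz for one fibre of the mixed kernel. -/
theorem fibre_cs {ι : Type*} (s : Finset ι) (u v : ι → ℂ) (r : ℝ)
    (hu : ∑ i ∈ s, ‖u i‖ ^ 2 ≤ r) (hv : ∑ i ∈ s, ‖v i‖ ^ 2 ≤ r) :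
    ∑ i ∈ s, ‖u i * conj (v i)‖ ≤ r := by
  have h : ∀ i ∈ s, ‖u i * conj (v i)‖ ≤ (‖u i‖ ^ 2 + ‖v i‖ ^ 2) / 2 := by
    intro i _
    rw [norm_mul, RCLike.norm_conj]
    nlinarith [sq_nonneg (‖u i‖ - ‖v i‖)]
  calc ∑ i ∈ s, ‖u i * conj (v i)‖ ≤ ∑ i ∈ s, (‖u i‖ ^ 2 + ‖v i‖ ^ 2) / 2 :=
        Finset.sum_le_sum h
    _ = ((∑ i ∈ s, ‖u i‖ ^ 2) + ∑ i ∈ s, ‖v i‖ ^ 2) / 2 := by
        rw [← Finset.sum_add_distrib, Finset.sum_div]
    _ ≤ r := by linarith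

/-- **no height**: `|NR|_op <= r` as soon as all fibres of `R` in the variables `0` and `2`
have squared `L2` norm at most `r`. -/
theorem opB_fibre (s0 : Finset α0) (s1 : Finset α1) (s2 : Finset α2)
    (R : α0 → α1 → α2 → ℂ) (r : ℝ) (hr : 0 ≤ r)
    (h0 : ∀ b ∈ s1, ∀ c ∈ s2, ∑ a ∈ s0, ‖R a b c‖ ^ 2 ≤ r)
    (h2 : ∀ a ∈ s0, ∀ b ∈ s1, ∑ c ∈ s2, ‖R a b c‖ ^ 2 ≤ r) :
    ∀ b ∈ s1, ∀ b' ∈ s1, OpB s2 s0 (NR R b b') r := by
  intro b hb b' hb' f
  have := opB_schur s2 s0 (NR R b b') r r hr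
    (fun a ha => fibre_cs s2 (fun c => R a b c) (fun c => R a b' c) r (h2 a ha b hb)
      (h2 a ha b' hb'))
    (fun c hc => fibre_cs s0 (fun a => R a b c) (fun a => R a b' c) r (h0 b hb c hc)
      (h0 b' hb' c hc)) f
  rw [sq]
  exact this

/-- Hilbert-Schmidt norm of a static pair, by height times mass. -/
theorem hs_height (s2 : Finset α2) (s3 : Finset α3) (P : α1 → α2 → α3 → ℂ) (b b' : α1)
    (La m : ℝ) (hLa : ∀ c ∈ s2, ∀ d ∈ s3, ‖P b c d‖ ≤ La)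
    (hm : ∑ d ∈ s3, ∑ c ∈ s2, ‖P b' c d‖ ^ 2 ≤ m) :
    ∑ d ∈ s3, ∑ c ∈ s2, ‖NP P b b' c d‖ ^ 2 ≤ La ^ 2 * m := by
  calc ∑ d ∈ s3, ∑ c ∈ s2, ‖NP P b b' c d‖ ^ 2
      ≤ ∑ d ∈ s3, ∑ c ∈ s2, La ^ 2 * ‖P b' c d‖ ^ 2 := by
        refine Finset.sum_le_sum fun d hd => Finset.sum_le_sum fun c hc => ?_
        unfold NP
        rw [norm_mul, RCLike.norm_conj, mul_pow]
        exact mul_le_mul_of_nonneg_right
          (pow_le_pow_left₀ (norm_nonneg _) (hLa c hc d hd) 2) (by positivity)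
    _ = La ^ 2 * ∑ d ∈ s3, ∑ c ∈ s2, ‖P b' c d‖ ^ 2 := by
        simp_rw [Finset.mul_sum]
    _ ≤ La ^ 2 * m := mul_le_mul_of_nonneg_left hm (sq_nonneg _)

/-- sum over the partners of the Hilbert-Schmidt norms, by the fibres in the variable `1`. -/
theorem hs_partner (s1 : Finset α1) (s2 : Finset α2) (s3 : Finset α3)
    (P : α1 → α2 → α3 → ℂ) (b : α1) (p m : ℝ)
    (hp0 : 0 ≤ p)
    (hp : ∀ c ∈ s2, ∀ d ∈ s3, ∑ b' ∈ s1, ‖P b' c d‖ ^ 2 ≤ p)
    (hm : ∑ d ∈ s3, ∑ c ∈ s2, ‖P b c d‖ ^ 2 ≤ m) :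
    ∑ b' ∈ s1, ∑ d ∈ s3, ∑ c ∈ s2, ‖NP P b b' c d‖ ^ 2 ≤ p * m := by
  calc ∑ b' ∈ s1, ∑ d ∈ s3, ∑ c ∈ s2, ‖NP P b b' c d‖ ^ 2
      = ∑ d ∈ s3, ∑ c ∈ s2, ‖P b c d‖ ^ 2 * ∑ b' ∈ s1, ‖P b' c d‖ ^ 2 := by
        rw [Finset.sum_comm]
        refine Finset.sum_congr rfl fun d _ => ?_
        rw [Finset.sum_comm]
        refine Finset.sum_congr rfl fun c _ => ?_
        rw [Finset.mul_sum]
        refine Finset.sum_congr rfl fun b' _ => ?_
        unfold NP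
        rw [norm_mul, RCLike.norm_conj, mul_pow]
    _ ≤ ∑ d ∈ s3, ∑ c ∈ s2, ‖P b c d‖ ^ 2 * p :=
        Finset.sum_le_sum fun d hd => Finset.sum_le_sum fun c hc =>
          mul_le_mul_of_nonneg_left (hp c hc d hd) (by positivity)
    _ = p * ∑ d ∈ s3, ∑ c ∈ s2, ‖P b c d‖ ^ 2 := by
        simp_rw [← Finset.sum_mul]
        ring
    _ ≤ p * m := mul_le_mul_of_nonneg_left hm hp0

open Classical in
/-- **the split**: the pairs with operator norm at most `η` are paid by the partner sum, the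
others (`Bad`) by `r^2`, height and number. `R` has arbitrary height. -/
theorem pair_split (s0 : Finset α0) (s1 : Finset α1) (s2 : Finset α2) (s3 : Finset α3)
    (P : α1 → α2 → α3 → ℂ) (R : α0 → α1 → α2 → ℂ) (Bad : α1 → α1 → Prop)
    (r η La p m : ℝ) (hr : 0 ≤ r) (hp0 : 0 ≤ p)
    (h0 : ∀ b ∈ s1, ∀ c ∈ s2, ∑ a ∈ s0, ‖R a b c‖ ^ 2 ≤ r)
    (h2 : ∀ a ∈ s0, ∀ b ∈ s1, ∑ c ∈ s2, ‖R a b c‖ ^ 2 ≤ r)
    (hgood : ∀ b ∈ s1, ∀ b' ∈ s1, ¬ Bad b b' → OpB s2 s0 (NR R b b') η)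
    (hLa : ∀ b ∈ s1, ∀ c ∈ s2, ∀ d ∈ s3, ‖P b c d‖ ≤ La)
    (hp : ∀ c ∈ s2, ∀ d ∈ s3, ∑ b ∈ s1, ‖P b c d‖ ^ 2 ≤ p)
    (hm : ∀ b ∈ s1, ∑ d ∈ s3, ∑ c ∈ s2, ‖P b c d‖ ^ 2 ≤ m) :
    ∑ a ∈ s0, ∑ d ∈ s3, S4 s1 s2 (fun b c => P b c d * R a b c) ≤
      η ^ 2 * ((s1.card : ℝ) * (p * m)) +
        r ^ 2 * (La ^ 2 * m) * ((s1 ×ˢ s1).filter fun x => Bad x.1 x.2).card := by
  set β : α1 → α1 → ℝ := fun b b' => if Bad b b' then r else η with hβd
  have hβ : ∀ b ∈ s1, ∀ b' ∈ s1, OpB s2 s0 (NR R b b') (β b b') := by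
    intro b hb b' hb'
    by_cases h : Bad b b'
    · have : β b b' = r := by simp [hβd, h]
      rw [this]
      exact opB_fibre s0 s1 s2 R r hr h0 h2 b hb b' hb'
    · have : β b b' = η := by simp [hβd, h]
      rw [this]
      exact hgood b hb b' hb' h
  set H : α1 → α1 → ℝ := fun b b' => ∑ d ∈ s3, ∑ c ∈ s2, ‖NP P b b' c d‖ ^ 2 with hHd
  have hH0 : ∀ b b', 0 ≤ H b b' := fun b b' =>
    Finset.sum_nonneg fun d _ => Finset.sum_nonneg fun c _ => by positivity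
  have hH1 : ∀ b ∈ s1, ∀ b' ∈ s1, H b b' ≤ La ^ 2 * m := fun b hb b' hb' =>
    hs_height s2 s3 P b b' La m (hLa b hb) (hm b' hb')
  have hH2 : ∀ b ∈ s1, ∑ b' ∈ s1, H b b' ≤ p * m := fun b hb =>
    hs_partner s1 s2 s3 P b p m hp0 hp (hm b hb)
  have hstep : ∀ b ∈ s1, ∀ b' ∈ s1, β b b' ^ 2 * H b b' ≤
      η ^ 2 * H b b' + r ^ 2 * (La ^ 2 * m) * (if Bad b b' then 1 else 0) := by
    intro b hb b' hb'
    by_cases h : Bad b b'
    · have e1 : β b b' = r := by simp [hβd, h]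
      rw [e1, if_pos h, mul_one]
      have := mul_le_mul_of_nonneg_left (hH1 b hb b' hb') (sq_nonneg r)
      have h3 : 0 ≤ η ^ 2 * H b b' := mul_nonneg (sq_nonneg _) (hH0 _ _)
      linarith
    · have e1 : β b b' = η := by simp [hβd, h]
      rw [e1, if_neg h, mul_zero, add_zero]
  calc ∑ a ∈ s0, ∑ d ∈ s3, S4 s1 s2 (fun b c => P b c d * R a b c)
      ≤ ∑ b ∈ s1, ∑ b' ∈ s1, β b b' ^ 2 * H b b' := pair_le s0 s1 s2 s3 P R β hβ
    _ ≤ ∑ b ∈ s1, ∑ b' ∈ s1,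
        (η ^ 2 * H b b' + r ^ 2 * (La ^ 2 * m) * (if Bad b b' then 1 else 0)) :=
        Finset.sum_le_sum fun b hb => Finset.sum_le_sum fun b' hb' => hstep b hb b' hb'
    _ = η ^ 2 * (∑ b ∈ s1, ∑ b' ∈ s1, H b b') +
        r ^ 2 * (La ^ 2 * m) * ∑ b ∈ s1, ∑ b' ∈ s1, (if Bad b b' then (1 : ℝ) else 0) := by
        simp_rw [Finset.sum_add_distrib, Finset.mul_sum]
    _ ≤ η ^ 2 * ((s1.card : ℝ) * (p * m)) +
        r ^ 2 * (La ^ 2 * m) * ((s1 ×ˢ s1).filter fun x => Bad x.1 x.2).card := by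
        have e2 : ∑ b ∈ s1, ∑ b' ∈ s1, (if Bad b b' then (1 : ℝ) else 0) =
            ((s1 ×ˢ s1).filter fun x => Bad x.1 x.2).card := by
          rw [← Finset.sum_product', Finset.card_filter]
          push_cast
          rfl
        rw [e2]
        have h4 : ∑ b ∈ s1, ∑ b' ∈ s1, H b b' ≤ (s1.card : ℝ) * (p * m) := by
          calc ∑ b ∈ s1, ∑ b' ∈ s1, H b b' ≤ ∑ b ∈ s1, p * m := Finset.sum_le_sum hH2
            _ = (s1.card : ℝ) * (p * m) := by rw [Finset.sum_const, nsmul_eq_mul]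
        have := mul_le_mul_of_nonneg_left h4 (sq_nonneg η)
        linarith

/-- failure of `OpB` gives unit vectors with a large real form. -/
theorem not_opB (s2 : Finset α2) (s0 : Finset α0) (N : α2 → α0 → ℂ) (η : ℝ) (hη : 0 ≤ η)
    (h : ¬ OpB s2 s0 N η) :
    ∃ u : α2 → ℂ, ∃ v : α0 → ℂ, ∑ c ∈ s2, ‖u c‖ ^ 2 ≤ 1 ∧ ∑ a ∈ s0, ‖v a‖ ^ 2 ≤ 1 ∧
      ∃ q : ℝ, η ≤ q ∧ ∑ a ∈ s0, ∑ c ∈ s2, N c a * u c * v a = (q : ℂ) := by
  unfold OpB at h
  push Not at h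
  obtain ⟨f, hf⟩ := h
  set A : ℝ := ∑ c ∈ s2, ‖f c‖ ^ 2 with hA
  set w : α0 → ℂ := fun a => ∑ c ∈ s2, N c a * f c with hw
  set B : ℝ := ∑ a ∈ s0, ‖w a‖ ^ 2 with hB
  have hA0 : 0 ≤ A := Finset.sum_nonneg fun c _ => by positivity
  have hB1 : η ^ 2 * A < B := hf
  have hB0 : 0 < B := lt_of_le_of_lt (mul_nonneg (sq_nonneg _) hA0) hB1
  have hApos : 0 < A := by
    rcases hA0.lt_or_eq with h1 | h1
    · exact h1
    · exfalso
      have h2 : ∀ c ∈ s2, ‖f c‖ ^ 2 = 0 :=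
        (Finset.sum_eq_zero_iff_of_nonneg fun c _ => by positivity).1 h1.symm
      have h3 : ∀ a ∈ s0, ‖w a‖ ^ 2 = 0 := by
        intro a _
        have : w a = 0 := by
          refine Finset.sum_eq_zero fun c hc => ?_
          have := h2 c hc
          have h4 : f c = 0 := by
            rw [sq_eq_zero_iff, norm_eq_zero] at this
            exact this
          rw [h4, mul_zero]
        rw [this]; simp
      have : B = 0 := Finset.sum_eq_zero h3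
      linarith
  have hsA : 0 < Real.sqrt A := Real.sqrt_pos.2 hApos
  have hsB : 0 < Real.sqrt B := Real.sqrt_pos.2 hB0
  have hAA : Real.sqrt A * Real.sqrt A = A := Real.mul_self_sqrt hA0
  have hBB : Real.sqrt B * Real.sqrt B = B := Real.mul_self_sqrt hB0.le
  refine ⟨fun c => f c * ((1 / Real.sqrt A : ℝ) : ℂ),
    fun a => conj (w a) * ((1 / Real.sqrt B : ℝ) : ℂ), ?_, ?_, Real.sqrt B / Real.sqrt A, ?_, ?_⟩
  · have : ∀ c ∈ s2, ‖f c * ((1 / Real.sqrt A : ℝ) : ℂ)‖ ^ 2 = ‖f c‖ ^ 2 * (1 / A) := by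
      intro c _
      rw [norm_mul, mul_pow, Complex.norm_real, Real.norm_eq_abs, sq_abs, div_pow, one_pow,
        Real.sq_sqrt hA0]
    rw [Finset.sum_congr rfl this, ← Finset.sum_mul, ← hA, mul_one_div_cancel hApos.ne']
  · have : ∀ a ∈ s0, ‖conj (w a) * ((1 / Real.sqrt B : ℝ) : ℂ)‖ ^ 2 = ‖w a‖ ^ 2 * (1 / B) := by
      intro a _
      rw [norm_mul, mul_pow, Complex.norm_real, Real.norm_eq_abs, sq_abs, div_pow, one_pow,
        Real.sq_sqrt hB0.le, RCLike.norm_conj]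
    rw [Finset.sum_congr rfl this, ← Finset.sum_mul, ← hB, mul_one_div_cancel hB0.ne']
  · rw [le_div_iff₀ hsA]
    have h5 : (η * Real.sqrt A) ^ 2 ≤ (Real.sqrt B) ^ 2 := by
      rw [mul_pow, Real.sq_sqrt hA0, Real.sq_sqrt hB0.le]
      exact hB1.le
    exact (pow_le_pow_iff_left₀ (mul_nonneg hη hsA.le) hsB.le two_ne_zero).1 h5
  · calc ∑ a ∈ s0, ∑ c ∈ s2, N c a * (f c * ((1 / Real.sqrt A : ℝ) : ℂ)) *
          (conj (w a) * ((1 / Real.sqrt B : ℝ) : ℂ))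
        = ∑ a ∈ s0, (w a * conj (w a)) *
            (((1 / Real.sqrt A : ℝ) : ℂ) * ((1 / Real.sqrt B : ℝ) : ℂ)) := by
          refine Finset.sum_congr rfl fun a _ => ?_
          have : w a = ∑ c ∈ s2, N c a * f c := rfl
          rw [mul_assoc, this, Finset.sum_mul]
          refine Finset.sum_congr rfl fun c _ => ?_
          ring
      _ = (B : ℂ) * (((1 / Real.sqrt A : ℝ) : ℂ) * ((1 / Real.sqrt B : ℝ) : ℂ)) := by
          rw [← Finset.sum_mul, hB]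
          push_cast
          congr 1
          exact Finset.sum_congr rfl fun a _ => Complex.mul_conj' _
      _ = ((Real.sqrt B / Real.sqrt A : ℝ) : ℂ) := by
          rw [← Complex.ofReal_mul, ← Complex.ofReal_mul]
          congr 1
          have h6 := hsB.ne'
          have h7 := hsA.ne'
          calc B * (1 / Real.sqrt A * (1 / Real.sqrt B))
              = (Real.sqrt B * Real.sqrt B) * (1 / Real.sqrt A * (1 / Real.sqrt B)) := by
                rw [hBB]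
            _ = Real.sqrt B / Real.sqrt A := by field_simp

/-- sum of two operators of norm at most `η`. -/
theorem opB_add (s2 : Finset α2) (s0 : Finset α0) (N N' : α2 → α0 → ℂ) (η : ℝ)
    (h : OpB s2 s0 N η) (h' : OpB s2 s0 N' η) :
    OpB s2 s0 (fun c a => N c a + N' c a) (2 * η) := by
  intro f
  have h1 := h f
  have h2 := h' f
  have h3 : ∀ a ∈ s0, ‖∑ c ∈ s2, (N c a + N' c a) * f c‖ ^ 2 ≤
      2 * ‖∑ c ∈ s2, N c a * f c‖ ^ 2 + 2 * ‖∑ c ∈ s2, N' c a * f c‖ ^ 2 := by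
    intro a _
    have e : ∑ c ∈ s2, (N c a + N' c a) * f c =
        ∑ c ∈ s2, N c a * f c + ∑ c ∈ s2, N' c a * f c := by
      rw [← Finset.sum_add_distrib]
      exact Finset.sum_congr rfl fun c _ => by ring
    rw [e]
    have h4 := norm_add_le (∑ c ∈ s2, N c a * f c) (∑ c ∈ s2, N' c a * f c)
    have h5 := norm_nonneg (∑ c ∈ s2, N c a * f c + ∑ c ∈ s2, N' c a * f c)
    nlinarith [sq_nonneg (‖∑ c ∈ s2, N c a * f c‖ - ‖∑ c ∈ s2, N' c a * f c‖)]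
  calc ∑ a ∈ s0, ‖∑ c ∈ s2, (N c a + N' c a) * f c‖ ^ 2
      ≤ ∑ a ∈ s0, (2 * ‖∑ c ∈ s2, N c a * f c‖ ^ 2 + 2 * ‖∑ c ∈ s2, N' c a * f c‖ ^ 2) :=
        Finset.sum_le_sum h3
    _ = 2 * (∑ a ∈ s0, ‖∑ c ∈ s2, N c a * f c‖ ^ 2) +
        2 * ∑ a ∈ s0, ‖∑ c ∈ s2, N' c a * f c‖ ^ 2 := by
        rw [Finset.sum_add_distrib, Finset.mul_sum, Finset.mul_sum]
    _ ≤ (2 * η) ^ 2 * ∑ c ∈ s2, ‖f c‖ ^ 2 := by nlinarith

open Classical in
/-- **the count of the rows with many bad partners**, from the level of the killer against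
vertex-free cells with `n` anchors `psi`: every `b` of `s1` uses one of `n` chosen anchors and
two arbitrary unit line letters. -/
theorem bad_rows (s0 : Finset α0) (s1 : Finset α1) (s2 : Finset α2) (n : ℕ)
    (R : α0 → α1 → α2 → ℂ) (ψ : α1 → α0 → α2 → ℂ) (η gK δ : ℝ) (hη : 0 < η)
    (hgK : 0 ≤ gK)
    (hcell : ∀ (k : Fin n → α1) (κ : α1 → Fin n) (F : α1 → α0 → ℂ) (G : α1 → α2 → ℂ),
      (∀ i, k i ∈ s1) →
      (∀ b ∈ s1, ∑ a ∈ s0, ‖F b a‖ ^ 2 ≤ 1) → (∀ b ∈ s1, ∑ c ∈ s2, ‖G b c‖ ^ 2 ≤ 1) →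
      ‖∑ b ∈ s1, ∑ a ∈ s0, ∑ c ∈ s2,
        R a b c * conj (ψ (k (κ b)) a c) * G b c * F b a‖ ≤ gK)
    (Z : Finset α1) (hZ : Z ⊆ s1)
    (hbad : ∀ b ∈ Z, δ * s1.card ≤
      ((s1.filter fun b' => ¬ OpB s2 s0 (fun c a => R a b c * conj (ψ b' a c)) η).card : ℝ)) :
    η * ((1 - (1 - δ) ^ n) * Z.card) ≤ gK := by
  rcases s1.eq_empty_or_nonempty with hs | hs
  · have hZ0 : Z = ∅ := Finset.subset_empty.1 (hs ▸ hZ)
    subst hZ0
    simpa using hgK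
  by_cases hn : n = 0
  · subst hn
    simpa using hgK
  have : NeZero n := ⟨hn⟩
  set bad : α1 → α1 → Prop := fun b b' =>
    ¬ OpB s2 s0 (fun c a => R a b c * conj (ψ b' a c)) η with hbd
  obtain ⟨k, hk1, hk2⟩ : ∃ k : Fin n → α1, (∀ i, k i ∈ s1) ∧
      (1 - (1 - δ) ^ n) * Z.card ≤ ((Z.filter fun b => ∃ i, bad b (k i)).card : ℝ) := by
    by_contra hcon
    push Not at hcon
    set K := Fintype.piFinset (fun _ : Fin n => s1) with hK
    have hKc : (K.card : ℝ) = (s1.card : ℝ) ^ n := by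
      rw [hK, Fintype.card_piFinset]
      simp
    have hKne : K.Nonempty := Fintype.piFinset_nonempty.2 fun _ => hs
    have h1 : ∑ k ∈ K, ((Z.filter fun b => ∃ i, bad b (k i)).card : ℝ) <
        ∑ k ∈ K, (1 - (1 - δ) ^ n) * (Z.card : ℝ) :=
      Finset.sum_lt_sum_of_nonempty hKne fun k hk => hcon k (Fintype.mem_piFinset.1 hk)
    have h2 : ∑ k ∈ K, ((Z.filter fun b => ∃ i, bad b (k i)).card : ℝ) =
        ∑ b ∈ Z, ((K.filter fun k => ∃ i, bad b (k i)).card : ℝ) := by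
      simp_rw [Finset.card_filter]
      push_cast
      rw [Finset.sum_comm]
    have h3 : ∀ b ∈ Z, (1 - (1 - δ) ^ n) * (s1.card : ℝ) ^ n ≤
        ((K.filter fun k => ∃ i, bad b (k i)).card : ℝ) := by
      intro b hb
      have e : K.filter (fun k => ¬ ∃ i, bad b (k i)) =
          Fintype.piFinset (fun _ : Fin n => s1.filter fun b' => ¬ bad b b') := by
        ext k
        simp only [hK, Finset.mem_filter, Fintype.mem_piFinset, not_exists]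
        exact ⟨fun h i => ⟨h.1 i, h.2 i⟩, fun h => ⟨fun i => (h i).1, fun i => (h i).2⟩⟩
      have e2 : (K.filter fun k => ∃ i, bad b (k i)).card +
          (K.filter fun k => ¬ ∃ i, bad b (k i)).card = K.card :=
        Finset.card_filter_add_card_filter_not _
      have e3 : (s1.filter fun b' => bad b b').card +
          (s1.filter fun b' => ¬ bad b b').card = s1.card :=
        Finset.card_filter_add_card_filter_not _
      have e4 : ((s1.filter fun b' => ¬ bad b b').card : ℝ) ≤ (1 - δ) * s1.card := by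
        have h5 := hbad b hb
        have h6 : ((s1.filter fun b' => bad b b').card : ℝ) +
          ((s1.filter fun b' => ¬ bad b b').card : ℝ) = (s1.card : ℝ) := by exact_mod_cast e3
        have h7 : δ * (s1.card : ℝ) ≤ ((s1.filter fun b' => bad b b').card : ℝ) := h5
        linarith
      have e5 : ((K.filter fun k => ¬ ∃ i, bad b (k i)).card : ℝ) ≤
          ((1 - δ) * s1.card) ^ n := by
        rw [e, Fintype.card_piFinset]
        simp only [Finset.prod_const, Finset.card_univ, Fintype.card_fin]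
        push_cast
        exact pow_le_pow_left₀ (Nat.cast_nonneg _) e4 n
      have e6 : ((K.filter fun k => ∃ i, bad b (k i)).card : ℝ) +
          ((K.filter fun k => ¬ ∃ i, bad b (k i)).card : ℝ) = (s1.card : ℝ) ^ n := by
        rw [← hKc]
        exact_mod_cast e2
      rw [mul_pow] at e5
      linarith
    have h4 : (Z.card : ℝ) * ((1 - (1 - δ) ^ n) * (s1.card : ℝ) ^ n) ≤
        ∑ b ∈ Z, ((K.filter fun k => ∃ i, bad b (k i)).card : ℝ) := by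
      rw [← nsmul_eq_mul]
      exact Finset.card_nsmul_le_sum Z _ _ h3
    rw [h2, Finset.sum_const, nsmul_eq_mul, hKc] at h1
    linarith
  set Z' := Z.filter fun b => ∃ i, bad b (k i) with hZ'
  have hch : ∀ b : α1, ∃ x : Fin n × (α2 → ℂ) × (α0 → ℂ) × ℝ, b ∈ Z' →
      (∑ c ∈ s2, ‖x.2.1 c‖ ^ 2 ≤ 1 ∧ ∑ a ∈ s0, ‖x.2.2.1 a‖ ^ 2 ≤ 1 ∧ η ≤ x.2.2.2 ∧
        ∑ a ∈ s0, ∑ c ∈ s2, R a b c * conj (ψ (k x.1) a c) * x.2.1 c * x.2.2.1 a =
          (x.2.2.2 : ℂ)) := by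
    intro b
    by_cases hb : b ∈ Z'
    · obtain ⟨i, hi⟩ := (Finset.mem_filter.1 hb).2
      obtain ⟨u, v, hu, hv, q, hq, he⟩ := not_opB s2 s0 _ η hη.le hi
      exact ⟨(i, u, v, q), fun _ => ⟨hu, hv, hq, he⟩⟩
    · exact ⟨(0, fun _ => 0, fun _ => 0, 0), fun h => absurd h hb⟩
  choose X hX using hch
  have hZs : Z' ⊆ s1 := (Finset.filter_subset _ _).trans hZ
  have hmain := hcell k (fun b => (X b).1) (fun b a => if b ∈ Z' then (X b).2.2.1 a else 0)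
    (fun b c => if b ∈ Z' then (X b).2.1 c else 0) hk1 (by
      intro b _
      by_cases hb : b ∈ Z'
      · simpa [hb] using (hX b hb).2.1
      · simp [hb]) (by
      intro b _
      by_cases hb : b ∈ Z'
      · simpa [hb] using (hX b hb).1
      · simp [hb])
  have hsum : ∑ b ∈ s1, ∑ a ∈ s0, ∑ c ∈ s2,
      R a b c * conj (ψ (k (X b).1) a c) * (if b ∈ Z' then (X b).2.1 c else 0) *
        (if b ∈ Z' then (X b).2.2.1 a else 0) = ((∑ b ∈ Z', (X b).2.2.2 : ℝ) : ℂ) := by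
    rw [← Finset.sum_subset hZs]
    · push_cast
      refine Finset.sum_congr rfl fun b hb => ?_
      rw [← (hX b hb).2.2.2]
      simp [hb]
    · intro b _ hb
      simp [hb]
  rw [hsum, Complex.norm_real, Real.norm_eq_abs] at hmain
  have h8 : η * (Z'.card : ℝ) ≤ ∑ b ∈ Z', (X b).2.2.2 := by
    have := Finset.card_nsmul_le_sum Z' (fun b => (X b).2.2.2) η fun b hb => (hX b hb).2.2.1
    rw [nsmul_eq_mul] at this
    linarith
  have h9 := le_abs_self (∑ b ∈ Z', (X b).2.2.2)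
  have h10 := mul_le_mul_of_nonneg_left hk2 hη.le
  linarith

/-- monotonicity of `OpB`. -/
theorem opB_mono (s2 : Finset α2) (s0 : Finset α0) (N : α2 → α0 → ℂ) (β η : ℝ) (hβ : 0 ≤ β)
    (h : β ≤ η) (hN : OpB s2 s0 N β) : OpB s2 s0 N η := fun f =>
  (hN f).trans (mul_le_mul_of_nonneg_right (pow_le_pow_left₀ hβ h 2)
    (Finset.sum_nonneg fun c _ => by positivity))

open Classical in
/-- **the pair norm from the cell level of the killer, no height of the killer**.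
`ψ b'` is the anchor of height at most `h` of the slice `b'` of `R`; `τ b b'` bounds the operator
norm of the rest (its `L1` norm, Markov), `T` is the sum over the partners. -/
theorem pair_level (s0 : Finset α0) (s1 : Finset α1) (s2 : Finset α2) (s3 : Finset α3) (n : ℕ)
    (P : α1 → α2 → α3 → ℂ) (R : α0 → α1 → α2 → ℂ) (ψ : α1 → α0 → α2 → ℂ) (τ : α1 → α1 → ℝ)
    (r η La p m gK δ T : ℝ) (hr : 0 ≤ r) (hη : 0 < η) (hp0 : 0 ≤ p) (hm0 : 0 ≤ m)
    (hgK : 0 ≤ gK) (hθ : 0 < 1 - (1 - δ) ^ n)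
    (h0 : ∀ b ∈ s1, ∀ c ∈ s2, ∑ a ∈ s0, ‖R a b c‖ ^ 2 ≤ r)
    (h2 : ∀ a ∈ s0, ∀ b ∈ s1, ∑ c ∈ s2, ‖R a b c‖ ^ 2 ≤ r)
    (hLa : ∀ b ∈ s1, ∀ c ∈ s2, ∀ d ∈ s3, ‖P b c d‖ ≤ La)
    (hp : ∀ c ∈ s2, ∀ d ∈ s3, ∑ b ∈ s1, ‖P b c d‖ ^ 2 ≤ p)
    (hm : ∀ b ∈ s1, ∑ d ∈ s3, ∑ c ∈ s2, ‖P b c d‖ ^ 2 ≤ m)
    (hcell : ∀ (k : Fin n → α1) (κ : α1 → Fin n) (F : α1 → α0 → ℂ) (G : α1 → α2 → ℂ),
      (∀ i, k i ∈ s1) →
      (∀ b ∈ s1, ∑ a ∈ s0, ‖F b a‖ ^ 2 ≤ 1) → (∀ b ∈ s1, ∑ c ∈ s2, ‖G b c‖ ^ 2 ≤ 1) →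
      ‖∑ b ∈ s1, ∑ a ∈ s0, ∑ c ∈ s2,
        R a b c * conj (ψ (k (κ b)) a c) * G b c * F b a‖ ≤ gK)
    (hτ0 : ∀ b ∈ s1, ∀ b' ∈ s1, 0 ≤ τ b b')
    (hτ : ∀ b ∈ s1, ∀ b' ∈ s1,
      OpB s2 s0 (fun c a => R a b c * conj (R a b' c - ψ b' a c)) (τ b b'))
    (hT : ∀ b ∈ s1, ∑ b' ∈ s1, τ b b' ≤ T) :
    ∑ a ∈ s0, ∑ d ∈ s3, S4 s1 s2 (fun b c => P b c d * R a b c) ≤
      (2 * η) ^ 2 * (p * m) * s1.card + r ^ 2 * (p * m) * (gK / (η * (1 - (1 - δ) ^ n))) +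
        r ^ 2 * (La ^ 2 * m) * (δ * s1.card + T / η) * s1.card := by
  set θ : ℝ := 1 - (1 - δ) ^ n with hθd
  set bad : α1 → α1 → Prop := fun b b' =>
    ¬ OpB s2 s0 (fun c a => R a b c * conj (ψ b' a c)) η with hbd
  set Z := s1.filter fun b => δ * (s1.card : ℝ) ≤ ((s1.filter fun b' => bad b b').card : ℝ)
    with hZd
  have hZ := bad_rows s0 s1 s2 n R ψ η gK δ hη hgK hcell Z (Finset.filter_subset _ _)
    fun b hb => (Finset.mem_filter.1 hb).2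
  have hZc : (Z.card : ℝ) ≤ gK / (η * θ) := by
    rw [le_div_iff₀ (mul_pos hη hθ)]
    calc (Z.card : ℝ) * (η * θ) = η * (θ * Z.card) := by ring
      _ ≤ gK := hZ
  set Bd : α1 → α1 → Prop := fun b b' => ¬ OpB s2 s0 (NR R b b') (2 * η) with hBd
  set β : α1 → α1 → ℝ := fun b b' => if Bd b b' then r else 2 * η with hβd
  have hβ : ∀ b ∈ s1, ∀ b' ∈ s1, OpB s2 s0 (NR R b b') (β b b') := by
    intro b hb b' hb'
    by_cases h : Bd b b'
    · have e1 : β b b' = r := by simp [hβd, h]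
      rw [e1]
      exact opB_fibre s0 s1 s2 R r hr h0 h2 b hb b' hb'
    · have e1 : β b b' = 2 * η := by simp [hβd, h]
      rw [e1]
      exact not_not.1 h
  set H : α1 → α1 → ℝ := fun b b' => ∑ d ∈ s3, ∑ c ∈ s2, ‖NP P b b' c d‖ ^ 2 with hHd
  have hH0 : ∀ b b', 0 ≤ H b b' := fun b b' =>
    Finset.sum_nonneg fun d _ => Finset.sum_nonneg fun c _ => by positivity
  have hH1 : ∀ b ∈ s1, ∀ b' ∈ s1, H b b' ≤ La ^ 2 * m := fun b hb b' hb' =>
    hs_height s2 s3 P b b' La m (hLa b hb) (hm b' hb')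
  have hH2 : ∀ b ∈ s1, ∑ b' ∈ s1, H b b' ≤ p * m := fun b hb =>
    hs_partner s1 s2 s3 P b p m hp0 hp (hm b hb)
  have hcount : ∀ b ∈ s1, b ∉ Z →
      ((s1.filter fun b' => Bd b b').card : ℝ) ≤ δ * s1.card + T / η := by
    intro b hb hbZ
    have h3 : ((s1.filter fun b' => bad b b').card : ℝ) < δ * s1.card := by
      by_contra hcon
      exact hbZ (Finset.mem_filter.2 ⟨hb, not_lt.1 hcon⟩)
    have h4 : ((s1.filter fun b' => η < τ b b').card : ℝ) ≤ T / η := by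
      rw [le_div_iff₀ hη]
      calc ((s1.filter fun b' => η < τ b b').card : ℝ) * η
          ≤ ∑ b' ∈ s1.filter fun b' => η < τ b b', τ b b' := by
            have := Finset.card_nsmul_le_sum (s1.filter fun b' => η < τ b b') (τ b) η
              fun b' hb' => (Finset.mem_filter.1 hb').2.le
            rwa [nsmul_eq_mul] at this
        _ ≤ ∑ b' ∈ s1, τ b b' :=
            Finset.sum_le_sum_of_subset_of_nonneg (Finset.filter_subset _ _)
              fun b' hb' _ => hτ0 b hb b' hb'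
        _ ≤ T := hT b hb
    have h5 : (s1.filter fun b' => Bd b b') ⊆
        (s1.filter fun b' => bad b b') ∪ (s1.filter fun b' => η < τ b b') := by
      intro b' hb'
      obtain ⟨hb1, hb2⟩ := Finset.mem_filter.1 hb'
      by_contra hcon
      rw [Finset.mem_union, Finset.mem_filter, Finset.mem_filter, not_or] at hcon
      have g1 : OpB s2 s0 (fun c a => R a b c * conj (ψ b' a c)) η := by
        by_contra h6
        exact hcon.1 ⟨hb1, h6⟩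
      have g2 : τ b b' ≤ η := by
        by_contra h6
        exact hcon.2 ⟨hb1, not_le.1 h6⟩
      have g3 := opB_mono s2 s0 _ (τ b b') η (hτ0 b hb b' hb1) g2 (hτ b hb b' hb1)
      have g4 := opB_add s2 s0 _ _ η g1 g3
      apply hb2
      have e4 : NR R b b' = fun c a => R a b c * conj (ψ b' a c) +
          R a b c * conj (R a b' c - ψ b' a c) := by
        funext c a
        simp only [NR, map_sub]
        ring
      rw [e4]
      exact g4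
    have h6 : ((s1.filter fun b' => Bd b b').card : ℝ) ≤
        ((s1.filter fun b' => bad b b').card : ℝ) +
          ((s1.filter fun b' => η < τ b b').card : ℝ) := by
      exact_mod_cast (Finset.card_le_card h5).trans (Finset.card_union_le _ _)
    linarith
  have hLm : 0 ≤ r ^ 2 * (La ^ 2 * m) := by positivity
  have hpm : 0 ≤ p * m := mul_nonneg hp0 hm0
  have hrow : ∀ b ∈ s1, ∑ b' ∈ s1, β b b' ^ 2 * H b b' ≤
      (2 * η) ^ 2 * (p * m) + r ^ 2 * (p * m) * (if b ∈ Z then 1 else 0) +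
        r ^ 2 * (La ^ 2 * m) * (δ * s1.card + T / η) := by
    intro b hb
    have hT0 : 0 ≤ T := (Finset.sum_nonneg fun b' hb' => hτ0 b hb b' hb').trans (hT b hb)
    by_cases hbZ : b ∈ Z
    · rw [if_pos hbZ, mul_one]
      have h3 : ∀ b' ∈ s1, β b b' ^ 2 * H b b' ≤
          (2 * η) ^ 2 * H b b' + r ^ 2 * H b b' := by
        intro b' _
        by_cases h : Bd b b'
        · have e1 : β b b' = r := by simp [hβd, h]
          rw [e1]
          have := mul_nonneg (sq_nonneg (2 * η)) (hH0 b b')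
          linarith
        · have e1 : β b b' = 2 * η := by simp [hβd, h]
          rw [e1]
          have := mul_nonneg (sq_nonneg r) (hH0 b b')
          linarith
      have h4 : ∑ b' ∈ s1, β b b' ^ 2 * H b b' ≤
          (2 * η) ^ 2 * (p * m) + r ^ 2 * (p * m) := by
        calc ∑ b' ∈ s1, β b b' ^ 2 * H b b'
            ≤ ∑ b' ∈ s1, ((2 * η) ^ 2 * H b b' + r ^ 2 * H b b') := Finset.sum_le_sum h3
          _ = ((2 * η) ^ 2 + r ^ 2) * ∑ b' ∈ s1, H b b' := by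
              rw [Finset.mul_sum]
              exact Finset.sum_congr rfl fun b' _ => by ring
          _ ≤ ((2 * η) ^ 2 + r ^ 2) * (p * m) :=
              mul_le_mul_of_nonneg_left (hH2 b hb) (by positivity)
          _ = (2 * η) ^ 2 * (p * m) + r ^ 2 * (p * m) := by ring
      have h5 : 0 ≤ δ * (s1.card : ℝ) + T / η := by
        have h6 : 0 ≤ δ := by
          by_contra hneg
          have h7 : 1 ≤ (1 - δ) ^ n := one_le_pow₀ (by linarith)
          linarith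
        positivity
      have h8 := mul_nonneg hLm h5
      linarith
    · rw [if_neg hbZ, mul_zero, add_zero]
      have h3 : ∀ b' ∈ s1, β b b' ^ 2 * H b b' ≤
          (2 * η) ^ 2 * H b b' + r ^ 2 * (La ^ 2 * m) * (if Bd b b' then 1 else 0) := by
        intro b' hb'
        by_cases h : Bd b b'
        · have e1 : β b b' = r := by simp [hβd, h]
          rw [e1, if_pos h, mul_one]
          have h5 := mul_nonneg (sq_nonneg (2 * η)) (hH0 b b')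
          have h6 := mul_le_mul_of_nonneg_left (hH1 b hb b' hb') (sq_nonneg r)
          linarith
        · have e1 : β b b' = 2 * η := by simp [hβd, h]
          rw [e1, if_neg h, mul_zero, add_zero]
      calc ∑ b' ∈ s1, β b b' ^ 2 * H b b'
          ≤ ∑ b' ∈ s1, ((2 * η) ^ 2 * H b b' +
              r ^ 2 * (La ^ 2 * m) * (if Bd b b' then 1 else 0)) := Finset.sum_le_sum h3
        _ = (2 * η) ^ 2 * (∑ b' ∈ s1, H b b') +
              r ^ 2 * (La ^ 2 * m) * ((s1.filter fun b' => Bd b b').card : ℝ) := by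
            rw [Finset.sum_add_distrib, Finset.card_filter, ← Finset.mul_sum, ← Finset.mul_sum]
            push_cast
            rfl
        _ ≤ (2 * η) ^ 2 * (p * m) + r ^ 2 * (La ^ 2 * m) * (δ * s1.card + T / η) :=
            add_le_add (mul_le_mul_of_nonneg_left (hH2 b hb) (sq_nonneg _))
              (mul_le_mul_of_nonneg_left (hcount b hb hbZ) hLm)
  have hZ1 : ∑ b ∈ s1, (if b ∈ Z then (1 : ℝ) else 0) = Z.card := by
    have hZsub : Z ⊆ s1 := Finset.filter_subset _ _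
    rw [Finset.sum_ite_mem, Finset.inter_eq_right.2 hZsub, Finset.sum_const, nsmul_eq_mul,
      mul_one]
  calc ∑ a ∈ s0, ∑ d ∈ s3, S4 s1 s2 (fun b c => P b c d * R a b c)
      ≤ ∑ b ∈ s1, ∑ b' ∈ s1, β b b' ^ 2 * H b b' := pair_le s0 s1 s2 s3 P R β hβ
    _ ≤ ∑ b ∈ s1, ((2 * η) ^ 2 * (p * m) + r ^ 2 * (p * m) * (if b ∈ Z then 1 else 0) +
        r ^ 2 * (La ^ 2 * m) * (δ * s1.card + T / η)) := Finset.sum_le_sum hrow
    _ = (2 * η) ^ 2 * (p * m) * s1.card + r ^ 2 * (p * m) * Z.card +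
        r ^ 2 * (La ^ 2 * m) * (δ * s1.card + T / η) * s1.card := by
        have e7 : ∑ b ∈ s1, r ^ 2 * (p * m) * (if b ∈ Z then (1 : ℝ) else 0) =
            r ^ 2 * (p * m) * Z.card := by rw [← Finset.mul_sum, hZ1]
        rw [Finset.sum_add_distrib, Finset.sum_add_distrib, e7, Finset.sum_const,
          Finset.sum_const, nsmul_eq_mul, nsmul_eq_mul]
        ring
    _ ≤ (2 * η) ^ 2 * (p * m) * s1.card + r ^ 2 * (p * m) * (gK / (η * θ)) +
        r ^ 2 * (La ^ 2 * m) * (δ * s1.card + T / η) * s1.card := by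
        have := mul_le_mul_of_nonneg_left hZc (mul_nonneg (sq_nonneg r) hpm)
        linarith

end Crest.Agent.R079.S4pair307
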