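import Crest.Agent.R079.RelW_653

/-! R079, HEIGHTS (helper291; text of 540, message 28030 (1)): a third, `L¹`, cost in the REL / LASSO.

`cv K Φ L` = infimal convolution of a penalty `Φ` (walls `K`) with the cost `L * a1 p T` (`T` an
arbitrary letter, `a1` = local `L¹` average).  It is again an admissible penalty (no walls), and the
near-minimisers may be taken with residual `‖X y - f p y‖ ≤ L / 2` POINTWISE (soft threshold). -/

set_option autoImplicit false

namespace Crest.Agent.R079.Soft291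

open Finset Crest.Agent.R079.Grid Crest.Agent.R079.Growth Crest.Agent.R079.QRed
  Crest.Agent.R079.Qh249 Crest.Agent.R079.QVar181 Crest.Agent.R079.TWin Crest.Agent.R079.RelW653

/-- local `L¹` average -/
noncomputable def a1 (p : Nd) (T : Fn) : ℝ := (∑ y ∈ iv p, ‖T y‖) / len p

lemma a1_nonneg (p : Nd) (T : Fn) : 0 ≤ a1 p T :=
  div_nonneg (Finset.sum_nonneg fun _ _ => norm_nonneg _) (Growth.len_pos p).le

lemma a1_congr {p : Nd} {T T' : Fn} (h : ∀ y ∈ iv p, T y = T' y) : a1 p T = a1 p T' := by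
  unfold a1
  rw [Finset.sum_congr rfl fun y hy => by rw [h y hy]]

lemma a1_add (p : Nd) (T T' : Fn) : a1 p (fun y => T y + T' y) ≤ a1 p T + a1 p T' := by
  unfold a1
  rw [← add_div]
  refine div_le_div_of_nonneg_right ?_ (Growth.len_pos p).le
  rw [← Finset.sum_add_distrib]
  exact Finset.sum_le_sum fun y _ => norm_add_le _ _

lemma a1_mid (p : Nd) (T T' : Fn) :
    a1 p (fun y => (T y + T' y) / 2) ≤ (a1 p T + a1 p T') / 2 := by
  have h0 : ∀ y ∈ iv p, ‖(T y + T' y) / 2‖ = ‖T y + T' y‖ / 2 := fun y _ => by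
    rw [norm_div]
    simp
  have h : a1 p (fun y => (T y + T' y) / 2) = a1 p (fun y => T y + T' y) / 2 := by
    unfold a1
    rw [Finset.sum_congr rfl h0, ← Finset.sum_div]
    ring
  rw [h]
  have := a1_add p T T'
  linarith

lemma a1_zero (p : Nd) : a1 p (fun _ => 0) = 0 := by
  unfold a1
  simp

lemma a1_ch (m : ℕ) (l : ℤ) (T : Fn) :
    a1 (m + 1, l) T = (a1 (m, 2 * l) T + a1 (m, 2 * l + 1) T) / 2 := by
  unfold a1
  have h0 : len (m + 1, l) = 2 * len (m, 2 * l) := len_ch m l _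
  have h1 : len (m, 2 * l + 1) = len (m, 2 * l) := rfl
  have hp := Growth.len_pos (m, 2 * l)
  rw [iv_ch, Finset.sum_union (disj_ch m l), h0, h1]
  field_simp

/-- the values of the infimal convolution -/
def vs (K : Nd → Fn → Prop) (Φ : Nd → Fn → ℝ) (L : ℝ) (p : Nd) (g : Fn) : Set ℝ :=
  {r | ∃ T : Fn, K p (fun y => g y - T y) ∧ Φ p (fun y => g y - T y) + L * a1 p T = r}

/-- infimal convolution of the penalty with the `L¹` cost -/
noncomputable def cv (K : Nd → Fn → Prop) (Φ : Nd → Fn → ℝ) (L : ℝ) (p : Nd) (g : Fn) : ℝ :=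
  sInf (vs K Φ L p g)

section facts

variable {K : Nd → Fn → Prop} {Φ : Nd → Fn → ℝ} {L : ℝ}

lemma vs_nonneg (hP : Pen K Φ) (hL : 0 ≤ L) (p : Nd) (g : Fn) : ∀ r ∈ vs K Φ L p g, 0 ≤ r := by
  rintro r ⟨T, _, rfl⟩
  exact add_nonneg (hP.nonneg _ _) (mul_nonneg hL (a1_nonneg _ _))

lemma vs_bdd (hP : Pen K Φ) (hL : 0 ≤ L) (p : Nd) (g : Fn) : BddBelow (vs K Φ L p g) :=
  ⟨0, vs_nonneg hP hL p g⟩

lemma vs_nonempty (hP : Pen K Φ) (p : Nd) (g : Fn) : (vs K Φ L p g).Nonempty := by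
  refine ⟨_, g, ?_, rfl⟩
  have := hP.Kzero p
  simpa using this

lemma cv_le (hP : Pen K Φ) (hL : 0 ≤ L) (p : Nd) (g T : Fn) (h : K p (fun y => g y - T y)) :
    cv K Φ L p g ≤ Φ p (fun y => g y - T y) + L * a1 p T :=
  csInf_le (vs_bdd hP hL p g) ⟨T, h, rfl⟩

lemma exists_T (hP : Pen K Φ) (p : Nd) (g : Fn) {δ : ℝ} (hδ : 0 < δ) :
    ∃ T : Fn, K p (fun y => g y - T y) ∧
      Φ p (fun y => g y - T y) + L * a1 p T < cv K Φ L p g + δ := by
  obtain ⟨r, ⟨T, hT, rfl⟩, hr⟩ := Real.lt_sInf_add_pos (vs_nonempty (L := L) hP p g) hδ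
  exact ⟨T, hT, hr⟩

lemma cv_nonneg (hP : Pen K Φ) (hL : 0 ≤ L) (p : Nd) (g : Fn) : 0 ≤ cv K Φ L p g :=
  le_csInf (vs_nonempty hP p g) (vs_nonneg hP hL p g)

/-- adding a letter `e` costs at most its `L¹` cost -/
lemma cv_add (hP : Pen K Φ) (hL : 0 ≤ L) (p : Nd) (g e : Fn) :
    cv K Φ L p (fun y => g y + e y) ≤ cv K Φ L p g + L * a1 p e := by
  refine le_of_forall_pos_le_add fun δ hδ => ?_
  obtain ⟨T, hT, hr⟩ := exists_T (L := L) hP p g hδ
  have e1 : (fun y => g y + e y - (T y + e y)) = fun y => g y - T y := by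
    funext y; ring
  have h1 := cv_le (L := L) hP hL p (fun y => g y + e y) (fun y => T y + e y) (by rw [e1]; exact hT)
  rw [e1] at h1
  have h2 := mul_le_mul_of_nonneg_left (a1_add p T e) hL
  linarith

/-- **the infimal convolution is an admissible penalty** -/
theorem pen_cv (hP : Pen K Φ) (hL : 0 ≤ L) : Pen (fun _ _ => True) (cv K Φ L) where
  nonneg := cv_nonneg hP hL
  loc p g g' h := by
    have key : vs K Φ L p g = vs K Φ L p g' := by
      ext r
      constructor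
      · rintro ⟨T, hT, rfl⟩
        have h1 : ∀ y ∈ iv p, (fun y => g y - T y) y = (fun y => g' y - T y) y := fun y hy => by
          simp only [h y hy]
        exact ⟨T, hP.Kloc _ _ _ h1 hT, by rw [hP.loc _ _ _ h1]⟩
      · rintro ⟨T, hT, rfl⟩
        have h1 : ∀ y ∈ iv p, (fun y => g' y - T y) y = (fun y => g y - T y) y := fun y hy => by
          simp only [h y hy]
        exact ⟨T, hP.Kloc _ _ _ h1 hT, by rw [hP.loc _ _ _ h1]⟩
    unfold cv
    rw [key]
  mid p g g' := by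
    refine le_of_forall_pos_le_add fun δ hδ => ?_
    obtain ⟨T, hT, hr⟩ := exists_T (L := L) hP p g hδ
    obtain ⟨T', hT', hr'⟩ := exists_T (L := L) hP p g' hδ
    have e1 : (fun y => (g y + g' y) / 2 - (T y + T' y) / 2)
        = fun y => ((fun y => g y - T y) y + (fun y => g' y - T' y) y) / 2 := by
      funext y; ring
    have hK := hP.Kmid p _ _ hT hT'
    have h1 := cv_le (L := L) hP hL p (fun y => (g y + g' y) / 2) (fun y => (T y + T' y) / 2)
      (by rw [e1]; exact hK)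
    rw [e1] at h1
    have h2 := hP.mid p (fun y => g y - T y) (fun y => g' y - T' y)
    have h3 := mul_le_mul_of_nonneg_left (a1_mid p T T') hL
    linarith
  glue m l g := by
    classical
    refine le_of_forall_pos_le_add fun δ hδ => ?_
    obtain ⟨T, hT, hr⟩ := exists_T (L := L) hP (m, 2 * l) g hδ
    obtain ⟨T', hT', hr'⟩ := exists_T (L := L) hP (m, 2 * l + 1) g hδ
    set Z : Fn := fun y => if y ∈ iv (m, 2 * l) then T y else T' y with hZ
    have z0 : ∀ y ∈ iv (m, 2 * l), T y = Z y := fun y hy => by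
      rw [hZ]; simp only [if_pos hy]
    have z1 : ∀ y ∈ iv (m, 2 * l + 1), T' y = Z y := fun y hy => by
      have : y ∉ iv (m, 2 * l) := fun h' => Finset.disjoint_left.1 (disj_ch m l) h' hy
      rw [hZ]; simp only [if_neg this]
    have w0 : ∀ y ∈ iv (m, 2 * l), (fun y => g y - T y) y = (fun y => g y - Z y) y :=
      fun y hy => by simp only [z0 y hy]
    have w1 : ∀ y ∈ iv (m, 2 * l + 1), (fun y => g y - T' y) y = (fun y => g y - Z y) y :=
      fun y hy => by simp only [z1 y hy]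
    have hK := hP.Kglue m l (fun y => g y - Z y) (hP.Kloc _ _ _ w0 hT) (hP.Kloc _ _ _ w1 hT')
    have h1 := cv_le (L := L) hP hL (m + 1, l) g Z hK
    have h2 := hP.glue m l (fun y => g y - Z y)
    rw [← hP.loc _ _ _ w0, ← hP.loc _ _ _ w1] at h2
    have h3 := a1_ch m l Z
    rw [← a1_congr z0, ← a1_congr z1] at h3
    rw [h3] at h1
    linarith
  zero p := by
    refine le_antisymm ?_ (cv_nonneg hP hL p _)
    have h := cv_le (L := L) hP hL p (fun _ => 0) (fun _ => 0) (by simpa using hP.Kzero p)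
    have e0 : (fun y : ℤ => ((fun _ => 0 : Fn) y - (fun _ => 0 : Fn) y)) = fun _ => 0 := by
      funext y; simp
    have h0 := hP.zero p
    have e1 := a1_zero p
    simp only [sub_self] at h
    rw [h0, e1] at h
    linarith
  Kloc _ _ _ _ _ := trivial
  Kmid _ _ _ _ _ := trivial
  Kglue _ _ _ _ _ := trivial
  Kzero _ := trivial

end facts

/-! ### soft threshold -/

/-- clip at height `c` -/
noncomputable def sc (c : ℝ) (z : ℂ) : ℂ := if ‖z‖ ≤ c then z else ((c / ‖z‖ : ℝ) : ℂ) * z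

lemma norm_sc_le {c : ℝ} (hc : 0 ≤ c) (z : ℂ) : ‖sc c z‖ ≤ c := by
  unfold sc
  split_ifs with h
  · exact h
  · push Not at h
    have hz : 0 < ‖z‖ := lt_of_le_of_lt hc h
    rw [norm_mul, Complex.norm_real, Real.norm_of_nonneg (div_nonneg hc hz.le),
      div_mul_cancel₀ _ hz.ne']

/-- the clip pays its `L¹` cost -/
lemma sc_gain {c : ℝ} (hc : 0 ≤ c) (z : ℂ) :
    ‖sc c z‖ ^ 2 + 2 * c * ‖z - sc c z‖ ≤ ‖z‖ ^ 2 := by
  unfold sc
  split_ifs with h
  · simp
  · push Not at h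
    have hz : 0 < ‖z‖ := lt_of_le_of_lt hc h
    have e1 : ‖((c / ‖z‖ : ℝ) : ℂ) * z‖ = c := by
      rw [norm_mul, Complex.norm_real, Real.norm_of_nonneg (div_nonneg hc hz.le),
        div_mul_cancel₀ _ hz.ne']
    have e2 : ‖z - ((c / ‖z‖ : ℝ) : ℂ) * z‖ = ‖z‖ - c := by
      have h1 : z - ((c / ‖z‖ : ℝ) : ℂ) * z = (((1 - c / ‖z‖ : ℝ)) : ℂ) * z := by
        push_cast; ring
      have h2 : 0 ≤ 1 - c / ‖z‖ := by
        rw [sub_nonneg, div_le_one hz]; exact h.le
      rw [h1, norm_mul, Complex.norm_real, Real.norm_of_nonneg h2, sub_mul, one_mul,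
        div_mul_cancel₀ _ hz.ne']
    rw [e1, e2]
    nlinarith [sq_nonneg (‖z‖ - c)]

/-- near-minimisers with clipped residual -/
noncomputable def cl (X : Fn) (c : ℝ) (f : Nd → Fn) : Nd → Fn :=
  fun p y => X y - sc c (X y - f p y)

lemma res_cl (X : Fn) (c : ℝ) (f : Nd → Fn) (p : Nd) (y : ℤ) :
    X y - cl X c f p y = sc c (X y - f p y) := by
  unfold cl; ring

/-- **clipping the residual lowers the functional** -/
theorem vl_cl {K : Nd → Fn → Prop} {Φ : Nd → Fn → ℝ} {L : ℝ} (hP : Pen K Φ) (hL : 0 ≤ L)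
    (X : Fn) (f : Nd → Fn) (p : Nd) :
    vl (cv K Φ L) X p (cl X (L / 2) f p) ≤ vl (cv K Φ L) X p (f p) := by
  have hc : 0 ≤ L / 2 := by linarith
  have hp := Growth.len_pos p
  set e : Fn := fun y => (X y - f p y) - sc (L / 2) (X y - f p y) with he
  have e1 : cl X (L / 2) f p = fun y => f p y + e y := by
    funext y; simp only [cl, he]; ring
  have h1 := cv_add (L := L) hP hL p (f p) e
  rw [← e1] at h1
  have h2 : len p * (av p (fun y => X y - cl X (L / 2) f p y) ^ 2 + L * a1 p e)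
      ≤ len p * av p (fun y => X y - f p y) ^ 2 := by
    rw [mul_add, ← sum_av', ← sum_av']
    have h3 : len p * (L * a1 p e) = ∑ y ∈ iv p, L * ‖e y‖ := by
      unfold a1
      rw [← Finset.mul_sum]
      field_simp
    rw [h3, ← Finset.sum_add_distrib]
    refine Finset.sum_le_sum fun y _ => ?_
    rw [res_cl]
    have := sc_gain hc (X y - f p y)
    have e3 : 2 * (L / 2) = L := by ring
    rw [e3] at this
    exact this
  have h4 := le_of_mul_le_mul_left h2 hp
  unfold vl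
  linarith

/-- **soft threshold**: near-minimisers with residual bounded by `L / 2` at every point -/
theorem nmp_cl {K : Nd → Fn → Prop} {Φ : Nd → Fn → ℝ} {L : ℝ} (hP : Pen K Φ) (hL : 0 ≤ L)
    {X : Fn} {η : ℝ} {f : Nd → Fn} (h : NMP (fun _ _ => True) (cv K Φ L) X η f) :
    NMP (fun _ _ => True) (cv K Φ L) X η (cl X (L / 2) f) ∧
      ∀ p y, ‖X y - cl X (L / 2) f p y‖ ≤ L / 2 := by
  refine ⟨⟨h.eta, fun _ => trivial, fun p g hg => ?_⟩, fun p y => ?_⟩
  · exact (vl_cl hP hL X f p).trans (h.le p g hg)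
  · rw [res_cl]
    exact norm_sc_le (by linarith) _

theorem exists_soft {K : Nd → Fn → Prop} {Φ : Nd → Fn → ℝ} {L : ℝ} (hP : Pen K Φ) (hL : 0 ≤ L)
    (X : Fn) {η : ℝ} (hη : 0 < η) : ∃ f : Nd → Fn,
      NMP (fun _ _ => True) (cv K Φ L) X η f ∧ (∀ p y, ‖X y - f p y‖ ≤ L / 2) ∧
      ∀ p, ∃ T : Fn, K p (fun y => f p y - T y) ∧
        Φ p (fun y => f p y - T y) + L * a1 p T ≤ av p X ^ 2 + 2 * η := by
  obtain ⟨f, hf⟩ := exists_NMP (pen_cv hP hL) X hη
  obtain ⟨h1, h2⟩ := nmp_cl hP hL hf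
  refine ⟨_, h1, h2, fun p => ?_⟩
  obtain ⟨T, hT, hr⟩ := exists_T (L := L) hP p (cl X (L / 2) f p) hη
  refine ⟨T, hT, ?_⟩
  have h3 := pen_leP (pen_cv hP hL) h1 p
  linarith

end Crest.Agent.R079.Soft291
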