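import Mathlib

/-! R079, doc 2531 STEP II (II.3), FIXED METRIC form (130 / 945 / 224): matrix facts.  helper834.

`qf G x = re ⟨x, G x⟩`, `n2 x = |x|²` (labels `ι` = any finite type, any `RCLike` field).
`cs_metric`, `captured`, `leafB`, `hs_form`.  No dimension enters any constant. -/

set_option autoImplicit false
set_option linter.unusedVariables false
set_option linter.unusedSectionVars false

namespace Crest.Agent.R079.St2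

open Matrix Finset
open scoped ComplexOrder MatrixOrder

variable {𝕜 : Type*} [RCLike 𝕜] {ι : Type*} [Fintype ι] [DecidableEq ι]

/-- real quadratic form `re ⟨x, G x⟩` -/
noncomputable def qf (G : Matrix ι ι 𝕜) (x : ι → 𝕜) : ℝ := RCLike.re (star x ⬝ᵥ (G *ᵥ x))

/-- `|x|²` -/
noncomputable def n2 (x : ι → 𝕜) : ℝ := ∑ i, ‖x i‖ ^ 2

theorem n2_nonneg (x : ι → 𝕜) : 0 ≤ n2 x := Finset.sum_nonneg fun _ _ => by positivity

theorem dot_self (x : ι → 𝕜) : star x ⬝ᵥ x = ((n2 x : ℝ) : 𝕜) := by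
  unfold n2
  simp only [dotProduct, Pi.star_apply, RCLike.star_def]
  push_cast
  exact Finset.sum_congr rfl fun i _ => by rw [RCLike.conj_mul]

theorem qf_one (x : ι → 𝕜) : qf (1 : Matrix ι ι 𝕜) x = n2 x := by
  unfold qf
  rw [one_mulVec, dot_self, RCLike.ofReal_re]

theorem qf_add_mat (G K : Matrix ι ι 𝕜) (x : ι → 𝕜) : qf (G + K) x = qf G x + qf K x := by
  unfold qf
  rw [add_mulVec, dotProduct_add, map_add]

theorem qf_sub_mat (G K : Matrix ι ι 𝕜) (x : ι → 𝕜) : qf (G - K) x = qf G x - qf K x := by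
  unfold qf
  rw [sub_mulVec, dotProduct_sub, map_sub]

theorem qf_smul_mat (c : ℝ) (G : Matrix ι ι 𝕜) (x : ι → 𝕜) :
    qf ((c : 𝕜) • G) x = c * qf G x := by
  unfold qf
  rw [smul_mulVec, dotProduct_smul, smul_eq_mul, RCLike.re_ofReal_mul]

/-- the metric `M + τ` -/
noncomputable def met (M : Matrix ι ι 𝕜) (τ : ℝ) : Matrix ι ι 𝕜 := M + (τ : 𝕜) • 1

theorem qf_met (M : Matrix ι ι 𝕜) (τ : ℝ) (x : ι → 𝕜) :
    qf (met M τ) x = qf M x + τ * n2 x := by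
  unfold met
  rw [qf_add_mat, qf_smul_mat, qf_one]

theorem qf_nonneg {G : Matrix ι ι 𝕜} (hG : G.PosSemidef) (x : ι → 𝕜) : 0 ≤ qf G x := by
  have h := hG.dotProduct_mulVec_nonneg x
  have := (RCLike.nonneg_iff.mp h).1
  exact this

theorem met_posDef {M : Matrix ι ι 𝕜} (hM : M.PosSemidef) {τ : ℝ} (hτ : 0 < τ) :
    (met M τ).PosDef := by
  unfold met
  refine PosDef.posSemidef_add hM ?_
  refine PosDef.smul PosDef.one ?_
  exact (RCLike.ofReal_pos (K := 𝕜)).mpr hτ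

/-- factorisation of a PSD matrix -/
theorem exists_fac {G : Matrix ι ι 𝕜} (hG : G.PosSemidef) : ∃ X : Matrix ι ι 𝕜, G = Xᴴ * X := by
  obtain ⟨X, hX, -, h⟩ :=
    CFC.exists_sqrt_of_isSelfAdjoint_of_quasispectrumRestricts hG.isHermitian
      (QuasispectrumRestricts.nnreal_of_nonneg hG.nonneg)
  refine ⟨X, ?_⟩
  have h2 : Xᴴ = X := hX
  rw [h2]
  first
  | exact h
  | exact h.symm

theorem dot_fac (X : Matrix ι ι 𝕜) (x z : ι → 𝕜) :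
    star x ⬝ᵥ ((Xᴴ * X) *ᵥ z) = star (X *ᵥ x) ⬝ᵥ (X *ᵥ z) := by
  rw [← mulVec_mulVec, dotProduct_mulVec, star_mulVec]

/-- plain Cauchy-Schwarz -/
theorem dot_cs (x y : ι → 𝕜) : ‖star x ⬝ᵥ y‖ ^ 2 ≤ n2 x * n2 y := by
  have h1 : ‖star x ⬝ᵥ y‖ ≤ ∑ i, ‖x i‖ * ‖y i‖ := by
    unfold dotProduct
    refine (norm_sum_le _ _).trans (le_of_eq (Finset.sum_congr rfl fun i _ => ?_))
    rw [norm_mul, Pi.star_apply, norm_star]
  have h2 : (∑ i, ‖x i‖ * ‖y i‖) ^ 2 ≤ n2 x * n2 y := Finset.sum_mul_sq_le_sq_mul_sq _ _ _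
  calc ‖star x ⬝ᵥ y‖ ^ 2 ≤ (∑ i, ‖x i‖ * ‖y i‖) ^ 2 := by
        exact pow_le_pow_left₀ (norm_nonneg _) h1 2
    _ ≤ _ := h2

/-- Cauchy-Schwarz for a PSD form -/
theorem form_cs {G : Matrix ι ι 𝕜} (hG : G.PosSemidef) (x z : ι → 𝕜) :
    ‖star x ⬝ᵥ (G *ᵥ z)‖ ^ 2 ≤ qf G x * qf G z := by
  obtain ⟨X, rfl⟩ := exists_fac hG
  have e : ∀ u : ι → 𝕜, qf (Xᴴ * X) u = n2 (X *ᵥ u) := by
    intro u
    unfold qf
    rw [dot_fac, dot_self, RCLike.ofReal_re]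
  rw [dot_fac, e, e]
  exact dot_cs _ _

/-- `⟨y, G⁻¹ y⟩ = ⟨z, G z⟩` for `z = G⁻¹ y` -/
theorem qf_inv {G : Matrix ι ι 𝕜} (hG : G.PosDef) (y : ι → 𝕜) :
    qf G⁻¹ y = qf G (G⁻¹ *ᵥ y) := by
  have hdet : IsUnit G.det := (Matrix.isUnit_iff_isUnit_det G).mp hG.isUnit
  have h1 : G *ᵥ (G⁻¹ *ᵥ y) = y := by
    rw [mulVec_mulVec, mul_nonsing_inv G hdet, one_mulVec]
  unfold qf
  rw [h1]
  rw [← RCLike.conj_re (star (G⁻¹ *ᵥ y) ⬝ᵥ y)]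
  congr 1
  rw [← RCLike.star_def, star_dotProduct]

/-- **Cauchy-Schwarz in a fixed metric** -/
theorem cs_metric {G : Matrix ι ι 𝕜} (hG : G.PosDef) (x y : ι → 𝕜) :
    ‖star x ⬝ᵥ y‖ ^ 2 ≤ qf G x * qf G⁻¹ y := by
  have hdet : IsUnit G.det := (Matrix.isUnit_iff_isUnit_det G).mp hG.isUnit
  have h1 : G *ᵥ (G⁻¹ *ᵥ y) = y := by
    rw [mulVec_mulVec, mul_nonsing_inv G hdet, one_mulVec]
  have h := form_cs hG.posSemidef x (G⁻¹ *ᵥ y)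
  rw [h1] at h
  rw [qf_inv hG]
  exact h

theorem cs_metric' {G : Matrix ι ι 𝕜} (hG : G.PosDef) (x y : ι → 𝕜) :
    ‖star x ⬝ᵥ y‖ ≤ Real.sqrt (qf G x) * Real.sqrt (qf G⁻¹ y) := by
  have h := cs_metric hG x y
  rw [← Real.sqrt_mul (qf_nonneg hG.posSemidef x)]
  exact Real.le_sqrt_of_sq_le h

section avg

variable {κ : Type*} (s : Finset κ)

/-- weighted average of vectors -/
noncomputable def wv (c : κ → 𝕜) (v : κ → ι → 𝕜) : ι → 𝕜 := fun i => ∑ k ∈ s, c k * v k i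

theorem dot_wv (z : ι → 𝕜) (c : κ → 𝕜) (v : κ → ι → 𝕜) :
    star z ⬝ᵥ wv s c v = ∑ k ∈ s, c k * (star z ⬝ᵥ v k) := by
  unfold wv dotProduct
  simp only [Finset.mul_sum]
  rw [Finset.sum_comm]
  exact Finset.sum_congr rfl fun k _ => Finset.sum_congr rfl fun i _ => by ring

/-- **CAPTURE BOUND**: `y = a ∑ β_k v_k`, `a ∑ |⟨z, v_k⟩|² ≤ ⟨z, M z⟩ + δ |z|²` for all `z`
⟹ `⟨y, (M+τ)⁻¹ y⟩ ≤ (1 + δ/τ) a ∑ |β_k|²`. -/
theorem captured {M : Matrix ι ι 𝕜} (hM : M.PosSemidef) {τ δ a : ℝ} (hτ : 0 < τ) (hδ : 0 ≤ δ)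
    (ha : 0 ≤ a) (β : κ → 𝕜) (v : κ → ι → 𝕜)
    (h : ∀ z : ι → 𝕜, a * ∑ k ∈ s, ‖star z ⬝ᵥ v k‖ ^ 2 ≤ qf M z + δ * n2 z) :
    qf (met M τ)⁻¹ (wv s (fun k => (a : 𝕜) * β k) v) ≤ (1 + δ / τ) * (a * ∑ k ∈ s, ‖β k‖ ^ 2) := by
  set G := met M τ with hG
  have hGp : G.PosDef := met_posDef hM hτ
  set y := wv s (fun k => (a : 𝕜) * β k) v with hy
  set z := G⁻¹ *ᵥ y with hz
  have hdet : IsUnit G.det := (Matrix.isUnit_iff_isUnit_det G).mp hGp.isUnit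
  have h1 : G *ᵥ z = y := by
    rw [hz, mulVec_mulVec, mul_nonsing_inv G hdet, one_mulVec]
  have hS : qf G⁻¹ y = qf G z := qf_inv hGp y
  set S := qf G z with hSd
  have hS0 : 0 ≤ S := qf_nonneg hGp.posSemidef z
  -- S = re ⟨z, y⟩
  have h2 : S = RCLike.re (star z ⬝ᵥ y) := by
    rw [hSd]; unfold qf; rw [h1]
  have h3 : S ≤ a * ∑ k ∈ s, ‖β k‖ * ‖star z ⬝ᵥ v k‖ := by
    rw [h2, hy, dot_wv]
    refine (RCLike.re_le_norm _).trans ?_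
    refine (norm_sum_le _ _).trans ?_
    rw [Finset.mul_sum]
    refine le_of_eq (Finset.sum_congr rfl fun k _ => ?_)
    rw [norm_mul, norm_mul, RCLike.norm_ofReal, abs_of_nonneg ha, mul_assoc]
  have h4 : (∑ k ∈ s, ‖β k‖ * ‖star z ⬝ᵥ v k‖) ^ 2 ≤
      (∑ k ∈ s, ‖β k‖ ^ 2) * ∑ k ∈ s, ‖star z ⬝ᵥ v k‖ ^ 2 := Finset.sum_mul_sq_le_sq_mul_sq _ _ _
  have h5 : a * ∑ k ∈ s, ‖star z ⬝ᵥ v k‖ ^ 2 ≤ (1 + δ / τ) * S := by
    refine (h z).trans ?_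
    have e : S = qf M z + τ * n2 z := by rw [hSd, hG, qf_met]
    rw [e]
    have hq := qf_nonneg hM z
    have hn := n2_nonneg z
    have : (1 + δ / τ) * (qf M z + τ * n2 z) =
        qf M z + δ * n2 z + (δ / τ * qf M z + τ * n2 z) := by
      field_simp; ring
    rw [this]
    have : 0 ≤ δ / τ * qf M z + τ * n2 z := by positivity
    linarith
  set B := ∑ k ∈ s, ‖β k‖ ^ 2 with hB
  have hB0 : 0 ≤ B := Finset.sum_nonneg fun _ _ => by positivity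
  set V := ∑ k ∈ s, ‖star z ⬝ᵥ v k‖ ^ 2 with hV
  have hV0 : 0 ≤ V := Finset.sum_nonneg fun _ _ => by positivity
  set T := ∑ k ∈ s, ‖β k‖ * ‖star z ⬝ᵥ v k‖ with hT
  have hT0 : 0 ≤ T := Finset.sum_nonneg fun _ _ => by positivity
  rw [hS]
  by_contra hc
  push Not at hc
  have hSpos : 0 < S := lt_of_le_of_lt (by positivity) hc
  have h6 : S ^ 2 ≤ (a * B) * (a * V) := by
    calc S ^ 2 ≤ (a * T) ^ 2 := pow_le_pow_left₀ hS0 h3 2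
      _ = a ^ 2 * T ^ 2 := by ring
      _ ≤ a ^ 2 * (B * V) := mul_le_mul_of_nonneg_left h4 (by positivity)
      _ = _ := by ring
  have h7 : S ^ 2 ≤ (a * B) * ((1 + δ / τ) * S) :=
    h6.trans (mul_le_mul_of_nonneg_left h5 (by positivity))
  have h8 : S ≤ (1 + δ / τ) * (a * B) := by
    have : S * S ≤ ((1 + δ / τ) * (a * B)) * S := by nlinarith [h7]
    exact le_of_mul_le_mul_right this hSpos
  linarith

/-- **LEAF BOUND for the other letter**: `⟨x,(M+τ)x⟩ ≤ a∑|⟨x,v_k⟩|² + (δ+τ)|x|²` -/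
theorem leafB {M : Matrix ι ι 𝕜} {τ δ a : ℝ} (v : κ → ι → 𝕜) (x : ι → 𝕜)
    (h : qf M x ≤ a * ∑ k ∈ s, ‖star x ⬝ᵥ v k‖ ^ 2 + δ * n2 x) :
    qf (met M τ) x ≤ a * ∑ k ∈ s, ‖star x ⬝ᵥ v k‖ ^ 2 + (δ + τ) * n2 x := by
  rw [qf_met]
  linarith [h]

/-- Gram matrix `a ∑ v_k v_k*` -/
noncomputable def gr (a : ℝ) (v : κ → ι → 𝕜) : Matrix ι ι 𝕜 :=
  fun i j => (a : 𝕜) * ∑ k ∈ s, v k i * star (v k j)

theorem gr_mulVec (a : ℝ) (v : κ → ι → 𝕜) (x : ι → 𝕜) :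
    gr s a v *ᵥ x = fun i => (a : 𝕜) * ∑ k ∈ s, (star (v k) ⬝ᵥ x) * v k i := by
  funext i
  unfold gr mulVec dotProduct
  simp only [Finset.mul_sum, Finset.sum_mul, Pi.star_apply]
  rw [Finset.sum_comm]
  exact Finset.sum_congr rfl fun k _ => Finset.sum_congr rfl fun j _ => by ring

theorem qf_gr (a : ℝ) (v : κ → ι → 𝕜) (x : ι → 𝕜) :
    qf (gr s a v) x = a * ∑ k ∈ s, ‖star x ⬝ᵥ v k‖ ^ 2 := by
  unfold qf
  rw [gr_mulVec]
  have : star x ⬝ᵥ (fun i => (a : 𝕜) * ∑ k ∈ s, (star (v k) ⬝ᵥ x) * v k i) =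
      (a : 𝕜) * ∑ k ∈ s, (star (v k) ⬝ᵥ x) * (star x ⬝ᵥ v k) := by
    simp only [dotProduct, Finset.mul_sum]
    rw [Finset.sum_comm]
    refine Finset.sum_congr rfl fun k _ => Finset.sum_congr rfl fun i _ => ?_
    ring
  rw [this, RCLike.re_ofReal_mul, map_sum]
  congr 1
  refine Finset.sum_congr rfl fun k _ => ?_
  have e : star (v k) ⬝ᵥ x = (starRingEnd 𝕜) (star x ⬝ᵥ v k) := by
    rw [← RCLike.star_def, star_dotProduct]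
  rw [e, RCLike.conj_mul]
  norm_cast

theorem gr_posSemidef {a : ℝ} (ha : 0 ≤ a) (v : κ → ι → 𝕜) : (gr s a v).PosSemidef := by
  have h : gr s a v = (a : 𝕜) • ∑ k ∈ s, vecMulVec (v k) (star (v k)) := by
    ext i j
    simp [gr, Matrix.sum_apply, vecMulVec_apply]
  rw [h]
  refine PosSemidef.smul (posSemidef_sum _ fun k _ => posSemidef_vecMulVec_self_star _) ?_
  exact (RCLike.ofReal_nonneg (K := 𝕜)).mpr ha

end avg

/-- Hilbert-Schmidt bound of the form -/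
theorem hs_form (D : Matrix ι ι 𝕜) {δ : ℝ} (hδ : 0 ≤ δ)
    (h : ∑ i, ∑ j, ‖D i j‖ ^ 2 ≤ δ ^ 2) (x : ι → 𝕜) : |qf D x| ≤ δ * n2 x := by
  have h1 : |qf D x| ≤ ‖star x ⬝ᵥ (D *ᵥ x)‖ := by
    unfold qf
    exact RCLike.abs_re_le_norm _
  have h2 := dot_cs x (D *ᵥ x)
  have h3 : n2 (D *ᵥ x) ≤ δ ^ 2 * n2 x := by
    have : n2 (D *ᵥ x) ≤ ∑ i, (∑ j, ‖D i j‖ ^ 2) * n2 x := by
      unfold n2
      refine Finset.sum_le_sum fun i _ => ?_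
      have e1 : ‖(D *ᵥ x) i‖ ≤ ∑ j, ‖D i j‖ * ‖x j‖ := by
        unfold mulVec dotProduct
        refine (norm_sum_le _ _).trans (le_of_eq (Finset.sum_congr rfl fun j _ => norm_mul _ _))
      calc ‖(D *ᵥ x) i‖ ^ 2 ≤ (∑ j, ‖D i j‖ * ‖x j‖) ^ 2 :=
            pow_le_pow_left₀ (norm_nonneg _) e1 2
        _ ≤ _ := Finset.sum_mul_sq_le_sq_mul_sq _ _ _
    rw [← Finset.sum_mul] at this
    exact this.trans (mul_le_mul_of_nonneg_right h (n2_nonneg x))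
  have hn := n2_nonneg x
  have h4 : ‖star x ⬝ᵥ (D *ᵥ x)‖ ^ 2 ≤ (δ * n2 x) ^ 2 := by
    refine h2.trans ?_
    calc n2 x * n2 (D *ᵥ x) ≤ n2 x * (δ ^ 2 * n2 x) := mul_le_mul_of_nonneg_left h3 hn
      _ = _ := by ring
  exact h1.trans (abs_le_of_sq_le_sq' h4 (by positivity)).2

end Crest.Agent.R079.St2
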