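import Crest.Agent.R079.PWin_590

/-! R079, doc 2531 (787), STEP II.1 in the LINE model (helper117): the LINE-ADDITIVE static functional.

`Ω` = finite index set of all `(g, x_i, x_a, x_b)`, `loc ω` = line position of the killer, `C ω` = kernel
(gauge times killer), `ro ω` = row index `(g, x_i, x_a)`, `co ω` = column index `(g, x_i, x_b)`.
Admissible states do NOT depend on the node: `Z ω = ∑ U (ro ω) i * V (co ω) i`, pointwise
`|U|² ≤ k ≤ H`, `|V|² ≤ k' ≤ H`.  `Φ_p = ∑_{loc ω ∈ iv p} wt (2 Re C conj Z - |Z|² - θ (k + k'))` is a sum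
of line densities, so the supremum `J_p` is subadditive and near-maximisers give static windows. -/

set_option autoImplicit false
set_option linter.unusedSectionVars false

namespace Crest.Agent.R079.StF117

open Finset Crest.Agent.R079.Grid Crest.Agent.R079.Growth Crest.Agent.R079.QRed Crest.Agent.R079.TWin

/-- data -/
structure Dat (Ω A B : Type) where
  loc : Ω → ℤ
  ro : Ω → A
  co : Ω → B
  wt : Ω → ℝ
  C : Ω → ℂ

/-- state: kernel and the two diagonals -/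
structure St (Ω A B : Type) where
  Z : Ω → ℂ
  k : A → ℝ
  k' : B → ℝ

variable {Ω A B : Type} [Fintype Ω]

/-- admissible states (independent of the node) -/
def Adm (D : Dat Ω A B) (H : ℝ) (s : St Ω A B) : Prop :=
  ∃ (ι : Type) (_ : Fintype ι) (U : A → ι → ℂ) (V : B → ι → ℂ),
    (∀ ω, s.Z ω = ∑ i, U (D.ro ω) i * V (D.co ω) i) ∧
    (∀ a, ∑ i, ‖U a i‖ ^ 2 ≤ s.k a) ∧ (∀ b, ∑ i, ‖V b i‖ ^ 2 ≤ s.k' b) ∧
    (∀ a, s.k a ≤ H) ∧ (∀ b, s.k' b ≤ H)

/-- sum over the indices located in the node -/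
noncomputable def ls (D : Dat Ω A B) (f : Ω → ℝ) (p : Nd) : ℝ :=
  ∑ ω ∈ univ.filter (fun ω => D.loc ω ∈ iv p), f ω

/-- density of the functional -/
noncomputable def den (D : Dat Ω A B) (θ : ℝ) (s : St Ω A B) (ω : Ω) : ℝ :=
  D.wt ω * (2 * (D.C ω * (starRingEnd ℂ) (s.Z ω)).re - ‖s.Z ω‖ ^ 2 -
    θ * (s.k (D.ro ω) + s.k' (D.co ω)))

/-- the functional at a node -/
noncomputable def Phi (D : Dat Ω A B) (θ : ℝ) (s : St Ω A B) (p : Nd) : ℝ := ls D (den D θ s) p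

/-- energy of the kernel -/
noncomputable def En (D : Dat Ω A B) (X : Ω → ℂ) (p : Nd) : ℝ := ls D (fun ω => D.wt ω * ‖X ω‖ ^ 2) p

/-- the supremum -/
noncomputable def Js (D : Dat Ω A B) (H θ : ℝ) (p : Nd) : ℝ :=
  sSup {x | ∃ s, Adm D H s ∧ Phi D θ s p = x}

lemma ls_mono {D : Dat Ω A B} {f g : Ω → ℝ} (h : ∀ ω, f ω ≤ g ω) (p : Nd) : ls D f p ≤ ls D g p :=
  Finset.sum_le_sum fun ω _ => h ω

lemma ls_nonneg {D : Dat Ω A B} {f : Ω → ℝ} (h : ∀ ω, 0 ≤ f ω) (p : Nd) : 0 ≤ ls D f p :=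
  Finset.sum_nonneg fun ω _ => h ω

lemma ls_add (D : Dat Ω A B) (f g : Ω → ℝ) (p : Nd) :
    ls D (fun ω => f ω + g ω) p = ls D f p + ls D g p := Finset.sum_add_distrib

lemma ls_smul (D : Dat Ω A B) (c : ℝ) (f : Ω → ℝ) (p : Nd) :
    ls D (fun ω => c * f ω) p = c * ls D f p := by
  unfold ls; rw [Finset.mul_sum]

/-- sums of line densities -/
lemma ls_eq (D : Dat Ω A B) (f : Ω → ℝ) (p : Nd) :
    ls D f p = ∑ y ∈ iv p, ∑ ω ∈ univ.filter (fun ω => D.loc ω = y), f ω := by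
  classical
  unfold ls
  rw [← Finset.sum_fiberwise_of_maps_to (s := univ.filter (fun ω => D.loc ω ∈ iv p)) (t := iv p)
    (g := D.loc) (fun ω hω => (Finset.mem_filter.1 hω).2)]
  refine Finset.sum_congr rfl fun y hy => Finset.sum_congr ?_ fun _ _ => rfl
  ext ω
  simp only [Finset.mem_filter, Finset.mem_univ, true_and]
  constructor
  · rintro ⟨_, h⟩; exact h
  · intro h; exact ⟨h ▸ hy, h⟩

lemma ls_leaves {W : Finset Nd} {I : Nd} (hW : Full W I) (D : Dat Ω A B) (f : Ω → ℝ) :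
    ∑ L ∈ lf W, ls D f L = ls D f I := by
  have h := sum_SL hW (fun y => ∑ ω ∈ univ.filter (fun ω => D.loc ω = y), f ω)
    (fun L => ls D f L / len L) (fun L _ => by
      rw [← ls_eq, mul_div_cancel₀ _ (Growth.len_pos L).ne']) I hW.top
  rw [ls_eq D f I, h, ← PWin.SL_top hW]
  exact Finset.sum_congr rfl fun L _ => by rw [mul_div_cancel₀ _ (Growth.len_pos L).ne']

/-! ### admissible states -/

lemma Adm.k_nonneg {D : Dat Ω A B} {H : ℝ} {s : St Ω A B} (h : Adm D H s) (a : A) : 0 ≤ s.k a := by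
  obtain ⟨ι, _, U, V, _, h1, _⟩ := h
  exact (Finset.sum_nonneg fun i _ => by positivity).trans (h1 a)

lemma Adm.k'_nonneg {D : Dat Ω A B} {H : ℝ} {s : St Ω A B} (h : Adm D H s) (b : B) :
    0 ≤ s.k' b := by
  obtain ⟨ι, _, U, V, _, _, h2, _⟩ := h
  exact (Finset.sum_nonneg fun i _ => by positivity).trans (h2 b)

lemma Adm.norm_le {D : Dat Ω A B} {H : ℝ} {s : St Ω A B} (h : Adm D H s) (ω : Ω) :
    ‖s.Z ω‖ ≤ H := by
  obtain ⟨ι, _, U, V, hZ, h1, h2, h3, h4⟩ := h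
  rw [hZ ω]
  have e : ‖∑ i, U (D.ro ω) i * V (D.co ω) i‖ ≤ ∑ i, ‖U (D.ro ω) i‖ * ‖V (D.co ω) i‖ :=
    (norm_sum_le _ _).trans (le_of_eq (Finset.sum_congr rfl fun i _ => norm_mul _ _))
  have e2 : ∑ i, ‖U (D.ro ω) i‖ * ‖V (D.co ω) i‖ ≤
      ∑ i, (‖U (D.ro ω) i‖ ^ 2 + ‖V (D.co ω) i‖ ^ 2) / 2 :=
    Finset.sum_le_sum fun i _ => by nlinarith [sq_nonneg (‖U (D.ro ω) i‖ - ‖V (D.co ω) i‖)]
  have e3 : ∑ i, (‖U (D.ro ω) i‖ ^ 2 + ‖V (D.co ω) i‖ ^ 2) / 2 =
      ((∑ i, ‖U (D.ro ω) i‖ ^ 2) + ∑ i, ‖V (D.co ω) i‖ ^ 2) / 2 := by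
    rw [← Finset.sum_add_distrib, Finset.sum_div]
  have := h1 (D.ro ω); have := h2 (D.co ω); have := h3 (D.ro ω); have := h4 (D.co ω)
  linarith

/-- the zero state -/
def zero : St Ω A B := ⟨fun _ => 0, fun _ => 0, fun _ => 0⟩

lemma adm_zero {D : Dat Ω A B} {H : ℝ} (hH : 0 ≤ H) : Adm D H (zero : St Ω A B) :=
  ⟨Empty, inferInstance, fun _ i => i.elim, fun _ i => i.elim, fun _ => by simp [zero],
    fun _ => by simp [zero], fun _ => by simp [zero], fun _ => hH, fun _ => hH⟩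

/-- convex combination -/
noncomputable def comb (r : ℝ) (s t : St Ω A B) : St Ω A B :=
  ⟨fun ω => (r : ℂ) * s.Z ω + ((1 - r : ℝ) : ℂ) * t.Z ω, fun a => r * s.k a + (1 - r) * t.k a,
    fun b => r * s.k' b + (1 - r) * t.k' b⟩

lemma norm_sqrt_sq (r : ℝ) (hr : 0 ≤ r) (z : ℂ) : ‖((Real.sqrt r : ℝ) : ℂ) * z‖ ^ 2 = r * ‖z‖ ^ 2 := by
  rw [norm_mul, mul_pow, Complex.norm_real, Real.norm_of_nonneg (Real.sqrt_nonneg _),
    Real.sq_sqrt hr]

lemma sqrt_mul_sqrt (r : ℝ) (hr : 0 ≤ r) (z w : ℂ) :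
    ((Real.sqrt r : ℝ) : ℂ) * z * (((Real.sqrt r : ℝ) : ℂ) * w) = (r : ℂ) * (z * w) := by
  have : ((Real.sqrt r : ℝ) : ℂ) * ((Real.sqrt r : ℝ) : ℂ) = (r : ℂ) := by
    rw [← Complex.ofReal_mul, Real.mul_self_sqrt hr]
  linear_combination (z * w) * this

lemma adm_comb {D : Dat Ω A B} {H r : ℝ} (h0 : 0 ≤ r) (h1 : r ≤ 1) {s t : St Ω A B}
    (hs : Adm D H s) (ht : Adm D H t) : Adm D H (comb r s t) := by
  obtain ⟨ι, i1, U, V, hZ, hU, hV, hk, hk'⟩ := hs
  obtain ⟨ι', i2, U', V', hZ', hU', hV', hl, hl'⟩ := ht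
  have h1' : 0 ≤ 1 - r := by linarith
  refine ⟨ι ⊕ ι', inferInstance,
    fun a => Sum.elim (fun i => ((Real.sqrt r : ℝ) : ℂ) * U a i)
      (fun i => ((Real.sqrt (1 - r) : ℝ) : ℂ) * U' a i),
    fun b => Sum.elim (fun i => ((Real.sqrt r : ℝ) : ℂ) * V b i)
      (fun i => ((Real.sqrt (1 - r) : ℝ) : ℂ) * V' b i), ?_, ?_, ?_, ?_, ?_⟩
  · intro ω
    simp only [comb, Fintype.sum_sum_type, Sum.elim_inl, Sum.elim_inr]
    rw [hZ ω, hZ' ω, Finset.mul_sum, Finset.mul_sum]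
    congr 1
    · exact Finset.sum_congr rfl fun i _ => (sqrt_mul_sqrt r h0 _ _).symm
    · exact Finset.sum_congr rfl fun i _ => (sqrt_mul_sqrt (1 - r) h1' _ _).symm
  · intro a
    simp only [comb, Fintype.sum_sum_type, Sum.elim_inl, Sum.elim_inr, norm_sqrt_sq r h0,
      norm_sqrt_sq (1 - r) h1', ← Finset.mul_sum]
    exact add_le_add (mul_le_mul_of_nonneg_left (hU a) h0) (mul_le_mul_of_nonneg_left (hU' a) h1')
  · intro b
    simp only [comb, Fintype.sum_sum_type, Sum.elim_inl, Sum.elim_inr, norm_sqrt_sq r h0,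
      norm_sqrt_sq (1 - r) h1', ← Finset.mul_sum]
    exact add_le_add (mul_le_mul_of_nonneg_left (hV b) h0) (mul_le_mul_of_nonneg_left (hV' b) h1')
  · intro a
    have := mul_le_mul_of_nonneg_left (hk a) h0
    have := mul_le_mul_of_nonneg_left (hl a) h1'
    simp only [comb]; linarith
  · intro b
    have := mul_le_mul_of_nonneg_left (hk' b) h0
    have := mul_le_mul_of_nonneg_left (hl' b) h1'
    simp only [comb]; linarith

lemma den_comb (D : Dat Ω A B) (θ r : ℝ) (s t : St Ω A B) (ω : Ω) :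
    den D θ (comb r s t) ω = r * den D θ s ω + (1 - r) * den D θ t ω +
      r * (1 - r) * (D.wt ω * ‖s.Z ω - t.Z ω‖ ^ 2) := by
  unfold den comb
  simp only [← Complex.normSq_eq_norm_sq, Complex.normSq_apply, Complex.add_re, Complex.add_im,
    Complex.sub_re, Complex.sub_im, Complex.mul_re, Complex.mul_im, Complex.ofReal_re,
    Complex.ofReal_im, map_add, map_mul, Complex.conj_ofReal, Complex.conj_re, Complex.conj_im]
  ring

lemma Phi_comb (D : Dat Ω A B) (θ r : ℝ) (s t : St Ω A B) (p : Nd) :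
    Phi D θ (comb r s t) p = r * Phi D θ s p + (1 - r) * Phi D θ t p +
      r * (1 - r) * En D (fun ω => s.Z ω - t.Z ω) p := by
  unfold Phi En
  rw [← ls_smul, ← ls_smul, ← ls_smul, ← ls_add, ← ls_add]
  unfold ls
  exact Finset.sum_congr rfl fun ω _ => den_comb D θ r s t ω

lemma Phi_le {D : Dat Ω A B} (hw : ∀ ω, 0 ≤ D.wt ω) {H θ : ℝ} (hθ : 0 ≤ θ) {s : St Ω A B}
    (hs : Adm D H s) (p : Nd) : Phi D θ s p ≤ En D D.C p := by
  refine ls_mono (fun ω => ?_) p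
  unfold den
  refine mul_le_mul_of_nonneg_left ?_ (hw ω)
  have h1 := hs.k_nonneg (D.ro ω)
  have h2 := hs.k'_nonneg (D.co ω)
  have h3 : 0 ≤ θ * (s.k (D.ro ω) + s.k' (D.co ω)) := mul_nonneg hθ (by linarith)
  have h4 : 2 * (D.C ω * (starRingEnd ℂ) (s.Z ω)).re - ‖s.Z ω‖ ^ 2 ≤ ‖D.C ω‖ ^ 2 := by
    simp only [← Complex.normSq_eq_norm_sq, Complex.normSq_apply, Complex.mul_re, Complex.conj_re,
      Complex.conj_im]
    nlinarith [sq_nonneg ((D.C ω).re - (s.Z ω).re), sq_nonneg ((D.C ω).im - (s.Z ω).im)]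
  linarith

lemma En_nonneg {D : Dat Ω A B} (hw : ∀ ω, 0 ≤ D.wt ω) (X : Ω → ℂ) (p : Nd) : 0 ≤ En D X p :=
  ls_nonneg (fun ω => mul_nonneg (hw ω) (by positivity)) p

section sup

variable {D : Dat Ω A B} {H θ : ℝ}

lemma bdd (hw : ∀ ω, 0 ≤ D.wt ω) (hθ : 0 ≤ θ) (p : Nd) :
    BddAbove {x | ∃ s, Adm D H s ∧ Phi D θ s p = x} :=
  ⟨En D D.C p, by rintro x ⟨s, hs, rfl⟩; exact Phi_le hw hθ hs p⟩

lemma Phi_le_Js (hw : ∀ ω, 0 ≤ D.wt ω) (hθ : 0 ≤ θ) {s : St Ω A B} (hs : Adm D H s) (p : Nd) :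
    Phi D θ s p ≤ Js D H θ p := le_csSup (bdd hw hθ p) ⟨s, hs, rfl⟩

lemma Phi_zero (p : Nd) : Phi D θ (zero : St Ω A B) p = 0 := by
  unfold Phi ls
  exact Finset.sum_eq_zero fun ω _ => by simp [den, zero]

lemma Js_nonneg (hw : ∀ ω, 0 ≤ D.wt ω) (hθ : 0 ≤ θ) (hH : 0 ≤ H) (p : Nd) : 0 ≤ Js D H θ p := by
  have := Phi_le_Js hw hθ (adm_zero (D := D) hH) p
  rwa [Phi_zero] at this

lemma Js_le (hw : ∀ ω, 0 ≤ D.wt ω) (hθ : 0 ≤ θ) (hH : 0 ≤ H) (p : Nd) :
    Js D H θ p ≤ En D D.C p :=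
  csSup_le ⟨_, zero, adm_zero hH, rfl⟩ (by rintro x ⟨s, hs, rfl⟩; exact Phi_le hw hθ hs p)

/-- near-maximiser -/
def NM (D : Dat Ω A B) (H θ η : ℝ) (p : Nd) (s : St Ω A B) : Prop :=
  Adm D H s ∧ Js D H θ p ≤ Phi D θ s p + η * len p

lemma exists_NM (hH : 0 ≤ H) {η : ℝ} (hη : 0 < η) (p : Nd) :
    ∃ s, NM D H θ η p s := by
  have hpos : 0 < η * len p := mul_pos hη (Growth.len_pos p)
  obtain ⟨x, ⟨s, hs, rfl⟩, hx⟩ := exists_lt_of_lt_csSup
    (s := {x | ∃ s, Adm D H s ∧ Phi D θ s p = x}) ⟨_, zero, adm_zero hH, rfl⟩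
    (show Js D H θ p - η * len p < _ by
      change Js D H θ p - η * len p < Js D H θ p
      linarith)
  exact ⟨s, hs, by linarith⟩

lemma NM.mono {η η' : ℝ} {p : Nd} {s : St Ω A B} (h : NM D H θ η p s) (hη : η ≤ η') :
    NM D H θ η' p s :=
  ⟨h.1, h.2.trans (by have := mul_le_mul_of_nonneg_right hη (Growth.len_pos p).le; linarith)⟩

/-- **strong concavity** -/
lemma NM.strong (hw : ∀ ω, 0 ≤ D.wt ω) (hθ : 0 ≤ θ) {η : ℝ} {p : Nd} {sp s : St Ω A B}
    (hp : NM D H θ η p sp) (hs : Adm D H s) :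
    En D (fun ω => s.Z ω - sp.Z ω) p ≤ 2 * (Js D H θ p - Phi D θ s p) + 2 * (η * len p) := by
  have h1 := Phi_le_Js hw hθ (adm_comb (r := 1 / 2) (by norm_num) (by norm_num) hs hp.1) p
  rw [Phi_comb] at h1
  have h2 := hp.2
  linarith

/-- **STATIC WINDOWS**: near-maximisers `s p` at all nodes ⟹ partition into windows on which the
kernel of the top is `δ`-close (in energy) to the kernel of EVERY node. -/
theorem windows (hw : ∀ ω, 0 ≤ D.wt ω) (hθ : 0 ≤ θ) (hH : 0 ≤ H) {R : Finset Nd} {J : Nd}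
    (hR : Full R J) {S δ η : ℝ} (hS : ∀ p ∈ R, En D D.C p ≤ S * len p) (hδ : 0 < δ)
    (hηδ : η ≤ δ / 16) (s : Nd → St Ω A B) (hs : ∀ p ∈ R, NM D H θ η p (s p)) :
    ∃ (T : Finset Nd) (W : Nd → Finset Nd), Part R T W (2 + 8 * S / δ) ∧
      ∀ K ∈ T, ∀ p ∈ W K, En D (fun ω => (s K).Z ω - (s p).Z ω) p ≤ δ * len p := by
  obtain ⟨T, W, hP, hg⟩ := exists_part (R := R) (J := J)
    (g := fun I p => En D (fun ω => (s I).Z ω - (s p).Z ω) p / len p) (δ := δ) hR
    (P := fun p => 2 * (S - Js D H θ p / len p)) (P₀ := 2 * S) hδ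
    (fun p hp => by
      have h1 := (Js_le hw hθ hH p).trans (hS p hp)
      have h2 : Js D H θ p / len p ≤ S := by rwa [div_le_iff₀ (Growth.len_pos p)]
      linarith)
    (fun p hp => by
      have h2 : 0 ≤ Js D H θ p / len p := div_nonneg (Js_nonneg hw hθ hH p) (Growth.len_pos p).le
      linarith)
    (fun I p => div_nonneg (En_nonneg hw _ p) (Growth.len_pos p).le)
    (fun I => by
      have : En D (fun ω => (s I).Z ω - (s I).Z ω) I = 0 := by
        unfold En ls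
        exact Finset.sum_eq_zero fun ω _ => by simp
      rw [this, zero_div]; exact hδ.le)
    (by
      intro I hI V hV hVR
      have hleaf : ∀ p ∈ lf V, len p * (En D (fun ω => (s I).Z ω - (s p).Z ω) p / len p +
          2 * (S - Js D H θ p / len p)) ≤
          len p * (2 * S + 2 * η) - 2 * Phi D θ (s I) p := by
        intro p hp
        have hpV : p ∈ V := (Finset.mem_filter.1 hp).1
        have h1 := (hs p (hVR hpV)).strong hw hθ (hs I hI).1
        have hl := Growth.len_pos p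
        have e1 : len p * (En D (fun ω => (s I).Z ω - (s p).Z ω) p / len p +
            2 * (S - Js D H θ p / len p)) =
            En D (fun ω => (s I).Z ω - (s p).Z ω) p + 2 * (S * len p - Js D H θ p) := by
          field_simp
        rw [e1]; linarith
      refine (Finset.sum_le_sum hleaf).trans ?_
      rw [Finset.sum_sub_distrib, ← Finset.sum_mul, ← Finset.mul_sum]
      have e2 : ∑ L ∈ lf V, Phi D θ (s I) L = Phi D θ (s I) I := ls_leaves hV D _
      have e3 : ∑ L ∈ lf V, len L = len I := by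
        have := SL_const hV 1 I hV.top
        rw [← PWin.SL_top hV] at this
        simpa using this
      rw [e2, e3]
      have h3 := (hs I hI).2
      have hl := Growth.len_pos I
      have e4 : len I * (2 * (S - Js D H θ I / len I) + δ / 4) =
          2 * (S * len I - Js D H θ I) + δ / 4 * len I := by
        field_simp
      rw [e4]
      have h5 : 4 * η * len I ≤ δ / 4 * len I := mul_le_mul_of_nonneg_right (by linarith) hl.le
      linarith)
  refine ⟨T, W, ?_, fun K hK p hp => ?_⟩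
  · have : 2 + 4 * (2 * S) / δ = 2 + 8 * S / δ := by ring
    rw [← this]; exact hP
  · have := hg K hK p hp
    rwa [div_le_iff₀ (Growth.len_pos p)] at this

/-! ### certificate -/

/-- pairing -/
noncomputable def pr (D : Dat Ω A B) (X Y : Ω → ℂ) (p : Nd) : ℝ :=
  ls D (fun ω => D.wt ω * (X ω * (starRingEnd ℂ) (Y ω)).re) p

/-- cost of a state -/
noncomputable def cost (D : Dat Ω A B) (s : St Ω A B) (p : Nd) : ℝ :=
  ls D (fun ω => D.wt ω * (s.k (D.ro ω) + s.k' (D.co ω))) p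

/-- **CERTIFICATE** at a node: the residual `C - Z_p` against every admissible test state -/
def Cert (D : Dat Ω A B) (H θ η₀ : ℝ) (p : Nd) (s : St Ω A B) : Prop :=
  ∀ s0, Adm D H s0 → 2 * pr D (fun ω => D.C ω - s.Z ω) s0.Z p ≤
    θ * cost D s0 p + En D D.C p + η₀ * len p

lemma cert_aux (hw : ∀ ω, 0 ≤ D.wt ω) (hθ : 0 ≤ θ) {p : Nd} {sp s0 : St Ω A B} {η r : ℝ}
    (hp : NM D H θ η p sp) (hs : Adm D H s0) (h0 : 0 < r) (h1 : r ≤ 1) :
    2 * pr D (fun ω => D.C ω - sp.Z ω) s0.Z p ≤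
      θ * cost D s0 p + En D D.C p + (η / r * len p + r * En D (fun ω => s0.Z ω - sp.Z ω) p) := by
  have a1 := Phi_le_Js hw hθ (adm_comb (r := r) h0.le h1 hs hp.1) p
  rw [Phi_comb] at a1
  have a2 := hp.2
  set E := En D (fun ω => s0.Z ω - sp.Z ω) p with hE
  have a3 : r * (Phi D θ s0 p - Phi D θ sp p + E) ≤ η * len p + r * (r * E) := by nlinarith
  have a4 : Phi D θ s0 p - Phi D θ sp p + E ≤ η / r * len p + r * E := by
    have h2 : r * (η / r * len p + r * E) = η * len p + r * (r * E) := by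
      field_simp
    rw [← h2] at a3
    exact le_of_mul_le_mul_left a3 h0
  have a5 : Phi D θ s0 p + E = 2 * pr D (fun ω => D.C ω - sp.Z ω) s0.Z p - θ * cost D s0 p +
      En D sp.Z p := by
    rw [hE]
    unfold Phi En pr cost
    rw [← ls_smul D 2, ← ls_smul D θ]
    have e : ∀ f g : Ω → ℝ, ls D f p - ls D g p = ls D (fun ω => f ω - g ω) p := fun f g =>
      (Finset.sum_sub_distrib _ _).symm
    rw [← ls_add, e, ← ls_add]
    unfold ls
    refine Finset.sum_congr rfl fun ω _ => ?_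
    unfold den
    simp only [← Complex.normSq_eq_norm_sq, Complex.normSq_apply, Complex.sub_re, Complex.sub_im,
      Complex.mul_re, Complex.conj_re, Complex.conj_im]
    ring
  have a6 : Phi D θ sp p ≤ En D D.C p := Phi_le hw hθ hp.1 p
  have a7 : 0 ≤ En D sp.Z p := En_nonneg hw _ p
  linarith

/-- near-maximisers with certificates exist at every node -/
theorem exists_states (hw : ∀ ω, 0 ≤ D.wt ω) (hθ : 0 ≤ θ) (hH : 0 ≤ H) {η η₀ : ℝ} (hη : 0 < η)
    (hη₀ : 0 < η₀) :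
    ∃ s : Nd → St Ω A B, ∀ p, NM D H θ η p (s p) ∧ Cert D H θ η₀ p (s p) := by
  have key : ∀ p : Nd, ∃ s : St Ω A B, NM D H θ η p s ∧ Cert D H θ η₀ p s := by
    intro p
    have hl := Growth.len_pos p
    set N := ls D D.wt p with hN
    have hN0 : 0 ≤ N := ls_nonneg hw p
    set M := 4 * H ^ 2 * N + 1 with hM
    have hM0 : 0 < M := by positivity
    set r := min 1 (η₀ * len p / 2 / M) with hr
    have hr0 : 0 < r := lt_min one_pos (by positivity)
    have hr1 : r ≤ 1 := min_le_left _ _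
    have hr2 : r * M ≤ η₀ * len p / 2 := by
      have := min_le_right 1 (η₀ * len p / 2 / M)
      rw [← hr] at this
      rwa [le_div_iff₀ hM0] at this
    obtain ⟨s, hs⟩ := exists_NM (D := D) (H := H) (θ := θ) hH
      (η := min η (r * η₀ / 2)) (lt_min hη (by positivity)) p
    refine ⟨s, hs.mono (min_le_left _ _), fun s0 h0 => ?_⟩
    have h1 := cert_aux hw hθ (hs.mono (min_le_right _ _)) h0 hr0 hr1
    have h2 : r * η₀ / 2 / r * len p = η₀ * len p / 2 := by field_simp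
    have h3 : En D (fun ω => s0.Z ω - s.Z ω) p ≤ M := by
      have : En D (fun ω => s0.Z ω - s.Z ω) p ≤ ls D (fun ω => 4 * H ^ 2 * D.wt ω) p := by
        refine ls_mono (fun ω => ?_) p
        have b1 := h0.norm_le ω
        have b2 := hs.1.norm_le ω
        have b3 : ‖s0.Z ω - s.Z ω‖ ≤ 2 * H := (norm_sub_le _ _).trans (by linarith)
        have b4 : ‖s0.Z ω - s.Z ω‖ ^ 2 ≤ (2 * H) ^ 2 := pow_le_pow_left₀ (norm_nonneg _) b3 2
        have := mul_le_mul_of_nonneg_left b4 (hw ω)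
        linarith
      rw [ls_smul] at this
      rw [hM]; linarith
    have h4 : r * En D (fun ω => s0.Z ω - s.Z ω) p ≤ η₀ * len p / 2 :=
      (mul_le_mul_of_nonneg_left h3 hr0.le).trans hr2
    rw [h2] at h1
    linarith
  exact ⟨fun p => (key p).choose, fun p => (key p).choose_spec⟩

end sup

end Crest.Agent.R079.StF117
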