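import Crest.Agent.R079.StF_117

/-! R079, doc 2531, STEP II.1 in the LINE model, part 2 (helper117): ROW and COLUMN bounds of
near-maximisers, independent of the cap `H` (first variation `U a → U a / 2`). -/

set_option autoImplicit false
set_option linter.unusedSectionVars false

namespace Crest.Agent.R079.StF117

open Finset Crest.Agent.R079.Grid Crest.Agent.R079.Growth Crest.Agent.R079.QRed Crest.Agent.R079.TWin

variable {Ω A B : Type} [Fintype Ω]

open Classical in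
/-- row part of `ls` -/
noncomputable def lr (D : Dat Ω A B) (a : A) (f : Ω → ℝ) (p : Nd) : ℝ :=
  ls D (fun ω => if D.ro ω = a then f ω else 0) p

open Classical in
/-- column part of `ls` -/
noncomputable def lc (D : Dat Ω A B) (b : B) (f : Ω → ℝ) (p : Nd) : ℝ :=
  ls D (fun ω => if D.co ω = b then f ω else 0) p

variable {D : Dat Ω A B} {H θ : ℝ}

open Classical in
lemma adm_row {s : St Ω A B} (h : Adm D H s) (a : A) :
    Adm D H ⟨fun ω => if D.ro ω = a then (1 / 2 : ℂ) * s.Z ω else s.Z ω, s.k, s.k'⟩ := by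
  obtain ⟨ι, i1, U, V, hZ, hU, hV, hk, hk'⟩ := h
  refine ⟨ι, i1, fun a' i => if a' = a then (1 / 2 : ℂ) * U a' i else U a' i, V, ?_, ?_, hV, hk,
    hk'⟩
  · intro ω
    simp only
    by_cases e : D.ro ω = a
    · simp only [if_pos e, hZ ω, Finset.mul_sum]
      exact Finset.sum_congr rfl fun i _ => by ring
    · simp only [if_neg e, hZ ω]
  · intro a'
    refine le_trans (Finset.sum_le_sum fun i _ => ?_) (hU a')
    by_cases e : a' = a
    · simp only [if_pos e]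
      have e1 : ‖(1 / 2 : ℂ) * U a' i‖ = 1 / 2 * ‖U a' i‖ := by rw [norm_mul]; norm_num
      rw [e1]
      nlinarith [norm_nonneg (U a' i), sq_nonneg ‖U a' i‖]
    · simp only [if_neg e]; exact le_refl _

open Classical in
lemma adm_col {s : St Ω A B} (h : Adm D H s) (b : B) :
    Adm D H ⟨fun ω => if D.co ω = b then (1 / 2 : ℂ) * s.Z ω else s.Z ω, s.k, s.k'⟩ := by
  obtain ⟨ι, i1, U, V, hZ, hU, hV, hk, hk'⟩ := h
  refine ⟨ι, i1, U, fun a' i => if a' = b then (1 / 2 : ℂ) * V a' i else V a' i, ?_, hU, ?_, hk,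
    hk'⟩
  · intro ω
    simp only
    by_cases e : D.co ω = b
    · simp only [if_pos e, hZ ω, Finset.mul_sum]
      exact Finset.sum_congr rfl fun i _ => by ring
    · simp only [if_neg e, hZ ω]
  · intro a'
    refine le_trans (Finset.sum_le_sum fun i _ => ?_) (hV a')
    by_cases e : a' = b
    · simp only [if_pos e]
      have e1 : ‖(1 / 2 : ℂ) * V a' i‖ = 1 / 2 * ‖V a' i‖ := by rw [norm_mul]; norm_num
      rw [e1]
      nlinarith [norm_nonneg (V a' i), sq_nonneg ‖V a' i‖]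
    · simp only [if_neg e]; exact le_refl _

lemma half_aux (w θ x : ℝ) (c z : ℂ) (hw : 0 ≤ w) :
    w * (1 / 4 * ‖z‖ ^ 2 - ‖c‖ ^ 2) ≤
      w * (2 * (c * (starRingEnd ℂ) ((1 / 2 : ℂ) * z)).re - ‖(1 / 2 : ℂ) * z‖ ^ 2 - θ * x) -
      w * (2 * (c * (starRingEnd ℂ) z).re - ‖z‖ ^ 2 - θ * x) := by
  rw [← mul_sub]
  refine mul_le_mul_of_nonneg_left ?_ hw
  have e1 : (1 / 2 : ℂ) * z = ((1 / 2 : ℝ) : ℂ) * z := by push_cast; ring
  rw [e1]
  simp only [← Complex.normSq_eq_norm_sq, Complex.normSq_apply, Complex.mul_re, Complex.mul_im,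
    Complex.ofReal_re, Complex.ofReal_im, Complex.conj_re, Complex.conj_im]
  nlinarith [sq_nonneg (c.re - 1 / 2 * z.re), sq_nonneg (c.im - 1 / 2 * z.im)]

open Classical in
/-- **rows**: the energy of `Z` on a row is bounded by the energy of `C` on that row -/
theorem NM.row (hw : ∀ ω, 0 ≤ D.wt ω) (hθ : 0 ≤ θ) {η : ℝ} {p : Nd} {s : St Ω A B}
    (hp : NM D H θ η p s) (a : A) :
    lr D a (fun ω => D.wt ω * ‖s.Z ω‖ ^ 2) p ≤
      4 * lr D a (fun ω => D.wt ω * ‖D.C ω‖ ^ 2) p + 4 * (η * len p) := by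
  have h1 := Phi_le_Js hw hθ (adm_row hp.1 a) p
  have h2 := hp.2
  have h3 : 1 / 4 * lr D a (fun ω => D.wt ω * ‖s.Z ω‖ ^ 2) p -
      lr D a (fun ω => D.wt ω * ‖D.C ω‖ ^ 2) p ≤
      Phi D θ ⟨fun ω => if D.ro ω = a then (1 / 2 : ℂ) * s.Z ω else s.Z ω, s.k, s.k'⟩ p -
        Phi D θ s p := by
    unfold lr Phi ls
    rw [Finset.mul_sum, ← Finset.sum_sub_distrib, ← Finset.sum_sub_distrib]
    refine Finset.sum_le_sum fun ω _ => ?_
    unfold den
    by_cases e : D.ro ω = a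
    · simp only [if_pos e]
      have := half_aux (D.wt ω) θ (s.k (D.ro ω) + s.k' (D.co ω)) (D.C ω) (s.Z ω) (hw ω)
      linarith
    · simp only [if_neg e]
      linarith
  linarith

open Classical in
/-- **columns** -/
theorem NM.col (hw : ∀ ω, 0 ≤ D.wt ω) (hθ : 0 ≤ θ) {η : ℝ} {p : Nd} {s : St Ω A B}
    (hp : NM D H θ η p s) (b : B) :
    lc D b (fun ω => D.wt ω * ‖s.Z ω‖ ^ 2) p ≤
      4 * lc D b (fun ω => D.wt ω * ‖D.C ω‖ ^ 2) p + 4 * (η * len p) := by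
  have h1 := Phi_le_Js hw hθ (adm_col hp.1 b) p
  have h2 := hp.2
  have h3 : 1 / 4 * lc D b (fun ω => D.wt ω * ‖s.Z ω‖ ^ 2) p -
      lc D b (fun ω => D.wt ω * ‖D.C ω‖ ^ 2) p ≤
      Phi D θ ⟨fun ω => if D.co ω = b then (1 / 2 : ℂ) * s.Z ω else s.Z ω, s.k, s.k'⟩ p -
        Phi D θ s p := by
    unfold lc Phi ls
    rw [Finset.mul_sum, ← Finset.sum_sub_distrib, ← Finset.sum_sub_distrib]
    refine Finset.sum_le_sum fun ω _ => ?_
    unfold den
    by_cases e : D.co ω = b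
    · simp only [if_pos e]
      have := half_aux (D.wt ω) θ (s.k (D.ro ω) + s.k' (D.co ω)) (D.C ω) (s.Z ω) (hw ω)
      linarith
    · simp only [if_neg e]
      linarith
  linarith

/-- total energy of the kernel of a near-maximiser -/
theorem NM.energy (hw : ∀ ω, 0 ≤ D.wt ω) (hθ : 0 ≤ θ) (hH : 0 ≤ H) {η : ℝ} {p : Nd}
    {s : St Ω A B} (hp : NM D H θ η p s) : En D s.Z p ≤ 2 * En D D.C p + 2 * (η * len p) := by
  have h1 := hp.strong hw hθ (adm_zero (D := D) hH)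
  rw [Phi_zero] at h1
  have h2 := Js_le hw hθ hH (D := D) (θ := θ) p
  have e : En D (fun ω => (zero : St Ω A B).Z ω - s.Z ω) p = En D s.Z p := by
    unfold En ls
    refine Finset.sum_congr rfl fun ω _ => ?_
    simp only [zero, zero_sub, norm_neg]
  rw [e] at h1
  linarith

/-- energy of the residual -/
theorem NM.res (hw : ∀ ω, 0 ≤ D.wt ω) (hθ : 0 ≤ θ) (hH : 0 ≤ H) {η : ℝ} {p : Nd}
    {s : St Ω A B} (hp : NM D H θ η p s) :
    En D (fun ω => D.C ω - s.Z ω) p ≤ En D D.C p + η * len p := by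
  have h1 : En D (fun ω => D.C ω - s.Z ω) p ≤ En D D.C p - Phi D θ s p := by
    unfold En Phi ls
    rw [← Finset.sum_sub_distrib]
    refine Finset.sum_le_sum fun ω _ => ?_
    unfold den
    have h3 : 0 ≤ θ * (s.k (D.ro ω) + s.k' (D.co ω)) :=
      mul_nonneg hθ (add_nonneg (hp.1.k_nonneg _) (hp.1.k'_nonneg _))
    have h4 : ‖D.C ω - s.Z ω‖ ^ 2 =
        ‖D.C ω‖ ^ 2 - (2 * (D.C ω * (starRingEnd ℂ) (s.Z ω)).re - ‖s.Z ω‖ ^ 2) := by
      simp only [← Complex.normSq_eq_norm_sq, Complex.normSq_apply, Complex.mul_re,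
        Complex.sub_re, Complex.sub_im, Complex.conj_re, Complex.conj_im]
      ring
    have h5 := mul_nonneg (hw ω) h3
    rw [h4]
    linarith
  have h2 := hp.2
  have h3 := Js_nonneg hw hθ hH (D := D) p
  linarith

/-- cost of a near-maximiser -/
theorem NM.cost_le (hw : ∀ ω, 0 ≤ D.wt ω) (hθ : 0 ≤ θ) (hH : 0 ≤ H) {η : ℝ} {p : Nd}
    {s : St Ω A B} (hp : NM D H θ η p s) :
    θ * cost D s p ≤ En D D.C p + η * len p := by
  have h1 : θ * cost D s p ≤ En D D.C p - Phi D θ s p := by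
    unfold En Phi cost
    rw [← ls_smul]
    unfold ls
    rw [← Finset.sum_sub_distrib]
    refine Finset.sum_le_sum fun ω _ => ?_
    unfold den
    have h4 : 2 * (D.C ω * (starRingEnd ℂ) (s.Z ω)).re - ‖s.Z ω‖ ^ 2 ≤ ‖D.C ω‖ ^ 2 := by
      simp only [← Complex.normSq_eq_norm_sq, Complex.normSq_apply, Complex.mul_re,
        Complex.conj_re, Complex.conj_im]
      nlinarith [sq_nonneg ((D.C ω).re - (s.Z ω).re), sq_nonneg ((D.C ω).im - (s.Z ω).im)]
    have h5 := mul_nonneg (hw ω) (sub_nonneg.2 h4)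
    linarith
  have h2 := hp.2
  have h3 := Js_nonneg hw hθ hH (D := D) p
  linarith

open Classical in
/-- rows of the residual -/
theorem NM.res_row (hw : ∀ ω, 0 ≤ D.wt ω) (hθ : 0 ≤ θ) {η : ℝ} {p : Nd} {s : St Ω A B}
    (hp : NM D H θ η p s) (a : A) :
    lr D a (fun ω => D.wt ω * ‖D.C ω - s.Z ω‖ ^ 2) p ≤
      10 * lr D a (fun ω => D.wt ω * ‖D.C ω‖ ^ 2) p + 8 * (η * len p) := by
  have h1 := hp.row hw hθ a
  have h2 : lr D a (fun ω => D.wt ω * ‖D.C ω - s.Z ω‖ ^ 2) p ≤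
      2 * lr D a (fun ω => D.wt ω * ‖D.C ω‖ ^ 2) p +
        2 * lr D a (fun ω => D.wt ω * ‖s.Z ω‖ ^ 2) p := by
    unfold lr ls
    rw [Finset.mul_sum, Finset.mul_sum, ← Finset.sum_add_distrib]
    refine Finset.sum_le_sum fun ω _ => ?_
    by_cases e : D.ro ω = a
    · simp only [if_pos e]
      have h3 : ‖D.C ω - s.Z ω‖ ^ 2 ≤ 2 * ‖D.C ω‖ ^ 2 + 2 * ‖s.Z ω‖ ^ 2 := by
        have := norm_sub_le (D.C ω) (s.Z ω)
        nlinarith [norm_nonneg (D.C ω - s.Z ω), sq_nonneg (‖D.C ω‖ - ‖s.Z ω‖)]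
      have := mul_le_mul_of_nonneg_left h3 (hw ω)
      linarith
    · simp only [if_neg e]; linarith
  linarith

open Classical in
/-- columns of the residual -/
theorem NM.res_col (hw : ∀ ω, 0 ≤ D.wt ω) (hθ : 0 ≤ θ) {η : ℝ} {p : Nd} {s : St Ω A B}
    (hp : NM D H θ η p s) (b : B) :
    lc D b (fun ω => D.wt ω * ‖D.C ω - s.Z ω‖ ^ 2) p ≤
      10 * lc D b (fun ω => D.wt ω * ‖D.C ω‖ ^ 2) p + 8 * (η * len p) := by
  have h1 := hp.col hw hθ b
  have h2 : lc D b (fun ω => D.wt ω * ‖D.C ω - s.Z ω‖ ^ 2) p ≤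
      2 * lc D b (fun ω => D.wt ω * ‖D.C ω‖ ^ 2) p +
        2 * lc D b (fun ω => D.wt ω * ‖s.Z ω‖ ^ 2) p := by
    unfold lc ls
    rw [Finset.mul_sum, Finset.mul_sum, ← Finset.sum_add_distrib]
    refine Finset.sum_le_sum fun ω _ => ?_
    by_cases e : D.co ω = b
    · simp only [if_pos e]
      have h3 : ‖D.C ω - s.Z ω‖ ^ 2 ≤ 2 * ‖D.C ω‖ ^ 2 + 2 * ‖s.Z ω‖ ^ 2 := by
        have := norm_sub_le (D.C ω) (s.Z ω)
        nlinarith [norm_nonneg (D.C ω - s.Z ω), sq_nonneg (‖D.C ω‖ - ‖s.Z ω‖)]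
      have := mul_le_mul_of_nonneg_left h3 (hw ω)
      linarith
    · simp only [if_neg e]; linarith
  linarith

end Crest.Agent.R079.StF117
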