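import Crest.Agent.R079.TWin2_903

/-! R079, Step I, MOVE, stack version, part A (helper242): the STACK INDEX of a partition into
windows.  `idx S p` = number of tops containing `p`; it is constant on the windows and monotone; the
regions `Rk R S k = {p ∈ R | idx S p ≤ k}` are FULL (their leaves are the exits of the windows of stack
index `k` and the leaves of `R` above), and the function glued on the exits of a window is the
function glued on the exits of its stack: a letter tied to the window becomes a GLOBAL field. -/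

set_option autoImplicit false

namespace Crest.Agent.R079.Stk

open Finset Crest.Agent.R079.Grid Crest.Agent.R079.Growth Crest.Agent.R079.QRed
  Crest.Agent.R079.Qh249 Crest.Agent.R079.TWin

open Classical in
/-- number of tops above `p` -/
noncomputable def idx (S : Finset Nd) (p : Nd) : ℕ := (S.filter (fun K => iv p ⊆ iv K)).card

open Classical in
/-- the nodes of the stacks `≤ k` -/
noncomputable def Rk (R S : Finset Nd) (k : ℕ) : Finset Nd := R.filter (fun p => idx S p ≤ k)

lemma mem_Rk {R S : Finset Nd} {k : ℕ} {p : Nd} : p ∈ Rk R S k ↔ p ∈ R ∧ idx S p ≤ k := by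
  unfold Rk
  rw [Finset.mem_filter]

lemma idx_anti {S : Finset Nd} {p q : Nd} (h : iv p ⊆ iv q) : idx S q ≤ idx S p := by
  unfold idx
  refine Finset.card_le_card fun K hK => ?_
  rw [Finset.mem_filter] at hK ⊢
  exact ⟨hK.1, h.trans hK.2⟩

variable {R : Finset Nd} {J : Nd} {S : Finset Nd} {W : Nd → Finset Nd} {C : ℝ}

lemma up_mem (hP : Part R S W C) {K : Nd} (hK : K ∈ S) {p q : Nd} (hp : p ∈ W K)
    (h1 : iv p ⊆ iv q) (h2 : iv q ⊆ iv K) : q ∈ W K := (hP.full K hK).reg.2 p hp q h1 h2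

lemma win_eq (hP : Part R S W C) {K K' q : Nd} (hK : K ∈ S) (hK' : K' ∈ S) (h : q ∈ W K)
    (h' : q ∈ W K') : K = K' := by
  by_contra hne
  exact Finset.disjoint_left.1 (hP.disj K hK K' hK' hne) h h'

lemma idx_win (hP : Part R S W C) {K p : Nd} (hK : K ∈ S) (hp : p ∈ W K) :
    idx S p = idx S K := by
  classical
  unfold idx
  congr 1
  refine Finset.filter_congr fun K' hK' => ?_
  have hpK : iv p ⊆ iv K := (hP.full K hK).reg.1 p hp
  constructor
  · intro h
    obtain ⟨z, hz⟩ := iv_nonempty p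
    rcases iv_nest (hpK hz) (h hz) with h1 | h1
    · exact h1
    · have h2 := up_mem hP hK hp h h1
      have h3 := win_eq hP hK hK' h2 (hP.full K' hK').top
      rw [h3]
  · exact fun h => hpK.trans h

lemma top_mem (hR : Full R J) (hP : Part R S W C) : J ∈ S := by
  obtain ⟨K, hK, hJ⟩ := hP.cover J hR.top
  have h1 : iv J ⊆ iv K := (hP.full K hK).reg.1 J hJ
  have h2 : iv K ⊆ iv J := hR.reg.1 K (hP.sub hK)
  have := iv_eq_of_level h1 (Growth.iv_level h2)
  rwa [← this]

lemma idx_top (hR : Full R J) (hP : Part R S W C) : idx S J = 1 := by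
  classical
  unfold idx
  rw [Finset.card_eq_one]
  refine ⟨J, ?_⟩
  ext K
  rw [Finset.mem_filter, Finset.mem_singleton]
  constructor
  · rintro ⟨hK, h⟩
    exact iv_eq_of_level h (Growth.iv_level (hR.reg.1 K (hP.sub hK)))
  · rintro rfl
    exact ⟨top_mem hR hP, subset_rfl⟩

lemma idx_pos (hR : Full R J) (hP : Part R S W C) {p : Nd} (hp : p ∈ R) : 1 ≤ idx S p := by
  rw [← idx_top hR hP]
  exact idx_anti (hR.reg.1 p hp)

/-- an interval above a child is the child or above the parent -/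
lemma above_child {p c K : Nd} (hcp : iv c ⊆ iv p) (hl : c.1 + 1 = p.1) (h : iv c ⊆ iv K) :
    K = c ∨ iv p ⊆ iv K := by
  rcases (Growth.iv_level h).lt_or_eq with h1 | h1
  · right
    obtain ⟨z, hz⟩ := iv_nonempty c
    exact sub_of_level (hcp hz) (h hz) (by omega)
  · left
    exact iv_eq_of_level h h1.symm.le

/-- a child of a node of a window is a top iff it is not in the window -/
lemma child_top (hP : Part R S W C) {K p c : Nd} (hK : K ∈ S) (hp : p ∈ W K)
    (hc : c ∈ R) (hcp : iv c ⊆ iv p) (hl : c.1 + 1 = p.1) : c ∈ S ↔ c ∉ W K := by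
  constructor
  · intro hcS hcK
    have h1 := win_eq hP hK hcS hcK (hP.full c hcS).top
    subst h1
    have := Growth.iv_level ((hP.full K hK).reg.1 p hp)
    omega
  · intro hcK
    obtain ⟨K', hK', hcK'⟩ := hP.cover c hc
    have h1 : iv c ⊆ iv K' := (hP.full K' hK').reg.1 c hcK'
    rcases above_child hcp hl h1 with h2 | h2
    · rwa [← h2]
    · have h3 := up_mem hP hK' hcK' hcp h2
      have h4 := win_eq hP hK hK' hp h3
      rw [h4] at hcK
      exact absurd hcK' hcK

lemma idx_child {p c : Nd} (hcp : iv c ⊆ iv p) (hl : c.1 + 1 = p.1) :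
    idx S c = idx S p + (by classical exact if c ∈ S then 1 else 0) := by
  classical
  have hnot : c ∉ S.filter (fun K => iv p ⊆ iv K) := by
    rw [Finset.mem_filter]
    rintro ⟨_, h⟩
    have := Growth.iv_level h
    omega
  unfold idx
  by_cases hc : c ∈ S
  · rw [if_pos hc, ← Finset.card_insert_of_notMem hnot]
    congr 1
    ext K
    rw [Finset.mem_filter, Finset.mem_insert, Finset.mem_filter]
    constructor
    · rintro ⟨h1, h2⟩
      rcases above_child hcp hl h2 with h | h
      · exact Or.inl h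
      · exact Or.inr ⟨h1, h⟩
    · rintro (rfl | ⟨h1, h2⟩)
      · exact ⟨hc, subset_rfl⟩
      · exact ⟨h1, hcp.trans h2⟩
  · rw [if_neg hc, add_zero]
    congr 1
    ext K
    rw [Finset.mem_filter, Finset.mem_filter]
    constructor
    · rintro ⟨h1, h2⟩
      rcases above_child hcp hl h2 with h | h
      · exact absurd (h ▸ h1) hc
      · exact ⟨h1, h⟩
    · rintro ⟨h1, h2⟩
      exact ⟨h1, hcp.trans h2⟩

lemma idx_sib (hP : Part R S W C) {m : ℕ} {l : ℤ} (hp : (m + 1, l) ∈ R)
    (h0 : (m, 2 * l) ∈ R) (h1 : (m, 2 * l + 1) ∈ R) : idx S (m, 2 * l) = idx S (m, 2 * l + 1) := by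
  classical
  obtain ⟨K, hK, hpK⟩ := hP.cover _ hp
  have e0 := child_top hP hK hpK h0 (sub_ch0 m l) rfl
  have e1 := child_top hP hK hpK h1 (sub_ch1 m l) rfl
  have hb := (hP.full K hK).bin m l hpK
  have hS : (m, 2 * l) ∈ S ↔ (m, 2 * l + 1) ∈ S := by
    rw [e0, e1, hb]
  rw [idx_child (S := S) (sub_ch0 m l) rfl, idx_child (S := S) (sub_ch1 m l) rfl]
  by_cases h : (m, 2 * l) ∈ S
  · rw [if_pos h, if_pos (hS.1 h)]
  · rw [if_neg h, if_neg (fun h' => h (hS.2 h'))]

/-- **the first `k` stacks form a full region** -/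
theorem full_Rk (hR : Full R J) (hP : Part R S W C) {k : ℕ} (hk : 1 ≤ k) :
    Full (Rk R S k) J where
  reg := by
    refine ⟨fun p hp => hR.reg.1 p (mem_Rk.1 hp).1, fun p hp q h1 h2 => ?_⟩
    have hp' := mem_Rk.1 hp
    exact mem_Rk.2 ⟨hR.reg.2 p hp'.1 q h1 h2, (idx_anti h1).trans hp'.2⟩
  top := mem_Rk.2 ⟨hR.top, by rw [idx_top hR hP]; exact hk⟩
  bin := by
    intro m l hp
    have hp' := mem_Rk.1 hp
    have hb := hR.bin m l hp'.1
    constructor
    · intro h
      have h' := mem_Rk.1 h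
      have h1 := hb.1 h'.1
      exact mem_Rk.2 ⟨h1, by rw [← idx_sib hP hp'.1 h'.1 h1]; exact h'.2⟩
    · intro h
      have h' := mem_Rk.1 h
      have h1 := hb.2 h'.1
      exact mem_Rk.2 ⟨h1, by rw [idx_sib hP hp'.1 h1 h'.1]; exact h'.2⟩

lemma Rk_mono {k l : ℕ} (h : k ≤ l) : Rk R S k ⊆ Rk R S l := by
  intro p hp
  have := mem_Rk.1 hp
  exact mem_Rk.2 ⟨this.1, this.2.trans h⟩

/-- the exits of a window are leaves of its stack -/
theorem leaf_Rk (hR : Full R J) (hP : Part R S W C) {K L : Nd} (hK : K ∈ S)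
    (hL : L ∈ lf (W K)) : L ∈ lf (Rk R S (idx S K)) := by
  classical
  have hL' := mem_lf.1 hL
  have hLR : L ∈ R := hP.wsub K hK hL'.1
  have hiL : idx S L = idx S K := idx_win hP hK hL'.1
  refine mem_lf.2 ⟨mem_Rk.2 ⟨hLR, hiL.le⟩, fun q hq hs => ?_⟩
  by_contra hne
  have hq' := mem_Rk.1 hq
  have hlev : q.1 < L.1 := by
    rcases (Growth.iv_level hs).lt_or_eq with h | h
    · exact h
    · exact absurd (iv_eq_of_level hs h.symm.le).symm hne
  obtain ⟨m, hm⟩ : ∃ m, L.1 = m + 1 := ⟨L.1 - 1, by omega⟩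
  have hLe : L = (m + 1, L.2) := Prod.ext hm rfl
  obtain ⟨z, hz⟩ := iv_nonempty q
  have hzL := hs hz
  rw [hLe, iv_ch, Finset.mem_union] at hzL
  have key : ∀ c : Nd, c.1 = m → z ∈ iv c → iv c ⊆ iv L → False := by
    intro c hc hzc hcL
    have hqc : iv q ⊆ iv c := sub_of_level hz hzc (by omega)
    have hcR : c ∈ R := hR.reg.2 q hq'.1 c hqc (hcL.trans (hR.reg.1 L hLR))
    have hcK : c ∉ W K := by
      intro h
      have := hL'.2 c h hcL
      have h2 := congrArg Prod.fst this
      omega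
    have hcS := (child_top hP hK hL'.1 hcR hcL (by omega)).2 hcK
    have h3 := idx_child (S := S) hcL (by omega)
    rw [if_pos hcS] at h3
    have h4 := idx_anti (S := S) hqc
    omega
  rcases hzL with h | h
  · exact key _ rfl h (hLe ▸ sub_ch0 m L.2)
  · exact key _ rfl h (hLe ▸ sub_ch1 m L.2)

/-- **the letter glued on the exits of a window is the global letter of its stack** -/
theorem gl_stack (hR : Full R J) (hP : Part R S W C) {K : Nd} (hK : K ∈ S) (f : Nd → Fn)
    {y : ℤ} (hy : y ∈ iv K) : gl (Rk R S (idx S K)) f y = gl (W K) f y := by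
  have hF := full_Rk hR hP (idx_pos hR hP (hP.sub hK))
  obtain ⟨L, hL, hyL, _⟩ := exists_leaf (hP.full K hK) (hP.full K hK).top hy
  rw [gl_eq (hP.full K hK) f hL hyL, gl_eq hF f (leaf_Rk hR hP hK hL) hyL]

/-- **the sum over the windows, stack by stack** -/
theorem sum_stack {β : Type*} [AddCommMonoid β] (hP : Part R S W C) {n : ℕ}
    (hn : ∀ p ∈ R, idx S p ≤ n) (G : ℕ → Nd → β) :
    ∑ K ∈ S, ∑ p ∈ W K, G (idx S K) p =
      ∑ k ∈ range (n + 1), ∑ p ∈ R.filter (fun p => idx S p = k), G k p := by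
  classical
  have hU : S.biUnion W = R := by
    ext p
    rw [Finset.mem_biUnion]
    constructor
    · rintro ⟨K, hK, hp⟩
      exact hP.wsub K hK hp
    · intro hp
      obtain ⟨K, hK, h⟩ := hP.cover p hp
      exact ⟨K, hK, h⟩
  have h1 : ∑ K ∈ S, ∑ p ∈ W K, G (idx S K) p = ∑ p ∈ R, G (idx S p) p := by
    rw [← hU, Finset.sum_biUnion (fun K hK K' hK' hne => hP.disj K hK K' hK' hne)]
    refine Finset.sum_congr rfl fun K hK => Finset.sum_congr rfl fun p hp => ?_
    rw [idx_win hP hK hp]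
  rw [h1, ← Finset.sum_fiberwise_of_maps_to (s := R) (t := range (n + 1)) (g := idx S)
    (fun p hp => Finset.mem_range.2 (Nat.lt_succ_of_le (hn p hp)))]
  refine Finset.sum_congr rfl fun k _ => Finset.sum_congr rfl fun p hp => ?_
  rw [(Finset.mem_filter.1 hp).2]

/-- a stack is made of full windows, hence the nodes of stack `k` inside a top of stack `k` -/
lemma mem_stack (hP : Part R S W C) {K : Nd} (hK : K ∈ S) {p : Nd} (hp : p ∈ R) :
    p ∈ W K ↔ iv p ⊆ iv K ∧ idx S p = idx S K := by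
  classical
  constructor
  · exact fun h => ⟨(hP.full K hK).reg.1 p h, idx_win hP hK h⟩
  · rintro ⟨h1, h2⟩
    obtain ⟨K', hK', hp'⟩ := hP.cover p hp
    have h3 : idx S K' = idx S K := by rw [← h2, idx_win hP hK' hp']
    obtain ⟨z, hz⟩ := iv_nonempty p
    have h4 : iv K ⊆ iv K' ∨ iv K' ⊆ iv K :=
      iv_nest (h1 hz) ((hP.full K' hK').reg.1 p hp' hz)
    have hcard : ∀ {A B : Nd}, A ∈ S → B ∈ S → iv A ⊆ iv B → idx S A = idx S B → A = B := by
      intro A B hA hB hAB hi
      unfold idx at hi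
      have hs : S.filter (fun K => iv B ⊆ iv K) ⊆ S.filter (fun K => iv A ⊆ iv K) := by
        intro K hK
        rw [Finset.mem_filter] at hK ⊢
        exact ⟨hK.1, hAB.trans hK.2⟩
      have he := Finset.eq_of_subset_of_card_le hs hi.le
      have hA' : A ∈ S.filter (fun K => iv A ⊆ iv K) := Finset.mem_filter.2 ⟨hA, subset_rfl⟩
      rw [← he, Finset.mem_filter] at hA'
      exact iv_eq_of_level hA'.2 (Growth.iv_level hAB)
    rcases h4 with h | h
    · rw [hcard hK hK' h h3.symm]
      exact hp'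
    · rw [← hcard hK' hK h h3]
      exact hp'

end Crest.Agent.R079.Stk
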