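import Crest.Agent.R079.StkM_242

/-! R079, Step I, MOVE, stack version, part B (helper242): the deep stacks are small.
`deep` : the points below a top of stack index `≥ n` are at most `C len J / n`. -/

set_option autoImplicit false

namespace Crest.Agent.R079.Stk

open Finset Crest.Agent.R079.Grid Crest.Agent.R079.Growth Crest.Agent.R079.QRed
  Crest.Agent.R079.Qh249 Crest.Agent.R079.TWin

variable {R : Finset Nd} {J : Nd} {S : Finset Nd} {W : Nd → Finset Nd} {C : ℝ}

open Classical in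
/-- the points below a top of stack index `≥ n` -/
noncomputable def Ed (S : Finset Nd) (J : Nd) (n : ℕ) : Finset ℤ :=
  (iv J).filter (fun y => ∃ K ∈ S, n ≤ idx S K ∧ y ∈ iv K)

/-- the nodes of the stacks `≥ n` live on `Ed` -/
lemma sub_Ed (hR : Full R J) (hP : Part R S W C) {n : ℕ} {p : Nd} (hp : p ∈ R)
    (hn : n ≤ idx S p) : iv p ⊆ Ed S J n := by
  classical
  intro y hy
  obtain ⟨K, hK, hpK⟩ := hP.cover p hp
  unfold Ed
  rw [Finset.mem_filter]
  refine ⟨hR.reg.1 p hp hy, K, hK, ?_, (hP.full K hK).reg.1 p hpK hy⟩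
  rwa [← idx_win hP hK hpK]

/-- **the deep stacks are small** -/
theorem deep (hR : Full R J) (hP : Part R S W C) (n : ℕ) :
    (n : ℝ) * ((Ed S J n).card : ℝ) ≤ C * len J := by
  classical
  have h1 : ∑ K ∈ S, len K = ∑ y ∈ iv J, (((S.filter (fun K => y ∈ iv K)).card : ℕ) : ℝ) := by
    have e : ∀ K ∈ S, len K = ∑ y ∈ iv J, (if y ∈ iv K then (1 : ℝ) else 0) := by
      intro K hK
      have hs : iv K ⊆ iv J := hR.reg.1 K (hP.sub hK)
      have hi : iv J ∩ iv K = iv K := Finset.inter_eq_right.2 hs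
      rw [Finset.sum_ite_mem, hi, Finset.sum_const, nsmul_eq_mul, mul_one, Growth.card_iv]
    rw [Finset.sum_congr rfl e, Finset.sum_comm]
    refine Finset.sum_congr rfl fun y _ => ?_
    rw [Finset.sum_boole]
  have h2 : ∀ y ∈ Ed S J n, (n : ℝ) ≤ (((S.filter (fun K => y ∈ iv K)).card : ℕ) : ℝ) := by
    intro y hy
    unfold Ed at hy
    rw [Finset.mem_filter] at hy
    obtain ⟨_, K, hK, hn, hyK⟩ := hy
    have h3 : idx S K ≤ (S.filter (fun K => y ∈ iv K)).card := by
      unfold idx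
      refine Finset.card_le_card fun K' hK' => ?_
      rw [Finset.mem_filter] at hK' ⊢
      exact ⟨hK'.1, hK'.2 hyK⟩
    exact_mod_cast hn.trans h3
  have hsub : Ed S J n ⊆ iv J := by
    unfold Ed
    exact Finset.filter_subset _ _
  calc (n : ℝ) * ((Ed S J n).card : ℝ) = ∑ _y ∈ Ed S J n, (n : ℝ) := by
        rw [Finset.sum_const, nsmul_eq_mul, mul_comm]
    _ ≤ ∑ y ∈ Ed S J n, (((S.filter (fun K => y ∈ iv K)).card : ℕ) : ℝ) := Finset.sum_le_sum h2
    _ ≤ ∑ y ∈ iv J, (((S.filter (fun K => y ∈ iv K)).card : ℕ) : ℝ) :=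
        Finset.sum_le_sum_of_subset_of_nonneg hsub fun _ _ _ => Nat.cast_nonneg _
    _ = ∑ K ∈ S, len K := h1.symm
    _ ≤ C * len J := RelV653.cnt_top hR hP

end Crest.Agent.R079.Stk
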