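import Crest.Agent.R079.ThQ_653
import Crest.Agent.R079.StkA_242
import Crest.Agent.R079.MovC_242

/-! R079, Step I, MOVE, stack version (helper242): the quadratic variation along the stacks.

`Vk k` = total value of the threshold functional on the exits of the first `k` stacks.
* `chain_g` : `∑_J |g_k - g_l|² ≤ 2 (Vk l - Vk k + 2 η len J)` for the glued letters;
* `chain_Z` : the same for the GLOBAL kernel letters above the threshold,
  `Z_k = a g_k - (glued own projections at the exits of stack k)`.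
These are the hypotheses of `MovC.move_chain`. -/

set_option autoImplicit false

namespace Crest.Agent.R079.Stk

open Finset Crest.Agent.R079.Grid Crest.Agent.R079.Growth Crest.Agent.R079.QRed
  Crest.Agent.R079.Qh249 Crest.Agent.R079.TWin
open Crest.Agent.R079.RelW653 (vl NMP Jv Dv av_par sum_av' lf_sum_eq')
open Crest.Agent.R079.RelV653 Crest.Agent.R079.ThP653 Crest.Agent.R079.ThQ653

lemma SL_nest {W W' : Finset Nd} {I : Nd} (hW : Full W I) (hW' : Full W' I) (hs : W ⊆ W')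
    (F : Nd → ℝ) : ∀ p ∈ W, SL W p (fun q => SL W' q F / len q) = SL W' p F := by
  refine full_ind hW (fun p hp => ?_) fun m l hp hnl h0 h1 e0 e1 => ?_
  · rw [SL_leaf hp]
    have := Growth.len_pos p
    field_simp
  · have hnl' : (m + 1, l) ∉ lf W' := by
      intro h
      have h2 := (mem_lf.1 h).2 _ (hs h0) (sub_ch0 m l)
      have h3 := congrArg Prod.fst h2
      simp at h3
    rw [SL_node hW hnl h0 h1, SL_node hW' hnl' (hs h0) (hs h1), e0, e1]

section one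

variable {Ω : Type*} {Bd : Nd → Finset Ω} {pos : Ω → ℤ} {N : (Ω → ℂ) → ℝ} {ν : ℝ}

lemma dst_SL (hB : Bnd Bd pos N ν) {W : Finset Nd} {I : Nd} (hW : Full W I) (A B : Ω → ℂ) :
    ∀ p ∈ W, SL W p (fun q => dst Bd q A B / len q) = dst Bd p A B := by
  refine full_ind hW (fun p hp => ?_) fun m l hp hnl h0 h1 e0 e1 => ?_
  · rw [SL_leaf hp]
    have := Growth.len_pos p
    field_simp
  · rw [SL_node hW hnl h0 h1, dst_ch hB, e0, e1]

lemma Bd_up (hB : Bnd Bd pos N ν) {ω : Ω} (m : ℕ) (l : ℤ) (h : ω ∈ Bd (m, l)) :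
    ∀ k : ℕ, ω ∈ Bd (m + k, l / 2 ^ k) := by
  intro k
  induction k with
  | zero => simpa using h
  | succ k ih =>
    have e : l / 2 ^ (k + 1) = l / 2 ^ k / 2 := by
      have := L0e.ediv_pow_pow l k 1
      rw [pow_one] at this
      rw [← this]
    rw [e, ← add_assoc]
    rcases Int.even_or_odd' (l / 2 ^ k) with ⟨c, hc | hc⟩
    · rw [hc, show 2 * c / 2 = c by omega]
      exact (hB.sub _ _ _).2 (Or.inl (hc ▸ ih))
    · rw [hc, show (2 * c + 1) / 2 = c by omega]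
      exact (hB.sub _ _ _).2 (Or.inr (hc ▸ ih))

lemma Bd_mono (hB : Bnd Bd pos N ν) {p q : Nd} (h : iv p ⊆ iv q) {ω : Ω} (hω : ω ∈ Bd p) :
    ω ∈ Bd q := by
  obtain ⟨k, hk⟩ := Qe292.iv_sub_iff.1 h
  rw [hk]
  exact Bd_up hB p.1 p.2 hω k

lemma Bgl_loc (hB : Bnd Bd pos N ν) (a : Ω → ℂ) {r : ℝ} (hr : 0 ≤ r) {W : Finset Nd} {I : Nd}
    (hW : Full W I) {p : Nd} (hp : p ∈ W) (g : Fn) {ω : Ω} (hω : ω ∈ Bd p) :
    Bgl Bd pos N a r W I g ω = Bgl Bd pos N a r W p g ω := by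
  classical
  unfold Bgl
  symm
  refine Finset.sum_subset ?_ ?_
  · intro L hL
    rw [Finset.mem_filter] at hL ⊢
    exact ⟨hL.1, hL.2.trans (hW.reg.1 p hp)⟩
  · intro L hL hL'
    rw [Finset.mem_filter] at hL
    have hno : ω ∉ Bd L := by
      intro h
      exact hL' (Finset.mem_filter.2 ⟨hL.1, leaf_below hW hL.1 hp (hB.mem L ω h) (hB.mem p ω hω)⟩)
    exact (Pj_spec hB hr L _).1.1 ω hno

/-- the global kernel letter above the threshold: `a g` minus the glued own exit projections -/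
noncomputable def Zs (Bd : Nd → Finset Ω) (pos : Ω → ℤ) (N : (Ω → ℂ) → ℝ) (a : Ω → ℂ) (r : ℝ)
    (W : Finset Nd) (J : Nd) (f : Nd → Fn) : Ω → ℂ :=
  fun ω => ag Bd pos a J (gl W f) ω - Bgl Bd pos N a r W J (gl W f) ω

/-- on an exit it is the own part above the threshold -/
lemma Zs_leaf (hB : Bnd Bd pos N ν) (a : Ω → ℂ) {r : ℝ} (hr : 0 ≤ r) {W : Finset Nd} {J : Nd}
    (hW : Full W J) (f : Nd → Fn) {p : Nd} (hp : p ∈ lf W) {ω : Ω} (hω : ω ∈ Bd p) :
    Zs Bd pos N a r W J f ω = Rs Bd pos N a r p (f p) ω := by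
  have hpW := (mem_lf.1 hp).1
  have hωJ := Bd_mono hB (hW.reg.1 p hpW) hω
  have e1 : ag Bd pos a p (gl W f) = ag Bd pos a p (f p) :=
    ag_congr hB fun y hy => gl_eq hW f hp hy
  unfold Zs Rs
  rw [Bgl_loc hB a hr hW hpW _ hω, Bgl_leaf hp, e1, ag_eq hω, ag_eq hωJ,
    gl_eq hW f hp (hB.mem p ω hω)]

/-- on an inner node it is the part above the threshold of that node, corrected by the difference
of the own projection and the glued exit projections -/
lemma Zs_node (hB : Bnd Bd pos N ν) (a : Ω → ℂ) {r : ℝ} (hr : 0 ≤ r) {W : Finset Nd} {J : Nd}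
    (hW : Full W J) (f : Nd → Fn) {p : Nd} (hp : p ∈ W) {ω : Ω} (hω : ω ∈ Bd p) :
    Zs Bd pos N a r W J f ω = Rs Bd pos N a r p (gl W f) ω +
      (Pj Bd N r p (ag Bd pos a p (gl W f)) ω - Bgl Bd pos N a r W p (gl W f) ω) := by
  have hωJ := Bd_mono hB (hW.reg.1 p hp) hω
  unfold Zs Rs
  rw [Bgl_loc hB a hr hW hp _ hω, ag_eq hω, ag_eq hωJ]
  ring

end one

lemma sq_tri (u v w : ℂ) : ‖u - (v + w)‖ ^ 2 ≤ 2 * ‖u - v‖ ^ 2 + 2 * ‖w‖ ^ 2 := by
  have h1 : ‖u - (v + w)‖ ≤ ‖u - v‖ + ‖w‖ := by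
    have := norm_sub_le (u - v) w
    rwa [show u - v - w = u - (v + w) by ring] at this
  have h2 := norm_nonneg (u - (v + w))
  have h3 := norm_nonneg (u - v)
  have h4 := norm_nonneg w
  nlinarith [sq_nonneg (‖u - v‖ - ‖w‖)]

section family

variable {ι : Type*} [Fintype ι] {Ω : ι → Type*} {Bd : ∀ i, Nd → Finset (Ω i)}
  {pos : ∀ i, Ω i → ℤ} {N : ∀ i, (Ω i → ℂ) → ℝ} {ν : ι → ℝ} {a : ∀ i, Ω i → ℂ} {r : ι → ℝ}
  {κ : ι → ℝ} {X : Fn} {η : ℝ} {f : Nd → Fn}

/-- drift of one exit of the coarse stack -/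
noncomputable def hh (Φ : Nd → Fn → ℝ) (X : Fn) (f : Nd → Fn) (η : ℝ) (W' : Finset Nd) (p : Nd) :
    ℝ := SL W' p (Jv Φ X f) / len p + ((-1) * Jv Φ X f p + 2 * η)

lemma SL_hh (Φ : Nd → Fn → ℝ) {W W' : Finset Nd} {I : Nd} (hW : Full W I) (hW' : Full W' I)
    (hs : W ⊆ W') :
    SL W I (hh Φ X f η W') = SL W' I (Jv Φ X f) - SL W I (Jv Φ X f) + 2 * η * len I := by
  unfold hh
  rw [SL_add, SL_nest hW hW' hs _ I hW.top, SL_add, SL_smul, SL_const hW _ I hW.top]
  ring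

lemma len_hh (Φ : Nd → Fn → ℝ) (W' : Finset Nd) (p : Nd) :
    len p * hh Φ X f η W' p =
      SL W' p (Jv Φ X f) - len p * Jv Φ X f p + len p * (2 * η) := by
  have := Growth.len_pos p
  unfold hh
  field_simp
  ring

variable (hB : ∀ i, Bnd (Bd i) (pos i) (N i) (ν i)) (hr : ∀ i, 0 ≤ r i) (hκ : ∀ i, 0 ≤ κ i)
  (h : NMP (fun _ _ => True) (ThF Bd pos N ν a r κ) X η f)

include hB hr hκ h

/-- the glued letters of two nested full regions -/
theorem var_g {W W' : Finset Nd} {J : Nd} (hW : Full W J) (hW' : Full W' J) (hs : W ⊆ W') :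
    ∑ y ∈ iv J, ‖gl W f y - gl W' f y‖ ^ 2 ≤
      2 * (SL W' J (Jv (ThF Bd pos N ν a r κ) X f) - SL W J (Jv (ThF Bd pos N ν a r κ) X f) +
        2 * η * len J) := by
  rw [← SL_hh _ hW hW' hs, ← SL_smul,
    sum_SL hW (fun y => ‖gl W f y - gl W' f y‖ ^ 2)
      (fun p => av p (fun y => f p y - gl W' f y) ^ 2) (fun L hL => ?_) J hW.top]
  · refine SL_mono fun L hL _ => ?_
    have h1 := strong_win hB hr hκ h hW' (hs (mem_lf.1 hL).1)
    have h2 : 0 ≤ (1 / 2 : ℝ) * ∑ i, κ i * (ν i * dst (Bd i) L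
        (Rs (Bd i) (pos i) (N i) (a i) (r i) L (f L))
        (Rs (Bd i) (pos i) (N i) (a i) (r i) L (gl W' f))) :=
      mul_nonneg (by norm_num) (Finset.sum_nonneg fun i _ =>
        mul_nonneg (hκ i) (mul_nonneg (hB i).nu.le (dst_nonneg _ _ _)))
    have h3 : 0 ≤ ∑ i, κ i * (ν i / 2 * dst (Bd i) L
        (Pj (Bd i) (N i) (r i) L (ag (Bd i) (pos i) (a i) L (gl W' f)))
        (Bgl (Bd i) (pos i) (N i) (a i) (r i) W' L (gl W' f))) :=
      Finset.sum_nonneg fun i _ =>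
        mul_nonneg (hκ i) (mul_nonneg (by have := (hB i).nu; positivity) (dst_nonneg _ _ _))
    rw [← len_hh] at h1
    have hL0 := Growth.len_pos L
    have h4 : len L * av L (fun y => f L y - gl W' f y) ^ 2 ≤
        len L * (2 * hh (ThF Bd pos N ν a r κ) X f η W' L) := by linarith
    exact le_of_mul_le_mul_left h4 hL0
  · rw [← sum_av']
    exact Finset.sum_congr rfl fun y hy => by rw [gl_eq hW f hL hy]

/-- the kernel letters above the threshold of two nested full regions -/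
theorem var_Z {W W' : Finset Nd} {J : Nd} (hW : Full W J) (hW' : Full W' J) (hs : W ⊆ W') (i : ι) :
    κ i * ν i * dst (Bd i) J (Zs (Bd i) (pos i) (N i) (a i) (r i) W J f)
        (Zs (Bd i) (pos i) (N i) (a i) (r i) W' J f) ≤
      4 * (SL W' J (Jv (ThF Bd pos N ν a r κ) X f) - SL W J (Jv (ThF Bd pos N ν a r κ) X f) +
        2 * η * len J) := by
  rw [← SL_hh _ hW hW' hs, ← SL_smul, ← dst_SL (hB i) hW _ _ J hW.top, ← SL_smul]
  refine SL_mono fun L hL _ => ?_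
  have hL0 := Growth.len_pos L
  have h1 := strong_win hB hr hκ h hW' (hs (mem_lf.1 hL).1)
  have h0 : 0 ≤ len L * ((1 / 2) * av L (fun y => f L y - gl W' f y) ^ 2) := by positivity
  set A : ι → ℝ := fun i => dst (Bd i) L (Rs (Bd i) (pos i) (N i) (a i) (r i) L (f L))
    (Rs (Bd i) (pos i) (N i) (a i) (r i) L (gl W' f)) with hA
  set B : ι → ℝ := fun i => dst (Bd i) L
    (Pj (Bd i) (N i) (r i) L (ag (Bd i) (pos i) (a i) L (gl W' f)))
    (Bgl (Bd i) (pos i) (N i) (a i) (r i) W' L (gl W' f)) with hBd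
  have hAn : ∀ j, 0 ≤ A j := fun j => dst_nonneg _ _ _
  have hBn : ∀ j, 0 ≤ B j := fun j => dst_nonneg _ _ _
  have h2 : κ i * (ν i * A i) ≤ ∑ j, κ j * (ν j * A j) :=
    Finset.single_le_sum (f := fun j => κ j * (ν j * A j))
      (fun j _ => mul_nonneg (hκ j) (mul_nonneg (hB j).nu.le (hAn j))) (Finset.mem_univ i)
  have h3 : κ i * (ν i / 2 * B i) ≤ ∑ j, κ j * (ν j / 2 * B j) :=
    Finset.single_le_sum (f := fun j => κ j * (ν j / 2 * B j))
      (fun j _ => mul_nonneg (hκ j) (mul_nonneg (by have := (hB j).nu; positivity) (hBn j)))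
      (Finset.mem_univ i)
  have h4 : dst (Bd i) L (Zs (Bd i) (pos i) (N i) (a i) (r i) W J f)
      (Zs (Bd i) (pos i) (N i) (a i) (r i) W' J f) ≤ 2 * A i + 2 * B i := by
    simp only [hA, hBd]
    unfold dst
    rw [Finset.mul_sum, Finset.mul_sum, ← Finset.sum_add_distrib]
    refine Finset.sum_le_sum fun ω hω => ?_
    rw [Zs_leaf (hB i) (a i) (hr i) hW f hL hω,
      Zs_node (hB i) (a i) (hr i) hW' f (hs (mem_lf.1 hL).1) hω]
    exact sq_tri _ _ _
  rw [← len_hh] at h1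
  have h5 : 0 ≤ κ i * ν i := mul_nonneg (hκ i) (hB i).nu.le
  have h6 := mul_le_mul_of_nonneg_left h4 h5
  have h7 : κ i * ν i * dst (Bd i) L (Zs (Bd i) (pos i) (N i) (a i) (r i) W J f)
      (Zs (Bd i) (pos i) (N i) (a i) (r i) W' J f) ≤
      len L * (4 * hh (ThF Bd pos N ν a r κ) X f η W' L) := by
    nlinarith [h6, h2, h3, h1, h0]
  have h8 : len L * (κ i * ν i * (dst (Bd i) L (Zs (Bd i) (pos i) (N i) (a i) (r i) W J f)
      (Zs (Bd i) (pos i) (N i) (a i) (r i) W' J f) / len L)) ≤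
      len L * (4 * hh (ThF Bd pos N ν a r κ) X f η W' L) := by
    refine le_trans (le_of_eq ?_) h7
    field_simp
  exact le_of_mul_le_mul_left h8 hL0

/-- **the chain inequality of the stacks, glued letters** -/
theorem chain_g {R S : Finset Nd} {J : Nd} {W : Nd → Finset Nd} {C : ℝ} (hR : Full R J)
    (hP : TWin.Part R S W C) {k l : ℕ} (hk : 1 ≤ k) (hkl : k ≤ l) :
    ∑ y ∈ iv J, ‖gl (Rk R S k) f y - gl (Rk R S l) f y‖ ^ 2 ≤
      2 * (SL (Rk R S l) J (Jv (ThF Bd pos N ν a r κ) X f) -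
        SL (Rk R S k) J (Jv (ThF Bd pos N ν a r κ) X f) + 2 * η * len J) :=
  var_g hB hr hκ h (full_Rk hR hP hk) (full_Rk hR hP (hk.trans hkl)) (Rk_mono hkl)

/-- **the chain inequality of the stacks, kernel letters above the threshold** -/
theorem chain_Z {R S : Finset Nd} {J : Nd} {W : Nd → Finset Nd} {C : ℝ} (hR : Full R J)
    (hP : TWin.Part R S W C) {k l : ℕ} (hk : 1 ≤ k) (hkl : k ≤ l) (i : ι) :
    κ i * ν i * dst (Bd i) J (Zs (Bd i) (pos i) (N i) (a i) (r i) (Rk R S k) J f)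
        (Zs (Bd i) (pos i) (N i) (a i) (r i) (Rk R S l) J f) ≤
      4 * (SL (Rk R S l) J (Jv (ThF Bd pos N ν a r κ) X f) -
        SL (Rk R S k) J (Jv (ThF Bd pos N ν a r κ) X f) + 2 * η * len J) :=
  var_Z hB hr hκ h (full_Rk hR hP hk) (full_Rk hR hP (hk.trans hkl)) (Rk_mono hkl) i

end family

end Crest.Agent.R079.Stk
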