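import Crest.Agent.R079.TDef_853
import Crest.Agent.R079.Qc_406

/-! R079, [T4a] of TDef_853 (helper964): **a priori bound at finite resolution**, `aprLem : AprLem`.

The level of the residual against the point masses (`Dic.pt`) bounds it pointwise by `C t |p|`; the other
letters are bounded pointwise by `|p|` (single term of the local average); static bound
`norm_TI_le` (569) and `region_len` (406) do the rest. -/

set_option autoImplicit false

namespace Crest.Agent.R079.TRec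

open Finset Crest.Agent.R079.Grid Crest.Agent.R079.Glue Crest.Agent.R079.Growth
  Crest.Agent.R079.QRed Crest.Agent.R079.QRed.Qc406

namespace Apr964

lemma one_le_len (p : Nd) : 1 ≤ len p := by
  unfold len
  exact one_le_pow₀ (by norm_num)

lemma len_le_pow {p : Nd} {N : ℕ} (h : p.1 ≤ N) : len p ≤ 2 ^ (N + 7) := by
  unfold len
  exact pow_le_pow_right₀ (by norm_num) (by omega)

/-- sup bound ⟹ local `L²` bound -/
lemma av2_le_sup {p : Nd} {f : Fn} {M : ℝ} (hM : 0 ≤ M) (h : ∀ y ∈ iv p, ‖f y‖ ≤ M) :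
    av2 (p.1 + 7) p.2 f ≤ M := by
  have h1 : ∑ y ∈ iv p, ‖f y‖ ^ 2 ≤ len p * M ^ 2 := by
    calc ∑ y ∈ iv p, ‖f y‖ ^ 2 ≤ ∑ y ∈ iv p, M ^ 2 :=
          Finset.sum_le_sum fun y hy => pow_le_pow_left₀ (norm_nonneg _) (h y hy) 2
      _ = len p * M ^ 2 := by rw [Finset.sum_const, nsmul_eq_mul, card_iv]
  unfold av2
  rw [Real.sqrt_le_left hM]
  have h2 : (0 : ℝ) < 2 ^ (p.1 + 7) := by positivity
  rw [one_div, inv_mul_le_iff₀ h2]
  exact h1

/-- local `L^q` bound ⟹ sup bound -/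
lemma sup_of_aq {q : ℝ} (hq : 1 ≤ q) {p : Nd} {f : Fn} (h : aq q p f ≤ 1) :
    ∀ y ∈ iv p, ‖f y‖ ≤ len p := by
  intro y hy
  have hq0 : 0 < q := by linarith
  have hs0 : 0 ≤ ∑ y ∈ iv p, ‖f y‖ ^ q :=
    Finset.sum_nonneg fun y _ => Real.rpow_nonneg (norm_nonneg _) _
  have hl : (0 : ℝ) < 2 ^ (p.1 + 7) := by positivity
  have h1 : (1 / 2 ^ (p.1 + 7)) * ∑ y ∈ iv p, ‖f y‖ ^ q ≤ 1 := by
    by_contra hc
    have h2 : 1 < ((1 / 2 ^ (p.1 + 7)) * ∑ y ∈ iv p, ‖f y‖ ^ q) ^ (1 / q) :=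
      Real.one_lt_rpow (not_le.1 hc) (by positivity)
    exact absurd h (not_le.2 h2)
  have h3 : ∑ y ∈ iv p, ‖f y‖ ^ q ≤ len p := by
    rw [one_div, inv_mul_le_iff₀ hl, mul_one] at h1
    exact h1
  have h4 : ‖f y‖ ^ q ≤ len p :=
    (Finset.single_le_sum (f := fun y => ‖f y‖ ^ q)
      (fun y _ => Real.rpow_nonneg (norm_nonneg _) _) hy).trans h3
  by_cases h5 : ‖f y‖ ≤ 1
  · exact h5.trans (one_le_len p)
  · have h6 : ‖f y‖ ≤ ‖f y‖ ^ q := by
      have := Real.rpow_le_rpow_of_exponent_le (not_le.1 h5).le hq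
      rwa [Real.rpow_one] at this
    exact h6.trans h4

/-- level against point masses ⟹ sup bound -/
lemma sup_of_Lv {D : Dict} {sg : ℝ} (hD : Dic D sg) {m : Fin 4} (hm : m ≠ 3) {t C : ℝ}
    (ht : 0 < t) (ht1 : t ≤ 1) {p : Nd} {g : Fn} (h : Lv D m t C p g) :
    ∀ y ∈ iv p, ‖g y‖ ≤ C * t * len p := by
  intro y hy
  have h1 := h _ (hD.pt m hm t ht ht1 y)
  have h2 : ∑ y' ∈ iv p, g y' * (if y' = y then ((t : ℂ))⁻¹ else 0) = g y * ((t : ℂ))⁻¹ := by
    rw [Finset.sum_eq_single y]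
    · rw [if_pos rfl]
    · intro b _ hb
      rw [if_neg hb, mul_zero]
    · intro h'
      exact absurd hy h'
  rw [h2, norm_mul, norm_inv, Complex.norm_real, Real.norm_of_nonneg ht.le] at h1
  rw [← div_eq_mul_inv, div_le_iff₀ ht] at h1
  calc ‖g y‖ ≤ C * len p * t := h1
    _ = C * t * len p := by ring

end Apr964

open Apr964 in
/-- **[T4a]** a priori bound at finite resolution -/
theorem aprLem : AprLem := by
  intro D k q3 sg c0 c3 e c1 bt C hok hD hC N
  have hC0 : (0 : ℝ) ≤ C := zero_le_one.trans hC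
  refine ⟨64 * (N + 1) * (((2 : ℝ) ^ (N + 7)) ^ 4 * C), by positivity, ?_⟩
  intro t ht ht1 bb ε hbb R J hF hJ m hm T G H E X hW F hFn
  have hL : (0 : ℝ) ≤ 2 ^ (N + 7) := by positivity
  have hsub : ∀ p ∈ R, iv p ⊆ iv J := hF.reg.1
  have hq : ∀ j, 1 ≤ qx k q3 j := by
    intro j
    have h1 := hok.k0
    have h2 := hok.hq3
    unfold qx
    split_ifs <;> linarith
  -- one node
  have hnode : ∀ p ∈ R, ‖TI bb ε (fun j => Function.update (fun j _ => F j) m X j p) p‖ ≤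
      64 * (((2 : ℝ) ^ (N + 7)) ^ 4 * (C * t)) * len p := by
    intro p hp
    have hpN : p.1 ≤ N := (level_le (hsub p hp)).trans hJ
    have hlp : len p ≤ 2 ^ (N + 7) := len_le_pow hpN
    refine (norm_TI_le bb hbb.1 ε hbb.2 _ p).trans ?_
    have h3 : ∏ j, av2 (p.1 + 7) p.2 (Function.update (fun j _ => F j) m X j p) ≤
        ∏ j : Fin 4, ((2 : ℝ) ^ (N + 7) * (if j = m then C * t else 1)) := by
      refine Finset.prod_le_prod (fun j _ => av2_nonneg _ _ _) fun j _ => ?_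
      by_cases hj : j = m
      · subst hj
        rw [Function.update_self, if_pos rfl]
        refine av2_le_sup (by positivity) fun y hy => ?_
        calc ‖X p y‖ ≤ C * t * len p := sup_of_Lv hD hm ht ht1 (hW.lev p hp) y hy
          _ ≤ C * t * 2 ^ (N + 7) := mul_le_mul_of_nonneg_left hlp (by positivity)
          _ = 2 ^ (N + 7) * (C * t) := by ring
      · rw [Function.update_of_ne hj, if_neg hj, mul_one]
        refine av2_le_sup hL fun y hy => ?_
        exact (sup_of_aq (hq j) (hFn j hj p hp) y hy).trans hlp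
    have h4 : ∏ j : Fin 4, ((2 : ℝ) ^ (N + 7) * (if j = m then C * t else 1)) =
        ((2 : ℝ) ^ (N + 7)) ^ 4 * (C * t) := by
      rw [Finset.prod_mul_distrib, Finset.prod_const, Finset.prod_ite_eq']
      simp
    rw [h4] at h3
    have h5 : (0 : ℝ) ≤ 64 * 2 ^ (p.1 + 7) := by positivity
    calc 64 * 2 ^ (p.1 + 7) *
          ∏ j, av2 (p.1 + 7) p.2 (Function.update (fun j _ => F j) m X j p)
        ≤ 64 * 2 ^ (p.1 + 7) * (((2 : ℝ) ^ (N + 7)) ^ 4 * (C * t)) :=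
          mul_le_mul_of_nonneg_left h3 h5
      _ = 64 * (((2 : ℝ) ^ (N + 7)) ^ 4 * (C * t)) * len p := by unfold len; ring
  have hJN : (J.1 : ℝ) ≤ N := by exact_mod_cast hJ
  have hlJ : 0 ≤ len J := len_nonneg J
  calc ‖TP bb ε R (Function.update (fun j _ => F j) m X)‖
      ≤ ∑ p ∈ R, ‖TI bb ε (fun j => Function.update (fun j _ => F j) m X j p) p‖ :=
        norm_sum_le _ _
    _ ≤ ∑ p ∈ R, 64 * (((2 : ℝ) ^ (N + 7)) ^ 4 * (C * t)) * len p := Finset.sum_le_sum hnode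
    _ = 64 * (((2 : ℝ) ^ (N + 7)) ^ 4 * (C * t)) * ∑ p ∈ R, len p := by rw [Finset.mul_sum]
    _ ≤ 64 * (((2 : ℝ) ^ (N + 7)) ^ 4 * (C * t)) * ((J.1 + 1) * len J) :=
        mul_le_mul_of_nonneg_left (region_len R J hsub) (by positivity)
    _ ≤ 64 * (((2 : ℝ) ^ (N + 7)) ^ 4 * (C * t)) * ((N + 1) * len J) := by
        refine mul_le_mul_of_nonneg_left (mul_le_mul_of_nonneg_right ?_ hlJ) (by positivity)
        linarith
    _ = 64 * (N + 1) * (((2 : ℝ) ^ (N + 7)) ^ 4 * C) * t * len J := by ring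

end Crest.Agent.R079.TRec
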