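import Mathlib

/-! R079, doc 2489 (911) sections (4)+(5) (helper351): ITERATION + BOOTSTRAP, abstract real-number leaf.

`i : ι` = finite resolution (number of scales, finite trees); `a i t` = constant of the class with one
windowed residual of level `t`; `B i` = constant without level.  Everything uniform in `i` except the
a priori finiteness `hfin`. -/

set_option autoImplicit false

namespace Crest.Agent.R079.TIter

open Real

/-- **ITERATION**: from the recursion `(R)` and a priori finiteness, `a t ≤ 2 C (1+B) t^β` below `t1`. -/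
theorem iter {a : ℝ → ℝ} {B C α β ε t1 : ℝ} (hC : 0 ≤ C) (hB : 0 ≤ B)
    (hε : 0 < ε) (ht1 : 0 < t1) (ht11 : t1 ≤ 1) (hαβ : α < ε * β)
    (hsmall : C * t1 ^ (ε * β - α) ≤ 1 / 2)
    (hfin : ∃ M, ∀ t, 0 < t → t ≤ t1 → a t ≤ M * t ^ β)
    (hR : ∀ t, 0 < t → t ≤ t1 → a t ≤ C * t ^ (-α) * a (t ^ (1 + ε)) + C * (1 + B) * t ^ β) :
    ∀ t, 0 < t → t ≤ t1 → a t ≤ 2 * C * (1 + B) * t ^ β := by
  set D := C * (1 + B) with hD
  have hD0 : 0 ≤ D := by positivity
  -- improvement step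
  have step : ∀ M, 0 ≤ M → (∀ t, 0 < t → t ≤ t1 → a t ≤ M * t ^ β) →
      ∀ t, 0 < t → t ≤ t1 → a t ≤ (M / 2 + D) * t ^ β := by
    intro M hM h t ht htt
    have ht1' : t ≤ 1 := htt.trans ht11
    have hs0 : 0 < t ^ (1 + ε) := Real.rpow_pos_of_pos ht _
    have hs1 : t ^ (1 + ε) ≤ t1 := by
      calc t ^ (1 + ε) ≤ t ^ (1 : ℝ) :=
            Real.rpow_le_rpow_of_exponent_ge ht ht1' (by linarith)
        _ = t := Real.rpow_one t
        _ ≤ t1 := htt
    have h1 := h _ hs0 hs1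
    have e1 : (t ^ (1 + ε)) ^ β = t ^ β * t ^ (ε * β) := by
      rw [← Real.rpow_mul ht.le, ← Real.rpow_add ht]
      congr 1
      ring
    have hp : 0 ≤ C * t ^ (-α) := mul_nonneg hC (Real.rpow_nonneg ht.le _)
    have h2 : C * t ^ (-α) * a (t ^ (1 + ε)) ≤ C * t ^ (-α) * (M * (t ^ β * t ^ (ε * β))) := by
      rw [← e1]
      exact mul_le_mul_of_nonneg_left h1 hp
    have e2 : C * t ^ (-α) * (M * (t ^ β * t ^ (ε * β))) =
        (C * t ^ (ε * β - α)) * (M * t ^ β) := by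
      rw [show ε * β - α = -α + ε * β by ring, Real.rpow_add ht]
      ring
    have h3 : C * t ^ (ε * β - α) ≤ 1 / 2 := by
      refine le_trans (mul_le_mul_of_nonneg_left ?_ hC) hsmall
      exact Real.rpow_le_rpow ht.le htt (by linarith)
    have h4 : 0 ≤ M * t ^ β := mul_nonneg hM (Real.rpow_nonneg ht.le _)
    have h5 := mul_le_mul_of_nonneg_right h3 h4
    have h6 := hR t ht htt
    rw [e2] at h2
    calc a t ≤ C * t ^ (-α) * a (t ^ (1 + ε)) + C * (1 + B) * t ^ β := h6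
      _ ≤ 1 / 2 * (M * t ^ β) + D * t ^ β := by
          rw [← hD]
          linarith
      _ = (M / 2 + D) * t ^ β := by ring
  obtain ⟨M0, hM0⟩ := hfin
  have hM0' : ∀ t, 0 < t → t ≤ t1 → a t ≤ (max M0 0) * t ^ β := fun t ht htt =>
    (hM0 t ht htt).trans (mul_le_mul_of_nonneg_right (le_max_left _ _) (Real.rpow_nonneg ht.le _))
  -- iterate
  have key : ∀ n : ℕ, ∀ t, 0 < t → t ≤ t1 →
      a t ≤ ((max M0 0) / 2 ^ n + 2 * D) * t ^ β := by
    intro n
    induction n with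
    | zero =>
      intro t ht htt
      refine (hM0' t ht htt).trans (mul_le_mul_of_nonneg_right ?_ (Real.rpow_nonneg ht.le _))
      simp only [pow_zero, div_one]
      linarith
    | succ n ih =>
      intro t ht htt
      have hn : 0 ≤ (max M0 0) / 2 ^ n + 2 * D := by
        have : 0 ≤ max M0 0 := le_max_right _ _
        positivity
      have := step _ hn ih t ht htt
      refine this.trans (le_of_eq ?_)
      rw [pow_succ]
      ring
  intro t ht htt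
  have hlim : Filter.Tendsto (fun n : ℕ => ((max M0 0) / 2 ^ n + 2 * D) * t ^ β) Filter.atTop
      (nhds ((0 + 2 * D) * t ^ β)) := by
    refine Filter.Tendsto.mul_const _ (Filter.Tendsto.add_const _ ?_)
    have h := (tendsto_pow_atTop_nhds_zero_of_lt_one (r := (1 / 2 : ℝ)) (by norm_num)
      (by norm_num)).const_mul (max M0 0)
    rw [mul_zero] at h
    refine h.congr fun n => ?_
    rw [one_div, inv_pow, div_eq_mul_inv]
  have h := ge_of_tendsto' hlim fun n => key n t ht htt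
  rw [zero_add] at h
  refine h.trans (le_of_eq ?_)
  rw [hD]
  ring

/-- a small `t` -/
lemma exists_small {C γ δ t0 : ℝ} (hγ : 0 < γ) (hδ : 0 < δ) (ht0 : 0 < t0) :
    ∃ t1, 0 < t1 ∧ t1 ≤ t0 ∧ t1 ≤ 1 ∧ C * t1 ^ γ ≤ δ := by
  have h : Filter.Tendsto (fun t : ℝ => C * t ^ γ) (nhdsWithin 0 (Set.Ioi 0)) (nhds 0) := by
    have h1 : Filter.Tendsto (fun t : ℝ => t ^ γ) (nhds 0) (nhds ((0 : ℝ) ^ γ)) :=
      (Real.continuousAt_rpow_const 0 γ (Or.inr hγ.le)).tendsto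
    rw [Real.zero_rpow hγ.ne'] at h1
    have h2 := (h1.mono_left nhdsWithin_le_nhds : Filter.Tendsto (fun t : ℝ => t ^ γ)
      (nhdsWithin 0 (Set.Ioi 0)) (nhds 0)).const_mul C
    rwa [mul_zero] at h2
  have h3 : ∀ᶠ t in nhdsWithin (0 : ℝ) (Set.Ioi 0), C * t ^ γ < δ :=
    h.eventually (gt_mem_nhds hδ)
  have h4 : ∀ᶠ t in nhdsWithin (0 : ℝ) (Set.Ioi 0), t < min t0 1 :=
    nhdsWithin_le_nhds (gt_mem_nhds (lt_min ht0 one_pos))
  have h5 : ∀ᶠ t in nhdsWithin (0 : ℝ) (Set.Ioi 0), 0 < t := eventually_mem_nhdsWithin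
  obtain ⟨t, h3, h4, h5⟩ := (h3.and (h4.and h5)).exists
  exact ⟨t, h5, (h4.le.trans (min_le_left _ _)), (h4.le.trans (min_le_right _ _)), h3.le⟩

/-- **ITERATION + BOOTSTRAP** (doc 2489 (4)+(5)): N-free bound for `B`. -/
theorem bootstrap {ι : Type*} (a : ι → ℝ → ℝ) (B : ι → ℝ) (K : ℝ → ℝ) {C α β ε t0 : ℝ}
    (hC : 0 ≤ C) (hε : 0 < ε) (hαβ : α < ε * β) (hαβ' : α < β) (ht0 : 0 < t0)
    (hB0 : ∀ i, 0 ≤ B i)
    (hfin : ∀ i, ∃ M, ∀ t, 0 < t → t ≤ t0 → a i t ≤ M * t ^ β)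
    (hR : ∀ i t, 0 < t → t ≤ t0 →
      a i t ≤ C * t ^ (-α) * a i (t ^ (1 + ε)) + C * (1 + B i) * t ^ β)
    (hBa : ∀ t, 0 < t → t ≤ t0 → ∀ i, B i ≤ K t + C * t ^ (-α) * a i t + (1 / 4) * B i) :
    ∃ M, ∀ i, B i ≤ M := by
  obtain ⟨t1, h1, h2, h3, h4⟩ := exists_small (C := C) (γ := ε * β - α) (δ := 1 / 2) (t0 := t0)
    (by linarith) (by norm_num) ht0
  obtain ⟨t2, g1, g2, _, g4⟩ := exists_small (C := 2 * C * C) (γ := β - α) (δ := 1 / 4) (t0 := t1)
    (by linarith) (by norm_num) h1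
  refine ⟨2 * K t2 + 1 / 2, fun i => ?_⟩
  have hit := iter (a := a i) (B := B i) hC (hB0 i) hε h1 h3 hαβ h4
    (by
      obtain ⟨M, hM⟩ := hfin i
      exact ⟨M, fun t ht htt => hM t ht (htt.trans h2)⟩)
    (fun t ht htt => hR i t ht (htt.trans h2)) t2 g1 g2
  have hb := hBa t2 g1 (g2.trans h2) i
  have hp : 0 ≤ C * t2 ^ (-α) := mul_nonneg hC (Real.rpow_nonneg g1.le _)
  have h5 := mul_le_mul_of_nonneg_left hit hp
  have e : C * t2 ^ (-α) * (2 * C * (1 + B i) * t2 ^ β) =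
      (2 * C * C * t2 ^ (β - α)) * (1 + B i) := by
    rw [show β - α = -α + β by ring, Real.rpow_add g1]
    ring
  rw [e] at h5
  have h6 := mul_le_mul_of_nonneg_right g4 (by linarith [hB0 i] : (0 : ℝ) ≤ 1 + B i)
  linarith

end Crest.Agent.R079.TIter
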