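import Crest.Agent.R079.TDef_853
import Crest.Agent.R079.TIter_351
import Crest.Agent.R079.Qc_406

/-! R079, GLOBAL RECURSION: main assembly `StepLem → AprLem → TopLem → RecGoal` (helper398).

`TIter.bootstrap` (helper351) is applied to the infima of the admissible constants. -/

set_option autoImplicit false

namespace Crest.Agent.R079.TRec.TAsm398

open Finset Crest.Agent.R079.Grid Crest.Agent.R079.Growth Crest.Agent.R079.QRed

lemma len_pos (p : Nd) : 0 < len p := by unfold len; positivity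

/-- local `L²` is below local `L^q` -/
lemma av_le_aq {q : ℝ} (hq : 2 ≤ q) (p : Nd) (f : Fn) : av p f ≤ aq q p f := by
  unfold av aq Lq853.avq av2
  set s := dI (p.1 + 7) p.2 with hs
  have hc : (s.card : ℝ) = 2 ^ (p.1 + 7) := Qc406.card_dI _ _
  have hw : ∑ _y ∈ s, (1 / (2 : ℝ) ^ (p.1 + 7)) = 1 := by
    rw [Finset.sum_const, nsmul_eq_mul, hc]
    field_simp
  have hq0 : 0 < q := by linarith
  have h := Real.rpow_arith_mean_le_arith_mean_rpow s (fun _ => 1 / (2 : ℝ) ^ (p.1 + 7))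
    (fun y => ‖f y‖ ^ 2) (fun _ _ => by positivity) hw (fun _ _ => by positivity)
    (p := q / 2) (by linarith)
  have e1 : ∑ y ∈ s, (1 / (2 : ℝ) ^ (p.1 + 7)) * ‖f y‖ ^ 2 =
      (1 / 2 ^ (p.1 + 7)) * ∑ y ∈ s, ‖f y‖ ^ 2 := by rw [Finset.mul_sum]
  have e2 : ∑ y ∈ s, (1 / (2 : ℝ) ^ (p.1 + 7)) * (‖f y‖ ^ 2) ^ (q / 2) =
      (1 / 2 ^ (p.1 + 7)) * ∑ y ∈ s, ‖f y‖ ^ q := by
    rw [Finset.mul_sum]
    refine Finset.sum_congr rfl fun y _ => ?_
    congr 1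
    rw [← Real.rpow_natCast, ← Real.rpow_mul (norm_nonneg _)]
    congr 1
    push_cast
    ring
  rw [e1, e2] at h
  have h0 : 0 ≤ (1 / (2 : ℝ) ^ (p.1 + 7)) * ∑ y ∈ s, ‖f y‖ ^ 2 := by positivity
  have h2 := Real.rpow_le_rpow (Real.rpow_nonneg h0 _) h (by positivity : (0 : ℝ) ≤ 1 / q)
  rw [← Real.rpow_mul h0] at h2
  rw [Real.sqrt_eq_rpow]
  have e3 : q / 2 * (1 / q) = 1 / 2 := by field_simp
  rwa [e3] at h2

lemma two_le_qx {k q3 : ℝ} (hk : 0 < k) (hq3 : 2 < q3) (j : Fin 4) : 2 ≤ qx k q3 j := by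
  unfold qx
  split_ifs <;> linarith

/-- **a priori finiteness** of the static constant at bounded top level -/
theorem bn_apr {k q3 : ℝ} (hk : 0 < k) (hq3 : 2 < q3) (N : ℕ) : ∃ B : ℝ, 0 ≤ B ∧ BN k q3 N B := by
  obtain ⟨B, hB0, hB⟩ := qc N
  refine ⟨B, hB0, fun bb ε h R J hF hJ F hF4 => hB bb ε h R J hF hJ F fun j p hp => ?_⟩
  exact (av_le_aq (two_le_qx hk hq3 j) p (F j)).trans (hF4 j p hp)

/-- the best static constant is admissible -/
lemma bn_inf {k q3 : ℝ} {N : ℕ} (hne : ∃ B : ℝ, 0 ≤ B ∧ BN k q3 N B) :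
    0 ≤ sInf {B : ℝ | 0 ≤ B ∧ BN k q3 N B} ∧ BN k q3 N (sInf {B : ℝ | 0 ≤ B ∧ BN k q3 N B}) := by
  refine ⟨le_csInf hne fun B hB => hB.1, fun bb ε h R J hF hJ F hF4 => ?_⟩
  have hJ0 := len_pos J
  rw [← div_le_iff₀ hJ0]
  refine le_csInf hne fun B hB => ?_
  rw [div_le_iff₀ hJ0]
  exact hB.2 bb ε h R J hF hJ F hF4

lemma bn_inf_le {k q3 : ℝ} {N : ℕ} {B : ℝ} (hB0 : 0 ≤ B) (hB : BN k q3 N B) :
    sInf {B : ℝ | 0 ≤ B ∧ BN k q3 N B} ≤ B :=
  csInf_le ⟨0, fun _ h => h.1⟩ ⟨hB0, hB⟩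

section
variable {D : Dict} {k q3 sg c1 C : ℝ} {N : ℕ} {t : ℝ}

/-- the best constant with one windowed residual is admissible -/
lemma an_inf (hne : ∃ A : ℝ, 0 ≤ A ∧ An D k q3 sg c1 C N t A) :
    0 ≤ sInf {A : ℝ | 0 ≤ A ∧ An D k q3 sg c1 C N t A} ∧
      An D k q3 sg c1 C N t (sInf {A : ℝ | 0 ≤ A ∧ An D k q3 sg c1 C N t A}) := by
  refine ⟨le_csInf hne fun B hB => hB.1,
    fun bb ε h R J hF hJ m hm T G H E X hW F hFF => ?_⟩
  have hJ0 := len_pos J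
  rw [← div_le_iff₀ hJ0]
  refine le_csInf hne fun A hA => ?_
  rw [div_le_iff₀ hJ0]
  exact hA.2 bb ε h R J hF hJ m hm T G H E X hW F hFF

lemma an_inf_le {A : ℝ} (hA0 : 0 ≤ A) (hA : An D k q3 sg c1 C N t A) :
    sInf {A : ℝ | 0 ≤ A ∧ An D k q3 sg c1 C N t A} ≤ A :=
  csInf_le ⟨0, fun _ h => h.1⟩ ⟨hA0, hA⟩

end

lemma ruleA_mono {D : Dict} {k q3 c0 c3 e t0 t0' K : ℝ} (h : RuleA D k q3 c0 c3 e t0 K)
    (ht : t0' ≤ t0) : RuleA D k q3 c0 c3 e t0' K :=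
  fun N B hB hBN t h0 h1 => h N B hB hBN t h0 (h1.trans ht)

/-- **MAIN ASSEMBLY** -/
theorem recGoal_of (hS : StepLem) (hP : AprLem) (hT : TopLem) : RecGoal := by
  obtain ⟨Cs, hCs1, hS⟩ := hS
  obtain ⟨Ct, hCt1, hT⟩ := hT
  intro D k q3 sg c0 c3 e c1 bt t0 K hok ht0 hK hD hA hF
  set C := max Cs Ct with hC
  have hC1 : 1 ≤ C := hCs1.trans (le_max_left _ _)
  -- exponents
  have hk := hok.k0
  have hq3 := hok.hq3
  have hbt0 := hok.bt0
  have he0 := hok.e0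
  have hebt : e * bt ≤ bt := by nlinarith [hok.e1]
  have h40 := hok.hk
  have hbt1 : bt ≤ 1 := by
    have h1 := hok.hC
    have h2 : (bt + 20 * k) * q3 ≤ c1 - (1 + e) * sg * (q3 - 2) := by
      rwa [le_div_iff₀ (by linarith)] at h1
    have h3 : 0 ≤ (1 + e) * sg * (q3 - 2) :=
      mul_nonneg (mul_nonneg (by linarith) hok.sg0) (by linarith)
    nlinarith [hok.c11]
  -- the three inputs
  obtain ⟨K1, hK10, hS⟩ := hS D k q3 sg c0 c3 e c1 bt (min t0 1) K C hok (lt_min ht0 one_pos)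
    (min_le_right _ _) hK (le_max_left _ _) hD (ruleA_mono hA (min_le_left _ _))
  obtain ⟨K2, hK20, hT⟩ := hT D k q3 sg c0 c3 e c1 bt C hok hD (le_max_right _ _) hF
  have hP := hP D k q3 sg c0 c3 e c1 bt C hok hD hC1
  obtain ⟨t1, ht10, ht1, ht11, hsm⟩ := TIter.exists_small (C := K2) (γ := bt) (δ := 1 / 4)
    (t0 := min t0 1) hbt0 (by norm_num) (lt_min ht0 one_pos)
  -- best constants
  let B : ℕ → ℝ := fun N => sInf {B : ℝ | 0 ≤ B ∧ BN k q3 N B}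
  let a : ℕ → ℝ → ℝ := fun N t => sInf {A : ℝ | 0 ≤ A ∧ An D k q3 sg c1 C N t A}
  have hB : ∀ N, 0 ≤ B N ∧ BN k q3 N (B N) := fun N => bn_inf (bn_apr hk hq3 N)
  have hane : ∀ N t, 0 < t → t ≤ 1 → ∃ A : ℝ, 0 ≤ A ∧ An D k q3 sg c1 C N t A := by
    intro N t h0 h1
    obtain ⟨M, hM0, hM⟩ := hP N
    exact ⟨M * t, by positivity, hM t h0 h1⟩
  have ha : ∀ N t, 0 < t → t ≤ 1 → 0 ≤ a N t ∧ An D k q3 sg c1 C N t (a N t) :=
    fun N t h0 h1 => an_inf (hane N t h0 h1)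
  obtain ⟨M, hM⟩ : ∃ M, ∀ N, B N ≤ M := by
    classical
    -- the constants of the top step
    let Kf : ℝ → ℝ := fun t => if h : 0 < t ∧ t ≤ 1 then Classical.choose (hT t h.1 h.2) else 0
    refine TIter.bootstrap a B Kf (C := max K1 K2) (α := 20 * k) (β := bt) (ε := e) (t0 := t1)
      (hK10.trans (le_max_left _ _)) he0 (by linarith) (by linarith) ht10 (fun N => (hB N).1)
      ?_ ?_ ?_
    · intro N
      obtain ⟨M, hM0, hM⟩ := hP N
      refine ⟨M, fun t h0 h1 => ?_⟩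
      refine (an_inf_le (by positivity) (hM t h0 (h1.trans ht11))).trans ?_
      refine mul_le_mul_of_nonneg_left ?_ hM0
      calc t = t ^ (1 : ℝ) := (Real.rpow_one t).symm
        _ ≤ t ^ bt := Real.rpow_le_rpow_of_exponent_ge h0 (h1.trans ht11) hbt1
    · intro N t h0 h1
      have hs0 : 0 < t ^ (1 + e) := Real.rpow_pos_of_pos h0 _
      have hs1 : t ^ (1 + e) ≤ 1 := Real.rpow_le_one h0.le (h1.trans ht11) (by linarith)
      have hA' := ha N (t ^ (1 + e)) hs0 hs1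
      have hB' := hB N
      have h2 := hS N (B N) t (a N (t ^ (1 + e))) hB'.1 hB'.2 h0 (h1.trans ht1) hA'.1 hA'.2
      have hp1 : 0 ≤ t ^ (-(20 * k)) := Real.rpow_nonneg h0.le _
      have hp2 : 0 ≤ t ^ bt := Real.rpow_nonneg h0.le _
      have h1B : 0 ≤ 1 + B N := by linarith [hB'.1]
      refine (an_inf_le (add_nonneg (mul_nonneg (mul_nonneg hK10 hp1) hA'.1)
        (mul_nonneg (mul_nonneg hK10 h1B) hp2)) h2).trans ?_
      have hmx : K1 ≤ max K1 K2 := le_max_left _ _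
      exact add_le_add
        (mul_le_mul_of_nonneg_right (mul_le_mul_of_nonneg_right hmx hp1) hA'.1)
        (mul_le_mul_of_nonneg_right (mul_le_mul_of_nonneg_right hmx h1B) hp2)
    · intro t h0 h1 N
      have ht1' : t ≤ 1 := h1.trans ht11
      have hKf : Kf t = Classical.choose (hT t h0 ht1') := dif_pos ⟨h0, ht1'⟩
      obtain ⟨hc0, hc⟩ := Classical.choose_spec (hT t h0 ht1')
      rw [← hKf] at hc0 hc
      have hA' := ha N t h0 ht1'
      have hB' := hB N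
      have h2 := hc N (B N) (a N t) hB'.1 hB'.2 hA'.1 hA'.2
      have hp1 : 0 ≤ t ^ (-(20 * k)) := Real.rpow_nonneg h0.le _
      have hp2 : 0 ≤ t ^ bt := Real.rpow_nonneg h0.le _
      refine (bn_inf_le (add_nonneg (add_nonneg hc0 (mul_nonneg (mul_nonneg hK20 hp1) hA'.1))
        (mul_nonneg (mul_nonneg hK20 hB'.1) hp2)) h2).trans ?_
      have hmx : K2 ≤ max K1 K2 := le_max_right _ _
      have h3 : K2 * t ^ bt ≤ 1 / 4 :=
        (mul_le_mul_of_nonneg_left (Real.rpow_le_rpow h0.le h1 hbt0.le) hK20).trans hsm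
      have h4 : K2 * B N * t ^ bt ≤ 1 / 4 * B N := by
        calc K2 * B N * t ^ bt = (K2 * t ^ bt) * B N := by ring
          _ ≤ 1 / 4 * B N := mul_le_mul_of_nonneg_right h3 hB'.1
      have h5 : K2 * t ^ (-(20 * k)) * a N t ≤ max K1 K2 * t ^ (-(20 * k)) * a N t :=
        mul_le_mul_of_nonneg_right (mul_le_mul_of_nonneg_right hmx hp1) hA'.1
      linarith
  refine ⟨max M 0, le_max_right _ _, fun N bb ε h R J hR hJ F hF4 => ?_⟩
  refine ((hB N).2 bb ε h R J hR hJ F hF4).trans ?_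
  exact mul_le_mul_of_nonneg_right ((hM N).trans (le_max_left _ _)) (len_pos J).le

end Crest.Agent.R079.TRec.TAsm398
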