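import Crest.Agent.R079.QDefs_248
import Crest.Agent.R079.LqMain_853

/-! R079, GLOBAL RECURSION (doc 2489 of 911, parameters repaired: msg 853), FROZEN LITERALS (helper853).

`RuleA` (= MIX) + `FrzBd` + three small letters (`BN`) ⟹ `∃ B, ∀ N, BN N B` ⟹ `BBq (2+k)` ⟹ `S0106`.

Slots `0,1,2`: local `L^(2+k)`, dictionary of sup `t^(-1)`; slot `3`: local `L^q3`, dictionary of sup
`t^(-sg)` (`sg` small: cells / non-collision).  `D j t` = set of (atom)/(price at parameter `t`). -/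

set_option autoImplicit false

namespace Crest.Agent.R079.TRec

open Finset Crest.Agent.R079.Grid Crest.Agent.R079.Growth Crest.Agent.R079.QRed

/-- local `L^q` average of a node -/
noncomputable def aq (q : ℝ) (p : Nd) (f : Fn) : ℝ := Lq853.avq q (p.1 + 7) p.2 f

/-- exponents `(2+k, 2+k, 2+k, q3)` -/
noncomputable def qx (k q3 : ℝ) (j : Fin 4) : ℝ := if j = 3 then q3 else 2 + k

/-- sup exponents `(1, 1, 1, sg)` -/
noncomputable def sx (sg : ℝ) (j : Fin 4) : ℝ := if j = 3 then sg else 1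

/-- abstract dictionary: `D j t` = the set of (atom of slot `j`) / (its price at parameter `t`) -/
abbrev Dict : Type := Fin 4 → ℝ → Set Fn

/-- what the recursion needs of the dictionary -/
structure Dic (D : Dict) (sg : ℝ) : Prop where
  /-- sup norm -/
  sup : ∀ j t, 0 < t → t ≤ 1 → ∀ φ ∈ D j t, ∀ y, ‖φ y‖ ≤ t ^ (-(sx sg j))
  /-- smaller parameter = more (renormalised) functions -/
  mono : ∀ j s t, 0 < s → s ≤ t → t ≤ 1 → ∀ φ ∈ D j t, ∃ φ' ∈ D j s, ∃ c : ℝ, 0 ≤ c ∧ c ≤ 1 ∧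
    φ = fun y => (c : ℂ) * φ' y
  /-- closed under complex conjugation -/
  conj : ∀ j t, ∀ φ ∈ D j t, (fun y => (starRingEnd ℂ) (φ y)) ∈ D j t
  /-- point masses are atoms of the slots `0,1,2` (a priori bound at finite resolution) -/
  pt : ∀ j, j ≠ 3 → ∀ t, 0 < t → t ≤ 1 → ∀ y : ℤ,
    (fun x => if x = y then ((t : ℂ))⁻¹ else 0) ∈ D j t

/-- level `≤ s` (in units of the prices) at the node `p` -/
def Lv (D : Dict) (j : Fin 4) (t s : ℝ) (p : Nd) (g : Fn) : Prop :=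
  ∀ φ ∈ D j t, ‖∑ y ∈ iv p, g y * φ y‖ ≤ s * len p

/-- frozen of mass `≤ M` (in units of the prices) on `iv p` -/
def Fz (D : Dict) (j : Fin 4) (t M : ℝ) (p : Nd) (f : Fn) : Prop :=
  ∃ (n : ℕ) (φ : Fin n → Fn) (c : Fin n → ℂ), (∀ i, φ i ∈ D j t) ∧
    (∀ y ∈ iv p, f y = ∑ i, c i * φ i y) ∧ ∑ i, ‖c i‖ ≤ M

/-- static tuple, loc-normalised on `R` -/
def nrm (k q3 : ℝ) (R : Finset Nd) (F : Fin 4 → Fn) : Prop :=
  ∀ j, ∀ p ∈ R, aq (qx k q3 j) p (F j) ≤ 1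

/-- `B` bounds all full regions with top level `≤ N` -/
def BN (k q3 : ℝ) (N : ℕ) (B : ℝ) : Prop :=
  ∀ bb ε, Adm bb ε → ∀ R J, Full R J → J.1 ≤ N → ∀ F, nrm k q3 R F → ‖TR bb ε R F‖ ≤ B * len J

/-- **RULE (A) = MIX**: slot `i` frozen at the top (mass `1` at parameter `t^(1+e)`), slot `m ≠ i` of
level `≤ t` at all nodes, the two other letters arbitrary.  The constant may depend LINEARLY on the
bound `B` of the top levels `≤ N` (the proofs use absorption of three small letters). -/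
def RuleA (D : Dict) (k q3 c0 c3 e t0 K : ℝ) : Prop :=
  ∀ (N : ℕ) (B : ℝ), 0 ≤ B → BN k q3 N B → ∀ t, 0 < t → t ≤ t0 → ∀ bb ε, Adm bb ε → ∀ W I,
    Full W I → I.1 ≤ N → ∀ F, nrm k q3 W F →
    ∀ i m : Fin 4, i ≠ m → Fz D i (t ^ (1 + e)) 1 I (F i) → (∀ p ∈ W, Lv D m t 1 p (F m)) →
      ‖TR bb ε W F‖ ≤ K * (1 + B) * t ^ (if m = 3 then c3 else c0) * len I

/-- frozen letters of the slots `0,1,2` at a FIXED parameter (no gain) -/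
def FrzBd (D : Dict) (k q3 : ℝ) : Prop :=
  ∀ t, 0 < t → t ≤ 1 → ∃ K : ℝ, 0 ≤ K ∧ ∀ bb ε, Adm bb ε → ∀ W I, Full W I → ∀ F, nrm k q3 W F →
    ∀ i : Fin 4, i ≠ 3 → Fz D i t 1 I (F i) → ‖TR bb ε W F‖ ≤ K * len I

/-- admissible parameters; `bt` = total margin -/
structure Ok (k q3 sg c0 c3 e c1 bt : ℝ) : Prop where
  k0 : 0 < k
  k1 : k < 1
  hq3 : 2 < q3
  sg0 : 0 ≤ sg
  sg1 : sg ≤ 1
  e0 : 0 < e
  e1 : e ≤ 1
  c10 : 0 < c1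
  c11 : c1 ≤ 1
  bt0 : 0 < bt
  /-- windows are paid by rule (A) -/
  hA : bt + 20 * k ≤ c0 - (1 + e) * c1
  /-- killer in slot 3 (used once, next to two small letters) -/
  h3 : bt + 20 * k ≤ c3 - (1 + e) * sg * (q3 - 2)
  /-- absorption of three small letters, one of them in slot 3 -/
  hC : bt + 20 * k ≤ (c1 - (1 + e) * sg * (q3 - 2)) / q3
  /-- losses of the recursion -/
  hk : 40 * k ≤ e * bt

/-- **GOAL of the recursion** -/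
def RecGoal : Prop :=
  ∀ (D : Dict) (k q3 sg c0 c3 e c1 bt t0 K : ℝ), Ok k q3 sg c0 c3 e c1 bt → 0 < t0 → 0 ≤ K →
    Dic D sg → RuleA D k q3 c0 c3 e t0 K → FrzBd D k q3 → ∃ B : ℝ, 0 ≤ B ∧ ∀ N, BN k q3 N B

/-! ### moving letters -/

/-- total form of MOVING letters (`Y j p` = letter of slot `j` at the node `p`) -/
noncomputable def TP (bb : ℤ) (ε : ℕ → ℤ → ℂ) (R : Finset Nd) (Y : Fin 4 → Nd → Fn) : ℂ :=
  ∑ p ∈ R, TI bb ε (fun j => Y j p) p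

/-- tops of a partition of `R` into full windows -/
structure Tops (R : Finset Nd) (J : Nd) (T : Finset Nd) : Prop where
  sub : T ⊆ R
  top : J ∈ T
  sib : ∀ (m : ℕ) (l : ℤ), (m + 1, l) ∈ R → ((m, 2 * l) ∈ T ↔ (m, 2 * l + 1) ∈ T)

/-- `I` is the top of the window of `p` -/
def Wn (T : Finset Nd) (I p : Nd) : Prop :=
  I ∈ T ∧ iv p ⊆ iv I ∧ ∀ I' ∈ T, iv p ⊆ iv I' → iv I ⊆ iv I'

/-- `X` is static on the windows -/
def Adp (R T : Finset Nd) (X : Nd → Fn) : Prop := ∀ p ∈ R, ∀ I, Wn T I p → X p = X I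

open Classical in
/-- number of windows strictly below each node -/
def Cnt (R T : Finset Nd) (A : ℝ) : Prop :=
  ∀ p ∈ R, ∑ I ∈ T.filter (fun I => iv I ⊂ iv p), len I ≤ A * len p

open Classical in
/-- square Carleson condition strictly below each node -/
def Sq (R T : Finset Nd) (E : Nd → Fn) (A : ℝ) : Prop :=
  ∀ p ∈ R, ∑ I ∈ T.filter (fun I => iv I ⊂ iv p), ∑ y ∈ iv I, ‖E I y‖ ^ 2 ≤ A * len p

/-- **windowed residual** `X = G - H - E` of slot `j`, level `t`, window fineness `t^c1` -/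
structure WRd (D : Dict) (k q3 sg c1 C : ℝ) (j : Fin 4) (t : ℝ) (R : Finset Nd) (J : Nd)
    (T : Finset Nd) (G : Fn) (H E X : Nd → Fn) : Prop where
  tops : Tops R J T
  adH : Adp R T H
  adE : Adp R T E
  eq : ∀ p ∈ R, ∀ y, X p y = G y - H p y - E p y
  nrm : ∀ p ∈ R, aq (qx k q3 j) p G ≤ 1
  lev : ∀ p ∈ R, Lv D j t C p (X p)
  frz : ∀ p ∈ R, Fz D j t C p (H p)
  hav : ∀ p ∈ R, av p (H p) ≤ C
  eav : ∀ p ∈ R, av p (E p) ≤ C * t ^ (c1 / 2)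
  hsup : ∀ p ∈ R, ∀ y ∈ iv p, ‖H p y‖ ≤ C * t ^ (-(sx sg j))
  esup : ∀ p ∈ R, ∀ y ∈ iv p, ‖E p y‖ ≤ C * t ^ (-(sx sg j))
  cnt : Cnt R T (C * t ^ (-c1))
  sq : Sq R T E C

/-- **[T1] WINDOWS**: common windows of four static letters at level `t`; `C` absolute -/
def WinLem : Prop :=
  ∃ C : ℝ, 1 ≤ C ∧ ∀ (D : Dict) (k q3 sg c1 : ℝ), Dic D sg → 0 < k → k < 1 → 2 < q3 → 0 ≤ sg →
    sg ≤ 1 → 0 < c1 → c1 ≤ 1 → ∀ R J, Full R J → ∀ G : Fin 4 → Fn, nrm k q3 R G →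
    ∀ t, 0 < t → t ≤ 1 → ∃ (T : Finset Nd) (H E : Fin 4 → Nd → Fn),
      ∀ j, WRd D k q3 sg c1 C j t R J T (G j) (H j) (E j)
        (fun p y => G j y - H j p y - E j p y)

/-- **[T2] CONVERSION** (random signs + localisation): a small moving letter `E` of slot `i` may be
replaced by a static one -/
def ConvLem : Prop :=
  ∀ k : ℝ, 0 < k → k ≤ 1 / 4 → ∀ C : ℝ, 1 ≤ C → ∃ C' : ℝ, 0 ≤ C' ∧
    ∀ (bb : ℤ) (i : Fin 4) (t A : ℝ), 0 < t → t ≤ 1 → 0 ≤ A → ∀ R J, Full R J →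
    ∀ (Y : Fin 4 → Nd → Fn) (T : Finset Nd) (E : Nd → Fn), Tops R J T → Adp R T E →
      (∀ p ∈ R, av p (E p) ≤ C) → (∀ p ∈ R, ∀ y ∈ iv p, ‖E p y‖ ≤ C * t⁻¹) →
      Cnt R T (C * t⁻¹) → Sq R T E C →
      (∀ ε, Adm bb ε → ∀ R' J', Full R' J' → R' ⊆ R → ∀ z : Fn,
        (∀ p ∈ R', aq (2 + k) p z ≤ 1) →
        ‖TP bb ε R' (Function.update Y i (fun _ => z))‖ ≤ A * len J') →
      ∀ ε, Adm bb ε → ‖TP bb ε R (Function.update Y i E)‖ ≤ C' * t ^ (-(5 * k)) * A * len J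

/-- **[T2a] RANDOM SIGNS**: only first, second and fourth moments. `Θ` = all sign vectors. -/
def SignLem : Prop :=
  ∀ (bb : ℤ) (i : Fin 4) (R : Finset Nd) (J : Nd), Full R J → ∀ (Y : Fin 4 → Nd → Fn)
    (T : Finset Nd) (E : Nd → Fn), Tops R J T → Adp R T E → ∀ ε, Adm bb ε →
    ∃ (n : ℕ) (_ : 0 < n) (z : Fin n → Fn) (ε' : Fin n → ℕ → ℤ → ℂ), (∀ a, Adm bb (ε' a)) ∧
      TP bb ε R (Function.update Y i E) =
        (1 / (n : ℂ)) * ∑ a, TP bb (ε' a) R (Function.update Y i (fun _ => z a)) ∧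
      (1 / (n : ℝ)) * ∑ a, ∑ y ∈ iv J, ‖z a y‖ ^ 2 ≤ ∑ I ∈ T, ∑ y ∈ iv I, ‖E I y‖ ^ 2 ∧
      (1 / (n : ℝ)) * ∑ a, ∑ y ∈ iv J, ‖z a y‖ ^ 4 ≤
        3 * ∑ y ∈ iv J, (∑ I ∈ T, if y ∈ iv I then ‖E I y‖ ^ 2 else 0) ^ 2

/-- **[T2b] LOCALISATION** of one static letter from global `L^(2+2k)` to local `L^(2+k)` -/
def LocLem : Prop :=
  ∀ k : ℝ, 0 < k → k < 1 → ∃ C' : ℝ, 0 ≤ C' ∧
    ∀ (bb : ℤ) (i : Fin 4) (A : ℝ), 0 ≤ A → ∀ R J, Full R J → ∀ (Y : Fin 4 → Nd → Fn) (ε),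
      Adm bb ε → ∀ z : Fn,
      (∀ R' J', Full R' J' → R' ⊆ R → ∀ w : Fn, (∀ p ∈ R', aq (2 + k) p w ≤ 1) →
        ‖TP bb ε R' (Function.update Y i (fun _ => w))‖ ≤ A * len J') →
      ‖TP bb ε R (Function.update Y i (fun _ => z))‖ ≤ C' * A * aq (2 + 2 * k) J z * len J

/-- `A` bounds all tuples with ONE windowed residual of level `t` (slot `m ≠ 3`), three static -/
def An (D : Dict) (k q3 sg c1 C : ℝ) (N : ℕ) (t A : ℝ) : Prop :=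
  ∀ bb ε, Adm bb ε → ∀ R J, Full R J → J.1 ≤ N → ∀ m : Fin 4, m ≠ 3 → ∀ T G H E X,
    WRd D k q3 sg c1 C m t R J T G H E X → ∀ F : Fin 4 → Fn,
    (∀ j, j ≠ m → ∀ p ∈ R, aq (qx k q3 j) p (F j) ≤ 1) →
    ‖TP bb ε R (Function.update (fun j _ => F j) m X)‖ ≤ A * len J

/-- `A` bounds all tuples with TWO windowed residuals (levels `t'`, `t`; slots `m ≠ m'`, both `≠ 3`) -/
def Bn (D : Dict) (k q3 sg c1 C : ℝ) (N : ℕ) (t' t A : ℝ) : Prop :=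
  ∀ bb ε, Adm bb ε → ∀ R J, Full R J → J.1 ≤ N → ∀ m m' : Fin 4, m ≠ 3 → m' ≠ 3 → m ≠ m' →
    ∀ T G H E X, WRd D k q3 sg c1 C m t' R J T G H E X →
    ∀ T' G' H' E' X', WRd D k q3 sg c1 C m' t R J T' G' H' E' X' → ∀ F : Fin 4 → Fn,
    (∀ j, j ≠ m → j ≠ m' → ∀ p ∈ R, aq (qx k q3 j) p (F j) ≤ 1) →
    ‖TP bb ε R (Function.update (Function.update (fun j _ => F j) m X) m' X')‖ ≤ A * len J

/-- **[T3a]** two residuals: one conversion of the coarser one -/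
def TwoLem : Prop :=
  ∀ (D : Dict) (k q3 sg c0 c3 e c1 bt t0 K C : ℝ), Ok k q3 sg c0 c3 e c1 bt → 0 < t0 → t0 ≤ 1 →
    0 ≤ K → 1 ≤ C → Dic D sg → RuleA D k q3 c0 c3 e t0 K → ∃ K' : ℝ, 0 ≤ K' ∧
    ∀ N B t A, 0 ≤ B → BN k q3 N B → 0 < t → t ≤ t0 → 0 ≤ A →
      An D k q3 sg c1 C N (t ^ (1 + e)) A →
      Bn D k q3 sg c1 C N (t ^ (1 + e)) t
        (K' * t ^ (-(6 * k)) * A + K' * (1 + B) * t ^ (bt + 10 * k))

/-- **[T3] THE STEP (R)** (`Cw` = the constant of `WinLem`) -/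
def StepLem : Prop :=
  ∃ Cw : ℝ, 1 ≤ Cw ∧ ∀ (D : Dict) (k q3 sg c0 c3 e c1 bt t0 K C : ℝ), Ok k q3 sg c0 c3 e c1 bt →
    0 < t0 → t0 ≤ 1 → 0 ≤ K → Cw ≤ C → Dic D sg → RuleA D k q3 c0 c3 e t0 K → ∃ K' : ℝ, 0 ≤ K' ∧
    ∀ N B t A, 0 ≤ B → BN k q3 N B → 0 < t → t ≤ t0 → 0 ≤ A →
      An D k q3 sg c1 C N (t ^ (1 + e)) A →
      An D k q3 sg c1 C N t (K' * t ^ (-(20 * k)) * A + K' * (1 + B) * t ^ bt)

/-- **[T4a] A PRIORI** at finite resolution -/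
def AprLem : Prop :=
  ∀ (D : Dict) (k q3 sg c0 c3 e c1 bt C : ℝ), Ok k q3 sg c0 c3 e c1 bt → Dic D sg → 1 ≤ C →
    ∀ N, ∃ K : ℝ, 0 ≤ K ∧ ∀ t, 0 < t → t ≤ 1 → An D k q3 sg c1 C N t (K * t)

/-- **[T4b] TOP STEP** (fixed parameter `t`) -/
def TopLem : Prop :=
  ∃ Cw : ℝ, 1 ≤ Cw ∧ ∀ (D : Dict) (k q3 sg c0 c3 e c1 bt C : ℝ), Ok k q3 sg c0 c3 e c1 bt →
    Dic D sg → Cw ≤ C → FrzBd D k q3 → ∃ K : ℝ, 0 ≤ K ∧ ∀ t, 0 < t → t ≤ 1 → ∃ Kt : ℝ, 0 ≤ Kt ∧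
    ∀ N B A, 0 ≤ B → BN k q3 N B → 0 ≤ A → An D k q3 sg c1 C N t A →
      BN k q3 N (Kt + K * t ^ (-(20 * k)) * A + K * B * t ^ bt)

/-- **[T5]** exit: full regions ⟹ class bound of `LqMain_853` -/
def ExitLem : Prop :=
  ∀ k q3 : ℝ, 0 < k → k < 1 → 2 < q3 → (∃ B : ℝ, 0 ≤ B ∧ ∀ N, BN k q3 N B) → Lq853.BBq (2 + k)

/-! ### wiring (to be proved: T1-T5) -/

/-- everything together -/
def Wiring : Prop := WinLem → ConvLem → RecGoal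

end Crest.Agent.R079.TRec
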