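import Crest.Agent.R079.TDfb_853

/-! R079, REC v3 (helper351): the recursion v2 for dictionaries with the WEAKER point-mass axiom
(`t^(-1/2) δ_y ∈ D j t`), so that graded dictionaries `t ↦ D j (t ^ μ j)`, `1/2 ≤ μ j ≤ 1`, are
admissible.  Literals = those of `TDef_853` / `TDfb_853`, only `Dic` and `AprLem` are changed. -/

set_option autoImplicit false

namespace Crest.Agent.R079.TRecw

open Finset Crest.Agent.R079.Grid Crest.Agent.R079.Growth Crest.Agent.R079.QRed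
open Crest.Agent.R079.TRec

/-- what the recursion needs of the dictionary, point masses only at height `t^(-1/2)` -/
structure Dic (D : Dict) (sg : ℝ) : Prop where
  /-- sup norm -/
  sup : ∀ j t, 0 < t → t ≤ 1 → ∀ φ ∈ D j t, ∀ y, ‖φ y‖ ≤ t ^ (-(sx sg j))
  /-- smaller parameter = more (renormalised) functions -/
  mono : ∀ j s t, 0 < s → s ≤ t → t ≤ 1 → ∀ φ ∈ D j t, ∃ φ' ∈ D j s, ∃ c : ℝ, 0 ≤ c ∧ c ≤ 1 ∧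
    φ = fun y => (c : ℂ) * φ' y
  /-- closed under complex conjugation -/
  conj : ∀ j t, ∀ φ ∈ D j t, (fun y => (starRingEnd ℂ) (φ y)) ∈ D j t
  /-- point masses of height at least `t^(-1/2)` -/
  ptw : ∀ j, j ≠ 3 → ∀ t, 0 < t → t ≤ 1 → ∀ y : ℤ, ∃ u : ℝ, 0 < u ∧ u ≤ t ^ (1 / 2 : ℝ) ∧
    (fun x => if x = y then ((u : ℂ))⁻¹ else 0) ∈ D j t

/-- **[T1] WINDOWS**: common windows of four static letters at level `t`; `C` absolute -/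
def WinLem : Prop :=
  ∃ C : ℝ, 1 ≤ C ∧ ∀ (D : Dict) (k q3 sg c1 : ℝ), Dic D sg → 0 < k → k < 1 → 2 < q3 → 0 ≤ sg →
    sg ≤ 1 → 0 < c1 → c1 ≤ 1 → ∀ R J, Full R J → ∀ G : Fin 4 → Fn, nrm k q3 R G →
    ∀ t, 0 < t → t ≤ 1 → ∃ (T : Finset Nd) (H E : Fin 4 → Nd → Fn),
      ∀ j, WRd D k q3 sg c1 C j t R J T (G j) (H j) (E j)
        (fun p y => G j y - H j p y - E j p y)

/-- **[T4a] A PRIORI** at finite resolution -/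
def AprLem : Prop :=
  ∀ (D : Dict) (k q3 sg c0 c3 e c1 bt C : ℝ), Ok k q3 sg c0 c3 e c1 bt → Dic D sg → 1 ≤ C →
    ∀ N, ∃ K : ℝ, 0 ≤ K ∧ ∀ t, 0 < t → t ≤ 1 → An D k q3 sg c1 C N t (K * t ^ (1 / 2 : ℝ))

/-- **[T4b] TOP STEP** (fixed parameter `t`) -/
def TopLem : Prop :=
  ∃ Cw : ℝ, 1 ≤ Cw ∧ ∀ (D : Dict) (k q3 sg c0 c3 e c1 bt C : ℝ), Ok k q3 sg c0 c3 e c1 bt →
    Dic D sg → Cw ≤ C → FrzBd D k q3 → ∃ K : ℝ, 0 ≤ K ∧ ∀ t, 0 < t → t ≤ 1 → ∃ Kt : ℝ, 0 ≤ Kt ∧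
    ∀ N B A, 0 ≤ B → BN k q3 N B → 0 ≤ A → An D k q3 sg c1 C N t A →
      BN k q3 N (Kt + K * t ^ (-(20 * k)) * A + K * B * t ^ bt)

/-- two residuals (v2) -/
def TwoLem2 : Prop :=
  ∀ (D : Dict) (k q3 c0 cS CS s1 e c1 bt κ t0 K C : ℝ) (K0 : ℕ),
    Ok2 k q3 c0 cS CS s1 e c1 bt κ K0 → 0 < t0 → t0 ≤ 1 → 0 ≤ K → 1 ≤ C → Dic D 0 →
    RuleA2 D k q3 c0 e t0 K → ∃ K' : ℝ, 0 ≤ K' ∧
    ∀ N B t A, 0 ≤ B → BN k q3 N B → 0 < t → t ≤ t0 → 0 ≤ A →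
      An D k q3 0 c1 C N (t ^ (1 + e)) A →
      Bn D k q3 0 c1 C N (t ^ (1 + e)) t
        (K' * t ^ (-(6 * k)) * A + K' * (1 + B) * t ^ (bt + 10 * κ))

/-- **THE STEP v2** -/
def StepLem2 : Prop :=
  ∃ Cw : ℝ, 1 ≤ Cw ∧ ∀ (D : Dict) (k q3 c0 cS CS s1 e c1 bt κ t0 K C : ℝ) (K0 : ℕ),
    Ok2 k q3 c0 cS CS s1 e c1 bt κ K0 → 0 < t0 → t0 ≤ 1 → 0 ≤ K → Cw ≤ C → Dic D 0 →
    RuleA2 D k q3 c0 e t0 K → RuleS D k q3 cS CS s1 e t0 K → ∃ K' : ℝ, 0 ≤ K' ∧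
    ∀ N B t A, 0 ≤ B → BN k q3 N B → 0 < t → t ≤ t0 → 0 ≤ A →
      An D k q3 0 c1 C N (t ^ (1 + e)) A →
      An D k q3 0 c1 C N t (K' * t ^ (-(20 * κ)) * A + K' * (1 + B) * t ^ bt)

/-- **GOAL of the recursion v2** (`D 3` is irrelevant: take it empty) -/
def RecGoal2 : Prop :=
  ∀ (D : Dict) (k q3 c0 cS CS s1 e c1 bt κ t0 K : ℝ) (K0 : ℕ),
    Ok2 k q3 c0 cS CS s1 e c1 bt κ K0 → 0 < t0 → 0 ≤ K →
    Dic D 0 → RuleA2 D k q3 c0 e t0 K → RuleS D k q3 cS CS s1 e t0 K → FrzBd D k q3 →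
    ∃ B : ℝ, 0 ≤ B ∧ ∀ N, BN k q3 N B

/-- what the analysis has to deliver, v2 -/
def Analytic3 : Prop :=
  ∃ (D : Dict) (k q3 c0 cS CS s1 e c1 bt κ t0 K : ℝ) (K0 : ℕ),
    Ok2 k q3 c0 cS CS s1 e c1 bt κ K0 ∧ 0 < t0 ∧ 0 ≤ K ∧ Dic D 0 ∧
    RuleA2 D k q3 c0 e t0 K ∧ RuleS D k q3 cS CS s1 e t0 K ∧ FrzBd D k q3


end Crest.Agent.R079.TRecw
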