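import Crest.Agent.R079.TS0_903
import Crest.Agent.R079.TS1_653
import Crest.Agent.R079.Qb_247

/-! R079, global recursion, [T3a] (helper903): `TwoLem` = two windowed residuals (slots `m ≠ m'`, both
`≠ 3`).  The coarser one is expanded, `X' = G' - H' - E'`: `G'` by `An`, `E'` by one conversion, `H'`
(frozen, pushed to the parameter `τ^(1+e)`, `τ = t^(1+e)`) by the scaled rule (A) at the parameter `τ`
on the common windows. -/

set_option autoImplicit false

namespace Crest.Agent.R079.TRec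

open Finset Crest.Agent.R079.Grid Crest.Agent.R079.Growth Crest.Agent.R079.QRed

namespace T3b

variable {R : Finset Nd} {J : Nd}

/-- heights of sub-regions -/
theorem ht_le {R' : Finset Nd} {J' : Nd} (hR : Full R J) (hR' : Full R' J') (hs : R' ⊆ R) :
    J'.1 ≤ J.1 := iv_level (hR.reg.1 J' (hs hR'.top))

lemma upd_at (Y : Fin 4 → Nd → Fn) (i : Fin 4) (X : Nd → Fn) (p : Nd) :
    (fun j => Function.update Y i X j p) = Function.update (fun j => Y j p) i (X p) := by
  funext j
  by_cases h : j = i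
  · subst h; simp
  · simp [h]

/-- linearity: expansion of a residual -/
theorem TP_sub3 (bb : ℤ) (ε : ℕ → ℤ → ℂ) (Y : Fin 4 → Nd → Fn) (i : Fin 4)
    {X H E : Nd → Fn} {G : Fn} (h : ∀ p ∈ R, ∀ y, X p y = G y - H p y - E p y) :
    TP bb ε R (Function.update Y i X) =
      TP bb ε R (Function.update Y i (fun _ => G)) - TP bb ε R (Function.update Y i H)
        - TP bb ε R (Function.update Y i E) := by
  unfold TP
  rw [← Finset.sum_sub_distrib, ← Finset.sum_sub_distrib]
  refine Finset.sum_congr rfl fun p hp => ?_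
  rw [upd_at, upd_at, upd_at, upd_at]
  have e : X p = fun y => ∑ k : Fin 3,
      (![1, -1, -1] : Fin 3 → ℂ) k * (![G, H p, E p] : Fin 3 → Fn) k y := by
    funext y
    rw [h p hp y, Fin.sum_univ_three]
    simp
    ring
  rw [e, Qb247.TI_update_sum, Fin.sum_univ_three]
  simp
  ring

/-- frozen at a coarse parameter = frozen at a finer one -/
theorem Fz_finer {D : Dict} {sg : ℝ} (hD : Dic D sg) {j : Fin 4} {s t M : ℝ} {p : Nd} {f : Fn}
    (hs : 0 < s) (hst : s ≤ t) (ht : t ≤ 1) (h : Fz D j t M p f) : Fz D j s M p f := by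
  obtain ⟨n, φ, c, hφ, hf, hM⟩ := h
  choose φ' hφ' a ha0 ha1 hφa using fun i => hD.mono j s t hs hst ht (φ i) (hφ i)
  refine ⟨n, φ', fun i => c i * a i, hφ', ?_, ?_⟩
  · intro y hy
    rw [hf y hy]
    refine Finset.sum_congr rfl fun i _ => ?_
    rw [hφa i]
    ring
  · refine (Finset.sum_le_sum fun i _ => ?_).trans hM
    rw [norm_mul, Complex.norm_real, Real.norm_of_nonneg (ha0 i)]
    exact mul_le_of_le_one_right (norm_nonneg _) (ha1 i)

section num

variable {k q3 sg c0 c3 e c1 bt : ℝ}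

theorem k_small (o : Ok k q3 sg c0 c3 e c1 bt) : k ≤ 1 / 80 := by
  have h1 := o.hC
  have h2 : 0 ≤ (1 + e) * sg * (q3 - 2) :=
    mul_nonneg (mul_nonneg (by linarith [o.e0]) o.sg0) (by linarith [o.hq3])
  have h3 : (c1 - (1 + e) * sg * (q3 - 2)) / q3 ≤ 1 / 2 := by
    rw [div_le_iff₀ (by linarith [o.hq3])]
    linarith [o.hq3, o.c11]
  have h4 : e * bt ≤ 1 * bt := mul_le_mul_of_nonneg_right o.e1 o.bt0.le
  linarith [o.hk, o.k0]

theorem bt_half (o : Ok k q3 sg c0 c3 e c1 bt) : bt ≤ 1 / 2 := by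
  have h1 := o.hC
  have h2 : 0 ≤ (1 + e) * sg * (q3 - 2) :=
    mul_nonneg (mul_nonneg (by linarith [o.e0]) o.sg0) (by linarith [o.hq3])
  have h3 : (c1 - (1 + e) * sg * (q3 - 2)) / q3 ≤ 1 / 2 := by
    rw [div_le_iff₀ (by linarith [o.hq3])]
    linarith [o.hq3, o.c11]
  linarith [o.k0]

theorem c0_pos (o : Ok k q3 sg c0 c3 e c1 bt) : 0 < c0 := by
  have h1 : 0 < (1 + e) * c1 := mul_pos (by linarith [o.e0]) o.c10
  linarith [o.hA, o.k0, o.bt0]

/-- the total exponent of the `H`-word -/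
theorem expo (o : Ok k q3 sg c0 c3 e c1 bt) {t : ℝ} (ht : 0 < t) (ht1 : t ≤ 1) :
    t ^ (-k) * t ^ (-k) * ((t ^ (1 + e)) ^ c0 * (t ^ (1 + e)) ^ (-c1)) ≤ t ^ (bt + 18 * k) := by
  rw [← Real.rpow_mul ht.le, ← Real.rpow_mul ht.le, ← Real.rpow_add ht, ← Real.rpow_add ht,
    ← Real.rpow_add ht]
  refine Real.rpow_le_rpow_of_exponent_ge ht ht1 ?_
  have h1 := o.hA
  have h2 : 0 ≤ e * c0 := mul_nonneg o.e0.le (c0_pos o).le
  nlinarith

end num

section slots

variable {D : Dict} {k q3 sg c1 C : ℝ} {j : Fin 4} {t : ℝ} {T : Finset Nd} {G : Fn}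
  {H E X : Nd → Fn}

lemma qx_ne (hj : j ≠ 3) : qx k q3 j = 2 + k := by simp [qx, hj]

lemma sx_ne (hj : j ≠ 3) : sx sg j = 1 := by simp [sx, hj]

lemma loss (hk : 0 < k) (ht : 0 < t) (ht1 : t ≤ 1) (hj : j ≠ 3) :
    t ^ (-(sx sg j * (qx k q3 j - 2) / qx k q3 j)) ≤ t ^ (-(k / 2)) := by
  rw [qx_ne hj, sx_ne hj]
  refine Real.rpow_le_rpow_of_exponent_ge ht ht1 ?_
  have : 1 * (2 + k - 2) / (2 + k) ≤ k / 2 := by
    rw [div_le_div_iff₀ (by linarith) (by norm_num)]
    nlinarith
  linarith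

theorem X_le (h : WRd D k q3 sg c1 C j t R J T G H E X) (hj : j ≠ 3) (hk : 0 < k) (hq3 : 2 < q3)
    (hsg : 0 ≤ sg) (hc1 : 0 ≤ c1) (hC : 1 ≤ C) (ht : 0 < t) (ht1 : t ≤ 1) {p : Nd} (hp : p ∈ R) :
    aq (qx k q3 j) p (X p) ≤ 3 * C * t ^ (-(k / 2)) :=
  (h.aqX hk hq3 hsg hc1 hC ht ht1 hp).trans
    (mul_le_mul_of_nonneg_left (loss hk ht ht1 hj) (by linarith))

theorem H_le (h : WRd D k q3 sg c1 C j t R J T G H E X) (hj : j ≠ 3) (hk : 0 < k) (hq3 : 2 < q3)
    (hC : 1 ≤ C) (ht : 0 < t) (ht1 : t ≤ 1) {p : Nd} (hp : p ∈ R) :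
    aq (qx k q3 j) p (H p) ≤ C * t ^ (-(k / 2)) :=
  (h.aqH hk hq3 (by linarith) ht hp).trans
    (mul_le_mul_of_nonneg_left (loss hk ht ht1 hj) (by linarith))

end slots

/-- **[T3a], strong form** -/
theorem two_core (hConv : ConvLem) (D : Dict) (k q3 sg c0 c3 e c1 bt t0 K C : ℝ)
    (o : Ok k q3 sg c0 c3 e c1 bt) (ht01 : t0 ≤ 1) (hK : 0 ≤ K) (hC : 1 ≤ C)
    (hD : Dic D sg) (hRA : RuleA D k q3 c0 c3 e t0 K) : ∃ K' : ℝ, 0 ≤ K' ∧
    ∀ N B t A, 0 ≤ B → BN k q3 N B → 0 < t → t ≤ t0 → 0 ≤ A →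
      An D k q3 sg c1 C N (t ^ (1 + e)) A →
      Bn D k q3 sg c1 C N (t ^ (1 + e)) t
        (K' * t ^ (-(5 * k)) * A + K' * (1 + B) * t ^ (bt + 18 * k)) := by
  classical
  obtain ⟨C', hC', hcv⟩ := hConv k o.k0 (by linarith [k_small o]) C hC
  have hC0 : 0 < C := by linarith
  refine ⟨1 + C' + 9 * C ^ 5 * K, by positivity, ?_⟩
  intro N B t A hB hBN ht htt0 hA0 hAn bb ε hA R J hR hJ m m' hm hm' hmm T G H E X hW T' G' H' E' X'
    hW' F hF
  have ht1 : t ≤ 1 := htt0.trans ht01
  set τ : ℝ := t ^ (1 + e) with hτd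
  have hτ : 0 < τ := Real.rpow_pos_of_pos ht _
  have hτt : τ ≤ t := by
    calc τ ≤ t ^ (1 : ℝ) := Real.rpow_le_rpow_of_exponent_ge ht ht1 (by linarith [o.e0])
      _ = t := Real.rpow_one t
  have hτ1 : τ ≤ 1 := hτt.trans ht1
  have hL := Growth.len_pos J
  set Y : Fin 4 → Nd → Fn := Function.update (fun j _ => F j) m X with hYd
  have hne : m' ≠ m := hmm.symm
  -- static slot `m'`
  have hstat : ∀ z : Fn, Function.update Y m' (fun _ => z)
      = Function.update (fun j _ => Function.update F m' z j) m X := by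
    intro z
    rw [hYd, Function.update_comm hmm]
    congr 1
    funext j
    by_cases hj : j = m'
    · subst hj; simp
    · simp [hj]
  have hsmall : ∀ ε', Adm bb ε' → ∀ R' J', Full R' J' → R' ⊆ R → ∀ z : Fn,
      (∀ p ∈ R', aq (2 + k) p z ≤ 1) →
      ‖TP bb ε' R' (Function.update Y m' (fun _ => z))‖ ≤ A * len J' := by
    intro ε' hε' R' J' hR' hs z hz
    rw [hstat z]
    refine hAn bb ε' hε' R' J' hR' ((ht_le hR hR' hs).trans hJ) m hm _ G H E X
      (hW.restrict hR hR' hs) (Function.update F m' z) ?_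
    intro j hj p hp
    by_cases hjm : j = m'
    · subst hjm
      rw [Function.update_self, qx_ne hm']
      exact hz p hp
    · rw [Function.update_of_ne hjm]
      exact hF j hj hjm p (hs hp)
  -- word G'
  have hG : ‖TP bb ε R (Function.update Y m' (fun _ => G'))‖ ≤ A * len J := by
    refine hsmall ε hA R J hR (Finset.Subset.refl _) G' ?_
    intro p hp
    have := hW'.nrm p hp
    rwa [qx_ne hm'] at this
  -- word E'
  have hE : ‖TP bb ε R (Function.update Y m' E')‖ ≤ C' * t ^ (-(5 * k)) * A * len J := by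
    have hc : t ^ (-c1) ≤ t⁻¹ := by
      rw [← Real.rpow_neg_one]
      exact Real.rpow_le_rpow_of_exponent_ge ht ht1 (by linarith [o.c11])
    refine hcv bb m' t A ht ht1 hA0 R J hR Y T' E' hW'.tops hW'.adE ?_ ?_ ?_ hW'.sq hsmall ε hA
    · intro p hp
      refine (hW'.eav p hp).trans ?_
      have : t ^ (c1 / 2) ≤ 1 := Real.rpow_le_one ht.le ht1 (by linarith [o.c10])
      nlinarith
    · intro p hp y hy
      refine (hW'.esup p hp y hy).trans (le_of_eq ?_)
      rw [sx_ne hm', Real.rpow_neg_one]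
    · exact hW'.cnt.mono (mul_le_mul_of_nonneg_left hc hC0.le)
  -- word H'
  have hH : ‖TP bb ε R (Function.update Y m' H')‖
      ≤ 9 * C ^ 5 * K * (1 + B) * t ^ (bt + 18 * k) * len J := by
    have hTT := hW.tops.union hW'.tops
    have hadX : Adp R (T ∪ T') X := hW.adX.finer hR hW.tops hTT Finset.subset_union_left
    have hadH : Adp R (T ∪ T') H' := hW'.adH.finer hR hW'.tops hTT Finset.subset_union_right
    have had : ∀ j, Adp R (T ∪ T') (Function.update Y m' H' j) := by
      intro j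
      by_cases hj : j = m'
      · subst hj; rw [Function.update_self]; exact hadH
      · rw [Function.update_of_ne hj, hYd]
        by_cases hj' : j = m
        · subst hj'; rw [Function.update_self]; exact hadX
        · rw [Function.update_of_ne hj']; exact Adp.const _
    have hcτ : t ^ (-c1) ≤ τ ^ (-c1) :=
      Real.rpow_le_rpow_of_nonpos hτ hτt (by linarith [o.c10])
    have hcτ1 : 1 ≤ τ ^ (-c1) :=
      Real.one_le_rpow_of_pos_of_le_one_of_nonpos hτ hτ1 (by linarith [o.c10])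
    have hcnt : Cnt R (T ∪ T') (2 * C * τ ^ (-c1)) :=
      (hW.cnt.union hW'.cnt).mono (by nlinarith)
    have hpk : t ^ (-(k / 2)) ≤ t ^ (-k) :=
      Real.rpow_le_rpow_of_exponent_ge ht ht1 (by linarith [o.k0])
    have hpk' : τ ^ (-(k / 2)) ≤ t ^ (-k) := by
      rw [hτd, ← Real.rpow_mul ht.le]
      refine Real.rpow_le_rpow_of_exponent_ge ht ht1 ?_
      nlinarith [o.k0, o.e1]
    have hk1 : 1 ≤ t ^ (-k) :=
      Real.one_le_rpow_of_pos_of_le_one_of_nonpos ht ht1 (by linarith [o.k0])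
    set a : Fin 4 → ℝ := fun j =>
      (if j = m then 3 * C * t ^ (-k) else 1) * (if j = m' then C * t ^ (-k) else 1) with had'
    have ha1 : ∀ j, 1 ≤ a j := by
      intro j
      have h1 : (1 : ℝ) ≤ (if j = m then 3 * C * t ^ (-k) else 1) := by
        split_ifs
        · nlinarith
        · exact le_refl _
      have h2 : (1 : ℝ) ≤ (if j = m' then C * t ^ (-k) else 1) := by
        split_ifs
        · nlinarith
        · exact le_refl _
      simp only [had']
      nlinarith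
    have hprod : ∏ j, a j = 3 * C * t ^ (-k) * (C * t ^ (-k)) := by
      simp only [had', Finset.prod_mul_distrib, Finset.prod_ite_eq', Finset.mem_univ, if_true]
    have hpos : 0 ≤ K * (1 + B) * C ^ 2 * (3 * C * t ^ (-k) * (C * t ^ (-k))) * τ ^ c0 := by
      have := Real.rpow_nonneg hτ.le c0
      have h1B : 0 ≤ 1 + B := by linarith
      positivity
    have hwin : ∀ I ∈ T ∪ T', ‖TR bb ε (win R (T ∪ T') I)
        (fun j => Function.update Y m' H' j I)‖
        ≤ K * (1 + B) * C ^ 2 * (3 * C * t ^ (-k) * (C * t ^ (-k))) * τ ^ c0 * len I := by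
      intro I hI
      have hWf := win_full hR hTT hI
      have hIR : I ∈ R := hTT.sub hI
      have hsub : win R (T ∪ T') I ⊆ R := win_sub
      have e1 : Function.update Y m' H' m' I = H' I := by rw [Function.update_self]
      have e2 : Function.update Y m' H' m I = X I := by
        rw [Function.update_of_ne hmm, hYd, Function.update_self]
      have hnrm : ∀ j, ∀ p ∈ win R (T ∪ T') I,
          aq (qx k q3 j) p (Function.update Y m' H' j I) ≤ a j := by
        intro j p hp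
        have hpR := hsub hp
        by_cases hj : j = m'
        · subst hj
          rw [e1, ← hadH.eq hp]
          refine (H_le hW' hm' o.k0 o.hq3 hC ht ht1 hpR).trans ?_
          simp only [had', if_neg hne, if_true, one_mul]
          exact mul_le_mul_of_nonneg_left hpk hC0.le
        · by_cases hj' : j = m
          · subst hj'
            rw [e2, ← hadX.eq hp]
            refine (X_le hW hm o.k0 o.hq3 o.sg0 o.c10.le hC hτ hτ1 hpR).trans ?_
            simp only [had', if_neg hj, if_true, mul_one]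
            exact mul_le_mul_of_nonneg_left hpk' (by positivity)
          · rw [Function.update_of_ne hj, hYd, Function.update_of_ne hj']
            refine (hF j hj' hj p hpR).trans (ha1 j)
      have hfz : Fz D m' (τ ^ (1 + e)) C I (Function.update Y m' H' m' I) := by
        rw [e1]
        refine Fz_finer hD (Real.rpow_pos_of_pos hτ _) ?_ ht1 (hW'.frz I hIR)
        calc τ ^ (1 + e) ≤ τ ^ (1 : ℝ) :=
              Real.rpow_le_rpow_of_exponent_ge hτ hτ1 (by linarith [o.e0])
          _ = τ := Real.rpow_one τ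
          _ ≤ t := hτt
      have hlv : ∀ p ∈ win R (T ∪ T') I, Lv D m τ C p (Function.update Y m' H' m I) := by
        intro p hp
        rw [e2, ← hadX.eq hp]
        exact hW.lev p (hsub hp)
      have hfin := RuleA_scaled o.k0 o.hq3 hK hRA hB hBN hτ (hτt.trans htt0) hA hWf
        ((iv_level (hR.reg.1 I hIR)).trans hJ) hC ha1 hnrm hne hfz hlv
      rwa [hprod, if_neg hm] at hfin
    have h1 := sum_win_cnt bb ε hR hTT had hpos hcnt hwin
    refine h1.trans (mul_le_mul_of_nonneg_right ?_ hL.le)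
    have h2 : 1 + 2 * C * τ ^ (-c1) ≤ 3 * C * τ ^ (-c1) := by nlinarith
    refine (mul_le_mul_of_nonneg_left h2 hpos).trans ?_
    have h3 := expo o ht ht1
    have h1B : 0 ≤ 1 + B := by linarith
    have h4 : 0 ≤ 9 * C ^ 5 * K * (1 + B) := by positivity
    calc K * (1 + B) * C ^ 2 * (3 * C * t ^ (-k) * (C * t ^ (-k))) * τ ^ c0 * (3 * C * τ ^ (-c1))
        = 9 * C ^ 5 * K * (1 + B) * (t ^ (-k) * t ^ (-k) * (τ ^ c0 * τ ^ (-c1))) := by ring
      _ ≤ 9 * C ^ 5 * K * (1 + B) * t ^ (bt + 18 * k) := mul_le_mul_of_nonneg_left h3 h4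
  have hexp : Function.update (Function.update (fun j _ => F j) m X) m' X'
      = Function.update Y m' X' := rfl
  rw [hexp, TP_sub3 bb ε Y m' hW'.eq]
  have h5 : 1 ≤ t ^ (-(5 * k)) :=
    Real.one_le_rpow_of_pos_of_le_one_of_nonpos ht ht1 (by linarith [o.k0])
  have h6 : 0 ≤ t ^ (bt + 18 * k) := Real.rpow_nonneg ht.le _
  have h1B : 0 ≤ 1 + B := by linarith
  have htri : ‖TP bb ε R (Function.update Y m' (fun _ => G')) -
      TP bb ε R (Function.update Y m' H') - TP bb ε R (Function.update Y m' E')‖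
      ≤ ‖TP bb ε R (Function.update Y m' (fun _ => G'))‖ +
        ‖TP bb ε R (Function.update Y m' H')‖ + ‖TP bb ε R (Function.update Y m' E')‖ :=
    (norm_sub_le _ _).trans (add_le_add (norm_sub_le _ _) le_rfl)
  refine htri.trans ?_
  have hfinal : A * len J + 9 * C ^ 5 * K * (1 + B) * t ^ (bt + 18 * k) * len J
      + C' * t ^ (-(5 * k)) * A * len J
      ≤ ((1 + C' + 9 * C ^ 5 * K) * t ^ (-(5 * k)) * A
        + (1 + C' + 9 * C ^ 5 * K) * (1 + B) * t ^ (bt + 18 * k)) * len J := by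
    have a1 : A ≤ t ^ (-(5 * k)) * A := le_mul_of_one_le_left hA0 h5
    have a2 : 0 ≤ 9 * C ^ 5 * K * (t ^ (-(5 * k)) * A) := by positivity
    have a3 : 0 ≤ (1 + C') * ((1 + B) * t ^ (bt + 18 * k)) := by positivity
    rw [← add_mul, ← add_mul]
    refine mul_le_mul_of_nonneg_right ?_ hL.le
    nlinarith
  linarith

end T3b

/-- **[T3a]** -/
theorem twoLem (hConv : ConvLem) : TwoLem := by
  intro D k q3 sg c0 c3 e c1 bt t0 K C o ht0 ht01 hK hC hD hRA
  obtain ⟨K', hK', h⟩ := T3b.two_core hConv D k q3 sg c0 c3 e c1 bt t0 K C o ht01 hK hC hD hRA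
  refine ⟨K', hK', fun N B t A hB hBN ht htt0 hA hAn => ?_⟩
  intro bb ε hAd R J hR hJ m m' hm hm' hmm T G H E X hW T' G' H' E' X' hW' F hF
  have h1 := h N B t A hB hBN ht htt0 hA hAn bb ε hAd R J hR hJ m m' hm hm' hmm T G H E X hW
    T' G' H' E' X' hW' F hF
  have ht1 := htt0.trans ht01
  refine h1.trans (mul_le_mul_of_nonneg_right ?_ (Growth.len_pos J).le)
  refine add_le_add (mul_le_mul_of_nonneg_right (mul_le_mul_of_nonneg_left
    (Real.rpow_le_rpow_of_exponent_ge ht ht1 (by linarith [o.k0])) hK') hA)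
    (mul_le_mul_of_nonneg_left (Real.rpow_le_rpow_of_exponent_ge ht ht1 (by linarith [o.k0]))
      (mul_nonneg hK' (by linarith)))

end Crest.Agent.R079.TRec
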