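import Crest.Agent.R079.TDef_853

/-! R079, final wiring of the global recursion (helper853). -/

set_option autoImplicit false

namespace Crest.Agent.R079.TRec

/-- what the analysis has to deliver (ONE choice of dictionary and parameters) -/
def Analytic : Prop :=
  ∃ (D : Dict) (k q3 sg c0 c3 e c1 bt t0 K : ℝ), Ok k q3 sg c0 c3 e c1 bt ∧ 0 < t0 ∧ 0 ≤ K ∧
    Dic D sg ∧ RuleA D k q3 c0 c3 e t0 K ∧ FrzBd D k q3

/-- **everything together**: the literal of `S0106` is `L0.Target` -/
theorem target_of_rec (hR : RecGoal) (hE : ExitLem) (hA : Analytic) : L0.Target := by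
  obtain ⟨D, k, q3, sg, c0, c3, e, c1, bt, t0, K, ok, ht0, hK, hD, hRA, hF⟩ := hA
  have hB := hR D k q3 sg c0 c3 e c1 bt t0 K ok ht0 hK hD hRA hF
  have h := hE k q3 ok.k0 ok.k1 ok.hq3 hB
  exact Lq853.target_of_BBq (2 + k) (by have := ok.k0; linarith) (by have := ok.k1; linarith) h

end Crest.Agent.R079.TRec
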