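import Crest.Agent.R079.TDef_853
import Crest.Agent.R079.Qf_248

/-! R079 (helper229): **[T5] `ExitLem`** of `TDef_853`: the full-region bounds `BN k q3 N B` (all `N`)
give the class bound `Lq853.BBq (2 + k)` (sibling closure of 248, homogeneity). -/

set_option autoImplicit false

namespace Crest.Agent.R079.TX229

open Crest.Agent.R079.TRec
open Finset Crest.Agent.R079.Grid Crest.Agent.R079.Growth Crest.Agent.R079.QRed
  Crest.Agent.R079.Qe292 Crest.Agent.R079.Qf248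

lemma aq_eq (q : ℝ) (hq : 0 < q) (p : Nd) (f : Fn) :
    aq q p f = av p (Lq853.aux q f) ^ (2 / q) := Lq853.avq_eq q hq _ _ f

lemma aq_nonneg (q : ℝ) (p : Nd) (f : Fn) : 0 ≤ aq q p f := Lq853.avq_nonneg q _ _ f

/-- siblings: the local average is at most twice that of the parent -/
lemma aq_sib_le {q : ℝ} (hq : 1 ≤ q) {p : Nd} {f : Fn} {a : ℝ} (h : aq q (par p) f ≤ a) :
    aq q (sib p) f ≤ 2 * a := by
  have hq0 : 0 < q := by linarith
  have h0 : 0 ≤ av (par p) (Lq853.aux q f) := av2_nonneg _ _ _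
  have h1 : av (sib p) (Lq853.aux q f) ≤ Real.sqrt 2 * av (par p) (Lq853.aux q f) :=
    av_sib_le h0 le_rfl
  have h2 : (0 : ℝ) ≤ 2 / q := by positivity
  rw [aq_eq q hq0] at h ⊢
  have h3 : av (sib p) (Lq853.aux q f) ^ (2 / q) ≤
      (Real.sqrt 2 * av (par p) (Lq853.aux q f)) ^ (2 / q) :=
    Real.rpow_le_rpow (av2_nonneg _ _ _) h1 h2
  refine h3.trans ?_
  rw [Real.mul_rpow (Real.sqrt_nonneg _) h0]
  have h4 : Real.sqrt 2 ^ (2 / q) ≤ 2 := by
    rw [Real.sqrt_eq_rpow, ← Real.rpow_mul (by norm_num : (0 : ℝ) ≤ 2)]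
    calc (2 : ℝ) ^ (1 / 2 * (2 / q)) ≤ (2 : ℝ) ^ (1 : ℝ) := by
          refine Real.rpow_le_rpow_of_exponent_le (by norm_num) ?_
          rw [show 1 / 2 * (2 / q) = 1 / q by ring, div_le_one hq0]
          exact hq
      _ = 2 := Real.rpow_one 2
  have h5 : 0 ≤ av (par p) (Lq853.aux q f) ^ (2 / q) := Real.rpow_nonneg h0 _
  nlinarith

lemma aq_cl_le {q : ℝ} (hq : 1 ≤ q) {R : Finset Nd} {J : Nd} (hR : IsRegion R J) {f : Fn} {a : ℝ}
    (h : ∀ p ∈ R, aq q p f ≤ a) : ∀ p ∈ cl R J, aq q p f ≤ 2 * a := by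
  intro p hp
  rcases mem_cl.1 hp with hp | ⟨r, hr, hne, rfl⟩
  · have h0 := (aq_nonneg q p f).trans (h p hp)
    linarith [h p hp]
  · exact aq_sib_le hq (h _ (par_in hR hr hne))

lemma aq_smul {q : ℝ} (hq : 0 < q) (p : Nd) (c : ℝ) (hc : 0 ≤ c) (f : Fn) :
    aq q p (fun y => (c : ℂ) * f y) = c * aq q p f := by
  unfold aq Lq853.avq
  have e : ∀ y, ‖(c : ℂ) * f y‖ ^ q = c ^ q * ‖f y‖ ^ q := by
    intro y
    rw [norm_mul, Complex.norm_real, Real.norm_of_nonneg hc, Real.mul_rpow hc (norm_nonneg _)]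
  simp only [e]
  rw [← Finset.mul_sum, mul_left_comm, Real.mul_rpow (Real.rpow_nonneg hc _)
    (mul_nonneg (by positivity) (Finset.sum_nonneg fun y _ => Real.rpow_nonneg (norm_nonneg _) _)),
    ← Real.rpow_mul hc, mul_one_div_cancel hq.ne', Real.rpow_one]

/-- sup norm bounds the local average -/
lemma aq_le_of_sup {q : ℝ} (hq : 0 < q) (p : Nd) {f : Fn} {a : ℝ} (ha : 0 ≤ a)
    (h : ∀ y, ‖f y‖ ≤ a) : aq q p f ≤ a := by
  unfold aq Lq853.avq
  have h1 : (1 / 2 ^ (p.1 + 7) : ℝ) * ∑ y ∈ Grid.dI (p.1 + 7) p.2, ‖f y‖ ^ q ≤ a ^ q := by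
    have h2 : ∑ y ∈ Grid.dI (p.1 + 7) p.2, ‖f y‖ ^ q ≤ ∑ _y ∈ Grid.dI (p.1 + 7) p.2, a ^ q :=
      Finset.sum_le_sum fun y _ => Real.rpow_le_rpow (norm_nonneg _) (h y) hq.le
    rw [Finset.sum_const, nsmul_eq_mul] at h2
    rw [L0e.dI_card] at h2
    calc (1 / 2 ^ (p.1 + 7) : ℝ) * ∑ y ∈ Grid.dI (p.1 + 7) p.2, ‖f y‖ ^ q
        ≤ (1 / 2 ^ (p.1 + 7) : ℝ) * (2 ^ (p.1 + 7) * a ^ q) :=
          mul_le_mul_of_nonneg_left h2 (by positivity)
      _ = a ^ q := by field_simp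
  calc ((1 / 2 ^ (p.1 + 7) : ℝ) * ∑ y ∈ Grid.dI (p.1 + 7) p.2, ‖f y‖ ^ q) ^ (1 / q)
      ≤ (a ^ q) ^ (1 / q) := Real.rpow_le_rpow (mul_nonneg (by positivity)
        (Finset.sum_nonneg fun y _ => Real.rpow_nonneg (norm_nonneg _) _)) h1 (by positivity)
    _ = a := by rw [← Real.rpow_mul ha, mul_one_div_cancel hq.ne', Real.rpow_one]

/-- **[T5]** exit -/
theorem exitLem : ExitLem := by
  classical
  rintro k q3 hk hk1 hq3 ⟨C, hC, hB⟩
  refine ⟨16 * C, by positivity, ?_⟩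
  intro b hb ε hε R J hR F A hA hF hF3
  rcases R.eq_empty_or_nonempty with rfl | hne
  · rw [Finset.sum_empty, norm_zero]
    exact mul_nonneg (by positivity) (Finset.prod_nonneg fun j _ => hA j)
  have hJ : J ∈ R := by
    obtain ⟨p, hp⟩ := hne
    exact hR.2 p hp J (hR.1 p hp) (Finset.Subset.refl _)
  have hq : (1 : ℝ) ≤ 2 + k := by linarith
  have key : ∀ δ : ℝ, 0 < δ →
      ‖∑ p ∈ R, TI b ε F p‖ ≤ 16 * C * 2 ^ (J.1 + 7) * ∏ j, (A j + δ) := by
    intro δ hδ
    have hA' : ∀ j, 0 < A j + δ := fun j => by have := hA j; linarith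
    set c : Fin 4 → ℝ := fun j => 1 / (2 * (A j + δ)) with hc
    have hcpos : ∀ j, 0 < c j := fun j => by
      have := hA' j
      rw [hc]; positivity
    have hloc : nrm k q3 (cl R J) (fun j y => (c j : ℂ) * F j y) := by
      intro j p hp
      by_cases hj : j = 3
      · subst hj
        have hq3' : 0 < q3 := by linarith
        have e : qx k q3 3 = q3 := by unfold qx; rw [if_pos rfl]
        rw [e, aq_smul hq3' p (c 3) (hcpos 3).le]
        have h1 : aq q3 p (F 3) ≤ A 3 + δ := (aq_le_of_sup hq3' p (hA 3) hF3).trans (by linarith)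
        calc c 3 * aq q3 p (F 3) ≤ c 3 * (A 3 + δ) := mul_le_mul_of_nonneg_left h1 (hcpos 3).le
          _ = 1 / 2 := by
              rw [hc]
              have := hA' 3
              field_simp
          _ ≤ 1 := by norm_num
      · have e : qx k q3 j = 2 + k := by unfold qx; rw [if_neg hj]
        rw [e, aq_smul (by linarith) p (c j) (hcpos j).le]
        have h1 := aq_cl_le hq hR (a := A j + δ) (f := F j)
          (fun q hq => (hF j hj q hq).trans (by linarith)) p hp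
        calc c j * aq (2 + k) p (F j) ≤ c j * (2 * (A j + δ)) :=
              mul_le_mul_of_nonneg_left h1 (hcpos j).le
          _ = 1 := by
              rw [hc]
              have := hA' j
              field_simp
    have h1 := hB J.1 b (L0e.epsR ε R) ⟨hb, L0e.epsR_le ε R hε⟩ (cl R J) J (full_cl hR hJ) le_rfl _
      hloc
    have e1 : TR b (L0e.epsR ε R) (cl R J) (fun j y => (c j : ℂ) * F j y) =
        (∏ j, (c j : ℂ)) * ∑ p ∈ R, TI b ε F p := by
      unfold TR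
      simp only [Qf248.TI_smul b (L0e.epsR ε R) F (fun j => (c j : ℂ))]
      rw [← Finset.mul_sum]
      congr 1
      rw [← Finset.sum_subset (sub_cl R J)]
      · refine Finset.sum_congr rfl fun p hp => ?_
        rw [L0e.TI_epsR, if_pos hp]
      · intro p _ hp
        rw [L0e.TI_epsR, if_neg hp]
    rw [e1, norm_mul, norm_prod] at h1
    have e2 : ∏ j, ‖((c j : ℝ) : ℂ)‖ = ∏ j, c j := by
      refine Finset.prod_congr rfl fun j _ => ?_
      rw [Complex.norm_real, Real.norm_eq_abs, abs_of_pos (hcpos j)]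
    rw [e2] at h1
    have e3 : (∏ j, c j) * (16 * ∏ j, (A j + δ)) = 1 := by
      rw [hc]
      simp only [Finset.prod_div_distrib, Finset.prod_mul_distrib, Finset.prod_const_one,
        Finset.prod_const, Finset.card_univ, Fintype.card_fin]
      have h5 : 0 < ∏ j, (A j + δ) := Finset.prod_pos fun j _ => hA' j
      field_simp
      norm_num
    have h6 : 0 ≤ 16 * ∏ j, (A j + δ) :=
      mul_nonneg (by norm_num) (Finset.prod_nonneg fun j _ => (hA' j).le)
    calc ‖∑ p ∈ R, TI b ε F p‖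
        = (16 * ∏ j, (A j + δ)) * ((∏ j, c j) * ‖∑ p ∈ R, TI b ε F p‖) := by
          rw [← mul_assoc, mul_comm (16 * ∏ j, (A j + δ)), e3, one_mul]
      _ ≤ (16 * ∏ j, (A j + δ)) * (C * len J) := mul_le_mul_of_nonneg_left h1 h6
      _ = _ := by unfold len; ring
  have hcont : Filter.Tendsto (fun δ : ℝ => 16 * C * 2 ^ (J.1 + 7) * ∏ j, (A j + δ))
      (nhdsWithin 0 (Set.Ioi 0)) (nhds (16 * C * 2 ^ (J.1 + 7) * ∏ j, (A j + 0))) := by
    refine Filter.Tendsto.mono_left ?_ nhdsWithin_le_nhds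
    refine (Continuous.tendsto ?_ 0)
    fun_prop
  simp only [add_zero] at hcont
  refine ge_of_tendsto hcont ?_
  filter_upwards [self_mem_nhdsWithin] with δ hδ
  exact key δ hδ

/-- exit to the literal `S0106` -/
theorem target_of_BN {k q3 : ℝ} (hk : 0 < k) (hk1 : k < 1) (hq3 : 2 < q3)
    (h : ∃ B : ℝ, 0 ≤ B ∧ ∀ N, BN k q3 N B) : L0.Target :=
  Lq853.target_of_BBq (2 + k) (by linarith) (by linarith) (exitLem k q3 hk hk1 hq3 h)

end Crest.Agent.R079.TX229
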