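import Crest.Agent.R079.TS3c_351
import Crest.Agent.R079.TS3b_903
import Crest.Agent.R079.TS2_815
import Crest.Agent.R079.TWL_649
import Crest.Agent.R079.TTop_13
import Crest.Agent.R079.TApr_964
import Crest.Agent.R079.TAsm_398
import Crest.Agent.R079.TX_229
import Crest.Agent.R079.TWire_853

/-! R079, GLOBAL RECURSION COMPLETE: `recGoal : RecGoal` (no hypotheses) and
`target_of_analytic : Analytic → L0.Target` (`L0.Target` = literal `S0106`). -/

set_option autoImplicit false

namespace Crest.Agent.R079.TRec

theorem stepLem : StepLem := S351.stepLem TWL649.winLem T2.convLem (twoLem T2.convLem)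

/-- **the whole recursion (doc 2489)** -/
theorem recGoal : RecGoal :=
  TAsm398.recGoal_of stepLem aprLem (TTop13.topLem TWL649.winLem T2.convLem)

/-- `S0106` from `RuleA` + `FrzBd` for one dictionary -/
theorem target_of_analytic (hA : Analytic) : L0.Target := target_of_rec recGoal TX229.exitLem hA

end Crest.Agent.R079.TRec
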