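import Crest.Agent.R079.TS4c_351
import Crest.Agent.R079.TS3d_903
import Crest.Agent.R079.TRec2_13
import Crest.Agent.R079.TFin_351

/-! R079, recursion v2, final wiring (helper351): `Analytic2 → L0.Target`, no other hypothesis. -/

set_option autoImplicit false

namespace Crest.Agent.R079.TRec

/-- **THE STEP v2**, no hypothesis -/
theorem stepLem2_final : StepLem2 :=
  S351.stepLem2 TWL649.winLem T2.convLem (twoLem2 T2.convLem)

/-- **GOAL of the recursion v2**, no hypothesis -/
theorem recGoal2_final : RecGoal2 := TRec213.recGoal2_of_step stepLem2_final

/-- **S0106 from `Analytic2`** -/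
theorem target_of_analytic2_final (h : Analytic2) : L0.Target :=
  TRec213.target_of_analytic2 stepLem2_final h

end Crest.Agent.R079.TRec
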