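import Crest.Agent.R079.TS4c_351
import Crest.Agent.R079.TS3d_903
import Crest.Agent.R079.TRec2_13

/-! R079, RECURSION v2 COMPLETE (helper853; pieces: 649, 815, 903, 351, 13, 964, 398, 229, 653):
`recGoal2 : RecGoal2` and `target_of_analytic2 : Analytic2 → L0.Target`, no hypotheses left.
Only `Analytic2` (= `RuleA2` + `RuleS` + `FrzBd` for ONE dictionary) is missing for `S0106`. -/

set_option autoImplicit false

namespace Crest.Agent.R079.TFin2853

open Crest.Agent.R079.TRec

theorem stepLem2 : StepLem2 := S351.stepLem2 TWL649.winLem T2.convLem (twoLem2 T2.convLem)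

/-- the whole recursion v2 -/
theorem recGoal2 : RecGoal2 := TRec213.recGoal2_of_step stepLem2

/-- only `Analytic2` is left for `S0106` -/
theorem target_of_analytic2 (h : Analytic2) : L0.Target := TRec213.target_of_analytic2 stepLem2 h

end Crest.Agent.R079.TFin2853
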