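import Crest.Agent.R079.TFin_351

/-! R079, the whole global recursion (helper853; the assembly itself is `TFin_351`): `Analytic`
(= `RuleA` + `FrzBd` for ONE dictionary) implies the literal of `S0106`. -/

set_option autoImplicit false

namespace Crest.Agent.R079.TFin853

/-- only `Analytic` is left for `S0106` -/
theorem target_of_analytic (h : TRec.Analytic) : L0.Target := TRec.target_of_analytic h

end Crest.Agent.R079.TFin853
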