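import Crest.Agent.R079.TDef_853
import Crest.Agent.R079.QbF_247
import Crest.Agent.R079.TWL_649

/-! R079, `FrzBd` of `TDef_853` (helper679): every dictionary whose elements in the slots `0,1,2` are
combinations of unit `A₃` atoms of total mass `≤ M(t)` satisfies `FrzBd` (frozen atom theorem `qb`).

* `rep_comb` : combinations of `Rep`;
* `rep_atom` : `atom j κ T a b c` with `κ (n3 a n3 b n3 c)^(1/3) ≤ M` is `Rep` of mass `M`;
* `rep_bdd` : kernels bounded by `h a, h b, h c`;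
* `frzBd_of_rep` : the literal. -/

set_option autoImplicit false

namespace Crest.Agent.R079.TFrz679

open Finset Crest.Agent.R079.Grid Crest.Agent.R079.Glue Crest.Agent.R079.Growth Crest.Agent.R079.QRed

/-- combinations of `Rep` -/
theorem rep_comb {j : Fin 4} {p : Nd} {n : ℕ} {φ : Fin n → Fn} {c : Fin n → ℂ} {M s : ℝ}
    (hM : 0 ≤ M) (h : ∀ i, Rep j p (φ i) M) (hc : ∑ i, ‖c i‖ ≤ s) {f : Fn}
    (hf : ∀ y ∈ iv p, f y = ∑ i, c i * φ i y) : Rep j p f (s * M) := by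
  choose N ψ d hA hE hS using h
  set e := Fintype.equivFin (Σ i : Fin n, Fin (N i)) with he
  refine ⟨Fintype.card (Σ i : Fin n, Fin (N i)),
    fun k => ψ (e.symm k).1 (e.symm k).2,
    fun k => c (e.symm k).1 * d (e.symm k).1 (e.symm k).2, fun k => hA _ _, ?_, ?_⟩
  · intro y hy
    rw [hf y hy]
    have h1 : ∑ k, c (e.symm k).1 * d (e.symm k).1 (e.symm k).2 * ψ (e.symm k).1 (e.symm k).2 y =
        ∑ x : (Σ i : Fin n, Fin (N i)), c x.1 * d x.1 x.2 * ψ x.1 x.2 y :=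
      Equiv.sum_comp e.symm (fun x : (Σ i : Fin n, Fin (N i)) => c x.1 * d x.1 x.2 * ψ x.1 x.2 y)
    rw [h1, Fintype.sum_sigma]
    refine Finset.sum_congr rfl fun i _ => ?_
    rw [hE i y hy, Finset.mul_sum]
    refine Finset.sum_congr rfl fun l _ => ?_
    ring
  · have h1 : ∑ k, ‖c (e.symm k).1 * d (e.symm k).1 (e.symm k).2‖ =
        ∑ x : (Σ i : Fin n, Fin (N i)), ‖c x.1 * d x.1 x.2‖ :=
      Equiv.sum_comp e.symm (fun x : (Σ i : Fin n, Fin (N i)) => ‖c x.1 * d x.1 x.2‖)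
    rw [h1, Fintype.sum_sigma]
    calc ∑ i, ∑ l, ‖c i * d i l‖ ≤ ∑ i, ‖c i‖ * M := by
          refine Finset.sum_le_sum fun i _ => ?_
          calc ∑ l, ‖c i * d i l‖ = ‖c i‖ * ∑ l, ‖d i l‖ := by
                rw [Finset.mul_sum]
                exact Finset.sum_congr rfl fun l _ => norm_mul _ _
            _ ≤ ‖c i‖ * M := mul_le_mul_of_nonneg_left (hS i) (norm_nonneg _)
      _ = (∑ i, ‖c i‖) * M := by rw [Finset.sum_mul]
      _ ≤ s * M := mul_le_mul_of_nonneg_right hc hM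

/-- a multiple of a unit atom -/
theorem rep_smul {j : Fin 4} {φ : Fn} (h : IsAtom j φ) (c : ℂ) {M : ℝ} (hc : ‖c‖ ≤ M) (p : Nd)
    {f : Fn} (hf : ∀ y ∈ iv p, f y = c * φ y) : Rep j p f M := by
  refine ⟨1, fun _ => φ, fun _ => c, fun _ => h, fun y hy => ?_, ?_⟩
  · rw [hf y hy]; simp
  · simpa using hc

/-- an `A₃` atom of mass `M` -/
theorem rep_atom {j : Fin 4} {κ : ℝ} (hκ : 0 ≤ κ) {T : Fin 3 → Finset ℤ} {a b c : ℤ → ℤ → ℂ}
    {M : ℝ} (hM : 0 < M)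
    (h : κ * (n3 (T 0) (T 1) a * n3 (T 1) (T 2) b * n3 (T 2) (T 0) c) ^ (1 / 3 : ℝ) ≤ M) (p : Nd) :
    Rep j p (atom j κ T a b c) M := by
  have hA : IsAtom j (atom j (κ / M) T a b c) := by
    refine ⟨κ / M, T, a, b, c, by positivity, rfl, ?_⟩
    rw [div_mul_eq_mul_div, div_le_one hM]
    exact h
  refine rep_smul hA (M : ℂ) ?_ p fun y _ => ?_
  · rw [Complex.norm_real, Real.norm_of_nonneg hM.le]
  · unfold atom
    have : (M : ℂ) ≠ 0 := by exact_mod_cast hM.ne'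
    push_cast
    field_simp

/-- bounded kernels: `n3 ≤ (#T #T') h³` -/
theorem n3_le {T T' : Finset ℤ} {a : ℤ → ℤ → ℂ} {h : ℝ}
    (ha : ∀ z ∈ T, ∀ z' ∈ T', ‖a z z'‖ ≤ h) : n3 T T' a ≤ (T.card * T'.card) * h ^ 3 := by
  unfold n3
  calc ∑ z ∈ T, ∑ z' ∈ T', ‖a z z'‖ ^ 3 ≤ ∑ z ∈ T, ∑ z' ∈ T', h ^ 3 :=
        Finset.sum_le_sum fun z hz => Finset.sum_le_sum fun z' hz' =>
          pow_le_pow_left₀ (norm_nonneg _) (ha z hz z' hz') 3
    _ = (T.card * T'.card) * h ^ 3 := by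
        rw [Finset.sum_const, Finset.sum_const]
        simp only [nsmul_eq_mul]
        ring

/-- bounded kernels on `T 0 × T 1 × T 2`: mass `κ (#T0 #T1 #T2)^(2/3) ha hb hc` -/
theorem rep_bdd {j : Fin 4} {κ : ℝ} (hκ : 0 ≤ κ) {T : Fin 3 → Finset ℤ} {a b c : ℤ → ℤ → ℂ}
    {ha hb hc M : ℝ} (ha0 : 0 ≤ ha) (hb0 : 0 ≤ hb) (hc0 : 0 ≤ hc)
    (h0 : ∀ z ∈ T 0, ∀ z' ∈ T 1, ‖a z z'‖ ≤ ha) (h1 : ∀ z ∈ T 1, ∀ z' ∈ T 2, ‖b z z'‖ ≤ hb)
    (h2 : ∀ z ∈ T 2, ∀ z' ∈ T 0, ‖c z z'‖ ≤ hc) (hM : 0 < M)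
    (h : κ * (((T 0).card * (T 1).card * (T 2).card : ℝ) ^ (2 / 3 : ℝ) * (ha * hb * hc)) ≤ M)
    (p : Nd) : Rep j p (atom j κ T a b c) M := by
  refine rep_atom hκ hM (le_trans ?_ h) p
  refine mul_le_mul_of_nonneg_left ?_ hκ
  have e0 := n3_le h0
  have e1 := n3_le h1
  have e2 := n3_le h2
  have p0 : 0 ≤ n3 (T 0) (T 1) a := n3_nonneg _ _ _
  have p1 : 0 ≤ n3 (T 1) (T 2) b := n3_nonneg _ _ _
  have p2 : 0 ≤ n3 (T 2) (T 0) c := n3_nonneg _ _ _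
  set x : ℝ := (T 0).card * (T 1).card * (T 2).card with hx
  have hx0 : 0 ≤ x := by positivity
  have hy0 : 0 ≤ ha * hb * hc := by positivity
  have h3 : n3 (T 0) (T 1) a * n3 (T 1) (T 2) b * n3 (T 2) (T 0) c ≤
      (x ^ (2 / 3 : ℝ) * (ha * hb * hc)) ^ (3 : ℝ) := by
    have h4 : (x ^ (2 / 3 : ℝ) * (ha * hb * hc)) ^ (3 : ℝ) = x ^ 2 * (ha * hb * hc) ^ 3 := by
      rw [Real.mul_rpow (Real.rpow_nonneg hx0 _) hy0, ← Real.rpow_mul hx0]
      norm_num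
    rw [h4]
    calc n3 (T 0) (T 1) a * n3 (T 1) (T 2) b * n3 (T 2) (T 0) c ≤
        (((T 0).card * (T 1).card) * ha ^ 3) * (((T 1).card * (T 2).card) * hb ^ 3) *
          (((T 2).card * (T 0).card) * hc ^ 3) := by
          refine mul_le_mul (mul_le_mul e0 e1 p1 ?_) e2 p2 ?_ <;> positivity
      _ = x ^ 2 * (ha * hb * hc) ^ 3 := by rw [hx]; ring
  calc (n3 (T 0) (T 1) a * n3 (T 1) (T 2) b * n3 (T 2) (T 0) c) ^ (1 / 3 : ℝ) ≤
      ((x ^ (2 / 3 : ℝ) * (ha * hb * hc)) ^ (3 : ℝ)) ^ (1 / 3 : ℝ) :=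
        Real.rpow_le_rpow (by positivity) h3 (by norm_num)
    _ = x ^ (2 / 3 : ℝ) * (ha * hb * hc) := by
        rw [← Real.rpow_mul (by positivity)]
        norm_num

/-- **`FrzBd`** for every dictionary made of `A₃` atoms (any masses `M(t)`) in the slots `0,1,2` -/
theorem frzBd_of_rep {D : TRec.Dict} {k q3 : ℝ} (hk : 0 ≤ k) (hq3 : 2 ≤ q3)
    (hD : ∀ j : Fin 4, j ≠ 3 → ∀ t : ℝ, 0 < t → t ≤ 1 → ∃ M : ℝ, 0 ≤ M ∧ ∀ φ ∈ D j t, ∀ p : Nd,
      Rep j p φ M) : TRec.FrzBd D k q3 := by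
  intro t ht ht1
  obtain ⟨K, hK, hq⟩ := qb
  choose M hM hR using fun (j : Fin 4) (hj : j ≠ 3) => hD j hj t ht ht1
  refine ⟨K * ∑ j : Fin 4, (if hj : j ≠ 3 then M j hj else 0), ?_, ?_⟩
  · refine mul_nonneg hK (Finset.sum_nonneg fun j _ => ?_)
    split_ifs with hj
    · exact hM j hj
    · exact le_rfl
  intro bb ε hε W I hW F hF i hi hfz
  obtain ⟨n, φ, c, hφ, hf, hc⟩ := hfz
  have hrep : Rep i I (F i) (1 * M i hi) :=
    rep_comb (hM i hi) (fun l => hR i hi _ (hφ l) I) hc hf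
  have hloc : ∀ j, ∀ p ∈ W, av p (F j) ≤ 1 := by
    intro j p hp
    refine (TWL649.av_le_aq ?_ p (F j)).trans (hF j p hp)
    unfold TRec.qx
    split_ifs
    · exact hq3
    · linarith
  have h1 := hq bb ε hε W I hW F (fun _ => 1) (fun _ => zero_le_one) hloc i (1 * M i hi) hrep
  refine h1.trans ?_
  have hlen : 0 ≤ len I := by unfold len; positivity
  have h2 : M i hi ≤ ∑ j : Fin 4, (if hj : j ≠ 3 then M j hj else 0) := by
    have h3 : M i hi = (if hj : i ≠ 3 then M i hj else 0) := by rw [dif_pos hi]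
    rw [h3]
    refine Finset.single_le_sum (f := fun j : Fin 4 => (if hj : j ≠ 3 then M j hj else 0))
      (fun j _ => ?_) (Finset.mem_univ i)
    split_ifs with hj
    · exact hM j hj
    · exact le_rfl
  simp only [Finset.prod_const_one, mul_one, one_mul]
  exact mul_le_mul_of_nonneg_right (mul_le_mul_of_nonneg_left h2 hK) hlen

end Crest.Agent.R079.TFrz679
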