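import Crest.Agent.R079.Qe_292
import Crest.Agent.R079.Qh_249
import Crest.Agent.R079.MaxQ_398

/-! R079, M4 (doc 2489 of helper911, "Norms"), piece LOCALISATION, part 1 (helper13): stopping at the
doubling of the running maxima.  `v i` = local norm of the letter `i ∈ S` at a node; if the class
bound holds on every full sub-region with the local norms there, it holds on `R` with
`∑_y ∏ Mx i y`. -/

set_option autoImplicit false

namespace Crest.Agent.R079.TLoc13

open Finset Crest.Agent.R079.Grid Crest.Agent.R079.Growth Crest.Agent.R079.QRed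
open Crest.Agent.R079.Qe292

section tops

variable {R : Finset Nd} {g : Nd → Nd → ℝ} {δ : ℝ} {J : Nd}

/-- the set of all tops below `I`, with an arbitrary weight `Λ` of the tops controlled by a
potential `Ψ` -/
lemma tops_gen (hR : Full R J) {Λ Ψ : Nd → ℝ} (hΛ : ∀ K, K ∈ R → 0 ≤ Λ K)
    (hΨ : ∀ I ∈ R, Λ I + ∑ c ∈ Tp R g δ I, Ψ c ≤ Ψ I) :
    ∀ (n : ℕ) (I : Nd), I ∈ R → I.1 < n → ∃ S : Finset Nd, S ⊆ R ∧ (∀ K ∈ S, iv K ⊆ iv I) ∧
      (∀ K ∈ S, ∀ K' ∈ S, K ≠ K' → Disjoint (Wd R g δ K) (Wd R g δ K')) ∧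
      (∀ p ∈ R, iv p ⊆ iv I → ∃ K ∈ S, p ∈ Wd R g δ K) ∧
      ∑ K ∈ S, Λ K ≤ Ψ I := by
  classical
  intro n
  induction n with
  | zero => intro I _ h; omega
  | succ n ih =>
    intro I hI hn
    have hex : ∀ c : Nd, ∃ S : Finset Nd, c ∈ Tp R g δ I → (S ⊆ R ∧ (∀ K ∈ S, iv K ⊆ iv c) ∧
      (∀ K ∈ S, ∀ K' ∈ S, K ≠ K' → Disjoint (Wd R g δ K) (Wd R g δ K')) ∧
      (∀ p ∈ R, iv p ⊆ iv c → ∃ K ∈ S, p ∈ Wd R g δ K) ∧
      ∑ K ∈ S, Λ K ≤ Ψ c) := by
      intro c
      by_cases hc : c ∈ Tp R g δ I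
      · have hl := Tp_level hI hc
        obtain ⟨S, hS⟩ := ih c (mem_Tp.1 hc).1 (by omega)
        exact ⟨S, fun _ => hS⟩
      · exact ⟨∅, fun h => absurd h hc⟩
    choose S hS using hex
    have hSR : ({I} ∪ (Tp R g δ I).biUnion S) ⊆ R := by
      refine Finset.union_subset (Finset.singleton_subset_iff.2 hI) ?_
      exact Finset.biUnion_subset.2 fun c hc => (hS c hc).1
    refine ⟨{I} ∪ (Tp R g δ I).biUnion S, hSR, ?_, ?_, ?_, ?_⟩
    · intro K hK
      rcases Finset.mem_union.1 hK with h | h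
      · rw [Finset.mem_singleton.1 h]
      · obtain ⟨c, hc, hKc⟩ := Finset.mem_biUnion.1 h
        exact ((hS c hc).2.1 K hKc).trans (mem_Tp.1 hc).2.1
    · -- disjointness
      have hA : ∀ K ∈ (Tp R g δ I).biUnion S, Disjoint (Wd R g δ I) (Wd R g δ K) := by
        intro K hK
        obtain ⟨c, hc, hKc⟩ := Finset.mem_biUnion.1 hK
        rw [Finset.disjoint_left]
        intro p hpI hpK
        have h1 : iv p ⊆ iv c := (mem_Wd.1 hpK).2.1.trans ((hS c hc).2.1 K hKc)
        exact (mem_Tp.1 hc).2.2.1 (Wd_up hR hI hpI h1 (mem_Tp.1 hc).2.1)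
      intro K hK K' hK' hne
      rcases Finset.mem_union.1 hK with h | h <;> rcases Finset.mem_union.1 hK' with h' | h'
      · rw [Finset.mem_singleton.1 h, Finset.mem_singleton.1 h'] at hne
        exact absurd rfl hne
      · rw [Finset.mem_singleton.1 h]
        exact hA K' h'
      · rw [Finset.mem_singleton.1 h']
        exact (hA K h).symm
      · obtain ⟨c, hc, hKc⟩ := Finset.mem_biUnion.1 h
        obtain ⟨c', hc', hKc'⟩ := Finset.mem_biUnion.1 h'
        by_cases hcc : c = c'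
        · subst hcc
          exact (hS c hc).2.2.1 K hKc K' hKc' hne
        · rw [Finset.disjoint_left]
          intro p hp hp'
          exact hcc (Tp_disj hR hI hc hc'
            ((mem_Wd.1 hp).2.1.trans ((hS c hc).2.1 K hKc))
            ((mem_Wd.1 hp').2.1.trans ((hS c' hc').2.1 K' hKc')))
    · -- cover
      intro p hp hpI
      by_cases hw : p ∈ Wd R g δ I
      · exact ⟨I, Finset.mem_union_left _ (Finset.mem_singleton_self I), hw⟩
      · have hl := Qe292.iv_level hpI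
        obtain ⟨c, hc, hpc⟩ := below_top hR hI (I.1 - p.1) p (by omega) hp hpI hw
        obtain ⟨K, hK, hK'⟩ := (hS c hc).2.2.2.1 p hp hpc
        exact ⟨K, Finset.mem_union_right _ (Finset.mem_biUnion.2 ⟨c, hc, hK⟩), hK'⟩
    · -- weights
      have h1 : ∑ K ∈ {I} ∪ (Tp R g δ I).biUnion S, Λ K
          ≤ Λ I + ∑ K ∈ (Tp R g δ I).biUnion S, Λ K := by
        have := Finset.sum_union_inter (s₁ := ({I} : Finset Nd))
          (s₂ := (Tp R g δ I).biUnion S) (f := Λ)
        rw [Finset.sum_singleton] at this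
        have h0 : 0 ≤ ∑ K ∈ {I} ∩ (Tp R g δ I).biUnion S, Λ K :=
          Finset.sum_nonneg fun K hK => hΛ K (hSR (Finset.mem_union_right _
            (Finset.mem_of_mem_inter_right hK)))
        linarith
      have h2 : ∑ K ∈ (Tp R g δ I).biUnion S, Λ K ≤ ∑ c ∈ Tp R g δ I, ∑ K ∈ S c, Λ K := by
        have hd : Set.PairwiseDisjoint (Tp R g δ I : Set Nd) S := by
          intro c hc c' hc' hne
          rw [Function.onFun, Finset.disjoint_left]
          intro K hK hK'
          exact hne (Tp_disj hR hI (by exact_mod_cast hc) (by exact_mod_cast hc')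
            ((hS c (by exact_mod_cast hc)).2.1 K hK)
            ((hS c' (by exact_mod_cast hc')).2.1 K hK'))
        rw [Finset.sum_biUnion hd]
      have h3 : ∑ c ∈ Tp R g δ I, ∑ K ∈ S c, Λ K ≤ ∑ c ∈ Tp R g δ I, Ψ c :=
        Finset.sum_le_sum fun c hc => (hS c hc).2.2.2.2
      have h4 := hΨ I hI
      linarith

end tops

/-! ### the running maximum over the strict ancestors -/

section rm

variable (R : Finset Nd) (J : Nd) (v : Nd → ℝ)

open Classical in
/-- strict ancestors in `R`, and `J` -/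
noncomputable def An (p : Nd) : Finset Nd := insert J (R.filter fun q => iv p ⊆ iv q ∧ q ≠ p)

lemma An_ne (p : Nd) : (An R J p).Nonempty := ⟨J, by unfold An; exact Finset.mem_insert_self _ _⟩

/-- running maximum over the strict ancestors -/
noncomputable def rm (p : Nd) : ℝ := (An R J p).sup' (An_ne R J p) v

variable {R J v}

lemma mem_An {p q : Nd} : q ∈ An R J p ↔ q = J ∨ (q ∈ R ∧ iv p ⊆ iv q ∧ q ≠ p) := by
  unfold An
  rw [Finset.mem_insert, Finset.mem_filter]

lemma le_rm {p q : Nd} (h : q ∈ An R J p) : v q ≤ rm R J v p := by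
  unfold rm
  exact Finset.le_sup' v h

lemma rm_le {p : Nd} {x : ℝ} (h : ∀ q ∈ An R J p, v q ≤ x) : rm R J v p ≤ x := by
  unfold rm
  exact Finset.sup'_le _ _ h

lemma rm_mono {p I : Nd} (h : iv p ⊆ iv I) : rm R J v I ≤ rm R J v p := by
  refine rm_le fun q hq => le_rm ?_
  rw [mem_An] at hq ⊢
  rcases hq with h1 | ⟨h1, h2, h3⟩
  · exact Or.inl h1
  · refine Or.inr ⟨h1, h.trans h2, ?_⟩
    rintro rfl
    exact h3 (iv_antisymm h h2)

lemma An_sib {c q : Nd} (h : q ∈ An R J c) : q ∈ An R J (sib c) := by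
  rw [mem_An] at h ⊢
  rcases h with h1 | ⟨h1, h2, h3⟩
  · exact Or.inl h1
  · refine Or.inr ⟨h1, ?_, ?_⟩
    · have h4 := par_sub h2 (Ne.symm h3)
      have h5 := iv_par (sib c)
      rw [par_sib] at h5
      exact h5.trans h4
    · rintro rfl
      have h4 := par_sub h2 (Ne.symm h3)
      have := Qe292.iv_level h4
      simp only [par, sib] at this
      omega

lemma rm_sib (c : Nd) : rm R J v (sib c) = rm R J v c := by
  refine le_antisymm (rm_le fun q hq => le_rm ?_) (rm_le fun q hq => le_rm (An_sib hq))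
  have := An_sib hq
  rwa [sib_sib] at this

end rm

lemma iv_disj_of {R : Finset Nd} {g : Nd → Nd → ℝ} {δ : ℝ} {J I : Nd} (hR : Full R J) (hI : I ∈ R)
    {c c' : Nd} (hc : c ∈ Tp R g δ I) (hc' : c' ∈ Tp R g δ I) (hne : c ≠ c') :
    Disjoint (iv c) (iv c') := by
  rw [Finset.disjoint_left]
  intro y hy hy'
  rcases iv_nest hy hy' with h | h
  · exact hne (Tp_disj hR hI hc hc' subset_rfl h)
  · exact hne (Tp_disj hR hI hc hc' h subset_rfl)

/-- **stopping at the doubling of the running maxima** -/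
theorem loc_global {ι : Type*} (S : Finset ι) {R : Finset Nd} {J : Nd} (hR : Full R J)
    (v : ι → Nd → ℝ) (D : ℝ) (hD : 1 ≤ D) (hv0 : ∀ i ∈ S, ∀ p ∈ R, 0 ≤ v i p)
    (hvD : ∀ i ∈ S, ∀ p ∈ R, par p ∈ R → v i p ≤ D * v i (par p))
    (Mx : ι → ℤ → ℝ) (hMx : ∀ i ∈ S, ∀ p ∈ R, ∀ y ∈ iv p, v i p ≤ Mx i y)
    (c : Nd → ℂ) (a : ℝ) (ha : 0 ≤ a)
    (hyp : ∀ (W : Finset Nd) (I : Nd), Full W I → W ⊆ R → ∀ l : ι → ℝ, (∀ i ∈ S, 0 ≤ l i) →
      (∀ i ∈ S, ∀ p ∈ W, v i p ≤ l i) → ‖∑ p ∈ W, c p‖ ≤ a * (∏ i ∈ S, l i) * len I) :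
    ‖∑ p ∈ R, c p‖ ≤ 2 * (2 * D) ^ S.card * a * ∑ y ∈ iv J, ∏ i ∈ S, Mx i y := by
  classical
  set m : ι → Nd → ℝ := fun i p => rm R J (v i) p with hm
  set lam : Nd → ℝ := fun p => ∏ i ∈ S, m i p with hlam
  set P : ℤ → ℝ := fun y => ∏ i ∈ S, Mx i y with hP
  set g : Nd → Nd → ℝ := fun I p => if ∃ i ∈ S, 2 * m i I < m i p then 1 else 0 with hg
  have hm0 : ∀ i ∈ S, ∀ p, 0 ≤ m i p := fun i hi p =>
    (hv0 i hi J hR.top).trans (le_rm (mem_An.2 (Or.inl rfl)))
  have hlam0 : ∀ p, 0 ≤ lam p := fun p => Finset.prod_nonneg fun i hi => hm0 i hi p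
  -- the running maximum is below `Mx`
  have hmM : ∀ i ∈ S, ∀ p ∈ R, ∀ y ∈ iv p, m i p ≤ Mx i y := by
    intro i hi p hp y hy
    refine rm_le fun q hq => ?_
    rcases mem_An.1 hq with h1 | ⟨h1, h2, _⟩
    · rw [h1]
      exact hMx i hi J hR.top y (hR.reg.1 p hp hy)
    · exact hMx i hi q h1 y (h2 hy)
  have hlP : ∀ p ∈ R, ∀ y ∈ iv p, lam p ≤ P y := fun p hp y hy =>
    Finset.prod_le_prod (fun i hi => hm0 i hi p) fun i hi => hmM i hi p hp y hy
  -- doubling at the next tops
  have hdbl : ∀ I c', c' ∈ Tp R g (1 / 2) I → 2 * lam I ≤ lam c' := by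
    intro I c' hc'
    have hb := Tp_bad hc'
    have hsub : iv c' ⊆ iv I := (mem_Tp.1 hc').2.1
    have hex : ∃ i ∈ S, 2 * m i I < m i c' := by
      rcases hb with h | h
      · by_contra hcon
        simp only [hg, if_neg hcon] at h
        linarith
      · by_contra hcon
        have e : ∀ i, m i (sib c') = m i c' := fun i => rm_sib c'
        simp only [hg, e, if_neg hcon] at h
        linarith
    obtain ⟨i, hi, hlt⟩ := hex
    simp only [hlam]
    rw [← Finset.mul_prod_erase S (fun i => m i I) hi, ← Finset.mul_prod_erase S (fun i => m i c') hi]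
    have h1 : ∏ x ∈ S.erase i, m x I ≤ ∏ x ∈ S.erase i, m x c' :=
      Finset.prod_le_prod (fun x hx => hm0 x (Finset.mem_of_mem_erase hx) I)
        fun x _ => rm_mono hsub
    have h0 : 0 ≤ ∏ x ∈ S.erase i, m x I :=
      Finset.prod_nonneg fun x hx => hm0 x (Finset.mem_of_mem_erase hx) I
    have h2 := hm0 i hi I
    calc 2 * (m i I * ∏ x ∈ S.erase i, m x I) = (2 * m i I) * ∏ x ∈ S.erase i, m x I := by ring
      _ ≤ m i c' * ∏ x ∈ S.erase i, m x c' :=
        mul_le_mul hlt.le h1 h0 (hm0 i hi c')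
  -- the potential
  set Ψ : Nd → ℝ := fun I => 2 * ∑ y ∈ iv I, P y - lam I * len I with hΨd
  have hΨ : ∀ I ∈ R, lam I * len I + ∑ c' ∈ Tp R g (1 / 2) I, Ψ c' ≤ Ψ I := by
    intro I hI
    have h1 : ∑ c' ∈ Tp R g (1 / 2) I, Ψ c' ≤
        ∑ c' ∈ Tp R g (1 / 2) I, 2 * ∑ y ∈ iv c', (P y - lam I) := by
      refine Finset.sum_le_sum fun c' hc' => ?_
      simp only [hΨd]
      rw [Finset.sum_sub_distrib, Finset.sum_const, nsmul_eq_mul, Growth.card_iv]
      have h2 := mul_le_mul_of_nonneg_right (hdbl I c' hc') (Qe292.len_pos c').le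
      linarith
    have h2 : ∑ c' ∈ Tp R g (1 / 2) I, 2 * ∑ y ∈ iv c', (P y - lam I) ≤
        2 * ∑ y ∈ iv I, (P y - lam I) := by
      rw [← Finset.mul_sum]
      refine mul_le_mul_of_nonneg_left ?_ (by norm_num)
      have hd : Set.PairwiseDisjoint (Tp R g (1 / 2) I : Set Nd) iv := by
        intro c' hc' c'' hc'' hne
        exact iv_disj_of hR hI (by exact_mod_cast hc') (by exact_mod_cast hc'') hne
      rw [← Finset.sum_biUnion hd]
      refine Finset.sum_le_sum_of_subset_of_nonneg ?_ fun y hy _ => ?_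
      · exact Finset.biUnion_subset.2 fun c' hc' => (mem_Tp.1 hc').2.1
      · have := hlP I hI y hy
        linarith
    have h3 : 2 * ∑ y ∈ iv I, (P y - lam I) = 2 * ∑ y ∈ iv I, P y - 2 * (lam I * len I) := by
      rw [Finset.sum_sub_distrib, Finset.sum_const, nsmul_eq_mul, Growth.card_iv]
      ring
    simp only [hΨd] at *
    linarith
  obtain ⟨T, hTR, hTJ, hTd, hTc, hTl⟩ := tops_gen (g := g) (δ := 1 / 2) hR
    (Λ := fun K => lam K * len K) (Ψ := Ψ)
    (fun K _ => mul_nonneg (hlam0 K) (Qe292.len_pos K).le) hΨ (J.1 + 1) J hR.top (Nat.lt_succ_self _)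
  -- split the sum
  have hsplit : ∑ p ∈ R, c p = ∑ K ∈ T, ∑ p ∈ Wd R g (1 / 2) K, c p := by
    rw [← Finset.sum_biUnion]
    · refine Finset.sum_congr ?_ fun _ _ => rfl
      ext p
      rw [Finset.mem_biUnion]
      constructor
      · intro hp
        exact hTc p hp (hR.reg.1 p hp)
      · rintro ⟨K, _, hK⟩
        exact Wd_sub hK
    · intro K hK K' hK' hne
      exact hTd K (by exact_mod_cast hK) K' (by exact_mod_cast hK') hne
  have hwin : ∀ K ∈ T, ‖∑ p ∈ Wd R g (1 / 2) K, c p‖ ≤ a * ((2 * D) ^ S.card * lam K) * len K := by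
    intro K hK
    have h1 := hyp (Wd R g (1 / 2) K) K (Wd_full hR (hTR hK)) Wd_sub
      (fun i => 2 * D * m i K) (fun i hi => mul_nonneg (by linarith) (hm0 i hi K)) ?_
    · rw [Finset.prod_mul_distrib, Finset.prod_const] at h1
      exact h1
    · intro i hi p hp
      have hpR : p ∈ R := Wd_sub hp
      have hmp : m i p ≤ 2 * m i K := by
        have hgg : g K p ≤ 1 / 2 := by
          refine Wd_good (fun I => ?_) hp
          have : ¬ ∃ i ∈ S, 2 * m i I < m i I := by
            rintro ⟨i, hi, h⟩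
            have := hm0 i hi I
            linarith
          simp only [hg, if_neg this]
          norm_num
        by_contra hcon
        push Not at hcon
        have : ∃ i ∈ S, 2 * m i K < m i p := ⟨i, hi, hcon⟩
        simp only [hg, if_pos this] at hgg
        linarith
      have h0 := hm0 i hi K
      by_cases hpJ : p = J
      · have h2 : v i p ≤ m i p := by
          rw [hpJ]
          exact le_rm (mem_An.2 (Or.inl rfl))
        have h3 : 2 * m i K ≤ 2 * D * m i K := by nlinarith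
        linarith
      · have hpar : par p ∈ R := hR.reg.2 p hpR _ (iv_par p) (par_sub (hR.reg.1 p hpR) hpJ)
        have h2 : v i (par p) ≤ m i p := by
          refine le_rm (mem_An.2 (Or.inr ⟨hpar, iv_par p, ?_⟩))
          intro h
          have := congrArg Prod.fst h
          simp only [par] at this
          omega
        have h3 := hvD i hi p hpR hpar
        have h4 : D * v i (par p) ≤ D * (2 * m i K) :=
          mul_le_mul_of_nonneg_left (h2.trans hmp) (by linarith)
        linarith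
  rw [hsplit]
  refine (norm_sum_le _ _).trans ((Finset.sum_le_sum hwin).trans ?_)
  have e1 : ∑ K ∈ T, a * ((2 * D) ^ S.card * lam K) * len K
      = a * (2 * D) ^ S.card * ∑ K ∈ T, lam K * len K := by
    rw [Finset.mul_sum]
    exact Finset.sum_congr rfl fun K _ => by ring
  rw [e1]
  have h5 : ∑ K ∈ T, lam K * len K ≤ 2 * ∑ y ∈ iv J, P y := by
    refine hTl.trans ?_
    simp only [hΨd]
    have := mul_nonneg (hlam0 J) (Qe292.len_pos J).le
    linarith
  have h6 : 0 ≤ a * (2 * D) ^ S.card := mul_nonneg ha (pow_nonneg (by linarith) _)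
  calc a * (2 * D) ^ S.card * ∑ K ∈ T, lam K * len K
      ≤ a * (2 * D) ^ S.card * (2 * ∑ y ∈ iv J, P y) := mul_le_mul_of_nonneg_left h5 h6
    _ = _ := by ring

end Crest.Agent.R079.TLoc13
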