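import Crest.Agent.R079.TLocA_13

/-! R079, M4 (doc 2489), piece LOCALISATION, part 2 (helper13): maximal theorem for the running
maximum of the local `L^q` averages in `ℓ^r`, all `0 < q < r` (398's potential with `3` replaced by
`r`), and the localisation with one or two slots in a global `ℓ^r` norm. -/

set_option autoImplicit false

namespace Crest.Agent.R079.TLoc13

open Finset Crest.Agent.R079.Grid Crest.Agent.R079.Growth Crest.Agent.R079.QRed
open Crest.Agent.R079.Qe292 Crest.Agent.R079.L0q Crest.Agent.R079.L0e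

lemma mul_self_rpow' {q r a : ℝ} (hq : 0 < q) (hqr : q < r) (ha : 0 ≤ a) :
    a ^ (r - q) * a ^ q = a ^ r := by
  rw [← Real.rpow_add_of_nonneg ha (by linarith) hq.le]
  congr 1
  ring

/-- weighted AM-GM with a parameter -/
lemma amgm' {q r M a : ℝ} (hq : 0 < q) (hqr : q < r) (hM : 0 ≤ M) (ha : 0 ≤ a) :
    r * (M ^ (r - q) * a ^ q) ≤ (r - q) * M ^ r + q * a ^ r := by
  have hr : 0 < r := hq.trans hqr
  have h := Real.geom_mean_le_arith_mean2_weighted (w₁ := (r - q) / r) (w₂ := q / r)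
    (p₁ := M ^ r) (p₂ := a ^ r) (div_nonneg (by linarith) hr.le) (div_nonneg hq.le hr.le)
    (Real.rpow_nonneg hM _) (Real.rpow_nonneg ha _) (by field_simp; ring)
  have e1 : (M ^ r) ^ ((r - q) / r) = M ^ (r - q) := by
    rw [← Real.rpow_mul hM]
    congr 1
    field_simp
  have e2 : (a ^ r) ^ (q / r) = a ^ q := by
    rw [← Real.rpow_mul ha]
    congr 1
    field_simp
  rw [e1, e2] at h
  have h2 := mul_le_mul_of_nonneg_left h hr.le
  have e3 : r * ((r - q) / r * M ^ r + q / r * a ^ r) = (r - q) * M ^ r + q * a ^ r := by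
    field_simp
  rw [e3] at h2
  exact h2

/-- the constant of the maximal theorem (before division by `r - q`) -/
noncomputable def yc (q r : ℝ) : ℝ := q * (2 : ℝ) ^ ((r - q) / q)

lemma yc_nonneg {q r : ℝ} (hq : 0 < q) : 0 ≤ yc q r :=
  mul_nonneg hq.le (Real.rpow_nonneg (by norm_num) _)

lemma young' {q r M t : ℝ} (hq : 0 < q) (hqr : q < r) (hM : 0 ≤ M) (ht : 0 ≤ t) :
    r * (M ^ (r - q) * t ^ q) ≤ (r - q) / 2 * M ^ r + yc q r * t ^ r := by
  have hr : 0 < r := hq.trans hqr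
  set u : ℝ := (2 : ℝ) ^ (-(1 / r)) with hu
  set w : ℝ := (2 : ℝ) ^ ((r - q) / (q * r)) with hw
  have hu0 : 0 ≤ u := Real.rpow_nonneg (by norm_num) _
  have hw0 : 0 ≤ w := Real.rpow_nonneg (by norm_num) _
  have h := amgm' (M := u * M) (a := w * t) hq hqr (mul_nonneg hu0 hM) (mul_nonneg hw0 ht)
  rw [Real.mul_rpow hu0 hM, Real.mul_rpow hw0 ht, Real.mul_rpow hu0 hM, Real.mul_rpow hw0 ht] at h
  have e1 : u ^ (r - q) * w ^ q = 1 := by
    rw [hu, hw, ← Real.rpow_mul (by norm_num), ← Real.rpow_mul (by norm_num),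
      ← Real.rpow_add (by norm_num)]
    have : -(1 / r) * (r - q) + (r - q) / (q * r) * q = 0 := by
      field_simp
      ring
    rw [this, Real.rpow_zero]
  have e2 : u ^ r = 1 / 2 := by
    rw [hu, ← Real.rpow_mul (by norm_num)]
    have : -(1 / r) * r = -1 := by field_simp
    rw [this, Real.rpow_neg_one]
    norm_num
  have e3 : w ^ r = (2 : ℝ) ^ ((r - q) / q) := by
    rw [hw, ← Real.rpow_mul (by norm_num)]
    congr 1
    field_simp
  have e4 : u ^ (r - q) * M ^ (r - q) * (w ^ q * t ^ q) = M ^ (r - q) * t ^ q := by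
    calc u ^ (r - q) * M ^ (r - q) * (w ^ q * t ^ q)
        = (u ^ (r - q) * w ^ q) * (M ^ (r - q) * t ^ q) := by ring
      _ = _ := by rw [e1, one_mul]
  rw [e4, e2, e3] at h
  unfold yc
  linarith

lemma pot_child' {q r M a : ℝ} (hq : 0 < q) (hqr : q < r) (hM : 0 ≤ M) (ha : 0 ≤ a) :
    r * (M ^ (r - q) * a ^ q) - (r - q) * M ^ r ≤
      r * ((max M a) ^ (r - q) * a ^ q) - (r - q) * (max M a) ^ r := by
  rcases le_total M a with h | h
  · rw [max_eq_right h, mul_self_rpow' hq hqr ha]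
    have := amgm' hq hqr hM ha
    linarith
  · rw [max_eq_left h]

/-- the potential -/
noncomputable def Wr (q r : ℝ) (T : ℕ) (f : ℤ → ℂ) (A B : ℤ) (d : ℕ) : ℝ :=
  ∑ l ∈ Finset.Ico (A * 2 ^ d) (B * 2 ^ d),
    2 ^ (T - d + 7) * (r * (Mq q T f d l ^ (r - q) * avq q (T - d + 7) l f ^ q) -
      (r - q) * Mq q T f d l ^ r)

lemma Wr_zero {q r : ℝ} (hq : 0 < q) (hqr : q < r) (T : ℕ) (f : ℤ → ℂ) (A B : ℤ) :
    0 ≤ Wr q r T f A B 0 := by
  unfold Wr
  refine Finset.sum_nonneg fun l _ => ?_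
  have h : (0 : ℝ) ≤ avq q (T + 7) l f := avq_nonneg _ _ _ _
  have e : r * (Mq q T f 0 l ^ (r - q) * avq q (T - 0 + 7) l f ^ q) -
      (r - q) * Mq q T f 0 l ^ r = q * avq q (T + 7) l f ^ r := by
    simp only [Mq, Nat.sub_zero]
    rw [mul_self_rpow' hq hqr h]
    ring
  rw [e]
  have := Real.rpow_nonneg h r
  positivity

lemma Wr_succ {q r : ℝ} (hq : 0 < q) (hqr : q < r) (T : ℕ) (f : ℤ → ℂ) (A B : ℤ) (d : ℕ)
    (hd : d + 1 ≤ T) : Wr q r T f A B d ≤ Wr q r T f A B (d + 1) := by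
  unfold Wr
  have e1 : A * (2 : ℤ) ^ (d + 1) = 2 * (A * 2 ^ d) := by ring
  have e2 : B * (2 : ℤ) ^ (d + 1) = 2 * (B * 2 ^ d) := by ring
  rw [e1, e2, sum_two]
  refine Finset.sum_le_sum fun l _ => ?_
  obtain ⟨k, hk⟩ : ∃ k, T = d + 1 + k := Nat.exists_eq_add_of_le hd
  have k1 : T - d + 7 = (T - (d + 1) + 7) + 1 := by omega
  rw [k1]
  set n := T - (d + 1) + 7 with hn
  have hav := avq_rpow_succ hq n l f
  have m0 : Mq q T f (d + 1) (2 * l) = max (Mq q T f d l) (avq q n (2 * l) f) := by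
    simp only [Mq]
    rw [show 2 * l / 2 = l by omega]
  have m1 : Mq q T f (d + 1) (2 * l + 1) = max (Mq q T f d l) (avq q n (2 * l + 1) f) := by
    simp only [Mq]
    rw [show (2 * l + 1) / 2 = l by omega]
  rw [m0, m1]
  have c0 := pot_child' hq hqr (Mq_nonneg q T f d l) (avq_nonneg q n (2 * l) f)
  have c1 := pot_child' hq hqr (Mq_nonneg q T f d l) (avq_nonneg q n (2 * l + 1) f)
  have hp : (0 : ℝ) < 2 ^ n := by positivity
  rw [pow_succ, mul_assoc, ← mul_add]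
  refine mul_le_mul_of_nonneg_left ?_ hp.le
  calc 2 * (r * (Mq q T f d l ^ (r - q) * avq q (n + 1) l f ^ q) - (r - q) * Mq q T f d l ^ r)
      = (r * (Mq q T f d l ^ (r - q) * avq q n (2 * l) f ^ q) - (r - q) * Mq q T f d l ^ r) +
        (r * (Mq q T f d l ^ (r - q) * avq q n (2 * l + 1) f ^ q) -
          (r - q) * Mq q T f d l ^ r) := by
        linear_combination r * Mq q T f d l ^ (r - q) * hav
    _ ≤ _ := add_le_add c0 c1

lemma Wr_nonneg {q r : ℝ} (hq : 0 < q) (hqr : q < r) (T : ℕ) (f : ℤ → ℂ) (A B : ℤ) :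
    ∀ d, d ≤ T → 0 ≤ Wr q r T f A B d
  | 0, _ => Wr_zero hq hqr T f A B
  | (d + 1), h => (Wr_nonneg hq hqr T f A B d (by omega)).trans (Wr_succ hq hqr T f A B d h)

/-- **maximal theorem**, exponents `0 < q < r`. -/
theorem max_thm_r {q r : ℝ} (hq : 0 < q) (hqr : q < r) (T : ℕ) (f : ℤ → ℂ) (A B : ℤ) :
    ∑ l ∈ Finset.Ico (A * 2 ^ T) (B * 2 ^ T), 2 ^ 7 * Mq q T f T l ^ r ≤
      2 * yc q r / (r - q) *
        ∑ l ∈ Finset.Ico (A * 2 ^ T) (B * 2 ^ T), ∑ y ∈ dI 7 l, ‖f y‖ ^ r := by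
  have h := Wr_nonneg hq hqr T f A B T le_rfl
  unfold Wr at h
  rw [Nat.sub_self, zero_add] at h
  have h2 : ∀ l : ℤ, (2 : ℝ) ^ 7 * (r * (Mq q T f T l ^ (r - q) * avq q 7 l f ^ q) -
      (r - q) * Mq q T f T l ^ r) ≤
      yc q r * ∑ y ∈ dI 7 l, ‖f y‖ ^ r - ((r - q) / 2) * (2 ^ 7 * Mq q T f T l ^ r) := by
    intro l
    have hs := sum_rpow_eq hq 7 l f
    have hcard : ((dI 7 l).card : ℝ) = 2 ^ 7 := dI_card 7 l
    have h3 : ∑ y ∈ dI 7 l, (r * Mq q T f T l ^ (r - q)) * ‖f y‖ ^ q ≤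
        ∑ y ∈ dI 7 l, ((r - q) / 2 * Mq q T f T l ^ r + yc q r * ‖f y‖ ^ r) :=
      Finset.sum_le_sum fun y _ => by
        have := young' hq hqr (Mq_nonneg q T f T l) (norm_nonneg (f y))
        linarith
    rw [← Finset.mul_sum, hs, Finset.sum_add_distrib, Finset.sum_const, nsmul_eq_mul, hcard,
      ← Finset.mul_sum] at h3
    linarith
  have h4 := h.trans (Finset.sum_le_sum fun l (_ : l ∈ Finset.Ico (A * 2 ^ T) (B * 2 ^ T)) => h2 l)
  rw [Finset.sum_sub_distrib, ← Finset.mul_sum, ← Finset.mul_sum] at h4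
  generalize (∑ i ∈ Finset.Ico (A * 2 ^ T) (B * 2 ^ T), ∑ y ∈ dI 7 i, ‖f y‖ ^ r) = X at h4 ⊢
  generalize (∑ i ∈ Finset.Ico (A * 2 ^ T) (B * 2 ^ T), 2 ^ 7 * Mq q T f T i ^ r) = Y at h4 ⊢
  have hs : 0 < r - q := by linarith
  rw [div_mul_eq_mul_div, le_div_iff₀ hs]
  linarith

/-! ### pointwise maximal function on the interval of the top node -/

/-- running maximum at the point `y`, top level `T + 7` -/
noncomputable def Mp (q : ℝ) (T : ℕ) (f : ℤ → ℂ) (y : ℤ) : ℝ := Mq q T f T (y / 2 ^ 7)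

lemma Mp_nonneg (q : ℝ) (T : ℕ) (f : ℤ → ℂ) (y : ℤ) : 0 ≤ Mp q T f y := Mq_nonneg _ _ _ _ _

/-- local `L^q` norm at a node -/
noncomputable def vq (q : ℝ) (f : ℤ → ℂ) (p : Nd) : ℝ := avq q (p.1 + 7) p.2 f

lemma vq_nonneg (q : ℝ) (f : ℤ → ℂ) (p : Nd) : 0 ≤ vq q f p := avq_nonneg _ _ _ _

lemma vq_le_Mp (q : ℝ) (T : ℕ) (f : ℤ → ℂ) {p : Nd} (hp : p.1 ≤ T) {y : ℤ} (hy : y ∈ iv p) :
    vq q f p ≤ Mp q T f y := by
  have h1 := avq_le_Mq q T f (T - p.1) p.2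
  have e : T - (T - p.1) + 7 = p.1 + 7 := by omega
  rw [e] at h1
  refine h1.trans ?_
  have h2 := Mq_mono q T f (T - p.1) p.1 (y / 2 ^ 7)
  rw [ediv_pow_pow, add_comm 7 p.1, Qh249.mem_iv.1 hy] at h2
  have e2 : T - p.1 + p.1 = T := by omega
  rw [e2] at h2
  exact h2

lemma vq_par {q : ℝ} (hq : 1 ≤ q) (f : ℤ → ℂ) (p : Nd) : vq q f p ≤ 2 * vq q f (par p) := by
  have hq0 : 0 < q := by linarith
  have h := avq_rpow_succ hq0 (p.1 + 7) (p.2 / 2) f
  have h1 : avq q (p.1 + 7) p.2 f ^ q ≤ 2 * avq q (p.1 + 7 + 1) (p.2 / 2) f ^ q := by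
    rw [h]
    have n0 := Real.rpow_nonneg (avq_nonneg q (p.1 + 7) (2 * (p.2 / 2)) f) q
    have n1 := Real.rpow_nonneg (avq_nonneg q (p.1 + 7) (2 * (p.2 / 2) + 1) f) q
    rcases Int.emod_two_eq_zero_or_one p.2 with h2 | h2
    · have e : 2 * (p.2 / 2) = p.2 := by omega
      rw [e] at n0 n1 ⊢
      linarith
    · have e : 2 * (p.2 / 2) + 1 = p.2 := by omega
      rw [e] at n1 ⊢
      linarith
  have h2 : (2 : ℝ) * avq q (p.1 + 7 + 1) (p.2 / 2) f ^ q ≤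
      (2 * avq q (p.1 + 7 + 1) (p.2 / 2) f) ^ q := by
    rw [Real.mul_rpow (by norm_num) (avq_nonneg _ _ _ _)]
    refine mul_le_mul_of_nonneg_right ?_ (Real.rpow_nonneg (avq_nonneg _ _ _ _) _)
    calc (2 : ℝ) = 2 ^ (1 : ℝ) := (Real.rpow_one 2).symm
      _ ≤ 2 ^ q := Real.rpow_le_rpow_of_exponent_le (by norm_num) hq
  have h3 := h1.trans h2
  have h4 := (Real.rpow_le_rpow_iff (avq_nonneg _ _ _ _)
    (mul_nonneg (by norm_num) (avq_nonneg _ _ _ _)) hq0).1 h3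
  unfold vq par
  have e : p.1 + 1 + 7 = p.1 + 7 + 1 := by omega
  simp only [e]
  exact h4

/-- the sum over the interval of a node, cut in the finest node intervals -/
lemma sum_iv (J : Nd) (g : ℤ → ℝ) :
    ∑ y ∈ iv J, g y = ∑ l ∈ Finset.Ico (J.2 * 2 ^ J.1) ((J.2 + 1) * 2 ^ J.1), ∑ y ∈ dI 7 l, g y := by
  have hd : Set.PairwiseDisjoint
      (Finset.Ico (J.2 * 2 ^ J.1) ((J.2 + 1) * 2 ^ J.1) : Set ℤ) (dI 7) := by
    intro l _ l' _ hne
    exact dI_disj hne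
  rw [← Finset.sum_biUnion hd]
  refine Finset.sum_congr ?_ fun _ _ => rfl
  ext y
  rw [Finset.mem_biUnion, Qh249.mem_iv]
  constructor
  · intro hy
    refine ⟨y / 2 ^ 7, ?_, mem_dI.2 rfl⟩
    rw [add_comm, ← ediv_pow_pow] at hy
    rw [Finset.mem_Ico]
    have h2 : (0 : ℤ) < 2 ^ J.1 := by positivity
    constructor
    · rw [← hy]
      exact Int.ediv_mul_le _ h2.ne'
    · rw [← hy]
      have := Int.lt_ediv_add_one_mul_self (y / 2 ^ 7) h2
      exact this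
  · rintro ⟨l, hl, hy⟩
    rw [mem_dI] at hy
    rw [Finset.mem_Ico] at hl
    rw [add_comm, ← ediv_pow_pow, hy]
    have h2 : (0 : ℤ) < 2 ^ J.1 := by positivity
    have h3 := (Int.le_ediv_iff_mul_le h2).2 hl.1
    have h4 := (Int.ediv_lt_iff_lt_mul h2).2 hl.2
    omega

/-- **maximal theorem at points** -/
theorem max_pt {q r : ℝ} (hq : 0 < q) (hqr : q < r) (J : Nd) (f : ℤ → ℂ) :
    ∑ y ∈ iv J, Mp q J.1 f y ^ r ≤ 2 * yc q r / (r - q) * ∑ y ∈ iv J, ‖f y‖ ^ r := by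
  have h := max_thm_r hq hqr J.1 f J.2 (J.2 + 1)
  rw [sum_iv, sum_iv J fun y => ‖f y‖ ^ r]
  refine le_trans (le_of_eq ?_) h
  refine Finset.sum_congr rfl fun l _ => ?_
  have e : ∀ y ∈ dI 7 l, Mp q J.1 f y ^ r = Mq q J.1 f J.1 l ^ r := by
    intro y hy
    unfold Mp
    rw [mem_dI.1 hy]
  rw [Finset.sum_congr rfl e, Finset.sum_const, nsmul_eq_mul, dI_card]

end Crest.Agent.R079.TLoc13
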