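import Crest.Agent.R079.TS3a_351
import Crest.Agent.R079.TS0_903

/-! R079, [T3] part b (helper351): sizes of the letters of a windowed residual, words by rule (A) and
by `BN`, summed over the windows. -/

set_option autoImplicit false

namespace Crest.Agent.R079.TRec

namespace S351

open Finset Crest.Agent.R079.Grid Crest.Agent.R079.Growth Crest.Agent.R079.QRed

/-! ### monotonicity in the constant -/

theorem WRd_mono {D : Dict} {k q3 sg c1 C C' : ℝ} (hCC : C ≤ C') {j : Fin 4} {t : ℝ} (ht : 0 < t)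
    {R : Finset Nd} {J : Nd} {T : Finset Nd} {G : Fn} {H E X : Nd → Fn}
    (h : WRd D k q3 sg c1 C j t R J T G H E X) : WRd D k q3 sg c1 C' j t R J T G H E X where
  tops := h.tops
  adH := h.adH
  adE := h.adE
  eq := h.eq
  nrm := h.nrm
  lev := fun p hp => Lv_le hCC (h.lev p hp)
  frz := fun p hp => Fz_mass hCC (h.frz p hp)
  hav := fun p hp => (h.hav p hp).trans hCC
  eav := fun p hp => (h.eav p hp).trans
    (mul_le_mul_of_nonneg_right hCC (Real.rpow_nonneg ht.le _))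
  hsup := fun p hp y hy => (h.hsup p hp y hy).trans
    (mul_le_mul_of_nonneg_right hCC (Real.rpow_nonneg ht.le _))
  esup := fun p hp y hy => (h.esup p hp y hy).trans
    (mul_le_mul_of_nonneg_right hCC (Real.rpow_nonneg ht.le _))
  cnt := h.cnt.mono (mul_le_mul_of_nonneg_right hCC (Real.rpow_nonneg ht.le _))
  sq := fun p hp => (h.sq p hp).trans (mul_le_mul_of_nonneg_right hCC (lpos p).le)

/-! ### sizes -/

lemma aq_pow {q x y C t : ℝ} (hq : 2 ≤ q) (hC : 0 < C) (ht : 0 < t) {p : Nd} {f : Fn}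
    (hsup : ∀ z ∈ iv p, ‖f z‖ ≤ C * t ^ (-x)) (hav : av p f ≤ C * t ^ y) :
    aq q p f ≤ C * t ^ ((2 * y - x * (q - 2)) / q) := by
  have hq0 : 0 < q := by linarith
  have h1 : 0 < C * t ^ (-x) := mul_pos hC (Real.rpow_pos_of_pos ht _)
  have h2 : 0 ≤ C * t ^ y := (mul_pos hC (Real.rpow_pos_of_pos ht _)).le
  refine (aq_interp hq h1 p f hsup hav h2).trans (le_of_eq ?_)
  rw [Real.mul_rpow hC.le (Real.rpow_nonneg ht.le _), Real.mul_rpow hC.le
    (Real.rpow_nonneg ht.le _), ← Real.rpow_mul ht.le, ← Real.rpow_mul ht.le]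
  have e1 : C ^ ((q - 2) / q) * C ^ (2 / q) = C := by
    rw [← Real.rpow_add hC, ← add_div, show q - 2 + 2 = q by ring, div_self hq0.ne',
      Real.rpow_one]
  have e2 : t ^ (-x * ((q - 2) / q)) * t ^ (y * (2 / q)) = t ^ ((2 * y - x * (q - 2)) / q) := by
    rw [← Real.rpow_add ht]
    congr 1
    field_simp
    ring
  calc C ^ ((q - 2) / q) * t ^ (-x * ((q - 2) / q)) * (C ^ (2 / q) * t ^ (y * (2 / q)))
      = (C ^ ((q - 2) / q) * C ^ (2 / q)) * (t ^ (-x * ((q - 2) / q)) * t ^ (y * (2 / q))) := by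
        ring
    _ = _ := by rw [e1, e2]

lemma rp_le {t x y : ℝ} (ht : 0 < t) (ht1 : t ≤ 1) (h : y ≤ x) : t ^ x ≤ t ^ y :=
  Real.rpow_le_rpow_of_exponent_ge ht ht1 h

lemma one_le_rp {t x : ℝ} (ht : 0 < t) (ht1 : t ≤ 1) (h : x ≤ 0) : 1 ≤ t ^ x := by
  have := rp_le ht ht1 h
  rwa [Real.rpow_zero] at this

/-- parameters needed for the sizes -/
structure Pr (k q3 sg c1 C t : ℝ) : Prop where
  k0 : 0 < k
  hq3 : 2 < q3
  sg0 : 0 ≤ sg
  c10 : 0 < c1
  c11 : c1 ≤ 1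
  C1 : 1 ≤ C
  t0 : 0 < t
  t1 : t ≤ 1

section sizes
variable {D : Dict} {k q3 sg c1 C : ℝ} {j : Fin 4} {t : ℝ} {R : Finset Nd} {J : Nd}
  {T : Finset Nd} {G : Fn} {H E X : Nd → Fn}

lemma size_E (pr : Pr k q3 sg c1 C t) (h : WRd D k q3 sg c1 C j t R J T G H E X) (hj : j ≠ 3)
    {p : Nd} (hp : p ∈ R) : aq (qx k q3 j) p (E p) ≤ C * t ^ (c1 / 2 - k) := by
  have hk := pr.k0
  have e1 : qx k q3 j = 2 + k := if_neg hj
  have e2 : sx sg j = 1 := if_neg hj
  have h1 := h.esup p hp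
  rw [e2] at h1
  rw [e1]
  have h2 := aq_pow (q := 2 + k) (x := 1) (y := c1 / 2) (by linarith) (by linarith [pr.C1]) pr.t0
    h1 (h.eav p hp)
  refine h2.trans (mul_le_mul_of_nonneg_left (rp_le pr.t0 pr.t1 ?_) (by linarith [pr.C1]))
  rw [le_div_iff₀ (by linarith)]
  nlinarith [pr.c11, pr.c10, mul_pos hk hk, mul_le_mul_of_nonneg_right pr.c11 hk.le]

lemma size_H (pr : Pr k q3 sg c1 C t) (h : WRd D k q3 sg c1 C j t R J T G H E X) (hj : j ≠ 3)
    {p : Nd} (hp : p ∈ R) : aq (qx k q3 j) p (H p) ≤ C * t ^ (-k) := by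
  have hk := pr.k0
  have e1 : qx k q3 j = 2 + k := if_neg hj
  have e2 : sx sg j = 1 := if_neg hj
  have h1 := h.hsup p hp
  rw [e2] at h1
  rw [e1]
  have h0 : av p (H p) ≤ C * t ^ (0 : ℝ) := by rw [Real.rpow_zero, mul_one]; exact h.hav p hp
  have h2 := aq_pow (q := 2 + k) (x := 1) (y := 0) (by linarith) (by linarith [pr.C1]) pr.t0
    h1 h0
  refine h2.trans (mul_le_mul_of_nonneg_left (rp_le pr.t0 pr.t1 ?_) (by linarith [pr.C1]))
  rw [le_div_iff₀ (by linarith)]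
  nlinarith [mul_pos hk hk]

lemma size_E3 (pr : Pr k q3 sg c1 C t) (h : WRd D k q3 sg c1 C 3 t R J T G H E X)
    {p : Nd} (hp : p ∈ R) :
    aq (qx k q3 3) p (E p) ≤ C * t ^ (c1 / q3 - sg * (q3 - 2) / q3) := by
  have e1 : qx k q3 3 = q3 := if_pos rfl
  have e2 : sx sg 3 = sg := if_pos rfl
  have h1 := h.esup p hp
  rw [e2] at h1
  rw [e1]
  have h2 := aq_pow (q := q3) (x := sg) (y := c1 / 2) (by linarith [pr.hq3]) (by linarith [pr.C1])
    pr.t0 h1 (h.eav p hp)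
  refine h2.trans (le_of_eq ?_)
  congr 2
  rw [← sub_div]
  congr 1
  ring

lemma size_H3 (pr : Pr k q3 sg c1 C t) (h : WRd D k q3 sg c1 C 3 t R J T G H E X)
    {p : Nd} (hp : p ∈ R) :
    aq (qx k q3 3) p (H p) ≤ C * t ^ (-(sg * (q3 - 2) / q3)) := by
  have e1 : qx k q3 3 = q3 := if_pos rfl
  have e2 : sx sg 3 = sg := if_pos rfl
  have h1 := h.hsup p hp
  rw [e2] at h1
  rw [e1]
  have h0 : av p (H p) ≤ C * t ^ (0 : ℝ) := by rw [Real.rpow_zero, mul_one]; exact h.hav p hp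
  have h2 := aq_pow (q := q3) (x := sg) (y := 0) (by linarith [pr.hq3]) (by linarith [pr.C1])
    pr.t0 h1 h0
  refine h2.trans (le_of_eq ?_)
  congr 2
  rw [← neg_div]
  congr 1
  ring

lemma qx_one (hk : 0 < k) (hq : 2 < q3) (j : Fin 4) : 1 ≤ qx k q3 j := by
  unfold qx
  split_ifs <;> linarith

lemma size_X (pr : Pr k q3 sg c1 C t) (h : WRd D k q3 sg c1 C j t R J T G H E X) (hj : j ≠ 3)
    {p : Nd} (hp : p ∈ R) : aq (qx k q3 j) p (X p) ≤ 3 * C * t ^ (-k) := by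
  have hk := pr.k0
  have hC := pr.C1
  have hq := qx_one (q3 := q3) hk pr.hq3 j
  have e : X p = fun y => (fun y => G y - H p y) y - E p y := by
    funext y
    rw [h.eq p hp y]
  rw [e]
  have h1 := aq_sub hq p (fun y => G y - H p y) (E p)
  have h2 := aq_sub hq p G (H p)
  have h3 := h.nrm p hp
  have h4 := size_H pr h hj hp
  have h5 := size_E pr h hj hp
  have h6 : t ^ (c1 / 2 - k) ≤ t ^ (-k) := rp_le pr.t0 pr.t1 (by linarith [pr.c10])
  have h7 : 1 ≤ t ^ (-k) := one_le_rp pr.t0 pr.t1 (by linarith)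
  have h8 := mul_le_mul_of_nonneg_left h6 (by linarith : 0 ≤ C)
  have h9 : 1 ≤ C * t ^ (-k) := by nlinarith
  linarith

lemma size_X3 (pr : Pr k q3 sg c1 C t) (h : WRd D k q3 sg c1 C 3 t R J T G H E X)
    {p : Nd} (hp : p ∈ R) :
    aq (qx k q3 3) p (X p) ≤ 3 * C * t ^ (-(sg * (q3 - 2) / q3)) := by
  have hk := pr.k0
  have hC := pr.C1
  have hq := qx_one (q3 := q3) hk pr.hq3 3
  have e : X p = fun y => (fun y => G y - H p y) y - E p y := by
    funext y
    rw [h.eq p hp y]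
  rw [e]
  have h1 := aq_sub hq p (fun y => G y - H p y) (E p)
  have h2 := aq_sub hq p G (H p)
  have h3 := h.nrm p hp
  have h4 := size_H3 pr h hp
  have h5 := size_E3 pr h hp
  have hs : 0 ≤ sg * (q3 - 2) / q3 :=
    div_nonneg (mul_nonneg pr.sg0 (by linarith [pr.hq3])) (by linarith [pr.hq3])
  have hc : 0 ≤ c1 / q3 := div_nonneg pr.c10.le (by linarith [pr.hq3])
  have h6 : t ^ (c1 / q3 - sg * (q3 - 2) / q3) ≤ t ^ (-(sg * (q3 - 2) / q3)) :=
    rp_le pr.t0 pr.t1 (by linarith)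
  have h7 : 1 ≤ t ^ (-(sg * (q3 - 2) / q3)) := one_le_rp pr.t0 pr.t1 (by linarith)
  have h8 := mul_le_mul_of_nonneg_left h6 (by linarith : 0 ≤ C)
  have h9 : 1 ≤ C * t ^ (-(sg * (q3 - 2) / q3)) := by nlinarith
  linarith

end sizes

/-! ### letters with a size -/

/-- adapted letter of slot `j` with norm `≤ c t^x` -/
structure Lt (k q3 t : ℝ) (R T : Finset Nd) (j : Fin 4) (y : Nd → Fn) (c x : ℝ) : Prop where
  ad : Adp R T y
  nb : ∀ p ∈ R, aq (qx k q3 j) p (y p) ≤ c * t ^ x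

/-- numbers in the slots -/
def r4 (a b m : Fin 4) (xa xb xm x3 : ℝ) : Fin 4 → ℝ :=
  fun j => if j = a then xa else if j = b then xb else if j = m then xm else x3

section r4
variable {a b m : Fin 4} (h : Sl a b m) (xa xb xm x3 : ℝ)
include h

lemma r4_a : r4 a b m xa xb xm x3 a = xa := by
  have := h.ab
  exact if_pos rfl

lemma r4_b : r4 a b m xa xb xm x3 b = xb := by
  unfold r4
  rw [if_neg h.ab.symm, if_pos rfl]

lemma r4_m : r4 a b m xa xb xm x3 m = xm := by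
  unfold r4
  rw [if_neg h.am.symm, if_neg h.bm.symm, if_pos rfl]

lemma r4_3 : r4 a b m xa xb xm x3 3 = x3 := by
  unfold r4
  rw [if_neg h.a3.symm, if_neg h.b3.symm, if_neg h.m3.symm]

lemma prod_r4 : ∏ j, r4 a b m xa xb xm x3 j = xa * xb * xm * x3 := by
  classical
  have hu : (Finset.univ : Finset (Fin 4)) = {a, b, m, 3} := by
    ext j
    simp only [Finset.mem_univ, Finset.mem_insert, Finset.mem_singleton, true_iff]
    exact h.all j
  rw [hu, Finset.prod_insert, Finset.prod_insert, Finset.prod_insert, Finset.prod_singleton,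
    r4_a h, r4_b h, r4_m h, r4_3 h]
  · ring
  · simp [h.m3]
  · simp [h.bm, h.b3]
  · simp [h.ab, h.am, h.a3]

end r4

section words
variable {D : Dict} {k q3 sg c0 c3 e t0 K : ℝ} {N : ℕ} {B : ℝ} {t c1 C : ℝ}
  {bb : ℤ} {ε : ℕ → ℤ → ℂ} {R : Finset Nd} {J : Nd} {T : Finset Nd}
  {a b m : Fin 4} {ya yb ym y3 : Nd → Fn} {ca cb cm cc xa xb xm x3 : ℝ}

/-- hypotheses common to all words -/
structure Wd (k q3 : ℝ) (N : ℕ) (B t r cN : ℝ) (bb : ℤ) (ε : ℕ → ℤ → ℂ) (R : Finset Nd) (J : Nd)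
    (T : Finset Nd) : Prop where
  k0 : 0 < k
  hq3 : 2 < q3
  B0 : 0 ≤ B
  bn : BN k q3 N B
  t0 : 0 < t
  t1 : t ≤ 1
  adm : Adm bb ε
  full : Full R J
  hN : J.1 ≤ N
  tops : Tops R J T
  /-- total length of the windows -/
  cN0 : 0 ≤ cN
  num : ∑ I ∈ T, len I ≤ cN * t ^ (-r) * len J

/-- **word by `BN`** -/
lemma wordB {r cN : ℝ} (w : Wd k q3 N B t r cN bb ε R J T) (h : Sl a b m)
    (ha : Lt k q3 t R T a ya ca xa) (hb : Lt k q3 t R T b yb cb xb)
    (hm : Lt k q3 t R T m ym cm xm) (h3 : Lt k q3 t R T 3 y3 cc x3)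
    (pa : 0 < ca) (pb : 0 < cb) (pm : 0 < cm) (p3 : 0 < cc) {bt : ℝ}
    (hx : bt ≤ xa + xb + xm + x3 - r) :
    ‖TP bb ε R (q4 a b m ya yb ym y3)‖ ≤ B * (ca * cb * cm * cc * cN) * t ^ bt * len J := by
  have ht := w.t0
  set α : Fin 4 → ℝ := r4 a b m (ca * t ^ xa) (cb * t ^ xb) (cm * t ^ xm) (cc * t ^ x3) with hα
  have hpos : ∀ j, 0 < α j := by
    intro j
    rcases h.all j with hj | hj | hj | hj
    · rw [hj, hα, r4_a h]; exact mul_pos pa (Real.rpow_pos_of_pos ht _)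
    · rw [hj, hα, r4_b h]; exact mul_pos pb (Real.rpow_pos_of_pos ht _)
    · rw [hj, hα, r4_m h]; exact mul_pos pm (Real.rpow_pos_of_pos ht _)
    · rw [hj, hα, r4_3 h]; exact mul_pos p3 (Real.rpow_pos_of_pos ht _)
  have had : ∀ j, Adp R T (q4 a b m ya yb ym y3 j) := by
    intro j
    rcases h.all j with hj | hj | hj | hj
    · rw [hj, q4_a h]; exact ha.ad
    · rw [hj, q4_b h]; exact hb.ad
    · rw [hj, q4_m h]; exact hm.ad
    · rw [hj, q4_3 h]; exact h3.ad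
  have hnb : ∀ j, ∀ p ∈ R, aq (qx k q3 j) p (q4 a b m ya yb ym y3 j p) ≤ α j := by
    intro j p hp
    rcases h.all j with hj | hj | hj | hj
    · rw [hj, q4_a h, hα, r4_a h]; exact ha.nb p hp
    · rw [hj, q4_b h, hα, r4_b h]; exact hb.nb p hp
    · rw [hj, q4_m h, hα, r4_m h]; exact hm.nb p hp
    · rw [hj, q4_3 h, hα, r4_3 h]; exact h3.nb p hp
  have key := sum_win bb ε w.full w.tops had (a := B * ∏ j, α j) (fun I hI => by
    have hIR := w.tops.sub hI
    refine BN_scaled w.k0 w.hq3 w.bn w.adm (win_full w.full w.tops hI)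
      ((le_of_mem w.full hIR).trans w.hN) _ α hpos (fun j p hp => ?_)
    rw [← (had j).eq hp]
    exact hnb j p (win_sub hp))
  have hP : 0 ≤ ∏ j, α j := Finset.prod_nonneg fun j _ => (hpos j).le
  have hBP : 0 ≤ B * ∏ j, α j := mul_nonneg w.B0 hP
  refine key.trans ((mul_le_mul_of_nonneg_left w.num hBP).trans ?_)
  rw [hα, prod_r4 h]
  have e1 : B * (ca * t ^ xa * (cb * t ^ xb) * (cm * t ^ xm) * (cc * t ^ x3)) *
      (cN * t ^ (-r) * len J) =
      B * (ca * cb * cm * cc * cN) * t ^ (xa + xb + xm + x3 - r) * len J := by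
    rw [show xa + xb + xm + x3 - r = xa + xb + xm + x3 + (-r) by ring, Real.rpow_add ht,
      Real.rpow_add ht, Real.rpow_add ht, Real.rpow_add ht]
    ring
  rw [e1]
  have h5 : 0 ≤ B * (ca * cb * cm * cc * cN) := by
    have := w.B0
    have := w.cN0
    positivity
  exact mul_le_mul_of_nonneg_right (mul_le_mul_of_nonneg_left (rp_le ht w.t1 hx) h5) (lpos J).le

/-- **word by rule (A)** -/
lemma wordA {r cN : ℝ} (w : Wd k q3 N B t r cN bb ε R J T) (hA : RuleA D k q3 c0 c3 e t0 K)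
    (hK : 0 ≤ K) (htt : t ≤ t0) (h : Sl a b m)
    (ha : Lt k q3 t R T a ya ca xa) (hb : Lt k q3 t R T b yb cb xb)
    (hm : Lt k q3 t R T m ym cm xm) (h3 : Lt k q3 t R T 3 y3 cc x3)
    (pa : 0 < ca) (pb : 0 < cb) (pm : 0 < cm) (p3 : 0 < cc) {i n : Fin 4} (hin : i ≠ n)
    (hf : ∀ p ∈ R, Fz D i (t ^ (1 + e))
      (r4 a b m (ca * t ^ xa) (cb * t ^ xb) (cm * t ^ xm) (cc * t ^ x3) i) p
      (q4 a b m ya yb ym y3 i p))
    (hl : ∀ p ∈ R, Lv D n t
      (r4 a b m (ca * t ^ xa) (cb * t ^ xb) (cm * t ^ xm) (cc * t ^ x3) n) p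
      (q4 a b m ya yb ym y3 n p)) {bt : ℝ}
    (hx : bt ≤ xa + xb + xm + x3 + (if n = 3 then c3 else c0) - r) :
    ‖TP bb ε R (q4 a b m ya yb ym y3)‖ ≤
      K * (1 + B) * (ca * cb * cm * cc * cN) * t ^ bt * len J := by
  have ht := w.t0
  set α : Fin 4 → ℝ := r4 a b m (ca * t ^ xa) (cb * t ^ xb) (cm * t ^ xm) (cc * t ^ x3) with hα
  have hpos : ∀ j, 0 < α j := by
    intro j
    rcases h.all j with hj | hj | hj | hj
    · rw [hj, hα, r4_a h]; exact mul_pos pa (Real.rpow_pos_of_pos ht _)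
    · rw [hj, hα, r4_b h]; exact mul_pos pb (Real.rpow_pos_of_pos ht _)
    · rw [hj, hα, r4_m h]; exact mul_pos pm (Real.rpow_pos_of_pos ht _)
    · rw [hj, hα, r4_3 h]; exact mul_pos p3 (Real.rpow_pos_of_pos ht _)
  have had : ∀ j, Adp R T (q4 a b m ya yb ym y3 j) := by
    intro j
    rcases h.all j with hj | hj | hj | hj
    · rw [hj, q4_a h]; exact ha.ad
    · rw [hj, q4_b h]; exact hb.ad
    · rw [hj, q4_m h]; exact hm.ad
    · rw [hj, q4_3 h]; exact h3.ad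
  have hnb : ∀ j, ∀ p ∈ R, aq (qx k q3 j) p (q4 a b m ya yb ym y3 j p) ≤ α j := by
    intro j p hp
    rcases h.all j with hj | hj | hj | hj
    · rw [hj, q4_a h, hα, r4_a h]; exact ha.nb p hp
    · rw [hj, q4_b h, hα, r4_b h]; exact hb.nb p hp
    · rw [hj, q4_m h, hα, r4_m h]; exact hm.nb p hp
    · rw [hj, q4_3 h, hα, r4_3 h]; exact h3.nb p hp
  set γ : ℝ := if n = 3 then c3 else c0 with hγ
  have key := sum_win bb ε w.full w.tops had (a := K * (1 + B) * (∏ j, α j) * t ^ γ)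
    (fun I hI => by
      have hIR := w.tops.sub hI
      refine ruleA_scaled w.k0 w.hq3 hA w.B0 w.bn ht htt w.adm (win_full w.full w.tops hI)
        ((le_of_mem w.full hIR).trans w.hN) _ α hpos (fun j p hp => ?_) hin (hf I hIR)
        (fun p hp => ?_)
      · rw [← (had j).eq hp]
        exact hnb j p (win_sub hp)
      · rw [← (had n).eq hp]
        exact hl p (win_sub hp))
  have hP : 0 ≤ ∏ j, α j := Finset.prod_nonneg fun j _ => (hpos j).le
  have hB0 := w.B0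
  have hBP : 0 ≤ K * (1 + B) * (∏ j, α j) * t ^ γ :=
    mul_nonneg (mul_nonneg (mul_nonneg hK (by linarith)) hP) (Real.rpow_nonneg ht.le _)
  refine key.trans ((mul_le_mul_of_nonneg_left w.num hBP).trans ?_)
  rw [hα, prod_r4 h]
  have e1 : K * (1 + B) * (ca * t ^ xa * (cb * t ^ xb) * (cm * t ^ xm) * (cc * t ^ x3)) * t ^ γ *
      (cN * t ^ (-r) * len J) =
      K * (1 + B) * (ca * cb * cm * cc * cN) * t ^ (xa + xb + xm + x3 + γ - r) * len J := by
    rw [show xa + xb + xm + x3 + γ - r = xa + xb + xm + x3 + γ + (-r) by ring, Real.rpow_add ht,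
      Real.rpow_add ht, Real.rpow_add ht, Real.rpow_add ht, Real.rpow_add ht]
    ring
  rw [e1]
  have h5 : 0 ≤ K * (1 + B) * (ca * cb * cm * cc * cN) := by
    have := w.cN0
    positivity
  exact mul_le_mul_of_nonneg_right (mul_le_mul_of_nonneg_left (rp_le ht w.t1 hx) h5) (lpos J).le

end words

end S351

end Crest.Agent.R079.TRec
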