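import Crest.Agent.R079.TS3b_351

/-! R079, [T3] part c (helper351): **THE STEP (R)** `stepLem : WinLem → ConvLem → TwoLem → StepLem`
(doc 2489 of 911, section (3); ten words). -/

set_option autoImplicit false

namespace Crest.Agent.R079.TRec

namespace S351

open Finset Crest.Agent.R079.Grid Crest.Agent.R079.Growth Crest.Agent.R079.QRed

set_option maxHeartbeats 1000000 in
theorem stepLem (hW : WinLem) (hV : ConvLem) (hT : TwoLem) : StepLem := by
  classical
  obtain ⟨Cw, hCw, hWin⟩ := hW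
  refine ⟨Cw, hCw, ?_⟩
  intro D k q3 sg c0 c3 e c1 bt t0 K C ok ht0 ht01 hK hCC hD hA
  have hC1 : 1 ≤ C := hCw.trans hCC
  have hC0 : 0 < C := by linarith
  have hk := ok.k0
  have hq3 := ok.hq3
  have he := ok.e0
  have he1 := ok.e1
  have hc1 := ok.c10
  have hc11 := ok.c11
  have hbt := ok.bt0
  have hsg := ok.sg0
  have hq0 : 0 < q3 := by linarith
  -- numbers
  obtain ⟨cq, hcq⟩ : ∃ cq, cq = c1 / q3 := ⟨_, rfl⟩
  obtain ⟨s3, hs3⟩ : ∃ s3, s3 = sg * (q3 - 2) / q3 := ⟨_, rfl⟩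
  have hu0 : 0 ≤ sg * (q3 - 2) := mul_nonneg hsg (by linarith)
  have hs30 : 0 ≤ s3 := by rw [hs3]; exact div_nonneg hu0 hq0.le
  have hcq0 : 0 < cq := by rw [hcq]; exact div_pos hc1 hq0
  have hcq2 : cq ≤ c1 / 2 := by
    rw [hcq]
    exact div_le_div_of_nonneg_left hc1.le (by norm_num) hq3.le
  have hs3u : s3 ≤ sg * (q3 - 2) := by
    rw [hs3]
    exact div_le_self hu0 (by linarith)
  have f1 : bt + 20 * k ≤ cq - (1 + e) * s3 := by
    have h := ok.hC
    have e' : (c1 - (1 + e) * sg * (q3 - 2)) / q3 = cq - (1 + e) * s3 := by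
      rw [hcq, hs3]
      ring
    rwa [e'] at h
  have f2 : bt + 20 * k ≤ c3 - (1 + e) * s3 := by
    have h := ok.h3
    have h2 := mul_le_mul_of_nonneg_left hs3u (by linarith : 0 ≤ 1 + e)
    nlinarith
  have f3 := ok.hA
  have hes : 0 ≤ e * s3 := mul_nonneg he.le hs30
  have hek : e * k ≤ k := by nlinarith
  have hek0 : 0 ≤ e * k := by positivity
  have hec : 0 ≤ e * c1 := by positivity
  have hecq : 0 ≤ e * cq := by positivity
  have hbt2 : bt ≤ 1 / 2 := by nlinarith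
  have hk4 : k ≤ 1 / 4 := by
    have h1 := ok.hk
    nlinarith
  have x2 : bt ≤ (1 + e) * (-k) + 0 + (-k) + 0 + c0 - (1 + e) * c1 := by linarith
  have x4 : bt ≤ (1 + e) * (c1 / 2 - k) + (1 + e) * (-k) + (-k) + 0 + c0 - (1 + e) * c1 := by
    linarith
  have x6 : bt ≤ (1 + e) * (c1 / 2 - k) + (1 + e) * (c1 / 2 - k) + (c1 / 2 - k) + 0
      - (1 + e) * c1 := by linarith
  have x7 : bt ≤ (1 + e) * (c1 / 2 - k) + (1 + e) * (c1 / 2 - k) + (1 + e) * (-k)
      + (1 + e) * (-s3) + c3 - (1 + e) * c1 := by linarith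
  have x8 : bt ≤ (1 + e) * (c1 / 2 - k) + (1 + e) * (c1 / 2 - k) + (1 + e) * (-k)
      + (1 + e) * (cq - s3) - (1 + e) * c1 := by linarith
  have x9 : bt ≤ (1 + e) * (c1 / 2 - k) + (1 + e) * (c1 / 2 - k) + (1 + e) * (-k)
      + (1 + e) * (-s3) + c0 - (1 + e) * c1 := by linarith
  have x10 : bt ≤ (1 + e) * (c1 / 2 - k) + (1 + e) * (c1 / 2 - k) + (c1 / 2 - k)
      + (1 + e) * (-s3) - (1 + e) * c1 := by linarith
  have x5 : -(20 * k) ≤ (1 + e) * (c1 / 2 - k) + (1 + e) * (c1 / 2 - k) + -((1 + e) * c1) := by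
    linarith
  have x3 : -(10 * k) ≤ (1 + e) * (-(5 * k)) := by linarith
  have y1 : -((1 + e) * c1) ≤ 0 := by linarith
  have y2 : (1 + e) * (-k) ≤ -k := by linarith
  have y3 : (1 + e) * (-s3) ≤ 0 := by linarith
  obtain ⟨K2, hK2, hTwo⟩ := hT D k q3 sg c0 c3 e c1 bt t0 K C ok ht0 ht01 hK hC1 hD hA
  obtain ⟨C', hC', hConv⟩ := hV k hk hk4 C hC1
  obtain ⟨K', hK'⟩ : ∃ K', K' = K2 + C' * K2 + 2 * C ^ 3 + K * (9 * C ^ 3 + 9 * C ^ 4 +
      18 * C ^ 5 + 18 * C ^ 5) + (6 * C ^ 4 + 6 * C ^ 5 + 6 * C ^ 5) := ⟨_, rfl⟩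
  have hK'0 : 0 ≤ K' := by rw [hK']; positivity
  refine ⟨K', hK'0, ?_⟩
  intro N B t A hB0 hB ht htt hA0 hAn bb ε hε R J hR hJ m hm T G H E X hX F hF
  have ht1 : t ≤ 1 := htt.trans ht01
  obtain ⟨a, b, h⟩ := exists_sl m hm
  -- the fine parameter
  obtain ⟨τ, hτdef⟩ : ∃ τ, τ = t ^ (1 + e) := ⟨_, rfl⟩
  have hτ : 0 < τ := by rw [hτdef]; exact Real.rpow_pos_of_pos ht _
  have hτt : τ ≤ t := by
    have := rp_le ht ht1 (by linarith : (1 : ℝ) ≤ 1 + e)
    rwa [Real.rpow_one, ← hτdef] at this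
  have hτ1 : τ ≤ 1 := hτt.trans ht1
  have hpow : ∀ x : ℝ, τ ^ x = t ^ ((1 + e) * x) := fun x => by
    rw [hτdef, ← Real.rpow_mul ht.le]
  rw [← hτdef] at hAn
  -- static tuple and windows
  obtain ⟨G4, hG4⟩ : ∃ G4 : Fin 4 → Fn, G4 = Function.update F m G := ⟨_, rfl⟩
  have hGm : G4 m = G := by rw [hG4, Function.update_self]
  have hGj : ∀ j, j ≠ m → G4 j = F j := fun j hj => by rw [hG4, Function.update_of_ne hj]
  have hnrm : nrm k q3 R G4 := by
    intro j p hp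
    by_cases hj : j = m
    · subst hj
      rw [hGm]
      exact hX.nrm p hp
    · rw [hGj j hj]
      exact hF j hj p hp
  obtain ⟨T', H', E', w0⟩ := hWin D k q3 sg c1 hD hk ok.k1 hq3 hsg ok.sg1 hc1 hc11 R J hR G4 hnrm
    τ hτ hτ1
  obtain ⟨r, hr⟩ : ∃ r : Fin 4 → Nd → Fn, r = fun j p y => G4 j y - H' j p y - E' j p y := ⟨_, rfl⟩
  have w : ∀ j, WRd D k q3 sg c1 C j τ R J T' (G4 j) (H' j) (E' j) (r j) := fun j => by
    rw [hr]
    exact WRd_mono hCC hτ (w0 j)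
  have prt : Pr k q3 sg c1 C t := ⟨hk, hq3, hsg, hc1, hc11, hC1, ht, ht1⟩
  have prτ : Pr k q3 sg c1 C τ := ⟨hk, hq3, hsg, hc1, hc11, hC1, hτ, hτ1⟩
  -- common refinement
  have hT1 : Tops R J T := hX.tops
  have hT2 : Tops R J T' := (w a).tops
  have hTT : Tops R J (T ∪ T') := hT1.union hT2
  have ad1 : ∀ {Z : Nd → Fn}, Adp R T Z → Adp R (T ∪ T') Z := fun hZ =>
    Adp.finer hR hT1 hTT Finset.subset_union_left hZ
  have ad2 : ∀ {Z : Nd → Fn}, Adp R T' Z → Adp R (T ∪ T') Z := fun hZ =>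
    Adp.finer hR hT2 hTT Finset.subset_union_right hZ
  have hL := lpos J
  have hnum : ∑ I ∈ T ∪ T', len I ≤ 3 * C * t ^ (-((1 + e) * c1)) * len J := by
    have h1 := sum_len_tops hR hTT (Cnt.union hX.cnt (w a).cnt)
    refine h1.trans (mul_le_mul_of_nonneg_right ?_ hL.le)
    have h2 : t ^ (-c1) ≤ t ^ (-((1 + e) * c1)) := rp_le ht ht1 (by linarith)
    have h3 : τ ^ (-c1) = t ^ (-((1 + e) * c1)) := by rw [hpow]; congr 1; ring
    have h4 : 1 ≤ t ^ (-((1 + e) * c1)) := one_le_rp ht ht1 y1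
    rw [h3]
    nlinarith only [h2, h4, hC1]
  have hnum2 : ∑ I ∈ T', len I ≤ 2 * C * t ^ (-((1 + e) * c1)) * len J := by
    have h1 := sum_len_tops hR hT2 (w a).cnt
    refine h1.trans (mul_le_mul_of_nonneg_right ?_ hL.le)
    have h3 : τ ^ (-c1) = t ^ (-((1 + e) * c1)) := by rw [hpow]; congr 1; ring
    have h4 : 1 ≤ t ^ (-((1 + e) * c1)) := one_le_rp ht ht1 y1
    rw [h3]
    nlinarith only [h4, hC1]
  have wd : Wd k q3 N B t ((1 + e) * c1) (3 * C) bb ε R J (T ∪ T') :=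
    ⟨hk, hq3, hB0, hB, ht, ht1, hε, hR, hJ, hTT, by positivity, hnum⟩
  -- letters
  obtain ⟨H2, hH2⟩ : ∃ H2 : Nd → Fn, H2 = fun p y => H' m p y - H p y := ⟨_, rfl⟩
  obtain ⟨E2, hE2⟩ : ∃ E2 : Nd → Fn, E2 = fun p y => E' m p y - E p y := ⟨_, rfl⟩
  obtain ⟨X2, hX2⟩ : ∃ X2 : Nd → Fn, X2 = fun p y => X p y - r m p y := ⟨_, rfl⟩
  have hX2eq : ∀ p ∈ R, ∀ y, X2 p y = H2 p y + E2 p y := by
    intro p hp y
    rw [hX2, hH2, hE2]
    simp only
    rw [hX.eq p hp y, (w m).eq p hp y, hGm]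
    ring
  have LE : ∀ j, j ≠ 3 → Lt k q3 t R (T ∪ T') j (E' j) C ((1 + e) * (c1 / 2 - k)) := fun j hj =>
    ⟨ad2 (w j).adE, fun p hp => by rw [← hpow]; exact size_E prτ (w j) hj hp⟩
  have LH : ∀ j, j ≠ 3 → Lt k q3 t R (T ∪ T') j (H' j) C ((1 + e) * (-k)) := fun j hj =>
    ⟨ad2 (w j).adH, fun p hp => by rw [← hpow]; exact size_H prτ (w j) hj hp⟩
  have LF : ∀ j, Lt k q3 t R (T ∪ T') j (fun _ => G4 j) 1 0 := fun j =>
    ⟨Adp.const _, fun p hp => by rw [Real.rpow_zero, mul_one]; exact hnrm j p hp⟩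
  have LX : Lt k q3 t R (T ∪ T') m X (3 * C) (-k) :=
    ⟨ad1 hX.adX, fun p hp => size_X prt hX hm hp⟩
  have htk : t ^ (-k) ≤ t ^ ((1 + e) * (-k)) := rp_le ht ht1 y2
  have hone : 1 ≤ t ^ (-k) := one_le_rp ht ht1 (by linarith)
  have hone' : 1 ≤ t ^ ((1 + e) * (-k)) := hone.trans htk
  have hone3 : 1 ≤ t ^ ((1 + e) * (-s3)) := one_le_rp ht ht1 y3
  have m1 : C ≤ C * t ^ ((1 + e) * (-k)) := le_mul_of_one_le_right hC0.le hone'
  have m2 : C ≤ 3 * C * t ^ (-k) := by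
    have := le_mul_of_one_le_right hC0.le hone
    nlinarith only [this, hC0]
  have m3 : C + C ≤ 2 * C * t ^ ((1 + e) * (-k)) := by linarith only [m1]
  have m4 : C ≤ 3 * C * t ^ ((1 + e) * (-s3)) := by
    have := le_mul_of_one_le_right hC0.le hone3
    nlinarith only [this, hC0]
  have m5 : C ≤ C * t ^ ((1 + e) * (-s3)) := le_mul_of_one_le_right hC0.le hone3
  have m6 : C + C ≤ 6 * C * t ^ ((1 + e) * (-k)) := by linarith only [m1, hC0]
  have hqm := qx_one (q3 := q3) hk hq3 m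
  have LH2 : Lt k q3 t R (T ∪ T') m H2 (2 * C) ((1 + e) * (-k)) := by
    refine ⟨?_, fun p hp => ?_⟩
    · rw [hH2]
      exact Adp.map₂ (ad2 (w m).adH) (ad1 hX.adH) (fun x z => fun y => x y - z y)
    · have h1 := aq_sub hqm p (H' m p) (H p)
      have h2 := size_H prτ (w m) hm hp
      have h3 := size_H prt hX hm hp
      rw [hpow] at h2
      have h4 := mul_le_mul_of_nonneg_left htk hC0.le
      rw [hH2]
      refine h1.trans ?_
      linarith
  have LE2 : Lt k q3 t R (T ∪ T') m E2 (2 * C) (c1 / 2 - k) := by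
    refine ⟨?_, fun p hp => ?_⟩
    · rw [hE2]
      exact Adp.map₂ (ad2 (w m).adE) (ad1 hX.adE) (fun x z => fun y => x y - z y)
    · have h1 := aq_sub hqm p (E' m p) (E p)
      have h2 := size_E prτ (w m) hm hp
      have h3 := size_E prt hX hm hp
      have h4 : τ ^ (c1 / 2 - k) ≤ t ^ (c1 / 2 - k) := by
        refine Real.rpow_le_rpow hτ.le hτt ?_
        linarith
      have h5 := mul_le_mul_of_nonneg_left h4 hC0.le
      rw [hE2]
      refine h1.trans ?_
      linarith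
  have LX2 : Lt k q3 t R (T ∪ T') m X2 (6 * C) ((1 + e) * (-k)) := by
    refine ⟨?_, fun p hp => ?_⟩
    · rw [hX2]
      exact Adp.map₂ (ad1 hX.adX) (ad2 (w m).adX) (fun x z => fun y => x y - z y)
    · have h1 := aq_sub hqm p (X p) (r m p)
      have h2 := size_X prτ (w m) hm hp
      have h3 := size_X prt hX hm hp
      rw [hpow] at h2
      have h4 := mul_le_mul_of_nonneg_left htk (by positivity : 0 ≤ 3 * C)
      rw [hX2]
      refine h1.trans ?_
      linarith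
  have L3r : Lt k q3 t R (T ∪ T') 3 (r 3) (3 * C) ((1 + e) * (-s3)) :=
    ⟨ad2 (w 3).adX, fun p hp => by rw [← hpow, hs3]; exact size_X3 prτ (w 3) hp⟩
  have L3E : Lt k q3 t R (T ∪ T') 3 (E' 3) C ((1 + e) * (cq - s3)) :=
    ⟨ad2 (w 3).adE, fun p hp => by rw [← hpow, hs3, hcq]; exact size_E3 prτ (w 3) hp⟩
  have L3H : Lt k q3 t R (T ∪ T') 3 (H' 3) C ((1 + e) * (-s3)) :=
    ⟨ad2 (w 3).adH, fun p hp => by rw [← hpow, hs3]; exact size_H3 prτ (w 3) hp⟩
  -- levels and masses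
  have frzj : ∀ j, ∀ p ∈ R, Fz D j (t ^ (1 + e)) C p (H' j p) := fun j p hp => by
    rw [← hτdef]; exact (w j).frz p hp
  have frzH2 : ∀ p ∈ R, Fz D m (t ^ (1 + e)) (C + C) p (H2 p) := fun p hp => by
    rw [← hτdef, hH2]
    exact Fz_sub ((w m).frz p hp) (Fz_mono hD hτ hτt ht1 (hX.frz p hp))
  have levr : ∀ j, ∀ p ∈ R, Lv D j t C p (r j p) := fun j p hp =>
    Lv_mono hD hτ hτt ht1 hC0.le ((w j).lev p hp)
  have levX2 : ∀ p ∈ R, Lv D m t (C + C) p (X2 p) := fun p hp => by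
    rw [hX2]
    exact Lv_sub (hX.lev p hp) (levr m p hp)
  -- the ten words
  obtain ⟨A2, hA2⟩ : ∃ A2, A2 = K2 * t ^ (-(6 * k)) * A + K2 * (1 + B) * t ^ (bt + 10 * k) :=
    ⟨_, rfl⟩
  have hB1 : 0 ≤ 1 + B := by linarith
  have hA20 : 0 ≤ A2 := by
    rw [hA2]
    have := Real.rpow_nonneg ht.le (-(6 * k))
    have := Real.rpow_nonneg ht.le (bt + 10 * k)
    positivity
  have hBn : Bn D k q3 sg c1 C N τ t A2 := by
    rw [hA2, hτdef]
    exact hTwo N B t A hB0 hB ht htt hA0 (by rw [← hτdef]; exact hAn)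
  -- (w1)
  have b1 : ‖TP bb ε R (q4 a b m (r a) (fun _ => G4 b) X (fun _ => G4 3))‖ ≤ A2 * len J := by
    have h1 := hBn bb ε hε R J hR hJ a m h.a3 h.m3 h.am T' (G4 a) (H' a) (E' a) (r a) (w a)
      T G H E X hX G4 (fun j _ _ p hp => hnrm j p hp)
    rw [q4_ext h (r a) (fun _ => G4 b) X (fun _ => G4 3)
      (Y := Function.update (Function.update (fun j _ => G4 j) a (r a)) m X)
      (by rw [Function.update_of_ne h.am, Function.update_self])
      (by rw [Function.update_of_ne h.bm, Function.update_of_ne h.ab.symm])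
      (by rw [Function.update_self])
      (by rw [Function.update_of_ne h.m3.symm, Function.update_of_ne h.a3.symm])]
    exact h1
  -- (w3)
  have b3 : ‖TP bb ε R (q4 a b m (E' a) (r b) X (fun _ => G4 3))‖ ≤
      C' * τ ^ (-(5 * k)) * A2 * len J := by
    have h1 := hConv bb a τ A2 hτ hτ1 hA20 R J hR (q4 a b m (fun _ => G4 a) (r b) X (fun _ => G4 3))
      T' (E' a) hT2 (w a).adE
      (fun p hp => ((w a).eav p hp).trans (mul_le_of_le_one_right hC0.le
        (Real.rpow_le_one hτ.le hτ1 (by linarith))))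
      (fun p hp y hy => by
        have h2 := (w a).esup p hp y hy
        have e2 : sx sg a = 1 := if_neg h.a3
        rwa [e2, Real.rpow_neg_one] at h2)
      ((w a).cnt.mono (mul_le_mul_of_nonneg_left (by
        rw [← Real.rpow_neg_one]
        exact rp_le hτ hτ1 (by linarith)) hC0.le))
      (w a).sq
      (fun ε' hε' R' J' hR' hs z hz => by
        rw [upd_a h]
        have hJ' : J'.1 ≤ N := (le_of_mem hR (hs hR'.top)).trans hJ
        have h2 := hBn bb ε' hε' R' J' hR' hJ' b m h.b3 h.m3 h.bm (rT T' R' J') (G4 b) (H' b)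
          (E' b) (r b) (WRd.restrict hR (w b) hR' hs) (rT T R' J') G H E X
          (WRd.restrict hR hX hR' hs) (Function.update G4 a z) (fun j _ _ p hp => by
            by_cases hj : j = a
            · subst hj
              rw [Function.update_self, show qx k q3 j = 2 + k from if_neg h.a3]
              exact hz p hp
            · rw [Function.update_of_ne hj]
              exact hnrm j p (hs hp))
        rw [q4_ext h (fun _ => z) (r b) X (fun _ => G4 3)
          (Y := Function.update (Function.update (fun j _ => Function.update G4 a z j) b (r b)) m X)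
          (by rw [Function.update_of_ne h.am, Function.update_of_ne h.ab, Function.update_self])
          (by rw [Function.update_of_ne h.bm, Function.update_self])
          (by rw [Function.update_self])
          (by rw [Function.update_of_ne h.m3.symm, Function.update_of_ne h.b3.symm,
            Function.update_of_ne h.a3.symm])]
        exact h2)
      ε hε
    rwa [upd_a h] at h1
  -- (w5)
  have b5 : ‖TP bb ε R (q4 a b m (E' a) (E' b) (r m) (fun _ => G4 3))‖ ≤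
      A * (C * τ ^ (c1 / 2 - k) * (C * τ ^ (c1 / 2 - k)) * 1 * 1) *
        (2 * C * t ^ (-((1 + e) * c1)) * len J) := by
    have hp0 : 0 < C * τ ^ (c1 / 2 - k) := mul_pos hC0 (Real.rpow_pos_of_pos hτ _)
    have h1 := sum_win_TP bb ε hR hT2 (Y := q4 a b m (E' a) (E' b) (r m) (fun _ => G4 3))
      (a := A * (C * τ ^ (c1 / 2 - k) * (C * τ ^ (c1 / 2 - k)) * 1 * 1)) (fun I hI => by
        have hIR := hT2.sub hI
        have hw := win_full hR hT2 hI
        have h2 := An_scaled hk hq3 hAn hε hw ((le_of_mem hR hIR).trans hJ) h.m3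
          (WRd.restrict hR (w m) hw win_sub)
          (fun j => if j = 3 then G4 3 else E' j I)
          (r4 a b m (C * τ ^ (c1 / 2 - k)) (C * τ ^ (c1 / 2 - k)) 1 1)
          (by
            intro j
            rcases h.all j with hj | hj | hj | hj
            · rw [hj, r4_a h]; exact hp0
            · rw [hj, r4_b h]; exact hp0
            · rw [hj, r4_m h]; exact one_pos
            · rw [hj, r4_3 h]; exact one_pos)
          (r4_m h _ _ _ _)
          (by
            intro j hjm p hp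
            have hpR := win_sub hp
            rcases h.all j with hj | hj | hj | hj
            · rw [hj, r4_a h, if_neg h.a3, ← (w a).adE.eq hp]
              exact size_E prτ (w a) h.a3 hpR
            · rw [hj, r4_b h, if_neg h.b3, ← (w b).adE.eq hp]
              exact size_E prτ (w b) h.b3 hpR
            · exact absurd hj hjm
            · rw [hj, r4_3 h, if_pos rfl]
              exact hnrm 3 p hpR)
        rw [prod_r4 h] at h2
        have e2 : TP bb ε (win R T' I) (q4 a b m (E' a) (E' b) (r m) (fun _ => G4 3)) =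
            TP bb ε (win R T' I)
              (Function.update (fun j _ => if j = 3 then G4 3 else E' j I) m (r m)) := by
          refine TP_congr hε.1 fun p hp j y _ => ?_
          rcases h.all j with hj | hj | hj | hj
          · rw [hj, q4_a h, Function.update_of_ne h.am, if_neg h.a3, (w a).adE.eq hp]
          · rw [hj, q4_b h, Function.update_of_ne h.bm, if_neg h.b3, (w b).adE.eq hp]
          · rw [hj, q4_m h, Function.update_self]
          · rw [hj, q4_3 h, Function.update_of_ne h.m3.symm, if_pos rfl]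
        rw [e2]
        exact h2)
    exact h1.trans (mul_le_mul_of_nonneg_left hnum2 (by positivity))
  -- (w2)
  have b2 := wordA wd hA hK htt h (LH a h.a3) (LF b) LX (LF 3) hC0 one_pos (by positivity)
    one_pos (i := a) (n := m) h.am
    (fun p hp => by
      rw [q4_a h, r4_a h]
      exact Fz_mass m1 (frzj a p hp))
    (fun p hp => by
      rw [q4_m h, r4_m h]
      exact Lv_le m2 (hX.lev p hp)) (bt := bt)
    (by rw [if_neg h.m3]; exact x2)
  -- (w4)
  have b4 := wordA wd hA hK htt h (LE a h.a3) (LH b h.b3) LX (LF 3) hC0 hC0 (by positivity)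
    one_pos (i := b) (n := m) h.bm
    (fun p hp => by
      rw [q4_b h, r4_b h]
      exact Fz_mass m1 (frzj b p hp))
    (fun p hp => by
      rw [q4_m h, r4_m h]
      exact Lv_le m2 (hX.lev p hp)) (bt := bt)
    (by rw [if_neg h.m3]; exact x4)
  -- (w6)
  have b6 := wordB wd h (LE a h.a3) (LE b h.b3) LE2 (LF 3) hC0 hC0 (by positivity)
    one_pos (bt := bt) x6
  -- (w7)
  have b7 := wordA wd hA hK htt h (LE a h.a3) (LE b h.b3) LH2 L3r hC0 hC0 (by positivity)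
    (by positivity) (i := m) (n := 3) h.m3
    (fun p hp => by
      rw [q4_m h, r4_m h]
      exact Fz_mass m3 (frzH2 p hp))
    (fun p hp => by
      rw [q4_3 h, r4_3 h]
      exact Lv_le m4 (levr 3 p hp)) (bt := bt)
    (by rw [if_pos rfl]; exact x7)
  -- (w8)
  have b8 := wordB wd h (LE a h.a3) (LE b h.b3) LH2 L3E hC0 hC0 (by positivity)
    hC0 (bt := bt) x8
  -- (w9)
  have b9 := wordA wd hA hK htt h (LE a h.a3) (LE b h.b3) LX2 L3H hC0 hC0 (by positivity)
    hC0 (i := 3) (n := m) h.m3.symm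
    (fun p hp => by
      rw [q4_3 h, r4_3 h]
      exact Fz_mass m5 (frzj 3 p hp))
    (fun p hp => by
      rw [q4_m h, r4_m h]
      exact Lv_le m6 (levX2 p hp)) (bt := bt)
    (by rw [if_neg h.m3]; exact x9)
  -- (w10)
  have b10 := wordB wd h (LE a h.a3) (LE b h.b3) LE2 L3H hC0 hC0 (by positivity)
    hC0 (bt := bt) x10
  -- the splittings
  have s0 : TP bb ε R (Function.update (fun j _ => F j) m X) =
      TP bb ε R (q4 a b m (fun _ => G4 a) (fun _ => G4 b) X (fun _ => G4 3)) := by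
    congr 1
    symm
    refine q4_ext h _ _ _ _ ?_ ?_ ?_ ?_
    · rw [Function.update_of_ne h.am, hGj a h.am]
    · rw [Function.update_of_ne h.bm, hGj b h.bm]
    · rw [Function.update_self]
    · rw [Function.update_of_ne h.m3.symm, hGj 3 h.m3.symm]
  have hsp : ∀ j, ∀ p ∈ R, ∀ y, G4 j y = r j p y + H' j p y + E' j p y := by
    intro j p hp y
    rw [(w j).eq p hp y]
    ring
  have s1 := TP_add3 bb ε R (q4 a b m (fun _ => G4 a) (fun _ => G4 b) X (fun _ => G4 3)) a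
    (fun _ => G4 a) (r a) (H' a) (E' a) (fun p hp y => hsp a p hp y)
  rw [upd_a h, upd_a h, upd_a h, upd_a h] at s1
  have s2 := TP_add3 bb ε R (q4 a b m (E' a) (fun _ => G4 b) X (fun _ => G4 3)) b
    (fun _ => G4 b) (r b) (H' b) (E' b) (fun p hp y => hsp b p hp y)
  rw [upd_b h, upd_b h, upd_b h, upd_b h] at s2
  have s3' := TP_add2 bb ε R (q4 a b m (E' a) (E' b) X (fun _ => G4 3)) m
    X (r m) X2 (fun p hp y => by rw [hX2]; ring)
  rw [upd_m h, upd_m h, upd_m h] at s3'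
  have s4 := TP_add2 bb ε R (q4 a b m (E' a) (E' b) X (fun _ => G4 3)) m
    X2 H2 E2 hX2eq
  rw [upd_m h, upd_m h, upd_m h] at s4
  have s5 := TP_add3 bb ε R (q4 a b m (E' a) (E' b) H2 (fun _ => G4 3)) 3
    (fun _ => G4 3) (r 3) (H' 3) (E' 3) (fun p hp y => hsp 3 p hp y)
  rw [upd_3 h, upd_3 h, upd_3 h, upd_3 h] at s5
  have s6 := TP_add2 bb ε R (q4 a b m (E' a) (E' b) X (H' 3)) m
    X2 H2 E2 hX2eq
  rw [upd_m h, upd_m h, upd_m h] at s6
  -- powers
  have p20 : ∀ x : ℝ, -(20 * k) ≤ x → t ^ x ≤ t ^ (-(20 * k)) := fun x hx => rp_le ht ht1 hx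
  have pbt : ∀ x : ℝ, bt ≤ x → t ^ x ≤ t ^ bt := fun x hx => rp_le ht ht1 hx
  obtain ⟨P, hP⟩ : ∃ P, P = t ^ (-(20 * k)) := ⟨_, rfl⟩
  obtain ⟨Q, hQ⟩ : ∃ Q, Q = t ^ bt := ⟨_, rfl⟩
  have hP0 : 0 ≤ P := by rw [hP]; exact Real.rpow_nonneg ht.le _
  have hQ0 : 0 ≤ Q := by rw [hQ]; exact Real.rpow_nonneg ht.le _
  have g1 : A2 * len J ≤ (K2 * P * A + K2 * (1 + B) * Q) * len J := by
    refine mul_le_mul_of_nonneg_right ?_ hL.le
    rw [hA2, hP, hQ]
    have h1 := p20 (-(6 * k)) (by linarith)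
    have h2 := pbt (bt + 10 * k) (by linarith)
    have h3 := mul_le_mul_of_nonneg_right (mul_le_mul_of_nonneg_left h1 hK2) hA0
    have h4 := mul_le_mul_of_nonneg_left h2 (mul_nonneg hK2 hB1)
    linarith
  have g3 : C' * τ ^ (-(5 * k)) * A2 * len J ≤
      (C' * K2 * P * A + C' * K2 * (1 + B) * Q) * len J := by
    refine mul_le_mul_of_nonneg_right ?_ hL.le
    have h0 : τ ^ (-(5 * k)) ≤ t ^ (-(10 * k)) := by
      rw [hpow]
      exact rp_le ht ht1 x3
    have h1 : t ^ (-(10 * k)) * t ^ (-(6 * k)) ≤ P := by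
      rw [← Real.rpow_add ht, hP]
      exact p20 _ (by linarith)
    have h2 : t ^ (-(10 * k)) * t ^ (bt + 10 * k) ≤ Q := by
      rw [← Real.rpow_add ht, hQ]
      exact pbt _ (by linarith)
    calc C' * τ ^ (-(5 * k)) * A2 ≤ C' * t ^ (-(10 * k)) * A2 :=
          mul_le_mul_of_nonneg_right (mul_le_mul_of_nonneg_left h0 hC') hA20
      _ = C' * K2 * (t ^ (-(10 * k)) * t ^ (-(6 * k))) * A +
          C' * K2 * (1 + B) * (t ^ (-(10 * k)) * t ^ (bt + 10 * k)) := by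
          rw [hA2]
          ring
      _ ≤ C' * K2 * P * A + C' * K2 * (1 + B) * Q := by
          have h3 := mul_le_mul_of_nonneg_right
            (mul_le_mul_of_nonneg_left h1 (mul_nonneg hC' hK2)) hA0
          have h4 := mul_le_mul_of_nonneg_left h2 (mul_nonneg (mul_nonneg hC' hK2) hB1)
          linarith
  have g5 : A * (C * τ ^ (c1 / 2 - k) * (C * τ ^ (c1 / 2 - k)) * 1 * 1) *
        (2 * C * t ^ (-((1 + e) * c1)) * len J) ≤ 2 * C ^ 3 * P * A * len J := by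
    have e1 : A * (C * τ ^ (c1 / 2 - k) * (C * τ ^ (c1 / 2 - k)) * 1 * 1) *
        (2 * C * t ^ (-((1 + e) * c1)) * len J) =
        2 * C ^ 3 * (τ ^ (c1 / 2 - k) * τ ^ (c1 / 2 - k) * t ^ (-((1 + e) * c1))) * A * len J := by
      ring
    have e2 : τ ^ (c1 / 2 - k) * τ ^ (c1 / 2 - k) * t ^ (-((1 + e) * c1)) ≤ P := by
      rw [hpow, ← Real.rpow_add ht, ← Real.rpow_add ht, hP]
      exact p20 _ x5
    rw [e1]
    refine mul_le_mul_of_nonneg_right (mul_le_mul_of_nonneg_right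
      (mul_le_mul_of_nonneg_left e2 (by positivity)) hA0) hL.le
  rw [← hQ] at b2 b4 b6 b7 b8 b9 b10
  have c1' := b1.trans g1
  have c3' := b3.trans g3
  have c5' := b5.trans g5
  have hBB : ∀ c : ℝ, 0 ≤ c → B * c * Q * len J ≤ (1 + B) * c * Q * len J := by
    intro c hc
    refine mul_le_mul_of_nonneg_right (mul_le_mul_of_nonneg_right
      (mul_le_mul_of_nonneg_right (by linarith) hc) hQ0) hL.le
  have c6' := b6.trans (hBB _ (by positivity))
  have c8' := b8.trans (hBB _ (by positivity))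
  have c10' := b10.trans (hBB _ (by positivity))
  -- sum up
  rw [s0, s1, s2, s3', s4, s5]
  rw [show TP bb ε R (q4 a b m (E' a) (E' b) H2 (H' 3)) =
    TP bb ε R (q4 a b m (E' a) (E' b) X2 (H' 3)) - TP bb ε R (q4 a b m (E' a) (E' b) E2 (H' 3))
    by rw [s6]; ring]
  obtain ⟨v1, hv1⟩ : ∃ v, v = TP bb ε R (q4 a b m (r a) (fun _ => G4 b) X (fun _ => G4 3)) :=
    ⟨_, rfl⟩
  obtain ⟨v2, hv2⟩ : ∃ v, v = TP bb ε R (q4 a b m (H' a) (fun _ => G4 b) X (fun _ => G4 3)) :=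
    ⟨_, rfl⟩
  obtain ⟨v3, hv3⟩ : ∃ v, v = TP bb ε R (q4 a b m (E' a) (r b) X (fun _ => G4 3)) := ⟨_, rfl⟩
  obtain ⟨v4, hv4⟩ : ∃ v, v = TP bb ε R (q4 a b m (E' a) (H' b) X (fun _ => G4 3)) := ⟨_, rfl⟩
  obtain ⟨v5, hv5⟩ : ∃ v, v = TP bb ε R (q4 a b m (E' a) (E' b) (r m) (fun _ => G4 3)) := ⟨_, rfl⟩
  obtain ⟨v6, hv6⟩ : ∃ v, v = TP bb ε R (q4 a b m (E' a) (E' b) E2 (fun _ => G4 3)) := ⟨_, rfl⟩
  obtain ⟨v7, hv7⟩ : ∃ v, v = TP bb ε R (q4 a b m (E' a) (E' b) H2 (r 3)) := ⟨_, rfl⟩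
  obtain ⟨v8, hv8⟩ : ∃ v, v = TP bb ε R (q4 a b m (E' a) (E' b) H2 (E' 3)) := ⟨_, rfl⟩
  obtain ⟨v9, hv9⟩ : ∃ v, v = TP bb ε R (q4 a b m (E' a) (E' b) X2 (H' 3)) := ⟨_, rfl⟩
  obtain ⟨v10, hv10⟩ : ∃ v, v = TP bb ε R (q4 a b m (E' a) (E' b) E2 (H' 3)) := ⟨_, rfl⟩
  rw [← hv1] at c1' ⊢
  rw [← hv2] at b2 ⊢
  rw [← hv3] at c3' ⊢
  rw [← hv4] at b4 ⊢
  rw [← hv5] at c5' ⊢
  rw [← hv6] at c6' ⊢
  rw [← hv7] at b7 ⊢
  rw [← hv8] at c8' ⊢
  rw [← hv9] at b9 ⊢
  rw [← hv10] at c10' ⊢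
  have htri : ‖v1 + v2 + (v3 + v4 + (v5 + (v7 + (v9 - v10) + v8 + v6)))‖ ≤
      ‖v1‖ + ‖v2‖ + (‖v3‖ + ‖v4‖ + (‖v5‖ + (‖v7‖ + (‖v9‖ + ‖v10‖) + ‖v8‖ + ‖v6‖))) := by
    refine (norm_add_le _ _).trans (add_le_add (norm_add_le _ _) ?_)
    refine (norm_add_le _ _).trans (add_le_add (norm_add_le _ _) ?_)
    refine (norm_add_le _ _).trans (add_le_add le_rfl ?_)
    refine (norm_add_le _ _).trans (add_le_add ?_ le_rfl)
    refine (norm_add_le _ _).trans (add_le_add ?_ le_rfl)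
    refine (norm_add_le _ _).trans (add_le_add le_rfl ?_)
    exact norm_sub_le _ _
  refine htri.trans ?_
  rw [← hP, ← hQ]
  have hfin : (K' * P * A + K' * (1 + B) * Q) * len J =
      (K2 * P * A + K2 * (1 + B) * Q) * len J
      + K * (1 + B) * (C * 1 * (3 * C) * 1 * (3 * C)) * Q * len J
      + ((C' * K2 * P * A + C' * K2 * (1 + B) * Q) * len J
      + K * (1 + B) * (C * C * (3 * C) * 1 * (3 * C)) * Q * len J
      + (2 * C ^ 3 * P * A * len J
      + (K * (1 + B) * (C * C * (2 * C) * (3 * C) * (3 * C)) * Q * len J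
      + (K * (1 + B) * (C * C * (6 * C) * C * (3 * C)) * Q * len J
      + (1 + B) * (C * C * (2 * C) * C * (3 * C)) * Q * len J)
      + (1 + B) * (C * C * (2 * C) * C * (3 * C)) * Q * len J
      + (1 + B) * (C * C * (2 * C) * 1 * (3 * C)) * Q * len J)))
      + ((K' - (K2 + C' * K2 + 2 * C ^ 3)) * P * A
        + 2 * C ^ 3 * (1 + B) * Q) * len J := by
    rw [hK']
    ring
  rw [hfin]
  have hrest : 0 ≤ ((K' - (K2 + C' * K2 + 2 * C ^ 3)) * P * A
        + 2 * C ^ 3 * (1 + B) * Q) * len J := by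
    have : 0 ≤ K' - (K2 + C' * K2 + 2 * C ^ 3) := by
      rw [hK']
      have h1 : 0 ≤ K * (9 * C ^ 3 + 9 * C ^ 4 + 18 * C ^ 5 + 18 * C ^ 5) := by positivity
      have h2 : 0 ≤ 6 * C ^ 4 + 6 * C ^ 5 + 6 * C ^ 5 := by positivity
      linarith
    positivity
  linarith

end S351

end Crest.Agent.R079.TRec
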