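import Crest.Agent.R079.GrowthDefs_248

/-! R079, doc 2489 (2) / 2481: CONVERSION LEMMA (random signs, one slot), abstract + for windows (helper815).

A family of window letters `E w` (one window each) is replaced by the static letters
`z θ = ∑ w, θ w • E w` (`θ` = signs): `∑ w, L w (E w) = avg_θ ∑ w, θ w * L w (z θ)` for arbitrary linear
functionals `L w` (the three other letters arbitrary, moving or not), and the `r`-norm of `z θ`,
`r = 2 + κ`, `0 ≤ κ ≤ 1`, costs only `M ^ (3κ) * K ^ (2κ)` (`|E w| ≤ M`, `K` = number of windows below any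
top, `L²`). -/

set_option autoImplicit false

namespace Crest.Agent.R079.TSign

open Finset Grid Growth

variable {ι : Type*} [Fintype ι] [DecidableEq ι]

/-- signs -/
abbrev Sg (ι : Type*) : Type _ := ι → Bool

/-- the value of a sign -/
def sv (b : Bool) : ℂ := if b then 1 else -1

lemma sv_sq (b : Bool) : sv b * sv b = 1 := by cases b <;> simp [sv]

lemma norm_sv (b : Bool) : ‖sv b‖ = 1 := by cases b <;> simp [sv]

lemma conj_sv (b : Bool) : (starRingEnd ℂ) (sv b) = sv b := by cases b <;> simp [sv]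

lemma sum_sv_mul (i j : ι) :
    ∑ θ : Sg ι, sv (θ i) * sv (θ j) = if i = j then (2 : ℂ) ^ Fintype.card ι else 0 := by
  classical
  by_cases h : i = j
  · subst h
    simp [sv_sq]
  · rw [if_neg h]
    have key : ∀ θ : Sg ι, sv (θ i) * sv (θ j)
        = ∏ k : ι, (if k = i then sv (θ k) else if k = j then sv (θ k) else 1) := by
      intro θ
      rw [Finset.prod_eq_mul i j h]
      · simp [Ne.symm h]
      · intro k _ hk
        simp [hk.1, hk.2]
      · simp
      · simp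
    have h2 := Finset.prod_univ_sum (fun _ : ι => (Finset.univ : Finset Bool))
      (fun (k : ι) (b : Bool) => (if k = i then sv b else if k = j then sv b else (1 : ℂ)))
    rw [Finset.sum_congr rfl (fun θ _ => key θ)]
    have h3 : (Fintype.piFinset fun _ : ι => (Finset.univ : Finset Bool)) = (Finset.univ : Finset (ι → Bool)) := by
      ext θ; simp
    rw [h3] at h2
    rw [← h2]
    apply Finset.prod_eq_zero (Finset.mem_univ i)
    simp [sv]

/-- the static letter of a sign -/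
noncomputable def zs {Y : Type*} (E : ι → Y → ℂ) (θ : Sg ι) : Y → ℂ := fun y => ∑ w, sv (θ w) * E w y

/-- **(2a) duality**: arbitrary linear functionals. -/
theorem conv_dual {Y : Type*} (E : ι → Y → ℂ) (L : ι → (Y → ℂ) →ₗ[ℂ] ℂ) :
    ∑ w, L w (E w) = (1 / (2 : ℂ) ^ Fintype.card ι) * ∑ θ : Sg ι, ∑ w, sv (θ w) * L w (zs E θ) := by
  have hz : ∀ θ : Sg ι, zs E θ = ∑ v, sv (θ v) • E v := by
    intro θ; funext y; simp [zs, Finset.sum_apply]
  have h1 : ∑ θ : Sg ι, ∑ w, sv (θ w) * L w (zs E θ)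
      = ∑ w, ∑ v, (∑ θ : Sg ι, sv (θ w) * sv (θ v)) * L w (E v) := by
    rw [Finset.sum_comm]
    refine Finset.sum_congr rfl fun w _ => ?_
    rw [show ∑ v, (∑ θ : Sg ι, sv (θ w) * sv (θ v)) * L w (E v)
      = ∑ v, ∑ θ : Sg ι, sv (θ w) * sv (θ v) * L w (E v) from
        Finset.sum_congr rfl fun v _ => by rw [Finset.sum_mul]]
    rw [Finset.sum_comm]
    refine Finset.sum_congr rfl fun θ _ => ?_
    rw [hz θ, map_sum, Finset.mul_sum]
    refine Finset.sum_congr rfl fun v _ => ?_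
    rw [map_smul, smul_eq_mul]; ring
  rw [h1]
  simp only [sum_sv_mul, ite_mul, zero_mul, Finset.sum_ite_eq, Finset.mem_univ, if_true]
  rw [← Finset.mul_sum]
  have : (2 : ℂ) ^ Fintype.card ι ≠ 0 := pow_ne_zero _ two_ne_zero
  field_simp

/-- pointwise second moment -/
theorem avg_sq {Y : Type*} (E : ι → Y → ℂ) (y : Y) :
    ∑ θ : Sg ι, ‖zs E θ y‖ ^ 2 = (2 : ℝ) ^ Fintype.card ι * ∑ w, ‖E w y‖ ^ 2 := by
  have h1 : ((∑ θ : Sg ι, ‖zs E θ y‖ ^ 2 : ℝ) : ℂ)
      = (((2 : ℝ) ^ Fintype.card ι * ∑ w, ‖E w y‖ ^ 2 : ℝ) : ℂ) := by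
    push_cast
    have h2 : ∀ θ : Sg ι, ((‖zs E θ y‖ : ℂ)) ^ 2
        = ∑ w, ∑ v, (sv (θ w) * sv (θ v)) * (E w y * (starRingEnd ℂ) (E v y)) := by
      intro θ
      rw [← Complex.mul_conj']
      simp only [zs, map_sum, map_mul, conj_sv, Finset.sum_mul_sum]
      refine Finset.sum_congr rfl fun w _ => Finset.sum_congr rfl fun v _ => ?_
      ring
    rw [Finset.sum_congr rfl fun θ _ => h2 θ, Finset.sum_comm]
    rw [Finset.mul_sum]
    refine Finset.sum_congr rfl fun w _ => ?_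
    rw [Finset.sum_comm]
    have h3 : ∀ v, ∑ θ : Sg ι, (sv (θ w) * sv (θ v)) * (E w y * (starRingEnd ℂ) (E v y))
        = (if w = v then (2 : ℂ) ^ Fintype.card ι else 0) * (E w y * (starRingEnd ℂ) (E v y)) := by
      intro v; rw [← Finset.sum_mul, sum_sv_mul]
    rw [Finset.sum_congr rfl fun v _ => h3 v]
    simp only [ite_mul, zero_mul, Finset.sum_ite_eq, Finset.mem_univ, if_true]
    rw [Complex.mul_conj']
  exact_mod_cast h1

omit [DecidableEq ι] in
/-- pointwise bound by the number of windows -/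
lemma norm_zs_le {Y : Type*} (E : ι → Y → ℂ) (S : ι → Set Y) [∀ w, DecidablePred (· ∈ S w)] (M : ℝ)
    (hM : ∀ w y, ‖E w y‖ ≤ if y ∈ S w then M else 0) (θ : Sg ι) (y : Y) :
    ‖zs E θ y‖ ≤ M * ((univ.filter fun w => y ∈ S w).card : ℝ) := by
  calc ‖zs E θ y‖ ≤ ∑ w, ‖sv (θ w) * E w y‖ := norm_sum_le _ _
    _ ≤ ∑ w, (if y ∈ S w then M else 0) := by
        refine Finset.sum_le_sum fun w _ => ?_
        rw [norm_mul, norm_sv, one_mul]; exact hM w y
    _ = M * ((univ.filter fun w => y ∈ S w).card : ℝ) := by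
        rw [← Finset.sum_filter, Finset.sum_const, nsmul_eq_mul]; ring

/-- **(2b) norm**: `r = 2 + κ`, `0 ≤ κ ≤ 1`.  `A` = total `L²` mass `∑ w, ∑ y, ‖E w y‖²`,
`N2 = ∑ y, (number of windows over y)²`. -/
theorem avg_rpow {Y : Type*} (V : Finset Y) (E : ι → Y → ℂ) (S : ι → Set Y)
    [∀ w, DecidablePred (· ∈ S w)] (M κ A N2 : ℝ) (hM0 : 0 ≤ M) (hκ0 : 0 ≤ κ) (hκ1 : κ ≤ 1)
    (hM : ∀ w y, ‖E w y‖ ≤ if y ∈ S w then M else 0)
    (hA : ∑ y ∈ V, ∑ w, ‖E w y‖ ^ 2 ≤ A)
    (hN : ∑ y ∈ V, ((univ.filter fun w => y ∈ S w).card : ℝ) ^ 2 ≤ N2) :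
    ∑ θ : Sg ι, ∑ y ∈ V, ‖zs E θ y‖ ^ (2 + κ)
      ≤ (2 : ℝ) ^ Fintype.card ι * (M ^ (3 * κ) * (A ^ (1 - κ) * N2 ^ κ)) := by
  classical
  set n : Y → ℝ := fun y => ((univ.filter fun w => y ∈ S w).card : ℝ) with hn
  set s : Y → ℝ := fun y => ∑ w, ‖E w y‖ ^ 2 with hs
  have hn0 : ∀ y, 0 ≤ n y := fun y => by positivity
  have hs0 : ∀ y, 0 ≤ s y := fun y => Finset.sum_nonneg fun w _ => by positivity
  have hz : ∀ θ y, ‖zs E θ y‖ ≤ M * n y := fun θ y => norm_zs_le E S M hM θ y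
  have h1 : ∀ θ y, ‖zs E θ y‖ ^ (2 + κ) ≤ ‖zs E θ y‖ ^ 2 * (M * n y) ^ κ := by
    intro θ y
    rcases eq_or_lt_of_le (norm_nonneg (zs E θ y)) with h0 | h0
    · rw [← h0, Real.zero_rpow (by linarith)]; simp
    · rw [Real.rpow_add h0, Real.rpow_two]
      exact mul_le_mul_of_nonneg_left (Real.rpow_le_rpow h0.le (hz θ y) hκ0) (by positivity)
  have h2 : ∑ θ : Sg ι, ∑ y ∈ V, ‖zs E θ y‖ ^ (2 + κ)
      ≤ (2 : ℝ) ^ Fintype.card ι * ∑ y ∈ V, s y * (M * n y) ^ κ := by
    calc ∑ θ : Sg ι, ∑ y ∈ V, ‖zs E θ y‖ ^ (2 + κ)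
        ≤ ∑ θ : Sg ι, ∑ y ∈ V, ‖zs E θ y‖ ^ 2 * (M * n y) ^ κ :=
          Finset.sum_le_sum fun θ _ => Finset.sum_le_sum fun y _ => h1 θ y
      _ = ∑ y ∈ V, (∑ θ : Sg ι, ‖zs E θ y‖ ^ 2) * (M * n y) ^ κ := by
          rw [Finset.sum_comm]
          exact Finset.sum_congr rfl fun y _ => by rw [Finset.sum_mul]
      _ = (2 : ℝ) ^ Fintype.card ι * ∑ y ∈ V, s y * (M * n y) ^ κ := by
          rw [Finset.mul_sum]
          exact Finset.sum_congr rfl fun y _ => by rw [avg_sq]; ring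
  refine h2.trans (mul_le_mul_of_nonneg_left ?_ (by positivity))
  have hsn : ∀ y, s y ≤ M ^ 2 * n y := by
    intro y
    calc s y ≤ ∑ w, (if y ∈ S w then M ^ 2 else 0) := by
          refine Finset.sum_le_sum fun w _ => ?_
          have := hM w y
          split_ifs at this ⊢ with h
          · exact pow_le_pow_left₀ (norm_nonneg _) this 2
          · have h0 : ‖E w y‖ = 0 := le_antisymm this (norm_nonneg _)
            rw [h0]; simp
      _ = M ^ 2 * n y := by
          rw [← Finset.sum_filter, Finset.sum_const, nsmul_eq_mul]; ring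
  have hA0 : 0 ≤ ∑ y ∈ V, s y := Finset.sum_nonneg fun y _ => hs0 y
  have hN0 : 0 ≤ ∑ y ∈ V, n y ^ 2 := Finset.sum_nonneg fun y _ => by positivity
  rcases eq_or_lt_of_le hκ0 with hk | hk
  · subst hk
    simp only [Real.rpow_zero, mul_one, mul_zero, one_mul, sub_zero, Real.rpow_one]
    exact hA
  rcases eq_or_lt_of_le hκ1 with hk1 | hk1
  · subst hk1
    simp only [Real.rpow_one, mul_one, sub_self, Real.rpow_zero, one_mul]
    calc ∑ y ∈ V, s y * (M * n y) ≤ ∑ y ∈ V, (M ^ 2 * n y) * (M * n y) :=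
          Finset.sum_le_sum fun y _ =>
            mul_le_mul_of_nonneg_right (hsn y) (mul_nonneg hM0 (hn0 y))
      _ = M ^ 3 * ∑ y ∈ V, n y ^ 2 := by
          rw [Finset.mul_sum]; exact Finset.sum_congr rfl fun y _ => by ring
      _ ≤ M ^ (3 : ℝ) * N2 := by
          rw [show (3 : ℝ) = ((3 : ℕ) : ℝ) by norm_num, Real.rpow_natCast]
          exact mul_le_mul_of_nonneg_left hN (by positivity)
  · have hp : (1 - κ)⁻¹.HolderConjugate κ⁻¹ := by
      rw [Real.holderConjugate_iff]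
      refine ⟨?_, by simp⟩
      exact (one_lt_inv₀ (by linarith)).2 (by linarith)
    have hH := Real.inner_le_Lp_mul_Lq_of_nonneg V hp
      (f := fun y => (s y) ^ (1 - κ)) (g := fun y => (s y * n y) ^ κ)
      (fun y _ => Real.rpow_nonneg (hs0 y) _)
      (fun y _ => Real.rpow_nonneg (mul_nonneg (hs0 y) (hn0 y)) _)
    have e1 : ∀ y, ((s y) ^ (1 - κ)) ^ (1 - κ)⁻¹ = s y := fun y => by
      rw [← Real.rpow_mul (hs0 y), mul_inv_cancel₀ (by linarith), Real.rpow_one]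
    have e2 : ∀ y, ((s y * n y) ^ κ) ^ κ⁻¹ = s y * n y := fun y => by
      rw [← Real.rpow_mul (mul_nonneg (hs0 y) (hn0 y)), mul_inv_cancel₀ hk.ne', Real.rpow_one]
    simp only [e1, e2, one_div, inv_inv] at hH
    have e3 : ∀ y, s y * (M * n y) ^ κ = M ^ κ * ((s y) ^ (1 - κ) * (s y * n y) ^ κ) := by
      intro y
      rcases eq_or_lt_of_le (hs0 y) with h0 | h0
      · rw [← h0, Real.zero_rpow (by linarith : (1 - κ) ≠ 0)]; simp
      · rw [Real.mul_rpow hM0 (hn0 y), Real.mul_rpow h0.le (hn0 y)]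
        have : s y = s y ^ (1 - κ) * s y ^ κ := by
          rw [← Real.rpow_add h0]; simp
        calc s y * (M ^ κ * n y ^ κ) = (s y ^ (1 - κ) * s y ^ κ) * (M ^ κ * n y ^ κ) := by rw [← this]
          _ = _ := by ring
    have hSN : ∑ y ∈ V, s y * n y ≤ M ^ 2 * N2 := by
      calc ∑ y ∈ V, s y * n y ≤ ∑ y ∈ V, M ^ 2 * n y ^ 2 :=
            Finset.sum_le_sum fun y _ => by
              have := mul_le_mul_of_nonneg_right (hsn y) (hn0 y)
              nlinarith
        _ ≤ M ^ 2 * N2 := by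
            rw [← Finset.mul_sum]; exact mul_le_mul_of_nonneg_left hN (by positivity)
    calc ∑ y ∈ V, s y * (M * n y) ^ κ = M ^ κ * ∑ y ∈ V, ((s y) ^ (1 - κ) * (s y * n y) ^ κ) := by
          rw [Finset.mul_sum]; exact Finset.sum_congr rfl fun y _ => e3 y
      _ ≤ M ^ κ * ((∑ y ∈ V, s y) ^ (1 - κ) * (∑ y ∈ V, s y * n y) ^ κ) :=
          mul_le_mul_of_nonneg_left hH (Real.rpow_nonneg hM0 _)
      _ ≤ M ^ κ * (A ^ (1 - κ) * (M ^ 2 * N2) ^ κ) := by
          refine mul_le_mul_of_nonneg_left (mul_le_mul ?_ ?_ ?_ ?_) (Real.rpow_nonneg hM0 _)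
          · exact Real.rpow_le_rpow hA0 hA (by linarith)
          · exact Real.rpow_le_rpow (Finset.sum_nonneg fun y _ => mul_nonneg (hs0 y) (hn0 y)) hSN hk.le
          · exact Real.rpow_nonneg (Finset.sum_nonneg fun y _ => mul_nonneg (hs0 y) (hn0 y)) _
          · exact Real.rpow_nonneg (hA0.trans hA) _
      _ = M ^ (3 * κ) * (A ^ (1 - κ) * N2 ^ κ) := by
          rw [Real.mul_rpow (by positivity) (hN0.trans hN)]
          rcases eq_or_lt_of_le hM0 with h0 | h0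
          · rw [← h0, Real.zero_rpow hk.ne', Real.zero_rpow (by positivity)]; simp
          · have : M ^ (3 * κ) = M ^ κ * (M ^ 2) ^ κ := by
              rw [← Real.rpow_two, ← Real.rpow_mul h0.le, ← Real.rpow_add h0]
              congr 1; ring
            rw [this]; ring

end Crest.Agent.R079.TSign
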