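import Crest.Agent.R079.TFin2_853
import Crest.Agent.R079.Dic_679

/-! R079, STAGGERED DICTIONARIES (helper853).  Slot `j` has the plain price `t ^ γ j`,
`0 < γ j ≤ 1`, point masses of height `t⁻¹`, and an arbitrary admissible family `S` (`Fam` of 679).
With `γ 0 < γ 1 < γ 2`, `γ i (1+e) < γ m` for `i < m`, the pairs `i < m` of `RuleA2` are trivial kills
(mass `t^(-γ i (1+e))` times level `t^(γ m)`), and only `(1;0), (2;0), (2;1)` are critical.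
`target_of_pairs`: `S0106` from the ordered pairs and `RuleS` for one such dictionary. -/

set_option autoImplicit false

namespace Crest.Agent.R079.TStg853

open Finset Crest.Agent.R079.Grid Crest.Agent.R079.Glue Crest.Agent.R079.Growth Crest.Agent.R079.QRed
open Crest.Agent.R079.TFrz679 Crest.Agent.R079.TRec Crest.Agent.R079.Dic679

/-- the dictionary generated by `G` -/
def DG (G : Fin 4 → ℝ → Set Fn) : Dict := fun j t =>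
  {φ | j ≠ 3 ∧ ∃ s : ℝ, t ≤ s ∧ s ≤ 1 ∧ ∃ ψ : Fn, ψ ∈ G j s ∧ ∃ c : ℝ, 0 ≤ c ∧ c ≤ 1 ∧
      ((φ = fun y => (c : ℂ) * ψ y) ∨ (φ = fun y => (c : ℂ) * (starRingEnd ℂ) (ψ y)))}

theorem dic_DG {G : Fin 4 → ℝ → Set Fn} (hG : Fam G)
    (hpt : ∀ j : Fin 4, j ≠ 3 → ∀ t : ℝ, 0 < t → t ≤ 1 → ∀ y : ℤ,
      (fun x => if x = y then ((t : ℂ))⁻¹ else 0) ∈ G j t) : Dic (DG G) 0 := by
  refine ⟨?_, ?_, ?_, ?_⟩
  · rintro j t ht ht1 φ ⟨hj, s, hts, hs1, ψ, hψ, c, hc, hc1, hφ⟩ y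
    have hs : 0 < s := lt_of_lt_of_le ht hts
    have h1 : ‖ψ y‖ ≤ s⁻¹ := hG.sup j hj s hs hs1 ψ hψ y
    have h2 : ‖φ y‖ ≤ s⁻¹ := by
      rcases hφ with rfl | rfl
      · show ‖(c : ℂ) * ψ y‖ ≤ _
        rw [norm_mul, Complex.norm_real, Real.norm_of_nonneg hc]
        calc c * ‖ψ y‖ ≤ 1 * ‖ψ y‖ := by gcongr
          _ ≤ s⁻¹ := by rw [one_mul]; exact h1
      · show ‖(c : ℂ) * (starRingEnd ℂ) (ψ y)‖ ≤ _
        rw [norm_mul, Complex.norm_real, Real.norm_of_nonneg hc, RCLike.norm_conj]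
        calc c * ‖ψ y‖ ≤ 1 * ‖ψ y‖ := by gcongr
          _ ≤ s⁻¹ := by rw [one_mul]; exact h1
    have h3 : sx 0 j = 1 := by simp [sx, hj]
    rw [h3, Real.rpow_neg_one]
    exact h2.trans (inv_anti₀ ht hts)
  · rintro j s t hs hst ht1 φ ⟨hj, r, hr, hr1, ψ, hψ, c, hc, hc1, hφ⟩
    refine ⟨φ, ⟨hj, r, hst.trans hr, hr1, ψ, hψ, c, hc, hc1, hφ⟩, 1, zero_le_one, le_rfl, ?_⟩
    funext y; simp
  · rintro j t φ ⟨hj, r, hr, hr1, ψ, hψ, c, hc, hc1, hφ⟩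
    refine ⟨hj, r, hr, hr1, ψ, hψ, c, hc, hc1, ?_⟩
    rcases hφ with rfl | rfl
    · right; funext y; simp
    · left; funext y; simp
  · intro j hj t ht ht1 y
    exact ⟨hj, t, le_rfl, ht1, _, hpt j hj t ht ht1 y, 1, zero_le_one, le_rfl,
      Or.inl (by funext x; simp)⟩

theorem rep_DG {G : Fin 4 → ℝ → Set Fn} (hG : Fam G) : ∀ j : Fin 4, j ≠ 3 → ∀ t : ℝ, 0 < t →
    t ≤ 1 → ∃ M : ℝ, 0 ≤ M ∧ ∀ φ ∈ DG G j t, ∀ p : Nd, Rep j p φ M := by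
  intro j hj t ht ht1
  obtain ⟨A, C, hA, hC, hm⟩ := hG.mass
  refine ⟨A * t ^ (-C), by positivity, ?_⟩
  rintro φ ⟨-, s, hts, hs1, ψ, hψ, c, hc, hc1, hφ⟩ p
  have hs : 0 < s := lt_of_lt_of_le ht hts
  have hM0 : 0 ≤ A * t ^ (-C) := by positivity
  have h1 : Rep j p ψ (A * t ^ (-C)) := by
    refine rep_mono (hm j hj s hs hs1 ψ hψ p) ?_
    have h2 : s ^ (-C) ≤ t ^ (-C) := Real.rpow_le_rpow_of_nonpos ht hts (by linarith)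
    exact mul_le_mul_of_nonneg_left h2 hA
  rcases hφ with rfl | rfl
  · exact rep_cmul hM0 h1 hc hc1
  · exact rep_cmul hM0 (rep_conj h1) hc hc1

theorem frzBd_DG {G : Fin 4 → ℝ → Set Fn} (hG : Fam G) {k q3 : ℝ} (hk : 0 ≤ k) (hq3 : 2 ≤ q3) :
    FrzBd (DG G) k q3 := frzBd_of_rep hk hq3 (rep_DG hG)

/-- the generators belong to the dictionary -/
theorem mem_DG {G : Fin 4 → ℝ → Set Fn} {j : Fin 4} (hj : j ≠ 3) {t : ℝ} (ht1 : t ≤ 1) {φ : Fn}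
    (h : φ ∈ G j t) : φ ∈ DG G j t :=
  ⟨hj, t, le_rfl, ht1, φ, h, 1, zero_le_one, le_rfl, Or.inl (by funext y; simp)⟩

/-- unit `A₃` atoms at price `t ^ γ j` -/
def PlG (γ : Fin 4 → ℝ) (j : Fin 4) (t : ℝ) : Set Fn :=
  {φ | ∃ ψ, IsAtom j ψ ∧ φ = fun y => ((t ^ (-(γ j)) : ℝ) : ℂ) * ψ y}

/-- point masses of height `t⁻¹` -/
def Pt (_ : Fin 4) (t : ℝ) : Set Fn := {φ | ∃ y : ℤ, φ = fun x => if x = y then ((t : ℂ))⁻¹ else 0}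

theorem pt_atom (j : Fin 4) (y : ℤ) : IsAtom j (fun x => if x = y then (1 : ℂ) else 0) := by
  obtain ⟨z, hz⟩ : ∃ z : Fin 3 → ℤ, cf j 0 * z 0 + cf j 1 * z 1 + cf j 2 * z 2 = y := by
    fin_cases j
    · exact ⟨![y, 0, 0], by simp [cf, sl]⟩
    · exact ⟨![-y, 0, 0], by simp [cf, sl]⟩
    · exact ⟨![0, -y, 0], by simp [cf, sl, Fin.succAbove]⟩
    · exact ⟨![y, 0, 0], by simp [cf, sl, Fin.succAbove]⟩
  refine ⟨1, fun i => {z i}, fun _ _ => 1, fun _ _ => 1, fun _ _ => 1, zero_le_one, ?_, ?_⟩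
  · funext x
    unfold atom
    simp only [Finset.sum_singleton, hz, Complex.ofReal_one, one_mul, mul_one]
    rcases eq_or_ne x y with h | h
    · simp [h]
    · simp [h, Ne.symm h]
  · simp [n3]

theorem fam_PlG {γ : Fin 4 → ℝ} (hγ : ∀ j, 0 < γ j) (hγ1 : ∀ j, γ j ≤ 1) : Fam (PlG γ) := by
  have hQa : Qa := Crest.Agent.R079.Qa246.qa
  have hb : ∀ (j : Fin 4) (t : ℝ), 0 < t → t ≤ 1 → t ^ (-(γ j)) ≤ t⁻¹ := by
    intro j t ht ht1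
    rw [← Real.rpow_neg_one]
    exact Real.rpow_le_rpow_of_exponent_ge ht ht1 (by linarith [hγ1 j])
  refine ⟨?_, ⟨1, 1, zero_le_one, zero_le_one, ?_⟩⟩
  · rintro j hj t ht ht1 φ ⟨ψ, hψ, rfl⟩ y
    show ‖((t ^ (-(γ j)) : ℝ) : ℂ) * ψ y‖ ≤ _
    rw [norm_mul, Complex.norm_real, Real.norm_of_nonneg (by positivity)]
    calc t ^ (-(γ j)) * ‖ψ y‖ ≤ t ^ (-(γ j)) * 1 :=
          mul_le_mul_of_nonneg_left (hQa j ψ hψ y) (by positivity)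
      _ ≤ t⁻¹ := by rw [mul_one]; exact hb j t ht ht1
  · rintro j hj t ht ht1 φ ⟨ψ, hψ, rfl⟩ p
    refine rep_smul hψ ((t ^ (-(γ j)) : ℝ) : ℂ) ?_ p fun y _ => rfl
    rw [Complex.norm_real, Real.norm_of_nonneg (by positivity), one_mul, Real.rpow_neg_one]
    exact hb j t ht ht1

theorem fam_Pt : Fam Pt := by
  refine ⟨?_, ⟨1, 1, zero_le_one, zero_le_one, ?_⟩⟩
  · rintro j hj t ht ht1 φ ⟨z, rfl⟩ y
    show ‖(if y = z then ((t : ℂ))⁻¹ else 0)‖ ≤ t⁻¹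
    split_ifs
    · rw [norm_inv, Complex.norm_real, Real.norm_of_nonneg ht.le]
    · rw [norm_zero]; positivity
  · rintro j hj t ht ht1 φ ⟨z, rfl⟩ p
    refine rep_smul (pt_atom j z) ((t : ℂ)⁻¹) ?_ p fun y _ => ?_
    · rw [norm_inv, Complex.norm_real, Real.norm_of_nonneg ht.le, one_mul, Real.rpow_neg_one]
    · simp

/-- **the staggered dictionary with the extra family `S`** -/
def DGS (γ : Fin 4 → ℝ) (S : Fin 4 → ℝ → Set Fn) : Dict :=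
  DG (fun j t => (PlG γ j t ∪ Pt j t) ∪ S j t)

theorem fam_all {γ : Fin 4 → ℝ} (hγ : ∀ j, 0 < γ j) (hγ1 : ∀ j, γ j ≤ 1)
    {S : Fin 4 → ℝ → Set Fn} (hS : Fam S) :
    Fam (fun j t => (PlG γ j t ∪ Pt j t) ∪ S j t) :=
  ((fam_PlG hγ hγ1).union fam_Pt).union hS

theorem dic_DGS {γ : Fin 4 → ℝ} (hγ : ∀ j, 0 < γ j) (hγ1 : ∀ j, γ j ≤ 1)
    {S : Fin 4 → ℝ → Set Fn} (hS : Fam S) : Dic (DGS γ S) 0 :=
  dic_DG (fam_all hγ hγ1 hS) fun _ _ _ _ _ y => Or.inl (Or.inr ⟨y, rfl⟩)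

theorem frzBd_DGS {γ : Fin 4 → ℝ} (hγ : ∀ j, 0 < γ j) (hγ1 : ∀ j, γ j ≤ 1)
    {S : Fin 4 → ℝ → Set Fn} (hS : Fam S) {k q3 : ℝ} (hk : 0 ≤ k) (hq3 : 2 ≤ q3) :
    FrzBd (DGS γ S) k q3 := frzBd_DG (fam_all hγ hγ1 hS) hk hq3

/-- level of slot `j` against the unit `A₃` atoms: `t ^ γ j` -/
theorem lv_plG {γ : Fin 4 → ℝ} {S : Fin 4 → ℝ → Set Fn} {j : Fin 4} (hj : j ≠ 3) {t : ℝ}
    (ht : 0 < t) (ht1 : t ≤ 1) {u : ℝ} {p : Nd} {g : Fn} (h : Lv (DGS γ S) j t u p g) {φ : Fn}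
    (hφ : IsAtom j φ) : ‖∑ y ∈ iv p, g y * φ y‖ ≤ u * t ^ (γ j) * len p := by
  have h1 := h (fun y => ((t ^ (-(γ j)) : ℝ) : ℂ) * φ y)
    (mem_DG hj ht1 (Or.inl (Or.inl ⟨φ, hφ, rfl⟩)))
  have h2 : ∑ y ∈ iv p, g y * (((t ^ (-(γ j)) : ℝ) : ℂ) * φ y) =
      ((t ^ (-(γ j)) : ℝ) : ℂ) * ∑ y ∈ iv p, g y * φ y := by
    rw [Finset.mul_sum]
    exact Finset.sum_congr rfl fun y _ => by ring
  rw [h2, norm_mul, Complex.norm_real, Real.norm_of_nonneg (by positivity), Real.rpow_neg ht.le,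
    inv_mul_le_iff₀ (by positivity)] at h1
  linarith

/-- level against the extra family -/
theorem lv_S {γ : Fin 4 → ℝ} {S : Fin 4 → ℝ → Set Fn} {j : Fin 4} (hj : j ≠ 3) {t : ℝ}
    (ht1 : t ≤ 1) {u : ℝ} {p : Nd} {g : Fn} (h : Lv (DGS γ S) j t u p g) {φ : Fn}
    (hφ : φ ∈ S j t) : ‖∑ y ∈ iv p, g y * φ y‖ ≤ u * len p := h φ (mem_DG hj ht1 (Or.inr hφ))

/-! ### pairs -/

/-- `RuleA2` for ONE ordered pair (frozen `i` at `t^(1+e)`; killer `m` of level `t`) -/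
def Pair (D : Dict) (k q3 c0 e t0 K : ℝ) (i m : Fin 4) : Prop :=
  ∀ (N : ℕ) (B : ℝ), 0 ≤ B → BN k q3 N B → ∀ t, 0 < t → t ≤ t0 → ∀ bb ε, Adm bb ε → ∀ W I,
    Full W I → I.1 ≤ N → ∀ F, nrm k q3 W F → Fz D i (t ^ (1 + e)) 1 I (F i) →
      (∀ p ∈ W, Lv D m t 1 p (F m)) → ‖TR bb ε W F‖ ≤ K * (1 + B) * t ^ c0 * len I

theorem ruleA2_of_pairs {D : Dict} {k q3 c0 e t0 K : ℝ}
    (h : ∀ i m : Fin 4, i ≠ m → i ≠ 3 → m ≠ 3 → Pair D k q3 c0 e t0 K i m) :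
    RuleA2 D k q3 c0 e t0 K :=
  fun N B hB hBN t ht ht0 bb ε hε W I hW hI F hF i m him hi hm hfz hlv =>
    h i m him hi hm N B hB hBN t ht ht0 bb ε hε W I hW hI F hF hfz hlv

/-- constants and exponents may be taken worse -/
theorem Pair.mono {D : Dict} {k q3 c0 c0' e t0 t0' K K' : ℝ} {i m : Fin 4}
    (h : Pair D k q3 c0 e t0 K i m) (hc : c0' ≤ c0) (ht : t0' ≤ t0) (ht1 : t0' ≤ 1)
    (hK : 0 ≤ K) (hKK : K ≤ K') : Pair D k q3 c0' e t0' K' i m := by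
  intro N B hB hBN t h0 h1 bb ε hε W I hW hI F hF hfz hlv
  refine (h N B hB hBN t h0 (h1.trans ht) bb ε hε W I hW hI F hF hfz hlv).trans ?_
  have e1 : t ^ c0 ≤ t ^ c0' := Real.rpow_le_rpow_of_exponent_ge h0 (h1.trans ht1) hc
  have hl : 0 < len I := Growth.len_pos I
  have hK' : 0 ≤ K' := hK.trans hKK
  have hB1 : 0 ≤ 1 + B := by linarith
  have e2 : 0 ≤ t ^ c0 := by positivity
  gcongr

/-- **`S0106` from the six ordered pairs (three of them trivial) and the static rule, for one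
staggered dictionary** -/
theorem target_of_pairs (γ : Fin 4 → ℝ) (hγ : ∀ j, 0 < γ j) (hγ1 : ∀ j, γ j ≤ 1)
    (S : Fin 4 → ℝ → Set Fn) (hS : Fam S) (k q3 c0 cS CS s1 e c1 bt κ t0 K : ℝ) (K0 : ℕ)
    (hok : Ok2 k q3 c0 cS CS s1 e c1 bt κ K0) (ht0 : 0 < t0) (hK : 0 ≤ K)
    (hA : ∀ i m : Fin 4, i ≠ m → i ≠ 3 → m ≠ 3 → Pair (DGS γ S) k q3 c0 e t0 K i m)
    (hRS : RuleS (DGS γ S) k q3 cS CS s1 e t0 K) : L0.Target :=
  TFin2853.target_of_analytic2 ⟨DGS γ S, k, q3, c0, cS, CS, s1, e, c1, bt, κ, t0, K, K0, hok, ht0,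
    hK, dic_DGS hγ hγ1 hS, ruleA2_of_pairs hA, hRS,
    frzBd_DGS hγ hγ1 hS hok.k0.le hok.hq3.le⟩

end Crest.Agent.R079.TStg853
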