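import Crest.Agent.R079.TS0_903
import Crest.Agent.R079.TS1_653
import Crest.Agent.R079.TS3a_351

/-! R079, [T4b] top step (helper686, second typist): frozen words and the word of three small
letters on common windows; monotonicity of windowed residuals in the constant. -/

set_option autoImplicit false

namespace Crest.Agent.R079.TRec

namespace T686

open Finset Crest.Agent.R079.Grid Crest.Agent.R079.Growth Crest.Agent.R079.QRed

variable {D : Dict} {k q3 sg c1 C t : ℝ} {R : Finset Nd} {J : Nd} {T : Finset Nd}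

/-- **frozen word**: one slot `i ≠ 3` frozen on the windows, the others of norm `≤ a` -/
lemma word_h {K0 : ℝ} (hK0 : 0 ≤ K0) (hC : 1 ≤ C)
    (hF : ∀ bb ε, Adm bb ε → ∀ W I, Full W I →
      ∀ (F : Fin 4 → Fn) (a : Fin 4 → ℝ) (C : ℝ), 1 ≤ C → (∀ j, 1 ≤ a j) →
      (∀ j, ∀ p ∈ W, aq (qx k q3 j) p (F j) ≤ a j) → ∀ i : Fin 4, i ≠ 3 → Fz D i t C I (F i) →
        ‖TR bb ε W F‖ ≤ K0 * C * (∏ j, a j) * len I)
    {bb : ℤ} {ε : ℕ → ℤ → ℂ} (hA : Adm bb ε) (hR : Full R J) (hT : Tops R J T)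
    {Y : Fin 4 → Nd → Fn} (hY : ∀ j, Adp R T (Y j)) {i : Fin 4} (hi : i ≠ 3)
    (hfz : ∀ p ∈ R, Fz D i t C p (Y i p)) {a : ℝ} (ha : 1 ≤ a)
    (hn : ∀ j, ∀ p ∈ R, aq (qx k q3 j) p (Y j p) ≤ a) {A : ℝ} (hc : Cnt R T A) :
    ‖TP bb ε R Y‖ ≤ K0 * C * a ^ 4 * (1 + A) * len J := by
  refine sum_win_cnt bb ε hR hT hY (by positivity) hc fun I hI => ?_
  have h := hF bb ε hA (win R T I) I (win_full hR hT hI) (fun j => Y j I) (fun _ => a) C hC
    (fun _ => ha) (fun j p hp => by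
      rw [← (hY j).eq hp]
      exact hn j p (win_sub hp)) i hi (hfz I (hT.sub hI))
  simpa [Fin.prod_univ_four, pow_succ, mul_assoc] using h

/-- **bounded word**: all four letters static on the windows, norms `≤ a j` -/
lemma word_b (hk : 0 < k) (hq3 : 2 < q3) {N : ℕ} {B : ℝ} (hB0 : 0 ≤ B) (hB : BN k q3 N B)
    {bb : ℤ} {ε : ℕ → ℤ → ℂ} (hA : Adm bb ε) (hR : Full R J) (hJ : J.1 ≤ N) (hT : Tops R J T)
    {Y : Fin 4 → Nd → Fn} (hY : ∀ j, Adp R T (Y j)) {a : Fin 4 → ℝ} (ha : ∀ j, 0 ≤ a j)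
    (hn : ∀ j, ∀ p ∈ R, aq (qx k q3 j) p (Y j p) ≤ a j) {A : ℝ} (hc : Cnt R T A) :
    ‖TP bb ε R Y‖ ≤ B * (∏ j, a j) * (1 + A) * len J := by
  refine sum_win_cnt bb ε hR hT hY (mul_nonneg hB0 (Finset.prod_nonneg fun j _ => ha j)) hc
    fun I hI => ?_
  exact BN_scaled hk hq3 hB hA (win_full hR hT hI)
    ((S351.le_of_mem hR (hT.sub hI)).trans hJ) ha (fun j p hp => by
      rw [← (hY j).eq hp]
      exact hn j p (win_sub hp))

/-- windowed residuals are monotone in the constant -/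
theorem WRd_mono {j : Fin 4} {G : Fn} {H E X : Nd → Fn} {C' : ℝ} (hC : 0 ≤ C) (hCC : C ≤ C')
    (ht : 0 < t) (h : WRd D k q3 sg c1 C j t R J T G H E X) :
    WRd D k q3 sg c1 C' j t R J T G H E X where
  tops := h.tops
  adH := h.adH
  adE := h.adE
  eq := h.eq
  nrm := h.nrm
  lev := fun p hp => S351.Lv_le hCC (h.lev p hp)
  frz := fun p hp => S351.Fz_mass hCC (h.frz p hp)
  hav := fun p hp => (h.hav p hp).trans hCC
  eav := fun p hp => (h.eav p hp).trans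
    (mul_le_mul_of_nonneg_right hCC (Real.rpow_pos_of_pos ht _).le)
  hsup := fun p hp y hy => (h.hsup p hp y hy).trans
    (mul_le_mul_of_nonneg_right hCC (Real.rpow_pos_of_pos ht _).le)
  esup := fun p hp y hy => (h.esup p hp y hy).trans
    (mul_le_mul_of_nonneg_right hCC (Real.rpow_pos_of_pos ht _).le)
  cnt := h.cnt.mono (mul_le_mul_of_nonneg_right hCC (Real.rpow_pos_of_pos ht _).le)
  sq := fun p hp => (h.sq p hp).trans (mul_le_mul_of_nonneg_right hCC (len_pos p).le)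

/-- the letter `E` in slot `i ≠ 3` replaced by a static one -/
lemma conv_E (hV : ConvLem) (hk : 0 < k) (hk4 : k ≤ 1 / 4) (hC : 1 ≤ C) :
    ∃ C' : ℝ, 0 ≤ C' ∧ ∀ {D : Dict} {q3 sg c1 : ℝ} (bb : ℤ) (i : Fin 4) (t A : ℝ), 0 < t → t ≤ 1 →
      0 ≤ A → 0 ≤ c1 → c1 ≤ 1 → i ≠ 3 → ∀ {R J} (hR : Full R J) {T G H E X},
      WRd D k q3 sg c1 C i t R J T G H E X → ∀ (Y : Fin 4 → Nd → Fn),
      (∀ ε, Adm bb ε → ∀ R' J', Full R' J' → R' ⊆ R → ∀ z : Fn,
        (∀ p ∈ R', aq (2 + k) p z ≤ 1) →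
        ‖TP bb ε R' (Function.update Y i (fun _ => z))‖ ≤ A * len J') →
      ∀ ε, Adm bb ε → ‖TP bb ε R (Function.update Y i E)‖ ≤ C' * t ^ (-(5 * k)) * A * len J := by
  obtain ⟨C', hC', h⟩ := hV k hk hk4 C hC
  refine ⟨C', hC', ?_⟩
  intro D q3 sg c1 bb i t A ht ht1 hA hc0 hc1 hi R J hR T G H E X hX Y hyp ε hε
  have hC0 : 0 ≤ C := by linarith
  have hsx : sx sg i = 1 := by simp [sx, hi]
  refine h bb i t A ht ht1 hA R J hR Y T E hX.tops hX.adE ?_ ?_ ?_ hX.sq hyp ε hε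
  · intro p hp
    refine (hX.eav p hp).trans ?_
    exact mul_le_of_le_one_right hC0 (Real.rpow_le_one ht.le ht1 (by linarith))
  · intro p hp y hy
    have := hX.esup p hp y hy
    rwa [hsx, Real.rpow_neg_one] at this
  · refine hX.cnt.mono (mul_le_mul_of_nonneg_left ?_ hC0)
    rw [← Real.rpow_neg_one]
    exact Real.rpow_le_rpow_of_exponent_ge ht ht1 (by linarith)

end T686

end Crest.Agent.R079.TRec
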