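import Crest.Agent.R079.TDef_853
import Crest.Agent.R079.Qb_247
import Crest.Agent.R079.BBp_229
import Crest.Agent.R079.GrowthG1_215

/-! R079, global recursion (TDef_853), [T4b] TOP STEP, part 1 (helper13): norms, linearity, scaled
hypotheses. -/

set_option autoImplicit false

namespace Crest.Agent.R079.TTop13

open Finset Crest.Agent.R079.Grid Crest.Agent.R079.Growth Crest.Agent.R079.QRed
open Crest.Agent.R079.TRec

/-! ### norms -/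

lemma aq_nonneg (q : ℝ) (p : Nd) (f : Fn) : 0 ≤ aq q p f := Lq853.avq_nonneg _ _ _ _

lemma aq_eq (q : ℝ) (p : Nd) (f : Fn) :
    aq q p f = ((1 / len p) * ∑ y ∈ iv p, ‖f y‖ ^ q) ^ (1 / q) := rfl

lemma aq_le_of_mean {q b : ℝ} (hq : 0 < q) {p : Nd} {f : Fn}
    (h : ∑ y ∈ iv p, ‖f y‖ ^ q ≤ b * len p) : aq q p f ≤ b ^ (1 / q) := by
  have hl := Growth.len_pos p
  rw [aq_eq]
  refine Real.rpow_le_rpow (mul_nonneg (by positivity)
    (Finset.sum_nonneg fun y _ => Real.rpow_nonneg (norm_nonneg _) _)) ?_ (by positivity)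
  rw [one_div, inv_mul_le_iff₀ hl]
  linarith

lemma aq_le_of_sup {q M : ℝ} (hq : 0 < q) (hM : 0 ≤ M) {p : Nd} {f : Fn}
    (h : ∀ y ∈ iv p, ‖f y‖ ≤ M) : aq q p f ≤ M := by
  have h1 : ∑ y ∈ iv p, ‖f y‖ ^ q ≤ M ^ q * len p := by
    calc ∑ y ∈ iv p, ‖f y‖ ^ q ≤ ∑ y ∈ iv p, M ^ q :=
          Finset.sum_le_sum fun y hy => Real.rpow_le_rpow (norm_nonneg _) (h y hy) hq.le
      _ = M ^ q * len p := by
          rw [Finset.sum_const, nsmul_eq_mul, Growth.card_iv]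
          ring
  refine (aq_le_of_mean hq h1).trans (le_of_eq ?_)
  rw [← Real.rpow_mul hM, mul_one_div_cancel hq.ne', Real.rpow_one]

/-- interpolation -/
lemma aq_interp {k a M : ℝ} (hk : 0 < k) (hM : 0 ≤ M) {p : Nd} {f : Fn}
    (h2 : av p f ≤ a) (h : ∀ y ∈ iv p, ‖f y‖ ≤ M) :
    aq (2 + k) p f ≤ (a ^ 2 * M ^ k) ^ (1 / (2 + k)) := by
  refine aq_le_of_mean (by linarith) ?_
  have hav := Growth.av_nonneg p f
  have hl := Growth.len_pos p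
  have hMk : 0 ≤ M ^ k := Real.rpow_nonneg hM _
  calc ∑ y ∈ iv p, ‖f y‖ ^ (2 + k) ≤ ∑ y ∈ iv p, ‖f y‖ ^ 2 * M ^ k := by
        refine Finset.sum_le_sum fun y hy => ?_
        rw [Real.rpow_add_of_nonneg (norm_nonneg _) (by norm_num) hk.le, Real.rpow_two]
        exact mul_le_mul_of_nonneg_left (Real.rpow_le_rpow (norm_nonneg _) (h y hy) hk.le)
          (sq_nonneg _)
    _ = (len p * av p f ^ 2) * M ^ k := by rw [← Finset.sum_mul, Growth.sum_av]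
    _ ≤ (len p * a ^ 2) * M ^ k := by gcongr
    _ = _ := by ring

lemma aq_smul {q : ℝ} (hq : 0 < q) (p : Nd) (c : ℝ) (hc : 0 ≤ c) (f : Fn) :
    aq q p (fun y => (c : ℂ) * f y) = c * aq q p f := by
  have hl := Growth.len_pos p
  have h0 : 0 ≤ (1 / len p) * ∑ y ∈ iv p, ‖f y‖ ^ q := mul_nonneg (by positivity)
    (Finset.sum_nonneg fun y _ => Real.rpow_nonneg (norm_nonneg _) _)
  rw [aq_eq, aq_eq]
  have e : ∀ y, ‖(c : ℂ) * f y‖ ^ q = c ^ q * ‖f y‖ ^ q := by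
    intro y
    rw [norm_mul, Complex.norm_real, Real.norm_of_nonneg hc, Real.mul_rpow hc (norm_nonneg _)]
  simp only [e]
  rw [← Finset.mul_sum, show 1 / len p * (c ^ q * ∑ y ∈ iv p, ‖f y‖ ^ q) =
    c ^ q * (1 / len p * ∑ y ∈ iv p, ‖f y‖ ^ q) by ring,
    Real.mul_rpow (Real.rpow_nonneg hc _) h0, ← Real.rpow_mul hc, mul_one_div_cancel hq.ne',
    Real.rpow_one]

lemma qx_pos {k q3 : ℝ} (hk : 0 < k) (hq : 2 < q3) (j : Fin 4) : 0 < qx k q3 j := by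
  unfold qx
  split <;> linarith

lemma qx_ne {k q3 : ℝ} {j : Fin 4} (hj : j ≠ 3) : qx k q3 j = 2 + k := by
  unfold qx
  rw [if_neg hj]

/-! ### linearity -/

lemma upd_at (Y : Fin 4 → Nd → Fn) (i : Fin 4) (G : Nd → Fn) (p : Nd) :
    (fun j => Function.update Y i G j p) = Function.update (fun j => Y j p) i (G p) := by
  funext j
  by_cases h : j = i
  · subst h
    simp
  · simp [h]

/-- three-term splitting of one letter -/
lemma TP_split (bb : ℤ) (ε : ℕ → ℤ → ℂ) (R : Finset Nd) (Y : Fin 4 → Nd → Fn) (i : Fin 4)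
    (G X H E : Nd → Fn) (hG : ∀ p ∈ R, ∀ y, G p y = X p y + H p y + E p y) :
    TP bb ε R (Function.update Y i G) = TP bb ε R (Function.update Y i X) +
      TP bb ε R (Function.update Y i H) + TP bb ε R (Function.update Y i E) := by
  unfold TP
  rw [← Finset.sum_add_distrib, ← Finset.sum_add_distrib]
  refine Finset.sum_congr rfl fun p hp => ?_
  simp only [upd_at]
  have e : G p = fun y => ∑ k : Fin 3, (![1, 1, 1] : Fin 3 → ℂ) k * (![X p, H p, E p] : Fin 3 → Fn) k y := by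
    funext y
    rw [hG p hp y, Fin.sum_univ_three]
    simp
  rw [e, Qb247.TI_update_sum, Fin.sum_univ_three]
  simp

lemma TR_smul (bb : ℤ) (ε : ℕ → ℤ → ℂ) (R : Finset Nd) (F : Fin 4 → Fn) (c : Fin 4 → ℂ) :
    TR bb ε R (fun j y => c j * F j y) = (∏ j, c j) * TR bb ε R F := by
  unfold TR
  rw [Finset.mul_sum]
  exact Finset.sum_congr rfl fun p _ => BBp.TI_smul bb ε F c p

/-! ### scaled hypotheses -/

lemma scaled_of {k q3 : ℝ} (hk : 0 < k) (hq : 2 < q3) {W : Finset Nd} {F : Fin 4 → Fn}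
    {a : Fin 4 → ℝ} (ha : ∀ j, 0 < a j) (hF : ∀ j, ∀ p ∈ W, aq (qx k q3 j) p (F j) ≤ a j) :
    nrm k q3 W (fun j y => (((a j)⁻¹ : ℝ) : ℂ) * F j y) := by
  intro j p hp
  show aq (qx k q3 j) p (fun y => (((a j)⁻¹ : ℝ) : ℂ) * F j y) ≤ 1
  rw [aq_smul (qx_pos hk hq j) _ _ (inv_nonneg.2 (ha j).le), inv_mul_le_iff₀ (ha j), mul_one]
  exact hF j p hp

lemma TR_scale {bb : ℤ} {ε : ℕ → ℤ → ℂ} {W : Finset Nd} {F : Fin 4 → Fn}
    {a : Fin 4 → ℝ} (ha : ∀ j, 0 < a j) {b : ℝ}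
    (h : ‖TR bb ε W (fun j y => (((a j)⁻¹ : ℝ) : ℂ) * F j y)‖ ≤ b) :
    ‖TR bb ε W F‖ ≤ (∏ j, a j) * b := by
  have hP : 0 < ∏ j, a j := Finset.prod_pos fun j _ => ha j
  rw [TR_smul, norm_mul] at h
  have e : ‖∏ j, (((a j)⁻¹ : ℝ) : ℂ)‖ = (∏ j, a j)⁻¹ := by
    rw [← Complex.ofReal_prod, Complex.norm_real, Finset.prod_inv_distrib,
      Real.norm_of_nonneg (inv_nonneg.2 hP.le)]
  rw [e, inv_mul_le_iff₀ hP] at h
  exact h

/-- scaled `BN` -/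
lemma BN_scaled {k q3 : ℝ} (hk : 0 < k) (hq : 2 < q3) {N : ℕ} {B : ℝ} (hB : BN k q3 N B)
    {bb : ℤ} {ε : ℕ → ℤ → ℂ} (hA : Adm bb ε) {W : Finset Nd} {I : Nd} (hW : Full W I)
    (hN : I.1 ≤ N) {F : Fin 4 → Fn} {a : Fin 4 → ℝ} (ha : ∀ j, 0 < a j)
    (hF : ∀ j, ∀ p ∈ W, aq (qx k q3 j) p (F j) ≤ a j) :
    ‖TR bb ε W F‖ ≤ (B * ∏ j, a j) * len I := by
  have h := TR_scale ha (hB bb ε hA W I hW hN _ (scaled_of hk hq ha hF))
  linarith [h, show (∏ j, a j) * (B * len I) = (B * ∏ j, a j) * len I by ring]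

/-- scaled frozen mass -/
lemma Fz_scale {D : TRec.Dict} {j : Fin 4} {t M a : ℝ} {p : Nd} {f : Fn} (ha : 0 < a) (hM : M ≤ a)
    (h : Fz D j t M p f) : Fz D j t 1 p (fun y => ((a⁻¹ : ℝ) : ℂ) * f y) := by
  obtain ⟨n, φ, c, hφ, hf, hc⟩ := h
  refine ⟨n, φ, fun i => ((a⁻¹ : ℝ) : ℂ) * c i, hφ, ?_, ?_⟩
  · intro y hy
    show ((a⁻¹ : ℝ) : ℂ) * f y = _
    rw [hf y hy, Finset.mul_sum]
    exact Finset.sum_congr rfl fun i _ => by ring
  · have e : ∀ i, ‖((a⁻¹ : ℝ) : ℂ) * c i‖ = a⁻¹ * ‖c i‖ := by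
      intro i
      rw [norm_mul, Complex.norm_real, Real.norm_of_nonneg (inv_nonneg.2 ha.le)]
    simp only [e]
    rw [← Finset.mul_sum, inv_mul_le_iff₀ ha, mul_one]
    exact hc.trans hM

/-- scaled `FrzBd` at one parameter -/
lemma Frz_scaled {D : TRec.Dict} {k q3 t K : ℝ} (hk : 0 < k) (hq : 2 < q3)
    (hK : ∀ bb ε, Adm bb ε → ∀ W I, Full W I → ∀ F, nrm k q3 W F →
      ∀ i : Fin 4, i ≠ 3 → Fz D i t 1 I (F i) → ‖TR bb ε W F‖ ≤ K * len I)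
    {bb : ℤ} {ε : ℕ → ℤ → ℂ} (hA : Adm bb ε) {W : Finset Nd} {I : Nd} (hW : Full W I)
    {F : Fin 4 → Fn} {a : Fin 4 → ℝ} (ha : ∀ j, 0 < a j)
    (hF : ∀ j, ∀ p ∈ W, aq (qx k q3 j) p (F j) ≤ a j) {i : Fin 4} (hi : i ≠ 3) {M : ℝ}
    (hM : M ≤ a i) (hf : Fz D i t M I (F i)) :
    ‖TR bb ε W F‖ ≤ (K * ∏ j, a j) * len I := by
  have h := TR_scale ha (hK bb ε hA W I hW _ (scaled_of hk hq ha hF) i hi (Fz_scale (ha i) hM hf))
  linarith [h, show (∏ j, a j) * (K * len I) = (K * ∏ j, a j) * len I by ring]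

end Crest.Agent.R079.TTop13
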