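import Crest.Agent.R079.QVar_181

/-! R079, doc 2489 (911), section (0), part 0 (helper903): near-minimisers of the penalised problem
for an ABSTRACT dictionary of atoms (generalisation of `QVar181`; no compactness). -/

set_option autoImplicit false

namespace Crest.Agent.R079.TWin

open Finset Crest.Agent.R079.Grid Crest.Agent.R079.Glue Crest.Agent.R079.Growth
  Crest.Agent.R079.QRed Crest.Agent.R079.QVar181

/-- a dictionary: atoms `At p` at every node `p`; bounded by one, closed under conjugation, atoms of a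
node are atoms of all nodes below -/
structure Dic (At : Nd → Fn → Prop) : Prop where
  conj : ∀ p φ, At p φ → At p (fun y => (starRingEnd ℂ) (φ y))
  bd : ∀ p φ, At p φ → ∀ y ∈ iv p, ‖φ y‖ ≤ 1
  mono : ∀ p q φ, iv q ⊆ iv p → At p φ → At q φ

/-- `f` is on `iv p` a combination of atoms with total mass `≤ t` -/
def RepD (At : Nd → Fn → Prop) (p : Nd) (f : Fn) (t : ℝ) : Prop :=
  ∃ (n : ℕ) (φ : Fin n → Fn) (c : Fin n → ℂ), (∀ i, At p (φ i)) ∧
    (∀ y ∈ iv p, f y = ∑ i, c i * φ i y) ∧ ∑ i, ‖c i‖ ≤ t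

/-- level of `g` at `p` -/
def LevD (At : Nd → Fn → Prop) (p : Nd) (g : Fn) (s : ℝ) : Prop :=
  ∀ φ, At p φ → ‖∑ y ∈ iv p, g y * φ y‖ ≤ s * len p

variable {At : Nd → Fn → Prop}

theorem repD_zero (p : Nd) : RepD At p (fun _ => 0) 0 :=
  ⟨0, Fin.elim0, Fin.elim0, fun i => i.elim0, fun _ _ => by simp, by simp⟩

theorem repD_nonneg {p : Nd} {f : Fn} {t : ℝ} (h : RepD At p f t) : 0 ≤ t := by
  obtain ⟨n, φ, c, _, _, ht⟩ := h
  exact le_trans (Finset.sum_nonneg fun i _ => norm_nonneg _) ht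

theorem repD_le {p : Nd} {f : Fn} {t u : ℝ} (h : RepD At p f t) (htu : t ≤ u) :
    RepD At p f u := by
  obtain ⟨n, φ, c, h1, h2, ht⟩ := h
  exact ⟨n, φ, c, h1, h2, ht.trans htu⟩

theorem repD_add {p : Nd} {f g : Fn} {t u : ℝ} (h : RepD At p f t) (h' : RepD At p g u) :
    RepD At p (fun y => f y + g y) (t + u) := by
  obtain ⟨n, φ, c, hφ, hf, ht⟩ := h
  obtain ⟨m, ψ, d, hψ, hg, hu⟩ := h'
  refine ⟨n + m, Fin.append φ ψ, Fin.append c d, ?_, ?_, ?_⟩
  · intro i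
    refine Fin.addCases (fun i => ?_) (fun i => ?_) i
    · rw [Fin.append_left]; exact hφ i
    · rw [Fin.append_right]; exact hψ i
  · intro y hy
    rw [Fin.sum_univ_add]
    simp only [Fin.append_left, Fin.append_right]
    rw [← hf y hy, ← hg y hy]
  · rw [Fin.sum_univ_add]
    simp only [Fin.append_left, Fin.append_right]
    linarith

theorem repD_smul {p : Nd} {f : Fn} {t : ℝ} (z : ℂ) (h : RepD At p f t) :
    RepD At p (fun y => z * f y) (‖z‖ * t) := by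
  obtain ⟨n, φ, c, hφ, hf, ht⟩ := h
  refine ⟨n, φ, fun i => z * c i, hφ, ?_, ?_⟩
  · intro y hy
    dsimp only
    rw [hf y hy, Finset.mul_sum]
    exact Finset.sum_congr rfl fun i _ => by ring
  · simp only [norm_mul]
    rw [← Finset.mul_sum]
    exact mul_le_mul_of_nonneg_left ht (norm_nonneg _)

theorem repD_sub {p : Nd} {f g : Fn} {t u : ℝ} (h : RepD At p f t) (h' : RepD At p g u) :
    RepD At p (fun y => f y - g y) (t + u) := by
  have h1 := repD_smul (-1 : ℂ) h'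
  rw [norm_neg, norm_one, one_mul] at h1
  have h2 := repD_add h h1
  have e : (fun y => f y - g y) = fun y => f y + -1 * g y := by
    funext y; ring
  rw [e]
  exact h2

theorem repD_atom {p : Nd} {φ : Fn} (h : At p φ) : RepD At p φ 1 :=
  ⟨1, fun _ => φ, fun _ => 1, fun _ => h, fun y _ => by simp, by simp⟩

/-- restriction to a node below -/
theorem repD_mono (hA : Dic At) {p q : Nd} {f : Fn} {t : ℝ} (hqp : iv q ⊆ iv p)
    (h : RepD At p f t) : RepD At q f t := by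
  obtain ⟨n, φ, c, hφ, hf, ht⟩ := h
  exact ⟨n, φ, c, fun i => hA.mono p q _ hqp (hφ i), fun y hy => hf y (hqp hy), ht⟩

/-- pointwise bound -/
theorem repD_bd (hA : Dic At) {p : Nd} {f : Fn} {t : ℝ} (h : RepD At p f t) {y : ℤ}
    (hy : y ∈ iv p) : ‖f y‖ ≤ t := by
  obtain ⟨n, φ, c, hφ, hf, ht⟩ := h
  rw [hf y hy]
  refine (norm_sum_le _ _).trans (le_trans (Finset.sum_le_sum fun i _ => ?_) ht)
  rw [norm_mul]
  calc ‖c i‖ * ‖φ i y‖ ≤ ‖c i‖ * 1 :=
        mul_le_mul_of_nonneg_left (hA.bd p _ (hφ i) y hy) (norm_nonneg _)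
    _ = ‖c i‖ := mul_one _

theorem PhD_nonneg {σ : ℝ} (hσ : 0 < σ) (p : Nd) (F : Fn) {g : Fn} {u : ℝ}
    (h : RepD At p g u) : 0 ≤ Ph σ p F g u := by
  unfold Ph
  have := repD_nonneg h
  positivity

/-- existence of near-minimisers -/
theorem exists_nearD (σ η : ℝ) (hσ : 0 < σ) (hη : 0 < η) (F : Fn) (p : Nd) :
    ∃ (f : Fn) (t : ℝ), RepD At p f t ∧ ∀ (g : Fn) (u : ℝ), RepD At p g u →
      Ph σ p F f t ≤ Ph σ p F g u + η := by
  let S : Set ℝ := {x | ∃ (g : Fn) (u : ℝ), RepD At p g u ∧ x = Ph σ p F g u}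
  have hne : S.Nonempty := ⟨_, _, _, repD_zero p, rfl⟩
  have hbd : BddBelow S := ⟨0, by
    rintro x ⟨g, u, h, rfl⟩
    exact PhD_nonneg hσ p F h⟩
  obtain ⟨x, ⟨f, t, hft, rfl⟩, hx⟩ := Real.lt_sInf_add_pos hne hη
  refine ⟨f, t, hft, fun g u hgu => ?_⟩
  have : sInf S ≤ Ph σ p F g u := csInf_le hbd ⟨g, u, hgu, rfl⟩
  linarith

/-- approximate strong convexity of a near-minimiser -/
theorem near_convexD {σ η : ℝ} {F : Fn} {p : Nd} {f : Fn} {t : ℝ} (hf : RepD At p f t)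
    (hmin : ∀ (g : Fn) (u : ℝ), RepD At p g u → Ph σ p F f t ≤ Ph σ p F g u + η)
    (g : Fn) (u : ℝ) (hg : RepD At p g u) :
    Ph σ p F f t + (1 / 2) * av p (fun y => g y - f y) ^ 2 ≤ Ph σ p F g u + 2 * η := by
  have hmid : RepD At p (fun y => (1 / 2 : ℂ) * (f y + g y)) (‖(1 / 2 : ℂ)‖ * (t + u)) :=
    repD_smul _ (repD_add hf hg)
  have hn : ‖(1 / 2 : ℂ)‖ = 1 / 2 := by simp
  rw [hn] at hmid
  have h := hmin _ _ hmid
  have key : av p (fun y => F y - (1 / 2 : ℂ) * (f y + g y)) ^ 2 =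
      av p (fun y => F y - f y) ^ 2 / 2 + av p (fun y => F y - g y) ^ 2 / 2 -
        av p (fun y => g y - f y) ^ 2 / 4 := by
    rw [av_sq, av_sq, av_sq, av_sq]
    have : ∀ y, ‖F y - (1 / 2 : ℂ) * (f y + g y)‖ ^ 2 =
        ‖F y - f y‖ ^ 2 / 2 + ‖F y - g y‖ ^ 2 / 2 - ‖g y - f y‖ ^ 2 / 4 := by
      intro y
      have e1 : F y - (1 / 2 : ℂ) * (f y + g y) = ((F y - f y) + (F y - g y)) / 2 := by ring
      have e2 : (F y - f y) - (F y - g y) = g y - f y := by ring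
      rw [e1, norm_mid, e2]
    rw [Finset.sum_congr rfl fun y _ => this y, Finset.sum_sub_distrib, Finset.sum_add_distrib,
      ← Finset.sum_div, ← Finset.sum_div, ← Finset.sum_div]
    ring
  unfold Ph at h ⊢
  rw [key] at h
  linarith

/-- level of the residual of a near-minimiser -/
theorem near_levelD (hA : Dic At) {σ η : ℝ} (hη : 0 < η) {F : Fn} {p : Nd}
    {f : Fn} {t : ℝ} (hf : RepD At p f t)
    (hmin : ∀ (g : Fn) (u : ℝ), RepD At p g u → Ph σ p F f t ≤ Ph σ p F g u + η) (hσ : 0 < σ) :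
    LevD At p (fun y => F y - f y) (σ + Real.sqrt η) := by
  intro φ hφ
  dsimp only
  set S : ℂ := ∑ y ∈ iv p, (F y - f y) * φ y with hS
  have hL := len_pos' p
  set r := Real.sqrt η with hr
  have hr0 : 0 < r := Real.sqrt_pos.mpr hη
  have hrr : r ^ 2 = η := Real.sq_sqrt hη.le
  by_cases hS0 : S = 0
  · rw [hS0, norm_zero]
    positivity
  have hSn : 0 < ‖S‖ := norm_pos_iff.mpr hS0
  let z : ℂ := (r / ‖S‖ : ℝ) * S
  have hz : ‖z‖ = r := by
    simp only [z, norm_mul, Complex.norm_real, Real.norm_eq_abs]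
    rw [abs_of_nonneg (by positivity)]
    field_simp
  have hzS : ((starRingEnd ℂ) z * S).re = r * ‖S‖ := by
    have e : (starRingEnd ℂ) z * S = ((r * ‖S‖ : ℝ) : ℂ) := by
      simp only [z, map_mul, Complex.conj_ofReal]
      have : (starRingEnd ℂ) S * S = ((‖S‖ ^ 2 : ℝ) : ℂ) := by
        rw [mul_comm, Complex.mul_conj, Complex.normSq_eq_norm_sq]
      rw [mul_assoc, this]
      rw [← Complex.ofReal_mul]
      congr 1
      field_simp
    rw [e, Complex.ofReal_re]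
  have hat := hA.conj p φ hφ
  have hrep : RepD At p (fun y => f y + z * (starRingEnd ℂ) (φ y)) (t + ‖z‖ * 1) :=
    repD_add hf (repD_smul z (repD_atom hat))
  have h := hmin _ _ hrep
  rw [hz] at h
  have key : av p (fun y => F y - (f y + z * (starRingEnd ℂ) (φ y))) ^ 2 =
      av p (fun y => F y - f y) ^ 2 - 2 * (r * ‖S‖) / len p +
        r ^ 2 * ((1 / len p) * ∑ y ∈ iv p, ‖φ y‖ ^ 2) := by
    rw [av_sq, av_sq]
    have : ∀ y, ‖F y - (f y + z * (starRingEnd ℂ) (φ y))‖ ^ 2 =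
        ‖F y - f y‖ ^ 2 - 2 * ((starRingEnd ℂ) z * ((F y - f y) * φ y)).re
          + r ^ 2 * ‖φ y‖ ^ 2 := by
      intro y
      have e1 : F y - (f y + z * (starRingEnd ℂ) (φ y)) =
          (F y - f y) - z * (starRingEnd ℂ) (φ y) := by ring
      rw [e1, norm_sub_mul, hz]
    rw [Finset.sum_congr rfl fun y _ => this y, Finset.sum_add_distrib, Finset.sum_sub_distrib,
      ← Finset.mul_sum, ← Finset.mul_sum]
    have e2 : ∑ y ∈ iv p, ((starRingEnd ℂ) z * ((F y - f y) * φ y)).re = r * ‖S‖ := by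
      rw [← hzS, hS, Finset.mul_sum, Complex.re_sum]
    rw [e2]
    ring
  have hφ1 : (1 / len p) * ∑ y ∈ iv p, ‖φ y‖ ^ 2 ≤ 1 := by
    have h1 : ∑ y ∈ iv p, ‖φ y‖ ^ 2 ≤ ∑ _y ∈ iv p, (1 : ℝ) := by
      refine Finset.sum_le_sum fun y hy => ?_
      exact pow_le_one₀ (norm_nonneg _) (hA.bd p φ hφ y hy)
    rw [Finset.sum_const, nsmul_eq_mul, mul_one, card_iv'] at h1
    rw [one_div, inv_mul_le_iff₀ hL, mul_one]
    exact h1
  unfold Ph at h
  rw [key] at h
  have h2 : 2 * (r * ‖S‖) / len p ≤ r ^ 2 + 2 * σ * r + η := by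
    have := mul_le_mul_of_nonneg_left hφ1 (sq_nonneg r)
    linarith
  rw [div_le_iff₀ hL] at h2
  have h3 : 2 * r * ‖S‖ ≤ 2 * r * ((σ + r) * len p) := by
    rw [← hrr] at h2
    nlinarith [h2]
  exact le_of_mul_le_mul_left h3 (by positivity)

/-- near-minimisers `f p` of mass `t p` of `|G - f|² + 2 σ mass` at ALL nodes, defect `η` -/
structure NM (At : Nd → Fn → Prop) (σ η : ℝ) (G : Fn) (f : Nd → Fn) (t : Nd → ℝ) : Prop where
  sig : 0 < σ
  eta : 0 < η
  rep : ∀ p, RepD At p (f p) (t p)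
  lev : ∀ p, LevD At p (fun y => G y - f p y) (σ + Real.sqrt η)
  cvx : ∀ p (g : Fn) (u : ℝ), RepD At p g u →
    Ph σ p G (f p) (t p) + (1 / 2) * av p (fun y => g y - f p y) ^ 2 ≤ Ph σ p G g u + 2 * η

theorem exists_NM (hA : Dic At) {σ η : ℝ} (hσ : 0 < σ) (hη : 0 < η) (G : Fn) :
    ∃ (f : Nd → Fn) (t : Nd → ℝ), NM At σ η G f t := by
  choose f t hft hmin using exists_nearD (At := At) σ η hσ hη G
  exact ⟨f, t, hσ, hη, hft, fun p => near_levelD hA hη (hft p) (hmin p) hσ,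
    fun p g u hgu => near_convexD (hft p) (hmin p) g u hgu⟩

end Crest.Agent.R079.TWin
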