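import Crest.Agent.R079.TWin0_903
import Crest.Agent.R079.TWin2_903

/-! R079, doc 2489 (911), section (0), part 3 (helper903): windows of near-minimisers.

`NM At σ η G f t` = near-minimisers at all nodes.  `val` = value of the functional (almost a
supermartingale), `Drf` = its drift, `Gd` = admissible window.  On an admissible window `W` with top
`I` the glued leaf residual `G - gl W f` has level `≤ σ + √η` at EVERY node of `W` and
`E = gl W f - f I` has local `L²` norm `≤ 3 √δ` at every node of `W`. -/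

set_option autoImplicit false

namespace Crest.Agent.R079.TWin

open Finset Crest.Agent.R079.Grid Crest.Agent.R079.Growth Crest.Agent.R079.QRed
  Crest.Agent.R079.Qh249 Crest.Agent.R079.QVar181

variable {At : Nd → Fn → Prop} {σ η : ℝ} {G : Fn} {f : Nd → Fn} {t : Nd → ℝ}

/-- value of the penalised functional -/
noncomputable def val (σ : ℝ) (G : Fn) (f : Nd → Fn) (t : Nd → ℝ) (p : Nd) : ℝ :=
  Ph σ p G (f p) (t p)

/-- drift of `Φ` at a node, plus the defect `e` -/
noncomputable def Drf (Φ : Nd → ℝ) (e : ℝ) : Nd → ℝ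
  | (0, _) => 0
  | (m + 1, l) => Φ (m + 1, l) - (Φ (m, 2 * l) + Φ (m, 2 * l + 1)) / 2 + e

lemma av_ch (m : ℕ) (l : ℤ) (X : Fn) :
    av (m + 1, l) X ^ 2 = (av (m, 2 * l) X ^ 2 + av (m, 2 * l + 1) X ^ 2) / 2 := by
  have h := sum_ch m l (fun y => ‖X y‖ ^ 2)
  rw [Growth.sum_av, Growth.sum_av, Growth.sum_av, len_ch m l (2 * l),
    show len (m, 2 * l + 1) = len (m, 2 * l) from rfl] at h
  have hpos := Growth.len_pos (m, 2 * l)
  have h2 : len (m, 2 * l) * (2 * av (m + 1, l) X ^ 2) =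
      len (m, 2 * l) * (av (m, 2 * l) X ^ 2 + av (m, 2 * l + 1) X ^ 2) := by linarith
  have := mul_left_cancel₀ hpos.ne' h2
  linarith

lemma Ph_ch (σ : ℝ) (m : ℕ) (l : ℤ) (G g : Fn) (u : ℝ) :
    Ph σ (m + 1, l) G g u = (Ph σ (m, 2 * l) G g u + Ph σ (m, 2 * l + 1) G g u) / 2 := by
  unfold Ph
  rw [av_ch]
  ring

/-- the functional of fixed data is integrated exactly -/
lemma SL_Ph {W : Finset Nd} {I : Nd} (hW : Full W I) (σ : ℝ) (G g : Fn) (u : ℝ) :
    ∀ p ∈ W, SL W p (fun L => Ph σ L G g u) = len p * Ph σ p G g u := by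
  intro p hp
  unfold Ph
  rw [SL_add, SL_av hW _ p hp, SL_const hW _ p hp]
  ring

lemma av_nonneg' (p : Nd) (X : Fn) : 0 ≤ av p X := Growth.av_nonneg p X

/-- triangle inequality -/
lemma av_add_le (p : Nd) (X Y : Fn) : av p (fun y => X y + Y y) ≤ av p X + av p Y := by
  have hL := Growth.len_pos p
  have h0 : 0 ≤ av p X := Growth.av_nonneg p X
  have h1 : 0 ≤ av p Y := Growth.av_nonneg p Y
  have h2 := Growth.av_nonneg p (fun y => X y + Y y)
  -- Cauchy–Schwarz
  have hcs : (∑ y ∈ iv p, ‖X y‖ * ‖Y y‖) ≤ len p * (av p X * av p Y) := by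
    have h := Finset.sum_mul_sq_le_sq_mul_sq (iv p) (fun y => ‖X y‖) (fun y => ‖Y y‖)
    rw [Growth.sum_av, Growth.sum_av] at h
    have h3 : 0 ≤ ∑ y ∈ iv p, ‖X y‖ * ‖Y y‖ :=
      Finset.sum_nonneg fun y _ => mul_nonneg (norm_nonneg _) (norm_nonneg _)
    have h4 : (∑ y ∈ iv p, ‖X y‖ * ‖Y y‖) ^ 2 ≤ (len p * (av p X * av p Y)) ^ 2 := by
      refine h.trans (le_of_eq ?_)
      ring
    exact abs_le_of_sq_le_sq' h4 (by positivity) |>.2
  have hs : len p * av p (fun y => X y + Y y) ^ 2 ≤ len p * (av p X + av p Y) ^ 2 := by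
    rw [← Growth.sum_av]
    calc ∑ y ∈ iv p, ‖X y + Y y‖ ^ 2
        ≤ ∑ y ∈ iv p, (‖X y‖ ^ 2 + ‖Y y‖ ^ 2 + 2 * (‖X y‖ * ‖Y y‖)) := by
          refine Finset.sum_le_sum fun y _ => ?_
          have := norm_add_le (X y) (Y y)
          nlinarith [norm_nonneg (X y + Y y), norm_nonneg (X y), norm_nonneg (Y y)]
      _ = len p * av p X ^ 2 + len p * av p Y ^ 2 + 2 * ∑ y ∈ iv p, ‖X y‖ * ‖Y y‖ := by
          rw [Finset.sum_add_distrib, Finset.sum_add_distrib, Growth.sum_av, Growth.sum_av,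
            Finset.mul_sum]
      _ ≤ _ := by nlinarith [hcs]
  have h5 : av p (fun y => X y + Y y) ^ 2 ≤ (av p X + av p Y) ^ 2 :=
    le_of_mul_le_mul_left hs hL
  exact abs_le_of_sq_le_sq' h5 (by positivity) |>.2

section NMfacts

variable (hA : Dic At) (h : NM At σ η G f t)

include h in
lemma val_nonneg (p : Nd) : 0 ≤ val σ G f t p := PhD_nonneg h.sig p G (h.rep p)

include h in
lemma val_le (p : Nd) : val σ G f t p ≤ av p G ^ 2 + 2 * η := by
  have h1 := h.cvx p (fun _ => 0) 0 (repD_zero p)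
  have h2 : 0 ≤ (1 / 2 : ℝ) * av p (fun y => 0 - f p y) ^ 2 := by positivity
  have h3 : Ph σ p G (fun _ => 0) 0 = av p G ^ 2 := by
    unfold Ph
    simp
  unfold val
  rw [h3] at h1
  linarith

include h in
/-- mass -/
lemma mass_le (p : Nd) : 2 * σ * t p ≤ av p G ^ 2 + 2 * η := by
  have h1 := val_le h p
  unfold val Ph at h1
  have : 0 ≤ av p (fun y => G y - f p y) ^ 2 := sq_nonneg _
  linarith

include h in
/-- energy of the residual -/
lemma res_le (p : Nd) : av p (fun y => G y - f p y) ^ 2 ≤ av p G ^ 2 + 2 * η := by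
  have h1 := val_le h p
  unfold val Ph at h1
  have := mul_nonneg (mul_nonneg (by norm_num : (0:ℝ) ≤ 2) h.sig.le) (repD_nonneg (h.rep p))
  linarith

include hA h in
/-- comparison with the data frozen at a node above -/
lemma cmp {p q : Nd} (hqp : iv q ⊆ iv p) :
    val σ G f t q + (1 / 2) * av q (fun y => f p y - f q y) ^ 2
      ≤ Ph σ q G (f p) (t p) + 2 * η :=
  h.cvx q (f p) (t p) (repD_mono hA hqp (h.rep p))

include hA h in
lemma Drf_nonneg : ∀ q, 0 ≤ Drf (val σ G f t) (2 * η) q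
  | (0, _) => le_refl _
  | (m + 1, l) => by
    have h0 := cmp hA h (sub_ch0 m l)
    have h1 := cmp hA h (sub_ch1 m l)
    have h2 := Ph_ch σ m l G (f (m + 1, l)) (t (m + 1, l))
    have n0 : 0 ≤ (1 / 2 : ℝ) * av (m, 2 * l) (fun y => f (m + 1, l) y - f (m, 2 * l) y) ^ 2 := by
      positivity
    have n1 : 0 ≤ (1 / 2 : ℝ) *
        av (m, 2 * l + 1) (fun y => f (m + 1, l) y - f (m, 2 * l + 1) y) ^ 2 := by positivity
    show 0 ≤ val σ G f t (m + 1, l) -
      (val σ G f t (m, 2 * l) + val σ G f t (m, 2 * l + 1)) / 2 + 2 * η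
    have h3 : val σ G f t (m + 1, l) = Ph σ (m + 1, l) G (f (m + 1, l)) (t (m + 1, l)) := rfl
    linarith

include hA h in
/-- energy inequality in a window -/
lemma dev_le {W : Finset Nd} {I : Nd} (hW : Full W I) {p : Nd} (hp : p ∈ W) :
    SL W p (fun L => val σ G f t L + (1 / 2) * av L (fun y => f p y - f L y) ^ 2)
      ≤ len p * (val σ G f t p + 2 * η) := by
  have h1 : SL W p (fun L => val σ G f t L + (1 / 2) * av L (fun y => f p y - f L y) ^ 2)
      ≤ SL W p (fun L => Ph σ L G (f p) (t p) + 2 * η) :=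
    SL_mono fun L _ hL => cmp hA h hL
  refine h1.trans (le_of_eq ?_)
  rw [SL_add, SL_Ph hW σ G (f p) (t p) p hp, SL_const hW _ p hp, val]
  ring

/-- admissible window of fineness `δ` -/
def Gd (σ η : ℝ) (G : Fn) (f : Nd → Fn) (t : Nd → ℝ) (δ : ℝ) (W : Finset Nd) (I : Nd) : Prop :=
  ∀ p ∈ W, (1 / 2) * av p (fun y => f I y - f p y) ^ 2 +
    acc (Drf (val σ G f t) (2 * η)) I p ≤ δ

include hA h in
/-- glued leaf data against the data at a node of the window -/
lemma av_glue_le {W : Finset Nd} {I : Nd} (hW : Full W I) {p : Nd} (hp : p ∈ W) {δ : ℝ}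
    (hacc : ∀ L ∈ lf W, iv L ⊆ iv p → acc (Drf (val σ G f t) (2 * η)) p L ≤ δ) :
    av p (fun y => f p y - gl W f y) ^ 2 ≤ 2 * δ + 4 * η := by
  have hL := Growth.len_pos p
  have h1 := dev_le hA h hW hp
  rw [SL_add, SL_smul] at h1
  have h2 : SL W p (fun L => av L (fun y => f p y - f L y) ^ 2)
      = len p * av p (fun y => f p y - gl W f y) ^ 2 := by
    have := av_gl hW (fun L y => f p y - f L y) p hp
    rw [← this]
    rfl
  rw [h2] at h1
  have h3 := le_SL_acc hW (Drf (val σ G f t) (2 * η)) (val σ G f t) (fun m l => by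
    show _ ≤ val σ G f t (m + 1, l) -
      (val σ G f t (m, 2 * l) + val σ G f t (m, 2 * l + 1)) / 2 + 2 * η
    linarith [h.eta]) p hp
  rw [SL_add] at h3
  have h4 : SL W p (fun L => acc (Drf (val σ G f t) (2 * η)) p L) ≤ SL W p (fun _ => δ) :=
    SL_mono hacc
  rw [SL_const hW δ p hp] at h4
  have h5 : len p * (av p (fun y => f p y - gl W f y) ^ 2) ≤ len p * (2 * δ + 4 * η) := by
    linarith
  exact le_of_mul_le_mul_left h5 hL

include hA h in
lemma acc_le_of_Gd {W : Finset Nd} {I : Nd} (hW : Full W I) {δ : ℝ}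
    (hG : Gd σ η G f t δ W I) {p L : Nd} (hp : p ∈ W) (hL : L ∈ W) (hLp : iv L ⊆ iv p) :
    acc (Drf (val σ G f t) (2 * η)) p L ≤ δ := by
  have h1 := hG L hL
  have h2 := acc_trans (Drf (val σ G f t) (2 * η)) hLp (hW.reg.1 p hp)
  have h3 := acc_nonneg (Drf_nonneg hA h) I p
  have h4 : 0 ≤ (1 / 2 : ℝ) * av L (fun y => f I y - f L y) ^ 2 := by positivity
  linarith

include hA h in
/-- **`E = gl W f - f I` is small at every node of an admissible window** -/
theorem av_E_le {W : Finset Nd} {I : Nd} (hW : Full W I) {δ : ℝ} (hδ : 0 < δ)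
    (hη : 16 * η ≤ δ) (hG : Gd σ η G f t δ W I) {p : Nd} (hp : p ∈ W) :
    av p (fun y => gl W f y - f I y) ≤ 3 * Real.sqrt δ := by
  have h1 := av_glue_le hA h hW hp (δ := δ) fun L hL hLp =>
    acc_le_of_Gd hA h hW hG hp (mem_lf.1 hL).1 hLp
  have h2 := hG p hp
  have h3 := acc_nonneg (Drf_nonneg hA h) I p
  have e1 : av p (fun y => gl W f y - f p y) = av p (fun y => f p y - gl W f y) := by
    unfold av av2
    congr 2
    exact Finset.sum_congr rfl fun y _ => by rw [norm_sub_rev]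
  have e2 : av p (fun y => f p y - f I y) = av p (fun y => f I y - f p y) := by
    unfold av av2
    congr 2
    exact Finset.sum_congr rfl fun y _ => by rw [norm_sub_rev]
  have h4 := av_add_le p (fun y => gl W f y - f p y) (fun y => f p y - f I y)
  have e3 : (fun y => (gl W f y - f p y) + (f p y - f I y)) = fun y => gl W f y - f I y := by
    funext y; ring
  rw [e3, e1, e2] at h4
  have hs := Real.sqrt_nonneg δ
  have hss : Real.sqrt δ ^ 2 = δ := Real.sq_sqrt hδ.le
  have h5 : av p (fun y => f p y - gl W f y) ≤ 3 / 2 * Real.sqrt δ := by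
    have : av p (fun y => f p y - gl W f y) ^ 2 ≤ (3 / 2 * Real.sqrt δ) ^ 2 := by
      rw [mul_pow, hss]
      linarith
    exact abs_le_of_sq_le_sq' this (by positivity) |>.2
  have h6 : av p (fun y => f I y - f p y) ≤ 3 / 2 * Real.sqrt δ := by
    have : av p (fun y => f I y - f p y) ^ 2 ≤ (3 / 2 * Real.sqrt δ) ^ 2 := by
      rw [mul_pow, hss]
      linarith
    exact abs_le_of_sq_le_sq' this (by positivity) |>.2
  linarith

include hA h in
/-- a sub-window `W'` (top `I'`) of an admissible window `W`, both admissible for the same data: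
movement of the glued data of the BIG window seen from the top of the small one -/
theorem av_E_sub {W W' : Finset Nd} {I I' : Nd} (hW : Full W I)
    (hsub : W' ⊆ W) {δ δ' : ℝ} (hδ' : 0 ≤ δ') (hδδ : δ' ≤ δ)
    (hη : 16 * η ≤ δ) (hG : Gd σ η G f t δ W I) (hG' : Gd σ η G f t δ' W' I') {p : Nd}
    (hp : p ∈ W') :
    av p (fun y => gl W f y - f I' y) ≤ 3 * Real.sqrt δ := by
  have hδ : 0 ≤ δ := hδ'.trans hδδ
  have h1 := av_glue_le hA h hW (hsub hp) (δ := δ) fun L hL hLp =>
    acc_le_of_Gd hA h hW hG (hsub hp) (mem_lf.1 hL).1 hLp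
  have h2 := hG' p hp
  have h3 := acc_nonneg (Drf_nonneg hA h) I' p
  have e1 : av p (fun y => gl W f y - f p y) = av p (fun y => f p y - gl W f y) := by
    unfold av av2
    congr 2
    exact Finset.sum_congr rfl fun y _ => by rw [norm_sub_rev]
  have e2 : av p (fun y => f p y - f I' y) = av p (fun y => f I' y - f p y) := by
    unfold av av2
    congr 2
    exact Finset.sum_congr rfl fun y _ => by rw [norm_sub_rev]
  have h4 := av_add_le p (fun y => gl W f y - f p y) (fun y => f p y - f I' y)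
  have e3 : (fun y => (gl W f y - f p y) + (f p y - f I' y)) = fun y => gl W f y - f I' y := by
    funext y; ring
  rw [e3, e1, e2] at h4
  have hs := Real.sqrt_nonneg δ
  have hss : Real.sqrt δ ^ 2 = δ := Real.sq_sqrt hδ
  have h5 : av p (fun y => f p y - gl W f y) ≤ 3 / 2 * Real.sqrt δ := by
    have : av p (fun y => f p y - gl W f y) ^ 2 ≤ (3 / 2 * Real.sqrt δ) ^ 2 := by
      rw [mul_pow, hss]
      linarith
    exact abs_le_of_sq_le_sq' this (by positivity) |>.2
  have h6 : av p (fun y => f I' y - f p y) ≤ 3 / 2 * Real.sqrt δ := by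
    have : av p (fun y => f I' y - f p y) ^ 2 ≤ (3 / 2 * Real.sqrt δ) ^ 2 := by
      rw [mul_pow, hss]
      linarith
    exact abs_le_of_sq_le_sq' this (by positivity) |>.2
  linarith

include h in
/-- mass `≤ 1 / σ` where the local norm is `≤ 1` -/
lemma mass_le' (hη : η ≤ 1 / 2) {p : Nd} (hp : av p G ≤ 1) : t p ≤ 1 / σ := by
  have h1 := mass_le h p
  have h2 : av p G ^ 2 ≤ 1 := pow_le_one₀ (Growth.av_nonneg p G) hp
  have hs := h.sig
  rw [le_div_iff₀ hs]
  nlinarith

include h in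
/-- the near-minimiser has local norm `≤ 3` -/
lemma av_f_le (hη : η ≤ 1 / 2) {p : Nd} (hp : av p G ≤ 1) : av p (f p) ≤ 3 := by
  have h1 := res_le h p
  have h2 : av p G ^ 2 ≤ 1 := pow_le_one₀ (Growth.av_nonneg p G) hp
  have h3 : av p (fun y => G y - f p y) ≤ 2 := by
    have : av p (fun y => G y - f p y) ^ 2 ≤ 2 ^ 2 := by linarith
    exact abs_le_of_sq_le_sq' this (by norm_num) |>.2
  have h4 := av_add_le p G (fun y => -(G y - f p y))
  have e1 : (fun y => G y + -(G y - f p y)) = f p := by funext y; ring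
  have e2 : av p (fun y => -(G y - f p y)) = av p (fun y => G y - f p y) := by
    unfold av av2
    congr 2
    exact Finset.sum_congr rfl fun y _ => by rw [norm_neg]
  rw [e1, e2] at h4
  linarith

include h in
/-- pointwise bound of the glued data -/
lemma norm_gl_le (hA : Dic At) (hη : η ≤ 1 / 2) {W : Finset Nd} {I : Nd} (hW : Full W I)
    (hG1 : ∀ p ∈ W, av p G ≤ 1) {y : ℤ} (hy : y ∈ iv I) : ‖gl W f y‖ ≤ 1 / σ := by
  obtain ⟨L, hL, hyL, _⟩ := exists_leaf hW hW.top hy
  rw [gl_eq hW f hL hyL]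
  exact (repD_bd hA (h.rep L) hyL).trans (mass_le' h hη (hG1 L (mem_lf.1 hL).1))

end NMfacts

/-- levels are local -/
lemma LevD_congr {p : Nd} {g g' : Fn} {s : ℝ} (hg : ∀ y ∈ iv p, g y = g' y)
    (hl : LevD At p g s) : LevD At p g' s := by
  intro φ hφ
  have := hl φ hφ
  rwa [Finset.sum_congr rfl fun y hy => by rw [← hg y hy]]

/-- levels glue -/
theorem LevD_glue (hA : Dic At) {W : Finset Nd} {I : Nd} (hW : Full W I) {g : Fn} {s : ℝ}
    (hl : ∀ L ∈ lf W, LevD At L g s) : ∀ p ∈ W, LevD At p g s := by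
  refine full_ind hW hl fun m l hp hnl h0 h1 l0 l1 => ?_
  intro φ hφ
  have e0 := l0 φ (hA.mono _ _ φ (sub_ch0 m l) hφ)
  have e1 := l1 φ (hA.mono _ _ φ (sub_ch1 m l) hφ)
  rw [iv_ch, Finset.sum_union (disj_ch m l)]
  refine (norm_add_le _ _).trans ((add_le_add e0 e1).trans (le_of_eq ?_))
  rw [len_ch m l (2 * l), show len (m, 2 * l + 1) = len (m, 2 * l) from rfl]
  ring

/-- **the residual `G - gl W f` has small level at every node of the window** -/
theorem lev_res (hA : Dic At) (h : NM At σ η G f t) {W : Finset Nd} {I : Nd} (hW : Full W I) :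
    ∀ p ∈ W, LevD At p (fun y => G y - gl W f y) (σ + Real.sqrt η) := by
  refine LevD_glue hA hW fun L hL => ?_
  refine LevD_congr (g := fun y => G y - f L y) (fun y hy => ?_) (h.lev L)
  rw [gl_eq hW f hL hy]

end Crest.Agent.R079.TWin
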