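import Crest.Agent.R079.TWin3_903

/-! R079, doc 2489 (911), section (0), part 4 (helper903): existence of admissible windows for a finite
family of near-minimiser systems, and refinement of a given partition. -/

set_option autoImplicit false

namespace Crest.Agent.R079.TWin

open Finset Crest.Agent.R079.Grid Crest.Agent.R079.Growth Crest.Agent.R079.QRed
  Crest.Agent.R079.Qh249 Crest.Agent.R079.QVar181

lemma lf_sum_eq {W : Finset Nd} {I : Nd} (hW : Full W I) (F : Nd → ℝ) :
    ∑ p ∈ lf W, len p * F p = SL W I F := by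
  unfold SL
  have : (lf W).filter (fun L => iv L ⊆ iv I) = lf W := by
    rw [Finset.filter_eq_self]
    exact fun L hL => hW.reg.1 L (mem_lf.1 hL).1
  rw [this]

/-- **existence of admissible windows** for a finite family of near-minimiser systems -/
theorem exists_windows {ι : Type*} [Fintype ι] {R : Finset Nd} {J : Nd} (hR : Full R J)
    (At : ι → Nd → Fn → Prop) (hA : ∀ i, Dic (At i)) (σ : ι → ℝ) (η : ℝ) (G : ι → Fn)
    (f : ι → Nd → Fn) (t : ι → Nd → ℝ) (h : ∀ i, NM (At i) (σ i) η (G i) (f i) (t i))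
    (hG : ∀ i, ∀ p ∈ R, av p (G i) ≤ 1) (hη1 : η ≤ 1 / 2) {δ : ℝ} (hδ : 0 < δ)
    (hη : Fintype.card ι * (2 * η * (1 + J.1)) ≤ δ / 4) :
    ∃ (S : Finset Nd) (W : Nd → Finset Nd), Part R S W (2 + 16 * Fintype.card ι / δ) ∧
      ∀ K ∈ S, ∀ i, Gd (σ i) η (G i) (f i) (t i) δ (W K) K := by
  classical
  by_cases hι : Nonempty ι
  swap
  · -- empty family
    rw [not_nonempty_iff] at hι
    obtain ⟨S, W, hP, _⟩ := exists_part hR (g := fun _ _ => 0) (P := fun _ => 0) (P₀ := 0) hδ
      (fun _ _ => le_refl _) (fun _ _ => le_refl _) (fun _ _ => le_refl _) (fun _ => hδ.le)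
      (fun I _ W _ _ => by
        have := Growth.len_pos I
        simp only [add_zero, mul_zero, Finset.sum_const_zero, zero_add]
        positivity)
    refine ⟨S, W, ?_, fun K _ i => hι.elim i⟩
    simpa using hP
  have heta : 0 < η := (h hι.some).eta
  let V : ι → Nd → ℝ := fun i => val (σ i) (G i) (f i) (t i)
  let D : ι → Nd → ℝ := fun i => Drf (V i) (2 * η)
  let g : Nd → Nd → ℝ := fun I p =>
    ∑ i, ((1 / 2) * av p (fun y => f i I y - f i p y) ^ 2 + acc (D i) I p)
  have hterm : ∀ i I p, 0 ≤ (1 / 2) * av p (fun y => f i I y - f i p y) ^ 2 + acc (D i) I p :=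
    fun i I p => add_nonneg (by positivity) (acc_nonneg (Drf_nonneg (hA i) (h i)) I p)
  have hV0 : ∀ i p, 0 ≤ V i p := fun i p => val_nonneg (h i) p
  have hV2 : ∀ i, ∀ p ∈ R, V i p ≤ 2 := by
    intro i p hp
    have h1 := val_le (h i) p
    have h2 : av p (G i) ^ 2 ≤ 1 := pow_le_one₀ (Growth.av_nonneg p _) (hG i p hp)
    show val (σ i) (G i) (f i) (t i) p ≤ 2
    linarith
  obtain ⟨S, W, hP, hg⟩ := exists_part hR (g := g) (P := fun p => ∑ i, 2 * V i p)
    (P₀ := 4 * Fintype.card ι) hδ
    (fun p _ => Finset.sum_nonneg fun i _ => mul_nonneg (by norm_num) (hV0 i p))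
    (fun p hp => by
      calc ∑ i, 2 * V i p ≤ ∑ _i : ι, (4 : ℝ) :=
            Finset.sum_le_sum fun i _ => by linarith [hV2 i p hp]
        _ = 4 * Fintype.card ι := by
            rw [Finset.sum_const, nsmul_eq_mul, Finset.card_univ]; ring)
    (fun I p => Finset.sum_nonneg fun i _ => hterm i I p)
    (fun I => by
      have : g I I = 0 := by
        refine Finset.sum_eq_zero fun i _ => ?_
        rw [acc_self, add_zero]
        have : av I (fun y => f i I y - f i I y) = 0 := by
          unfold av av2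
          simp
        rw [this]
        ring
      rw [this]
      exact hδ.le)
    (fun I hI W hW hWR => by
      rw [lf_sum_eq hW]
      have hlen := Growth.len_pos I
      have e1 : SL W I (fun p => g I p + ∑ i, 2 * V i p) =
          ∑ i, (SL W I (fun L => V i L + (1 / 2) * av L (fun y => f i I y - f i L y) ^ 2) +
            SL W I (fun L => V i L + acc (D i) I L)) := by
        rw [← Finset.sum_congr rfl fun i _ => SL_add W I _ _, ← SL_sum]
        refine SL_congr fun L _ _ => ?_
        simp only [g]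
        rw [← Finset.sum_add_distrib]
        exact Finset.sum_congr rfl fun i _ => by ring
      rw [e1]
      have h1 : ∀ i, SL W I (fun L => V i L + (1 / 2) * av L (fun y => f i I y - f i L y) ^ 2) +
            SL W I (fun L => V i L + acc (D i) I L) ≤
          len I * (2 * V i I + 2 * η * (1 + J.1)) := by
        intro i
        have a1 := dev_le (hA i) (h i) hW hW.top
        have a2 := SL_acc_le hW (D i) (V i) (2 * η) (by positivity)
          (fun m l => le_refl _) I hW.top
        have hlev : (I.1 : ℝ) ≤ J.1 := by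
          exact_mod_cast Growth.iv_level (hR.reg.1 I hI)
        have a3 : len I * (2 * η * I.1) ≤ len I * (2 * η * J.1) :=
          mul_le_mul_of_nonneg_left (mul_le_mul_of_nonneg_left hlev (by positivity)) hlen.le
        have a1' : SL W I (fun L => V i L + (1 / 2) * av L (fun y => f i I y - f i L y) ^ 2)
            ≤ len I * (V i I + 2 * η) := a1
        nlinarith [a1', a2, a3]
      refine (Finset.sum_le_sum fun i _ => h1 i).trans ?_
      rw [← Finset.mul_sum, Finset.sum_add_distrib, Finset.sum_const, nsmul_eq_mul,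
        Finset.card_univ]
      refine mul_le_mul_of_nonneg_left ?_ hlen.le
      linarith)
  refine ⟨S, W, ?_, fun K hK i p hp => ?_⟩
  · have e : 4 * (4 * (Fintype.card ι : ℝ)) / δ = 16 * Fintype.card ι / δ := by ring
    rw [← e]
    exact hP
  · have h1 := hg K hK p hp
    have h2 : (1 / 2) * av p (fun y => f i K y - f i p y) ^ 2 + acc (D i) K p ≤ g K p :=
      Finset.single_le_sum (f := fun i => (1 / 2) * av p (fun y => f i K y - f i p y) ^ 2 +
        acc (D i) K p) (fun i _ => hterm i K p) (Finset.mem_univ i)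
    exact h2.trans h1

/-- **refinement** of a given partition into windows -/
theorem refine_windows {ι : Type*} [Fintype ι] {R : Finset Nd} {J : Nd} (hR : Full R J)
    {S : Finset Nd} {W : Nd → Finset Nd} {C : ℝ} (hP : Part R S W C)
    (At : ι → Nd → Fn → Prop) (hA : ∀ i, Dic (At i)) (σ : ι → ℝ) (η : ℝ) (G : ι → Fn)
    (f : ι → Nd → Fn) (t : ι → Nd → ℝ) (h : ∀ i, NM (At i) (σ i) η (G i) (f i) (t i))
    (hG : ∀ i, ∀ p ∈ R, av p (G i) ≤ 1) (hη1 : η ≤ 1 / 2) (hη0 : 0 ≤ η) {δ : ℝ} (hδ : 0 < δ)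
    (hη : Fintype.card ι * (2 * η * (1 + J.1)) ≤ δ / 4) :
    ∃ (S' : Finset Nd) (W' : Nd → Finset Nd),
      Part R S' W' ((2 + 16 * Fintype.card ι / δ) * (1 + C)) ∧
      (∀ K' ∈ S', ∃ K ∈ S, K' ∈ W K ∧ W' K' ⊆ W K) ∧
      ∀ K' ∈ S', ∀ i, Gd (σ i) η (G i) (f i) (t i) δ (W' K') K' := by
  classical
  have hex : ∀ K : Nd, ∃ (T : Finset Nd) (V : Nd → Finset Nd), K ∈ S →
      (Part (W K) T V (2 + 16 * Fintype.card ι / δ) ∧
        ∀ K' ∈ T, ∀ i, Gd (σ i) η (G i) (f i) (t i) δ (V K') K') := by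
    intro K
    by_cases hK : K ∈ S
    · have hlev : (K.1 : ℝ) ≤ J.1 := by
        exact_mod_cast Growth.iv_level (hR.reg.1 K (hP.sub hK))
      have h1 : Fintype.card ι * (2 * η * (1 + K.1)) ≤ δ / 4 := by
        refine le_trans ?_ hη
        have : 2 * η * (1 + (K.1 : ℝ)) ≤ 2 * η * (1 + J.1) :=
          mul_le_mul_of_nonneg_left (by linarith) (by positivity)
        exact mul_le_mul_of_nonneg_left this (Nat.cast_nonneg _)
      obtain ⟨T, V, h2, h3⟩ := exists_windows (hP.full K hK) At hA σ η G f t h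
        (fun i p hp => hG i p (hP.wsub K hK hp)) hη1 hδ h1
      exact ⟨T, V, fun _ => ⟨h2, h3⟩⟩
    · exact ⟨∅, fun _ => ∅, fun h => absurd h hK⟩
  choose T V hTV using hex
  obtain ⟨S', W', h1, h2⟩ := refine_part hR (by positivity) hP T V fun K hK => (hTV K hK).1
  refine ⟨S', W', h1, fun K' hK' => ?_, fun K' hK' i => ?_⟩
  · obtain ⟨K, hK, hKT, _, hs⟩ := h2 K' hK'
    exact ⟨K, hK, (hTV K hK).1.sub hKT, hs⟩
  · obtain ⟨K, hK, hKT, he, _⟩ := h2 K' hK'
    rw [he]
    exact (hTV K hK).2 K' hKT i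

/-- simultaneous choice of near-minimisers of arbitrarily small defect -/
theorem exists_NMs {ι : Type*} (At : ι → Nd → Fn → Prop) (hA : ∀ i, Dic (At i)) (σ : ι → ℝ)
    (hσ : ∀ i, 0 < σ i) {η : ℝ} (hη : 0 < η) (G : ι → Fn) :
    ∃ (f : ι → Nd → Fn) (t : ι → Nd → ℝ), ∀ i, NM (At i) (σ i) η (G i) (f i) (t i) := by
  choose f t h using fun i => exists_NM (hA i) (hσ i) hη (G i)
  exact ⟨f, t, h⟩

end Crest.Agent.R079.TWin
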