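import Crest.Agent.R079.TWin4_903
import Crest.Agent.R079.TSignW_815
import Crest.Agent.R079.Qa_246

/-! R079, doc 2489 (911) (helper903): windows of `TWin4` as families indexed by `Fin n`, the small
letters `E` of all windows at once in the form of `TSign.conv_norm` (815); the `A₃` dictionary. -/

set_option autoImplicit false

namespace Crest.Agent.R079.TWin

open Finset Crest.Agent.R079.Grid Crest.Agent.R079.Growth Crest.Agent.R079.QRed
  Crest.Agent.R079.Qh249 Crest.Agent.R079.QVar181 Crest.Agent.R079.TSign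

/-- the `A₃` dictionary -/
theorem dic_atom (j : Fin 4) : Dic (fun _ => IsAtom j) where
  conj := fun _ _ h => isAtom_conj h
  bd := fun _ φ h y _ => Crest.Agent.R079.Qa246.qa j φ h y
  mono := fun _ _ _ _ h => h

theorem levD_atom {j : Fin 4} {p : Nd} {g : Fn} {s : ℝ} :
    LevD (fun _ => IsAtom j) p g s ↔ Lev3 j p g s := Iff.rfl

theorem repD_atom_iff {j : Fin 4} {p : Nd} {g : Fn} {s : ℝ} :
    RepD (fun _ => IsAtom j) p g s ↔ Rep j p g s := Iff.rfl

/-- the tops as a family indexed by `Fin n` -/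
theorem part_fin {R S : Finset Nd} {W : Nd → Finset Nd} {C : ℝ} (hP : Part R S W C) :
    ∃ (n : ℕ) (I : Fin n → Nd), (∀ i, I i ∈ S) ∧ Function.Injective I ∧
      (∀ K ∈ S, ∃ i, I i = K) ∧
      (∀ i i', i ≠ i' → Disjoint (W (I i)) (W (I i'))) ∧
      (∀ {M : Type} [AddCommMonoid M] (F : Nd → M), ∑ i, F (I i) = ∑ K ∈ S, F K) ∧
      ∀ p ∈ R, ∑ k ∈ univ.filter (fun k => iv (I k) ⊆ iv p), len (I k) ≤ C * len p := by
  classical
  let e := S.equivFin.symm
  have hsum : ∀ {M : Type} [AddCommMonoid M] (F : Nd → M),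
      ∑ i, F (e i : Nd) = ∑ K ∈ S, F K := by
    intro M _ F
    rw [← Finset.sum_coe_sort S F]
    exact Equiv.sum_comp e (fun K : S => F (K : Nd))
  refine ⟨S.card, fun i => e i, fun i => (e i).2, ?_, ?_, ?_, hsum, ?_⟩
  · intro i i' h
    exact e.injective (Subtype.ext h)
  · intro K hK
    exact ⟨S.equivFin ⟨K, hK⟩, by simp only [e, Equiv.symm_apply_apply]⟩
  · intro i i' hne
    exact hP.disj _ (e i).2 _ (e i').2 fun h => hne (e.injective (Subtype.ext h))
  · intro p hp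
    have h1 := hsum (fun K => if iv K ⊆ iv p then len K else 0)
    rw [Finset.sum_filter, h1, ← Finset.sum_filter]
    exact hP.cnt p hp

variable {At : Nd → Fn → Prop} {σ η : ℝ} {G : Fn} {f : Nd → Fn} {t : Nd → ℝ}

open Classical in
/-- small letter of the window `W` with top `I`, cut off to `iv I` -/
noncomputable def Ecut (f : Nd → Fn) (W : Finset Nd) (I : Nd) : Fn :=
  fun y => if y ∈ iv I then gl W f y - f I y else 0

lemma Ecut_off {W : Finset Nd} {I : Nd} {y : ℤ} (hy : y ∉ iv I) : Ecut f W I y = 0 := by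
  unfold Ecut
  rw [if_neg hy]

lemma Ecut_on {W : Finset Nd} {I : Nd} {y : ℤ} (hy : y ∈ iv I) :
    Ecut f W I y = gl W f y - f I y := by
  unfold Ecut
  rw [if_pos hy]

lemma norm_Ecut_le (hA : Dic At) (h : NM At σ η G f t) (hη : η ≤ 1 / 2) {W : Finset Nd} {I : Nd}
    (hW : Full W I) (hG1 : ∀ p ∈ W, av p G ≤ 1) (y : ℤ) : ‖Ecut f W I y‖ ≤ 2 / σ := by
  have hs := h.sig
  by_cases hy : y ∈ iv I
  · rw [Ecut_on hy]
    have h1 := norm_gl_le h hA hη hW hG1 hy
    have h2 := (repD_bd hA (h.rep I) hy).trans (mass_le' h hη (hG1 I hW.top))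
    calc ‖gl W f y - f I y‖ ≤ ‖gl W f y‖ + ‖f I y‖ := norm_sub_le _ _
      _ ≤ 1 / σ + 1 / σ := add_le_add h1 h2
      _ = 2 / σ := by ring
  · rw [Ecut_off hy, norm_zero]
    positivity

/-- **random sum of all the small letters**: hypotheses of `conv_norm` discharged -/
theorem conv_windows (hA : Dic At) (h : NM At σ η G f t) {R : Finset Nd} {J : Nd}
    (hR : Full R J) {S : Finset Nd} {W : Nd → Finset Nd} {C : ℝ} (hC : 0 ≤ C)
    (hP : Part R S W C) (hG1 : ∀ p ∈ R, av p G ≤ 1) (hη2 : η ≤ 1 / 2) {δ : ℝ} (hδ : 0 < δ)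
    (hη : 16 * η ≤ δ) (hGd : ∀ K ∈ S, Gd σ η G f t δ (W K) K) {n : ℕ} (I : Fin n → Nd)
    (hI : ∀ i, I i ∈ S)
    (hsum : ∀ (F : Nd → ℝ), ∑ i, F (I i) = ∑ K ∈ S, F K) {κ : ℝ} (hκ0 : 0 ≤ κ) (hκ1 : κ ≤ 1) :
    (1 / (2 : ℝ) ^ n) * ∑ θ : Sg (Fin n), ∑ y ∈ iv J,
        ‖zs (fun i => Ecut f (W (I i)) (I i)) θ y‖ ^ (2 + κ)
      ≤ (2 / σ) ^ (3 * κ) * ((9 * δ * C) ^ (1 - κ) * (2 * C ^ 2) ^ κ) * len J := by
  classical
  have hs := h.sig
  have hcnt : ∀ p ∈ R, ∑ k ∈ univ.filter (fun k => iv (I k) ⊆ iv p), len (I k) ≤ C * len p := by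
    intro p hp
    have h1 := hsum (fun K => if iv K ⊆ iv p then len K else 0)
    rw [Finset.sum_filter, h1, ← Finset.sum_filter]
    exact hP.cnt p hp
  have htot : ∑ k, len (I k) ≤ C * len J := by
    have h1 := hcnt J hR.top
    have e : univ.filter (fun k => iv (I k) ⊆ iv J) = univ :=
      Finset.filter_true_of_mem fun k _ => hR.reg.1 _ (hP.sub (hI k))
    rwa [e] at h1
  refine conv_norm I J C (2 / σ) κ (9 * δ * C) hC (by positivity) hκ0 hκ1
    (fun i => hR.reg.1 _ (hP.sub (hI i))) (fun i => hcnt _ (hP.sub (hI i))) htot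
    _ (fun i y hy => Ecut_off hy) (fun i y => norm_Ecut_le hA h hη2 (hP.full _ (hI i))
      (fun p hp => hG1 p (hP.wsub _ (hI i) hp)) y) ?_
  have hone : ∀ i, ∑ y ∈ iv (I i), ‖Ecut f (W (I i)) (I i) y‖ ^ 2 ≤ 9 * δ * len (I i) := by
    intro i
    have hWi := hP.full _ (hI i)
    have h1 := av_E_le hA h hWi hδ hη (hGd _ (hI i)) hWi.top
    have e : ∑ y ∈ iv (I i), ‖Ecut f (W (I i)) (I i) y‖ ^ 2 =
        len (I i) * av (I i) (fun y => gl (W (I i)) f y - f (I i) y) ^ 2 := by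
      rw [← Growth.sum_av]
      exact Finset.sum_congr rfl fun y hy => by rw [Ecut_on hy]
    rw [e]
    have h2 : av (I i) (fun y => gl (W (I i)) f y - f (I i) y) ^ 2 ≤ 9 * δ := by
      have h3 := pow_le_pow_left₀ (Growth.av_nonneg _ _) h1 2
      rw [mul_pow, Real.sq_sqrt hδ.le] at h3
      linarith
    have := mul_le_mul_of_nonneg_left h2 (Growth.len_pos (I i)).le
    linarith
  calc ∑ i, ∑ y ∈ iv (I i), ‖Ecut f (W (I i)) (I i) y‖ ^ 2 ≤ ∑ i, 9 * δ * len (I i) :=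
        Finset.sum_le_sum fun i _ => hone i
    _ = 9 * δ * ∑ i, len (I i) := by rw [Finset.mul_sum]
    _ ≤ 9 * δ * (C * len J) := mul_le_mul_of_nonneg_left htot (by positivity)
    _ = 9 * δ * C * len J := by ring

end Crest.Agent.R079.TWin
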