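import Crest.Agent.R079.TWin_649
import Crest.Agent.R079.GrowthG1_215

/-! R079, piece (0) of doc 2489 (helper649), part 2: gluing over the leaves of a full region. -/

set_option autoImplicit false

namespace Crest.Agent.R079.TWin649

open Finset Crest.Agent.R079.Grid Crest.Agent.R079.Glue Crest.Agent.R079.Growth
  Crest.Agent.R079.QRed

open Classical in
/-- glued leaf function -/
noncomputable def gl (W : Finset Nd) (f : Nd → Fn) : Fn :=
  fun y => ∑ L ∈ (lf W).filter (fun L => y ∈ iv L), f L y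

open Classical in
/-- leaves below `p` -/
noncomputable def lb (W : Finset Nd) (p : Nd) : Finset Nd := (lf W).filter (fun L => iv L ⊆ iv p)

theorem mem_lb {W : Finset Nd} {p L : Nd} : L ∈ lb W p ↔ L ∈ lf W ∧ iv L ⊆ iv p := by
  unfold lb
  rw [Finset.mem_filter]

theorem lf_sub {W : Finset Nd} {L : Nd} (h : L ∈ lf W) : L ∈ W := (Qh249.mem_lf.1 h).1

/-- two leaves with a common point are equal -/
theorem lf_eq {W : Finset Nd} {L L' : Nd} (hL : L ∈ lf W) (hL' : L' ∈ lf W) {y : ℤ}
    (hy : y ∈ iv L) (hy' : y ∈ iv L') : L = L' := by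
  rw [Qh249.mem_lf] at hL hL'
  rcases iv_nest hy hy' with h | h
  · exact hL'.2 L hL.1 h
  · exact (hL.2 L' hL'.1 h).symm

theorem gl_eq {W : Finset Nd} (f : Nd → Fn) {L : Nd} (hL : L ∈ lf W) {y : ℤ} (hy : y ∈ iv L) :
    gl W f y = f L y := by
  classical
  unfold gl
  rw [Finset.sum_eq_single L]
  · intro L' hL' hne
    rw [Finset.mem_filter] at hL'
    exact absurd (lf_eq hL'.1 hL hL'.2 hy) hne
  · intro h
    exact absurd (Finset.mem_filter.2 ⟨hL, hy⟩) h

/-- the leaves below `p ∈ W` partition `iv p` -/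
theorem sum_lb {M : Type*} [AddCommMonoid M] {W : Finset Nd} {I : Nd} (hW : Full W I) {p : Nd}
    (hp : p ∈ W) (h : ℤ → M) : ∑ y ∈ iv p, h y = ∑ L ∈ lb W p, ∑ y ∈ iv L, h y := by
  classical
  have e : iv p = (lb W p).biUnion iv := by
    ext y
    rw [Finset.mem_biUnion]
    constructor
    · intro hy
      obtain ⟨L, hL, hLp, hyL, _⟩ := (Qh249.qh W I hW p hp).2 y hy
      exact ⟨L, mem_lb.2 ⟨hL, hLp⟩, hyL⟩
    · rintro ⟨L, hL, hy⟩
      exact (mem_lb.1 hL).2 hy
  rw [e, Finset.sum_biUnion]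
  intro L hL L' hL' hne
  rw [Function.onFun, Finset.disjoint_left]
  intro y hy hy'
  exact hne (lf_eq (mem_lb.1 (by exact_mod_cast hL)).1 (mem_lb.1 (by exact_mod_cast hL')).1 hy hy')

theorem sum_len_lb {W : Finset Nd} {I : Nd} (hW : Full W I) {p : Nd} (hp : p ∈ W) :
    ∑ L ∈ lb W p, len L = len p := by
  have h := sum_lb hW hp (fun _ => (1 : ℝ))
  simp only [Finset.sum_const, nsmul_eq_mul, mul_one] at h
  rw [card_iv] at h
  rw [h]
  exact Finset.sum_congr rfl fun L _ => (card_iv L).symm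

/-- level of the glued residual at every node -/
theorem lv_gl {D : Dict} {e : ℝ} {W : Finset Nd} {I : Nd} (hW : Full W I) {F : Fn}
    {f : Nd → Fn} (hf : ∀ p, Lv D p (fun y => F y - f p y) e) {p : Nd} (hp : p ∈ W) :
    Lv D p (fun y => F y - gl W f y) e := by
  intro φ w hφ
  rw [sum_lb hW hp]
  calc ‖∑ L ∈ lb W p, ∑ y ∈ iv L, (F y - gl W f y) * φ y‖
      ≤ ∑ L ∈ lb W p, (w + e) * len L := by
        refine norm_sum_le_of_le _ fun L hL => ?_
        have : ∑ y ∈ iv L, (F y - gl W f y) * φ y = ∑ y ∈ iv L, (F y - f L y) * φ y :=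
          Finset.sum_congr rfl fun y hy => by rw [gl_eq f (mem_lb.1 hL).1 hy]
        rw [this]
        exact hf L φ w hφ
    _ = (w + e) * len p := by rw [← Finset.mul_sum, sum_len_lb hW hp]

/-- local norm of the deviation of the glued function from `h` -/
theorem av_gl {W : Finset Nd} {I : Nd} (hW : Full W I) (f : Nd → Fn) (h : Fn) {p : Nd}
    (hp : p ∈ W) :
    len p * av p (fun y => gl W f y - h y) ^ 2
      = ∑ L ∈ lb W p, len L * av L (fun y => f L y - h y) ^ 2 := by
  rw [← sum_av, sum_lb hW hp]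
  refine Finset.sum_congr rfl fun L hL => ?_
  rw [← sum_av]
  exact Finset.sum_congr rfl fun y hy => by rw [gl_eq f (mem_lb.1 hL).1 hy]

/-- the penalised functional is additive over the leaves (frozen function and price) -/
theorem Ph_lb {W : Finset Nd} {I : Nd} (hW : Full W I) (F f : Fn) (t : ℝ) {p : Nd}
    (hp : p ∈ W) : ∑ L ∈ lb W p, len L * PhD L F f t = len p * PhD p F f t := by
  unfold PhD
  simp only [mul_add, Finset.sum_add_distrib]
  rw [← Finset.sum_mul, sum_len_lb hW hp]
  congr 1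
  rw [← sum_av, sum_lb hW hp]
  exact Finset.sum_congr rfl fun L _ => (sum_av L _).symm

theorem lb_top {W : Finset Nd} {I : Nd} (hW : Full W I) : lb W I = lf W := by
  classical
  unfold lb
  rw [Finset.filter_true_of_mem]
  intro L hL
  exact hW.reg.1 L (lf_sub hL)

/-! ### finitely many letters -/

section letters

variable {ι : Type*} [Fintype ι]

/-- data: letters, dictionaries, near-minimisers -/
structure Data (D : ι → Dict) (η : ℝ) (G : ι → Fn) (f : ι → Nd → Fn) (t : ι → Nd → ℝ) : Prop where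
  near : ∀ i, Near (D i) η (G i) (f i) (t i)

theorem exists_Data (D : ι → Dict) {η : ℝ} (hη : 0 < η) (G : ι → Fn) :
    ∃ (f : ι → Nd → Fn) (t : ι → Nd → ℝ), Data D η G f t := by
  choose f t h using fun i => exists_Near (D i) hη (G i)
  exact ⟨f, t, ⟨h⟩⟩

/-- total deviation at `p` of the data frozen at `I` -/
noncomputable def dv (f : ι → Nd → Fn) (I p : Nd) : ℝ :=
  ∑ i, av p (fun y => f i I y - f i p y) ^ 2

/-- total potential -/
noncomputable def Pt (G : ι → Fn) (f : ι → Nd → Fn) (t : ι → Nd → ℝ) (p : Nd) : ℝ :=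
  2 * ∑ i, PhD p (G i) (f i p) (t i p)

theorem dv_nonneg (f : ι → Nd → Fn) (I p : Nd) : 0 ≤ dv f I p :=
  Finset.sum_nonneg fun i _ => sq_nonneg _

theorem dv_self (f : ι → Nd → Fn) (I : Nd) : dv f I I = 0 := by
  unfold dv
  refine Finset.sum_eq_zero fun i _ => ?_
  have : av I (fun y => f i I y - f i I y) = 0 := by
    unfold av av2
    simp
  rw [this]
  norm_num

variable {D : ι → Dict} {η : ℝ} {G : ι → Fn} {f : ι → Nd → Fn} {t : ι → Nd → ℝ}

theorem Pt_nonneg (h : Data D η G f t) (p : Nd) : 0 ≤ Pt G f t p := by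
  unfold Pt
  have : 0 ≤ ∑ i, PhD p (G i) (f i p) (t i p) :=
    Finset.sum_nonneg fun i _ => PhD_nonneg p (G i) ((h.near i).rep p)
  linarith

theorem Pt_le (h : Data D η G f t) (p : Nd) (hG : ∀ i, av p (G i) ≤ 1) :
    Pt G f t p ≤ 2 * Fintype.card ι * (1 + 2 * η) := by
  unfold Pt
  have : ∑ i, PhD p (G i) (f i p) (t i p) ≤ ∑ _i : ι, (1 + 2 * η) := by
    refine Finset.sum_le_sum fun i _ => ?_
    have h1 := (h.near i).Ph_le p
    have h2 : av p (G i) ^ 2 ≤ 1 := pow_le_one₀ (Real.sqrt_nonneg _) (hG i)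
    linarith
  rw [Finset.sum_const, nsmul_eq_mul, Finset.card_univ] at this
  nlinarith [this]

/-- node inequality: the data frozen at `I` are competitors at `p ⊆ I` -/
theorem dv_add_Pt (h : Data D η G f t) {I p : Nd} (hpI : iv p ⊆ iv I) :
    dv f I p + Pt G f t p
      ≤ 2 * ∑ i, PhD p (G i) (f i I) (t i I) + 4 * Fintype.card ι * η := by
  have key : ∀ i, av p (fun y => f i I y - f i p y) ^ 2 + 2 * PhD p (G i) (f i p) (t i p)
      ≤ 2 * PhD p (G i) (f i I) (t i I) + 4 * η := by
    intro i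
    have := (h.near i).cvx p (f i I) (t i I) (rp_mono hpI ((h.near i).rep I))
    linarith
  have hs := Finset.sum_le_sum fun i (_ : i ∈ (Finset.univ : Finset ι)) => key i
  rw [Finset.sum_add_distrib, Finset.sum_add_distrib, Finset.sum_const, nsmul_eq_mul,
    Finset.card_univ, ← Finset.mul_sum, ← Finset.mul_sum] at hs
  unfold dv Pt
  linarith

/-- hypothesis of the stopping lemma -/
theorem stop_hyp (h : Data D η G f t) {W : Finset Nd} {I : Nd} (hW : Full W I) {p : Nd}
    (hp : p ∈ W) {K : Nd} (hpK : iv p ⊆ iv K) :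
    ∑ L ∈ lb W p, len L * (dv f K L + Pt G f t L)
      ≤ len p * (2 * ∑ i, PhD p (G i) (f i K) (t i K) + 4 * Fintype.card ι * η) := by
  calc ∑ L ∈ lb W p, len L * (dv f K L + Pt G f t L)
      ≤ ∑ L ∈ lb W p, len L *
          (2 * ∑ i, PhD L (G i) (f i K) (t i K) + 4 * Fintype.card ι * η) := by
        refine Finset.sum_le_sum fun L hL => ?_
        exact mul_le_mul_of_nonneg_left
          (dv_add_Pt h ((mem_lb.1 hL).2.trans hpK)) (len_pos L).le
    _ = _ := by
        simp only [mul_add, Finset.sum_add_distrib]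
        rw [← Finset.sum_mul, sum_len_lb hW hp]
        congr 1
        have e : ∀ L, len L * (2 * ∑ i, PhD L (G i) (f i K) (t i K))
            = 2 * ∑ i, len L * PhD L (G i) (f i K) (t i K) := by
          intro L
          rw [Finset.mul_sum, Finset.mul_sum, Finset.mul_sum]
          exact Finset.sum_congr rfl fun i _ => by ring
        rw [Finset.sum_congr rfl fun L _ => e L, ← Finset.mul_sum, Finset.sum_comm, e p]
        congr 1
        exact Finset.sum_congr rfl fun i _ => Ph_lb hW (G i) (f i K) (t i K) hp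

end letters

end Crest.Agent.R079.TWin649
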