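import Crest.Agent.R079.TWinB_649

/-! R079, piece (0) of doc 2489 (helper649), part 3: WINDOW SYSTEMS. -/

set_option autoImplicit false

namespace Crest.Agent.R079.TWin649

open Finset Crest.Agent.R079.Grid Crest.Agent.R079.Glue Crest.Agent.R079.Growth
  Crest.Agent.R079.QRed Crest.Agent.R079.Qe292

/-! ### the stopping construction with counts below every node -/

theorem below_child {q c : Nd} (h : iv q ⊆ iv (par c)) (hne : q ≠ par c) :
    iv q ⊆ iv c ∨ iv q ⊆ iv (sib c) := by
  obtain ⟨j, hj⟩ := iv_sub_iff.1 h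
  cases j with
  | zero => exact absurd (by rw [hj]; simp) hne
  | succ j =>
    have h1 := congrArg Prod.fst hj
    have h2 := congrArg Prod.snd hj
    simp only [par] at h1 h2
    have h3 := L0e.ediv_pow_pow q.2 j 1
    rw [pow_one] at h3
    rw [← h3] at h2
    have h4 : q.2 / 2 ^ j = c.2 ∨ q.2 / 2 ^ j = 4 * (c.2 / 2) + 1 - c.2 := by omega
    have h5 : c.1 = q.1 + j := by omega
    rcases h4 with h4 | h4
    · left
      exact iv_sub_iff.2 ⟨j, Prod.ext h5 h4.symm⟩
    · right
      exact iv_sub_iff.2 ⟨j, Prod.ext h5 h4.symm⟩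

section stop

variable {R : Finset Nd} {g : Nd → Nd → ℝ} {δ : ℝ} {J : Nd}

theorem par_lf (hR : Full R J) {I : Nd} (hI : I ∈ R) {c : Nd} (hc : c ∈ Tp R g δ I) :
    par c ∈ lf (Wd R g δ I) := by
  rw [Qh249.mem_lf]
  have h := mem_Tp.1 hc
  refine ⟨h.2.2.2, fun q hq hqc => ?_⟩
  by_contra hne
  rcases below_child hqc hne with h1 | h1
  · exact h.2.2.1 (Wd_up hR hI hq h1 h.2.1)
  · have h' := mem_Tp.1 (Tp_sib hR hc)
    exact h'.2.2.1 (Wd_up hR hI hq h1 h'.2.1)

open Classical in
/-- the tops below a node of the window -/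
theorem len_Tp_below (hR : Full R J) {I : Nd} (hI : I ∈ R) {q : Nd} (hq : q ∈ Wd R g δ I) :
    ∑ c ∈ (Tp R g δ I).filter (fun c => iv c ⊆ iv q), len c ≤ len q := by
  have hW := W'_full (g := g) (δ := δ) hR hI
  have hqW : q ∈ Wd R g δ I ∪ Tp R g δ I := Finset.mem_union_left _ hq
  rw [← sum_len_lb hW hqW]
  refine Finset.sum_le_sum_of_subset_of_nonneg ?_ fun L _ _ => (Growth.len_pos L).le
  intro c hc
  rw [Finset.mem_filter] at hc
  exact mem_lb.2 ⟨Tp_sub_lf hR hI hc.1, hc.2⟩

open Classical in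
/-- the set of all tops below `I`, with counts of every "supermartingale weight" -/
theorem tops2 (hR : Full R J) :
    ∀ (n : ℕ) (I : Nd), I ∈ R → I.1 < n → ∃ S : Finset Nd, I ∈ S ∧ S ⊆ R ∧
      (∀ K ∈ S, iv K ⊆ iv I) ∧
      (∀ K ∈ S, ∀ K' ∈ S, K ≠ K' → Disjoint (Wd R g δ K) (Wd R g δ K')) ∧
      (∀ p ∈ R, iv p ⊆ iv I → ∃ K ∈ S, p ∈ Wd R g δ K) ∧
      ∀ (X y : Nd → ℝ) (Y : ℝ), (∀ K, 0 ≤ X K) → (∀ K ∈ R, y K ≤ Y) → 0 ≤ Y →
        (∀ K ∈ R, X K + ∑ c ∈ Tp R g δ K, len c * y c ≤ len K * y K) →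
        ∑ K ∈ S, X K ≤ len I * y I ∧
        ∀ q ∈ R, iv q ⊆ iv I → ∑ K ∈ S.filter (fun K => iv K ⊆ iv q), X K ≤ len q * Y := by
  intro n
  induction n with
  | zero => intro I _ h; omega
  | succ n ih =>
    intro I hI hn
    have hex : ∀ c : Nd, ∃ S : Finset Nd, c ∈ Tp R g δ I → (c ∈ S ∧ S ⊆ R ∧
      (∀ K ∈ S, iv K ⊆ iv c) ∧
      (∀ K ∈ S, ∀ K' ∈ S, K ≠ K' → Disjoint (Wd R g δ K) (Wd R g δ K')) ∧
      (∀ p ∈ R, iv p ⊆ iv c → ∃ K ∈ S, p ∈ Wd R g δ K) ∧
      ∀ (X y : Nd → ℝ) (Y : ℝ), (∀ K, 0 ≤ X K) → (∀ K ∈ R, y K ≤ Y) → 0 ≤ Y →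
        (∀ K ∈ R, X K + ∑ c ∈ Tp R g δ K, len c * y c ≤ len K * y K) →
        ∑ K ∈ S, X K ≤ len c * y c ∧
        ∀ q ∈ R, iv q ⊆ iv c → ∑ K ∈ S.filter (fun K => iv K ⊆ iv q), X K ≤ len q * Y) := by
      intro c
      by_cases hc : c ∈ Tp R g δ I
      · have hl := Tp_level hI hc
        obtain ⟨S, hS⟩ := ih c (mem_Tp.1 hc).1 (by omega)
        exact ⟨S, fun _ => hS⟩
      · exact ⟨∅, fun h => absurd h hc⟩
    choose S hS using hex
    have hd : Set.PairwiseDisjoint (Tp R g δ I : Set Nd) S := by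
      intro c hc c' hc' hne
      rw [Function.onFun, Finset.disjoint_left]
      intro K hK hK'
      exact hne (Tp_disj hR hI (by exact_mod_cast hc) (by exact_mod_cast hc')
        ((hS c (by exact_mod_cast hc)).2.2.1 K hK)
        ((hS c' (by exact_mod_cast hc')).2.2.1 K hK'))
    refine ⟨{I} ∪ (Tp R g δ I).biUnion S, Finset.mem_union_left _ (Finset.mem_singleton_self I),
      ?_, ?_, ?_, ?_, ?_⟩
    · refine Finset.union_subset (Finset.singleton_subset_iff.2 hI) ?_
      exact Finset.biUnion_subset.2 fun c hc => (hS c hc).2.1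
    · intro K hK
      rcases Finset.mem_union.1 hK with h | h
      · rw [Finset.mem_singleton.1 h]
      · obtain ⟨c, hc, hKc⟩ := Finset.mem_biUnion.1 h
        exact ((hS c hc).2.2.1 K hKc).trans (mem_Tp.1 hc).2.1
    · -- disjointness
      have hA : ∀ K ∈ (Tp R g δ I).biUnion S, Disjoint (Wd R g δ I) (Wd R g δ K) := by
        intro K hK
        obtain ⟨c, hc, hKc⟩ := Finset.mem_biUnion.1 hK
        rw [Finset.disjoint_left]
        intro p hpI hpK
        have h1 : iv p ⊆ iv c := (mem_Wd.1 hpK).2.1.trans ((hS c hc).2.2.1 K hKc)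
        exact (mem_Tp.1 hc).2.2.1 (Wd_up hR hI hpI h1 (mem_Tp.1 hc).2.1)
      intro K hK K' hK' hne
      rcases Finset.mem_union.1 hK with h | h <;> rcases Finset.mem_union.1 hK' with h' | h'
      · rw [Finset.mem_singleton.1 h, Finset.mem_singleton.1 h'] at hne
        exact absurd rfl hne
      · rw [Finset.mem_singleton.1 h]
        exact hA K' h'
      · rw [Finset.mem_singleton.1 h']
        exact (hA K h).symm
      · obtain ⟨c, hc, hKc⟩ := Finset.mem_biUnion.1 h
        obtain ⟨c', hc', hKc'⟩ := Finset.mem_biUnion.1 h'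
        by_cases hcc : c = c'
        · subst hcc
          exact (hS c hc).2.2.2.1 K hKc K' hKc' hne
        · rw [Finset.disjoint_left]
          intro p hp hp'
          exact hcc (Tp_disj hR hI hc hc'
            ((mem_Wd.1 hp).2.1.trans ((hS c hc).2.2.1 K hKc))
            ((mem_Wd.1 hp').2.1.trans ((hS c' hc').2.2.1 K' hKc')))
    · -- cover
      intro p hp hpI
      by_cases hw : p ∈ Wd R g δ I
      · exact ⟨I, Finset.mem_union_left _ (Finset.mem_singleton_self I), hw⟩
      · have hl := Qe292.iv_level hpI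
        obtain ⟨c, hc, hpc⟩ := below_top hR hI (I.1 - p.1) p (by omega) hp hpI hw
        obtain ⟨K, hK, hK'⟩ := (hS c hc).2.2.2.2.1 p hp hpc
        exact ⟨K, Finset.mem_union_right _ (Finset.mem_biUnion.2 ⟨c, hc, hK⟩), hK'⟩
    · -- weights
      intro X y Y hX hy hY hXy
      have htop : ∑ K ∈ {I} ∪ (Tp R g δ I).biUnion S, X K ≤ len I * y I := by
        have h1 : ∑ K ∈ {I} ∪ (Tp R g δ I).biUnion S, X K
            ≤ X I + ∑ K ∈ (Tp R g δ I).biUnion S, X K := by
          have := Finset.sum_union_inter (s₁ := ({I} : Finset Nd))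
            (s₂ := (Tp R g δ I).biUnion S) (f := X)
          rw [Finset.sum_singleton] at this
          have h0 : 0 ≤ ∑ K ∈ {I} ∩ (Tp R g δ I).biUnion S, X K :=
            Finset.sum_nonneg fun K _ => hX K
          linarith
        have h2 : ∑ K ∈ (Tp R g δ I).biUnion S, X K = ∑ c ∈ Tp R g δ I, ∑ K ∈ S c, X K :=
          Finset.sum_biUnion hd
        have h3 : ∑ c ∈ Tp R g δ I, ∑ K ∈ S c, X K ≤ ∑ c ∈ Tp R g δ I, len c * y c :=
          Finset.sum_le_sum fun c hc => ((hS c hc).2.2.2.2.2 X y Y hX hy hY hXy).1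
        have h4 := hXy I hI
        linarith
      refine ⟨htop, fun q hq hqI => ?_⟩
      by_cases hqe : q = I
      · subst hqe
        refine le_trans (Finset.sum_le_sum_of_subset_of_nonneg (Finset.filter_subset _ _)
          fun K _ _ => hX K) (htop.trans ?_)
        exact mul_le_mul_of_nonneg_left (hy q hI) (Growth.len_pos q).le
      · -- reduce to the union
        have hsub : ({I} ∪ (Tp R g δ I).biUnion S).filter (fun K => iv K ⊆ iv q) ⊆
            ((Tp R g δ I).biUnion S).filter (fun K => iv K ⊆ iv q) := by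
          intro K hK
          rw [Finset.mem_filter] at hK ⊢
          refine ⟨?_, hK.2⟩
          rcases Finset.mem_union.1 hK.1 with h | h
          · exfalso
            rw [Finset.mem_singleton.1 h] at hK
            exact hqe (iv_antisymm hqI hK.2)
          · exact h
        refine le_trans (Finset.sum_le_sum_of_subset_of_nonneg hsub fun K _ _ => hX K) ?_
        have e1 : ∑ K ∈ ((Tp R g δ I).biUnion S).filter (fun K => iv K ⊆ iv q), X K
            = ∑ c ∈ Tp R g δ I, ∑ K ∈ (S c).filter (fun K => iv K ⊆ iv q), X K := by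
          rw [Finset.filter_biUnion, Finset.sum_biUnion]
          intro c hc c' hc' hne
          exact Finset.disjoint_of_subset_left (Finset.filter_subset _ _)
            (Finset.disjoint_of_subset_right (Finset.filter_subset _ _) (hd hc hc' hne))
        rw [e1]
        by_cases hw : q ∈ Wd R g δ I
        · -- tops below `q`
          have h5 : ∑ c ∈ Tp R g δ I, ∑ K ∈ (S c).filter (fun K => iv K ⊆ iv q), X K
              ≤ ∑ c ∈ (Tp R g δ I).filter (fun c => iv c ⊆ iv q), len c * Y := by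
            rw [Finset.sum_filter]
            refine Finset.sum_le_sum fun c hc => ?_
            split_ifs with hcq
            · refine le_trans (Finset.sum_le_sum_of_subset_of_nonneg (Finset.filter_subset _ _)
                fun K _ _ => hX K) ?_
              refine (((hS c hc).2.2.2.2.2 X y Y hX hy hY hXy).1).trans ?_
              exact mul_le_mul_of_nonneg_left (hy c (mem_Tp.1 hc).1) (Growth.len_pos c).le
            · refine le_of_eq (Finset.sum_eq_zero fun K hK => ?_)
              exfalso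
              rw [Finset.mem_filter] at hK
              rcases sub_total ((hS c hc).2.2.1 K hK.1) hK.2 with h6 | h6
              · exact hcq h6
              · exact (mem_Tp.1 hc).2.2.1 (Wd_up hR hI hw h6 (mem_Tp.1 hc).2.1)
          refine h5.trans ?_
          rw [← Finset.sum_mul]
          exact mul_le_mul_of_nonneg_right (len_Tp_below hR hI hw) hY
        · -- `q` is below one top
          obtain ⟨c, hc, hqc⟩ := below_top hR hI (I.1 - q.1) q
            (by have := Qe292.iv_level hqI; omega) hq hqI hw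
          rw [Finset.sum_eq_single_of_mem c hc]
          · exact ((hS c hc).2.2.2.2.2 X y Y hX hy hY hXy).2 q hq hqc
          · intro c' hc' hne
            refine Finset.sum_eq_zero fun K hK => ?_
            exfalso
            rw [Finset.mem_filter] at hK
            exact hne (Tp_disj hR hI hc' hc ((hS c' hc').2.2.1 K hK.1) (hK.2.trans hqc))

end stop

open Classical in
/-- a window system of the full region `R` (index set = set of tops) with at most `A` windows below
every node (normalised count) -/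
structure Sysw (R : Finset Nd) (S : Finset Nd) (W : Nd → Finset Nd) (A : ℝ) : Prop where
  sub : S ⊆ R
  full : ∀ K ∈ S, Full (W K) K
  wsub : ∀ K ∈ S, W K ⊆ R
  disj : ∀ K ∈ S, ∀ K' ∈ S, K ≠ K' → Disjoint (W K) (W K')
  cover : ∀ p ∈ R, ∃ K ∈ S, p ∈ W K
  cnt : ∀ q ∈ R, ∑ K ∈ S.filter (fun K => iv K ⊆ iv q), len K ≤ A * len q

end Crest.Agent.R079.TWin649
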