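import Crest.Agent.R079.TWinC_649

/-! R079, piece (0) of doc 2489 (helper649), part 4: admissible windows of given data, refinement. -/

set_option autoImplicit false

namespace Crest.Agent.R079.TWin649

open Finset Crest.Agent.R079.Grid Crest.Agent.R079.Glue Crest.Agent.R079.Growth
  Crest.Agent.R079.QRed Crest.Agent.R079.Qe292

theorem av_symm (p : Nd) (X Y : Fn) :
    av p (fun y => X y - Y y) = av p (fun y => Y y - X y) := by
  unfold av av2
  congr 2
  exact Finset.sum_congr rfl fun y _ => by rw [norm_sub_rev]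

section letters

variable {ι : Type*} [Fintype ι] {D : ι → Dict} {η : ℝ} {G : ι → Fn} {f : ι → Nd → Fn}
  {t : ι → Nd → ℝ}

/-- drift energy of the window `W` with top `K` : `|K| Σ_i |gl f_i - f_i(K)|²` -/
noncomputable def en (f : ι → Nd → Fn) (W : Finset Nd) (K : Nd) : ℝ :=
  len K * ∑ i, av K (fun y => gl W (f i) y - f i K y) ^ 2

theorem en_nonneg (f : ι → Nd → Fn) (W : Finset Nd) (K : Nd) : 0 ≤ en f W K :=
  mul_nonneg (Growth.len_pos K).le (Finset.sum_nonneg fun i _ => sq_nonneg _)

theorem en_eq {W : Finset Nd} {K : Nd} (hW : Full W K) :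
    en f W K = ∑ L ∈ lb W K, len L * dv f K L := by
  unfold en dv
  simp only [Finset.mul_sum]
  rw [Finset.sum_comm]
  refine Finset.sum_congr rfl fun i _ => ?_
  rw [av_gl hW (f i) (f i K) hW.top]
  exact Finset.sum_congr rfl fun L _ => by rw [av_symm]

/-- deviation of the glued function at a node of a window with `dv ≤ δ` -/
theorem dv_gl {W : Finset Nd} {K : Nd} {δ : ℝ} (hW : Full W K)
    (hd : ∀ p ∈ W, dv f K p ≤ δ) {p : Nd} (hp : p ∈ W) :
    ∑ i, av p (fun y => gl W (f i) y - f i K y) ^ 2 ≤ δ := by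
  have h1 : len p * ∑ i, av p (fun y => gl W (f i) y - f i K y) ^ 2
      = ∑ L ∈ lb W p, len L * dv f K L := by
    unfold dv
    simp only [Finset.mul_sum]
    rw [Finset.sum_comm]
    refine Finset.sum_congr rfl fun i _ => ?_
    rw [av_gl hW (f i) (f i K) hp]
    exact Finset.sum_congr rfl fun L _ => by rw [av_symm]
  have h2 : ∑ L ∈ lb W p, len L * dv f K L ≤ ∑ L ∈ lb W p, len L * δ :=
    Finset.sum_le_sum fun L hL =>
      mul_le_mul_of_nonneg_left (hd L (lf_sub (mem_lb.1 hL).1)) (Growth.len_pos L).le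
  rw [← Finset.sum_mul, sum_len_lb hW hp, ← h1] at h2
  exact le_of_mul_le_mul_left h2 (Growth.len_pos p)

/-- energy inequality of one window -/
theorem en_step (h : Data D η G f t) {R : Finset Nd} {J : Nd} (hR : Full R J) {δ : ℝ}
    {K : Nd} (hK : K ∈ R) :
    en f (Wd R (dv f) δ K) K + ∑ c ∈ Tp R (dv f) δ K, len c * Pt G f t c
      ≤ len K * (Pt G f t K + 8 * Fintype.card ι * η) := by
  classical
  have hW := Wd_full (g := dv f) (δ := δ) hR hK
  have hW' := W'_full (g := dv f) (δ := δ) hR hK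
  -- next tops against leaves
  have h1 : ∑ c ∈ Tp R (dv f) δ K, len c * Pt G f t c
      ≤ ∑ L ∈ lf (Wd R (dv f) δ K), len L * (Pt G f t L + 4 * Fintype.card ι * η) := by
    rw [← Finset.sum_fiberwise_of_maps_to (fun c hc => par_lf hR hK hc)]
    refine Finset.sum_le_sum fun L hL => ?_
    have hLW' : L ∈ Wd R (dv f) δ K ∪ Tp R (dv f) δ K := Finset.mem_union_left _ (lf_sub hL)
    have h2 := stop_hyp h hW' hLW' (K := L) subset_rfl
    have h3 : len L * (2 * ∑ i, PhD L (G i) (f i L) (t i L) + 4 * Fintype.card ι * η)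
        = len L * (Pt G f t L + 4 * Fintype.card ι * η) := rfl
    rw [h3] at h2
    refine le_trans ?_ h2
    have hsub : (Tp R (dv f) δ K).filter (fun c => par c = L) ⊆
        lb (Wd R (dv f) δ K ∪ Tp R (dv f) δ K) L := by
      intro c hc
      rw [Finset.mem_filter] at hc
      refine mem_lb.2 ⟨Tp_sub_lf hR hK hc.1, ?_⟩
      rw [← hc.2]
      exact iv_par c
    refine le_trans (Finset.sum_le_sum fun c _ => ?_)
      (Finset.sum_le_sum_of_subset_of_nonneg hsub fun c _ _ =>
        mul_nonneg (Growth.len_pos c).le (add_nonneg (dv_nonneg f L c) (Pt_nonneg h c)))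
    exact mul_le_mul_of_nonneg_left (by linarith [dv_nonneg f L c]) (Growth.len_pos c).le
  have h4 : ∑ L ∈ lf (Wd R (dv f) δ K), len L * (Pt G f t L + 4 * Fintype.card ι * η)
      = ∑ L ∈ lf (Wd R (dv f) δ K), len L * Pt G f t L + len K * (4 * Fintype.card ι * η) := by
    simp only [mul_add, Finset.sum_add_distrib]
    rw [← Finset.sum_mul, ← lb_top hW, sum_len_lb hW hW.top]
  have h5 := stop_hyp h hW hW.top (K := K) subset_rfl
  have h6 : ∑ L ∈ lb (Wd R (dv f) δ K) K, len L * (dv f K L + Pt G f t L)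
      = en f (Wd R (dv f) δ K) K + ∑ L ∈ lf (Wd R (dv f) δ K), len L * Pt G f t L := by
    rw [en_eq hW, ← lb_top hW, ← Finset.sum_add_distrib]
    exact Finset.sum_congr rfl fun L _ => by ring
  have h7 : len K * (2 * ∑ i, PhD K (G i) (f i K) (t i K) + 4 * Fintype.card ι * η)
      = len K * (Pt G f t K + 4 * Fintype.card ι * η) := rfl
  rw [h6, h7] at h5
  rw [h4] at h1
  have h8 : len K * (Pt G f t K + 8 * Fintype.card ι * η)
      = len K * (Pt G f t K + 4 * Fintype.card ι * η) + len K * (4 * Fintype.card ι * η) := by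
    ring
  rw [h8]
  linarith

open Classical in
/-- **(0) ADMISSIBLE WINDOWS.**  Letters `G i`, near-minimisers `f i` of error `η` (exist by
`exists_Data`), local norms `≤ 1` on `R`.  For every fineness `δ` there is a window system of `R`:
frozen data deviate by `≤ δ` at every node of a window, at most `(3 + 16 c/δ)` windows below every
node, drift energy `≤ 12 c + 2 δ` below every node (`c` = number of letters). -/
theorem exists_windows (h : Data D η G f t) {R : Finset Nd} {J : Nd} (hR : Full R J)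
    (hG : ∀ i, ∀ p ∈ R, av p (G i) ≤ 1) {δ : ℝ} (hδ : 0 < δ) (hη0 : 0 ≤ η) (hη1 : η ≤ 1 / 2)
    (hη : 16 * Fintype.card ι * η ≤ δ) :
    ∃ (S : Finset Nd) (W : Nd → Finset Nd), Sysw R S W (3 + 16 * Fintype.card ι / δ) ∧ J ∈ S ∧
      (∀ K ∈ S, ∀ p ∈ W K, dv f K p ≤ δ) ∧
      ∀ q ∈ R, ∑ K ∈ S.filter (fun K => iv K ⊆ iv q), en f (W K) K
        ≤ len q * (12 * Fintype.card ι + 2 * δ) := by
  obtain ⟨S, hJS, hSR, hSJ, hSd, hSc, hSX⟩ := tops2 (g := dv f) (δ := δ) hR (J.1 + 1) J
    hR.top (Nat.lt_succ_self _)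
  have hc0 : (0 : ℝ) ≤ Fintype.card ι := Nat.cast_nonneg _
  have hyp : ∀ I ∈ R, ∀ W : Finset Nd, Full W I → W ⊆ R →
      ∑ p ∈ lf W, len p * (dv f I p + Pt G f t p) ≤ len I * (Pt G f t I + δ / 4) := by
    intro I _ W hW _
    have h1 := stop_hyp h hW hW.top (K := I) subset_rfl
    rw [lb_top hW] at h1
    refine h1.trans (mul_le_mul_of_nonneg_left ?_ (Growth.len_pos I).le)
    have : 2 * ∑ i, PhD I (G i) (f i I) (t i I) = Pt G f t I := rfl
    rw [this]
    linarith
  have hstep : ∀ K ∈ R, len K + ∑ c ∈ Tp R (dv f) δ K, len c * (2 + 4 * Pt G f t c / δ)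
      ≤ len K * (2 + 4 * Pt G f t K / δ) := fun K hK =>
    step hR hδ (fun p _ => Pt_nonneg h p) (dv_nonneg f) hyp hK
  have hP : ∀ K ∈ R, Pt G f t K ≤ 4 * Fintype.card ι := by
    intro K hK
    refine (Pt_le h K fun i => hG i K hK).trans ?_
    nlinarith
  have hP' : ∀ K ∈ R, 2 + 4 * Pt G f t K / δ ≤ 3 + 16 * Fintype.card ι / δ := by
    intro K hK
    have h1 : 4 * Pt G f t K / δ ≤ 16 * Fintype.card ι / δ := by
      refine div_le_div_of_nonneg_right ?_ hδ.le
      linarith [hP K hK]
    linarith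
  have hA0 : (0 : ℝ) ≤ 3 + 16 * Fintype.card ι / δ := by positivity
  refine ⟨S, Wd R (dv f) δ, ⟨hSR, fun K hK => Wd_full hR (hSR hK), fun K _ => Wd_sub, hSd,
    fun p hp => hSc p hp (hR.reg.1 p hp), ?_⟩, hJS, ?_, ?_⟩
  · intro q hq
    have := (hSX len (fun K => 2 + 4 * Pt G f t K / δ) _ (fun K => (Growth.len_pos K).le) hP' hA0
      hstep).2 q hq (hR.reg.1 q hq)
    linarith
  · intro K _ p hp
    exact Wd_good (fun I => by rw [dv_self]; exact hδ.le) hp
  · intro q hq
    set k : ℝ := 8 * Fintype.card ι * η with hk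
    have hk0 : 0 ≤ k := by positivity
    have hkδ : k ≤ δ / 2 := by rw [hk]; linarith
    have hkey : ∀ K ∈ R, en f (Wd R (dv f) δ K) K + ∑ c ∈ Tp R (dv f) δ K, len c *
        (Pt G f t c + k * (2 + 4 * Pt G f t c / δ))
        ≤ len K * (Pt G f t K + k * (2 + 4 * Pt G f t K / δ)) := by
      intro K hK
      have h1 := en_step h hR (δ := δ) hK
      have h2 := mul_le_mul_of_nonneg_left (hstep K hK) hk0
      have e1 : ∑ c ∈ Tp R (dv f) δ K, len c * (Pt G f t c + k * (2 + 4 * Pt G f t c / δ))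
          = ∑ c ∈ Tp R (dv f) δ K, len c * Pt G f t c
            + k * ∑ c ∈ Tp R (dv f) δ K, len c * (2 + 4 * Pt G f t c / δ) := by
        rw [Finset.mul_sum, ← Finset.sum_add_distrib]
        exact Finset.sum_congr rfl fun c _ => by ring
      rw [e1]
      have e2 : len K * (Pt G f t K + 8 * Fintype.card ι * η) = len K * Pt G f t K + k * len K := by
        rw [hk]; ring
      rw [e2] at h1
      have e3 : k * (len K * (2 + 4 * Pt G f t K / δ))
          = len K * (k * (2 + 4 * Pt G f t K / δ)) := by ring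
      rw [e3] at h2
      rw [mul_add k] at h2
      rw [mul_add (len K)]
      linarith
    have hY : ∀ K ∈ R, Pt G f t K + k * (2 + 4 * Pt G f t K / δ)
        ≤ 12 * Fintype.card ι + 2 * δ := by
      intro K hK
      have h1 := hP K hK
      have h2 := hP' K hK
      have h3 : k * (2 + 4 * Pt G f t K / δ) ≤ δ / 2 * (3 + 16 * Fintype.card ι / δ) := by
        refine mul_le_mul hkδ h2 ?_ (by positivity)
        have := Pt_nonneg h K
        positivity
      have h4 : δ / 2 * (3 + 16 * Fintype.card ι / δ) = 3 * δ / 2 + 8 * Fintype.card ι := by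
        field_simp
        ring
      linarith
    exact (hSX (fun K => en f (Wd R (dv f) δ K) K) _ _ (fun K => en_nonneg f _ K) hY
      (by positivity) hkey).2 q hq (hR.reg.1 q hq)

end letters

/-! ### refinement of window systems -/

open Classical in
/-- windows inside windows -/
theorem Sysw.refine {R : Finset Nd} {J : Nd} (hR : Full R J) {S : Finset Nd} {W : Nd → Finset Nd}
    {A B : ℝ} (hB : 0 ≤ B) (h : Sysw R S W A) {S' : Nd → Finset Nd} {W' : Nd → Nd → Finset Nd}
    (h' : ∀ K ∈ S, Sysw (W K) (S' K) (W' K) B) :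
    ∃ (S'' : Finset Nd) (W'' : Nd → Finset Nd) (o : Nd → Nd), Sysw R S'' W'' (B * (A + 1)) ∧
      (∀ L ∈ S'', o L ∈ S ∧ L ∈ S' (o L) ∧ W'' L = W' (o L) L) ∧
      (∀ K ∈ S, ∀ L ∈ S' K, L ∈ S'' ∧ o L = K) := by
  -- owner of a node
  have hex : ∀ p : Nd, ∃ K : Nd, p ∈ R → K ∈ S ∧ p ∈ W K := by
    intro p
    by_cases hp : p ∈ R
    · obtain ⟨K, hK, hpK⟩ := h.cover p hp
      exact ⟨K, fun _ => ⟨hK, hpK⟩⟩
    · exact ⟨p, fun h => absurd h hp⟩
  choose o ho using hex
  have huniq : ∀ {p K : Nd}, K ∈ S → p ∈ W K → o p = K := by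
    intro p K hK hp
    have h1 := ho p (h.wsub K hK hp)
    by_contra hne
    exact Finset.disjoint_left.1 (h.disj _ h1.1 _ hK hne) h1.2 hp
  have hSW : ∀ K ∈ S, ∀ L ∈ S' K, L ∈ W K := fun K hK L hL => (h' K hK).sub hL
  refine ⟨S.biUnion S', fun L => W' (o L) L, o, ⟨?_, ?_, ?_, ?_, ?_, ?_⟩, ?_, ?_⟩
  · exact Finset.biUnion_subset.2 fun K hK L hL => h.wsub K hK (hSW K hK L hL)
  · intro L hL
    obtain ⟨K, hK, hLK⟩ := Finset.mem_biUnion.1 hL
    rw [huniq hK (hSW K hK L hLK)]
    exact (h' K hK).full L hLK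
  · intro L hL
    obtain ⟨K, hK, hLK⟩ := Finset.mem_biUnion.1 hL
    rw [huniq hK (hSW K hK L hLK)]
    exact ((h' K hK).wsub L hLK).trans (h.wsub K hK)
  · intro L hL L' hL' hne
    obtain ⟨K, hK, hLK⟩ := Finset.mem_biUnion.1 hL
    obtain ⟨K', hK', hLK'⟩ := Finset.mem_biUnion.1 hL'
    rw [huniq hK (hSW K hK L hLK), huniq hK' (hSW K' hK' L' hLK')]
    by_cases hKK : K = K'
    · subst hKK
      exact (h' K hK).disj L hLK L' hLK' hne
    · exact Finset.disjoint_of_subset_left ((h' K hK).wsub L hLK)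
        (Finset.disjoint_of_subset_right ((h' K' hK').wsub L' hLK') (h.disj K hK K' hK' hKK))
  · intro p hp
    obtain ⟨K, hK, hpK⟩ := h.cover p hp
    obtain ⟨L, hL, hpL⟩ := (h' K hK).cover p hpK
    refine ⟨L, Finset.mem_biUnion.2 ⟨K, hK, hL⟩, ?_⟩
    rw [huniq hK (hSW K hK L hL)]
    exact hpL
  · intro q hq
    obtain ⟨K₀, hK₀, hqK₀⟩ := h.cover q hq
    -- decompose
    have hd : Set.PairwiseDisjoint (S : Set Nd) S' := by
      intro K hK K' hK' hne
      rw [Function.onFun, Finset.disjoint_left]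
      intro L hL hL'
      exact Finset.disjoint_left.1 (h.disj K (by exact_mod_cast hK) K' (by exact_mod_cast hK') hne)
        (hSW K (by exact_mod_cast hK) L hL) (hSW K' (by exact_mod_cast hK') L hL')
    have e1 : ∑ L ∈ (S.biUnion S').filter (fun L => iv L ⊆ iv q), len L
        = ∑ K ∈ S, ∑ L ∈ (S' K).filter (fun L => iv L ⊆ iv q), len L := by
      rw [Finset.filter_biUnion, Finset.sum_biUnion]
      intro K hK K' hK' hne
      exact Finset.disjoint_of_subset_left (Finset.filter_subset _ _)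
        (Finset.disjoint_of_subset_right (Finset.filter_subset _ _) (hd hK hK' hne))
    rw [e1]
    have h2 : ∀ K ∈ S, ∑ L ∈ (S' K).filter (fun L => iv L ⊆ iv q), len L
        ≤ (if iv K ⊆ iv q then B * len K else 0) + if K = K₀ then B * len q else 0 := by
      intro K hK
      have hKtop := (h.full K hK).top
      by_cases hKq : iv K ⊆ iv q
      · rw [if_pos hKq]
        have h3 : ∑ L ∈ (S' K).filter (fun L => iv L ⊆ iv q), len L
            ≤ ∑ L ∈ (S' K).filter (fun L => iv L ⊆ iv K), len L := by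
          refine Finset.sum_le_sum_of_subset_of_nonneg ?_ fun L _ _ => (Growth.len_pos L).le
          intro L hL
          rw [Finset.mem_filter] at hL ⊢
          exact ⟨hL.1, (h.full K hK).reg.1 L (hSW K hK L hL.1)⟩
        have h4 := (h' K hK).cnt K hKtop
        have h5 : (0 : ℝ) ≤ if K = K₀ then B * len q else 0 := by
          split_ifs
          · exact mul_nonneg hB (Growth.len_pos q).le
          · exact le_rfl
        linarith
      · rw [if_neg hKq, zero_add]
        by_cases hex : ∃ L ∈ S' K, iv L ⊆ iv q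
        · obtain ⟨L, hL, hLq⟩ := hex
          have hLK := (h.full K hK).reg.1 L (hSW K hK L hL)
          have hqK : iv q ⊆ iv K := by
            rcases sub_total hLK hLq with h6 | h6
            · exact absurd h6 hKq
            · exact h6
          have hqW : q ∈ W K := (h.full K hK).reg.2 L (hSW K hK L hL) q hLq hqK
          have hKK : K = K₀ := by
            rw [← huniq hK hqW, huniq hK₀ hqK₀]
          rw [if_pos hKK]
          have := (h' K hK).cnt q hqW
          exact this
        · push Not at hex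
          have : (S' K).filter (fun L => iv L ⊆ iv q) = ∅ :=
            Finset.filter_eq_empty_iff.2 fun L hL => hex L hL
          rw [this, Finset.sum_empty]
          split_ifs
          · exact mul_nonneg hB (Growth.len_pos q).le
          · exact le_rfl
    refine (Finset.sum_le_sum h2).trans ?_
    rw [Finset.sum_add_distrib, ← Finset.sum_filter, ← Finset.mul_sum, Finset.sum_ite_eq' S K₀,
      if_pos hK₀]
    have h3 := mul_le_mul_of_nonneg_left (h.cnt q hq) hB
    nlinarith [h3]
  · intro L hL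
    obtain ⟨K, hK, hLK⟩ := Finset.mem_biUnion.1 hL
    have := huniq hK (hSW K hK L hLK)
    refine ⟨?_, ?_, rfl⟩
    · rw [this]; exact hK
    · rw [this]; exact hLK
  · intro K hK L hL
    exact ⟨Finset.mem_biUnion.2 ⟨K, hK, hL⟩, huniq hK (hSW K hK L hL)⟩

end Crest.Agent.R079.TWin649
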