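import Crest.Agent.R079.QVar_181
import Crest.Agent.R079.Qh_249
import Crest.Agent.R079.Qe_292
import Crest.Agent.R079.Qa_246

/-! R079, piece (0) of doc 2489 (helper649), part 1: PRICED DICTIONARIES, near-minimisers at every node,
gluing over the leaves of a full region.

`Dict` = any set of pairs (atom, price), closed under conjugation, atoms bounded by `1` (plain `A₃` atoms at
price `σ`: `plain`; union dictionaries: disjoint unions with different prices).  Everything else is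
`QVar_181` verbatim. -/

set_option autoImplicit false

namespace Crest.Agent.R079.TWin649

open Finset Crest.Agent.R079.Grid Crest.Agent.R079.Glue Crest.Agent.R079.Growth
  Crest.Agent.R079.QRed

/-- priced dictionary -/
structure Dict where
  at' : Fn → ℝ → Prop
  conj : ∀ φ w, at' φ w → at' (fun y => (starRingEnd ℂ) (φ y)) w
  bd : ∀ φ w, at' φ w → ∀ y, ‖φ y‖ ≤ 1
  pos : ∀ φ w, at' φ w → 0 < w

/-- `f` is on `iv p` a combination of atoms of total price `≤ t` -/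
def Rp (D : Dict) (p : Nd) (f : Fn) (t : ℝ) : Prop :=
  ∃ (n : ℕ) (φ : Fin n → Fn) (w : Fin n → ℝ) (c : Fin n → ℂ), (∀ i, D.at' (φ i) (w i)) ∧
    (∀ y ∈ iv p, f y = ∑ i, c i * φ i y) ∧ ∑ i, ‖c i‖ * w i ≤ t

/-- `g` has level `≤ (price + e)` at `p` -/
def Lv (D : Dict) (p : Nd) (g : Fn) (e : ℝ) : Prop :=
  ∀ φ w, D.at' φ w → ‖∑ y ∈ iv p, g y * φ y‖ ≤ (w + e) * len p

/-- penalised functional -/
noncomputable def PhD (p : Nd) (F f : Fn) (t : ℝ) : ℝ := av p (fun y => F y - f y) ^ 2 + 2 * t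

theorem rp_zero (D : Dict) (p : Nd) : Rp D p (fun _ => 0) 0 :=
  ⟨0, Fin.elim0, Fin.elim0, Fin.elim0, fun i => i.elim0, fun _ _ => by simp, by simp⟩

theorem rp_nonneg {D : Dict} {p : Nd} {f : Fn} {t : ℝ} (h : Rp D p f t) : 0 ≤ t := by
  obtain ⟨n, φ, w, c, ha, _, ht⟩ := h
  exact le_trans (Finset.sum_nonneg fun i _ =>
    mul_nonneg (norm_nonneg _) (D.pos _ _ (ha i)).le) ht

theorem rp_add {D : Dict} {p : Nd} {f g : Fn} {t u : ℝ} (h : Rp D p f t) (h' : Rp D p g u) :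
    Rp D p (fun y => f y + g y) (t + u) := by
  obtain ⟨n, φ, w, c, hφ, hf, ht⟩ := h
  obtain ⟨m, ψ, v, d, hψ, hg, hu⟩ := h'
  refine ⟨n + m, Fin.append φ ψ, Fin.append w v, Fin.append c d, ?_, ?_, ?_⟩
  · intro i
    refine Fin.addCases (fun i => ?_) (fun i => ?_) i
    · rw [Fin.append_left, Fin.append_left]; exact hφ i
    · rw [Fin.append_right, Fin.append_right]; exact hψ i
  · intro y hy
    rw [Fin.sum_univ_add]
    simp only [Fin.append_left, Fin.append_right]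
    rw [← hf y hy, ← hg y hy]
  · rw [Fin.sum_univ_add]
    simp only [Fin.append_left, Fin.append_right]
    linarith

theorem rp_smul {D : Dict} {p : Nd} {f : Fn} {t : ℝ} (z : ℂ) (h : Rp D p f t) :
    Rp D p (fun y => z * f y) (‖z‖ * t) := by
  obtain ⟨n, φ, w, c, hφ, hf, ht⟩ := h
  refine ⟨n, φ, w, fun i => z * c i, hφ, ?_, ?_⟩
  · intro y hy
    dsimp only
    rw [hf y hy, Finset.mul_sum]
    exact Finset.sum_congr rfl fun i _ => by ring
  · simp only [norm_mul, mul_assoc]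
    rw [← Finset.mul_sum]
    exact mul_le_mul_of_nonneg_left ht (norm_nonneg _)

theorem rp_atom {D : Dict} (p : Nd) {φ : Fn} {w : ℝ} (h : D.at' φ w) : Rp D p φ w :=
  ⟨1, fun _ => φ, fun _ => w, fun _ => 1, fun _ => h, fun y _ => by simp, by simp⟩

theorem rp_mono {D : Dict} {p q : Nd} {f : Fn} {t : ℝ} (hqp : iv q ⊆ iv p) (h : Rp D p f t) :
    Rp D q f t := by
  obtain ⟨n, φ, w, c, hφ, hf, ht⟩ := h
  exact ⟨n, φ, w, c, hφ, fun y hy => hf y (hqp hy), ht⟩

/-- sup bound: prices bounded below by `m` -/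
theorem rp_sup {D : Dict} {p : Nd} {f : Fn} {t m : ℝ} (hm : 0 < m)
    (hw : ∀ φ w, D.at' φ w → m ≤ w) (h : Rp D p f t) : ∀ y ∈ iv p, ‖f y‖ ≤ t / m := by
  obtain ⟨n, φ, w, c, hφ, hf, ht⟩ := h
  intro y hy
  rw [hf y hy, le_div_iff₀ hm]
  calc ‖∑ i, c i * φ i y‖ * m ≤ (∑ i, ‖c i‖) * m := by
        refine mul_le_mul_of_nonneg_right (norm_sum_le_of_le _ fun i _ => ?_) hm.le
        rw [norm_mul]
        exact mul_le_of_le_one_right (norm_nonneg _) (D.bd _ _ (hφ i) y)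
    _ = ∑ i, ‖c i‖ * m := by rw [Finset.sum_mul]
    _ ≤ ∑ i, ‖c i‖ * w i := Finset.sum_le_sum fun i _ =>
        mul_le_mul_of_nonneg_left (hw _ _ (hφ i)) (norm_nonneg _)
    _ ≤ t := ht

theorem PhD_nonneg {D : Dict} (p : Nd) (F : Fn) {g : Fn} {u : ℝ} (h : Rp D p g u) :
    0 ≤ PhD p F g u := by
  unfold PhD
  have := rp_nonneg h
  positivity

theorem exists_near (D : Dict) (η : ℝ) (hη : 0 < η) (F : Fn) (p : Nd) :
    ∃ (f : Fn) (t : ℝ), Rp D p f t ∧ ∀ (g : Fn) (u : ℝ), Rp D p g u →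
      PhD p F f t ≤ PhD p F g u + η := by
  let S : Set ℝ := {x | ∃ (g : Fn) (u : ℝ), Rp D p g u ∧ x = PhD p F g u}
  have hne : S.Nonempty := ⟨_, _, _, rp_zero D p, rfl⟩
  have hbd : BddBelow S := ⟨0, by
    rintro x ⟨g, u, h, rfl⟩
    exact PhD_nonneg p F h⟩
  obtain ⟨x, ⟨f, t, hft, rfl⟩, hx⟩ := Real.lt_sInf_add_pos hne hη
  refine ⟨f, t, hft, fun g u hgu => ?_⟩
  have : sInf S ≤ PhD p F g u := csInf_le hbd ⟨g, u, hgu, rfl⟩
  linarith

theorem near_convex {D : Dict} {η : ℝ} {F : Fn} {p : Nd} {f : Fn} {t : ℝ} (hf : Rp D p f t)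
    (hmin : ∀ (g : Fn) (u : ℝ), Rp D p g u → PhD p F f t ≤ PhD p F g u + η)
    (g : Fn) (u : ℝ) (hg : Rp D p g u) :
    PhD p F f t + (1 / 2) * av p (fun y => g y - f y) ^ 2 ≤ PhD p F g u + 2 * η := by
  have hmid : Rp D p (fun y => (1 / 2 : ℂ) * (f y + g y)) (‖(1 / 2 : ℂ)‖ * (t + u)) :=
    rp_smul _ (rp_add hf hg)
  have hn : ‖(1 / 2 : ℂ)‖ = 1 / 2 := by simp
  rw [hn] at hmid
  have h := hmin _ _ hmid
  have key : av p (fun y => F y - (1 / 2 : ℂ) * (f y + g y)) ^ 2 =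
      av p (fun y => F y - f y) ^ 2 / 2 + av p (fun y => F y - g y) ^ 2 / 2 -
        av p (fun y => g y - f y) ^ 2 / 4 := by
    rw [QVar181.av_sq, QVar181.av_sq, QVar181.av_sq, QVar181.av_sq]
    have : ∀ y, ‖F y - (1 / 2 : ℂ) * (f y + g y)‖ ^ 2 =
        ‖F y - f y‖ ^ 2 / 2 + ‖F y - g y‖ ^ 2 / 2 - ‖g y - f y‖ ^ 2 / 4 := by
      intro y
      have e1 : F y - (1 / 2 : ℂ) * (f y + g y) = ((F y - f y) + (F y - g y)) / 2 := by ring
      have e2 : (F y - f y) - (F y - g y) = g y - f y := by ring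
      rw [e1, QVar181.norm_mid, e2]
    rw [Finset.sum_congr rfl fun y _ => this y, Finset.sum_sub_distrib, Finset.sum_add_distrib,
      ← Finset.sum_div, ← Finset.sum_div, ← Finset.sum_div]
    ring
  unfold PhD at h ⊢
  rw [key] at h
  linarith

theorem near_level {D : Dict} {η : ℝ} (hη : 0 < η) {F : Fn} {p : Nd}
    {f : Fn} {t : ℝ} (hf : Rp D p f t)
    (hmin : ∀ (g : Fn) (u : ℝ), Rp D p g u → PhD p F f t ≤ PhD p F g u + η) :
    Lv D p (fun y => F y - f y) (Real.sqrt η) := by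
  intro φ σ hφ
  have hσ := D.pos _ _ hφ
  dsimp only
  set S : ℂ := ∑ y ∈ iv p, (F y - f y) * φ y with hS
  have hL := QVar181.len_pos' p
  set r := Real.sqrt η with hr
  have hr0 : 0 < r := Real.sqrt_pos.mpr hη
  have hrr : r ^ 2 = η := Real.sq_sqrt hη.le
  by_cases hS0 : S = 0
  · rw [hS0, norm_zero]
    positivity
  have hSn : 0 < ‖S‖ := norm_pos_iff.mpr hS0
  let z : ℂ := (r / ‖S‖ : ℝ) * S
  have hz : ‖z‖ = r := by
    simp only [z, norm_mul, Complex.norm_real, Real.norm_eq_abs]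
    rw [abs_of_nonneg (by positivity)]
    field_simp
  have hzS : ((starRingEnd ℂ) z * S).re = r * ‖S‖ := by
    have e : (starRingEnd ℂ) z * S = ((r * ‖S‖ : ℝ) : ℂ) := by
      simp only [z, map_mul, Complex.conj_ofReal]
      have : (starRingEnd ℂ) S * S = ((‖S‖ ^ 2 : ℝ) : ℂ) := by
        rw [mul_comm, Complex.mul_conj, Complex.normSq_eq_norm_sq]
      rw [mul_assoc, this]
      rw [← Complex.ofReal_mul]
      congr 1
      field_simp
    rw [e, Complex.ofReal_re]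
  have hat := D.conj _ _ hφ
  have hrep : Rp D p (fun y => f y + z * (starRingEnd ℂ) (φ y)) (t + ‖z‖ * σ) :=
    rp_add hf (rp_smul z (rp_atom p hat))
  have h := hmin _ _ hrep
  rw [hz] at h
  have key : av p (fun y => F y - (f y + z * (starRingEnd ℂ) (φ y))) ^ 2 =
      av p (fun y => F y - f y) ^ 2 - 2 * (r * ‖S‖) / len p +
        r ^ 2 * ((1 / len p) * ∑ y ∈ iv p, ‖φ y‖ ^ 2) := by
    rw [QVar181.av_sq, QVar181.av_sq]
    have : ∀ y, ‖F y - (f y + z * (starRingEnd ℂ) (φ y))‖ ^ 2 =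
        ‖F y - f y‖ ^ 2 - 2 * ((starRingEnd ℂ) z * ((F y - f y) * φ y)).re
          + r ^ 2 * ‖φ y‖ ^ 2 := by
      intro y
      have e1 : F y - (f y + z * (starRingEnd ℂ) (φ y)) =
          (F y - f y) - z * (starRingEnd ℂ) (φ y) := by ring
      rw [e1, QVar181.norm_sub_mul, hz]
    rw [Finset.sum_congr rfl fun y _ => this y, Finset.sum_add_distrib, Finset.sum_sub_distrib,
      ← Finset.mul_sum, ← Finset.mul_sum]
    have e2 : ∑ y ∈ iv p, ((starRingEnd ℂ) z * ((F y - f y) * φ y)).re = r * ‖S‖ := by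
      rw [← hzS, hS, Finset.mul_sum, Complex.re_sum]
    rw [e2]
    ring
  have hφ1 : (1 / len p) * ∑ y ∈ iv p, ‖φ y‖ ^ 2 ≤ 1 := by
    have h1 : ∑ y ∈ iv p, ‖φ y‖ ^ 2 ≤ ∑ _y ∈ iv p, (1 : ℝ) := by
      refine Finset.sum_le_sum fun y _ => ?_
      have := D.bd _ _ hφ y
      exact pow_le_one₀ (norm_nonneg _) this
    rw [Finset.sum_const, nsmul_eq_mul, mul_one, QVar181.card_iv'] at h1
    rw [one_div, inv_mul_le_iff₀ hL, mul_one]
    exact h1
  unfold PhD at h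
  rw [key] at h
  have h2 : 2 * (r * ‖S‖) / len p ≤ r ^ 2 + 2 * σ * r + η := by
    have := mul_le_mul_of_nonneg_left hφ1 (sq_nonneg r)
    linarith
  rw [div_le_iff₀ hL] at h2
  have h3 : 2 * r * ‖S‖ ≤ 2 * r * ((σ + r) * len p) := by
    rw [← hrr] at h2
    nlinarith [h2]
  exact le_of_mul_le_mul_left h3 (by positivity)

/-- near-minimisers of `F` at every node (chosen once per letter and dictionary) -/
structure Near (D : Dict) (η : ℝ) (F : Fn) (f : Nd → Fn) (t : Nd → ℝ) : Prop where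
  rep : ∀ p, Rp D p (f p) (t p)
  lev : ∀ p, Lv D p (fun y => F y - f p y) (Real.sqrt η)
  cvx : ∀ p (g : Fn) (u : ℝ), Rp D p g u →
    PhD p F (f p) (t p) + (1 / 2) * av p (fun y => g y - f p y) ^ 2 ≤ PhD p F g u + 2 * η

theorem exists_Near (D : Dict) {η : ℝ} (hη : 0 < η) (F : Fn) :
    ∃ (f : Nd → Fn) (t : Nd → ℝ), Near D η F f t := by
  choose f t hft hmin using exists_near D η hη F
  exact ⟨f, t, ⟨hft, fun p => near_level hη (hft p) (hmin p),
    fun p g u hgu => near_convex (hft p) (hmin p) g u hgu⟩⟩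

section near

variable {D : Dict} {η : ℝ} {F : Fn} {f : Nd → Fn} {t : Nd → ℝ}

theorem Near.t_nonneg (h : Near D η F f t) (p : Nd) : 0 ≤ t p := rp_nonneg (h.rep p)

theorem Near.Ph_le (h : Near D η F f t) (p : Nd) :
    PhD p F (f p) (t p) ≤ av p F ^ 2 + 2 * η := by
  have h1 := h.cvx p _ _ (rp_zero D p)
  have h2 : PhD p F (fun _ => 0) 0 = av p F ^ 2 := by
    unfold PhD
    simp
  rw [h2] at h1
  have := sq_nonneg (av p (fun y => (0 : ℂ) - f p y))
  linarith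

/-- mass bound of the frozen part -/
theorem Near.t_le (h : Near D η F f t) (p : Nd) : t p ≤ (av p F ^ 2 + 2 * η) / 2 := by
  have h1 := h.Ph_le p
  unfold PhD at h1
  have := sq_nonneg (av p (fun y => F y - f p y))
  linarith

theorem Near.av_le (h : Near D η F f t) (p : Nd) :
    av p (f p) ^ 2 ≤ 2 * (av p F ^ 2 + 2 * η) := by
  have h1 := h.cvx p _ _ (rp_zero D p)
  have h2 : PhD p F (fun _ => 0) 0 = av p F ^ 2 := by
    unfold PhD
    simp
  have h3 : av p (fun y => (0 : ℂ) - f p y) = av p (f p) := by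
    unfold av av2
    simp
  rw [h2, h3] at h1
  have := PhD_nonneg p F (h.rep p)
  linarith

end near

/-- plain dictionary: unit `A₃` atoms of slot `j` at price `σ` -/
def plain (j : Fin 4) (σ : ℝ) (hσ : 0 < σ) : Dict where
  at' φ w := IsAtom j φ ∧ w = σ
  conj φ w h := ⟨QVar181.isAtom_conj h.1, h.2⟩
  bd φ w h := Crest.Agent.R079.Qa246.qa j φ h.1
  pos φ w h := h.2 ▸ hσ

end Crest.Agent.R079.TWin649
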