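import Crest.Agent.R079.RelV_653

/-! R079 (helper159): helper653's ThP_653 (threshold penalties on bands) over an arbitrary
NODE-DEPENDENT gauge `N p` (midpoint convex, closed balls, balls of the children glue to the ball
of the parent); meant for Whitney cells of the line model. The proofs are those of ThP_653. -/

set_option autoImplicit false

namespace Crest.Agent.R079.ThA159

open Finset Crest.Agent.R079.Grid Crest.Agent.R079.Growth Crest.Agent.R079.QRed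
  Crest.Agent.R079.Qh249 Crest.Agent.R079.QVar181 Crest.Agent.R079.TWin
open Crest.Agent.R079.RelW653 (vl NMP Jv Dv av_par sum_av' lf_sum_eq')
open Crest.Agent.R079.RelV653

/-- band system: positions `Ω`, band `Bd p` of every node, `pos` = line coordinate of a position,
`N p` = gauge of the node with closed balls, gluing -/
structure Bnd {Ω : Type*} (Bd : Nd → Finset Ω) (pos : Ω → ℤ) (N : Nd → (Ω → ℂ) → ℝ) (ν : ℝ) :
    Prop where
  sub : ∀ (m : ℕ) (l : ℤ) (ω : Ω), ω ∈ Bd (m + 1, l) ↔ ω ∈ Bd (m, 2 * l) ∨ ω ∈ Bd (m, 2 * l + 1)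
  dj : ∀ (m : ℕ) (l : ℤ), Disjoint (Bd (m, 2 * l)) (Bd (m, 2 * l + 1))
  mem : ∀ p, ∀ ω ∈ Bd p, pos ω ∈ iv p
  nu : 0 < ν
  fib : ∀ (p : Nd) (y : ℤ), ν * ((Bd p).filter (fun ω => pos ω = y)).card ≤ 1
  zero : ∀ p, N p (fun _ => 0) ≤ 0
  mid : ∀ (p : Nd) (A B : Ω → ℂ), N p (fun ω => (A ω + B ω) / 2) ≤ (N p A + N p B) / 2
  cl : ∀ (p : Nd) (r : ℝ), IsClosed {B : Ω → ℂ | N p B ≤ r}
  glue : ∀ (r : ℝ) (m : ℕ) (l : ℤ) (A B : Ω → ℂ), 0 ≤ r →
    (∀ ω, ω ∉ Bd (m, 2 * l) → A ω = 0) → (∀ ω, ω ∉ Bd (m, 2 * l + 1) → B ω = 0) →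
    N (m, 2 * l) A ≤ r → N (m, 2 * l + 1) B ≤ r → N (m + 1, l) (fun ω => A ω + B ω) ≤ r

/-- admissible kernels of the node -/
def Adm {Ω : Type*} (Bd : Nd → Finset Ω) (N : Nd → (Ω → ℂ) → ℝ) (r : ℝ) (p : Nd) (B : Ω → ℂ) : Prop :=
  (∀ ω, ω ∉ Bd p → B ω = 0) ∧ N p B ≤ r

/-- squared distance on the band -/
noncomputable def dst {Ω : Type*} (Bd : Nd → Finset Ω) (p : Nd) (A B : Ω → ℂ) : ℝ :=
  ∑ ω ∈ Bd p, ‖A ω - B ω‖ ^ 2

section basic

variable {Ω : Type*} {Bd : Nd → Finset Ω} {pos : Ω → ℤ} {N : Nd → (Ω → ℂ) → ℝ} {ν : ℝ}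

lemma dst_nonneg (p : Nd) (A B : Ω → ℂ) : 0 ≤ dst Bd p A B :=
  Finset.sum_nonneg fun _ _ => sq_nonneg _

lemma dst_congr {p : Nd} {A A' B B' : Ω → ℂ} (h : ∀ ω ∈ Bd p, A ω = A' ω)
    (h' : ∀ ω ∈ Bd p, B ω = B' ω) : dst Bd p A B = dst Bd p A' B' :=
  Finset.sum_congr rfl fun ω hω => by rw [h ω hω, h' ω hω]

lemma dst_ch (hB : Bnd Bd pos N ν) (m : ℕ) (l : ℤ) (A B : Ω → ℂ) :
    dst Bd (m + 1, l) A B = dst Bd (m, 2 * l) A B + dst Bd (m, 2 * l + 1) A B := by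
  classical
  unfold dst
  rw [← Finset.sum_union (hB.dj m l)]
  refine Finset.sum_congr ?_ fun _ _ => rfl
  ext ω
  rw [hB.sub, Finset.mem_union]

lemma adm_zero (hB : Bnd Bd pos N ν) {r : ℝ} (hr : 0 ≤ r) (p : Nd) :
    Adm Bd N r p (fun _ => 0) :=
  ⟨fun _ _ => rfl, (hB.zero p).trans hr⟩

lemma adm_mid (hB : Bnd Bd pos N ν) {r : ℝ} {p : Nd} {B B' : Ω → ℂ} (h : Adm Bd N r p B)
    (h' : Adm Bd N r p B') : Adm Bd N r p (fun ω => (B ω + B' ω) / 2) := by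
  refine ⟨fun ω hω => by
    show (B ω + B' ω) / 2 = 0
    rw [h.1 ω hω, h'.1 ω hω]; simp, ?_⟩
  have h1 := hB.mid p B B'
  have h3 := h.2
  have h4 := h'.2
  linarith

lemma adm_glue (hB : Bnd Bd pos N ν) {r : ℝ} (hr : 0 ≤ r) {m : ℕ} {l : ℤ} {B B' : Ω → ℂ}
    (h : Adm Bd N r (m, 2 * l) B) (h' : Adm Bd N r (m, 2 * l + 1) B') :
    Adm Bd N r (m + 1, l) (fun ω => B ω + B' ω) := by
  refine ⟨fun ω hω => ?_, hB.glue r m l B B' hr h.1 h'.1 h.2 h'.2⟩
  rw [hB.sub, not_or] at hω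
  show B ω + B' ω = 0
  rw [h.1 ω hω.1, h'.1 ω hω.2, add_zero]

/-- nearest admissible kernel -/
theorem exists_proj (hB : Bnd Bd pos N ν) {r : ℝ} (hr : 0 ≤ r) (p : Nd) (A : Ω → ℂ) :
    ∃ B, Adm Bd N r p B ∧ ∀ B', Adm Bd N r p B' → dst Bd p A B ≤ dst Bd p A B' := by
  classical
  set ρ : ℝ := Real.sqrt (dst Bd p A (fun _ => 0)) with hρ
  set Q : Set (Ω → ℂ) := {B | N p B ≤ r} ∩
    Set.pi Set.univ (fun ω => if ω ∈ Bd p then Metric.closedBall (A ω) ρ else {0}) with hQ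
  have hQc : IsCompact Q := by
    refine IsCompact.inter_left ?_ (hB.cl _ _)
    refine isCompact_univ_pi fun ω => ?_
    split_ifs
    · exact isCompact_closedBall _ _
    · exact isCompact_singleton
  have hterm : ∀ B : Ω → ℂ, dst Bd p A B ≤ dst Bd p A (fun _ => 0) → ∀ ω ∈ Bd p,
      B ω ∈ Metric.closedBall (A ω) ρ := by
    intro B h ω hω
    rw [Metric.mem_closedBall, dist_comm, dist_eq_norm, hρ]
    refine Real.le_sqrt_of_sq_le (le_trans ?_ h)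
    exact Finset.single_le_sum (f := fun ω => ‖A ω - B ω‖ ^ 2) (fun _ _ => sq_nonneg _) hω
  have hmem : ∀ B : Ω → ℂ, Adm Bd N r p B → dst Bd p A B ≤ dst Bd p A (fun _ => 0) → B ∈ Q := by
    intro B hA h
    refine ⟨hA.2, fun ω _ => ?_⟩
    show B ω ∈ if ω ∈ Bd p then Metric.closedBall (A ω) ρ else {0}
    split_ifs with hω
    · exact hterm B h ω hω
    · exact hA.1 ω hω
  have h0 : (fun _ => 0 : Ω → ℂ) ∈ Q := hmem _ (adm_zero hB hr p) le_rfl
  have hcont : ContinuousOn (fun B : Ω → ℂ => dst Bd p A B) Q := by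
    refine Continuous.continuousOn ?_
    unfold dst
    refine continuous_finsetSum _ fun ω _ => ?_
    exact ((continuous_const.sub (continuous_apply ω)).norm).pow 2
  obtain ⟨B, hBQ, hmin⟩ := hQc.exists_isMinOn ⟨_, h0⟩ hcont
  refine ⟨B, ⟨fun ω hω => ?_, hBQ.1⟩, fun B' hB' => ?_⟩
  · have h2 : B ω ∈ if ω ∈ Bd p then Metric.closedBall (A ω) ρ else {0} :=
      hBQ.2 ω (Set.mem_univ ω)
    rw [if_neg hω] at h2
    exact h2
  · by_cases h : dst Bd p A B' ≤ dst Bd p A (fun _ => 0)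
    · exact hmin (hmem B' hB' h)
    · exact (hmin h0).trans (not_le.1 h).le

/-- parallelogram identity on the band -/
lemma dst_par (p : Nd) (A A' B B' : Ω → ℂ) :
    dst Bd p (fun ω => (A ω + A' ω) / 2) (fun ω => (B ω + B' ω) / 2)
      + (1 / 4) * ∑ ω ∈ Bd p, ‖(A ω - B ω) - (A' ω - B' ω)‖ ^ 2
      = (dst Bd p A B + dst Bd p A' B') / 2 := by
  unfold dst
  rw [Finset.mul_sum, ← Finset.sum_add_distrib, ← Finset.sum_add_distrib, Finset.sum_div]
  refine Finset.sum_congr rfl fun ω _ => ?_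
  have h1 := parallelogram_law_with_norm ℝ (A ω - B ω) (A' ω - B' ω)
  have e1 : (A ω + A' ω) / 2 - (B ω + B' ω) / 2 = ((A ω - B ω) + (A' ω - B' ω)) / 2 := by ring
  rw [e1, norm_div]
  have e3 : ‖(2 : ℂ)‖ = 2 := by simp
  rw [e3]
  nlinarith [h1]


variable (Bd pos N ν)

open Classical in
/-- nearest admissible kernel -/
noncomputable def Pj (r : ℝ) (p : Nd) (A : Ω → ℂ) : Ω → ℂ :=
  if h : ∃ B, Adm Bd N r p B ∧ ∀ B', Adm Bd N r p B' → dst Bd p A B ≤ dst Bd p A B' then h.choose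
  else fun _ => 0

open Classical in
/-- the letter seen through the gauge `a`, on the band of `p` -/
noncomputable def ag (a : Ω → ℂ) (p : Nd) (g : Fn) : Ω → ℂ :=
  fun ω => if ω ∈ Bd p then a ω * g (pos ω) else 0

/-- the threshold penalty -/
noncomputable def Th (a : Ω → ℂ) (r : ℝ) (p : Nd) (g : Fn) : ℝ :=
  ν / len p * dst Bd p (ag Bd pos a p g) (Pj Bd N r p (ag Bd pos a p g))

open Classical in
/-- half gradient of the threshold penalty -/
noncomputable def Gr (a : Ω → ℂ) (r : ℝ) (p : Nd) (g : Fn) : Fn :=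
  fun y => ν * ∑ ω ∈ (Bd p).filter (fun ω => pos ω = y),
    starRingEnd ℂ (a ω) * (ag Bd pos a p g ω - Pj Bd N r p (ag Bd pos a p g) ω)

variable {Bd pos N ν}

lemma Pj_spec (hB : Bnd Bd pos N ν) {r : ℝ} (hr : 0 ≤ r) (p : Nd) (A : Ω → ℂ) :
    Adm Bd N r p (Pj Bd N r p A) ∧
      ∀ B', Adm Bd N r p B' → dst Bd p A (Pj Bd N r p A) ≤ dst Bd p A B' := by
  have h := exists_proj hB hr p A
  unfold Pj
  rw [dif_pos h]
  exact h.choose_spec

/-- an admissible kernel is at distance `≤ 2 (defect)` from the projection -/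
lemma Pj_close (hB : Bnd Bd pos N ν) {r : ℝ} (hr : 0 ≤ r) (p : Nd) (A : Ω → ℂ) {B : Ω → ℂ}
    (hBa : Adm Bd N r p B) :
    (1 / 2) * dst Bd p (Pj Bd N r p A) B ≤ dst Bd p A B - dst Bd p A (Pj Bd N r p A) := by
  have h := Pj_spec hB hr p A
  have h1 := h.2 _ (adm_mid hB h.1 hBa)
  have h2 := dst_par (Bd := Bd) p A A (Pj Bd N r p A) B
  have e1 : dst Bd p (fun ω => (A ω + A ω) / 2) (fun ω => (Pj Bd N r p A ω + B ω) / 2)
      = dst Bd p A (fun ω => (Pj Bd N r p A ω + B ω) / 2) :=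
    dst_congr (fun ω _ => by ring) fun _ _ => rfl
  have e2 : ∑ ω ∈ Bd p, ‖(A ω - Pj Bd N r p A ω) - (A ω - B ω)‖ ^ 2
      = dst Bd p (Pj Bd N r p A) B := by
    unfold dst
    refine Finset.sum_congr rfl fun ω _ => ?_
    rw [show (A ω - Pj Bd N r p A ω) - (A ω - B ω) = -(Pj Bd N r p A ω - B ω) by ring, norm_neg]
  rw [e1, e2] at h2
  linarith

lemma ag_eq {a : Ω → ℂ} {p : Nd} {g : Fn} {ω : Ω} (h : ω ∈ Bd p) :
    ag Bd pos a p g ω = a ω * g (pos ω) := by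
  classical
  unfold ag
  rw [if_pos h]

lemma ag_congr (hB : Bnd Bd pos N ν) {a : Ω → ℂ} {p : Nd} {g g' : Fn}
    (h : ∀ y ∈ iv p, g y = g' y) : ag Bd pos a p g = ag Bd pos a p g' := by
  classical
  funext ω
  unfold ag
  split_ifs with hω
  · rw [h _ (hB.mem p ω hω)]
  · rfl

lemma Bd_ch0 (hB : Bnd Bd pos N ν) {m : ℕ} {l : ℤ} {ω : Ω} (h : ω ∈ Bd (m, 2 * l)) :
    ω ∈ Bd (m + 1, l) := (hB.sub m l ω).2 (Or.inl h)

lemma Bd_ch1 (hB : Bnd Bd pos N ν) {m : ℕ} {l : ℤ} {ω : Ω} (h : ω ∈ Bd (m, 2 * l + 1)) :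
    ω ∈ Bd (m + 1, l) := (hB.sub m l ω).2 (Or.inr h)

/-- the value against ANY admissible kernel -/
lemma Th_le (hB : Bnd Bd pos N ν) {a : Ω → ℂ} {r : ℝ} (hr : 0 ≤ r) {p : Nd} {g : Fn} {B : Ω → ℂ}
    (hBa : Adm Bd N r p B) :
    Th Bd pos N ν a r p g ≤ ν / len p * dst Bd p (ag Bd pos a p g) B :=
  mul_le_mul_of_nonneg_left ((Pj_spec hB hr p _).2 B hBa)
    (div_nonneg hB.nu.le (Growth.len_pos p).le)

/-- **the threshold penalty is admissible** -/
theorem pen_Th (hB : Bnd Bd pos N ν) (a : Ω → ℂ) {r : ℝ} (hr : 0 ≤ r) :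
    PenC 0 (fun _ _ => True) (Th Bd pos N ν a r) where
  nonneg p g := mul_nonneg (div_nonneg hB.nu.le (Growth.len_pos p).le) (dst_nonneg p _ _)
  loc p g g' h := by
    unfold Th
    rw [ag_congr hB h]
  mid p g g' := by
    have h1 := Th_le hB (a := a) hr (p := p) (g := fun y => (g y + g' y) / 2)
      (adm_mid hB (Pj_spec hB hr p (ag Bd pos a p g)).1 (Pj_spec hB hr p (ag Bd pos a p g')).1)
    have h2 := dst_par (Bd := Bd) p (ag Bd pos a p g) (ag Bd pos a p g')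
      (Pj Bd N r p (ag Bd pos a p g)) (Pj Bd N r p (ag Bd pos a p g'))
    have e1 : dst Bd p (ag Bd pos a p fun y => (g y + g' y) / 2)
        (fun ω => (Pj Bd N r p (ag Bd pos a p g) ω + Pj Bd N r p (ag Bd pos a p g') ω) / 2)
        = dst Bd p (fun ω => (ag Bd pos a p g ω + ag Bd pos a p g' ω) / 2)
        (fun ω => (Pj Bd N r p (ag Bd pos a p g) ω + Pj Bd N r p (ag Bd pos a p g') ω) / 2) :=
      dst_congr (fun ω hω => by rw [ag_eq hω, ag_eq hω, ag_eq hω]; ring) fun _ _ => rfl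
    rw [e1] at h1
    have h3 : 0 ≤ ∑ ω ∈ Bd p, ‖(ag Bd pos a p g ω - Pj Bd N r p (ag Bd pos a p g) ω)
      - (ag Bd pos a p g' ω - Pj Bd N r p (ag Bd pos a p g') ω)‖ ^ 2 :=
      Finset.sum_nonneg fun _ _ => sq_nonneg _
    have h4 : 0 ≤ ν / len p := div_nonneg hB.nu.le (Growth.len_pos p).le
    have h5 : dst Bd p (fun ω => (ag Bd pos a p g ω + ag Bd pos a p g' ω) / 2)
        (fun ω => (Pj Bd N r p (ag Bd pos a p g) ω + Pj Bd N r p (ag Bd pos a p g') ω) / 2)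
        ≤ (dst Bd p (ag Bd pos a p g) (Pj Bd N r p (ag Bd pos a p g))
          + dst Bd p (ag Bd pos a p g') (Pj Bd N r p (ag Bd pos a p g'))) / 2 := by linarith
    have h6 := h1.trans (mul_le_mul_of_nonneg_left h5 h4)
    refine h6.trans (le_of_eq ?_)
    unfold Th
    ring
  glue m l g := by
    have h0 := Pj_spec hB hr (m, 2 * l) (ag Bd pos a (m, 2 * l) g)
    have h1 := Pj_spec hB hr (m, 2 * l + 1) (ag Bd pos a (m, 2 * l + 1) g)
    have h2 := Th_le hB (a := a) hr (p := (m + 1, l)) (g := g) (adm_glue hB hr h0.1 h1.1)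
    rw [dst_ch hB] at h2
    have hd : ∀ ω, ω ∈ Bd (m, 2 * l) → ω ∉ Bd (m, 2 * l + 1) := fun ω h h' =>
      Finset.disjoint_left.1 (hB.dj m l) h h'
    have e0 : dst Bd (m, 2 * l) (ag Bd pos a (m + 1, l) g)
        (fun ω => Pj Bd N r (m, 2 * l) (ag Bd pos a (m, 2 * l) g) ω
          + Pj Bd N r (m, 2 * l + 1) (ag Bd pos a (m, 2 * l + 1) g) ω)
        = dst Bd (m, 2 * l) (ag Bd pos a (m, 2 * l) g)
          (Pj Bd N r (m, 2 * l) (ag Bd pos a (m, 2 * l) g)) :=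
      dst_congr (fun ω hω => by rw [ag_eq (Bd_ch0 hB hω), ag_eq hω])
        fun ω hω => by rw [h1.1.1 ω (hd ω hω), add_zero]
    have e1 : dst Bd (m, 2 * l + 1) (ag Bd pos a (m + 1, l) g)
        (fun ω => Pj Bd N r (m, 2 * l) (ag Bd pos a (m, 2 * l) g) ω
          + Pj Bd N r (m, 2 * l + 1) (ag Bd pos a (m, 2 * l + 1) g) ω)
        = dst Bd (m, 2 * l + 1) (ag Bd pos a (m, 2 * l + 1) g)
          (Pj Bd N r (m, 2 * l + 1) (ag Bd pos a (m, 2 * l + 1) g)) :=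
      dst_congr (fun ω hω => by rw [ag_eq (Bd_ch1 hB hω), ag_eq hω])
        fun ω hω => by rw [h0.1.1 ω (fun h => hd ω h hω), zero_add]
    rw [e0, e1] at h2
    refine h2.trans (le_of_eq ?_)
    have hl0 : len (m + 1, l) = 2 * len (m, 2 * l) := len_ch m l _
    have hl1 : len (m, 2 * l + 1) = len (m, 2 * l) := rfl
    have hpos := Growth.len_pos (m, 2 * l)
    unfold Th
    rw [hl0, hl1]
    field_simp
  zero p := by
    have h1 := Th_le hB (a := a) hr (p := p) (g := fun _ => 0) (adm_zero hB hr p)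
    refine h1.trans (le_of_eq ?_)
    have : dst Bd p (ag Bd pos a p fun _ => 0) (fun _ => 0) = 0 := by
      unfold dst
      refine Finset.sum_eq_zero fun ω hω => ?_
      rw [ag_eq hω]
      simp
    rw [this, mul_zero]
  Kloc _ _ _ _ _ := trivial
  Kmid _ _ _ _ _ := trivial
  Kglue _ _ _ _ _ := trivial
  Kzero _ := trivial


lemma fib_sum (hB : Bnd Bd pos N ν) (p : Nd) (F : ℤ → ℝ) (hF : ∀ y, 0 ≤ F y) :
    ν * ∑ ω ∈ Bd p, F (pos ω) ≤ ∑ y ∈ iv p, F y := by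
  classical
  rw [← Finset.sum_fiberwise_of_maps_to (g := pos) (t := iv p) (fun ω hω => hB.mem p ω hω),
    Finset.mul_sum]
  refine Finset.sum_le_sum fun y _ => ?_
  have e : ∑ ω ∈ (Bd p).filter (fun ω => pos ω = y), F (pos ω)
      = ((Bd p).filter (fun ω => pos ω = y)).card * F y := by
    rw [Finset.sum_congr rfl fun ω hω => by rw [(Finset.mem_filter.1 hω).2], Finset.sum_const,
      nsmul_eq_mul]
  rw [e, ← mul_assoc]
  have := mul_le_mul_of_nonneg_right (hB.fib p y) (hF y)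
  linarith

/-- **first variation** with constant `1` -/
theorem fv_Th (hB : Bnd Bd pos N ν) {a : Ω → ℂ} (ha : ∀ ω, ‖a ω‖ ≤ 1) {r : ℝ} (hr : 0 ≤ r)
    (p : Nd) (g h : Fn) :
    FV (Th Bd pos N ν a r) p g (Gr Bd pos N ν a r p g) 1 h := by
  classical
  unfold FV
  set P : Ω → ℂ := Pj Bd N r p (ag Bd pos a p g) with hP
  have hL := Growth.len_pos p
  have h1 := Th_le hB (a := a) hr (p := p) (g := fun y => g y + h y)
    (Pj_spec hB hr p (ag Bd pos a p g)).1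
  rw [← hP] at h1
  have h2 : dst Bd p (ag Bd pos a p fun y => g y + h y) P
      = dst Bd p (ag Bd pos a p g) P
        + 2 * ∑ ω ∈ Bd p, (starRingEnd ℂ (ag Bd pos a p g ω - P ω) * (a ω * h (pos ω))).re
        + ∑ ω ∈ Bd p, ‖a ω * h (pos ω)‖ ^ 2 := by
    unfold dst
    rw [Finset.mul_sum, ← Finset.sum_add_distrib, ← Finset.sum_add_distrib]
    refine Finset.sum_congr rfl fun ω hω => ?_
    have e1 : ag Bd pos a p (fun y => g y + h y) ω - P ω
        = (ag Bd pos a p g ω - P ω) + a ω * h (pos ω) := by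
      rw [ag_eq hω, ag_eq hω]
      ring
    rw [e1, ← Complex.normSq_eq_norm_sq, ← Complex.normSq_eq_norm_sq,
      ← Complex.normSq_eq_norm_sq]
    set u := ag Bd pos a p g ω - P ω
    set v := a ω * h (pos ω)
    simp only [Complex.normSq_apply, Complex.mul_re, Complex.conj_re,
      Complex.conj_im, Complex.add_re, Complex.add_im]
    ring
  have h3 : ν * ∑ ω ∈ Bd p, (starRingEnd ℂ (ag Bd pos a p g ω - P ω) * (a ω * h (pos ω))).re
      = ∑ y ∈ iv p, (starRingEnd ℂ (Gr Bd pos N ν a r p g y) * h y).re := by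
    rw [← Finset.sum_fiberwise_of_maps_to (g := pos) (t := iv p) (fun ω hω => hB.mem p ω hω),
      Finset.mul_sum]
    refine Finset.sum_congr rfl fun y _ => ?_
    unfold Gr
    rw [map_mul, Complex.conj_ofReal, mul_assoc, Complex.re_ofReal_mul, map_sum, Finset.sum_mul,
      Complex.re_sum]
    congr 1
    refine Finset.sum_congr rfl fun ω hω => ?_
    rw [map_mul, Complex.conj_conj, (Finset.mem_filter.1 hω).2, ← hP]
    congr 1
    ring
  have h4 : ν * ∑ ω ∈ Bd p, ‖a ω * h (pos ω)‖ ^ 2 ≤ len p * av p h ^ 2 := by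
    rw [← sum_av']
    refine le_trans (mul_le_mul_of_nonneg_left (Finset.sum_le_sum fun ω _ => ?_) hB.nu.le)
      (fib_sum hB p (fun y => ‖h y‖ ^ 2) fun y => sq_nonneg _)
    rw [norm_mul, mul_pow]
    have h5 : ‖a ω‖ ^ 2 ≤ 1 := pow_le_one₀ (norm_nonneg _) (ha ω)
    have h6 : 0 ≤ ‖h (pos ω)‖ ^ 2 := sq_nonneg _
    nlinarith
  have h7 : ν / len p * dst Bd p (ag Bd pos a p fun y => g y + h y) P
      = ν / len p * dst Bd p (ag Bd pos a p g) P
        + 2 * (∑ y ∈ iv p, (starRingEnd ℂ (Gr Bd pos N ν a r p g y) * h y).re) / len p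
        + (ν * ∑ ω ∈ Bd p, ‖a ω * h (pos ω)‖ ^ 2) / len p := by
    rw [h2, ← h3]
    field_simp
  have h8 : (ν * ∑ ω ∈ Bd p, ‖a ω * h (pos ω)‖ ^ 2) / len p ≤ 1 * av p h ^ 2 := by
    rw [div_le_iff₀ hL]
    linarith
  rw [h7] at h1
  have e9 : Th Bd pos N ν a r p g = ν / len p * dst Bd p (ag Bd pos a p g) P := rfl
  rw [e9]
  linarith

/-- glued exit projections below `p` -/
noncomputable def Bgl (Bd : Nd → Finset Ω) (pos : Ω → ℤ) (N : Nd → (Ω → ℂ) → ℝ) (a : Ω → ℂ) (r : ℝ)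
    (W : Finset Nd) (p : Nd) (g : Fn) : Ω → ℂ :=
  open Classical in
  fun ω => ∑ L ∈ (lf W).filter (fun L => iv L ⊆ iv p), Pj Bd N r L (ag Bd pos a L g) ω

lemma Bgl_leaf {a : Ω → ℂ} {r : ℝ} {W : Finset Nd} {p : Nd} (hp : p ∈ lf W) (g : Fn) :
    Bgl Bd pos N a r W p g = Pj Bd N r p (ag Bd pos a p g) := by
  classical
  funext ω
  unfold Bgl
  have : (lf W).filter (fun L => iv L ⊆ iv p) = {p} := by
    ext L
    rw [Finset.mem_filter, Finset.mem_singleton]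
    constructor
    · rintro ⟨h1, h2⟩
      exact (mem_lf.1 hp).2 L (mem_lf.1 h1).1 h2
    · rintro rfl
      exact ⟨hp, subset_rfl⟩
  rw [this, Finset.sum_singleton]

lemma Bgl_node {a : Ω → ℂ} {r : ℝ} {W : Finset Nd} {I : Nd} (hW : Full W I) {m : ℕ} {l : ℤ}
    (hnl : (m + 1, l) ∉ lf W) (h0 : (m, 2 * l) ∈ W) (h1 : (m, 2 * l + 1) ∈ W) (g : Fn) :
    Bgl Bd pos N a r W (m + 1, l) g = fun ω => Bgl Bd pos N a r W (m, 2 * l) g ω
      + Bgl Bd pos N a r W (m, 2 * l + 1) g ω := by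
  classical
  funext ω
  unfold Bgl
  rw [← Finset.sum_union]
  · refine Finset.sum_congr ?_ fun _ _ => rfl
    ext L
    simp only [Finset.mem_union, Finset.mem_filter]
    constructor
    · rintro ⟨hL, hs⟩
      obtain ⟨y, hy⟩ := iv_nonempty L
      have hyp := hs hy
      rw [iv_ch, Finset.mem_union] at hyp
      rcases hyp with h | h
      · exact Or.inl ⟨hL, leaf_below hW hL h0 hy h⟩
      · exact Or.inr ⟨hL, leaf_below hW hL h1 hy h⟩
    · rintro (⟨hL, hs⟩ | ⟨hL, hs⟩)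
      · exact ⟨hL, hs.trans (sub_ch0 m l)⟩
      · exact ⟨hL, hs.trans (sub_ch1 m l)⟩
  · rw [Finset.disjoint_left]
    intro L hL hL'
    rw [Finset.mem_filter] at hL hL'
    obtain ⟨y, hy⟩ := iv_nonempty L
    exact Finset.disjoint_left.1 (disj_ch m l) (hL.2 hy) (hL'.2 hy)

/-- the glued exit projections are admissible at every node -/
theorem Bgl_adm (hB : Bnd Bd pos N ν) (a : Ω → ℂ) {r : ℝ} (hr : 0 ≤ r) {W : Finset Nd} {I : Nd}
    (hW : Full W I) (g : Fn) : ∀ p ∈ W, Adm Bd N r p (Bgl Bd pos N a r W p g) := by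
  refine full_ind hW (fun p hp => ?_) fun m l _ hnl h0 h1 e0 e1 => ?_
  · rw [Bgl_leaf hp]
    exact (Pj_spec hB hr p _).1
  · rw [Bgl_node hW hnl h0 h1]
    exact adm_glue hB hr e0 e1

/-- distance to the glued exit projections -/
theorem Bgl_dst (hB : Bnd Bd pos N ν) (a : Ω → ℂ) {r : ℝ} (hr : 0 ≤ r) {W : Finset Nd} {I : Nd}
    (hW : Full W I) (g : Fn) : ∀ p ∈ W,
      ν * dst Bd p (ag Bd pos a p g) (Bgl Bd pos N a r W p g)
        = SL W p (fun L => Th Bd pos N ν a r L g) := by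
  refine full_ind hW (fun p hp => ?_) fun m l _ hnl h0 h1 e0 e1 => ?_
  · rw [Bgl_leaf hp, SL_leaf hp]
    have hL := Growth.len_pos p
    unfold Th
    field_simp
  · have ha0 := Bgl_adm hB a hr hW g _ h0
    have ha1 := Bgl_adm hB a hr hW g _ h1
    have hd : ∀ ω, ω ∈ Bd (m, 2 * l) → ω ∉ Bd (m, 2 * l + 1) := fun ω h h' =>
      Finset.disjoint_left.1 (hB.dj m l) h h'
    rw [SL_node hW hnl h0 h1, ← e0, ← e1, Bgl_node hW hnl h0 h1, dst_ch hB, mul_add]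
    congr 1
    · congr 1
      exact dst_congr (fun ω hω => by rw [ag_eq (Bd_ch0 hB hω), ag_eq hω])
        fun ω hω => by rw [ha1.1 ω (hd ω hω), add_zero]
    · congr 1
      exact dst_congr (fun ω hω => by rw [ag_eq (Bd_ch1 hB hω), ag_eq hω])
        fun ω hω => by rw [ha0.1 ω (fun h => hd ω h hω), zero_add]

/-- **glued thresholds**: the increments control the distance of the projection at `p` to the
glued exit projections -/
theorem glued_close (hB : Bnd Bd pos N ν) (a : Ω → ℂ) {r : ℝ} (hr : 0 ≤ r) {W : Finset Nd}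
    {I : Nd} (hW : Full W I) (g : Fn) {p : Nd} (hp : p ∈ W) :
    ν / 2 * dst Bd p (Pj Bd N r p (ag Bd pos a p g)) (Bgl Bd pos N a r W p g)
      ≤ SN W p (Inc fun q => Th Bd pos N ν a r q g) := by
  have h1 := Pj_close hB hr p (ag Bd pos a p g) (Bgl_adm hB a hr hW g p hp)
  have h2 := Bgl_dst hB a hr hW g p hp
  rw [SN_Inc hW _ p hp, ← h2]
  have h3 := mul_le_mul_of_nonneg_left h1 hB.nu.le
  have h4 : len p * Th Bd pos N ν a r p g
      = ν * dst Bd p (ag Bd pos a p g) (Pj Bd N r p (ag Bd pos a p g)) := by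
    have hL := Growth.len_pos p
    unfold Th
    field_simp
  rw [h4]
  linarith

end basic

/-! ### finite families -/

section family

variable {ι : Type*} [Fintype ι]

/-- weighted sum of penalties -/
noncomputable def Sg (κ : ι → ℝ) (Φ : ι → Nd → Fn → ℝ) (p : Nd) (g : Fn) : ℝ :=
  ∑ i, κ i * Φ i p g

/-- weighted sum of half gradients -/
noncomputable def SgG (κ : ι → ℝ) (Ψ : ι → Nd → Fn → Fn) (p : Nd) (g : Fn) : Fn :=
  fun y => ∑ i, (κ i : ℂ) * Ψ i p g y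

theorem pen_sum {c : ι → ℝ} {κ : ι → ℝ} (hκ : ∀ i, 0 ≤ κ i) {Φ : ι → Nd → Fn → ℝ}
    (hP : ∀ i, PenC (c i) (fun _ _ => True) (Φ i)) :
    PenC (∑ i, κ i * c i) (fun _ _ => True) (Sg κ Φ) where
  nonneg p g := Finset.sum_nonneg fun i _ => mul_nonneg (hκ i) ((hP i).nonneg p g)
  loc p g g' h := Finset.sum_congr rfl fun i _ => by rw [(hP i).loc p g g' h]
  mid p g g' := by
    unfold Sg
    rw [← Finset.sum_add_distrib, Finset.sum_div]
    refine Finset.sum_le_sum fun i _ => ?_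
    have := mul_le_mul_of_nonneg_left ((hP i).mid p g g') (hκ i)
    linarith
  glue m l g := by
    unfold Sg
    rw [← Finset.sum_add_distrib, Finset.sum_div]
    refine Finset.sum_le_sum fun i _ => ?_
    have := mul_le_mul_of_nonneg_left ((hP i).glue m l g) (hκ i)
    linarith
  zero p := Finset.sum_le_sum fun i _ => mul_le_mul_of_nonneg_left ((hP i).zero p) (hκ i)
  Kloc _ _ _ _ _ := trivial
  Kmid _ _ _ _ _ := trivial
  Kglue _ _ _ _ _ := trivial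
  Kzero _ := trivial

theorem fv_sum {κ : ι → ℝ} (hκ : ∀ i, 0 ≤ κ i) {Φ : ι → Nd → Fn → ℝ} {Ψ : ι → Nd → Fn → Fn}
    {M : ι → ℝ} {p : Nd} {g h : Fn} (hF : ∀ i, FV (Φ i) p g (Ψ i p g) (M i) h) :
    FV (Sg κ Φ) p g (SgG κ Ψ p g) (∑ i, κ i * M i) h := by
  unfold FV
  have h1 : ∑ y ∈ iv p, (starRingEnd ℂ (SgG κ Ψ p g y) * h y).re
      = ∑ i, κ i * ∑ y ∈ iv p, (starRingEnd ℂ (Ψ i p g y) * h y).re := by
    simp only [Finset.mul_sum]
    rw [Finset.sum_comm]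
    refine Finset.sum_congr rfl fun y _ => ?_
    unfold SgG
    rw [map_sum, Finset.sum_mul, Complex.re_sum]
    refine Finset.sum_congr rfl fun i _ => ?_
    rw [map_mul, Complex.conj_ofReal, mul_assoc, Complex.re_ofReal_mul]
  have h2 : Sg κ Φ p (fun y => g y + h y) ≤ ∑ i, κ i * (Φ i p g
      + 2 * (∑ y ∈ iv p, (starRingEnd ℂ (Ψ i p g y) * h y).re) / len p
      + M i * av p h ^ 2) :=
    Finset.sum_le_sum fun i _ => mul_le_mul_of_nonneg_left (hF i) (hκ i)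
  refine h2.trans (le_of_eq ?_)
  rw [h1]
  unfold Sg
  rw [Finset.sum_mul, Finset.mul_sum, Finset.sum_div, ← Finset.sum_add_distrib,
    ← Finset.sum_add_distrib]
  refine Finset.sum_congr rfl fun i _ => ?_
  ring

lemma SN_Sg {W : Finset Nd} {I : Nd} (hW : Full W I) (κ : ι → ℝ) (Φ : ι → Nd → Fn → ℝ) (g : Fn)
    {p : Nd} (hp : p ∈ W) :
    SN W p (Inc fun q => Sg κ Φ q g) = ∑ i, κ i * SN W p (Inc fun q => Φ i q g) := by
  rw [SN_Inc hW _ p hp]
  have h1 : SL W p (fun q => Sg κ Φ q g) = ∑ i, κ i * SL W p (fun q => Φ i q g) := by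
    unfold Sg
    rw [SL_sum]
    exact Finset.sum_congr rfl fun i _ => SL_smul W p (κ i) _
  rw [h1]
  unfold Sg
  rw [Finset.mul_sum, ← Finset.sum_sub_distrib]
  refine Finset.sum_congr rfl fun i _ => ?_
  rw [SN_Inc hW _ p hp]
  ring

variable {Ω : ι → Type*} {Bd : ∀ i, Nd → Finset (Ω i)} {pos : ∀ i, Ω i → ℤ}
  {N : ∀ i, Nd → (Ω i → ℂ) → ℝ} {ν : ι → ℝ} {a : ∀ i, Ω i → ℂ} {r : ι → ℝ} {κ : ι → ℝ}
  {X : Fn} {η : ℝ} {f : Nd → Fn}

/-- the threshold penalties of a finite family of gauges and thresholds -/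
noncomputable def ThF (Bd : ∀ i, Nd → Finset (Ω i)) (pos : ∀ i, Ω i → ℤ)
    (N : ∀ i, Nd → (Ω i → ℂ) → ℝ) (ν : ι → ℝ) (a : ∀ i, Ω i → ℂ) (r : ι → ℝ) (κ : ι → ℝ) :
    Nd → Fn → ℝ := Sg κ fun i => Th (Bd i) (pos i) (N i) (ν i) (a i) (r i)

/-- its half gradient -/
noncomputable def GrF (Bd : ∀ i, Nd → Finset (Ω i)) (pos : ∀ i, Ω i → ℤ)
    (N : ∀ i, Nd → (Ω i → ℂ) → ℝ) (ν : ι → ℝ) (a : ∀ i, Ω i → ℂ) (r : ι → ℝ) (κ : ι → ℝ) :
    Nd → Fn → Fn := SgG κ fun i => Gr (Bd i) (pos i) (N i) (ν i) (a i) (r i)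

theorem pen_ThF (hB : ∀ i, Bnd (Bd i) (pos i) (N i) (ν i)) (hr : ∀ i, 0 ≤ r i)
    (hκ : ∀ i, 0 ≤ κ i) : PenC 0 (fun _ _ => True) (ThF Bd pos N ν a r κ) := by
  have := pen_sum (c := fun _ => 0) hκ
    (fun i => pen_Th (hB i) (a i) (hr i))
  unfold ThF
  simpa using this

theorem fv_ThF (hB : ∀ i, Bnd (Bd i) (pos i) (N i) (ν i)) (ha : ∀ i ω, ‖a i ω‖ ≤ 1)
    (hr : ∀ i, 0 ≤ r i) (hκ : ∀ i, 0 ≤ κ i) (p : Nd) (g h : Fn) :
    FV (ThF Bd pos N ν a r κ) p g (GrF Bd pos N ν a r κ p g) (∑ i, κ i) h := by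
  have := fv_sum (M := fun _ => 1) (κ := κ) hκ (p := p) (g := g) (h := h)
    (fun i => fv_Th (hB i) (ha i) (hr i) p g h)
  simpa [ThF, GrF] using this

/-- **glued thresholds, all gauges and thresholds, at every node of a window** -/
theorem thr_win (hB : ∀ i, Bnd (Bd i) (pos i) (N i) (ν i)) (hr : ∀ i, 0 ≤ r i)
    (hκ : ∀ i, 0 ≤ κ i) (h : NMP (fun _ _ => True) (ThF Bd pos N ν a r κ) X η f)
    {W : Finset Nd} {I : Nd} (hW : Full W I) {δ : ℝ}
    (hG : GdP (ThF Bd pos N ν a r κ) X η f δ W I) {p : Nd} (hp : p ∈ W) :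
    ∑ i, κ i * (ν i / 2 * dst (Bd i) p
      (Pj (Bd i) (N i) (r i) p (ag (Bd i) (pos i) (a i) p (gl W f)))
      (Bgl (Bd i) (pos i) (N i) (a i) (r i) W p (gl W f))) ≤ len p * (δ + η) := by
  have hP := pen_ThF (a := a) (κ := κ) hB hr hκ
  have h1 := incr_le hP h hW hp
  have h2 := drift_P hP h hW hG hp
  have h3 : SN W p (Inc fun q => ThF Bd pos N ν a r κ q (gl W f)) ≤ len p * (δ + η) := by
    linarith
  unfold ThF at h3
  rw [SN_Sg hW κ _ _ hp] at h3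
  refine le_trans (Finset.sum_le_sum fun i _ => ?_) h3
  exact mul_le_mul_of_nonneg_left (glued_close (hB i) (a i) (hr i) hW (gl W f) hp) (hκ i)

/-- the part above the threshold is small in `ℓ²` at every node of a window -/
theorem over_win (hB : ∀ i, Bnd (Bd i) (pos i) (N i) (ν i)) (hr : ∀ i, 0 ≤ r i)
    (hκ : ∀ i, 0 ≤ κ i) (h : NMP (fun _ _ => True) (ThF Bd pos N ν a r κ) X η f)
    {W : Finset Nd} {I : Nd} (hW : Full W I) {δ : ℝ}
    (hG : GdP (ThF Bd pos N ν a r κ) X η f δ W I) {p : Nd} (hp : p ∈ W) (i : ι) :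
    κ i * Th (Bd i) (pos i) (N i) (ν i) (a i) (r i) p (gl W f) ≤ av p X ^ 2 + δ + η := by
  have hP := pen_ThF (a := a) (κ := κ) hB hr hκ
  have h1 := vl_gl_le hP h hW hG hp
  have h2 := Jv_le hP h p
  have h3 : κ i * Th (Bd i) (pos i) (N i) (ν i) (a i) (r i) p (gl W f)
      ≤ ThF Bd pos N ν a r κ p (gl W f) :=
    Finset.single_le_sum (f := fun i => κ i * Th (Bd i) (pos i) (N i) (ν i) (a i) (r i) p
      (gl W f)) (fun i _ => mul_nonneg (hκ i) ((pen_Th (hB i) (a i) (hr i)).nonneg p _))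
      (Finset.mem_univ i)
  unfold vl at h1
  have h4 := sq_nonneg (av p fun y => X y - gl W f y)
  linarith

end family

end Crest.Agent.R079.ThA159
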