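import Crest.Agent.R079.ThA_159

/-! R079 (helper159): helper653's ThQ_653 (strong form of the minimality of the threshold
functional, 59's 28031 (2)) over a node-dependent gauge (ThA_159). The proofs are those of ThQ_653. -/

set_option autoImplicit false

namespace Crest.Agent.R079.ThB159

open Finset Crest.Agent.R079.Grid Crest.Agent.R079.Growth Crest.Agent.R079.QRed
  Crest.Agent.R079.Qh249 Crest.Agent.R079.QVar181 Crest.Agent.R079.TWin
open Crest.Agent.R079.RelW653 (vl NMP Jv Dv av_par sum_av' lf_sum_eq')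
open Crest.Agent.R079.RelV653 Crest.Agent.R079.ThA159

section one

variable {Ω : Type*} {Bd : Nd → Finset Ω} {pos : Ω → ℤ} {N : Nd → (Ω → ℂ) → ℝ} {ν : ℝ}

/-- the part above the threshold -/
noncomputable def Rs (Bd : Nd → Finset Ω) (pos : Ω → ℤ) (N : Nd → (Ω → ℂ) → ℝ) (a : Ω → ℂ) (r : ℝ)
    (p : Nd) (g : Fn) : Ω → ℂ :=
  fun ω => ag Bd pos a p g ω - Pj Bd N r p (ag Bd pos a p g) ω

/-- strong midpoint convexity of the threshold penalty -/
theorem Th_mid (hB : Bnd Bd pos N ν) (a : Ω → ℂ) {r : ℝ} (hr : 0 ≤ r) (p : Nd) (g g' : Fn) :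
    Th Bd pos N ν a r p (fun y => (g y + g' y) / 2)
      + (1 / 4) * (ν / len p * dst Bd p (Rs Bd pos N a r p g) (Rs Bd pos N a r p g'))
      ≤ (Th Bd pos N ν a r p g + Th Bd pos N ν a r p g') / 2 := by
  have h1 := Th_le hB (a := a) hr (p := p) (g := fun y => (g y + g' y) / 2)
    (adm_mid hB (Pj_spec hB hr p (ag Bd pos a p g)).1 (Pj_spec hB hr p (ag Bd pos a p g')).1)
  have h2 := dst_par (Bd := Bd) p (ag Bd pos a p g) (ag Bd pos a p g')
    (Pj Bd N r p (ag Bd pos a p g)) (Pj Bd N r p (ag Bd pos a p g'))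
  have e1 : dst Bd p (ag Bd pos a p fun y => (g y + g' y) / 2)
      (fun ω => (Pj Bd N r p (ag Bd pos a p g) ω + Pj Bd N r p (ag Bd pos a p g') ω) / 2)
      = dst Bd p (fun ω => (ag Bd pos a p g ω + ag Bd pos a p g' ω) / 2)
      (fun ω => (Pj Bd N r p (ag Bd pos a p g) ω + Pj Bd N r p (ag Bd pos a p g') ω) / 2) :=
    dst_congr (fun ω hω => by rw [ag_eq hω, ag_eq hω, ag_eq hω]; ring) fun _ _ => rfl
  rw [e1] at h1
  have h4 : 0 ≤ ν / len p := div_nonneg hB.nu.le (Growth.len_pos p).le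
  have e2 : ∑ ω ∈ Bd p, ‖(ag Bd pos a p g ω - Pj Bd N r p (ag Bd pos a p g) ω)
      - (ag Bd pos a p g' ω - Pj Bd N r p (ag Bd pos a p g') ω)‖ ^ 2
      = dst Bd p (Rs Bd pos N a r p g) (Rs Bd pos N a r p g') := rfl
  rw [e2] at h2
  have h5 := congrArg (fun x => ν / len p * x) h2
  unfold Th
  unfold Th at h1
  nlinarith [h1, h5]

end one

section family

variable {ι : Type*} [Fintype ι] {Ω : ι → Type*} {Bd : ∀ i, Nd → Finset (Ω i)}
  {pos : ∀ i, Ω i → ℤ} {N : ∀ i, Nd → (Ω i → ℂ) → ℝ} {ν : ι → ℝ} {a : ∀ i, Ω i → ℂ} {r : ι → ℝ}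
  {κ : ι → ℝ} {X : Fn} {η : ℝ} {f : Nd → Fn}

/-- own minimiser against any competitor, with the parts above the thresholds -/
theorem cmp_strong (hB : ∀ i, Bnd (Bd i) (pos i) (N i) (ν i)) (hr : ∀ i, 0 ≤ r i)
    (hκ : ∀ i, 0 ≤ κ i) (h : NMP (fun _ _ => True) (ThF Bd pos N ν a r κ) X η f) (p : Nd)
    (g : Fn) :
    (1 / 2) * av p (fun y => f p y - g y) ^ 2
      + (1 / 2) * ∑ i, κ i * (ν i / len p * dst (Bd i) p
        (Rs (Bd i) (pos i) (N i) (a i) (r i) p (f p)) (Rs (Bd i) (pos i) (N i) (a i) (r i) p g))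
      ≤ vl (ThF Bd pos N ν a r κ) X p g - Jv (ThF Bd pos N ν a r κ) X f p + 2 * η := by
  have h1 := h.le p (fun y => (f p y + g y) / 2) trivial
  have h2 := av_par p X (f p) g
  have h3 : ThF Bd pos N ν a r κ p (fun y => (f p y + g y) / 2)
      + (1 / 4) * ∑ i, κ i * (ν i / len p * dst (Bd i) p
        (Rs (Bd i) (pos i) (N i) (a i) (r i) p (f p)) (Rs (Bd i) (pos i) (N i) (a i) (r i) p g))
      ≤ (ThF Bd pos N ν a r κ p (f p) + ThF Bd pos N ν a r κ p g) / 2 := by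
    unfold ThF Sg
    rw [Finset.mul_sum, ← Finset.sum_add_distrib, ← Finset.sum_add_distrib, Finset.sum_div]
    refine Finset.sum_le_sum fun i _ => ?_
    have := mul_le_mul_of_nonneg_left (Th_mid (hB i) (a i) (hr i) p (f p) g) (hκ i)
    nlinarith [this]
  unfold Jv
  unfold vl at h1 ⊢
  linarith

/-- **28031 (2): STRONG FORM at every node of a window** -/
theorem strong_win (hB : ∀ i, Bnd (Bd i) (pos i) (N i) (ν i)) (hr : ∀ i, 0 ≤ r i)
    (hκ : ∀ i, 0 ≤ κ i) (h : NMP (fun _ _ => True) (ThF Bd pos N ν a r κ) X η f)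
    {W : Finset Nd} {I : Nd} (hW : Full W I) {p : Nd} (hp : p ∈ W) :
    len p * ((1 / 2) * av p (fun y => f p y - gl W f y) ^ 2)
      + (1 / 2) * ∑ i, κ i * (ν i * dst (Bd i) p
        (Rs (Bd i) (pos i) (N i) (a i) (r i) p (f p))
        (Rs (Bd i) (pos i) (N i) (a i) (r i) p (gl W f)))
      + ∑ i, κ i * (ν i / 2 * dst (Bd i) p
        (Pj (Bd i) (N i) (r i) p (ag (Bd i) (pos i) (a i) p (gl W f)))
        (Bgl (Bd i) (pos i) (N i) (a i) (r i) W p (gl W f)))
      ≤ SL W p (Jv (ThF Bd pos N ν a r κ) X f) - len p * Jv (ThF Bd pos N ν a r κ) X f p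
        + len p * (2 * η) := by
  have hP := pen_ThF (a := a) (κ := κ) hB hr hκ
  have hL := Growth.len_pos p
  have h1 := mul_le_mul_of_nonneg_left (cmp_strong hB hr hκ h p (gl W f)) hL.le
  -- the value of the glued function
  have h2 : SL W p (fun q => vl (ThF Bd pos N ν a r κ) X q (gl W f))
      = SL W p (Jv (ThF Bd pos N ν a r κ) X f) :=
    SL_congr fun L hL _ => (vl_loc hP L fun y hy => (gl_eq hW f hL hy).symm).symm
  have h3 : SL W p (fun q => vl (ThF Bd pos N ν a r κ) X q (gl W f))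
      = SL W p (fun q => av q (fun y => X y - gl W f y) ^ 2)
        + SL W p (fun q => ThF Bd pos N ν a r κ q (gl W f)) :=
    SL_add W p _ _
  rw [SL_av hW (fun y => X y - gl W f y) p hp] at h3
  have h4 : vl (ThF Bd pos N ν a r κ) X p (gl W f)
      = av p (fun y => X y - gl W f y) ^ 2 + ThF Bd pos N ν a r κ p (gl W f) := rfl
  have h5 : ∑ i, κ i * (ν i / 2 * dst (Bd i) p
      (Pj (Bd i) (N i) (r i) p (ag (Bd i) (pos i) (a i) p (gl W f)))
      (Bgl (Bd i) (pos i) (N i) (a i) (r i) W p (gl W f)))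
      ≤ SN W p (Inc fun q => ThF Bd pos N ν a r κ q (gl W f)) := by
    unfold ThF
    rw [SN_Sg hW κ _ _ hp]
    exact Finset.sum_le_sum fun i _ =>
      mul_le_mul_of_nonneg_left (glued_close (hB i) (a i) (hr i) hW (gl W f) hp) (hκ i)
  rw [SN_Inc hW _ p hp] at h5
  have h6 : len p * ((1 / 2) * ∑ i, κ i * (ν i / len p * dst (Bd i) p
        (Rs (Bd i) (pos i) (N i) (a i) (r i) p (f p))
        (Rs (Bd i) (pos i) (N i) (a i) (r i) p (gl W f))))
      = (1 / 2) * ∑ i, κ i * (ν i * dst (Bd i) p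
        (Rs (Bd i) (pos i) (N i) (a i) (r i) p (f p))
        (Rs (Bd i) (pos i) (N i) (a i) (r i) p (gl W f))) := by
    rw [Finset.mul_sum, Finset.mul_sum, Finset.mul_sum]
    refine Finset.sum_congr rfl fun i _ => ?_
    field_simp
  rw [mul_add, h6] at h1
  rw [h4] at h1
  nlinarith [h1, h2, h3, h5]

end family

end Crest.Agent.R079.ThB159
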