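import Crest.Agent.R079.GlueDefs_569

/-! R079, STEP II of doc 2531 in the LINE model (helper230): a line atom is EXACTLY a mixture of the
translates of its unprojected kernel along the plane lattice `{s : cf·s = 0}`; the pointwise price of
the translates is the price of the atom. -/

set_option autoImplicit false

namespace Crest.Agent.R079.Tr230

open Finset Crest.Agent.R079.Grid Crest.Agent.R079.Glue

/-- the linear form of slot `j` -/
def cfz (j : Fin 4) (z : ℤ × ℤ × ℤ) : ℤ := cf j 0 * z.1 + cf j 1 * z.2.1 + cf j 2 * z.2.2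

/-- kernel restricted to `T × T'` -/
noncomputable def kT (T T' : Finset ℤ) (a : ℤ → ℤ → ℂ) (z z' : ℤ) : ℂ :=
  if z ∈ T ∧ z' ∈ T' then a z z' else 0

lemma cf_ne (j : Fin 4) (i : Fin 3) : cf j i ≠ 0 := by
  fin_cases j <;> fin_cases i <;> simp [cf, sl, Fin.succAbove]

lemma cfz_add (j : Fin 4) (z s : ℤ × ℤ × ℤ) : cfz j (z + s) = cfz j z + cfz j s := by
  simp only [cfz, Prod.fst_add, Prod.snd_add]; ring

lemma cfz_sub (j : Fin 4) (z s : ℤ × ℤ × ℤ) : cfz j (z - s) = cfz j z - cfz j s := by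
  simp only [cfz, Prod.fst_sub, Prod.snd_sub]; ring

lemma atom_eq (j : Fin 4) (κ : ℝ) (T : Fin 3 → Finset ℤ) (a b c : ℤ → ℤ → ℂ) (y : ℤ) :
    atom j κ T a b c y = (κ : ℂ) * ∑ z ∈ T 0 ×ˢ T 1 ×ˢ T 2,
      if cfz j z = y then kT (T 0) (T 1) a z.1 z.2.1 * kT (T 1) (T 2) b z.2.1 z.2.2 *
        kT (T 2) (T 0) c z.2.2 z.1 else 0 := by
  unfold atom
  congr 1
  rw [Finset.sum_product]
  refine Finset.sum_congr rfl fun z0 h0 => ?_
  rw [Finset.sum_product]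
  refine Finset.sum_congr rfl fun z1 h1 => ?_
  refine Finset.sum_congr rfl fun z2 h2 => ?_
  simp only [cfz, kT, h0, h1, h2, and_self, if_true]

/-- the translates which meet `Z` -/
def Sh (j : Fin 4) (T : Fin 3 → Finset ℤ) (Z : Finset (ℤ × ℤ × ℤ)) : Finset (ℤ × ℤ × ℤ) :=
  (((T 0 ×ˢ T 1 ×ˢ T 2) ×ˢ Z).image (fun q => q.1 - q.2)).filter (fun s => cfz j s = 0)

lemma Sh_plane {j : Fin 4} {T : Fin 3 → Finset ℤ} {Z : Finset (ℤ × ℤ × ℤ)} {s : ℤ × ℤ × ℤ}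
    (h : s ∈ Sh j T Z) : cfz j s = 0 := (Finset.mem_filter.1 h).2

/-- **a line atom is the mixture of its translates** (every finite `S` with all the translates) -/
theorem atom_translates (j : Fin 4) (κ : ℝ) (T : Fin 3 → Finset ℤ) (a b c : ℤ → ℤ → ℂ)
    (Z S : Finset (ℤ × ℤ × ℤ)) (hS : Sh j T Z ⊆ S) (hS0 : ∀ s ∈ S, cfz j s = 0)
    {z : ℤ × ℤ × ℤ} (hz : z ∈ Z) :
    atom j κ T a b c (cfz j z) = (κ : ℂ) * ∑ s ∈ S,
      kT (T 0) (T 1) a (z.1 + s.1) (z.2.1 + s.2.1) *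
      kT (T 1) (T 2) b (z.2.1 + s.2.1) (z.2.2 + s.2.2) *
      kT (T 2) (T 0) c (z.2.2 + s.2.2) (z.1 + s.1) := by
  rw [atom_eq]
  congr 1
  rw [← Finset.sum_filter]
  have h1 : ∑ s ∈ S, kT (T 0) (T 1) a (z.1 + s.1) (z.2.1 + s.2.1) *
      kT (T 1) (T 2) b (z.2.1 + s.2.1) (z.2.2 + s.2.2) *
      kT (T 2) (T 0) c (z.2.2 + s.2.2) (z.1 + s.1) =
      ∑ s ∈ S.filter (fun s => z + s ∈ T 0 ×ˢ T 1 ×ˢ T 2),
      kT (T 0) (T 1) a (z.1 + s.1) (z.2.1 + s.2.1) *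
      kT (T 1) (T 2) b (z.2.1 + s.2.1) (z.2.2 + s.2.2) *
      kT (T 2) (T 0) c (z.2.2 + s.2.2) (z.1 + s.1) := by
    symm
    refine Finset.sum_subset (Finset.filter_subset _ _) fun s hs hs' => ?_
    have hn : ¬ (z.1 + s.1 ∈ T 0 ∧ z.2.1 + s.2.1 ∈ T 1 ∧ z.2.2 + s.2.2 ∈ T 2) := by
      intro h
      apply hs'
      rw [Finset.mem_filter]
      refine ⟨hs, ?_⟩
      simp only [Finset.mem_product, Prod.fst_add, Prod.snd_add]
      exact h
    by_cases h01 : z.1 + s.1 ∈ T 0 ∧ z.2.1 + s.2.1 ∈ T 1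
    · have h2 : z.2.2 + s.2.2 ∉ T 2 := fun h => hn ⟨h01.1, h01.2, h⟩
      simp [kT, h2]
    · simp [kT, h01]
  rw [h1]
  refine Finset.sum_bij' (fun w _ => w - z) (fun s _ => z + s) ?_ ?_ ?_ ?_ ?_
  · intro w hw
    rw [Finset.mem_filter] at hw
    have hc : cfz j (w - z) = 0 := by rw [cfz_sub, hw.2, sub_self]
    rw [Finset.mem_filter]
    refine ⟨hS ?_, ?_⟩
    · unfold Sh
      rw [Finset.mem_filter]
      refine ⟨Finset.mem_image.2 ⟨(w, z), Finset.mem_product.2 ⟨hw.1, hz⟩, rfl⟩, hc⟩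
    · have : z + (w - z) = w := by abel
      rw [this]; exact hw.1
  · intro s hs
    rw [Finset.mem_filter] at hs ⊢
    refine ⟨hs.2, ?_⟩
    rw [cfz_add, hS0 s hs.1, add_zero]
  · intro w _
    show z + (w - z) = w
    abel
  · intro s _
    show z + s - z = s
    abel
  · intro w _
    have e : z + (w - z) = w := by abel
    have e0 : z.1 + (w - z).1 = w.1 := by simp
    have e1 : z.2.1 + (w - z).2.1 = w.2.1 := by simp
    have e2 : z.2.2 + (w - z).2.2 = w.2.2 := by simp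
    rw [e0, e1, e2]

/-- two coordinates of a plane vector determine it -/
lemma inj01 {j : Fin 4} {s s' : ℤ × ℤ × ℤ} (h : cfz j s = 0) (h' : cfz j s' = 0)
    (h0 : s.1 = s'.1) (h1 : s.2.1 = s'.2.1) : s = s' := by
  have h2 : s.2.2 = s'.2.2 := by
    have e : cf j 2 * s.2.2 = cf j 2 * s'.2.2 := by
      simp only [cfz] at h h'
      rw [h0, h1] at h
      linarith
    exact mul_left_cancel₀ (cf_ne j 2) e
  ext
  · exact h0
  · exact h1
  · exact h2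

lemma inj12 {j : Fin 4} {s s' : ℤ × ℤ × ℤ} (h : cfz j s = 0) (h' : cfz j s' = 0)
    (h1 : s.2.1 = s'.2.1) (h2 : s.2.2 = s'.2.2) : s = s' := by
  have h0 : s.1 = s'.1 := by
    have e : cf j 0 * s.1 = cf j 0 * s'.1 := by
      simp only [cfz] at h h'
      rw [h1, h2] at h
      linarith
    exact mul_left_cancel₀ (cf_ne j 0) e
  ext
  · exact h0
  · exact h1
  · exact h2

lemma inj20 {j : Fin 4} {s s' : ℤ × ℤ × ℤ} (h : cfz j s = 0) (h' : cfz j s' = 0)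
    (h2 : s.2.2 = s'.2.2) (h0 : s.1 = s'.1) : s = s' := by
  have h1 : s.2.1 = s'.2.1 := by
    have e : cf j 1 * s.2.1 = cf j 1 * s'.2.1 := by
      simp only [cfz] at h h'
      rw [h2, h0] at h
      linarith
    exact mul_left_cancel₀ (cf_ne j 1) e
  ext
  · exact h0
  · exact h1
  · exact h2

/-- pointwise price, general form: the sum over the translates at one point is at most the sum over the
whole support -/
theorem sum_shift_le {S : Finset (ℤ × ℤ × ℤ)} (u v : ℤ × ℤ × ℤ → ℤ)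
    (hinj : ∀ s ∈ S, ∀ s' ∈ S, u s = u s' → v s = v s' → s = s') (T T' : Finset ℤ)
    (f : ℤ → ℤ → ℝ) (hf : ∀ x ∈ T, ∀ x' ∈ T', 0 ≤ f x x') (z z' : ℤ) :
    ∑ s ∈ S, (if z + u s ∈ T ∧ z' + v s ∈ T' then f (z + u s) (z' + v s) else 0) ≤
      ∑ x ∈ T, ∑ x' ∈ T', f x x' := by
  rw [← Finset.sum_filter, ← Finset.sum_product' T T' f]
  have h1 : ∑ s ∈ S.filter (fun s => z + u s ∈ T ∧ z' + v s ∈ T'), f (z + u s) (z' + v s) =
      ∑ q ∈ (S.filter (fun s => z + u s ∈ T ∧ z' + v s ∈ T')).image (fun s => (z + u s, z' + v s)),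
        f q.1 q.2 := by
    rw [Finset.sum_image]
    intro s hs s' hs' he
    have hs := (Finset.mem_filter.1 (Finset.mem_coe.1 hs)).1
    have hs' := (Finset.mem_filter.1 (Finset.mem_coe.1 hs')).1
    simp only [Prod.mk.injEq] at he
    exact hinj s hs s' hs' (by linarith [he.1]) (by linarith [he.2])
  rw [h1]
  refine Finset.sum_le_sum_of_subset_of_nonneg ?_ ?_
  · intro q hq
    obtain ⟨s, hs, rfl⟩ := Finset.mem_image.1 hq
    exact Finset.mem_product.2 (Finset.mem_filter.1 hs).2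
  · intro q hq _
    exact hf _ (Finset.mem_product.1 hq).1 _ (Finset.mem_product.1 hq).2

/-- **pointwise price of the translates**, edge `01` -/
theorem price01 {j : Fin 4} {S : Finset (ℤ × ℤ × ℤ)} (hS0 : ∀ s ∈ S, cfz j s = 0) (T T' : Finset ℤ)
    (a : ℤ → ℤ → ℂ) (r : ℕ) (hr : r ≠ 0) (z z' : ℤ) :
    ∑ s ∈ S, ‖kT T T' a (z + s.1) (z' + s.2.1)‖ ^ r ≤ ∑ x ∈ T, ∑ x' ∈ T', ‖a x x'‖ ^ r := by
  refine le_trans (le_of_eq ?_) (sum_shift_le (fun s => s.1) (fun s => s.2.1)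
    (fun s hs s' hs' h0 h1 => inj01 (hS0 s hs) (hS0 s' hs') h0 h1) T T' (fun x x' => ‖a x x'‖ ^ r)
    (fun _ _ _ _ => by positivity) z z')
  refine Finset.sum_congr rfl fun s _ => ?_
  unfold kT
  split_ifs <;> simp [hr]

theorem price12 {j : Fin 4} {S : Finset (ℤ × ℤ × ℤ)} (hS0 : ∀ s ∈ S, cfz j s = 0) (T T' : Finset ℤ)
    (a : ℤ → ℤ → ℂ) (r : ℕ) (hr : r ≠ 0) (z z' : ℤ) :
    ∑ s ∈ S, ‖kT T T' a (z + s.2.1) (z' + s.2.2)‖ ^ r ≤ ∑ x ∈ T, ∑ x' ∈ T', ‖a x x'‖ ^ r := by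
  refine le_trans (le_of_eq ?_) (sum_shift_le (fun s => s.2.1) (fun s => s.2.2)
    (fun s hs s' hs' h0 h1 => inj12 (hS0 s hs) (hS0 s' hs') h0 h1) T T' (fun x x' => ‖a x x'‖ ^ r)
    (fun _ _ _ _ => by positivity) z z')
  refine Finset.sum_congr rfl fun s _ => ?_
  unfold kT
  split_ifs <;> simp [hr]

theorem price20 {j : Fin 4} {S : Finset (ℤ × ℤ × ℤ)} (hS0 : ∀ s ∈ S, cfz j s = 0) (T T' : Finset ℤ)
    (a : ℤ → ℤ → ℂ) (r : ℕ) (hr : r ≠ 0) (z z' : ℤ) :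
    ∑ s ∈ S, ‖kT T T' a (z + s.2.2) (z' + s.1)‖ ^ r ≤ ∑ x ∈ T, ∑ x' ∈ T', ‖a x x'‖ ^ r := by
  refine le_trans (le_of_eq ?_) (sum_shift_le (fun s => s.2.2) (fun s => s.1)
    (fun s hs s' hs' h0 h1 => inj20 (hS0 s hs) (hS0 s' hs') h0 h1) T T' (fun x x' => ‖a x x'‖ ^ r)
    (fun _ _ _ _ => by positivity) z z')
  refine Finset.sum_congr rfl fun s _ => ?_
  unfold kT
  split_ifs <;> simp [hr]

end Crest.Agent.R079.Tr230
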