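import Crest.Agent.R079.Cmp_408
import Crest.Agent.R079.LeafV_71

/-! R079, doc 2539, glue (g1) part A (helper71): metric factor and the exit values summed over the
window.  `fac`; `touch` nodes (`Pn`) and their total length; `mass`; `al_sum`; `be_sum`. -/

set_option autoImplicit false
set_option linter.unusedSectionVars false

namespace Crest.Agent.R079.Wa71

open Matrix Finset Crest.Agent.R079.Grid Crest.Agent.R079.St2 Crest.Agent.R079.LeafV71
open Crest.Agent.R079.Growth Crest.Agent.R079.QRed Crest.Agent.R079.Cmp408 Crest.Agent.R079.Ero526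
open Crest.Agent.R079.Qh249 (mem_iv)
open scoped ComplexOrder MatrixOrder

section fac

variable {ι : Type*} [Fintype ι] [DecidableEq ι]

/-- **METRIC FACTOR** -/
theorem fac {G : Matrix ι ι ℂ} (hG : G.PosDef) : ∃ Z X : Matrix ι ι ℂ,
    (∀ a b : ι → ℂ, star (Z *ᵥ a) ⬝ᵥ (X *ᵥ b) = star a ⬝ᵥ b) ∧
    (∀ a, n2 (Z *ᵥ a) = qf G a) ∧ (∀ b, n2 (X *ᵥ b) = qf G⁻¹ b) := by
  have hdet : IsUnit G.det := (Matrix.isUnit_iff_isUnit_det G).mp hG.isUnit
  have hGi : (G⁻¹).PosDef := hG.inv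
  obtain ⟨X, hX⟩ := exists_fac hGi.posSemidef
  have hdi : IsUnit (G⁻¹).det := (Matrix.isUnit_iff_isUnit_det _).mp hGi.isUnit
  have hXd : IsUnit X.det := by
    rw [hX, det_mul] at hdi
    exact isUnit_of_mul_isUnit_right hdi
  have e1 : ∀ u : ι → ℂ, qf (Xᴴ * X) u = n2 (X *ᵥ u) := by
    intro u
    unfold qf
    rw [dot_fac, dot_self, RCLike.ofReal_re]
  refine ⟨(X⁻¹)ᴴ, X, ?_, ?_, ?_⟩
  · intro a b
    have h1 : star ((X⁻¹)ᴴ *ᵥ a) ⬝ᵥ (X *ᵥ b) = star a ⬝ᵥ (X⁻¹ *ᵥ (X *ᵥ b)) := by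
      rw [star_mulVec, conjTranspose_conjTranspose, dotProduct_mulVec]
      rw [← dotProduct_mulVec, ← dotProduct_mulVec]
    rw [h1, mulVec_mulVec, nonsing_inv_mul X hXd, one_mulVec]
  · intro a
    have h2 : G = X⁻¹ * (X⁻¹)ᴴ := by
      have h3 : G = (G⁻¹)⁻¹ := (nonsing_inv_nonsing_inv G hdet).symm
      rw [h3, hX, Matrix.mul_inv_rev, conjTranspose_nonsing_inv]
    have h4 : qf (((X⁻¹)ᴴ)ᴴ * (X⁻¹)ᴴ) a = n2 ((X⁻¹)ᴴ *ᵥ a) := by
      unfold qf
      rw [dot_fac, dot_self, RCLike.ofReal_re]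
    rw [← h4, conjTranspose_conjTranspose, ← h2]
  · intro b
    rw [← e1, ← hX]

end fac

/-- nodes of level `k` touched by the paying positions -/
noncomputable def Pn (W : Finset Nd) (C : ℕ) (c d : ℤ) (k : ℕ) : Finset Nd := by
  classical exact W.filter (fun p => p.1 = k ∧ ∃ q ∈ pos W C c d k, ∃ x : ℤ, q ≤ x ∧ x < q + 2 ^ k ∧
    c + d * x ∈ iv p)

lemma mem_Pn {W : Finset Nd} {C : ℕ} {c d : ℤ} {k : ℕ} {p : Nd} : p ∈ Pn W C c d k ↔
    p ∈ W ∧ p.1 = k ∧ ∃ q ∈ pos W C c d k, ∃ x : ℤ, q ≤ x ∧ x < q + 2 ^ k ∧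
      c + d * x ∈ iv p := by
  classical
  unfold Pn
  rw [Finset.mem_filter]

lemma disj_level {X : Finset Nd} {k : ℕ} (h : ∀ p ∈ X, p.1 = k) :
    (X : Set Nd).PairwiseDisjoint iv := by
  intro p hp q hq hne
  rw [Finset.mem_coe] at hp hq
  rw [Function.onFun, Finset.disjoint_left]
  intro y hy hy'
  rw [mem_iv] at hy hy'
  apply hne
  refine Prod.ext ((h p hp).trans (h q hq).symm) ?_
  rw [← hy, ← hy', h p hp, h q hq]

lemma card_biU {X : Finset Nd} {k : ℕ} (h : ∀ p ∈ X, p.1 = k) :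
    ((X.biUnion iv).card : ℝ) = ∑ p ∈ X, len p := by
  rw [Finset.card_biUnion (fun p hp q hq hne => disj_level h hp hq hne)]
  push_cast
  exact Finset.sum_congr rfl fun p _ => card_iv p

/-- **total length of the touched nodes** -/
theorem len_Pn {W : Finset Nd} {I : Nd} (hW : Full W I) (C : ℕ) (c : ℤ) {d : ℤ} (hd : d ≠ 0)
    (hd' : |d| ≤ 128) :
    ∑ k ∈ range (I.1 + 1), ∑ p ∈ Pn W C c d k, len p ≤
      (16 * (2 * (C + 2 + 1) + 1) + 1) * len I := by
  classical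
  have hk : ∀ k, ∀ p ∈ Pn W C c d k, p.1 = k := fun k p hp => (mem_Pn.1 hp).2.1
  have h1 := er_change hW C 2 (fun k => (Pn W C c d k).biUnion iv) (by
    intro m h1 hm Q hQ
    obtain ⟨p, hp, hQp⟩ := Finset.mem_biUnion.1 hQ
    obtain ⟨hpW, hpm, q, hq, x, hx1, hx2, hxp⟩ := mem_Pn.1 hp
    rcases ((mem_pos hW C c hd m q).1 hq).1 with h0 | ⟨y, hy1, hy2, hne⟩
    · omega
    · refine ⟨c + d * y, ?_, hne⟩
      have hyx : |y - x| ≤ 2 ^ m := by
        rw [abs_le]; constructor <;> linarith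
      have h3 : |(c + d * y) - (c + d * x)| ≤ 2 ^ (m + 7) := by
        have : (c + d * y) - (c + d * x) = d * (y - x) := by ring
        rw [this, abs_mul]
        calc |d| * |y - x| ≤ 128 * 2 ^ m := by gcongr
          _ = 2 ^ (m + 7) := by ring
      have h4 : |(c + d * x) - Q| ≤ 2 ^ (m + 7) := by
        rw [mem_iv', hpm] at hxp hQp
        rw [abs_le]
        constructor <;> linarith
      have h5 : (c + d * y) - Q = ((c + d * y) - (c + d * x)) + ((c + d * x) - Q) := by ring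
      rw [h5]
      calc |((c + d * y) - (c + d * x)) + ((c + d * x) - Q)|
          ≤ |(c + d * y) - (c + d * x)| + |(c + d * x) - Q| := abs_add_le _ _
        _ ≤ 2 ^ (m + 7) + 2 ^ (m + 7) := by linarith
        _ = ((2 : ℕ) : ℤ) * 2 ^ (m + 7) := by push_cast; ring)
  have h0 : ∑ p ∈ Pn W C c d 0, len p ≤ len I := by
    rw [← card_biU (hk 0), ← card_iv I]
    have : (Pn W C c d 0).biUnion iv ⊆ iv I := by
      intro y hy
      obtain ⟨p, hp, hyp⟩ := Finset.mem_biUnion.1 hy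
      exact hW.reg.1 p (mem_Pn.1 hp).1 hyp
    exact_mod_cast Finset.card_le_card this
  have hr : range (I.1 + 1) = insert 0 (Icc 1 I.1) := by
    ext n
    simp only [Finset.mem_range, Finset.mem_insert, Finset.mem_Icc]
    omega
  rw [hr, Finset.sum_insert (by simp)]
  simp only [card_biU (hk _)] at h1
  push_cast at h1 ⊢
  linarith

open Classical in
/-- **mass of a masked letter at the paying positions of one level** -/
theorem mass {W : Finset Nd} (C : ℕ) (c : ℤ) {d : ℤ} (hd : d ≠ 0)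
    (k : ℕ) (g : ℤ → ℝ) (hg : ∀ y, 0 ≤ g y) :
    ∑ q ∈ pos W C c d k, (1 / 2 ^ k) * ∑ u ∈ range (2 ^ k),
      (if AA W C c d k (q + (u : ℤ)) then g (c + d * (q + (u : ℤ))) else 0) ≤
    ∑ p ∈ Pn W C c d k, ∑ y ∈ iv p, g y := by
  have hu : ∀ u ∈ range (2 ^ k), ∑ q ∈ pos W C c d k,
      (if AA W C c d k (q + (u : ℤ)) then g (c + d * (q + (u : ℤ))) else 0) ≤
      ∑ p ∈ Pn W C c d k, ∑ y ∈ iv p, g y := by
    intro u hu
    have hu' : (u : ℤ) < 2 ^ k := by exact_mod_cast Finset.mem_range.1 hu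
    rw [← Finset.sum_filter]
    have himg : ∑ q ∈ (pos W C c d k).filter (fun q : ℤ => AA W C c d k (q + (u : ℤ))),
        g (c + d * (q + (u : ℤ))) =
        ∑ y ∈ ((pos W C c d k).filter (fun q : ℤ => AA W C c d k (q + (u : ℤ)))).image
          (fun q : ℤ => c + d * (q + (u : ℤ))), g y := by
      rw [Finset.sum_image]
      intro x _ y _ hxy
      have h1 : d * (x + (u : ℤ)) = d * (y + (u : ℤ)) := by
        have := hxy; simp only at this; linarith
      have := mul_left_cancel₀ hd h1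
      linarith
    rw [himg]
    refine sum_cover _ _ _ _ hg ?_
    intro y hy
    obtain ⟨q, hq, rfl⟩ := Finset.mem_image.1 hy
    obtain ⟨hq1, hq2⟩ := Finset.mem_filter.1 hq
    have halv := er_self hq2
    refine ⟨(k, (c + d * (q + (u : ℤ))) / 2 ^ (k + 7)), mem_Pn.2 ⟨halv, rfl, q, hq1, q + u,
      by linarith [Int.natCast_nonneg u], by linarith, mem_iv.2 rfl⟩, mem_iv.2 rfl⟩
  have h1 : ∑ q ∈ pos W C c d k, (1 / 2 ^ k : ℝ) * ∑ u ∈ range (2 ^ k),
      (if AA W C c d k (q + (u : ℤ)) then g (c + d * (q + (u : ℤ))) else 0) =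
      (1 / 2 ^ k) * ∑ u ∈ range (2 ^ k), ∑ q ∈ pos W C c d k,
        (if AA W C c d k (q + (u : ℤ)) then g (c + d * (q + (u : ℤ))) else 0) := by
    rw [← Finset.mul_sum, Finset.sum_comm]
  rw [h1]
  refine (mul_le_mul_of_nonneg_left (Finset.sum_le_sum hu) (by positivity)).trans (le_of_eq ?_)
  rw [Finset.sum_const, Finset.card_range, nsmul_eq_mul]
  push_cast
  field_simp

open Classical in
/-- the masked letter of the paying positions, summed over all levels -/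
theorem mass_sum {W : Finset Nd} {I : Nd} (hW : Full W I) (C : ℕ) (c : ℤ) {d : ℤ} (hd : d ≠ 0)
    (hd' : |d| ≤ 128) (g : ℤ → ℝ) (hg : ∀ y, 0 ≤ g y) (A : ℝ)
    (hA : ∀ p ∈ W, ∑ y ∈ iv p, g y ≤ A * len p) :
    ∑ k ∈ range (I.1 + 1), ∑ q ∈ pos W C c d k, (1 / 2 ^ k) * ∑ u ∈ range (2 ^ k),
      (if AA W C c d k (q + (u : ℤ)) then g (c + d * (q + (u : ℤ))) else 0) ≤
    (16 * (2 * (C + 2 + 1) + 1) + 1) * A * len I := by
  have hA0 : 0 ≤ A := by
    have h1 := hA I hW.top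
    have h2 : 0 ≤ ∑ y ∈ iv I, g y := Finset.sum_nonneg fun y _ => hg y
    have h3 := Qe292.len_pos I
    by_contra hc
    push Not at hc
    nlinarith
  calc _ ≤ ∑ k ∈ range (I.1 + 1), ∑ p ∈ Pn W C c d k, ∑ y ∈ iv p, g y :=
        Finset.sum_le_sum fun k _ => mass C c hd k g hg
    _ ≤ ∑ k ∈ range (I.1 + 1), ∑ p ∈ Pn W C c d k, A * len p :=
        Finset.sum_le_sum fun k _ => Finset.sum_le_sum fun p hp => hA p (mem_Pn.1 hp).1
    _ = A * ∑ k ∈ range (I.1 + 1), ∑ p ∈ Pn W C c d k, len p := by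
        rw [Finset.mul_sum]
        exact Finset.sum_congr rfl fun k _ => by rw [Finset.mul_sum]
    _ ≤ A * ((16 * (2 * (C + 2 + 1) + 1) + 1) * len I) :=
        mul_le_mul_of_nonneg_left (len_Pn hW C c hd hd') hA0
    _ = _ := by ring

variable {ι : Type*} [Fintype ι] [DecidableEq ι]

open Classical in
/-- **α SIDE, summed over the window** -/
theorem al_sum {W : Finset Nd} {I : Nd} (hW : Full W I) (C : ℕ) (c : ℤ) {d : ℤ} (hd : d ≠ 0)
    (hd' : |d| ≤ 128) {v : ℤ → ι → ℂ} {M : Matrix ι ι ℂ} {δ τ : ℝ} (hM : M.PosSemidef)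
    (hτ : 0 < τ) (hδ : 0 ≤ δ) (hG : GrU W v M δ) (f F : ℤ → ℂ)
    (hf : ∀ z, ‖f z‖ ≤ ‖F (c + d * z)‖) (A : ℝ) (hA : ∀ p ∈ W, ∑ y ∈ iv p, ‖F y‖ ^ 2 ≤ A * len p) :
    ∑ k ∈ range (I.1 + 1), ∑ q ∈ pos W C c d k,
      qf (met M τ)⁻¹ (bav k q (fun z => if AA W C c d k z then f z else 0)
        (fun z => v (c + d * z))) ≤
    2 ^ 8 * (1 + δ / τ) * ((16 * (2 * (C + 2 + 1) + 1) + 1) * A * len I) := by
  have h1 : ∀ k ∈ range (I.1 + 1), ∀ q ∈ pos W C c d k,
      qf (met M τ)⁻¹ (bav k q (fun z => if AA W C c d k z then f z else 0)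
        (fun z => v (c + d * z))) ≤ 2 ^ 8 * (1 + δ / τ) * ((1 / 2 ^ k) * ∑ u ∈ range (2 ^ k),
        (if AA W C c d k (q + (u : ℤ)) then ‖F (c + d * (q + (u : ℤ)))‖ ^ 2 else 0)) := by
    intro k _ q _
    refine (al_line hM hτ hδ hG k q c d hd hd' _ ?_).trans ?_
    · intro u _ hne
      have : AA W C c d k (q + (u : ℤ)) := by
        by_contra hc
        exact hne (by simp [hc])
      exact er_self this
    · refine mul_le_mul_of_nonneg_left ?_ (by positivity)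
      refine mul_le_mul_of_nonneg_left ?_ (by positivity)
      refine Finset.sum_le_sum fun u _ => ?_
      split_ifs
      · exact pow_le_pow_left₀ (norm_nonneg _) (hf _) 2
      · simp
  refine (Finset.sum_le_sum fun k hk => Finset.sum_le_sum (h1 k hk)).trans ?_
  have h2 := mass_sum hW C c hd hd' (fun y => ‖F y‖ ^ 2) (fun y => by positivity) A hA
  have h3 : ∑ k ∈ range (I.1 + 1), ∑ q ∈ pos W C c d k, 2 ^ 8 * (1 + δ / τ) *
      ((1 / 2 ^ k) * ∑ u ∈ range (2 ^ k),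
        (if AA W C c d k (q + (u : ℤ)) then ‖F (c + d * (q + (u : ℤ)))‖ ^ 2 else 0)) =
      2 ^ 8 * (1 + δ / τ) * ∑ k ∈ range (I.1 + 1), ∑ q ∈ pos W C c d k,
      ((1 / 2 ^ k) * ∑ u ∈ range (2 ^ k),
        (if AA W C c d k (q + (u : ℤ)) then ‖F (c + d * (q + (u : ℤ)))‖ ^ 2 else 0)) := by
    rw [Finset.mul_sum]
    exact Finset.sum_congr rfl fun k _ => by rw [Finset.mul_sum]
  rw [h3]
  exact mul_le_mul_of_nonneg_left h2 (by positivity)

end Crest.Agent.R079.Wa71
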