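import Crest.Agent.R079.Wa_71

/-! R079, doc 2539, glue (g1), β side summed over the window (helper71). -/

set_option autoImplicit false
set_option linter.unusedSectionVars false

namespace Crest.Agent.R079.Wb71

open Matrix Finset Crest.Agent.R079.Grid Crest.Agent.R079.St2 Crest.Agent.R079.LeafV71
open Crest.Agent.R079.Growth Crest.Agent.R079.QRed Crest.Agent.R079.Cmp408 Crest.Agent.R079.Ero526
open Crest.Agent.R079.Wa71
open Crest.Agent.R079.Qh249 (mem_iv)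

/-- integers `z` with `c + d z ∈ iv p` -/
noncomputable def Xs (c d : ℤ) (p : Nd) : Finset ℤ := by
  classical exact ((iv p).image (fun y => (y - c) / d)).filter (fun z => c + d * z ∈ iv p)

lemma mem_Xs {c d : ℤ} (hd : d ≠ 0) {p : Nd} {z : ℤ} : z ∈ Xs c d p ↔ c + d * z ∈ iv p := by
  classical
  unfold Xs
  rw [Finset.mem_filter]
  constructor
  · exact fun h => h.2
  · intro h
    refine ⟨Finset.mem_image.2 ⟨c + d * z, h, ?_⟩, h⟩
    rw [add_sub_cancel_left, Int.mul_ediv_cancel_left z hd]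

lemma ln_eq (p : Nd) : ln p = len p := rfl

/-- leaf quantity of the node `p` for the kernel `K` and the letter `β` (both coordinates in `iv p`) -/
noncomputable def LK (c' d' c d : ℤ) (K : ℤ → ℤ → ℂ) (β : ℤ → ℂ) (p : Nd) : ℝ :=
  ∑ q ∈ Xs c' d' p, (1 / len p) * ∑ z ∈ Xs c d p, ‖(1 / 2 ^ p.1 : ℂ) * ∑ u ∈ range (2 ^ p.1),
    star (β (q + (u : ℤ))) * K (q + (u : ℤ)) z‖ ^ 2

variable {ι : Type*} [Fintype ι] [DecidableEq ι]

/-- error kernel -/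
noncomputable def Er0 (K : ℤ → ℤ → ℂ) (w : ℤ → ι → ℂ) (v : ℤ → ι → ℂ) (c d : ℤ) (z z' : ℤ) : ℂ :=
  K z z' - star (w z) ⬝ᵥ v (c + d * z')

open Classical in
/-- masked letter -/
noncomputable def mk (W : Finset Nd) (C : ℕ) (c' d' : ℤ) (f : ℤ → ℂ) (k : ℕ) (z : ℤ) : ℂ :=
  if AA W C c' d' k z then f z else 0

/-- **β SIDE, summed over the window** -/
theorem be_sum {W : Finset Nd} {I : Nd} (hW : Full W I) (C : ℕ) (hC : 1 ≤ C) (c' c : ℤ) {d' d : ℤ}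
    (hd' : d' ≠ 0) (hd128 : |d'| ≤ 128) (hd : d ≠ 0) {v : ℤ → ι → ℂ} {M : Matrix ι ι ℂ}
    {δ τ H : ℝ} (hδτ : 0 ≤ δ + τ) (hH : 0 ≤ H) (hG : GrL W v M δ)
    (hv : ∀ y, v y ≠ 0 → ∃ z, y = c + d * z)
    (w : ℤ → ι → ℂ) (hw : ∀ z, c' + d' * z ∈ iv I → n2 (w z) ≤ H) (K : ℤ → ℤ → ℂ) (f F : ℤ → ℂ)
    (hf : ∀ z, ‖f z‖ ≤ ‖F (c' + d' * z)‖) (A : ℝ)
    (hA : ∀ p ∈ W, ∑ y ∈ iv p, ‖F y‖ ^ 2 ≤ A * len p) :
    ∑ k ∈ range (I.1 + 1), ∑ q ∈ pos W C c' d' k, qf (met M τ) (bav k q (mk W C c' d' f k) w) ≤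
      ∑ k ∈ range (I.1 + 1), ∑ p ∈ Pn W C c' d' k,
        (2 * LK c' d' c d K (mk W C c' d' f k) p +
          2 * LK c' d' c d (Er0 K w v c d) (mk W C c' d' f k) p) +
      (δ + τ) * (H * ((16 * (2 * (C + 2 + 1) + 1) + 1) * A * len I)) := by
  classical
  -- one position
  set ψ : (ℤ → ℤ → ℂ) → ℕ → ℤ → ℝ := fun K0 k q =>
    (1 / len (k, (c' + d' * q) / 2 ^ (k + 7))) * ∑ z ∈ Xs c d (k, (c' + d' * q) / 2 ^ (k + 7)),
      ‖(1 / 2 ^ k : ℂ) * ∑ u ∈ range (2 ^ k),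
        star (mk W C c' d' f k (q + (u : ℤ))) * K0 (q + (u : ℤ)) z‖ ^ 2 with hψ
  have hmem : ∀ k, ∀ q ∈ pos W C c' d' k,
      (k, (c' + d' * q) / 2 ^ (k + 7)) ∈ Pn W C c' d' k := by
    intro k q hq
    obtain ⟨_, x, hx1, hx2, hx3⟩ := (mem_pos hW C c' hd' k q).1 hq
    refine mem_Pn.2 ⟨?_, rfl, q, hq, q, le_rfl, ?_, mem_iv.2 rfl⟩
    · refine hx3 (c' + d' * q) ?_
      have e : c' + d' * q - (c' + d' * x) = d' * (q - x) := by ring
      rw [e, abs_mul]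
      have h2 : |q - x| ≤ 2 ^ k := by
        rw [abs_le]; constructor <;> linarith
      have hC' : (1 : ℤ) ≤ C := by exact_mod_cast hC
      calc |d'| * |q - x| ≤ 128 * 2 ^ k := by gcongr
        _ = 1 * 2 ^ (k + 7) := by ring
        _ ≤ C * 2 ^ (k + 7) := by gcongr
    · have : (0 : ℤ) < 2 ^ k := by positivity
      linarith
  have hpos : ∀ k ∈ range (I.1 + 1), ∀ q ∈ pos W C c' d' k,
      qf (met M τ) (bav k q (mk W C c' d' f k) w) ≤
        (2 * ψ K k q + 2 * ψ (Er0 K w v c d) k q) + (δ + τ) * (H * ((1 / 2 ^ k) *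
          ∑ u ∈ range (2 ^ k), (if AA W C c' d' k (q + (u : ℤ)) then
            ‖F (c' + d' * (q + (u : ℤ)))‖ ^ 2 else 0))) := by
    intro k _ q hq
    have hAA : ∀ z, mk W C c' d' f k z ≠ 0 → AA W C c' d' k z := by
      intro z hz
      by_contra hc
      exact hz (by unfold mk; rw [if_neg hc])
    have h1 := be_line hδτ hG (k, (c' + d' * q) / 2 ^ (k + 7))
      (mem_Pn.1 (hmem k q hq)).1 k q c d hd (mk W C c' d' f k) w K (Er0 K w v c d)
      (Xs c d (k, (c' + d' * q) / 2 ^ (k + 7)))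
      (by
        intro y hy hvy
        obtain ⟨z, rfl⟩ := hv y hvy
        exact ⟨z, (mem_Xs hd).2 hy, rfl⟩)
      (by
        intro u _ _ z _
        unfold Er0; ring)
      (by
        intro u _ hne
        exact hw _ (alv_top hW (er_self (hAA _ hne))))
    refine h1.trans ?_
    rw [ln_eq]
    refine add_le_add (le_of_eq rfl) ?_
    refine mul_le_mul_of_nonneg_left ?_ hδτ
    refine mul_le_mul_of_nonneg_left ?_ hH
    refine mul_le_mul_of_nonneg_left ?_ (by positivity)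
    refine Finset.sum_le_sum fun u _ => ?_
    unfold mk
    split_ifs
    · exact pow_le_pow_left₀ (norm_nonneg _) (hf _) 2
    · simp
  -- grouping
  have hgrp : ∀ (K0 : ℤ → ℤ → ℂ) (k : ℕ), ∑ q ∈ pos W C c' d' k, ψ K0 k q ≤
      ∑ p ∈ Pn W C c' d' k, LK c' d' c d K0 (mk W C c' d' f k) p := by
    intro K0 k
    refine (sum_cover (pos W C c' d' k) (Pn W C c' d' k) (Xs c' d') (ψ K0 k) ?_ ?_).trans ?_
    · intro q
      simp only [hψ]
      have := Qe292.len_pos (k, (c' + d' * q) / 2 ^ (k + 7))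
      positivity
    · intro q hq
      exact ⟨_, hmem k q hq, (mem_Xs hd').2 (mem_iv.2 rfl)⟩
    · refine Finset.sum_le_sum fun p hp => le_of_eq ?_
      unfold LK
      refine Finset.sum_congr rfl fun q hq => ?_
      have hk := (mem_Pn.1 hp).2.1
      have hq' := mem_iv.1 ((mem_Xs hd').1 hq)
      have hpe : (k, (c' + d' * q) / 2 ^ (k + 7)) = p := by
        refine Prod.ext hk.symm ?_
        rw [← hk]; exact hq'
      simp only [hψ]
      rw [hpe, hk]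
  refine (Finset.sum_le_sum fun k hk => Finset.sum_le_sum (hpos k hk)).trans ?_
  have hms := mass_sum hW C c' hd' hd128 (fun y => ‖F y‖ ^ 2) (fun y => by positivity) A hA
  have e1 : ∑ k ∈ range (I.1 + 1), ∑ q ∈ pos W C c' d' k,
      ((2 * ψ K k q + 2 * ψ (Er0 K w v c d) k q) + (δ + τ) * (H * ((1 / 2 ^ k) *
          ∑ u ∈ range (2 ^ k), (if AA W C c' d' k (q + (u : ℤ)) then
            ‖F (c' + d' * (q + (u : ℤ)))‖ ^ 2 else 0)))) =
      ∑ k ∈ range (I.1 + 1), (2 * ∑ q ∈ pos W C c' d' k, ψ K k q +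
        2 * ∑ q ∈ pos W C c' d' k, ψ (Er0 K w v c d) k q) +
      (δ + τ) * (H * ∑ k ∈ range (I.1 + 1), ∑ q ∈ pos W C c' d' k, ((1 / 2 ^ k) *
          ∑ u ∈ range (2 ^ k), (if AA W C c' d' k (q + (u : ℤ)) then
            ‖F (c' + d' * (q + (u : ℤ)))‖ ^ 2 else 0))) := by
    simp only [Finset.sum_add_distrib, Finset.mul_sum]
  rw [e1]
  refine add_le_add ?_ ?_
  · refine Finset.sum_le_sum fun k _ => ?_
    rw [Finset.sum_add_distrib, ← Finset.mul_sum, ← Finset.mul_sum]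
    have h1 := hgrp K k
    have h2 := hgrp (Er0 K w v c d) k
    linarith
  · exact mul_le_mul_of_nonneg_left (mul_le_mul_of_nonneg_left hms hH) hδτ

/-- **β SIDE with leaf hypotheses** -/
theorem be_total {W : Finset Nd} {I : Nd} (hW : Full W I) (C : ℕ) (hC : 1 ≤ C) (c' c : ℤ)
    {d' d : ℤ} (hd' : d' ≠ 0) (hd128 : |d'| ≤ 128) (hd : d ≠ 0) {v : ℤ → ι → ℂ}
    {M : Matrix ι ι ℂ} {δ τ H : ℝ} (hδτ : 0 ≤ δ + τ) (hH : 0 ≤ H) (hG : GrL W v M δ)
    (hv : ∀ y, v y ≠ 0 → ∃ z, y = c + d * z)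
    (w : ℤ → ι → ℂ) (hw : ∀ z, c' + d' * z ∈ iv I → n2 (w z) ≤ H) (K : ℤ → ℤ → ℂ) (f F : ℤ → ℂ)
    (hf : ∀ z, ‖f z‖ ≤ ‖F (c' + d' * z)‖) (A κ κE : ℝ) (hκ : 0 ≤ κ) (hκE : 0 ≤ κE)
    (hA : ∀ p ∈ W, ∑ y ∈ iv p, ‖F y‖ ^ 2 ≤ A * len p)
    (hL : ∀ k, ∀ p ∈ Pn W C c' d' k, LK c' d' c d K (mk W C c' d' f k) p ≤ κ * len p)
    (hE : ∀ k, ∀ p ∈ Pn W C c' d' k,
      LK c' d' c d (Er0 K w v c d) (mk W C c' d' f k) p ≤ κE * len p) :
    ∑ k ∈ range (I.1 + 1), ∑ q ∈ pos W C c' d' k, qf (met M τ) (bav k q (mk W C c' d' f k) w) ≤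
      (16 * (2 * (C + 2 + 1) + 1) + 1) * (2 * κ + 2 * κE + (δ + τ) * H * A) * len I := by
  refine (be_sum hW C hC c' c hd' hd128 hd hδτ hH hG hv w hw K f F hf A hA).trans ?_
  have h1 : ∑ k ∈ range (I.1 + 1), ∑ p ∈ Pn W C c' d' k,
        (2 * LK c' d' c d K (mk W C c' d' f k) p +
          2 * LK c' d' c d (Er0 K w v c d) (mk W C c' d' f k) p) ≤
      (2 * κ + 2 * κE) * ∑ k ∈ range (I.1 + 1), ∑ p ∈ Pn W C c' d' k, len p := by
    rw [Finset.mul_sum]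
    refine Finset.sum_le_sum fun k _ => ?_
    rw [Finset.mul_sum]
    refine Finset.sum_le_sum fun p hp => ?_
    have h2 := hL k p hp
    have h3 := hE k p hp
    linarith
  have h2 := len_Pn hW C c' hd' hd128
  have h3 := mul_le_mul_of_nonneg_left h2 (by positivity : (0 : ℝ) ≤ 2 * κ + 2 * κE)
  calc _ ≤ (2 * κ + 2 * κE) * ((16 * (2 * (C + 2 + 1) + 1) + 1) * len I) +
        (δ + τ) * (H * ((16 * (2 * (C + 2 + 1) + 1) + 1) * A * len I)) := by linarith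
    _ = _ := by ring

end Crest.Agent.R079.Wb71
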