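import Crest.Agent.R079.WinA_222
import Crest.Agent.R079.TWL_649

/-! R079, doc 2531 (787), (O2), `TRec` forms (helper222): `Tops`, `Cnt`, `Adp`, `Sq` under superposition
of two systems of tops. -/

set_option autoImplicit false

namespace Crest.Agent.R079.WinA222

open Finset Crest.Agent.R079.Grid Crest.Agent.R079.Growth Crest.Agent.R079.QRed
  Crest.Agent.R079.Qe292 Crest.Agent.R079.Qh249 Crest.Agent.R079.TWin

/-- union of tops -/
theorem tops_union {R : Finset Nd} {J : Nd} {T T' : Finset Nd} (h : TRec.Tops R J T)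
    (h' : TRec.Tops R J T') : TRec.Tops R J (T ∪ T') where
  sub := Finset.union_subset h.sub h'.sub
  top := Finset.mem_union_left _ h.top
  sib m l hp := by
    have h1 := h.sib m l hp
    have h2 := h'.sib m l hp
    rw [Finset.mem_union, Finset.mem_union]
    tauto

/-- counts add -/
theorem cnt_union {R T T' : Finset Nd} {A A' : ℝ} (h : TRec.Cnt R T A) (h' : TRec.Cnt R T' A') :
    TRec.Cnt R (T ∪ T') (A + A') := by
  classical
  intro p hp
  rw [Finset.filter_union]
  have h2 : ∑ I ∈ T.filter (fun I => iv I ⊂ iv p) ∪ T'.filter (fun I => iv I ⊂ iv p), len I ≤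
      ∑ I ∈ T.filter (fun I => iv I ⊂ iv p), len I +
        ∑ I ∈ T'.filter (fun I => iv I ⊂ iv p), len I := by
    rw [← Finset.sum_union_inter]
    have : 0 ≤ ∑ I ∈ T.filter (fun I => iv I ⊂ iv p) ∩ T'.filter (fun I => iv I ⊂ iv p),
        len I := Finset.sum_nonneg fun K _ => (Growth.len_pos K).le
    linarith
  have h3 := h p hp
  have h4 := h' p hp
  linarith

/-- existence of the window top -/
theorem exists_wn {R : Finset Nd} {J : Nd} (hR : Full R J) {T : Finset Nd} (h : TRec.Tops R J T)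
    {p : Nd} (hp : p ∈ R) : ∃ I, TRec.Wn T I p := by
  classical
  obtain ⟨I, hI, hmin⟩ := Finset.exists_min_image (T.filter (fun I => iv p ⊆ iv I)) (fun I => I.1)
    ⟨J, Finset.mem_filter.2 ⟨h.top, hR.reg.1 p hp⟩⟩
  rw [Finset.mem_filter] at hI
  refine ⟨I, hI.1, hI.2, fun I' hI' hpI' => ?_⟩
  rcases Qe292.sub_total hI.2 hpI' with h1 | h1
  · exact h1
  · have h2 := hmin I' (Finset.mem_filter.2 ⟨hI', hpI'⟩)
    rw [iv_eq_of_level h1 h2]

theorem wn_unique {T : Finset Nd} {I I' p : Nd} (h : TRec.Wn T I p) (h' : TRec.Wn T I' p) :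
    I = I' :=
  Qe292.iv_antisymm (h.2.2 I' h'.1 h'.2.1) (h'.2.2 I h.1 h.2.1)

/-- a function static on the windows of `T` is static on the windows of a finer system -/
theorem adp_mono {R : Finset Nd} {J : Nd} (hR : Full R J) {T T' : Finset Nd}
    (h : TRec.Tops R J T) (hTT : T ⊆ T') (hT' : T' ⊆ R) {X : Nd → Fn} (hX : TRec.Adp R T X) :
    TRec.Adp R T' X := by
  intro p hp I hI
  obtain ⟨A, hA⟩ := exists_wn hR h hp
  have h1 : iv I ⊆ iv A := hI.2.2 A (hTT hA.1) hA.2.1
  have h2 : TRec.Wn T A I :=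
    ⟨hA.1, h1, fun I' hI' hII' => hA.2.2 I' hI' (hI.2.1.trans hII')⟩
  rw [hX p hp A hA, hX I (hT' hI.1) A h2]

theorem adp_union_left {R : Finset Nd} {J : Nd} (hR : Full R J) {T T' : Finset Nd}
    (h : TRec.Tops R J T) (h' : TRec.Tops R J T') {X : Nd → Fn} (hX : TRec.Adp R T X) :
    TRec.Adp R (T ∪ T') X :=
  adp_mono hR h Finset.subset_union_left (Finset.union_subset h.sub h'.sub) hX

theorem adp_union_right {R : Finset Nd} {J : Nd} (hR : Full R J) {T T' : Finset Nd}
    (h : TRec.Tops R J T) (h' : TRec.Tops R J T') {X : Nd → Fn} (hX : TRec.Adp R T' X) :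
    TRec.Adp R (T ∪ T') X :=
  adp_mono hR h' Finset.subset_union_right (Finset.union_subset h.sub h'.sub) hX

/-- the tops of a `Part` whose top window is at `J` form `Tops` -/
theorem tops_of_part {R : Finset Nd} {J : Nd} (hR : Full R J) {S : Finset Nd}
    {W : Nd → Finset Nd} {C : ℝ} (h : Part R S W C) : TRec.Tops R J S := by
  have hJ : J ∈ S := by
    obtain ⟨K, hK, hJK⟩ := h.cover J hR.top
    have h1 := (h.full K hK).reg.1 J hJK
    have h2 := hR.reg.1 K (h.sub hK)
    rw [Qe292.iv_antisymm h1 h2]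
    exact hK
  have hown : ∀ {A B p q : Nd}, A ∈ S → B ∈ S → p ∈ W A → iv p ⊆ iv q → iv q ⊆ iv A → q ∈ W B →
      A = B := by
    intro A B p q hA hB hp h1 h2 hq
    exact own_unique h hA hB ((h.full A hA).reg.2 p hp q h1 h2) hq
  have half : ∀ {m : ℕ} {l c c' : ℤ}, (m + 1, l) ∈ R → c / 2 = l → c' / 2 = l →
      (∀ (V : Finset Nd) (I : Nd), Full V I → (m + 1, l) ∈ V → ((m, c) ∈ V ↔ (m, c') ∈ V)) →
      (m, c) ∈ S → (m, c') ∈ S := by
    intro m l c c' hP hc hc' hb hK
    have hcR : (m, c') ∈ R := (hb R J hR hP).1 (h.sub hK)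
    obtain ⟨K₀, hK₀, hPK₀⟩ := h.cover _ hP
    obtain ⟨K₁, hK₁, hcK₁⟩ := h.cover _ hcR
    by_cases hne : K₁ = (m, c')
    · rw [← hne]; exact hK₁
    · exfalso
      have h1 : iv (m + 1, l) ⊆ iv K₁ :=
        TWL649.above_child hc' ((h.full K₁ hK₁).reg.1 _ hcK₁) hne
      have h2 : K₁ = K₀ := hown hK₁ hK₀ hcK₁ (TWL649.iv_child m l c' hc') h1 hPK₀
      rw [h2] at hcK₁
      have h3 : (m, c) ∈ W K₀ := (hb (W K₀) K₀ (h.full K₀ hK₀) hPK₀).2 hcK₁
      have h4 : (m, c) = K₀ := by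
        by_contra h5
        exact Finset.disjoint_left.1 (h.disj _ hK _ hK₀ h5) (h.full _ hK).top h3
      have h6 := (h.full K₀ hK₀).reg.1 _ hPK₀
      rw [← h4] at h6
      exact TWL649.not_sub_child h6
  exact ⟨h.sub, hJ, fun m l hP =>
    ⟨half hP (by omega) (by omega) fun V I hV h => hV.bin m l h,
      half hP (by omega) (by omega) fun V I hV h => (hV.bin m l h).symm⟩⟩

/-- the window of `p` in the `Tops` sense is the owner in the `Part` sense -/
theorem wn_owner {R : Finset Nd} {S : Finset Nd} {W : Nd → Finset Nd} {C : ℝ} (h : Part R S W C)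
    {K p I : Nd} (hK : K ∈ S) (hp : p ∈ W K) (hI : TRec.Wn S I p) : K = I := by
  have h1 := (h.full K hK).reg.1 p hp
  exact own_unique h hK hI.1 ((h.full K hK).reg.2 p hp I hI.2.1 (hI.2.2 K hK h1))
    (h.full I hI.1).top

/-- strict count of a `Part` -/
theorem cnt_of_part {R : Finset Nd} {S : Finset Nd} {W : Nd → Finset Nd} {C : ℝ}
    (h : Part R S W C) : TRec.Cnt R S C := by
  classical
  intro p hp
  refine le_trans (Finset.sum_le_sum_of_subset_of_nonneg ?_
    fun K _ _ => (Growth.len_pos K).le) (h.cnt p hp)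
  intro K hK
  rw [Finset.mem_filter] at hK ⊢
  exact ⟨hK.1, hK.2.1⟩

end Crest.Agent.R079.WinA222
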