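import Crest.Agent.R079.Cg_408
import Crest.Agent.R079.Wb_71

/-! R079 Step II, glue (g1) of helper654 (helper408): ONE STATIC WINDOW.  Composition `Cg_408` + metric
`M + τ` (St2M_834) + exit values `al_line`, `be_line` (LeafV_71) + counting `card_pos` (Ero_526). -/

set_option autoImplicit false
set_option linter.unusedSectionVars false

namespace Crest.Agent.R079.Wr408

open Matrix Finset Crest.Agent.R079.Grid Crest.Agent.R079.Growth Crest.Agent.R079.QRed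
open Crest.Agent.R079.Qh249 (mem_iv)
open Crest.Agent.R079.F2 Crest.Agent.R079.MBes71 Crest.Agent.R079.Ero526 Crest.Agent.R079.Cmp408
open Crest.Agent.R079.Cg408 Crest.Agent.R079.St2 Crest.Agent.R079.LeafV71
open scoped ComplexOrder MatrixOrder

variable {ι : Type*} [Fintype ι] [DecidableEq ι]

/-- masked letter -/
noncomputable def ml (A : ℕ → ℤ → Prop) (f : ℤ → ℂ) (k : ℕ) (z : ℤ) : ℂ := by
  classical exact if A k z then f z else 0

lemma ml_pos {A : ℕ → ℤ → Prop} {f : ℤ → ℂ} {k : ℕ} {z : ℤ} (h : A k z) : ml A f k z = f z := by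
  unfold ml; rw [if_pos h]

lemma ml_neg {A : ℕ → ℤ → Prop} {f : ℤ → ℂ} {k : ℕ} {z : ℤ} (h : ¬ A k z) : ml A f k z = 0 := by
  unfold ml; rw [if_neg h]

/-- vector as an element of the Euclidean space -/
noncomputable def toE (x : ι → ℂ) : EuclideanSpace ℂ ι := WithLp.toLp 2 x

lemma norm_toE (x : ι → ℂ) : ‖toE x‖ ^ 2 = n2 x := by
  unfold toE n2
  rw [EuclideanSpace.norm_sq_eq]

lemma inner_toE (x y : ι → ℂ) : inner ℂ (toE x) (toE y) = star x ⬝ᵥ y := by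
  unfold toE dotProduct
  rw [PiLp.inner_apply]
  refine Finset.sum_congr rfl fun l _ => ?_
  simp [mul_comm]

lemma Em_toE (A : ℕ → ℤ → Prop) (f : ℤ → ℂ) (Z : Matrix ι ι ℂ) (w : ℤ → ι → ℂ) (k : ℕ) (q : ℤ) :
    Em k (msk A (fun z => toE (Z *ᵥ (f z • w z))) k) q = toE (Z *ᵥ bav k q (ml A f k) w) := by
  set L : (ι → ℂ) →ₗ[ℂ] EuclideanSpace ℂ ι :=
    (WithLp.linearEquiv 2 ℂ (ι → ℂ)).symm.toLinearMap ∘ₗ Z.mulVecLin with hL
  have hLe : ∀ x, toE (Z *ᵥ x) = L x := fun x => rfl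
  have hb : bav k q (ml A f k) w =
      (1 / (2 : ℂ) ^ k) • ∑ u ∈ range (2 ^ k), ml A f k (q + (u : ℤ)) • w (q + (u : ℤ)) := by
    funext l
    unfold bav wv
    simp only [Pi.smul_apply, Finset.sum_apply, smul_eq_mul, Finset.mul_sum]
    refine Finset.sum_congr rfl fun u _ => ?_
    push_cast
    ring
  rw [hLe, hb, map_smul, map_sum]
  unfold Em
  congr 1
  refine Finset.sum_congr rfl fun u _ => ?_
  by_cases hA : A k (q + (u : ℤ))
  · rw [msk_pos _ hA, ml_pos hA]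
    exact hLe _
  · rw [msk_neg _ hA, ml_neg hA, zero_smul, map_zero]

/-- **metric form of the composition** -/
theorem metric_le (i m a b : Fin 4) (h : Dst i m a b) (Κ : ℤ → ℤ → ℂ) {bb : ℤ}
    (hbb : bb = -1 ∨ bb = -7) {W : Finset Nd} {I : Nd} (hW : Full W I) (C : ℕ) (X : Finset Nd)
    (hX : X ⊆ W) (hXb : ∀ p ∈ X, ¬ Bad W C p) (G : ℕ → Matrix ι ι ℂ) (hG : ∀ r, (G r).PosDef)
    (w v : ℕ → ℤ → ι → ℂ) (fb fa : ℕ → ℤ → ℂ)
    (hK : ∀ r : ℕ, r < (dd a b).natAbs → ∀ z z' : ℤ,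
      (sl i - sl a) * r + dd a b * z' ∈ iv I → (sl i - sl b) * r + -dd a b * z ∈ iv I →
      (sl a - sl i) * z + (sl b - sl i) * z' ∈ iv I →
      (sl i - sl m) * r + (sl a - sl m) * z + (sl b - sl m) * z' ∈ iv I →
      red i a b Κ r z z' = star (fb r z) * fa r z' * (star (w r z) ⬝ᵥ v r z')) :
    ∑ p ∈ X, ∑ x ∈ adm p.1 p.2, ‖LboxG (2 ^ p.1) bb Κ x‖ ≤
      ∑ r ∈ range (dd a b).natAbs,
        √(∑ k ∈ range (I.1 + 1), ∑ q ∈ pos W C ((sl i - sl b) * r) (-dd a b) k,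
            qf (G r) (bav k q (ml (AA W C ((sl i - sl b) * r) (-dd a b)) (fb r) k) (w r))) *
        √(∑ k ∈ range (I.1 + 1), ∑ q ∈ pos W C ((sl i - sl a) * r) (dd a b) k,
            qf (G r)⁻¹ (bav k q (ml (AA W C ((sl i - sl a) * r) (dd a b)) (fa r) k) (v r))) := by
  choose Z Y hZY hZ hY using fun r => Wa71.fac (hG r)
  have hmain := windowG_le i m a b h Κ hbb hW C X hX hXb
    (fun r z => toE (Z r *ᵥ (fb r z • w r z))) (fun r z => toE (Y r *ᵥ (fa r z • v r z))) (by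
      intro r hr z z' h1 h2 h3 h4
      rw [hK r hr z z' h1 h2 h3 h4, inner_toE, hZY, star_smul, smul_dotProduct, dotProduct_smul]
      simp only [smul_eq_mul]
      ring)
  refine hmain.trans (le_of_eq (Finset.sum_congr rfl fun r _ => ?_))
  unfold EX
  congr 1
  · congr 1
    refine Finset.sum_congr rfl fun k _ => Finset.sum_congr rfl fun q _ => ?_
    rw [Em_toE, norm_toE, hZ]
  · congr 1
    refine Finset.sum_congr rfl fun k _ => Finset.sum_congr rfl fun q _ => ?_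
    rw [Em_toE, norm_toE, hY]

lemma ml_mk (W : Finset Nd) (C : ℕ) (c d : ℤ) (f : ℤ → ℂ) (k : ℕ) :
    ml (AA W C c d) f k = Wb71.mk W C c d f k := by
  classical
  funext z
  unfold Wb71.mk
  by_cases hz : AA W C c d k z
  · rw [ml_pos hz, if_pos hz]
  · rw [ml_neg hz, if_neg hz]

lemma dd_nat (i m a b : Fin 4) (h : Dst i m a b) : (dd a b).natAbs ≤ 3 := by
  rcases dd_cases i m a b h with h | h | ⟨h | h, _⟩ | ⟨h | h, _⟩ <;> rw [h] <;> decide

/-- **(g1): ONE STATIC WINDOW, general kernel.**  `Κ` = main kernel with letters, in reduced coordinates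
`conj (fb z) fa(z') ⟨w z, V (c + d z')⟩`; `K` = any comparison kernel (the true product of the two static
letters), `κ` its leaf value, `κE` the leaf value of the difference. -/
theorem wr_total (i m a b : Fin 4) (h : Dst i m a b) (Κ : ℤ → ℤ → ℂ) {bb : ℤ}
    (hbb : bb = -1 ∨ bb = -7) {W : Finset Nd} {I : Nd} (hW : Full W I) (C : ℕ) (hC : 1 ≤ C)
    (X : Finset Nd) (hX : X ⊆ W) (hXb : ∀ p ∈ X, ¬ Bad W C p)
    (w V : ℕ → ℤ → ι → ℂ) (M : ℕ → Matrix ι ι ℂ) {τ δ H : ℝ} (hτ : 0 < τ) (hδ : 0 ≤ δ) (hH : 0 ≤ H)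
    (hM : ∀ r, (M r).PosSemidef)
    (hU : ∀ r : ℕ, r < (dd a b).natAbs → GrU W (V r) (M r) δ)
    (hL : ∀ r : ℕ, r < (dd a b).natAbs → GrL W (V r) (M r) δ)
    (hV : ∀ r : ℕ, r < (dd a b).natAbs → ∀ y, V r y ≠ 0 → ∃ z, y = (sl i - sl a) * r + dd a b * z)
    (hw : ∀ r : ℕ, r < (dd a b).natAbs → ∀ z, (sl i - sl b) * r + -dd a b * z ∈ iv I →
      n2 (w r z) ≤ H)
    (fb fa : ℕ → ℤ → ℂ) (Fb Fa : ℤ → ℂ)
    (hfb : ∀ (r : ℕ) z, ‖fb r z‖ ≤ ‖Fb ((sl i - sl b) * r + -dd a b * z)‖)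
    (hfa : ∀ (r : ℕ) z, ‖fa r z‖ ≤ ‖Fa ((sl i - sl a) * r + dd a b * z)‖)
    (A B κ κE : ℝ) (_hA0 : 0 ≤ A) (hB0 : 0 ≤ B) (hκ : 0 ≤ κ) (hκE : 0 ≤ κE)
    (hA : ∀ p ∈ W, ∑ y ∈ iv p, ‖Fa y‖ ^ 2 ≤ A * len p)
    (hB : ∀ p ∈ W, ∑ y ∈ iv p, ‖Fb y‖ ^ 2 ≤ B * len p)
    (hK : ∀ r : ℕ, r < (dd a b).natAbs → ∀ z z' : ℤ,
      (sl i - sl a) * r + dd a b * z' ∈ iv I → (sl i - sl b) * r + -dd a b * z ∈ iv I →
      (sl a - sl i) * z + (sl b - sl i) * z' ∈ iv I →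
      (sl i - sl m) * r + (sl a - sl m) * z + (sl b - sl m) * z' ∈ iv I →
      red i a b Κ r z z' = star (fb r z) * fa r z' *
        (star (w r z) ⬝ᵥ V r ((sl i - sl a) * r + dd a b * z')))
    (K : ℕ → ℤ → ℤ → ℂ)
    (hleaf : ∀ r : ℕ, r < (dd a b).natAbs → ∀ k,
      ∀ p ∈ Wa71.Pn W C ((sl i - sl b) * r) (-dd a b) k,
      Wb71.LK ((sl i - sl b) * r) (-dd a b) ((sl i - sl a) * r) (dd a b) (K r)
        (Wb71.mk W C ((sl i - sl b) * r) (-dd a b) (fb r) k) p ≤ κ * len p)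
    (herr : ∀ r : ℕ, r < (dd a b).natAbs → ∀ k,
      ∀ p ∈ Wa71.Pn W C ((sl i - sl b) * r) (-dd a b) k,
      Wb71.LK ((sl i - sl b) * r) (-dd a b) ((sl i - sl a) * r) (dd a b)
        (Wb71.Er0 (K r) (w r) (V r) ((sl i - sl a) * r) (dd a b))
        (Wb71.mk W C ((sl i - sl b) * r) (-dd a b) (fb r) k) p ≤ κE * len p) :
    ∑ p ∈ X, ∑ x ∈ adm p.1 p.2, ‖LboxG (2 ^ p.1) bb Κ x‖ ≤
      48 * (16 * (2 * (C + 2 + 1) + 1) + 1) *
        (√(2 * κ + 2 * κE + (δ + τ) * H * B) * √((1 + δ / τ) * A)) * len I := by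
  have hd := dd_ne i m a b h
  have hd1 := dd_abs i m a b h
  have hd2 : |-dd a b| ≤ 128 := by rw [abs_neg]; exact hd1
  have hmain := metric_le i m a b h Κ hbb hW C X hX hXb (fun r => met (M r) τ)
    (fun r => met_posDef (hM r) hτ) w
    (fun r z' => V r ((sl i - sl a) * r + dd a b * z')) fb fa hK
  refine hmain.trans ?_
  set K1 : ℝ := 16 * (2 * ((C : ℝ) + 2 + 1) + 1) + 1 with hK1
  have hK10 : 0 ≤ K1 := by positivity
  have hl0 : 0 ≤ len I := (Qe292.len_pos I).le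
  set P : ℝ := 2 * κ + 2 * κE + (δ + τ) * H * B with hP
  have hP0 : 0 ≤ P := by positivity
  have hterm : ∀ r ∈ range (dd a b).natAbs,
      √(∑ k ∈ range (I.1 + 1), ∑ q ∈ pos W C ((sl i - sl b) * r) (-dd a b) k,
            qf (met (M r) τ) (bav k q (ml (AA W C ((sl i - sl b) * r) (-dd a b)) (fb r) k) (w r))) *
        √(∑ k ∈ range (I.1 + 1), ∑ q ∈ pos W C ((sl i - sl a) * r) (dd a b) k,
            qf (met (M r) τ)⁻¹ (bav k q (ml (AA W C ((sl i - sl a) * r) (dd a b)) (fa r) k)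
              (fun z' => V r ((sl i - sl a) * r + dd a b * z')))) ≤
      16 * K1 * (√P * √((1 + δ / τ) * A)) * len I := by
    intro r hr
    have hr' := Finset.mem_range.1 hr
    have hb := Wb71.be_total hW C hC ((sl i - sl b) * r) ((sl i - sl a) * r) (neg_ne_zero.2 hd) hd2
      hd (δ := δ) (τ := τ) (H := H) (by positivity) hH (hL r hr') (hV r hr') (w r) (hw r hr') (K r)
      (fb r) Fb (hfb r) B κ κE hκ hκE hB (hleaf r hr') (herr r hr')
    have ha := Wa71.al_sum hW C ((sl i - sl a) * r) hd hd1 (hM r) hτ hδ (hU r hr') (fa r) Fa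
      (hfa r) A hA
    simp only [ml_mk]
    have ha' : ∑ k ∈ range (I.1 + 1), ∑ q ∈ pos W C ((sl i - sl a) * r) (dd a b) k,
        qf (met (M r) τ)⁻¹ (bav k q (Wb71.mk W C ((sl i - sl a) * r) (dd a b) (fa r) k)
              (fun z' => V r ((sl i - sl a) * r + dd a b * z'))) ≤
        2 ^ 8 * (1 + δ / τ) * (K1 * A * len I) := by
      refine le_trans (le_of_eq ?_) ha
      refine Finset.sum_congr rfl fun k _ => Finset.sum_congr rfl fun q _ => ?_
      congr 2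
    have e1 : 2 ^ 8 * (1 + δ / τ) * (K1 * A * len I) =
        16 ^ 2 * (K1 * len I * ((1 + δ / τ) * A)) := by ring
    have e2 : K1 * P * len I = K1 * len I * P := by ring
    rw [e1] at ha'
    rw [e2] at hb
    refine (mul_le_mul (Real.sqrt_le_sqrt hb) (Real.sqrt_le_sqrt ha') (Real.sqrt_nonneg _)
      (Real.sqrt_nonneg _)).trans (le_of_eq ?_)
    have s1 : √(K1 * len I * P) = √(K1 * len I) * √P := Real.sqrt_mul (by positivity) _
    have s2 : √(16 ^ 2 * (K1 * len I * ((1 + δ / τ) * A))) =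
        16 * (√(K1 * len I) * √((1 + δ / τ) * A)) := by
      rw [Real.sqrt_mul (by positivity), Real.sqrt_sq (by norm_num),
        Real.sqrt_mul (by positivity : 0 ≤ K1 * len I)]
    rw [s1, s2]
    have e3 : √(K1 * len I) * √(K1 * len I) = K1 * len I := Real.mul_self_sqrt (by positivity)
    calc √(K1 * len I) * √P * (16 * (√(K1 * len I) * √((1 + δ / τ) * A)))
        = 16 * (√(K1 * len I) * √(K1 * len I)) * (√P * √((1 + δ / τ) * A)) := by ring
      _ = _ := by rw [e3]; ring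
  refine (Finset.sum_le_sum hterm).trans ?_
  rw [Finset.sum_const, Finset.card_range, nsmul_eq_mul]
  have h3 : (((dd a b).natAbs : ℕ) : ℝ) ≤ 3 := by exact_mod_cast dd_nat i m a b h
  calc (((dd a b).natAbs : ℕ) : ℝ) * (16 * K1 * (√P * √((1 + δ / τ) * A)) * len I)
      ≤ 3 * (16 * K1 * (√P * √((1 + δ / τ) * A)) * len I) :=
        mul_le_mul_of_nonneg_right h3 (by positivity)
    _ = _ := by ring

end Crest.Agent.R079.Wr408
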