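import Crest.Agent.R079.YLeaf_960

/-! R079, doc 2531 STEP II, leaf term (helper960), continued: `Oct R ≤ m₀ m₁ m₂ ‖R‖₂²` (one
Cauchy-Schwarz over the cube, `U³ ≤ L²` for letters with bounded fibres) and the resulting leaf
bounds with `L²` data only. -/

set_option autoImplicit false

namespace Crest.Agent.R079.YLeaf

open Finset

variable {ι₀ ι₁ ι₂ ι₃ : Type*} [Fintype ι₀] [Fintype ι₁] [Fintype ι₂] [Fintype ι₃]

/-- `Oct` is bounded by the sum over the cube of the product of the eight moduli, hence (one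
Cauchy-Schwarz) by the `L²` data -/
theorem Oct_le_L2 (R : ι₀ → ι₁ → ι₂ → ℂ) (m₀ m₁ m₂ : ℝ) 
    (h0 : ∀ b c, ∑ a, ‖R a b c‖ ^ 2 ≤ m₀) (h1 : ∀ a c, ∑ b, ‖R a b c‖ ^ 2 ≤ m₁)
    (h2 : ∀ a b, ∑ c, ‖R a b c‖ ^ 2 ≤ m₂) (hm0 : 0 ≤ m₀) (hm1 : 0 ≤ m₁) (hm2 : 0 ≤ m₂) :
    Oct R ≤ m₀ * m₁ * m₂ * ∑ a, ∑ b, ∑ c, ‖R a b c‖ ^ 2 := by
  -- index of the cube
  let I := (ι₀ × ι₀) × (ι₁ × ι₁) × (ι₂ × ι₂)
  let f : I → ℝ := fun z => ‖R z.1.1 z.2.1.1 z.2.2.1‖ * ‖R z.1.2 z.2.1.1 z.2.2.1‖ *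
    (‖R z.1.1 z.2.1.2 z.2.2.1‖ * ‖R z.1.1 z.2.1.1 z.2.2.2‖)
  let g : I → ℝ := fun z => ‖R z.1.2 z.2.1.2 z.2.2.2‖ * ‖R z.1.1 z.2.1.2 z.2.2.2‖ *
    (‖R z.1.2 z.2.1.1 z.2.2.2‖ * ‖R z.1.2 z.2.1.2 z.2.2.1‖)
  have hO : Oct R ≤ ∑ z : I, f z * g z := by
    unfold Oct bx
    have e1 : ∀ a a' (b b' : ι₂),
        ‖∑ x, R x a b * (starRingEnd ℂ) (R x a' b) * ((starRingEnd ℂ) (R x a b') * R x a' b')‖ ^ 2
        ≤ ∑ x, ∑ x', f ((x, x'), (a, a'), (b, b')) * g ((x, x'), (a, a'), (b, b')) := by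
      intro a a' b b'
      have h3 : ‖∑ x, R x a b * (starRingEnd ℂ) (R x a' b) *
          ((starRingEnd ℂ) (R x a b') * R x a' b')‖
          ≤ ∑ x, ‖R x a b‖ * ‖R x a' b‖ * (‖R x a b'‖ * ‖R x a' b'‖) := by
        refine (norm_sum_le _ _).trans (le_of_eq ?_)
        refine Finset.sum_congr rfl fun x _ => ?_
        simp only [norm_mul, RCLike.norm_conj]
      refine (pow_le_pow_left₀ (norm_nonneg _) h3 2).trans (le_of_eq ?_)
      rw [sq, Finset.sum_mul_sum]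
      refine Finset.sum_congr rfl fun x _ => Finset.sum_congr rfl fun x' _ => ?_
      simp only [f, g]
      ring
    refine (Finset.sum_le_sum fun a _ => Finset.sum_le_sum fun a' _ =>
      Finset.sum_le_sum fun b _ => Finset.sum_le_sum fun b' _ => e1 a a' b b').trans (le_of_eq ?_)
    simp only [I, Fintype.sum_prod_type]
    -- Σ a a' b b' x x'  =  Σ x x' a a' b b'
    have c1 : ∀ (F : ι₁ → ι₁ → ι₂ → ι₂ → ι₀ → ι₀ → ℝ),
        ∑ a, ∑ a', ∑ b, ∑ b', ∑ x, ∑ x', F a a' b b' x x'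
          = ∑ x, ∑ x', ∑ a, ∑ a', ∑ b, ∑ b', F a a' b b' x x' := by
      intro F
      have d1 : ∀ a a' (b : ι₂), ∑ b', ∑ x, ∑ x', F a a' b b' x x'
          = ∑ x, ∑ x', ∑ b', F a a' b b' x x' := by
        intro a a' b
        rw [Finset.sum_comm]
        exact Finset.sum_congr rfl fun x _ => Finset.sum_comm
      have d2 : ∀ a a', ∑ b, ∑ x, ∑ x', ∑ b', F a a' b b' x x'
          = ∑ x, ∑ x', ∑ b, ∑ b', F a a' b b' x x' := by
        intro a a'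
        rw [Finset.sum_comm]
        exact Finset.sum_congr rfl fun x _ => Finset.sum_comm
      have d3 : ∀ a, ∑ a', ∑ x, ∑ x', ∑ b, ∑ b', F a a' b b' x x'
          = ∑ x, ∑ x', ∑ a', ∑ b, ∑ b', F a a' b b' x x' := by
        intro a
        rw [Finset.sum_comm]
        exact Finset.sum_congr rfl fun x _ => Finset.sum_comm
      simp only [d1, d2, d3]
      rw [Finset.sum_comm]
      exact Finset.sum_congr rfl fun x _ => Finset.sum_comm
    exact c1 fun a a' b b' x x' =>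
      f ((x, x'), (a, a'), (b, b')) * g ((x, x'), (a, a'), (b, b'))
  have hfg : (∑ z : I, f z * g z) ^ 2 ≤ (∑ z : I, f z ^ 2) * ∑ z : I, g z ^ 2 :=
    Finset.sum_mul_sq_le_sq_mul_sq _ _ _
  set S := ∑ a, ∑ b, ∑ c, ‖R a b c‖ ^ 2 with hS
  have hS0 : 0 ≤ S := Finset.sum_nonneg fun _ _ => Finset.sum_nonneg fun _ _ =>
    Finset.sum_nonneg fun _ _ => by positivity
  have hf : ∑ z : I, f z ^ 2 ≤ m₀ * m₁ * m₂ * S := by
    have e2 : ∑ z : I, f z ^ 2 = ∑ a, ∑ b, ∑ c, ‖R a b c‖ ^ 2 *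
        ((∑ a', ‖R a' b c‖ ^ 2) * ((∑ b', ‖R a b' c‖ ^ 2) * ∑ c', ‖R a b c'‖ ^ 2)) := by
      simp only [I, Fintype.sum_prod_type, f, mul_pow, Finset.mul_sum, Finset.sum_mul]
      refine Finset.sum_congr rfl fun a _ => ?_
      -- Σ a' b b' c c' = Σ b c ...
      rw [Finset.sum_comm]
      refine Finset.sum_congr rfl fun b _ => ?_
      have d : ∀ (F : ι₀ → ι₁ → ι₂ → ι₂ → ℝ), ∑ a', ∑ b', ∑ c, ∑ c', F a' b' c c'
          = ∑ c, ∑ c', ∑ b', ∑ a', F a' b' c c' := by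
        intro F
        have d1 : ∀ a', ∑ b', ∑ c, ∑ c', F a' b' c c' = ∑ c, ∑ c', ∑ b', F a' b' c c' := by
          intro a'
          rw [Finset.sum_comm]
          exact Finset.sum_congr rfl fun c _ => Finset.sum_comm
        simp only [d1]
        rw [Finset.sum_comm]
        refine Finset.sum_congr rfl fun c _ => ?_
        rw [Finset.sum_comm]
        exact Finset.sum_congr rfl fun c' _ => Finset.sum_comm
      rw [d]
      refine Finset.sum_congr rfl fun c _ => Finset.sum_congr rfl fun c' _ =>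
        Finset.sum_congr rfl fun b' _ => Finset.sum_congr rfl fun a' _ => ?_
      ring
    rw [e2, hS, Finset.mul_sum]
    refine Finset.sum_le_sum fun a _ => ?_
    rw [Finset.mul_sum]
    refine Finset.sum_le_sum fun b _ => ?_
    rw [Finset.mul_sum]
    refine Finset.sum_le_sum fun c _ => ?_
    have n0 : 0 ≤ ∑ a', ‖R a' b c‖ ^ 2 := Finset.sum_nonneg fun _ _ => by positivity
    have n1 : 0 ≤ ∑ b', ‖R a b' c‖ ^ 2 := Finset.sum_nonneg fun _ _ => by positivity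
    have n2 : 0 ≤ ∑ c', ‖R a b c'‖ ^ 2 := Finset.sum_nonneg fun _ _ => by positivity
    have n3 : 0 ≤ ‖R a b c‖ ^ 2 := by positivity
    calc ‖R a b c‖ ^ 2 * ((∑ a', ‖R a' b c‖ ^ 2) * ((∑ b', ‖R a b' c‖ ^ 2) * ∑ c', ‖R a b c'‖ ^ 2))
        ≤ ‖R a b c‖ ^ 2 * (m₀ * (m₁ * m₂)) := by
          refine mul_le_mul_of_nonneg_left ?_ n3
          refine mul_le_mul (h0 b c) ?_ (by positivity) hm0
          exact mul_le_mul (h1 a c) (h2 a b) n2 hm1
      _ = m₀ * m₁ * m₂ * ‖R a b c‖ ^ 2 := by ring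
  have hg : ∑ z : I, g z ^ 2 = ∑ z : I, f z ^ 2 := by
    -- flip all three pairs
    have e : ∑ z : I, g z ^ 2 = ∑ z : I, f (z.1.swap, z.2.1.swap, z.2.2.swap) ^ 2 := rfl
    rw [e]
    refine Fintype.sum_equiv ((Equiv.prodComm _ _).prodCongr
      ((Equiv.prodComm _ _).prodCongr (Equiv.prodComm _ _))) _ _ fun z => ?_
    rfl
  have hF0 : 0 ≤ ∑ z : I, f z ^ 2 := Finset.sum_nonneg fun _ _ => by positivity
  have hfg0 : 0 ≤ ∑ z : I, f z * g z := Finset.sum_nonneg fun _ _ => by positivity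
  have h4 : (∑ z : I, f z * g z) ^ 2 ≤ (∑ z : I, f z ^ 2) ^ 2 := by
    rw [hg] at hfg
    calc _ ≤ _ := hfg
      _ = _ := by ring
  have h5 : ∑ z : I, f z * g z ≤ ∑ z : I, f z ^ 2 := by
    exact (abs_le_of_sq_le_sq' h4 hF0).2
  exact hO.trans (h5.trans hf)

end Crest.Agent.R079.YLeaf
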