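import Mathlib

/-! R079, doc 2531 STEP II, the LEAF TERM (helper960), ABSTRACT form (finite index types, complex
letters, unnormalised sums).

Names: `P(1,2,3)` frozen, `R(0,1,2)` killer, `Y(0,1,3)` one of the two arbitrary letters. -/

set_option autoImplicit false

namespace Crest.Agent.R079.YLeaf

open Finset

/-- complex Cauchy-Schwarz, unnormalised, any finset -/
theorem cs {ι : Type*} (s : Finset ι) (f g : ι → ℂ) :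
    ‖∑ i ∈ s, f i * g i‖ ^ 2 ≤ (∑ i ∈ s, ‖f i‖ ^ 2) * ∑ i ∈ s, ‖g i‖ ^ 2 := by
  have h1 : ‖∑ i ∈ s, f i * g i‖ ≤ ∑ i ∈ s, ‖f i‖ * ‖g i‖ := by
    refine (norm_sum_le _ _).trans (Finset.sum_le_sum fun i _ => ?_)
    rw [norm_mul]
  calc ‖∑ i ∈ s, f i * g i‖ ^ 2 ≤ (∑ i ∈ s, ‖f i‖ * ‖g i‖) ^ 2 :=
        pow_le_pow_left₀ (norm_nonneg _) h1 2
    _ ≤ _ := Finset.sum_mul_sq_le_sq_mul_sq _ _ _

theorem cs' {ι : Type*} (s : Finset ι) (f g : ι → ℂ) :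
    ‖∑ i ∈ s, f i * g i‖ ≤ Real.sqrt (∑ i ∈ s, ‖f i‖ ^ 2) * Real.sqrt (∑ i ∈ s, ‖g i‖ ^ 2) := by
  rw [← Real.sqrt_mul (Finset.sum_nonneg fun i _ => by positivity)]
  exact Real.le_sqrt_of_sq_le (cs s f g)

variable {ι₀ ι₁ ι₂ ι₃ : Type*} [Fintype ι₀] [Fintype ι₁] [Fintype ι₂] [Fintype ι₃]

/-- `S₄⁴` of a matrix `K(1,2)` -/
noncomputable def S4 (K : ι₁ → ι₂ → ℂ) : ℝ :=
  ∑ a, ∑ a', ‖∑ b, K a b * (starRingEnd ℂ) (K a' b)‖ ^ 2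

theorem S4_nonneg (K : ι₁ → ι₂ → ℂ) : 0 ≤ S4 K :=
  Finset.sum_nonneg fun _ _ => Finset.sum_nonneg fun _ _ => by positivity

/-- the expansion of a square sum -/
theorem sq_expand (K : ι₁ → ι₂ → ℂ) (y : ι₁ → ℂ) :
    ((∑ b, ‖∑ a, K a b * y a‖ ^ 2 : ℝ) : ℂ)
      = ∑ z : ι₁ × ι₁, (y z.1 * (starRingEnd ℂ) (y z.2)) *
        ∑ b, K z.1 b * (starRingEnd ℂ) (K z.2 b) := by
  have hb : ∀ b, ((‖∑ a, K a b * y a‖ ^ 2 : ℝ) : ℂ) =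
      ∑ a, ∑ a', (y a * (starRingEnd ℂ) (y a')) * (K a b * (starRingEnd ℂ) (K a' b)) := by
    intro b
    push_cast
    rw [← Complex.mul_conj', map_sum, Finset.sum_mul_sum]
    refine Finset.sum_congr rfl fun a _ => Finset.sum_congr rfl fun a' _ => ?_
    rw [map_mul]
    ring
  rw [Complex.ofReal_sum, Finset.sum_congr rfl fun b _ => hb b, Finset.sum_comm,
    Fintype.sum_prod_type]
  refine Finset.sum_congr rfl fun a _ => ?_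
  rw [Finset.sum_comm]
  refine Finset.sum_congr rfl fun a' _ => ?_
  rw [Finset.mul_sum]

/-- **op norm ≤ S₄** in quadratic form -/
theorem quad_le (K : ι₁ → ι₂ → ℂ) (y : ι₁ → ℂ) :
    ∑ b, ‖∑ a, K a b * y a‖ ^ 2 ≤ Real.sqrt (S4 K) * ∑ a, ‖y a‖ ^ 2 := by
  have h0 : 0 ≤ ∑ b, ‖∑ a, K a b * y a‖ ^ 2 := Finset.sum_nonneg fun _ _ => by positivity
  have h1 := sq_expand K y
  have h2 : ∑ b, ‖∑ a, K a b * y a‖ ^ 2 =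
      ‖∑ z : ι₁ × ι₁, (y z.1 * (starRingEnd ℂ) (y z.2)) *
        ∑ b, K z.1 b * (starRingEnd ℂ) (K z.2 b)‖ := by
    rw [← h1, Complex.norm_real, Real.norm_of_nonneg h0]
  rw [h2]
  refine (cs' _ _ _).trans ?_
  rw [mul_comm]
  refine mul_le_mul (le_of_eq ?_) (le_of_eq ?_) (Real.sqrt_nonneg _) (Real.sqrt_nonneg _)
  · congr 1
    rw [Fintype.sum_prod_type]
    rfl
  · rw [show (∑ z : ι₁ × ι₁, ‖y z.1 * (starRingEnd ℂ) (y z.2)‖ ^ 2)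
        = (∑ a, ‖y a‖ ^ 2) ^ 2 from ?_]
    · exact Real.sqrt_sq (Finset.sum_nonneg fun _ _ => by positivity)
    · rw [Fintype.sum_prod_type, sq (∑ a, ‖y a‖ ^ 2), Finset.sum_mul_sum]
      refine Finset.sum_congr rfl fun a _ => Finset.sum_congr rfl fun a' _ => ?_
      rw [norm_mul, RCLike.norm_conj, mul_pow]

/-- **(Y1)** leaf term, general kernel -/
theorem leaf_S4 (K : ι₀ → ι₃ → ι₁ → ι₂ → ℂ) (Y : ι₀ → ι₁ → ι₃ → ℂ) (y : ℝ)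
    (hY : ∀ x₀ x₃, ∑ x₁, ‖Y x₀ x₁ x₃‖ ^ 2 ≤ y) :
    ∑ x₀, ∑ x₃, ∑ x₂, ‖∑ x₁, K x₀ x₃ x₁ x₂ * Y x₀ x₁ x₃‖ ^ 2
      ≤ y * (Real.sqrt (Fintype.card ι₀ * Fintype.card ι₃) *
        Real.sqrt (∑ x₀, ∑ x₃, S4 (K x₀ x₃))) := by
  have hy : ∀ x₀ x₃, 0 ≤ ∑ x₁, ‖Y x₀ x₁ x₃‖ ^ 2 := fun x₀ x₃ =>
    Finset.sum_nonneg fun _ _ => by positivity
  have h1 : ∑ x₀, ∑ x₃, ∑ x₂, ‖∑ x₁, K x₀ x₃ x₁ x₂ * Y x₀ x₁ x₃‖ ^ 2
      ≤ ∑ x₀, ∑ x₃, y * Real.sqrt (S4 (K x₀ x₃)) := by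
    refine Finset.sum_le_sum fun x₀ _ => Finset.sum_le_sum fun x₃ _ => ?_
    refine (quad_le (K x₀ x₃) (fun x₁ => Y x₀ x₁ x₃)).trans ?_
    rw [mul_comm]
    exact mul_le_mul_of_nonneg_right (hY x₀ x₃) (Real.sqrt_nonneg _)
  refine h1.trans ?_
  by_cases hne : Nonempty ι₀ ∧ Nonempty ι₃
  · obtain ⟨⟨x₀⟩, ⟨x₃⟩⟩ := hne
    have hy0 : 0 ≤ y := (hy x₀ x₃).trans (hY x₀ x₃)
    simp only [← Finset.mul_sum]
    refine mul_le_mul_of_nonneg_left ?_ hy0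
    have h2 : (∑ x₀, ∑ x₃, Real.sqrt (S4 (K x₀ x₃))) ^ 2
        ≤ (Fintype.card ι₀ * Fintype.card ι₃ : ℝ) * ∑ x₀, ∑ x₃, S4 (K x₀ x₃) := by
      have h3 := Finset.sum_mul_sq_le_sq_mul_sq (Finset.univ : Finset (ι₀ × ι₃))
        (fun _ => (1 : ℝ)) (fun z => Real.sqrt (S4 (K z.1 z.2)))
      simp only [one_mul, one_pow, Finset.sum_const, Finset.card_univ, Fintype.card_prod,
        nsmul_eq_mul, mul_one, Nat.cast_mul, Fintype.sum_prod_type,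
        Real.sq_sqrt (S4_nonneg _)] at h3
      exact h3
    rw [← Real.sqrt_mul (by positivity)]
    exact Real.le_sqrt_of_sq_le h2
  · have h0 : ∑ x₀ : ι₀, ∑ x₃ : ι₃, y * Real.sqrt (S4 (K x₀ x₃)) = 0 := by
      by_cases h : IsEmpty ι₀
      · simp
      · rw [not_isEmpty_iff] at h
        have h' : IsEmpty ι₃ := by
          by_contra h''
          rw [not_isEmpty_iff] at h''
          exact hne ⟨h, h''⟩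
        simp
    have h0' : ((Fintype.card ι₀ : ℝ) * Fintype.card ι₃) = 0 := by
      by_cases h : IsEmpty ι₀
      · simp
      · rw [not_isEmpty_iff] at h
        have h' : IsEmpty ι₃ := by
          by_contra h''
          rw [not_isEmpty_iff] at h''
          exact hne ⟨h, h''⟩
        simp
    rw [h0, h0']
    simp

/-- box product of a letter `R(0,1,2)` summed over its first variable:
`E₀ R(0,1,2) R̄(0,1',2) R̄(0,1,2') R(0,1',2')` -/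
noncomputable def bx (R : ι₀ → ι₁ → ι₂ → ℂ) (a a' : ι₁) (b b' : ι₂) : ℂ :=
  ∑ x, R x a b * (starRingEnd ℂ) (R x a' b) * ((starRingEnd ℂ) (R x a b') * R x a' b')

/-- octahedral sum `Σ_{1,1',2,2'} |E₀ □ R|²` (`= Σ` over the 8 vertices of the cube) -/
noncomputable def Oct (R : ι₀ → ι₁ → ι₂ → ℂ) : ℝ :=
  ∑ a, ∑ a', ∑ b, ∑ b', ‖bx R a a' b b'‖ ^ 2

theorem Oct_nonneg (R : ι₀ → ι₁ → ι₂ → ℂ) : 0 ≤ Oct R :=
  Finset.sum_nonneg fun _ _ => Finset.sum_nonneg fun _ _ =>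
    Finset.sum_nonneg fun _ _ => Finset.sum_nonneg fun _ _ => by positivity

/-- `S₄` of the entrywise product, summed over the two outer variables -/
theorem sum_S4_prod (P : ι₃ → ι₁ → ι₂ → ℂ) (R : ι₀ → ι₁ → ι₂ → ℂ) :
    ((∑ x₀, ∑ x₃, S4 (fun a b => P x₃ a b * R x₀ a b) : ℝ) : ℂ)
      = ∑ z : (ι₁ × ι₁) × (ι₂ × ι₂), bx P z.1.1 z.1.2 z.2.1 z.2.2 *
        bx R z.1.1 z.1.2 z.2.1 z.2.2 := by
  unfold S4 bx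
  push_cast
  simp only [← Complex.mul_conj', map_sum, map_mul, Finset.sum_mul_sum, Fintype.sum_prod_type,
    Complex.conj_conj]
  -- LHS : Σ x0 Σ x3 Σ a Σ a' Σ b Σ b' ; RHS : Σ a Σ a' Σ b Σ b' Σ x3 Σ x0
  rw [Finset.sum_comm]
  have e1 : ∀ (f : ι₃ → ι₀ → ι₁ → ι₁ → ι₂ → ι₂ → ℂ),
      ∑ x₃, ∑ x₀, ∑ a, ∑ a', ∑ b, ∑ b', f x₃ x₀ a a' b b'
        = ∑ a, ∑ a', ∑ b, ∑ b', ∑ x₃, ∑ x₀, f x₃ x₀ a a' b b' := by
    intro f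
    have c1 : ∀ (x₃ : ι₃), ∑ x₀, ∑ a, ∑ a', ∑ b, ∑ b', f x₃ x₀ a a' b b'
        = ∑ a, ∑ a', ∑ b, ∑ b', ∑ x₀, f x₃ x₀ a a' b b' := by
      intro x₃
      rw [Finset.sum_comm]
      refine Finset.sum_congr rfl fun a _ => ?_
      rw [Finset.sum_comm]
      refine Finset.sum_congr rfl fun a' _ => ?_
      rw [Finset.sum_comm]
      refine Finset.sum_congr rfl fun b _ => ?_
      rw [Finset.sum_comm]
    rw [Finset.sum_congr rfl fun x₃ _ => c1 x₃]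
    rw [Finset.sum_comm]
    refine Finset.sum_congr rfl fun a _ => ?_
    rw [Finset.sum_comm]
    refine Finset.sum_congr rfl fun a' _ => ?_
    rw [Finset.sum_comm]
    refine Finset.sum_congr rfl fun b _ => ?_
    rw [Finset.sum_comm]
  rw [e1]
  refine Finset.sum_congr rfl fun a _ => Finset.sum_congr rfl fun a' _ =>
    Finset.sum_congr rfl fun b _ => Finset.sum_congr rfl fun b' _ =>
    Finset.sum_congr rfl fun x₃ _ => Finset.sum_congr rfl fun x₀ _ => ?_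
  ring

/-- **(Y2)** `Σ_{0,3} S₄⁴(P R) ≤ (Oct P · Oct R)^{1/2}` -/
theorem sum_S4_le_Oct (P : ι₃ → ι₁ → ι₂ → ℂ) (R : ι₀ → ι₁ → ι₂ → ℂ) :
    ∑ x₀, ∑ x₃, S4 (fun a b => P x₃ a b * R x₀ a b)
      ≤ Real.sqrt (Oct P) * Real.sqrt (Oct R) := by
  have h0 : 0 ≤ ∑ x₀, ∑ x₃, S4 (fun a b => P x₃ a b * R x₀ a b) :=
    Finset.sum_nonneg fun _ _ => Finset.sum_nonneg fun _ _ => S4_nonneg _
  have h2 : ∑ x₀, ∑ x₃, S4 (fun a b => P x₃ a b * R x₀ a b)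
      = ‖∑ z : (ι₁ × ι₁) × (ι₂ × ι₂), bx P z.1.1 z.1.2 z.2.1 z.2.2 *
        bx R z.1.1 z.1.2 z.2.1 z.2.2‖ := by
    rw [← sum_S4_prod, Complex.norm_real, Real.norm_of_nonneg h0]
  rw [h2]
  refine (cs' _ _ _).trans (le_of_eq ?_)
  unfold Oct
  simp only [Fintype.sum_prod_type]

/-- **(Y1)+(Y2)** the leaf term of doc 2531 -/
theorem leaf_Oct (P : ι₃ → ι₁ → ι₂ → ℂ) (R : ι₀ → ι₁ → ι₂ → ℂ) (Y : ι₀ → ι₁ → ι₃ → ℂ) (y : ℝ)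
    (hy : 0 ≤ y) (hY : ∀ x₀ x₃, ∑ x₁, ‖Y x₀ x₁ x₃‖ ^ 2 ≤ y) :
    ∑ x₀, ∑ x₃, ∑ x₂, ‖∑ x₁, (P x₃ x₁ x₂ * R x₀ x₁ x₂) * Y x₀ x₁ x₃‖ ^ 2
      ≤ y * (Real.sqrt (Fintype.card ι₀ * Fintype.card ι₃) *
        Real.sqrt (Real.sqrt (Oct P) * Real.sqrt (Oct R))) := by
  refine (leaf_S4 (fun x₀ x₃ a b => P x₃ a b * R x₀ a b) Y y hY).trans ?_
  refine mul_le_mul_of_nonneg_left ?_ hy
  refine mul_le_mul_of_nonneg_left ?_ (Real.sqrt_nonneg _)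
  exact Real.sqrt_le_sqrt (sum_S4_le_Oct P R)

/-- **(Y3)** (helper247) the arbitrary letter `Y` is a bounded gauge of the killer `R`:
`Σ_{023} |Σ_1 P R Y|² ≤ (Σ_{3,2,1,1'} |P|²|P'|²)^{1/2} (Σ_{23} S₄⁴(R^{x₂} Y^{x₃}))^{1/2}` -/
theorem leaf_247 (P : ι₃ → ι₁ → ι₂ → ℂ) (R : ι₀ → ι₁ → ι₂ → ℂ) (Y : ι₀ → ι₁ → ι₃ → ℂ) :
    ∑ x₂, ∑ x₃, ∑ x₀, ‖∑ x₁, (R x₀ x₁ x₂ * Y x₀ x₁ x₃) * P x₃ x₁ x₂‖ ^ 2
      ≤ Real.sqrt (∑ x₂, ∑ x₃, (∑ x₁, ‖P x₃ x₁ x₂‖ ^ 2) ^ 2) *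
        Real.sqrt (∑ x₂, ∑ x₃, S4 (fun x₁ x₀ => R x₀ x₁ x₂ * Y x₀ x₁ x₃)) := by
  have h1 : ∑ x₂, ∑ x₃, ∑ x₀, ‖∑ x₁, (R x₀ x₁ x₂ * Y x₀ x₁ x₃) * P x₃ x₁ x₂‖ ^ 2
      ≤ ∑ x₂, ∑ x₃, (∑ x₁, ‖P x₃ x₁ x₂‖ ^ 2) *
        Real.sqrt (S4 (fun x₁ x₀ => R x₀ x₁ x₂ * Y x₀ x₁ x₃)) := by
    refine Finset.sum_le_sum fun x₂ _ => Finset.sum_le_sum fun x₃ _ => ?_
    rw [mul_comm]
    exact quad_le (fun x₁ x₀ => R x₀ x₁ x₂ * Y x₀ x₁ x₃) (fun x₁ => P x₃ x₁ x₂)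
  refine h1.trans ?_
  have h3 := Finset.sum_mul_sq_le_sq_mul_sq (Finset.univ : Finset (ι₂ × ι₃))
    (fun z => ∑ x₁, ‖P z.2 x₁ z.1‖ ^ 2)
    (fun z => Real.sqrt (S4 (fun x₁ x₀ => R x₀ x₁ z.1 * Y x₀ x₁ z.2)))
  simp only [Fintype.sum_prod_type, Real.sq_sqrt (S4_nonneg _)] at h3
  rw [← Real.sqrt_mul (Finset.sum_nonneg fun _ _ => Finset.sum_nonneg fun _ _ => by positivity)]
  exact Real.le_sqrt_of_sq_le h3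

end Crest.Agent.R079.YLeaf
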