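import Mathlib

/-! R079, doc 2531 Step I (S): YOUNG STEP for the arbitrary LINE letter (helper259).
No sup norm of the letter is used. -/

set_option autoImplicit false

namespace Crest.Agent.R079.Yg259

open Finset

/-- injective affine substitution into a finite set -/
theorem sum_affine_le (I S : Finset ℤ) (a c : ℤ) (hc : c ≠ 0) (w : ℤ → ℝ) (hw : ∀ s, 0 ≤ w s)
    (hS : ∀ x ∈ I, a + c * x ∈ S) : ∑ x ∈ I, w (a + c * x) ≤ ∑ s ∈ S, w s := by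
  have hinj : Set.InjOn (fun x : ℤ => a + c * x) I := by
    intro x _ y _ h
    have h' : c * x = c * y := by simpa using h
    exact mul_left_cancel₀ hc h'
  have h1 : ∑ x ∈ I, w (a + c * x) = ∑ s ∈ I.image (fun x : ℤ => a + c * x), w s :=
    (Finset.sum_image hinj).symm
  rw [h1]
  refine Finset.sum_le_sum_of_subset_of_nonneg ?_ (fun s _ _ => hw s)
  intro s hs
  obtain ⟨x, hx, rfl⟩ := Finset.mem_image.1 hs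
  exact hS x hx

/-- Young: `‖K * φ‖₂ ≤ ‖K‖₂ ‖φ‖₁` for the affine convolution `x₁ ↦ ∑ K(x₀) φ(a + c₀x₀ + c₁x₁)` -/
theorem young (I0 I1 S : Finset ℤ) (a c0 c1 : ℤ) (h0 : c0 ≠ 0) (h1 : c1 ≠ 0) (K φ : ℤ → ℂ)
    (hS : ∀ x0 ∈ I0, ∀ x1 ∈ I1, a + c0 * x0 + c1 * x1 ∈ S) :
    ∑ x1 ∈ I1, ‖∑ x0 ∈ I0, K x0 * φ (a + c0 * x0 + c1 * x1)‖ ^ 2 ≤
      (∑ x0 ∈ I0, ‖K x0‖ ^ 2) * (∑ s ∈ S, ‖φ s‖) ^ 2 := by
  set P : ℝ := ∑ s ∈ S, ‖φ s‖ with hP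
  have hP0 : 0 ≤ P := Finset.sum_nonneg fun s _ => norm_nonneg _
  have hcs : ∀ x1 ∈ I1, ‖∑ x0 ∈ I0, K x0 * φ (a + c0 * x0 + c1 * x1)‖ ^ 2 ≤
      (∑ x0 ∈ I0, ‖K x0‖ ^ 2 * ‖φ (a + c0 * x0 + c1 * x1)‖) * P := by
    intro x1 hx1
    have e1 : ‖∑ x0 ∈ I0, K x0 * φ (a + c0 * x0 + c1 * x1)‖ ≤
        ∑ x0 ∈ I0, (‖K x0‖ * Real.sqrt ‖φ (a + c0 * x0 + c1 * x1)‖) *
          Real.sqrt ‖φ (a + c0 * x0 + c1 * x1)‖ := by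
      refine (norm_sum_le _ _).trans (Finset.sum_le_sum fun x0 _ => ?_)
      rw [norm_mul, mul_assoc, Real.mul_self_sqrt (norm_nonneg _)]
    have e2 : (∑ x0 ∈ I0, (‖K x0‖ * Real.sqrt ‖φ (a + c0 * x0 + c1 * x1)‖) *
          Real.sqrt ‖φ (a + c0 * x0 + c1 * x1)‖) ^ 2 ≤
        (∑ x0 ∈ I0, (‖K x0‖ * Real.sqrt ‖φ (a + c0 * x0 + c1 * x1)‖) ^ 2) *
          ∑ x0 ∈ I0, Real.sqrt ‖φ (a + c0 * x0 + c1 * x1)‖ ^ 2 :=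
      Finset.sum_mul_sq_le_sq_mul_sq _ _ _
    have e3 : ∑ x0 ∈ I0, Real.sqrt ‖φ (a + c0 * x0 + c1 * x1)‖ ^ 2 ≤ P := by
      have : ∀ x0 ∈ I0, Real.sqrt ‖φ (a + c0 * x0 + c1 * x1)‖ ^ 2 =
          (fun s => ‖φ s‖) ((a + c1 * x1) + c0 * x0) := by
        intro x0 _
        rw [Real.sq_sqrt (norm_nonneg _)]
        show ‖φ (a + c0 * x0 + c1 * x1)‖ = ‖φ ((a + c1 * x1) + c0 * x0)‖
        congr 2; ring
      rw [Finset.sum_congr rfl this]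
      refine sum_affine_le I0 S (a + c1 * x1) c0 h0 (fun s => ‖φ s‖) (fun s => norm_nonneg _) ?_
      intro x0 hx0
      have := hS x0 hx0 x1 hx1
      have e : a + c1 * x1 + c0 * x0 = a + c0 * x0 + c1 * x1 := by ring
      rw [e]; exact this
    have e4 : ∑ x0 ∈ I0, (‖K x0‖ * Real.sqrt ‖φ (a + c0 * x0 + c1 * x1)‖) ^ 2 =
        ∑ x0 ∈ I0, ‖K x0‖ ^ 2 * ‖φ (a + c0 * x0 + c1 * x1)‖ := by
      refine Finset.sum_congr rfl fun x0 _ => ?_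
      rw [mul_pow, Real.sq_sqrt (norm_nonneg _)]
    have hn : 0 ≤ ∑ x0 ∈ I0, ‖K x0‖ ^ 2 * ‖φ (a + c0 * x0 + c1 * x1)‖ :=
      Finset.sum_nonneg fun x0 _ => by positivity
    calc ‖∑ x0 ∈ I0, K x0 * φ (a + c0 * x0 + c1 * x1)‖ ^ 2
        ≤ (∑ x0 ∈ I0, (‖K x0‖ * Real.sqrt ‖φ (a + c0 * x0 + c1 * x1)‖) *
          Real.sqrt ‖φ (a + c0 * x0 + c1 * x1)‖) ^ 2 :=
          pow_le_pow_left₀ (norm_nonneg _) e1 2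
      _ ≤ _ := e2
      _ = (∑ x0 ∈ I0, ‖K x0‖ ^ 2 * ‖φ (a + c0 * x0 + c1 * x1)‖) *
          ∑ x0 ∈ I0, Real.sqrt ‖φ (a + c0 * x0 + c1 * x1)‖ ^ 2 := by rw [e4]
      _ ≤ _ := mul_le_mul_of_nonneg_left e3 hn
  refine (Finset.sum_le_sum hcs).trans ?_
  rw [← Finset.sum_mul, Finset.sum_comm, pow_two, ← mul_assoc]
  refine mul_le_mul_of_nonneg_right ?_ hP0
  rw [Finset.sum_mul]
  refine Finset.sum_le_sum fun x0 hx0 => ?_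
  rw [← Finset.mul_sum]
  refine mul_le_mul_of_nonneg_left ?_ (by positivity)
  exact sum_affine_le I1 S (a + c0 * x0) c1 h1 (fun s => ‖φ s‖) (fun s => norm_nonneg _)
    (fun x1 hx1 => hS x0 hx0 x1 hx1)

/-- `∑ |f(s+d) conj f(s+d')| ≤ ∑_{S'} |f|²` -/
theorem auto_le (S S' : Finset ℤ) (d d' : ℤ) (f : ℤ → ℂ) (h : ∀ s ∈ S, s + d ∈ S')
    (h' : ∀ s ∈ S, s + d' ∈ S') :
    ∑ s ∈ S, ‖f (s + d) * (starRingEnd ℂ) (f (s + d'))‖ ≤ ∑ y ∈ S', ‖f y‖ ^ 2 := by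
  have e : ∀ s ∈ S, ‖f (s + d) * (starRingEnd ℂ) (f (s + d'))‖ ≤
      (1 / 2) * ‖f (s + d)‖ ^ 2 + (1 / 2) * ‖f (s + d')‖ ^ 2 := by
    intro s _
    rw [norm_mul, RCLike.norm_conj]
    nlinarith [sq_nonneg (‖f (s + d)‖ - ‖f (s + d')‖)]
  refine (Finset.sum_le_sum e).trans ?_
  rw [Finset.sum_add_distrib, ← Finset.mul_sum, ← Finset.mul_sum]
  have k : ∀ d : ℤ, (∀ s ∈ S, s + d ∈ S') → ∑ s ∈ S, ‖f (s + d)‖ ^ 2 ≤ ∑ y ∈ S', ‖f y‖ ^ 2 := by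
    intro d hd
    have := sum_affine_le S S' d 1 one_ne_zero (fun y => ‖f y‖ ^ 2) (fun _ => by positivity)
      (fun x hx => by have := hd x hx; rwa [one_mul, add_comm])
    refine le_trans (le_of_eq ?_) this
    refine Finset.sum_congr rfl fun s _ => ?_
    show ‖f (s + d)‖ ^ 2 = ‖f (d + 1 * s)‖ ^ 2
    rw [one_mul, add_comm]
  have k1 := k d h
  have k2 := k d' h'
  linarith

/-- **edge bound of the arbitrary LINE letter** `X(x₀,x₁,x₃) = f(c₀x₀ + c₁x₁ + c₃x₃)`: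
`∑_{x₁} |∑_{x₀} K(x₀) X(x₀,x₁,z) conj X(x₀,x₁,z')|² ≤ (∑|K|²)(∑_{S'}|f|²)²`. -/
theorem edge (I0 I1 S S' : Finset ℤ) (c0 c1 : ℤ) (h0 : c0 ≠ 0) (h1 : c1 ≠ 0) (K f : ℤ → ℂ)
    (d d' : ℤ) (hS : ∀ x0 ∈ I0, ∀ x1 ∈ I1, c0 * x0 + c1 * x1 ∈ S)
    (h : ∀ s ∈ S, s + d ∈ S') (h' : ∀ s ∈ S, s + d' ∈ S') :
    ∑ x1 ∈ I1, ‖∑ x0 ∈ I0, K x0 * (f (c0 * x0 + c1 * x1 + d) *
        (starRingEnd ℂ) (f (c0 * x0 + c1 * x1 + d')))‖ ^ 2 ≤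
      (∑ x0 ∈ I0, ‖K x0‖ ^ 2) * (∑ y ∈ S', ‖f y‖ ^ 2) ^ 2 := by
  have hy := young I0 I1 S 0 c0 c1 h0 h1 K (fun s => f (s + d) * (starRingEnd ℂ) (f (s + d')))
    (fun x0 hx0 x1 hx1 => by simpa using hS x0 hx0 x1 hx1)
  simp only [zero_add] at hy
  refine hy.trans ?_
  refine mul_le_mul_of_nonneg_left ?_ (Finset.sum_nonneg fun _ _ => by positivity)
  exact pow_le_pow_left₀ (Finset.sum_nonneg fun _ _ => norm_nonneg _)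
    (auto_le S S' d d' f h h') 2

end Crest.Agent.R079.Yg259
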